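import Vale.Agent.Lib.P002.Gen

/-!
# Abelian fundamental groups with prescribed quasi-unipotent boundary classes

Semisimple representations of `ℤ^n` are the simultaneously diagonalizable ones.  Boundary
conditions `ρ(γ_l) ∈ C_l` for quasi-unipotent classes `C_l` cut out, among the diagonal
representations, finitely many cosets of a subtorus by torsion points, and the points with
coordinates in a finitely generated group of units of a number field are dense in each coset.
-/

noncomputable section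

namespace Vale.Agent.Lib.P002

open Matrix

variable {n r s : ℕ}

/-- The exponent vector of the `j`-th diagonal entry of the image of `γ`. -/
def bvec (γ : Fin n → ℤ) (j : Fin r) : Fin n × Fin r → ℤ :=
  fun x => if x.2 = j then γ x.1 else 0

/-- The exponent vector of the determinant of the image of the `i`-th generator. -/
def dvec (i : Fin n) : Fin n × Fin r → ℤ := fun x => if x.1 = i then 1 else 0

theorem mono_bvec (t : Fin n × Fin r → ℂˣ) (γ : Fin n → ℤ) (j : Fin r) :
    mono t (bvec γ j) = charOfUnits (fun i => t (i, j)) (Multiplicative.ofAdd γ) := by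
  unfold mono bvec
  rw [charOfUnits_apply, Fintype.prod_prod_type]
  refine Finset.prod_congr rfl fun i _ => ?_
  rw [Finset.prod_eq_single j]
  · simp
  · intro b _ hb
    simp [hb]
  · intro h
    exact absurd (Finset.mem_univ j) h

theorem mono_dvec (t : Fin n × Fin r → ℂˣ) (i : Fin n) :
    mono t (dvec i) = ∏ j, t (i, j) := by
  unfold mono dvec
  rw [Fintype.prod_prod_type, Finset.prod_eq_single i]
  · simp
  · intro b _ hb
    simp [hb]
  · intro h
    exact absurd (Finset.mem_univ i) h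

/-- The lattice of exponent vectors of the boundary and determinant conditions. -/
def blam (γ : Fin s → Fin n → ℤ) : Submodule ℤ (Fin n × Fin r → ℤ) :=
  Submodule.span ℤ (Set.range (fun x : Fin s × Fin r => bvec (γ x.1) x.2)
    ∪ Set.range (dvec (n := n) (r := r)))

/-- Density of the points with coordinates in a finitely generated group of units, in the set
of diagonal representations with prescribed images of the elements `γ l`. -/
theorem boundary_torus_density (γ : Fin s → Fin n → ℤ) (M : ℕ) (hM : 0 < M) :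
    ∃ N : ℕ, 0 < N ∧ ∀ tstar : Fin n × Fin r → ℂˣ,
      (∀ i, ∏ j, tstar (i, j) = 1) →
      (∀ l j, charOfUnits (fun i => tstar (i, j)) (Multiplicative.ofAdd (γ l)) ^ M = 1) →
      ∀ Φ : (Fin n × Fin r → ℂˣ) → ℂ, IsLaurentMv Φ →
        (∀ t : Fin n × Fin r → ℂˣ, (∀ i, ∏ j, t (i, j) = 1) →
          (∀ l j, charOfUnits (fun i => t (i, j)) (Multiplicative.ofAdd (γ l))
            = charOfUnits (fun i => tstar (i, j)) (Multiplicative.ofAdd (γ l))) →
          (∀ x, t x ∈ unitGroup N) → Φ t = 0) →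
        Φ tstar = 0 := by
  obtain ⟨N, hN, h⟩ := torus_density (blam (r := r) γ) M hM
  refine ⟨N, hN, fun tstar hdet hM' Φ hΦ h0 => ?_⟩
  apply h tstar ?_ Φ hΦ
  · intro t ht htu
    apply h0 t ?_ ?_ htu
    · intro i
      have h1 := ht (dvec i) (Submodule.subset_span (Or.inr ⟨i, rfl⟩))
      rw [mono_dvec, mono_dvec, hdet i] at h1
      exact h1
    · intro l j
      have h1 := ht (bvec (γ l) j) (Submodule.subset_span (Or.inl ⟨(l, j), rfl⟩))
      rw [mono_bvec, mono_bvec] at h1
      exact h1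
  · intro k hk
    induction hk using Submodule.span_induction with
    | mem x hx =>
      rcases hx with ⟨⟨l, j⟩, rfl⟩ | ⟨i, rfl⟩
      · rw [mono_bvec]
        exact hM' l j
      · rw [mono_dvec, hdet i, one_pow]
    | zero => rw [mono_zero, one_pow]
    | add x y _ _ hx hy => rw [mono_add, mul_pow, hx, hy, one_mul]
    | smul a x _ hx =>
      have h1 : (mono tstar x ^ a) ^ M = (mono tstar x ^ M) ^ a := by
        rw [← zpow_natCast, ← _root_.zpow_mul, mul_comm, _root_.zpow_mul, zpow_natCast]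
      rw [mono_smul, h1, hx, _root_.one_zpow]

/-- A homomorphism from `ℤ^n` to a commutative group is determined by the images of the basis
vectors. -/
theorem hom_apply_eq_charOfUnits (χ : Multiplicative (Fin n → ℤ) →* ℂˣ)
    (x : Multiplicative (Fin n → ℤ)) :
    χ x = charOfUnits (fun i => χ (Multiplicative.ofAdd (Pi.single i (1 : ℤ)))) x := by
  rw [charOfUnits_apply]
  have h : x = ∏ i, Multiplicative.ofAdd (Pi.single i (1 : ℤ) : Fin n → ℤ)
      ^ (Multiplicative.toAdd x i) := by
    apply Multiplicative.toAdd.injective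
    rw [toAdd_prod]
    funext j
    simp [Finset.sum_apply, Pi.single_apply]
  conv_lhs => rw [h]
  rw [map_prod]
  refine Finset.prod_congr rfl fun i _ => ?_
  rw [map_zpow]

/-- The diagonal entries of a diagonal representation. -/
def diagEntryHom (ρ : Multiplicative (Fin n → ℤ) →* Matrix.SpecialLinearGroup (Fin r) ℂ)
    (hρ : ∀ x, (ρ x).1.IsDiag) (j : Fin r) : Multiplicative (Fin n → ℤ) →* ℂ where
  toFun x := (ρ x).1 j j
  map_one' := by simp
  map_mul' x y := by
    rw [map_mul, Matrix.SpecialLinearGroup.coe_mul, Matrix.mul_apply, Finset.sum_eq_single j]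
    · intro b _ hb
      rw [hρ x (Ne.symm hb), zero_mul]
    · intro h
      exact absurd (Finset.mem_univ j) h

/-- The diagonal entries of the images of the basis vectors, as units. -/
def entryUnits (ρ : Multiplicative (Fin n → ℤ) →* Matrix.SpecialLinearGroup (Fin r) ℂ)
    (hρ : ∀ x, (ρ x).1.IsDiag) (i : Fin n) (j : Fin r) : ℂˣ :=
  (diagEntryHom ρ hρ j).toHomUnits (Multiplicative.ofAdd (Pi.single i (1 : ℤ)))

theorem entry_eq (ρ : Multiplicative (Fin n → ℤ) →* Matrix.SpecialLinearGroup (Fin r) ℂ)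
    (hρ : ∀ x, (ρ x).1.IsDiag) (x : Multiplicative (Fin n → ℤ)) (j : Fin r) :
    (ρ x).1 j j = ((charOfUnits (fun i => entryUnits ρ hρ i j) x : ℂˣ) : ℂ) := by
  have h1 := hom_apply_eq_charOfUnits ((diagEntryHom ρ hρ j).toHomUnits) x
  have h2 : (((diagEntryHom ρ hρ j).toHomUnits x : ℂˣ) : ℂ) = (ρ x).1 j j :=
    MonoidHom.coe_toHomUnits _ _
  rw [← h2, h1]
  rfl

theorem val_eq_diagonal (ρ : Multiplicative (Fin n → ℤ) →* Matrix.SpecialLinearGroup (Fin r) ℂ)
    (hρ : ∀ x, (ρ x).1.IsDiag) (x : Multiplicative (Fin n → ℤ)) :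
    (ρ x).1 = Matrix.diagonal
      (fun j => ((charOfUnits (fun i => entryUnits ρ hρ i j) x : ℂˣ) : ℂ)) := by
  rw [← (hρ x).diagonal_diag]
  congr 1
  funext j
  exact entry_eq ρ hρ x j

theorem entryUnits_prod (ρ : Multiplicative (Fin n → ℤ) →* Matrix.SpecialLinearGroup (Fin r) ℂ)
    (hρ : ∀ x, (ρ x).1.IsDiag) (i : Fin n) : ∏ j, entryUnits ρ hρ i j = 1 := by
  apply Units.ext
  rw [Units.coe_prod, Units.val_one]
  have h1 : ∀ j, ((entryUnits ρ hρ i j : ℂˣ) : ℂ)
      = (ρ (Multiplicative.ofAdd (Pi.single i (1 : ℤ)))).1 j j :=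
    fun j => MonoidHom.coe_toHomUnits _ _
  simp only [h1]
  have h2 := (ρ (Multiplicative.ofAdd (Pi.single i (1 : ℤ)))).2
  rw [← (hρ _).diagonal_diag, Matrix.det_diagonal] at h2
  exact h2

theorem eq_diagRep (ρ : Multiplicative (Fin n → ℤ) →* Matrix.SpecialLinearGroup (Fin r) ℂ)
    (hρ : ∀ x, (ρ x).1.IsDiag) (x : Multiplicative (Fin n → ℤ)) :
    ρ x = diagRep (entryUnits ρ hρ) (entryUnits_prod ρ hρ) x := by
  apply Subtype.ext
  rw [diagRep_apply]
  exact val_eq_diagonal ρ hρ x

theorem diagRep_isDiag (d : Fin n → Fin r → ℂˣ) (hd : ∀ i, ∏ j, d i j = 1)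
    (x : Multiplicative (Fin n → ℤ)) : (diagRep d hd x).1.IsDiag := by
  rw [diagRep_apply]
  exact Matrix.isDiag_diagonal _

theorem diagRep_integral' {N : ℕ} (hN : 0 < N) (d : Fin n → Fin r → ℂˣ)
    (hd : ∀ i, ∏ j, d i j = 1) (hU : ∀ i j, d i j ∈ unitGroup N)
    (x : Multiplicative (Fin n → ℤ)) (a b : Fin r) :
    (diagRep d hd x).1 a b ∈ fieldLN N ∧ IsIntegral ℤ ((diagRep d hd x).1 a b) := by
  rw [diagRep_apply]
  by_cases hab : a = b
  · subst hab
    rw [Matrix.diagonal_apply_eq]
    exact (unitGroup_spec hN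
      (charOfUnits_mem (fun i => d i a) (unitGroup N) (fun i => hU i a) x)).1
  · rw [Matrix.diagonal_apply_ne _ hab]
    exact ⟨zero_mem _, isIntegral_zero⟩


/-- The conjugate of a representation. -/
def conjRep (g : Matrix.SpecialLinearGroup (Fin r) ℂ)
    (ρ : Multiplicative (Fin n → ℤ) →* Matrix.SpecialLinearGroup (Fin r) ℂ) :
    Multiplicative (Fin n → ℤ) →* Matrix.SpecialLinearGroup (Fin r) ℂ :=
  (MulAut.conj g).toMonoidHom.comp ρ

theorem conjRep_apply (g : Matrix.SpecialLinearGroup (Fin r) ℂ)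
    (ρ : Multiplicative (Fin n → ℤ) →* Matrix.SpecialLinearGroup (Fin r) ℂ)
    (x : Multiplicative (Fin n → ℤ)) : conjRep g ρ x = g * ρ x * g⁻¹ := rfl

/-- **Abelian fundamental groups with boundary conditions.**  For elements `γ l` of `ℤ^n` and
quasi-unipotent matrices `c l`, there is a number field `L` such that every invariant polynomial
vanishing at the diagonalizable representations with entries in the ring of integers of `L` and
`ρ(γ l)` conjugate to `c l` vanishes at all diagonalizable representations with `ρ(γ l)`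
conjugate to `c l`. -/
theorem density_abelian_boundary (n r s : ℕ) (γ : Fin s → Fin n → ℤ)
    (c : Fin s → Matrix.SpecialLinearGroup (Fin r) ℂ)
    (hc : ∀ l, ∃ m : ℕ, 0 < m ∧ ∀ (μ : ℂ) (v : Fin r → ℂ), v ≠ 0 →
      (c l).1.mulVec v = μ • v → μ ^ m = 1) :
    ∃ L : IntermediateField ℚ ℂ, FiniteDimensional ℚ L ∧
      ∀ F : MvPolynomial (Fin n × Fin r × Fin r) ℂ,
        (∀ (ρ : Multiplicative (Fin n → ℤ) →* Matrix.SpecialLinearGroup (Fin r) ℂ)
            (h : Matrix.SpecialLinearGroup (Fin r) ℂ),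
            MvPolynomial.eval
                (fun p => (h * ρ (Multiplicative.ofAdd (Pi.single p.1 (1 : ℤ))) * h⁻¹).1
                  p.2.1 p.2.2) F
              = MvPolynomial.eval
                (fun p => (ρ (Multiplicative.ofAdd (Pi.single p.1 (1 : ℤ)))).1 p.2.1 p.2.2) F) →
        (∀ ρ : Multiplicative (Fin n → ℤ) →* Matrix.SpecialLinearGroup (Fin r) ℂ,
            (∃ g : Matrix.SpecialLinearGroup (Fin r) ℂ, ∀ x, (g * ρ x * g⁻¹).1.IsDiag) →
            (∀ l, ∃ k : Matrix.SpecialLinearGroup (Fin r) ℂ,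
              k * ρ (Multiplicative.ofAdd (γ l)) * k⁻¹ = c l) →
            (∀ x a b, (ρ x).1 a b ∈ L ∧ IsIntegral ℤ ((ρ x).1 a b)) →
            MvPolynomial.eval
              (fun p => (ρ (Multiplicative.ofAdd (Pi.single p.1 (1 : ℤ)))).1 p.2.1 p.2.2) F = 0) →
        ∀ ρ : Multiplicative (Fin n → ℤ) →* Matrix.SpecialLinearGroup (Fin r) ℂ,
          (∃ g : Matrix.SpecialLinearGroup (Fin r) ℂ, ∀ x, (g * ρ x * g⁻¹).1.IsDiag) →
          (∀ l, ∃ k : Matrix.SpecialLinearGroup (Fin r) ℂ,
            k * ρ (Multiplicative.ofAdd (γ l)) * k⁻¹ = c l) →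
          MvPolynomial.eval
            (fun p => (ρ (Multiplicative.ofAdd (Pi.single p.1 (1 : ℤ)))).1 p.2.1 p.2.2) F = 0 := by
  classical
  choose m hm0 hm using hc
  have hMpos : 0 < ∏ l, m l := Finset.prod_pos fun l _ => hm0 l
  obtain ⟨N, hN, hdens⟩ := boundary_torus_density (r := r) γ (∏ l, m l) hMpos
  refine ⟨fieldLN N, finiteDimensional_fieldLN hN, ?_⟩
  intro F Hinv Hint ρ ⟨g, hg⟩ hbd
  have hdiag : ∀ x, (conjRep g ρ x).1.IsDiag := hg
  have hbd' : ∀ l, ∃ k : Matrix.SpecialLinearGroup (Fin r) ℂ,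
      k * conjRep g ρ (Multiplicative.ofAdd (γ l)) * k⁻¹ = c l := by
    intro l
    obtain ⟨k, hk⟩ := hbd l
    refine ⟨k * g⁻¹, ?_⟩
    rw [← hk, conjRep_apply]
    group
  have hF : MvPolynomial.eval
      (fun p => (conjRep g ρ (Multiplicative.ofAdd (Pi.single p.1 (1 : ℤ)))).1 p.2.1 p.2.2) F
      = MvPolynomial.eval
        (fun p => (ρ (Multiplicative.ofAdd (Pi.single p.1 (1 : ℤ)))).1 p.2.1 p.2.2) F :=
    Hinv ρ g
  rw [← hF]
  have hd := entryUnits_prod (conjRep g ρ) hdiag
  have hρd : ∀ x, conjRep g ρ x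
      = diagRep (entryUnits (conjRep g ρ) hdiag) hd x := eq_diagRep (conjRep g ρ) hdiag
  have hco : ∀ (d' : Fin n → Fin r → ℂˣ) (hd' : ∀ i, ∏ j, d' i j = 1),
      (fun p : Fin n × Fin r × Fin r =>
        (diagRep d' hd' (Multiplicative.ofAdd (Pi.single p.1 (1 : ℤ)))).1 p.2.1 p.2.2)
      = tupleCoords fun i => Matrix.diagonal fun j => ((d' i j : ℂˣ) : ℂ) := by
    intro d' hd'
    funext p
    rw [diagRep_gen]
    rfl
  have hco' : (fun p : Fin n × Fin r × Fin r =>
      (conjRep g ρ (Multiplicative.ofAdd (Pi.single p.1 (1 : ℤ)))).1 p.2.1 p.2.2)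
      = tupleCoords fun i => Matrix.diagonal fun j =>
          ((entryUnits (conjRep g ρ) hdiag i j : ℂˣ) : ℂ) := by
    rw [← hco _ hd]
    funext p
    rw [hρd]
  rw [hco']
  have hroot : ∀ l j, charOfUnits (fun i => entryUnits (conjRep g ρ) hdiag i j)
      (Multiplicative.ofAdd (γ l)) ^ (∏ l, m l) = 1 := by
    intro l j
    obtain ⟨k, hk⟩ := hbd' l
    have h1 : c l * k = k * conjRep g ρ (Multiplicative.ofAdd (γ l)) := by
      rw [← hk]
      group
    have h2 : (c l).1 * k.1 = k.1 * (conjRep g ρ (Multiplicative.ofAdd (γ l))).1 := by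
      rw [← Matrix.SpecialLinearGroup.coe_mul, ← Matrix.SpecialLinearGroup.coe_mul, h1]
    rw [val_eq_diagonal (conjRep g ρ) hdiag] at h2
    have hv : (c l).1.mulVec (k.1.mulVec (Pi.single j 1))
        = ((charOfUnits (fun i => entryUnits (conjRep g ρ) hdiag i j)
            (Multiplicative.ofAdd (γ l)) : ℂˣ) : ℂ) • k.1.mulVec (Pi.single j 1) := by
      rw [Matrix.mulVec_mulVec, h2, ← Matrix.mulVec_mulVec, Matrix.diagonal_mulVec_single,
        mul_one, ← Matrix.mulVec_smul]
      congr 1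
      funext a
      simp [Pi.single_apply]
    have hne : k.1.mulVec (Pi.single j (1 : ℂ)) ≠ 0 := by
      intro h0
      have h3 : (k⁻¹).1.mulVec (k.1.mulVec (Pi.single j (1 : ℂ))) = Pi.single j 1 := by
        rw [Matrix.mulVec_mulVec, ← Matrix.SpecialLinearGroup.coe_mul, inv_mul_cancel,
          Matrix.SpecialLinearGroup.coe_one, Matrix.one_mulVec]
      rw [h0, Matrix.mulVec_zero] at h3
      have h4 := congrFun h3 j
      simp at h4
    have h4 := hm l _ _ hne hv
    have h5 : charOfUnits (fun i => entryUnits (conjRep g ρ) hdiag i j)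
        (Multiplicative.ofAdd (γ l)) ^ m l = 1 := by
      apply Units.ext
      rw [Units.val_pow_eq_pow_val, h4, Units.val_one]
    obtain ⟨e, he⟩ := Finset.dvd_prod_of_mem m (Finset.mem_univ l)
    rw [he, pow_mul, h5, one_pow]
  have hlaurent : IsLaurentMv (fun t : Fin n × Fin r → ℂˣ => MvPolynomial.eval
      (tupleCoords fun i => Matrix.diagonal fun j => ((t (i, j) : ℂˣ) : ℂ)) F) := by
    apply IsLaurentMv.eval_mvPolynomial
    rintro ⟨i, a, b⟩
    show IsLaurentMv (fun t : Fin n × Fin r → ℂˣ =>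
      (Matrix.diagonal fun j => ((t (i, j) : ℂˣ) : ℂ)) a b)
    by_cases hab : a = b
    · simp only [Matrix.diagonal_apply, hab, if_true]
      exact isLaurentMv_coord (i, b)
    · simp only [Matrix.diagonal_apply, hab, if_false]
      exact isLaurentMv_const 0
  refine hdens (fun x => entryUnits (conjRep g ρ) hdiag x.1 x.2) hd hroot _ hlaurent ?_
  intro t htdet htbd htu
  have h := Hint (diagRep (fun i j => t (i, j)) htdet)
    ⟨1, fun x => by simpa using diagRep_isDiag (fun i j => t (i, j)) htdet x⟩ ?_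
    (fun x a b => diagRep_integral' hN _ htdet (fun i j => htu (i, j)) x a b)
  · rw [hco] at h
    exact h
  · intro l
    obtain ⟨k, hk⟩ := hbd' l
    refine ⟨k, ?_⟩
    rw [← hk]
    congr 2
    rw [hρd]
    apply Subtype.ext
    rw [diagRep_apply, diagRep_apply]
    congr 1
    funext j
    rw [htbd l j]

end Vale.Agent.Lib.P002

end
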