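import Mathlib

/-!
# Diagonalization of matrices with a scalar power

A complex square matrix `X` with `X ^ q = y • 1`, `y ≠ 0`, `q ≥ 1`, is diagonalizable, and the
diagonal entries `d i` satisfy `d i ^ q = y`.
-/

open Polynomial Module

noncomputable section

namespace Vale.Agent.Lib.P002

theorem exists_diagonalization {κ : Type*} [Fintype κ] [DecidableEq κ] (Xm : Matrix κ κ ℂ)
    (q : ℕ) (hq : 0 < q) (y : ℂ) (hy : y ≠ 0) (hX : Xm ^ q = y • (1 : Matrix κ κ ℂ)) :
    ∃ (c c' : Matrix κ κ ℂ) (d : κ → ℂ), c * c' = 1 ∧ c' * c = 1 ∧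
      Xm = c * Matrix.diagonal d * c' ∧ ∀ i, d i ^ q = y := by
  classical
  let f : Module.End ℂ (κ → ℂ) := Matrix.toLin' Xm
  have hfq : f ^ q = y • (1 : Module.End ℂ (κ → ℂ)) := by
    show (Matrix.toLin' Xm) ^ q = _
    rw [← Matrix.toLin'_pow, hX, map_smul, Matrix.toLin'_one]
    rfl
  have hsep : (X ^ q - C y : ℂ[X]).Separable :=
    Polynomial.separable_X_pow_sub_C y (by exact_mod_cast hq.ne') hy
  have haeval : aeval f (X ^ q - C y : ℂ[X]) = 0 := by
    rw [map_sub, map_pow, aeval_X, aeval_C, hfq]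
    simp [Algebra.algebraMap_eq_smul_one]
  have hss : f.IsSemisimple :=
    Module.End.isSemisimple_of_squarefree_aeval_eq_zero hsep.squarefree haeval
  have htop := hss.iSup_eigenspace_eq_top
  have hind := Module.End.eigenspaces_iSupIndep f
  have hint : DirectSum.IsInternal (fun μ : ℂ => f.eigenspace μ) :=
    DirectSum.isInternal_submodule_of_iSupIndep_of_iSup_eq_top hind htop
  let B := hint.collectedBasis (fun μ => Module.finBasis ℂ (f.eigenspace μ))
  let e := B.indexEquiv (Pi.basisFun ℂ κ)
  let B' : Basis κ ℂ (κ → ℂ) := B.reindex e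
  let d : κ → ℂ := fun k => (e.symm k).1
  have hmem : ∀ k, B' k ∈ f.eigenspace (d k) := by
    intro k
    show B.reindex e k ∈ _
    rw [Basis.reindex_apply]
    exact hint.collectedBasis_mem _ (e.symm k)
  have hev : ∀ k, Xm.mulVec (B' k) = d k • B' k := by
    intro k
    have := Module.End.mem_eigenspace_iff.mp (hmem k)
    simpa [f, Matrix.toLin'_apply] using this
  let c : Matrix κ κ ℂ := (Pi.basisFun ℂ κ).toMatrix B'
  let c' : Matrix κ κ ℂ := B'.toMatrix (Pi.basisFun ℂ κ)
  have hcc' : c * c' = 1 := Basis.toMatrix_mul_toMatrix_flip _ _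
  have hc'c : c' * c = 1 := Basis.toMatrix_mul_toMatrix_flip _ _
  have hcol : ∀ i k, c i k = B' k i := by
    intro i k
    simp [c, Basis.toMatrix_apply]
  have hXc : Xm * c = c * Matrix.diagonal d := by
    ext i k
    rw [Matrix.mul_diagonal, hcol]
    have h1 : (Xm * c) i k = (Xm.mulVec (B' k)) i := by
      simp only [Matrix.mul_apply, Matrix.mulVec, dotProduct, hcol]
    rw [h1, hev]
    show d k * B' k i = B' k i * d k
    exact mul_comm _ _
  refine ⟨c, c', d, hcc', hc'c, ?_, ?_⟩
  · calc Xm = Xm * (c * c') := by rw [hcc', mul_one]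
      _ = c * Matrix.diagonal d * c' := by rw [← mul_assoc, hXc]
  · intro k
    have hne : B' k ≠ 0 := B'.ne_zero k
    have h1 : (f ^ q) (B' k) = d k ^ q • B' k := by
      have hfk : f (B' k) = d k • B' k := Module.End.mem_eigenspace_iff.mp (hmem k)
      have : ∀ m : ℕ, (f ^ m) (B' k) = d k ^ m • B' k := by
        intro m
        induction m with
        | zero => simp
        | succ m ih =>
          rw [pow_succ, Module.End.mul_apply, hfk, map_smul, ih, smul_smul, pow_succ,
            mul_comm]
      exact this q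
    rw [hfq] at h1
    have h2 : (y - d k ^ q) • B' k = 0 := by
      rw [sub_smul, ← h1]
      simp
    rcases smul_eq_zero.mp h2 with h | h
    · exact (sub_eq_zero.mp h).symm
    · exact absurd h hne

end Vale.Agent.Lib.P002

end
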