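import Vale.Agent.Lib.P002.Gen
import Vale.Agent.Lib.P002.Diag

/-!
# Block-diagonal matrices with respect to a labelling of the index set

For a labelling `b : ι → β`, a family of square matrices on the fibres of `b` is assembled into
a matrix on `ι` which is block diagonal with respect to `b`.  Every matrix commuting with a
diagonal matrix constant on the fibres is of this form, and the assembled matrices with
invertible blocks are products of diagonal matrices and of transvections inside the blocks.
-/

noncomputable section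

namespace Vale.Agent.Lib.P002

variable {ι β : Type*} [Fintype ι] [DecidableEq ι] [Fintype β] [DecidableEq β] (b : ι → β)

/-- The assembly of a family of blocks on the fibres of `b` into a matrix on `ι`. -/
def asm (c : ∀ y : β, Matrix {i : ι // b i = y} {i : ι // b i = y} ℂ) : Matrix ι ι ℂ :=
  (Matrix.blockDiagonal' c).submatrix (Equiv.sigmaFiberEquiv b).symm
    (Equiv.sigmaFiberEquiv b).symm

/-- The blocks of a matrix on `ι`. -/
def blk (X : Matrix ι ι ℂ) (y : β) : Matrix {i : ι // b i = y} {i : ι // b i = y} ℂ :=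
  fun i j => X i.1 j.1

omit [Fintype ι] [DecidableEq ι] [Fintype β] in
theorem bd_apply (c : ∀ y : β, Matrix {i : ι // b i = y} {i : ι // b i = y} ℂ) (y1 y2 : β)
    (i j : ι) (hi : b i = y1) (hj : b j = y2) :
    Matrix.blockDiagonal' c ⟨y1, ⟨i, hi⟩⟩ ⟨y2, ⟨j, hj⟩⟩
      = if h : y1 = y2 then c y1 ⟨i, hi⟩ ⟨j, hj.trans h.symm⟩ else 0 := by
  by_cases h : y1 = y2
  · subst h
    rw [Matrix.blockDiagonal'_apply_eq]
    simp
  · rw [Matrix.blockDiagonal'_apply_ne _ _ _ h]
    simp [h]

omit [Fintype ι] [DecidableEq ι] [Fintype β] in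
theorem asm_apply (c : ∀ y : β, Matrix {i : ι // b i = y} {i : ι // b i = y} ℂ) (i j : ι) :
    asm b c i j = if h : b i = b j then c (b i) ⟨i, rfl⟩ ⟨j, h.symm⟩ else 0 :=
  bd_apply b c (b i) (b j) i j rfl rfl

omit [DecidableEq ι] in
theorem asm_mul (c c' : ∀ y : β, Matrix {i : ι // b i = y} {i : ι // b i = y} ℂ) :
    asm b (c * c') = asm b c * asm b c' := by
  unfold asm
  rw [Matrix.submatrix_mul_equiv]
  congr 1
  exact Matrix.blockDiagonal'_mul c c'

omit [Fintype ι] [Fintype β] in
theorem asm_one : asm b (1 : ∀ y : β, Matrix {i : ι // b i = y} {i : ι // b i = y} ℂ) = 1 := by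
  unfold asm
  rw [Matrix.blockDiagonal'_one, Matrix.submatrix_one_equiv]

omit [Fintype ι] [Fintype β] in
theorem asm_diagonal (d : ∀ y : β, {i : ι // b i = y} → ℂ) :
    asm b (fun y => Matrix.diagonal (d y)) = Matrix.diagonal fun i => d (b i) ⟨i, rfl⟩ := by
  unfold asm
  rw [Matrix.blockDiagonal'_diagonal, Matrix.submatrix_diagonal_equiv]
  rfl

theorem asm_blk (X : Matrix ι ι ℂ) (hX : ∀ i j, b i ≠ b j → X i j = 0) :
    asm b (blk b X) = X := by
  ext i j
  rw [asm_apply]
  by_cases h : b i = b j
  · simp only [h, dif_pos]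
    rfl
  · simp only [h, dif_neg, not_false_eq_true]
    exact (hX i j h).symm

theorem blk_asm (c : ∀ y : β, Matrix {i : ι // b i = y} {i : ι // b i = y} ℂ) :
    blk b (asm b c) = c := by
  funext y
  ext ⟨i, hi⟩ ⟨j, hj⟩
  subst hi
  show asm b c i j = _
  rw [asm_apply]
  simp [hj]

theorem asm_injective :
    Function.Injective (asm b : (∀ y : β, Matrix {i : ι // b i = y} {i : ι // b i = y} ℂ) → _) := by
  intro c c' h
  rw [← blk_asm b c, ← blk_asm b c', h]

theorem asm_mulSingle_apply (y : β) (X : Matrix {i : ι // b i = y} {i : ι // b i = y} ℂ)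
    (i j : ι) :
    asm b (Pi.mulSingle y X) i j
      = if h : b i = y ∧ b j = y then X ⟨i, h.1⟩ ⟨j, h.2⟩ else if i = j then 1 else 0 := by
  rw [asm_apply]
  by_cases h : b i = b j
  · rw [dif_pos h]
    by_cases hy : b i = y
    · have hj : b j = y := h ▸ hy
      rw [dif_pos ⟨hy, hj⟩]
      subst hy
      rw [Pi.mulSingle_eq_same]
    · have hn : ¬ (b i = y ∧ b j = y) := fun hh => hy hh.1
      rw [dif_neg hn, Pi.mulSingle_eq_of_ne hy, Matrix.one_apply]
      simp [Subtype.ext_iff]
  · have hij : i ≠ j := fun hij => h (hij ▸ rfl)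
    have hy : ¬ (b i = y ∧ b j = y) := fun hy => h (hy.1.trans hy.2.symm)
    rw [dif_neg h, dif_neg hy, if_neg hij]

theorem asm_mulSingle_transvection (y : β) (i j : {i : ι // b i = y}) (t : ℂ) :
    asm b (Pi.mulSingle y (Matrix.transvection i j t)) = Matrix.transvection i.1 j.1 t := by
  ext a a'
  rw [asm_mulSingle_apply, transvection_apply]
  by_cases h : b a = y ∧ b a' = y
  · simp only [h, and_self, dif_pos]
    rw [transvection_apply]
    simp [Subtype.ext_iff]
  · simp only [h, dif_neg, not_false_eq_true]
    have h2 : ¬ (i.1 = a ∧ j.1 = a') := by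
      rintro ⟨h1, h2⟩
      exact h ⟨h1 ▸ i.2, h2 ▸ j.2⟩
    simp [h2]

theorem asm_mulSingle_diagonal (y : β) (D : {i : ι // b i = y} → ℂ) :
    asm b (Pi.mulSingle y (Matrix.diagonal D))
      = Matrix.diagonal fun i => if h : b i = y then D ⟨i, h⟩ else 1 := by
  ext a a'
  rw [asm_mulSingle_apply, Matrix.diagonal_apply]
  by_cases h : b a = y ∧ b a' = y
  · simp only [h, and_self, dif_pos]
    rw [Matrix.diagonal_apply]
    simp [Subtype.ext_iff]
  · simp only [h, dif_neg, not_false_eq_true]
    by_cases haa : a = a'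
    · subst haa
      have hy : ¬ b a = y := fun hy => h ⟨hy, hy⟩
      simp [hy]
    · simp [haa]

/-- A multiplicatively closed set of matrices containing the invertible diagonal matrices and
the transvections inside the blocks contains every assembled matrix with invertible blocks. -/
theorem asm_mem (Z : Set (Matrix ι ι ℂ)) (h1 : (1 : Matrix ι ι ℂ) ∈ Z)
    (hmul : ∀ x ∈ Z, ∀ y ∈ Z, x * y ∈ Z)
    (hdiag : ∀ d : ι → ℂˣ, (Matrix.diagonal fun i => ((d i : ℂˣ) : ℂ)) ∈ Z)
    (htr : ∀ i j : ι, i ≠ j → b i = b j → ∀ t : ℂ, Matrix.transvection i j t ∈ Z)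
    (c : ∀ y : β, Matrix {i : ι // b i = y} {i : ι // b i = y} ℂ) (hc : ∀ y, (c y).det ≠ 0) :
    asm b c ∈ Z := by
  have single : ∀ (y : β) (X : Matrix {i : ι // b i = y} {i : ι // b i = y} ℂ), X.det ≠ 0 →
      asm b (Pi.mulSingle y X) ∈ Z := by
    intro y X hX
    refine Matrix.diagonal_transvection_induction_of_det_ne_zero
      (fun X => asm b (Pi.mulSingle y X) ∈ Z) X hX ?_ ?_ ?_
    · intro D hD
      rw [Matrix.det_diagonal] at hD
      have hD' : ∀ i, D i ≠ 0 := fun i => by
        intro h0
        exact hD (Finset.prod_eq_zero (Finset.mem_univ i) h0)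
      show asm b (Pi.mulSingle y (Matrix.diagonal D)) ∈ Z
      rw [asm_mulSingle_diagonal]
      have hne : ∀ i : ι, (if h : b i = y then D ⟨i, h⟩ else 1) ≠ 0 := by
        intro i
        by_cases h : b i = y
        · simp only [h, dif_pos]
          exact hD' _
        · simp only [h, dif_neg, not_false_eq_true]
          exact one_ne_zero
      exact hdiag fun i => Units.mk0 _ (hne i)
    · intro t
      show asm b (Pi.mulSingle y t.toMatrix) ∈ Z
      rw [Matrix.TransvectionStruct.toMatrix, asm_mulSingle_transvection]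
      refine htr _ _ ?_ (t.i.2.trans t.j.2.symm) _
      intro h
      exact t.hij (Subtype.ext h)
    · intro A B _ _ hA hB
      show asm b (Pi.mulSingle y (A * B)) ∈ Z
      have : (Pi.mulSingle y (A * B) :
            ∀ y : β, Matrix {i : ι // b i = y} {i : ι // b i = y} ℂ)
          = Pi.mulSingle y A * Pi.mulSingle y B :=
        Pi.mulSingle_mul (f := fun y : β => Matrix {i : ι // b i = y} {i : ι // b i = y} ℂ)
          y A B
      rw [this, asm_mul]
      exact hmul _ hA _ hB
  have key : ∀ T : Finset β, ∀ c : ∀ y : β, Matrix {i : ι // b i = y} {i : ι // b i = y} ℂ,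
      (∀ y, y ∉ T → c y = 1) → (∀ y, (c y).det ≠ 0) → asm b c ∈ Z := by
    intro T
    induction T using Finset.induction_on with
    | empty =>
      intro c hc1 _
      have : c = 1 := funext fun y => hc1 y (Finset.notMem_empty y)
      rw [this, asm_one]
      exact h1
    | insert a T ha ih =>
      intro c hc1 hdet
      have hsplit : c = Function.update c a 1 * Pi.mulSingle a (c a) := by
        funext y
        by_cases hy : y = a
        · subst hy
          simp
        · simp [Function.update_of_ne hy, Pi.mulSingle_eq_of_ne hy]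
      rw [hsplit, asm_mul]
      refine hmul _ (ih _ ?_ ?_) _ (single a (c a) (hdet a))
      · intro y hy
        by_cases hya : y = a
        · subst hya
          simp
        · rw [Function.update_of_ne hya]
          exact hc1 y (by simp [hya, hy])
      · intro y
        by_cases hya : y = a
        · subst hya
          simp
        · rw [Function.update_of_ne hya]
          exact hdet y
  exact key Finset.univ c (fun y hy => absurd (Finset.mem_univ y) hy) hc

end Vale.Agent.Lib.P002

end
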