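import Vale.Agent.Lib.P002.TorusKnot

/-!
# Degeneration of a matrix to its block diagonal part along an invariant subspace

`E` is an idempotent matrix and `E' = 1 - E`.  For matrices `X` with `E' * X * E = 0` (the range
of `E` is invariant), the block diagonal part `gr E E' X = E X E + E' X E'` is multiplicative,
and the family `fam E E' X s = gr E E' X + s • E X E'` consists of conjugates of `X` for
`s ≠ 0`.
-/

open Polynomial

noncomputable section

namespace Vale.Agent.Lib.P002

variable {κ : Type*} [Fintype κ] [DecidableEq κ]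

/-- The block diagonal part. -/
def gr (E E' X : Matrix κ κ ℂ) : Matrix κ κ ℂ := E * X * E + E' * X * E'

/-- The degenerating family. -/
def fam (E E' X : Matrix κ κ ℂ) (s : ℂ) : Matrix κ κ ℂ := gr E E' X + s • (E * X * E')

theorem fam_zero (E E' X : Matrix κ κ ℂ) : fam E E' X 0 = gr E E' X := by
  simp [fam]

theorem gr_add (E E' X Y : Matrix κ κ ℂ) : gr E E' (X + Y) = gr E E' X + gr E E' Y := by
  simp only [gr, Matrix.mul_add, Matrix.add_mul]
  abel

theorem gr_smul (E E' X : Matrix κ κ ℂ) (a : ℂ) : gr E E' (a • X) = a • gr E E' X := by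
  simp only [gr, Matrix.mul_smul, Matrix.smul_mul, smul_add]

section idem

variable {E E' : Matrix κ κ ℂ} (hsum : E + E' = 1) (hEE : E * E = E)

include hsum hEE

theorem idem_EE' : E * E' = 0 := by
  have h : E' = 1 - E := eq_sub_of_add_eq' hsum
  rw [h, Matrix.mul_sub, Matrix.mul_one, hEE, sub_self]

theorem idem_E'E : E' * E = 0 := by
  have h : E' = 1 - E := eq_sub_of_add_eq' hsum
  rw [h, Matrix.sub_mul, Matrix.one_mul, hEE, sub_self]

theorem idem_E'E' : E' * E' = E' := by
  have h : E' = 1 - E := eq_sub_of_add_eq' hsum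
  have h2 := idem_E'E hsum hEE
  calc E' * E' = E' * (1 - E) := by rw [← h]
    _ = E' := by rw [Matrix.mul_sub, Matrix.mul_one, h2, sub_zero]

theorem gr_one : gr E E' (1 : Matrix κ κ ℂ) = 1 := by
  simp only [gr, Matrix.mul_one]
  rw [hEE, idem_E'E' hsum hEE, hsum]

theorem conj_mul_conj (s t : ℂ) (hst : s * t = 1) : (E + s • E') * (E + t • E') = 1 := by
  have h1 : (E + s • E') * (E + t • E')
      = E * E + t • (E * E') + s • (E' * E) + (s * t) • (E' * E') := by
    simp only [Matrix.add_mul, Matrix.mul_add, Matrix.mul_smul, Matrix.smul_mul]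
    module
  rw [h1, hEE, idem_EE' hsum hEE, idem_E'E hsum hEE, idem_E'E' hsum hEE, hst, one_smul,
    smul_zero, smul_zero, add_zero, add_zero]
  exact hsum

theorem fam_eq_conj {X : Matrix κ κ ℂ} (hX : E' * X * E = 0) (s t : ℂ) (hst : t * s = 1) :
    (E + t • E') * X * (E + s • E') = fam E E' X s := by
  have h1 : (E + t • E') * X * (E + s • E')
      = E * X * E + s • (E * X * E') + t • (E' * X * E) + (t * s) • (E' * X * E') := by
    simp only [Matrix.add_mul, Matrix.mul_add, Matrix.mul_smul, Matrix.smul_mul]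
    module
  rw [h1, hX, hst, one_smul, smul_zero, add_zero]
  simp only [fam, gr]
  abel

theorem inv_mul {X Y : Matrix κ κ ℂ} (hX : E' * X * E = 0) (hY : E' * Y * E = 0) :
    E' * (X * Y) * E = 0 := by
  have h1 : X * Y = X * E * Y + X * E' * Y := by
    rw [← Matrix.add_mul, ← Matrix.mul_add, hsum, Matrix.mul_one]
  rw [h1, Matrix.mul_add, Matrix.add_mul]
  have h2 : E' * (X * E * Y) * E = E' * X * E * (Y * E) := by
    simp only [Matrix.mul_assoc]
  have h3 : E' * (X * E' * Y) * E = E' * X * (E' * Y * E) := by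
    simp only [Matrix.mul_assoc]
  rw [h2, h3, hX, hY, Matrix.zero_mul, Matrix.mul_zero, add_zero]

theorem gr_mul {X Y : Matrix κ κ ℂ} (hX : E' * X * E = 0) (hY : E' * Y * E = 0) :
    gr E E' (X * Y) = gr E E' X * gr E E' Y := by
  have h1 : X * Y = X * E * Y + X * E' * Y := by
    rw [← Matrix.add_mul, ← Matrix.mul_add, hsum, Matrix.mul_one]
  have a1 : E * (X * Y) * E = E * X * E * (E * Y * E) := by
    have e1 : E * X * E * (E * Y * E) = E * X * (E * E) * Y * E := by
      simp only [Matrix.mul_assoc]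
    rw [e1, hEE, h1, Matrix.mul_add, Matrix.add_mul]
    have e2 : E * (X * E' * Y) * E = E * X * (E' * Y * E) := by
      simp only [Matrix.mul_assoc]
    rw [e2, hY, Matrix.mul_zero, add_zero]
    simp only [Matrix.mul_assoc]
  have a2 : E' * (X * Y) * E' = E' * X * E' * (E' * Y * E') := by
    have e1 : E' * X * E' * (E' * Y * E') = E' * X * (E' * E') * Y * E' := by
      simp only [Matrix.mul_assoc]
    rw [e1, idem_E'E' hsum hEE, h1, Matrix.mul_add, Matrix.add_mul]
    have e2 : E' * (X * E * Y) * E' = E' * X * E * (Y * E') := by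
      simp only [Matrix.mul_assoc]
    rw [e2, hX, Matrix.zero_mul, zero_add]
    simp only [Matrix.mul_assoc]
  have a3 : E * X * E * (E' * Y * E') = 0 := by
    have e1 : E * X * E * (E' * Y * E') = E * X * (E * E') * Y * E' := by
      simp only [Matrix.mul_assoc]
    rw [e1, idem_EE' hsum hEE, Matrix.mul_zero, Matrix.zero_mul, Matrix.zero_mul]
  have a4 : E' * X * E' * (E * Y * E) = 0 := by
    have e1 : E' * X * E' * (E * Y * E) = E' * X * (E' * E) * Y * E := by
      simp only [Matrix.mul_assoc]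
    rw [e1, idem_E'E hsum hEE, Matrix.mul_zero, Matrix.zero_mul, Matrix.zero_mul]
  simp only [gr]
  rw [Matrix.add_mul, Matrix.mul_add, Matrix.mul_add, a3, a4, ← a1, ← a2, add_zero, zero_add]

theorem inv_pow {X : Matrix κ κ ℂ} (hX : E' * X * E = 0) (n : ℕ) : E' * X ^ n * E = 0 := by
  induction n with
  | zero => rw [pow_zero, Matrix.mul_one, idem_E'E hsum hEE]
  | succ n ih => rw [pow_succ]; exact inv_mul hsum hEE ih hX

theorem gr_pow {X : Matrix κ κ ℂ} (hX : E' * X * E = 0) (n : ℕ) :
    gr E E' (X ^ n) = gr E E' X ^ n := by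
  induction n with
  | zero => rw [pow_zero, pow_zero, gr_one hsum hEE]
  | succ n ih => rw [pow_succ, pow_succ, gr_mul hsum hEE (inv_pow hsum hEE hX n) hX, ih]

theorem gr_aeval {X : Matrix κ κ ℂ} (hX : E' * X * E = 0) (R : ℂ[X]) :
    aeval (gr E E' X) R = gr E E' (aeval X R) := by
  induction R using Polynomial.induction_on' with
  | add P Q hP hQ => rw [map_add, map_add, gr_add, hP, hQ]
  | monomial n a =>
    rw [Polynomial.aeval_monomial, Polynomial.aeval_monomial, ← gr_pow hsum hEE hX,
      Algebra.algebraMap_eq_smul_one, Matrix.smul_mul, Matrix.smul_mul, Matrix.one_mul,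
      Matrix.one_mul, gr_smul]

end idem

theorem isPolyFun_det (M : ℂ → Matrix κ κ ℂ) (hM : ∀ i j, IsPolyFun (fun s => M s i j)) :
    IsPolyFun (fun s => (M s).det) := by
  have key : ∀ s, (M s).det = MvPolynomial.eval (fun x : κ × κ => M s x.1 x.2)
      (Matrix.det (Matrix.of fun i j => (MvPolynomial.X (i, j) : MvPolynomial (κ × κ) ℂ))) := by
    intro s
    have h2 : M s = (MvPolynomial.eval (fun x : κ × κ => M s x.1 x.2)).mapMatrix
        (Matrix.of fun i j => (MvPolynomial.X (i, j) : MvPolynomial (κ × κ) ℂ)) := by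
      ext i j
      simp
    conv_lhs => rw [h2]
    exact (RingHom.map_det _ _).symm
  have h3 := IsPolyFun.eval_mvPolynomial (fun s (x : κ × κ) => M s x.1 x.2)
    (fun x => hM x.1 x.2)
    (Matrix.det (Matrix.of fun i j => (MvPolynomial.X (i, j) : MvPolynomial (κ × κ) ℂ)))
  obtain ⟨P, hP⟩ := h3
  exact ⟨P, fun s => (key s).trans (hP s)⟩

theorem isPolyFun_fam (E E' X : Matrix κ κ ℂ) (i j : κ) :
    IsPolyFun (fun s => fam E E' X s i j) := by
  have h : ∀ s : ℂ, fam E E' X s i j = gr E E' X i j + (E * X * E') i j * s := by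
    intro s
    simp [fam, mul_comm]
  simp only [h]
  exact (isPolyFun_const _).add ((isPolyFun_const _).mul isPolyFun_id)

/-- A projection onto the kernel of a matrix. -/
theorem exists_proj (Nm : Matrix κ κ ℂ) :
    ∃ E : Matrix κ κ ℂ, Nm * E = 0 ∧ ∀ Y : Matrix κ κ ℂ, Nm * Y = 0 → E * Y = Y := by
  let W : Submodule ℂ (κ → ℂ) := LinearMap.ker (Matrix.toLin' Nm)
  obtain ⟨W', hW'⟩ := Submodule.exists_isCompl W
  let e : (κ → ℂ) →ₗ[ℂ] (κ → ℂ) := W.subtype ∘ₗ W.projectionOnto W' hW'
  refine ⟨LinearMap.toMatrix' e, ?_, ?_⟩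
  · apply Matrix.toLin'.injective
    rw [Matrix.toLin'_mul, Matrix.toLin'_toMatrix', map_zero]
    refine LinearMap.ext fun v => ?_
    have hmem : e v ∈ W := Submodule.coe_mem _
    exact LinearMap.mem_ker.mp hmem
  · intro Y hY
    apply Matrix.toLin'.injective
    rw [Matrix.toLin'_mul, Matrix.toLin'_toMatrix']
    refine LinearMap.ext fun v => ?_
    have hmem : Matrix.toLin' Y v ∈ W := by
      rw [LinearMap.mem_ker, ← LinearMap.comp_apply, ← Matrix.toLin'_mul, hY, map_zero,
        LinearMap.zero_apply]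
    show (W.subtype ∘ₗ W.projectionOnto W' hW') (Matrix.toLin' Y v) = Matrix.toLin' Y v
    rw [LinearMap.comp_apply]
    have h1 := Submodule.projectionOnto_apply_left hW' ⟨Matrix.toLin' Y v, hmem⟩
    rw [h1]
    rfl

end Vale.Agent.Lib.P002

end
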