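import Mathlib

/-!
# Laurent-polynomial functions on `ℂˣ` and a grid density lemma

A function `f : ℂˣ → ℂ` is called *Laurent* if `u ^ N * f u` is a polynomial in `u` for some `N`.
Such a function vanishing on an infinite set vanishes identically.  Consequently a function on
`ι → ℂˣ` (`ι` finite) which is Laurent in each variable separately and vanishes on `U^ι` for an
infinite set `U` vanishes identically.
-/

open Polynomial

namespace Vale.Agent.Lib.P002

/-- `f : ℂˣ → ℂ` is a Laurent polynomial function. -/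
def IsLaurent (f : ℂˣ → ℂ) : Prop :=
  ∃ (N : ℕ) (q : ℂ[X]), ∀ u : ℂˣ, (u : ℂ) ^ N * f u = q.eval (u : ℂ)

theorem isLaurent_const (c : ℂ) : IsLaurent (fun _ => c) :=
  ⟨0, C c, fun u => by simp⟩

theorem isLaurent_id : IsLaurent (fun u : ℂˣ => (u : ℂ)) :=
  ⟨0, X, fun u => by simp⟩

theorem isLaurent_inv : IsLaurent (fun u : ℂˣ => ((u⁻¹ : ℂˣ) : ℂ)) :=
  ⟨1, C 1, fun u => by simp⟩

theorem IsLaurent.add {f g : ℂˣ → ℂ} (hf : IsLaurent f) (hg : IsLaurent g) :
    IsLaurent (fun u => f u + g u) := by
  obtain ⟨N, p, hp⟩ := hf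
  obtain ⟨M, q, hq⟩ := hg
  refine ⟨N + M, X ^ M * p + X ^ N * q, fun u => ?_⟩
  simp only [eval_add, eval_mul, eval_pow, eval_X, ← hp u, ← hq u]
  ring

theorem IsLaurent.mul {f g : ℂˣ → ℂ} (hf : IsLaurent f) (hg : IsLaurent g) :
    IsLaurent (fun u => f u * g u) := by
  obtain ⟨N, p, hp⟩ := hf
  obtain ⟨M, q, hq⟩ := hg
  refine ⟨N + M, p * q, fun u => ?_⟩
  simp only [eval_mul, ← hp u, ← hq u]
  ring

theorem IsLaurent.const_mul {f : ℂˣ → ℂ} (c : ℂ) (hf : IsLaurent f) :
    IsLaurent (fun u => c * f u) :=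
  (isLaurent_const c).mul hf

/-- Evaluating a multivariate polynomial at a point whose coordinates are Laurent functions of
`u` gives a Laurent function of `u`. -/
theorem IsLaurent.eval_mvPolynomial {σ : Type*} (x : ℂˣ → σ → ℂ)
    (hx : ∀ v, IsLaurent (fun u => x u v)) (F : MvPolynomial σ ℂ) :
    IsLaurent (fun u => MvPolynomial.eval (x u) F) := by
  induction F using MvPolynomial.induction_on with
  | C a => simpa using isLaurent_const a
  | add p q hp hq => simpa using hp.add hq
  | mul_X p v hp => simpa using hp.mul (hx v)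

/-- A Laurent function vanishing on an infinite set vanishes everywhere. -/
theorem IsLaurent.eq_zero_of_infinite {f : ℂˣ → ℂ} (hf : IsLaurent f) (S : Set ℂˣ)
    (hS : S.Infinite) (h0 : ∀ u ∈ S, f u = 0) (u : ℂˣ) : f u = 0 := by
  obtain ⟨N, q, hq⟩ := hf
  have hq0 : q = 0 := by
    apply Polynomial.eq_zero_of_infinite_isRoot
    have himg : ((fun u : ℂˣ => (u : ℂ)) '' S).Infinite :=
      hS.image (Units.val_injective.injOn)
    refine himg.mono ?_
    rintro _ ⟨u, hu, rfl⟩
    show q.IsRoot (u : ℂ)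
    rw [Polynomial.IsRoot, ← hq u, h0 u hu, mul_zero]
  have h := hq u
  rw [hq0, eval_zero] at h
  rcases mul_eq_zero.mp h with h | h
  · exact absurd h (pow_ne_zero _ u.ne_zero)
  · exact h

/-- **Grid density.** Let `ι` be finite, `f : (ι → ℂˣ) → ℂ` Laurent in each variable separately.
If `f` vanishes on `U^ι` for an infinite set `U ⊆ ℂˣ`, then `f` vanishes identically. -/
theorem eq_zero_of_grid {ι : Type*} [Fintype ι] [DecidableEq ι] (f : (ι → ℂˣ) → ℂ)
    (hf : ∀ (s : ι → ℂˣ) (v : ι), IsLaurent (fun u => f (Function.update s v u)))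
    (U : Set ℂˣ) (hU : U.Infinite) (h0 : ∀ s : ι → ℂˣ, (∀ v, s v ∈ U) → f s = 0)
    (s : ι → ℂˣ) : f s = 0 := by
  have key : ∀ T : Finset ι, ∀ s : ι → ℂˣ, (∀ v, v ∉ T → s v ∈ U) → f s = 0 := by
    intro T
    induction T using Finset.induction_on with
    | empty =>
      intro s hs
      exact h0 s (fun v => hs v (Finset.notMem_empty v))
    | insert a T ha ih =>
      intro s hs
      have h1 : ∀ u ∈ U, f (Function.update s a u) = 0 := by
        intro u hu
        apply ih
        intro v hv
        by_cases hva : v = a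
        · subst hva
          simpa using hu
        · rw [Function.update_of_ne hva]
          exact hs v (by simp [hva, hv])
      have h2 := (hf s a).eq_zero_of_infinite U hU h1 (s a)
      simpa using h2
  exact key Finset.univ s (fun v hv => absurd (Finset.mem_univ v) hv)

end Vale.Agent.Lib.P002
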