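import Vale.Agent.Lib.P002.Units
import Vale.Agent.Lib.P002.Laurent

/-!
# Diagonal representations of `ℤ^n` in `SL_r(ℂ)`
-/

open Matrix

namespace Vale.Agent.Lib.P002

variable {n r : ℕ}

/-- The character of `ℤ^n` sending the `i`-th basis vector to `t i`. -/
def charOfUnits (t : Fin n → ℂˣ) : Multiplicative (Fin n → ℤ) →* ℂˣ where
  toFun γ := ∏ i, t i ^ (Multiplicative.toAdd γ i)
  map_one' := by simp
  map_mul' a b := by simp [_root_.zpow_add, Finset.prod_mul_distrib]

theorem charOfUnits_apply (t : Fin n → ℂˣ) (γ : Multiplicative (Fin n → ℤ)) :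
    charOfUnits t γ = ∏ i, t i ^ (Multiplicative.toAdd γ i) := rfl

theorem charOfUnits_gen (t : Fin n → ℂˣ) (i : Fin n) :
    charOfUnits t (Multiplicative.ofAdd (Pi.single i (1 : ℤ))) = t i := by
  rw [charOfUnits_apply]
  rw [Finset.prod_eq_single i]
  · simp
  · intro k _ hk
    simp [hk]
  · intro h
    exact absurd (Finset.mem_univ i) h

theorem charOfUnits_mem (t : Fin n → ℂˣ) (S : Subgroup ℂˣ) (ht : ∀ i, t i ∈ S)
    (γ : Multiplicative (Fin n → ℤ)) : charOfUnits t γ ∈ S := by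
  rw [charOfUnits_apply]
  exact Subgroup.prod_mem S (fun i _ => Subgroup.zpow_mem S (ht i) _)

theorem prod_charOfUnits (d : Fin n → Fin r → ℂˣ) (hd : ∀ i, ∏ j, d i j = 1)
    (γ : Multiplicative (Fin n → ℤ)) : ∏ j, charOfUnits (fun i => d i j) γ = 1 := by
  simp only [charOfUnits_apply]
  rw [Finset.prod_comm]
  have : ∀ i, ∏ j, d i j ^ (Multiplicative.toAdd γ i) = 1 := by
    intro i
    rw [Finset.prod_zpow, hd i, _root_.one_zpow]
  simp [this]

/-- The diagonal representation `ℤ^n → SL_r(ℂ)` sending the `i`-th basis vector to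
`diag(d i 1, …, d i r)`. -/
def diagRep (d : Fin n → Fin r → ℂˣ) (hd : ∀ i, ∏ j, d i j = 1) :
    Multiplicative (Fin n → ℤ) →* SpecialLinearGroup (Fin r) ℂ where
  toFun γ := ⟨Matrix.diagonal (fun j => ((charOfUnits (fun i => d i j) γ : ℂˣ) : ℂ)), by
    rw [Matrix.det_diagonal]
    have := congrArg (fun u : ℂˣ => (u : ℂ)) (prod_charOfUnits d hd γ)
    simpa using this⟩
  map_one' := by
    apply Subtype.ext
    simp
  map_mul' a b := by
    apply Subtype.ext
    show Matrix.diagonal (fun j => ((charOfUnits (fun i => d i j) (a * b) : ℂˣ) : ℂ))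
      = Matrix.diagonal (fun j => ((charOfUnits (fun i => d i j) a : ℂˣ) : ℂ))
        * Matrix.diagonal (fun j => ((charOfUnits (fun i => d i j) b : ℂˣ) : ℂ))
    rw [Matrix.diagonal_mul_diagonal]
    congr 1
    funext j
    rw [map_mul, Units.val_mul]

theorem diagRep_apply (d : Fin n → Fin r → ℂˣ) (hd : ∀ i, ∏ j, d i j = 1)
    (γ : Multiplicative (Fin n → ℤ)) :
    (diagRep d hd γ).1 = Matrix.diagonal (fun j => ((charOfUnits (fun i => d i j) γ : ℂˣ) : ℂ)) :=
  rfl

theorem diagRep_gen (d : Fin n → Fin r → ℂˣ) (hd : ∀ i, ∏ j, d i j = 1) (i : Fin n) :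
    (diagRep d hd (Multiplicative.ofAdd (Pi.single i (1 : ℤ)))).1
      = Matrix.diagonal (fun j => ((d i j : ℂˣ) : ℂ)) := by
  rw [diagRep_apply]
  congr 1
  funext j
  rw [charOfUnits_gen]

/-- If all `d i j` are powers of the unit `1 + √2`, the diagonal representation has entries in the
ring of integers of `ℚ(√2)`. -/
theorem diagRep_integral (d : Fin n → Fin r → ℂˣ) (hd : ∀ i, ∏ j, d i j = 1)
    (hU : ∀ i j, d i j ∈ Subgroup.zpowers unitW) (γ : Multiplicative (Fin n → ℤ)) (a b : Fin r) :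
    (diagRep d hd γ).1 a b ∈ fieldL ∧ IsIntegral ℤ ((diagRep d hd γ).1 a b) := by
  rw [diagRep_apply]
  by_cases hab : a = b
  · subst hab
    rw [Matrix.diagonal_apply_eq]
    have hmem := charOfUnits_mem (fun i => d i a) (Subgroup.zpowers unitW) (fun i => hU i a) γ
    exact ⟨mem_fieldL_of_mem_zpowers hmem, isIntegral_of_mem_zpowers hmem⟩
  · rw [Matrix.diagonal_apply_ne _ hab]
    exact ⟨zero_mem _, isIntegral_zero⟩

end Vale.Agent.Lib.P002
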