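import Mathlib

/-!
# Simultaneous triangular form of two diagonalizable three by three matrices

Two diagonalizable complex three by three matrices without a common eigenvector can be
conjugated simultaneously so that the first becomes upper triangular and the second lower
triangular.
-/

noncomputable section

namespace Vale.Agent.Lib.P002

open Matrix

/-- A diagonalization gives the two intertwining relations. -/
theorem e6chart_comm {g g' A : Matrix (Fin 3) (Fin 3) ℂ} {a : Fin 3 → ℂ} (hg : g * g' = 1)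
    (hA : g * A * g' = Matrix.diagonal a) :
    A * g' = g' * Matrix.diagonal a ∧ g * A = Matrix.diagonal a * g := by
  have hg' : g' * g = 1 := mul_eq_one_comm.mp hg
  constructor
  · calc A * g' = (g' * g) * A * g' := by rw [hg', one_mul]
      _ = g' * (g * A * g') := by simp only [Matrix.mul_assoc]
      _ = g' * Matrix.diagonal a := by rw [hA]
  · calc g * A = g * A * (g' * g) := by rw [hg', mul_one]
      _ = (g * A * g') * g := by simp only [Matrix.mul_assoc]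
      _ = Matrix.diagonal a * g := by rw [hA]

/-- The first column of the inverse of a diagonalizing matrix is an eigenvector. -/
theorem e6chart_right {g g' A : Matrix (Fin 3) (Fin 3) ℂ} {a : Fin 3 → ℂ} (hg : g * g' = 1)
    (hA : g * A * g' = Matrix.diagonal a) :
    A *ᵥ (fun j => g' j 0) = a 0 • (fun j => g' j 0) := by
  have h1 := (e6chart_comm hg hA).1
  funext j
  have h2 : (A * g') j 0 = (g' * Matrix.diagonal a) j 0 := by rw [h1]
  rw [Matrix.mul_diagonal] at h2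
  have h3 : (A *ᵥ (fun j => g' j 0)) j = (A * g') j 0 := rfl
  rw [h3, h2]
  simp [mul_comm]

/-- Each row of a diagonalizing matrix is a left eigenvector. -/
theorem e6chart_left {g g' A : Matrix (Fin 3) (Fin 3) ℂ} {a : Fin 3 → ℂ} (hg : g * g' = 1)
    (hA : g * A * g' = Matrix.diagonal a) (k j : Fin 3) :
    (g * A) k j = a k * g k j := by
  have h1 := (e6chart_comm hg hA).2
  rw [h1, Matrix.diagonal_mul]

/-- The pairing of the rows of a matrix with the first column of its inverse. -/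
theorem e6chart_pair {g g' : Matrix (Fin 3) (Fin 3) ℂ} (hg : g * g' = 1) (k : Fin 3) :
    g k ⬝ᵥ (fun j => g' j 0) = if k = 0 then 1 else 0 := by
  have h1 : (g * g') k 0 = (1 : Matrix (Fin 3) (Fin 3) ℂ) k 0 := by rw [hg]
  rw [Matrix.one_apply] at h1
  exact h1

/-- Some row of the first diagonalizing matrix other than the first one pairs nontrivially
with the first eigenvector of the second matrix. -/
theorem e6chart_exists (A B : Matrix (Fin 3) (Fin 3) ℂ) (a b : Fin 3 → ℂ)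
    (g g' h h' : Matrix (Fin 3) (Fin 3) ℂ) (hg : g * g' = 1) (hh : h * h' = 1)
    (hA : g * A * g' = Matrix.diagonal a) (hB : h * B * h' = Matrix.diagonal b)
    (hne : ∀ v : Fin 3 → ℂ, v ≠ 0 → ∀ lam mu : ℂ,
      ¬ (A.mulVec v = lam • v ∧ B.mulVec v = mu • v)) :
    ∃ k : Fin 3, k ≠ 0 ∧ g k ⬝ᵥ (fun j => h' j 0) ≠ 0 := by
  by_contra hcon
  push Not at hcon
  have hg' : g' * g = 1 := mul_eq_one_comm.mp hg
  have hAe : A *ᵥ (fun j => g' j 0) = a 0 • (fun j => g' j 0) := e6chart_right hg hA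
  have hBf : B *ᵥ (fun j => h' j 0) = b 0 • (fun j => h' j 0) := e6chart_right hh hB
  have hge : g *ᵥ (fun j => g' j 0) = Pi.single 0 1 := by
    funext k
    have h1 : (g *ᵥ (fun j => g' j 0)) k = g k ⬝ᵥ (fun j => g' j 0) := rfl
    rw [h1, e6chart_pair hg k, Pi.single_apply]
  have hgf : g *ᵥ (fun j => h' j 0) = (g 0 ⬝ᵥ (fun j => h' j 0)) • Pi.single 0 1 := by
    funext k
    have h1 : (g *ᵥ (fun j => h' j 0)) k = g k ⬝ᵥ (fun j => h' j 0) := rfl
    rw [h1]
    by_cases hk : k = 0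
    · subst hk
      simp
    · rw [hcon k hk]
      simp [hk]
  obtain ⟨c, hc⟩ : ∃ c : ℂ, (fun j => h' j 0) = c • (fun j => g' j 0) := by
    refine ⟨g 0 ⬝ᵥ (fun j => h' j 0), ?_⟩
    have h1 : g' *ᵥ (g *ᵥ (fun j => h' j 0)) = (fun j => h' j 0) := by
      rw [Matrix.mulVec_mulVec, hg', Matrix.one_mulVec]
    have h2 : g' *ᵥ (g *ᵥ (fun j => g' j 0)) = (fun j => g' j 0) := by
      rw [Matrix.mulVec_mulVec, hg', Matrix.one_mulVec]
    rw [hgf, Matrix.mulVec_smul, ← hge, h2] at h1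
    exact h1.symm
  have hf0ne : (fun j => h' j 0) ≠ 0 := by
    intro h0
    have h3 := e6chart_pair hh 0
    rw [h0] at h3
    simp at h3
  refine hne (fun j => h' j 0) hf0ne (a 0) (b 0) ⟨?_, hBf⟩
  rw [hc, Matrix.mulVec_smul, hAe, smul_comm]

/-- A permutation of three points with prescribed values. -/
theorem e6chart_perm (i j k : Fin 3) (hij : i ≠ j) (hik : i ≠ k) (hjk : j ≠ k) :
    ∃ σ : Equiv.Perm (Fin 3), σ 0 = i ∧ σ 1 = j ∧ σ 2 = k := by
  have hinj : Function.Injective (![i, j, k] : Fin 3 → Fin 3) := by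
    intro x y hxy
    fin_cases x <;> fin_cases y <;> simp_all
  exact ⟨Equiv.ofBijective _ (Finite.injective_iff_bijective.mp hinj), rfl, rfl, rfl⟩

/-- A third index. -/
theorem e6chart_third (k : Fin 3) (hk : k ≠ 0) : ∃ k' : Fin 3, k' ≠ 0 ∧ k' ≠ k := by
  fin_cases k
  · exact absurd rfl hk
  · exact ⟨2, by decide, by decide⟩
  · exact ⟨1, by decide, by decide⟩

/-- The determinant of the matrix with rows `ψ`, `e ⨯₃ f`, `φ`. -/
theorem e6chart_det (ψ e f φ : Fin 3 → ℂ) :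
    (Matrix.of ![ψ, crossProduct e f, φ]).det
      = (ψ ⬝ᵥ f) * (φ ⬝ᵥ e) - (ψ ⬝ᵥ e) * (φ ⬝ᵥ f) := by
  have h1 : (Matrix.of ![ψ, crossProduct e f, φ]).det
      = Matrix.det ![ψ, crossProduct e f, φ] := rfl
  rw [h1, ← triple_product_eq_det, triple_product_permutation, cross_dot_cross,
    dotProduct_comm e φ, dotProduct_comm f ψ, dotProduct_comm e ψ, dotProduct_comm f φ]
  ring

/-- One column and one row of a conjugate, from a right eigenvector sent to a multiple of a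
basis vector and a left eigenvector among the rows of the conjugating matrix. -/
theorem e6chart_side (A P P' : Matrix (Fin 3) (Fin 3) ℂ) (hPP' : P * P' = 1)
    (hP'P : P' * P = 1) (e : Fin 3 → ℂ) (lam mu c : ℂ) (hc : c ≠ 0) (i r : Fin 3)
    (he : A *ᵥ e = lam • e) (hPe : P *ᵥ e = c • Pi.single i 1)
    (hrow : ∀ j, (P * A) r j = mu * P r j) :
    (∀ j, (P * A * P') j i = if j = i then lam else 0) ∧
    (∀ j, (P * A * P') r j = if r = j then mu else 0) := by
  constructor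
  · have hUP : P * A * P' * P = P * A := by rw [Matrix.mul_assoc, hP'P, mul_one]
    have h1 : (P * A * P') *ᵥ (P *ᵥ e) = lam • (P *ᵥ e) := by
      rw [Matrix.mulVec_mulVec, hUP, ← Matrix.mulVec_mulVec, he, Matrix.mulVec_smul]
    rw [hPe, Matrix.mulVec_smul, Matrix.mulVec_single_one] at h1
    intro j
    have h2 := congrFun h1 j
    simp only [Pi.smul_apply, smul_eq_mul, Matrix.col_apply, Pi.single_apply] at h2
    by_cases hji : j = i
    · rw [if_pos hji] at h2 ⊢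
      apply mul_left_cancel₀ hc
      rw [h2]
      ring
    · rw [if_neg hji] at h2 ⊢
      have h3 : c * (P * A * P') j i = 0 := by rw [h2]; ring
      rcases mul_eq_zero.mp h3 with h4 | h4
      · exact absurd h4 hc
      · exact h4
  · intro j
    have h1 : (P * A * P') r j = ∑ k, (P * A) r k * P' k j := Matrix.mul_apply
    have h2 : (P * P') r j = ∑ k, P r k * P' k j := Matrix.mul_apply
    rw [h1]
    simp only [hrow, mul_assoc]
    rw [← Finset.mul_sum, ← h2, hPP', Matrix.one_apply]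
    split_ifs <;> simp

theorem e6_chart (A B : Matrix (Fin 3) (Fin 3) ℂ) (a b : Fin 3 → ℂ)
    (g g' h h' : Matrix (Fin 3) (Fin 3) ℂ) (hg : g * g' = 1) (hh : h * h' = 1)
    (hA : g * A * g' = Matrix.diagonal a) (hB : h * B * h' = Matrix.diagonal b)
    (hne : ∀ v : Fin 3 → ℂ, v ≠ 0 → ∀ lam mu : ℂ,
      ¬ (A.mulVec v = lam • v ∧ B.mulVec v = mu • v)) :
    ∃ (σ τ : Equiv.Perm (Fin 3)) (P P' : Matrix (Fin 3) (Fin 3) ℂ) (x y z u v w : ℂ),
      P * P' = 1 ∧ P' * P = 1 ∧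
      P * A * P' = !![a (σ 0), x, z; 0, a (σ 1), y; 0, 0, a (σ 2)] ∧
      P * B * P' = !![b (τ 0), 0, 0; u, b (τ 1), 0; w, v, b (τ 2)] := by
  obtain ⟨k, hk0, hMk⟩ := e6chart_exists A B a b g g' h h' hg hh hA hB hne
  obtain ⟨l, hl0, hNl⟩ := e6chart_exists B A b a h h' g g' hh hg hB hA
    (fun v hv lam mu hcon => hne v hv mu lam ⟨hcon.2, hcon.1⟩)
  obtain ⟨k', hk'0, hk'k⟩ := e6chart_third k hk0
  obtain ⟨l', hl'0, hl'l⟩ := e6chart_third l hl0
  obtain ⟨σ, hσ0, hσ1, hσ2⟩ := e6chart_perm 0 k' k hk'0.symm hk0.symm hk'k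
  obtain ⟨τ, hτ0, hτ1, hτ2⟩ := e6chart_perm l l' 0 hl'l.symm hl0 hl'0
  obtain ⟨e0, he0⟩ : ∃ e0 : Fin 3 → ℂ, e0 = fun j => g' j 0 := ⟨_, rfl⟩
  obtain ⟨f0, hf0⟩ : ∃ f0 : Fin 3 → ℂ, f0 = fun j => h' j 0 := ⟨_, rfl⟩
  rw [← he0] at hNl
  rw [← hf0] at hMk
  have hAe : A *ᵥ e0 = a 0 • e0 := by rw [he0]; exact e6chart_right hg hA
  have hBf : B *ᵥ f0 = b 0 • f0 := by rw [hf0]; exact e6chart_right hh hB
  have hge : g k ⬝ᵥ e0 = 0 := by rw [he0, e6chart_pair hg k, if_neg hk0]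
  have hhf : h l ⬝ᵥ f0 = 0 := by rw [hf0, e6chart_pair hh l, if_neg hl0]
  obtain ⟨P, hP⟩ : ∃ P : Matrix (Fin 3) (Fin 3) ℂ,
      P = Matrix.of ![h l, crossProduct e0 f0, g k] := ⟨_, rfl⟩
  have hP0 : P 0 = h l := by rw [hP]; rfl
  have hP1 : P 1 = crossProduct e0 f0 := by rw [hP]; rfl
  have hP2 : P 2 = g k := by rw [hP]; rfl
  have hdet : P.det = - ((h l ⬝ᵥ e0) * (g k ⬝ᵥ f0)) := by
    rw [hP, e6chart_det, hhf, hge]
    ring
  have hunit : IsUnit P.det := by
    rw [hdet]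
    exact isUnit_iff_ne_zero.mpr (neg_ne_zero.mpr (mul_ne_zero hNl hMk))
  have hPP' : P * P⁻¹ = 1 := Matrix.mul_nonsing_inv P hunit
  have hP'P : P⁻¹ * P = 1 := Matrix.nonsing_inv_mul P hunit
  have hmv : ∀ (x : Fin 3 → ℂ) (i : Fin 3), (P *ᵥ x) i = P i ⬝ᵥ x := fun _ _ => rfl
  have hPe : P *ᵥ e0 = (h l ⬝ᵥ e0) • Pi.single 0 1 := by
    funext i
    rw [hmv]
    fin_cases i
    · simp [hP0]
    · simp [hP1, dotProduct_comm]
    · simp [hP2, hge]
  have hPf : P *ᵥ f0 = (g k ⬝ᵥ f0) • Pi.single 2 1 := by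
    funext i
    rw [hmv]
    fin_cases i
    · simp [hP0, hhf]
    · simp [hP1, dotProduct_comm]
    · simp [hP2]
  have hmul : ∀ (X : Matrix (Fin 3) (Fin 3) ℂ) (i j : Fin 3),
      (P * X) i j = ∑ m, P i m * X m j := fun _ _ _ => Matrix.mul_apply
  have hrowA : ∀ j, (P * A) 2 j = a k * P 2 j := by
    intro j
    rw [hmul, hP2, ← e6chart_left hg hA k j, Matrix.mul_apply]
  have hrowB : ∀ j, (P * B) 0 j = b l * P 0 j := by
    intro j
    rw [hmul, hP0, ← e6chart_left hh hB l j, Matrix.mul_apply]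
  obtain ⟨hUcol, hUrow⟩ := e6chart_side A P P⁻¹ hPP' hP'P e0 (a 0) (a k) _ hNl 0 2 hAe hPe hrowA
  obtain ⟨hLcol, hLrow⟩ := e6chart_side B P P⁻¹ hPP' hP'P f0 (b 0) (b l) _ hMk 2 0 hBf hPf hrowB
  have htr : ∀ (X Y Y' : Matrix (Fin 3) (Fin 3) ℂ), Y' * Y = 1 →
      Matrix.trace (Y * X * Y') = Matrix.trace X := by
    intro X Y Y' hY
    rw [Matrix.trace_mul_comm, ← Matrix.mul_assoc, hY, one_mul]
  have htrA : (P * A * P⁻¹) 0 0 + (P * A * P⁻¹) 1 1 + (P * A * P⁻¹) 2 2 = a 0 + a 1 + a 2 := by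
    have h1 : Matrix.trace (P * A * P⁻¹) = Matrix.trace (Matrix.diagonal a) := by
      rw [htr A P P⁻¹ hP'P, ← hA, htr A g g' (mul_eq_one_comm.mp hg)]
    rw [Matrix.trace_diagonal, Matrix.trace, Fin.sum_univ_three, Fin.sum_univ_three] at h1
    exact h1
  have htrB : (P * B * P⁻¹) 0 0 + (P * B * P⁻¹) 1 1 + (P * B * P⁻¹) 2 2 = b 0 + b 1 + b 2 := by
    have h1 : Matrix.trace (P * B * P⁻¹) = Matrix.trace (Matrix.diagonal b) := by
      rw [htr B P P⁻¹ hP'P, ← hB, htr B h h' (mul_eq_one_comm.mp hh)]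
    rw [Matrix.trace_diagonal, Matrix.trace, Fin.sum_univ_three, Fin.sum_univ_three] at h1
    exact h1
  have hsumA : a 0 + a k' + a k = a 0 + a 1 + a 2 := by
    have h1 := Equiv.sum_comp σ a
    rw [Fin.sum_univ_three, Fin.sum_univ_three, hσ0, hσ1, hσ2] at h1
    exact h1
  have hsumB : b l + b l' + b 0 = b 0 + b 1 + b 2 := by
    have h1 := Equiv.sum_comp τ b
    rw [Fin.sum_univ_three, Fin.sum_univ_three, hτ0, hτ1, hτ2] at h1
    exact h1
  have hU00 : (P * A * P⁻¹) 0 0 = a 0 := by rw [hUcol 0, if_pos rfl]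
  have hU10 : (P * A * P⁻¹) 1 0 = 0 := by rw [hUcol 1, if_neg (by decide)]
  have hU20 : (P * A * P⁻¹) 2 0 = 0 := by rw [hUcol 2, if_neg (by decide)]
  have hU21 : (P * A * P⁻¹) 2 1 = 0 := by rw [hUrow 1, if_neg (by decide)]
  have hU22 : (P * A * P⁻¹) 2 2 = a k := by rw [hUrow 2, if_pos rfl]
  have hU11 : (P * A * P⁻¹) 1 1 = a k' := by
    linear_combination htrA - hU00 - hU22 - hsumA
  have hL00 : (P * B * P⁻¹) 0 0 = b l := by rw [hLrow 0, if_pos rfl]
  have hL01 : (P * B * P⁻¹) 0 1 = 0 := by rw [hLrow 1, if_neg (by decide)]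
  have hL02 : (P * B * P⁻¹) 0 2 = 0 := by rw [hLrow 2, if_neg (by decide)]
  have hL12 : (P * B * P⁻¹) 1 2 = 0 := by rw [hLcol 1, if_neg (by decide)]
  have hL22 : (P * B * P⁻¹) 2 2 = b 0 := by rw [hLcol 2, if_pos rfl]
  have hL11 : (P * B * P⁻¹) 1 1 = b l' := by
    linear_combination htrB - hL00 - hL22 - hsumB
  refine ⟨σ, τ, P, P⁻¹, (P * A * P⁻¹) 0 1, (P * A * P⁻¹) 1 2, (P * A * P⁻¹) 0 2,
    (P * B * P⁻¹) 1 0, (P * B * P⁻¹) 2 1, (P * B * P⁻¹) 2 0, hPP', hP'P, ?_, ?_⟩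
  · rw [hσ0, hσ1, hσ2]
    ext i j
    fin_cases i <;> fin_cases j <;> simp [hU00, hU10, hU20, hU21, hU22, hU11]
  · rw [hτ0, hτ1, hτ2]
    ext i j
    fin_cases i <;> fin_cases j <;> simp [hL00, hL01, hL02, hL12, hL22, hL11]

end Vale.Agent.Lib.P002

end
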