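import Vale.Agent.Lib.P002.E6Chart

/-!
# Simultaneous triangular form of two diagonalizable three by three matrices, in general

Any two diagonalizable complex three by three matrices can be conjugated simultaneously so that
the first becomes upper triangular and the second lower triangular.
-/

noncomputable section

namespace Vale.Agent.Lib.P002

open Matrix

/-- The triangular form, from two nonvanishing pairings. -/
theorem e6chart2_core (A B : Matrix (Fin 3) (Fin 3) ℂ) (a b : Fin 3 → ℂ)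
    (g g' h h' : Matrix (Fin 3) (Fin 3) ℂ) (hg : g * g' = 1) (hh : h * h' = 1)
    (hA : g * A * g' = Matrix.diagonal a) (hB : h * B * h' = Matrix.diagonal b)
    (k l : Fin 3) (hk0 : k ≠ 0) (hl0 : l ≠ 0)
    (hMk : g k ⬝ᵥ (fun j => h' j 0) ≠ 0) (hNl : h l ⬝ᵥ (fun j => g' j 0) ≠ 0) :
    ∃ (σ τ : Equiv.Perm (Fin 3)) (P P' : Matrix (Fin 3) (Fin 3) ℂ) (x y z u v w : ℂ),
      P * P' = 1 ∧ P' * P = 1 ∧
      P * A * P' = !![a (σ 0), x, z; 0, a (σ 1), y; 0, 0, a (σ 2)] ∧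
      P * B * P' = !![b (τ 0), 0, 0; u, b (τ 1), 0; w, v, b (τ 2)] := by
  obtain ⟨k', hk'0, hk'k⟩ := e6chart_third k hk0
  obtain ⟨l', hl'0, hl'l⟩ := e6chart_third l hl0
  obtain ⟨σ, hσ0, hσ1, hσ2⟩ := e6chart_perm 0 k' k hk'0.symm hk0.symm hk'k
  obtain ⟨τ, hτ0, hτ1, hτ2⟩ := e6chart_perm l l' 0 hl'l.symm hl0 hl'0
  obtain ⟨e0, he0⟩ : ∃ e0 : Fin 3 → ℂ, e0 = fun j => g' j 0 := ⟨_, rfl⟩
  obtain ⟨f0, hf0⟩ : ∃ f0 : Fin 3 → ℂ, f0 = fun j => h' j 0 := ⟨_, rfl⟩
  rw [← he0] at hNl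
  rw [← hf0] at hMk
  have hAe : A *ᵥ e0 = a 0 • e0 := by rw [he0]; exact e6chart_right hg hA
  have hBf : B *ᵥ f0 = b 0 • f0 := by rw [hf0]; exact e6chart_right hh hB
  have hge : g k ⬝ᵥ e0 = 0 := by rw [he0, e6chart_pair hg k, if_neg hk0]
  have hhf : h l ⬝ᵥ f0 = 0 := by rw [hf0, e6chart_pair hh l, if_neg hl0]
  obtain ⟨P, hP⟩ : ∃ P : Matrix (Fin 3) (Fin 3) ℂ,
      P = Matrix.of ![h l, crossProduct e0 f0, g k] := ⟨_, rfl⟩
  have hP0 : P 0 = h l := by rw [hP]; rfl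
  have hP1 : P 1 = crossProduct e0 f0 := by rw [hP]; rfl
  have hP2 : P 2 = g k := by rw [hP]; rfl
  have hdet : P.det = - ((h l ⬝ᵥ e0) * (g k ⬝ᵥ f0)) := by
    rw [hP, e6chart_det, hhf, hge]
    ring
  have hunit : IsUnit P.det := by
    rw [hdet]
    exact isUnit_iff_ne_zero.mpr (neg_ne_zero.mpr (mul_ne_zero hNl hMk))
  have hPP' : P * P⁻¹ = 1 := Matrix.mul_nonsing_inv P hunit
  have hP'P : P⁻¹ * P = 1 := Matrix.nonsing_inv_mul P hunit
  have hmv : ∀ (x : Fin 3 → ℂ) (i : Fin 3), (P *ᵥ x) i = P i ⬝ᵥ x := fun _ _ => rfl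
  have hPe : P *ᵥ e0 = (h l ⬝ᵥ e0) • Pi.single 0 1 := by
    funext i
    rw [hmv]
    fin_cases i
    · simp [hP0]
    · simp [hP1, dotProduct_comm]
    · simp [hP2, hge]
  have hPf : P *ᵥ f0 = (g k ⬝ᵥ f0) • Pi.single 2 1 := by
    funext i
    rw [hmv]
    fin_cases i
    · simp [hP0, hhf]
    · simp [hP1, dotProduct_comm]
    · simp [hP2]
  have hmul : ∀ (X : Matrix (Fin 3) (Fin 3) ℂ) (i j : Fin 3),
      (P * X) i j = ∑ m, P i m * X m j := fun _ _ _ => Matrix.mul_apply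
  have hrowA : ∀ j, (P * A) 2 j = a k * P 2 j := by
    intro j
    rw [hmul, hP2, ← e6chart_left hg hA k j, Matrix.mul_apply]
  have hrowB : ∀ j, (P * B) 0 j = b l * P 0 j := by
    intro j
    rw [hmul, hP0, ← e6chart_left hh hB l j, Matrix.mul_apply]
  obtain ⟨hUcol, hUrow⟩ := e6chart_side A P P⁻¹ hPP' hP'P e0 (a 0) (a k) _ hNl 0 2 hAe hPe hrowA
  obtain ⟨hLcol, hLrow⟩ := e6chart_side B P P⁻¹ hPP' hP'P f0 (b 0) (b l) _ hMk 2 0 hBf hPf hrowB
  have htr : ∀ (X Y Y' : Matrix (Fin 3) (Fin 3) ℂ), Y' * Y = 1 →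
      Matrix.trace (Y * X * Y') = Matrix.trace X := by
    intro X Y Y' hY
    rw [Matrix.trace_mul_comm, ← Matrix.mul_assoc, hY, one_mul]
  have htrA : (P * A * P⁻¹) 0 0 + (P * A * P⁻¹) 1 1 + (P * A * P⁻¹) 2 2 = a 0 + a 1 + a 2 := by
    have h1 : Matrix.trace (P * A * P⁻¹) = Matrix.trace (Matrix.diagonal a) := by
      rw [htr A P P⁻¹ hP'P, ← hA, htr A g g' (mul_eq_one_comm.mp hg)]
    rw [Matrix.trace_diagonal, Matrix.trace, Fin.sum_univ_three, Fin.sum_univ_three] at h1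
    exact h1
  have htrB : (P * B * P⁻¹) 0 0 + (P * B * P⁻¹) 1 1 + (P * B * P⁻¹) 2 2 = b 0 + b 1 + b 2 := by
    have h1 : Matrix.trace (P * B * P⁻¹) = Matrix.trace (Matrix.diagonal b) := by
      rw [htr B P P⁻¹ hP'P, ← hB, htr B h h' (mul_eq_one_comm.mp hh)]
    rw [Matrix.trace_diagonal, Matrix.trace, Fin.sum_univ_three, Fin.sum_univ_three] at h1
    exact h1
  have hsumA : a 0 + a k' + a k = a 0 + a 1 + a 2 := by
    have h1 := Equiv.sum_comp σ a
    rw [Fin.sum_univ_three, Fin.sum_univ_three, hσ0, hσ1, hσ2] at h1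
    exact h1
  have hsumB : b l + b l' + b 0 = b 0 + b 1 + b 2 := by
    have h1 := Equiv.sum_comp τ b
    rw [Fin.sum_univ_three, Fin.sum_univ_three, hτ0, hτ1, hτ2] at h1
    exact h1
  have hU00 : (P * A * P⁻¹) 0 0 = a 0 := by rw [hUcol 0, if_pos rfl]
  have hU10 : (P * A * P⁻¹) 1 0 = 0 := by rw [hUcol 1, if_neg (by decide)]
  have hU20 : (P * A * P⁻¹) 2 0 = 0 := by rw [hUcol 2, if_neg (by decide)]
  have hU21 : (P * A * P⁻¹) 2 1 = 0 := by rw [hUrow 1, if_neg (by decide)]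
  have hU22 : (P * A * P⁻¹) 2 2 = a k := by rw [hUrow 2, if_pos rfl]
  have hU11 : (P * A * P⁻¹) 1 1 = a k' := by
    linear_combination htrA - hU00 - hU22 - hsumA
  have hL00 : (P * B * P⁻¹) 0 0 = b l := by rw [hLrow 0, if_pos rfl]
  have hL01 : (P * B * P⁻¹) 0 1 = 0 := by rw [hLrow 1, if_neg (by decide)]
  have hL02 : (P * B * P⁻¹) 0 2 = 0 := by rw [hLrow 2, if_neg (by decide)]
  have hL12 : (P * B * P⁻¹) 1 2 = 0 := by rw [hLcol 1, if_neg (by decide)]
  have hL22 : (P * B * P⁻¹) 2 2 = b 0 := by rw [hLcol 2, if_pos rfl]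
  have hL11 : (P * B * P⁻¹) 1 1 = b l' := by
    linear_combination htrB - hL00 - hL22 - hsumB
  refine ⟨σ, τ, P, P⁻¹, (P * A * P⁻¹) 0 1, (P * A * P⁻¹) 1 2, (P * A * P⁻¹) 0 2,
    (P * B * P⁻¹) 1 0, (P * B * P⁻¹) 2 1, (P * B * P⁻¹) 2 0, hPP', hP'P, ?_, ?_⟩
  · rw [hσ0, hσ1, hσ2]
    ext i j
    fin_cases i <;> fin_cases j <;> simp [hU00, hU10, hU20, hU21, hU22, hU11]
  · rw [hτ0, hτ1, hτ2]
    ext i j
    fin_cases i <;> fin_cases j <;> simp [hL00, hL01, hL02, hL12, hL22, hL11]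


/-- A permutation of three points with a prescribed value at zero. -/
theorem e6chart2_perm (i : Fin 3) : ∃ π : Equiv.Perm (Fin 3), π 0 = i :=
  ⟨Equiv.swap 0 i, Equiv.swap_apply_left 0 i⟩

/-- An invertible three by three matrix has a nonzero entry outside any given row and
column. -/
theorem e6chart2_entry (N N' : Matrix (Fin 3) (Fin 3) ℂ) (hN : N * N' = 1) (j k : Fin 3) :
    ∃ l i : Fin 3, l ≠ j ∧ i ≠ k ∧ N l i ≠ 0 := by
  by_contra hcon
  push Not at hcon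
  have hdet : N.det = 0 := by
    rw [Matrix.det_fin_three]
    fin_cases j <;> fin_cases k <;>
      simp [hcon 0 0, hcon 0 1, hcon 0 2, hcon 1 0, hcon 1 1, hcon 1 2, hcon 2 0, hcon 2 1,
        hcon 2 2]
  have h1 : N.det * N'.det = 1 := by rw [← Matrix.det_mul, hN, Matrix.det_one]
  rw [hdet, zero_mul] at h1
  exact zero_ne_one h1

/-- Reindexing a diagonalization by a permutation. -/
theorem e6chart2_reindex (A g g' : Matrix (Fin 3) (Fin 3) ℂ) (a : Fin 3 → ℂ)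
    (hg : g * g' = 1) (hA : g * A * g' = Matrix.diagonal a) (π : Equiv.Perm (Fin 3)) :
    (Matrix.of fun r c => g (π r) c) * (Matrix.of fun r c => g' r (π c)) = 1 ∧
      (Matrix.of fun r c => g (π r) c) * A * (Matrix.of fun r c => g' r (π c))
        = Matrix.diagonal (fun r => a (π r)) := by
  constructor
  · ext r c
    have h1 : (g * g') (π r) (π c) = (1 : Matrix (Fin 3) (Fin 3) ℂ) (π r) (π c) := by rw [hg]
    rw [Matrix.mul_apply] at h1
    rw [Matrix.mul_apply]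
    simp only [Matrix.of_apply]
    rw [h1, Matrix.one_apply, Matrix.one_apply]
    simp [π.injective.eq_iff]
  · ext r c
    have h1 : (g * A * g') (π r) (π c) = (Matrix.diagonal a) (π r) (π c) := by rw [hA]
    rw [Matrix.mul_apply] at h1
    rw [Matrix.mul_apply]
    have h2 : ∀ m, ((Matrix.of fun r c => g (π r) c) * A) r m = (g * A) (π r) m := by
      intro m
      rw [Matrix.mul_apply, Matrix.mul_apply]
      rfl
    simp only [h2, Matrix.of_apply]
    rw [h1, Matrix.diagonal_apply, Matrix.diagonal_apply]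
    simp [π.injective.eq_iff]

/-- **Triangular charts.** Any two diagonalizable complex three by three matrices can be
conjugated simultaneously to an upper triangular and a lower triangular matrix, with the
eigenvalues on the diagonals in suitable orders. -/
theorem e6_chart2 (A B : Matrix (Fin 3) (Fin 3) ℂ) (a b : Fin 3 → ℂ)
    (g g' h h' : Matrix (Fin 3) (Fin 3) ℂ) (hg : g * g' = 1) (hh : h * h' = 1)
    (hA : g * A * g' = Matrix.diagonal a) (hB : h * B * h' = Matrix.diagonal b) :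
    ∃ (σ τ : Equiv.Perm (Fin 3)) (P P' : Matrix (Fin 3) (Fin 3) ℂ) (x y z u v w : ℂ),
      P * P' = 1 ∧ P' * P = 1 ∧
      P * A * P' = !![a (σ 0), x, z; 0, a (σ 1), y; 0, 0, a (σ 2)] ∧
      P * B * P' = !![b (τ 0), 0, 0; u, b (τ 1), 0; w, v, b (τ 2)] := by
  have hg' : g' * g = 1 := mul_eq_one_comm.mp hg
  have hh' : h' * h = 1 := mul_eq_one_comm.mp hh
  -- a nonzero entry of `g * h'`
  have hM : (g * h') * (h * g') = 1 := by
    calc (g * h') * (h * g') = g * (h' * h) * g' := by simp only [Matrix.mul_assoc]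
      _ = 1 := by rw [hh', Matrix.mul_one, hg]
  have hN : (h * g') * (g * h') = 1 := mul_eq_one_comm.mp hM
  obtain ⟨k₀, j₀, hkj⟩ : ∃ k₀ j₀ : Fin 3, (g * h') k₀ j₀ ≠ 0 := by
    by_contra hcon
    push Not at hcon
    have h0 : g * h' = 0 := by
      ext r c
      exact hcon r c
    rw [h0, Matrix.zero_mul] at hM
    exact zero_ne_one hM
  obtain ⟨l₀, i₀, hlj, hik, hli⟩ := e6chart2_entry (h * g') (g * h') hN j₀ k₀
  obtain ⟨π, hπ⟩ := e6chart2_perm i₀
  obtain ⟨π', hπ'⟩ := e6chart2_perm j₀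
  obtain ⟨hg1, hA1⟩ := e6chart2_reindex A g g' a hg hA π
  obtain ⟨hh1, hB1⟩ := e6chart2_reindex B h h' b hh hB π'
  have hk : π.symm k₀ ≠ 0 := by
    intro h0
    apply hik
    rw [← hπ, ← h0, Equiv.apply_symm_apply]
  have hl : π'.symm l₀ ≠ 0 := by
    intro h0
    apply hlj
    rw [← hπ', ← h0, Equiv.apply_symm_apply]
  have hMk : (Matrix.of fun r c => g (π r) c) (π.symm k₀) ⬝ᵥ
      (fun j => (Matrix.of fun r c => h' r (π' c)) j 0) ≠ 0 := by
    have h1 : (Matrix.of fun r c => g (π r) c) (π.symm k₀) ⬝ᵥ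
        (fun j => (Matrix.of fun r c => h' r (π' c)) j 0) = (g * h') k₀ j₀ := by
      rw [Matrix.mul_apply]
      simp only [dotProduct, Matrix.of_apply, Equiv.apply_symm_apply, hπ']
    rw [h1]
    exact hkj
  have hNl : (Matrix.of fun r c => h (π' r) c) (π'.symm l₀) ⬝ᵥ
      (fun j => (Matrix.of fun r c => g' r (π c)) j 0) ≠ 0 := by
    have h1 : (Matrix.of fun r c => h (π' r) c) (π'.symm l₀) ⬝ᵥ
        (fun j => (Matrix.of fun r c => g' r (π c)) j 0) = (h * g') l₀ i₀ := by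
      rw [Matrix.mul_apply]
      simp only [dotProduct, Matrix.of_apply, Equiv.apply_symm_apply, hπ]
    rw [h1]
    exact hli
  obtain ⟨σ, τ, P, P', x, y, z, u, v, w, h1, h2, h3, h4⟩ :=
    e6chart2_core A B (fun r => a (π r)) (fun r => b (π' r)) _ _ _ _ hg1 hh1 hA1 hB1
      (π.symm k₀) (π'.symm l₀) hk hl hMk hNl
  exact ⟨π * σ, π' * τ, P, P', x, y, z, u, v, w, h1, h2, h3, h4⟩

end Vale.Agent.Lib.P002

end
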