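import Vale.Agent.Lib.P002.E6Defs

/-!
# The weight zero part of a polynomial which is torus invariant at a point
-/

noncomputable section

namespace Vale.Agent.Lib.P002

/-- The constant term of a Laurent sum which is constant on the nonzero complex numbers. -/
theorem laurent_const_term {ι : Type*} (s : Finset ι) (κ : ι → ℂ) (E : ι → ℤ) (c : ℂ)
    (h : ∀ τ : ℂ, τ ≠ 0 → ∑ d ∈ s, κ d * τ ^ (E d) = c) :
    ∑ d ∈ s.filter (fun d => E d = 0), κ d = c := by
  classical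
  set N : ℕ := ∑ d ∈ s, (E d).natAbs with hN
  have hlow : ∀ d ∈ s, 0 ≤ E d + (N : ℤ) := by
    intro d hd
    have h1 : (E d).natAbs ≤ N := Finset.single_le_sum (f := fun d => (E d).natAbs)
      (fun _ _ => Nat.zero_le _) hd
    have h2 : -((E d).natAbs : ℤ) ≤ E d := by omega
    have h3 : ((E d).natAbs : ℤ) ≤ (N : ℤ) := by exact_mod_cast h1
    linarith
  set q : Polynomial ℂ :=
    (∑ d ∈ s, Polynomial.C (κ d) * Polynomial.X ^ ((E d + (N : ℤ)).toNat))
      - Polynomial.C c * Polynomial.X ^ N with hq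
  have hroot : ∀ τ : ℂ, τ ≠ 0 → q.IsRoot τ := by
    intro τ hτ
    rw [Polynomial.IsRoot, hq, Polynomial.eval_sub, Polynomial.eval_finsetSum]
    simp only [Polynomial.eval_mul, Polynomial.eval_C, Polynomial.eval_pow, Polynomial.eval_X]
    have h1 : ∀ d ∈ s, κ d * τ ^ ((E d + (N : ℤ)).toNat) = (κ d * τ ^ (E d)) * τ ^ N := by
      intro d hd
      have h2 : τ ^ ((E d + (N : ℤ)).toNat) = τ ^ (E d + (N : ℤ)) := by
        rw [← zpow_natCast, Int.toNat_of_nonneg (hlow d hd)]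
      rw [h2, zpow_add₀ hτ, zpow_natCast, mul_assoc]
    rw [Finset.sum_congr rfl h1, ← Finset.sum_mul, h τ hτ]
    ring
  have hq0 : q = 0 := by
    apply Polynomial.eq_zero_of_infinite_isRoot
    refine Set.Infinite.mono ?_ (Set.finite_singleton (0 : ℂ)).infinite_compl
    intro τ hτ
    exact hroot τ hτ
  have hcoeff : q.coeff N = 0 := by rw [hq0, Polynomial.coeff_zero]
  rw [hq, Polynomial.coeff_sub, Polynomial.finsetSum_coeff] at hcoeff
  simp only [Polynomial.coeff_C_mul_X_pow] at hcoeff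
  rw [if_pos trivial, sub_eq_zero] at hcoeff
  rw [Finset.sum_filter, ← hcoeff]
  apply Finset.sum_congr rfl
  intro d hd
  have hiff : (N = (E d + (N : ℤ)).toNat) ↔ E d = 0 := by
    have := hlow d hd
    omega
  by_cases h0 : E d = 0
  · rw [if_pos h0, if_pos (hiff.mpr h0)]
  · rw [if_neg h0, if_neg (fun hh => h0 (hiff.mp hh))]

/-- The monomial of a torus translate. -/
theorem e6Const_monomial (s t : ℂ) (hs : s ≠ 0) (ht : t ≠ 0) (p : Fin 6 → ℂ) (d : Fin 6 →₀ ℕ) :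
    ∏ i, (e6T s t p i) ^ d i
      = s ^ (((d 0 + d 2 : ℕ) : ℤ) - ((d 3 + d 5 : ℕ) : ℤ))
        * (t ^ (((d 1 + d 2 : ℕ) : ℤ) - ((d 4 + d 5 : ℕ) : ℤ)) * ∏ i, p i ^ d i) := by
  rw [zpow_sub₀ hs, zpow_sub₀ ht, zpow_natCast, zpow_natCast, zpow_natCast, zpow_natCast,
    Fin.prod_univ_six, Fin.prod_univ_six]
  have e0 : e6T s t p 0 = s * p 0 := rfl
  have e1 : e6T s t p 1 = t * p 1 := rfl
  have e2 : e6T s t p 2 = s * t * p 2 := rfl
  have e3 : e6T s t p 3 = s⁻¹ * p 3 := rfl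
  have e4 : e6T s t p 4 = t⁻¹ * p 4 := rfl
  have e5 : e6T s t p 5 = s⁻¹ * t⁻¹ * p 5 := rfl
  rw [e0, e1, e2, e3, e4, e5]
  simp only [mul_pow, inv_pow, pow_add]
  field_simp

/-- If the value of `f` at `p` does not change under the torus action, it is the value of the
weight zero part of `f`. -/
theorem e6_weight_zero (f : MvPolynomial (Fin 6) ℂ) (p : Fin 6 → ℂ)
    (h : ∀ s t : ℂ, s ≠ 0 → t ≠ 0 →
      MvPolynomial.eval (e6T s t p) f = MvPolynomial.eval p f) :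
    MvPolynomial.eval p f =
      ∑ d ∈ f.support.filter (fun d => d 0 + d 2 = d 3 + d 5 ∧ d 1 + d 2 = d 4 + d 5),
        MvPolynomial.coeff d f * ∏ i, p i ^ d i := by
  classical
  have hexp : ∀ s t : ℂ, s ≠ 0 → t ≠ 0 →
      ∑ d ∈ f.support, (MvPolynomial.coeff d f
          * (t ^ (((d 1 + d 2 : ℕ) : ℤ) - ((d 4 + d 5 : ℕ) : ℤ)) * ∏ i, p i ^ d i))
          * s ^ (((d 0 + d 2 : ℕ) : ℤ) - ((d 3 + d 5 : ℕ) : ℤ))
        = MvPolynomial.eval p f := by
    intro s t hs ht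
    rw [← h s t hs ht, MvPolynomial.eval_eq']
    apply Finset.sum_congr rfl
    intro d _
    rw [e6Const_monomial s t hs ht p d]
    ring
  have hstep1 : ∀ t : ℂ, t ≠ 0 →
      ∑ d ∈ f.support.filter
          (fun d => (((d 0 + d 2 : ℕ) : ℤ) - ((d 3 + d 5 : ℕ) : ℤ)) = 0),
        (MvPolynomial.coeff d f * ∏ i, p i ^ d i)
          * t ^ (((d 1 + d 2 : ℕ) : ℤ) - ((d 4 + d 5 : ℕ) : ℤ))
        = MvPolynomial.eval p f := by
    intro t ht
    have h1 := laurent_const_term f.support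
      (fun d => MvPolynomial.coeff d f
          * (t ^ (((d 1 + d 2 : ℕ) : ℤ) - ((d 4 + d 5 : ℕ) : ℤ)) * ∏ i, p i ^ d i))
      (fun d => ((d 0 + d 2 : ℕ) : ℤ) - ((d 3 + d 5 : ℕ) : ℤ)) (MvPolynomial.eval p f)
      (fun τ hτ => hexp τ t hτ ht)
    rw [← h1]
    apply Finset.sum_congr rfl
    intro d _
    ring
  have hstep2 := laurent_const_term
    (f.support.filter (fun d => (((d 0 + d 2 : ℕ) : ℤ) - ((d 3 + d 5 : ℕ) : ℤ)) = 0))
    (fun d => MvPolynomial.coeff d f * ∏ i, p i ^ d i)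
    (fun d => ((d 1 + d 2 : ℕ) : ℤ) - ((d 4 + d 5 : ℕ) : ℤ)) (MvPolynomial.eval p f) hstep1
  rw [← hstep2, Finset.filter_filter]
  apply Finset.sum_congr
  · ext d
    simp only [Finset.mem_filter]
    constructor
    · rintro ⟨hd, h1, h2⟩
      exact ⟨hd, by omega, by omega⟩
    · rintro ⟨hd, h1, h2⟩
      exact ⟨hd, by omega, by omega⟩
  · intro d _
    rfl

end Vale.Agent.Lib.P002

end
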