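import Mathlib

/-!
# Triangular charts for rank three local systems on the thrice punctured sphere: definitions

A point `p : Fin 6 → ℂ` has coordinates `(x, y, z, u, v, w) = (p 0, ..., p 5)`.  It encodes the
pair of matrices `e6U a p` (upper triangular with diagonal `a`) and `e6L b p` (lower triangular
with diagonal `b`); here `z` and `w` are the corner entries of the adjugates.  The set
`e6S al be ga k1 k2` is cut out by the two equations which fix the characteristic polynomial of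
the product `e6U a p * e6L b p`.  The torus acts by `e6T`.
-/

noncomputable section

namespace Vale.Agent.Lib.P002

/-- The two equations of a chart. -/
def e6S (al be ga k1 k2 : ℂ) (p : Fin 6 → ℂ) : Prop :=
  al * (p 0 * p 3) + be * (p 1 * p 4) + p 2 * p 5 = k2 ∧
    ga * (p 0 * p 3 + p 1 * p 4) + (p 0 * p 1 - p 2) * (p 3 * p 4 - p 5) = ga * k1

/-- The torus action on the chart. -/
def e6T (s t : ℂ) (p : Fin 6 → ℂ) : Fin 6 → ℂ :=
  ![s * p 0, t * p 1, s * t * p 2, s⁻¹ * p 3, t⁻¹ * p 4, s⁻¹ * t⁻¹ * p 5]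

/-- The upper triangular matrix of a chart point. -/
def e6U (a : Fin 3 → ℂ) (p : Fin 6 → ℂ) : Matrix (Fin 3) (Fin 3) ℂ :=
  !![a 0, p 0, (a 1)⁻¹ * (p 0 * p 1 - p 2); 0, a 1, p 1; 0, 0, a 2]

/-- The lower triangular matrix of a chart point. -/
def e6L (b : Fin 3 → ℂ) (p : Fin 6 → ℂ) : Matrix (Fin 3) (Fin 3) ℂ :=
  !![b 0, 0, 0; p 3, b 1, 0; (b 1)⁻¹ * (p 3 * p 4 - p 5), p 4, b 2]

/-- The first constant of the chart equations. -/
def e6k1 (al be ga : ℂ) (c : Fin 3 → ℂ) : ℂ := c 0 + c 1 + c 2 - (al + be + ga)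

/-- The second constant of the chart equations. -/
def e6k2 (al be ga : ℂ) (c : Fin 3 → ℂ) : ℂ :=
  c 0 * c 1 + c 0 * c 2 + c 1 * c 2 - (al * be + be * ga + ga * al)

/-- The chart equations for diagonals `a`, `b` and eigenvalues `c` of the product. -/
def e6SS (a b c : Fin 3 → ℂ) (p : Fin 6 → ℂ) : Prop :=
  e6S (a 2 * b 2) (a 0 * b 0) (a 1 * b 1)
    (e6k1 (a 2 * b 2) (a 0 * b 0) (a 1 * b 1) c) (e6k2 (a 2 * b 2) (a 0 * b 0) (a 1 * b 1) c) p

end Vale.Agent.Lib.P002

end
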