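import Vale.Agent.Lib.P002.E6Van2
import Vale.Agent.Lib.P002.Laurent

/-!
# Integral families on a chart, parametrised by pairs of units

For units `δ, ε` put `w = δ - be`, `u = δ⁻¹ (w² - (ga - be) w - ε)`.  Then the determinant
`e6Dl be ga u w` equals `ε`, and the chart equations, which are linear in `(y, z)`, have the
solution `y = ε⁻¹ Ny`, `z = ε⁻¹ Nz`.  This gives two families of points of the chart, exchanged
by the symmetry `(x, y, z) ↔ (u, v, w)`, which are integral when `δ, ε` are units of a ring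
containing the constants.
-/

noncomputable section

namespace Vale.Agent.Lib.P002

theorem IsLaurent.neg {f : ℂˣ → ℂ} (hf : IsLaurent f) : IsLaurent (fun u => -f u) := by
  have h := hf.const_mul (-1)
  refine (iff_of_eq ?_).mp h
  congr 1
  funext u
  ring

theorem IsLaurent.sub {f g : ℂˣ → ℂ} (hf : IsLaurent f) (hg : IsLaurent g) :
    IsLaurent (fun u => f u - g u) := by
  have h := hf.add hg.neg
  refine (iff_of_eq ?_).mp h
  congr 1

theorem IsLaurent.pow {f : ℂˣ → ℂ} (hf : IsLaurent f) (n : ℕ) :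
    IsLaurent (fun u => f u ^ n) := by
  induction n with
  | zero => simpa using isLaurent_const 1
  | succ n ih =>
    have h := ih.mul hf
    refine (iff_of_eq ?_).mp h
    congr 1

section family

variable (al be ga k1 k2 : ℂ)

/-- The coordinate `w` of the family. -/
def e6wF (δ : ℂˣ) : ℂ := (δ : ℂ) - be

/-- The coordinate `u` of the family. -/
def e6uF (δ ε : ℂˣ) : ℂ :=
  ((δ⁻¹ : ℂˣ) : ℂ) * (e6wF be δ ^ 2 - (ga - be) * e6wF be δ - (ε : ℂ))

/-- The coordinate `y` of the family. -/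
def e6yF (δ ε : ℂˣ) : ℂ :=
  ((ε⁻¹ : ℂˣ) : ℂ) * e6Ny al ga k1 k2 (e6uF be ga δ ε) (e6wF be δ)

/-- The coordinate `z` of the family. -/
def e6zF (δ ε : ℂˣ) : ℂ :=
  ((ε⁻¹ : ℂˣ) : ℂ) * e6Nz al be ga k1 k2 (e6uF be ga δ ε) (e6wF be δ)

theorem e6Dl_fam (δ ε : ℂˣ) : e6Dl be ga (e6uF be ga δ ε) (e6wF be δ) = (ε : ℂ) := by
  have hδ : ((δ⁻¹ : ℂˣ) : ℂ) * (δ : ℂ) = 1 := by
    rw [← Units.val_mul, inv_mul_cancel, Units.val_one]
  unfold e6Dl e6uF e6wF
  linear_combination (-(((δ : ℂ) - be) ^ 2 - (ga - be) * ((δ : ℂ) - be) - (ε : ℂ))) * hδ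

theorem e6_fam_mem (δ ε : ℂˣ) :
    e6S al be ga k1 k2 ![1, e6yF al be ga k1 k2 δ ε, e6zF al be ga k1 k2 δ ε,
      e6uF be ga δ ε, 1, e6wF be δ] := by
  have hε : ((ε⁻¹ : ℂˣ) : ℂ) * (ε : ℂ) = 1 := by
    rw [← Units.val_mul, inv_mul_cancel, Units.val_one]
  have hD := e6Dl_fam be ga δ ε
  set u := e6uF be ga δ ε with hu
  set w := e6wF be δ with hw
  have hD' : w ^ 2 - w * u - (ga - be) * w - be * u = (ε : ℂ) := hD
  unfold e6S e6yF e6zF e6Ny e6Nz
  rw [← hu, ← hw]
  simp only [Matrix.cons_val_zero, Matrix.cons_val_one, Matrix.cons_val]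
  constructor
  · linear_combination ((k2 - al * u)) * hε
      + (((ε⁻¹ : ℂˣ) : ℂ) * (k2 - al * u)) * hD'
  · linear_combination (ga * (k1 - u)) * hε
      + (((ε⁻¹ : ℂˣ) : ℂ) * ga * (k1 - u)) * hD'

theorem e6_fam_mem' (δ ε : ℂˣ) :
    e6S al be ga k1 k2 ![e6uF be ga δ ε, 1, e6wF be δ, 1, e6yF al be ga k1 k2 δ ε,
      e6zF al be ga k1 k2 δ ε] := by
  have hε : ((ε⁻¹ : ℂˣ) : ℂ) * (ε : ℂ) = 1 := by
    rw [← Units.val_mul, inv_mul_cancel, Units.val_one]
  have hD := e6Dl_fam be ga δ ε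
  set u := e6uF be ga δ ε with hu
  set w := e6wF be δ with hw
  have hD' : w ^ 2 - w * u - (ga - be) * w - be * u = (ε : ℂ) := hD
  unfold e6S e6yF e6zF e6Ny e6Nz
  rw [← hu, ← hw]
  simp only [Matrix.cons_val_zero, Matrix.cons_val_one, Matrix.cons_val]
  constructor
  · linear_combination ((k2 - al * u)) * hε
      + (((ε⁻¹ : ℂˣ) : ℂ) * (k2 - al * u)) * hD'
  · linear_combination (ga * (k1 - u)) * hε
      + (((ε⁻¹ : ℂˣ) : ℂ) * ga * (k1 - u)) * hD'

theorem isLaurent_e6wF : IsLaurent (fun t : ℂˣ => e6wF be t) := by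
  unfold e6wF
  exact isLaurent_id.sub (isLaurent_const be)

theorem isLaurent_e6uF_left (ε : ℂˣ) : IsLaurent (fun t : ℂˣ => e6uF be ga t ε) := by
  unfold e6uF
  exact isLaurent_inv.mul ((((isLaurent_e6wF be).pow 2).sub
    ((isLaurent_const (ga - be)).mul (isLaurent_e6wF be))).sub (isLaurent_const _))

theorem isLaurent_e6uF_right (δ : ℂˣ) : IsLaurent (fun t : ℂˣ => e6uF be ga δ t) := by
  unfold e6uF
  exact (isLaurent_const _).mul ((isLaurent_const _).sub isLaurent_id)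

theorem isLaurent_e6Ny {f g : ℂˣ → ℂ} (hf : IsLaurent f) (hg : IsLaurent g) :
    IsLaurent (fun t => e6Ny al ga k1 k2 (f t) (g t)) := by
  unfold e6Ny
  exact ((((isLaurent_const k2).sub ((isLaurent_const al).mul hf)).mul hf).neg).sub
    (hg.mul ((isLaurent_const (ga * k1 - k2)).sub ((isLaurent_const (ga - al)).mul hf)))

theorem isLaurent_e6Nz {f g : ℂˣ → ℂ} (hf : IsLaurent f) (hg : IsLaurent g) :
    IsLaurent (fun t => e6Nz al be ga k1 k2 (f t) (g t)) := by
  unfold e6Nz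
  exact ((isLaurent_const be).mul
      ((isLaurent_const (ga * k1 - k2)).sub ((isLaurent_const (ga - al)).mul hf))).sub
    ((((hf.sub hg).add (isLaurent_const ga)).sub (isLaurent_const be)).mul
      ((isLaurent_const k2).sub ((isLaurent_const al).mul hf)))

theorem isLaurent_e6yF_left (ε : ℂˣ) : IsLaurent (fun t : ℂˣ => e6yF al be ga k1 k2 t ε) := by
  unfold e6yF
  exact (isLaurent_const _).mul
    (isLaurent_e6Ny al ga k1 k2 (isLaurent_e6uF_left be ga ε) (isLaurent_e6wF be))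

theorem isLaurent_e6yF_right (δ : ℂˣ) : IsLaurent (fun t : ℂˣ => e6yF al be ga k1 k2 δ t) := by
  unfold e6yF
  exact isLaurent_inv.mul
    (isLaurent_e6Ny al ga k1 k2 (isLaurent_e6uF_right be ga δ) (isLaurent_const _))

theorem isLaurent_e6zF_left (ε : ℂˣ) : IsLaurent (fun t : ℂˣ => e6zF al be ga k1 k2 t ε) := by
  unfold e6zF
  exact (isLaurent_const _).mul
    (isLaurent_e6Nz al be ga k1 k2 (isLaurent_e6uF_left be ga ε) (isLaurent_e6wF be))

theorem isLaurent_e6zF_right (δ : ℂˣ) : IsLaurent (fun t : ℂˣ => e6zF al be ga k1 k2 δ t) := by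
  unfold e6zF
  exact isLaurent_inv.mul
    (isLaurent_e6Nz al be ga k1 k2 (isLaurent_e6uF_right be ga δ) (isLaurent_const _))

theorem isLaurent_eval_pair {f g : ℂˣ → ℂ} (hf : IsLaurent f) (hg : IsLaurent g)
    (G : MvPolynomial (Fin 2) ℂ) : IsLaurent (fun t => MvPolynomial.eval ![f t, g t] G) := by
  apply IsLaurent.eval_mvPolynomial
  intro v
  fin_cases v
  · simpa using hf
  · simpa using hg

end family

/-- **Density on a chart.** If `G0(X, Y) + G1(X, Y) P` vanishes at all points of the chart with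
coordinates in a ring `O` containing the constants and an infinite set of units, then `G0` and
`G1` vanish identically. -/
theorem e6_density (al be ga k1 k2 : ℂ) (hal0 : al ≠ 0)
    (O : Subring ℂ) (hal : al ∈ O) (hbe : be ∈ O) (hga : ga ∈ O) (hk1 : k1 ∈ O) (hk2 : k2 ∈ O)
    (U : Set ℂˣ) (hU : U.Infinite) (hUO : ∀ u ∈ U, (u : ℂ) ∈ O ∧ ((u⁻¹ : ℂˣ) : ℂ) ∈ O)
    (G0 G1 : MvPolynomial (Fin 2) ℂ)
    (h : ∀ p : Fin 6 → ℂ, e6S al be ga k1 k2 p → (∀ i, p i ∈ O) →
      MvPolynomial.eval ![p 0 * p 3, p 1 * p 4] G0 +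
        MvPolynomial.eval ![p 0 * p 3, p 1 * p 4] G1 * (p 0 * p 1 * p 5) = 0) :
    ∀ x y : ℂ, MvPolynomial.eval ![x, y] G0 = 0 ∧ MvPolynomial.eval ![x, y] G1 = 0 := by
  -- the two functions of the pair of units
  let E1 : (Fin 2 → ℂˣ) → ℂ := fun s =>
    MvPolynomial.eval ![e6uF be ga (s 0) (s 1), e6yF al be ga k1 k2 (s 0) (s 1)] G0 +
      MvPolynomial.eval ![e6uF be ga (s 0) (s 1), e6yF al be ga k1 k2 (s 0) (s 1)] G1 *
        (e6yF al be ga k1 k2 (s 0) (s 1) * e6wF be (s 0))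
  let E2 : (Fin 2 → ℂˣ) → ℂ := fun s =>
    MvPolynomial.eval ![e6uF be ga (s 0) (s 1), e6yF al be ga k1 k2 (s 0) (s 1)] G0 +
      MvPolynomial.eval ![e6uF be ga (s 0) (s 1), e6yF al be ga k1 k2 (s 0) (s 1)] G1 *
        (e6uF be ga (s 0) (s 1) * e6zF al be ga k1 k2 (s 0) (s 1))
  -- integrality of the coordinates
  have hint : ∀ δ ∈ U, ∀ ε ∈ U, e6wF be δ ∈ O ∧ e6uF be ga δ ε ∈ O ∧
      e6yF al be ga k1 k2 δ ε ∈ O ∧ e6zF al be ga k1 k2 δ ε ∈ O := by
    intro δ hδ ε hε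
    have hw : e6wF be δ ∈ O := sub_mem (hUO δ hδ).1 hbe
    have hu : e6uF be ga δ ε ∈ O :=
      mul_mem (hUO δ hδ).2 (sub_mem (sub_mem (pow_mem hw 2) (mul_mem (sub_mem hga hbe) hw))
        (hUO ε hε).1)
    have h1 : ga * k1 - k2 - (ga - al) * e6uF be ga δ ε ∈ O :=
      sub_mem (sub_mem (mul_mem hga hk1) hk2) (mul_mem (sub_mem hga hal) hu)
    have h2 : k2 - al * e6uF be ga δ ε ∈ O := sub_mem hk2 (mul_mem hal hu)
    refine ⟨hw, hu, ?_, ?_⟩
    · exact mul_mem (hUO ε hε).2 (sub_mem (neg_mem (mul_mem h2 hu)) (mul_mem hw h1))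
    · exact mul_mem (hUO ε hε).2 (sub_mem (mul_mem hbe h1)
        (mul_mem (sub_mem (add_mem (sub_mem hu hw) hga) hbe) h2))
  -- vanishing on the grid of units
  have hE1U : ∀ s : Fin 2 → ℂˣ, (∀ v, s v ∈ U) → E1 s = 0 := by
    intro s hs
    obtain ⟨hw, hu, hy, hz⟩ := hint (s 0) (hs 0) (s 1) (hs 1)
    have := h _ (e6_fam_mem al be ga k1 k2 (s 0) (s 1)) (by
      intro i
      fin_cases i
      · exact one_mem O
      · exact hy
      · exact hz
      · exact hu
      · exact one_mem O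
      · exact hw)
    simpa [E1] using this
  have hE2U : ∀ s : Fin 2 → ℂˣ, (∀ v, s v ∈ U) → E2 s = 0 := by
    intro s hs
    obtain ⟨hw, hu, hy, hz⟩ := hint (s 0) (hs 0) (s 1) (hs 1)
    have := h _ (e6_fam_mem' al be ga k1 k2 (s 0) (s 1)) (by
      intro i
      fin_cases i
      · exact hu
      · exact one_mem O
      · exact hw
      · exact one_mem O
      · exact hy
      · exact hz)
    simpa [E2] using this
  -- Laurent in each variable
  have hupd0 : ∀ (s : Fin 2 → ℂˣ) (t : ℂˣ),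
      (Function.update s 0 t) 0 = t ∧ (Function.update s 0 t) 1 = s 1 := by
    intro s t
    exact ⟨by simp, by simp [Function.update]⟩
  have hupd1 : ∀ (s : Fin 2 → ℂˣ) (t : ℂˣ),
      (Function.update s 1 t) 0 = s 0 ∧ (Function.update s 1 t) 1 = t := by
    intro s t
    exact ⟨by simp [Function.update], by simp⟩
  have hE1L : ∀ (s : Fin 2 → ℂˣ) (v : Fin 2),
      IsLaurent (fun t => E1 (Function.update s v t)) := by
    intro s v
    fin_cases v
    · simp only [E1, Fin.zero_eta, (hupd0 s _).1, (hupd0 s _).2]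
      exact (isLaurent_eval_pair (isLaurent_e6uF_left be ga _)
          (isLaurent_e6yF_left al be ga k1 k2 _) G0).add
        ((isLaurent_eval_pair (isLaurent_e6uF_left be ga _)
          (isLaurent_e6yF_left al be ga k1 k2 _) G1).mul
          ((isLaurent_e6yF_left al be ga k1 k2 _).mul (isLaurent_e6wF be)))
    · simp only [E1, Fin.mk_one, (hupd1 s _).1, (hupd1 s _).2]
      exact (isLaurent_eval_pair (isLaurent_e6uF_right be ga _)
          (isLaurent_e6yF_right al be ga k1 k2 _) G0).add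
        ((isLaurent_eval_pair (isLaurent_e6uF_right be ga _)
          (isLaurent_e6yF_right al be ga k1 k2 _) G1).mul
          ((isLaurent_e6yF_right al be ga k1 k2 _).mul (isLaurent_const _)))
  have hE2L : ∀ (s : Fin 2 → ℂˣ) (v : Fin 2),
      IsLaurent (fun t => E2 (Function.update s v t)) := by
    intro s v
    fin_cases v
    · simp only [E2, Fin.zero_eta, (hupd0 s _).1, (hupd0 s _).2]
      exact (isLaurent_eval_pair (isLaurent_e6uF_left be ga _)
          (isLaurent_e6yF_left al be ga k1 k2 _) G0).add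
        ((isLaurent_eval_pair (isLaurent_e6uF_left be ga _)
          (isLaurent_e6yF_left al be ga k1 k2 _) G1).mul
          ((isLaurent_e6uF_left be ga _).mul (isLaurent_e6zF_left al be ga k1 k2 _)))
    · simp only [E2, Fin.mk_one, (hupd1 s _).1, (hupd1 s _).2]
      exact (isLaurent_eval_pair (isLaurent_e6uF_right be ga _)
          (isLaurent_e6yF_right al be ga k1 k2 _) G0).add
        ((isLaurent_eval_pair (isLaurent_e6uF_right be ga _)
          (isLaurent_e6yF_right al be ga k1 k2 _) G1).mul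
          ((isLaurent_e6uF_right be ga _).mul (isLaurent_e6zF_right al be ga k1 k2 _)))
  have hE1 : ∀ s, E1 s = 0 := eq_zero_of_grid E1 hE1L U hU hE1U
  have hE2 : ∀ s, E2 s = 0 := eq_zero_of_grid E2 hE2L U hU hE2U
  -- pass to the parameters `(u, w)`
  apply e6_poly_vanish2 al be ga k1 k2 hal0 G0 G1
  intro u w hw hD
  let δ : ℂˣ := Units.mk0 (w + be) hw
  let ε : ℂˣ := Units.mk0 (e6Dl be ga u w) hD
  have hwF : e6wF be δ = w := by simp [e6wF, δ]
  have huF : e6uF be ga δ ε = u := by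
    unfold e6uF
    rw [hwF]
    simp only [δ, ε, Units.val_inv_eq_inv_val, Units.val_mk0]
    unfold e6Dl
    field_simp
    ring
  have hyF : e6yF al be ga k1 k2 δ ε = e6Ny al ga k1 k2 u w / e6Dl be ga u w := by
    unfold e6yF
    rw [hwF, huF]
    simp only [ε, Units.val_inv_eq_inv_val, Units.val_mk0]
    rw [div_eq_inv_mul]
  have hzF : e6zF al be ga k1 k2 δ ε = e6Nz al be ga k1 k2 u w / e6Dl be ga u w := by
    unfold e6zF
    rw [hwF, huF]
    simp only [ε, Units.val_inv_eq_inv_val, Units.val_mk0]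
    rw [div_eq_inv_mul]
  have h1 := hE1 ![δ, ε]
  have h2 := hE2 ![δ, ε]
  simp only [E1, E2, Matrix.cons_val_zero, Matrix.cons_val_one, huF, hyF, hzF, hwF] at h1 h2
  exact ⟨h1, h2⟩

end Vale.Agent.Lib.P002

end
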