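import Vale.Agent.Lib.P002.E6NF
import Vale.Agent.Lib.P002.E6Fam

/-!
# Density of the integral points of a chart
-/

noncomputable section

namespace Vale.Agent.Lib.P002

/-- A polynomial which is torus invariant on a chart and vanishes at the points of the chart
with coordinates in a ring `O`, containing the constants and an infinite set of units, vanishes
on the chart. -/
theorem e6_chart_density (al be ga k1 k2 : ℂ) (hal0 : al ≠ 0)
    (O : Subring ℂ) (hal : al ∈ O) (hbe : be ∈ O) (hga : ga ∈ O) (hk1 : k1 ∈ O) (hk2 : k2 ∈ O)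
    (U : Set ℂˣ) (hU : U.Infinite) (hUO : ∀ u ∈ U, (u : ℂ) ∈ O ∧ ((u⁻¹ : ℂˣ) : ℂ) ∈ O)
    (f : MvPolynomial (Fin 6) ℂ)
    (hinv : ∀ p, e6S al be ga k1 k2 p → ∀ s t : ℂ, s ≠ 0 → t ≠ 0 →
      MvPolynomial.eval (e6T s t p) f = MvPolynomial.eval p f)
    (hvan : ∀ p, e6S al be ga k1 k2 p → (∀ i, p i ∈ O) → MvPolynomial.eval p f = 0) :
    ∀ p, e6S al be ga k1 k2 p → MvPolynomial.eval p f = 0 := by
  obtain ⟨G0, G1, hG⟩ := e6_normal_form al be ga k1 k2 f
  have h0 := e6_density al be ga k1 k2 hal0 O hal hbe hga hk1 hk2 U hU hUO G0 G1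
    (fun p hp hpO => by
      rw [← hG p hp (hinv p hp)]
      exact hvan p hp hpO)
  intro p hp
  rw [hG p hp (hinv p hp), (h0 _ _).1, (h0 _ _).2]
  ring

end Vale.Agent.Lib.P002

end
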