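import Mathlib

/-!
# Three by three matrices: characteristic polynomial and diagonalization
-/

noncomputable section

namespace Vale.Agent.Lib.P002

open Polynomial

/-- The characteristic polynomial of a three by three matrix. -/
theorem charpoly_fin_three (M : Matrix (Fin 3) (Fin 3) ℂ) :
    M.charpoly = X ^ 3 - C M.trace * X ^ 2
      + C (M 0 0 * M 1 1 - M 0 1 * M 1 0 + (M 0 0 * M 2 2 - M 0 2 * M 2 0)
          + (M 1 1 * M 2 2 - M 1 2 * M 2 1)) * X - C M.det := by
  rw [Matrix.charpoly, Matrix.det_fin_three, Matrix.det_fin_three, Matrix.trace_fin_three]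
  simp only [Matrix.charmatrix_apply, Matrix.diagonal_apply_eq, Matrix.diagonal_apply_ne,
    ne_eq, Fin.reduceEq, not_false_eq_true, map_add, map_sub, map_mul, zero_sub]
  ring

/-- Each root of the characteristic polynomial has a nonzero eigenvector. -/
theorem e6Diag_eigvec (M : Matrix (Fin 3) (Fin 3) ℂ) (t : ℂ) (ht : M.charpoly.eval t = 0) :
    ∃ v : Fin 3 → ℂ, v ≠ 0 ∧ M.mulVec v = t • v := by
  rw [Matrix.eval_charpoly] at ht
  obtain ⟨v, hv, hv0⟩ := Matrix.exists_mulVec_eq_zero_iff.mpr ht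
  refine ⟨v, hv, ?_⟩
  rw [Matrix.sub_mulVec] at hv0
  have h1 : (Matrix.scalar (Fin 3) t).mulVec v = t • v := by
    ext i
    simp [Matrix.mulVec, dotProduct, Matrix.scalar_apply, Matrix.diagonal_apply]
  rw [h1] at hv0
  exact (sub_eq_zero.mp hv0).symm

/-- A three by three matrix whose characteristic polynomial has the three distinct roots
`d 0, d 1, d 2` is conjugate to the diagonal matrix `d`. -/
theorem e6_diag3 (M : Matrix (Fin 3) (Fin 3) ℂ) (d : Fin 3 → ℂ) (hd : Function.Injective d)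
    (h : M.charpoly = (X - C (d 0)) * (X - C (d 1)) * (X - C (d 2))) :
    ∃ g g' : Matrix (Fin 3) (Fin 3) ℂ, g * g' = 1 ∧ g' * g = 1 ∧
      g * M * g' = Matrix.diagonal d := by
  have hroot : ∀ i : Fin 3, M.charpoly.eval (d i) = 0 := by
    intro i
    rw [h]
    fin_cases i <;> simp
  choose v hv0 hv using fun i => e6Diag_eigvec M (d i) (hroot i)
  have hli : LinearIndependent ℂ v := by
    apply Module.End.eigenvectors_linearIndependent' (Matrix.toLin' M) d hd v
    intro i
    rw [Module.End.hasEigenvector_iff, Module.End.mem_eigenspace_iff]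
    exact ⟨by rw [Matrix.toLin'_apply]; exact hv i, hv0 i⟩
  set g' : Matrix (Fin 3) (Fin 3) ℂ := Matrix.of (fun j i => v i j) with hg'
  have hcol : g'.col = v := by
    ext i j
    simp [hg', Matrix.col]
  have hunit : IsUnit g' := by
    rw [← Matrix.linearIndependent_cols_iff_isUnit, hcol]
    exact hli
  have hdet : IsUnit g'.det := (Matrix.isUnit_iff_isUnit_det g').mp hunit
  have hMg : M * g' = g' * Matrix.diagonal d := by
    ext j i
    have := congrFun (hv i) j
    simp only [Matrix.mulVec, dotProduct, Pi.smul_apply, smul_eq_mul] at this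
    simp only [Matrix.mul_apply, hg', Matrix.of_apply, Matrix.diagonal_apply, mul_ite, mul_zero,
      Finset.sum_ite_eq', Finset.mem_univ, if_true]
    rw [this]
    ring
  refine ⟨g'⁻¹, g', Matrix.nonsing_inv_mul g' hdet, Matrix.mul_nonsing_inv g' hdet, ?_⟩
  rw [Matrix.mul_assoc, hMg, ← Matrix.mul_assoc, Matrix.nonsing_inv_mul g' hdet, Matrix.one_mul]

/-- Conjugation by an invertible matrix can be realised by a matrix of determinant one. -/
theorem e6_sl_conj (M : Matrix.SpecialLinearGroup (Fin 3) ℂ)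
    (g g' : Matrix (Fin 3) (Fin 3) ℂ) (hg : g * g' = 1) (N : Matrix (Fin 3) (Fin 3) ℂ)
    (h : g * M.1 * g' = N) :
    ∃ k : Matrix.SpecialLinearGroup (Fin 3) ℂ, (k * M * k⁻¹).1 = N := by
  have hdet : g.det * g'.det = 1 := by
    rw [← Matrix.det_mul, hg, Matrix.det_one]
  have hg0 : g.det ≠ 0 := left_ne_zero_of_mul_eq_one hdet
  have hg0' : g'.det ≠ 0 := right_ne_zero_of_mul_eq_one hdet
  obtain ⟨c, hc⟩ := IsAlgClosed.exists_pow_nat_eq (g.det)⁻¹ (n := 3) (by norm_num)
  have hc0 : c ≠ 0 := by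
    intro h0
    rw [h0] at hc
    have : (g.det)⁻¹ ≠ 0 := inv_ne_zero hg0
    exact this (by rw [← hc]; norm_num)
  have hk : (c • g).det = 1 := by
    rw [Matrix.det_smul, Fintype.card_fin, hc]
    exact inv_mul_cancel₀ hg0
  have hk' : (c⁻¹ • g').det = 1 := by
    rw [Matrix.det_smul, Fintype.card_fin, inv_pow, hc, inv_inv]
    exact hdet
  let k : Matrix.SpecialLinearGroup (Fin 3) ℂ := ⟨c • g, hk⟩
  let k' : Matrix.SpecialLinearGroup (Fin 3) ℂ := ⟨c⁻¹ • g', hk'⟩
  have hkk : k * k' = 1 := by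
    apply Subtype.ext
    change (c • g) * (c⁻¹ • g') = 1
    rw [Matrix.smul_mul, Matrix.mul_smul, smul_smul, mul_inv_cancel₀ hc0, one_smul, hg]
  have hinv : k⁻¹ = k' := inv_eq_of_mul_eq_one_right hkk
  refine ⟨k, ?_⟩
  rw [hinv]
  change (c • g) * M.1 * (c⁻¹ • g') = N
  rw [Matrix.smul_mul, Matrix.smul_mul, Matrix.mul_smul, smul_smul, mul_inv_cancel₀ hc0,
    one_smul, h]

end Vale.Agent.Lib.P002

end
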