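import Vale.Agent.Lib.P002.E6Defs
import Vale.Agent.Lib.P002.E6Diag

/-!
# The matrices of a chart point: determinants, characteristic polynomials, torus action
-/

noncomputable section

namespace Vale.Agent.Lib.P002

open Polynomial

theorem e6U_det (a : Fin 3 → ℂ) (p : Fin 6 → ℂ) : (e6U a p).det = a 0 * a 1 * a 2 := by
  rw [Matrix.det_fin_three]
  simp [e6U]

theorem e6L_det (b : Fin 3 → ℂ) (p : Fin 6 → ℂ) : (e6L b p).det = b 0 * b 1 * b 2 := by
  rw [Matrix.det_fin_three]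
  simp [e6L]

/-- The expanded form of a monic cubic with three given roots. -/
theorem e6pt_expand (c0 c1 c2 : ℂ) :
    (X - C c0) * (X - C c1) * (X - C c2)
      = (X ^ 3 - C (c0 + c1 + c2) * X ^ 2 + C (c0 * c1 + c0 * c2 + c1 * c2) * X
          - C (c0 * c1 * c2) : ℂ[X]) := by
  simp only [map_add, map_mul]
  ring

/-- Two monic cubics in expanded form are equal only if their coefficients agree. -/
theorem e6pt_cubic_inj (t e d t' e' d' : ℂ)
    (h : (X ^ 3 - C t * X ^ 2 + C e * X - C d : ℂ[X])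
      = X ^ 3 - C t' * X ^ 2 + C e' * X - C d') : t = t' ∧ e = e' := by
  have h2 := congrArg (fun q : ℂ[X] => q.coeff 2) h
  have h1 := congrArg (fun q : ℂ[X] => q.coeff 1) h
  simp only [coeff_sub, coeff_add, coeff_X_pow, coeff_C_mul, coeff_X, coeff_C] at h1 h2
  norm_num at h1 h2
  exact ⟨h2, h1⟩

theorem e6U_charpoly (a : Fin 3 → ℂ) (p : Fin 6 → ℂ) :
    (e6U a p).charpoly = (X - C (a 0)) * (X - C (a 1)) * (X - C (a 2)) := by
  rw [charpoly_fin_three, e6U_det, e6pt_expand, Matrix.trace_fin_three]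
  simp [e6U]

theorem e6L_charpoly (b : Fin 3 → ℂ) (p : Fin 6 → ℂ) :
    (e6L b p).charpoly = (X - C (b 0)) * (X - C (b 1)) * (X - C (b 2)) := by
  rw [charpoly_fin_three, e6L_det, e6pt_expand, Matrix.trace_fin_three]
  simp [e6L]

/-- The trace of the product of the two matrices of a chart point. -/
theorem e6pt_trace (a b : Fin 3 → ℂ) (p : Fin 6 → ℂ) :
    (e6U a p * e6L b p).trace = a 2 * b 2 + a 0 * b 0 + a 1 * b 1 + p 0 * p 3 + p 1 * p 4
      + (a 1)⁻¹ * (b 1)⁻¹ * ((p 0 * p 1 - p 2) * (p 3 * p 4 - p 5)) := by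
  rw [Matrix.trace_fin_three]
  simp [e6U, e6L, Matrix.mul_apply, Fin.sum_univ_three]
  ring

/-- The middle coefficient of the characteristic polynomial of the product. -/
theorem e6pt_mid (a b : Fin 3 → ℂ) (ha : a 0 * a 1 * a 2 = 1) (hb : b 0 * b 1 * b 2 = 1)
    (p : Fin 6 → ℂ) :
    (e6U a p * e6L b p) 0 0 * (e6U a p * e6L b p) 1 1
        - (e6U a p * e6L b p) 0 1 * (e6U a p * e6L b p) 1 0
      + ((e6U a p * e6L b p) 0 0 * (e6U a p * e6L b p) 2 2
        - (e6U a p * e6L b p) 0 2 * (e6U a p * e6L b p) 2 0)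
      + ((e6U a p * e6L b p) 1 1 * (e6U a p * e6L b p) 2 2
        - (e6U a p * e6L b p) 1 2 * (e6U a p * e6L b p) 2 1)
      = (a 2 * b 2) * (a 0 * b 0) + (a 0 * b 0) * (a 1 * b 1) + (a 1 * b 1) * (a 2 * b 2)
        + (a 2 * b 2) * (p 0 * p 3) + (a 0 * b 0) * (p 1 * p 4) + p 2 * p 5 := by
  have ha0 : a 0 ≠ 0 := by
    intro h
    rw [h] at ha
    simp at ha
  have ha1 : a 1 ≠ 0 := by
    intro h
    rw [h] at ha
    simp at ha
  have hb0 : b 0 ≠ 0 := by
    intro h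
    rw [h] at hb
    simp at hb
  have hb1 : b 1 ≠ 0 := by
    intro h
    rw [h] at hb
    simp at hb
  have ha2 : a 2 = (a 0 * a 1)⁻¹ := eq_inv_of_mul_eq_one_right ha
  have hb2 : b 2 = (b 0 * b 1)⁻¹ := eq_inv_of_mul_eq_one_right hb
  simp only [e6U, e6L, Matrix.mul_apply, Fin.sum_univ_three, Matrix.of_apply,
    Matrix.cons_val', Matrix.cons_val_zero, Matrix.cons_val_one, Matrix.cons_val_two,
    Matrix.empty_val', Matrix.cons_val_fin_one, Matrix.head_cons, Matrix.tail_cons,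
    Matrix.head_fin_const]
  rw [ha2, hb2]
  field_simp
  ring

/-- The product of the two matrices of a chart point has eigenvalues `c` exactly when the point
satisfies the chart equations. -/
theorem e6UL_charpoly_iff (a b c : Fin 3 → ℂ) (ha : a 0 * a 1 * a 2 = 1)
    (hb : b 0 * b 1 * b 2 = 1) (hc : c 0 * c 1 * c 2 = 1) (p : Fin 6 → ℂ) :
    (e6U a p * e6L b p).charpoly = (X - C (c 0)) * (X - C (c 1)) * (X - C (c 2)) ↔
      e6SS a b c p := by
  have ha1 : a 1 ≠ 0 := by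
    intro h
    rw [h] at ha
    simp at ha
  have hb1 : b 1 ≠ 0 := by
    intro h
    rw [h] at hb
    simp at hb
  have hdet : (e6U a p * e6L b p).det = 1 := by
    rw [Matrix.det_mul, e6U_det, e6L_det, ha, hb, mul_one]
  rw [charpoly_fin_three, e6pt_mid a b ha hb p, e6pt_trace, hdet, e6pt_expand, hc]
  unfold e6SS e6S e6k1 e6k2
  constructor
  · intro h
    obtain ⟨h1, h2⟩ := e6pt_cubic_inj _ _ _ _ _ _ h
    refine ⟨by linear_combination h2, ?_⟩
    have h3 : a 1 * b 1 * (a 2 * b 2 + a 0 * b 0 + a 1 * b 1 + p 0 * p 3 + p 1 * p 4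
        + (a 1)⁻¹ * (b 1)⁻¹ * ((p 0 * p 1 - p 2) * (p 3 * p 4 - p 5)))
        = a 1 * b 1 * (c 0 + c 1 + c 2) := by rw [h1]
    field_simp at h3
    linear_combination h3
  · rintro ⟨h1, h2⟩
    have e1 : a 2 * b 2 + a 0 * b 0 + a 1 * b 1 + p 0 * p 3 + p 1 * p 4
        + (a 1)⁻¹ * (b 1)⁻¹ * ((p 0 * p 1 - p 2) * (p 3 * p 4 - p 5)) = c 0 + c 1 + c 2 := by
      field_simp
      linear_combination h2
    have e2 : (a 2 * b 2) * (a 0 * b 0) + (a 0 * b 0) * (a 1 * b 1) + (a 1 * b 1) * (a 2 * b 2)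
        + (a 2 * b 2) * (p 0 * p 3) + (a 0 * b 0) * (p 1 * p 4) + p 2 * p 5
        = c 0 * c 1 + c 0 * c 2 + c 1 * c 2 := by
      linear_combination h1
    rw [e1, e2]

/-- The torus action on chart points is conjugation by diagonal matrices. -/
theorem e6T_conj (a b : Fin 3 → ℂ) (s t : ℂ) (hs : s ≠ 0) (ht : t ≠ 0) (p : Fin 6 → ℂ) :
    e6U a (e6T s t p) =
        Matrix.diagonal ![s * t, t, 1] * e6U a p * Matrix.diagonal ![(s * t)⁻¹, t⁻¹, 1] ∧
      e6L b (e6T s t p) =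
        Matrix.diagonal ![s * t, t, 1] * e6L b p * Matrix.diagonal ![(s * t)⁻¹, t⁻¹, 1] := by
  constructor
  · ext i j
    fin_cases i <;> fin_cases j <;>
      simp [e6U, e6T, Matrix.mul_apply, Matrix.diagonal] <;> field_simp
  · ext i j
    fin_cases i <;> fin_cases j <;>
      simp [e6L, e6T, Matrix.mul_apply, Matrix.diagonal] <;> field_simp

/-- The torus action preserves the chart equations. -/
theorem e6S_e6T (al be ga k1 k2 s t : ℂ) (hs : s ≠ 0) (ht : t ≠ 0) (p : Fin 6 → ℂ)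
    (hp : e6S al be ga k1 k2 p) : e6S al be ga k1 k2 (e6T s t p) := by
  obtain ⟨h1, h2⟩ := hp
  have e0 : e6T s t p 0 = s * p 0 := rfl
  have e1 : e6T s t p 1 = t * p 1 := rfl
  have e2 : e6T s t p 2 = s * t * p 2 := rfl
  have e3 : e6T s t p 3 = s⁻¹ * p 3 := rfl
  have e4 : e6T s t p 4 = t⁻¹ * p 4 := rfl
  have e5 : e6T s t p 5 = s⁻¹ * t⁻¹ * p 5 := rfl
  unfold e6S
  rw [e0, e1, e2, e3, e4, e5]
  refine ⟨?_, ?_⟩
  · rw [← h1]
    field_simp
  · rw [← h2]
    field_simp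

end Vale.Agent.Lib.P002

end
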