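import Vale.Agent.Lib.P002.Blocks

/-!
# Preparations for the torus knot groups: conjugation invariance and integral conjugators
-/

noncomputable section

namespace Vale.Agent.Lib.P002

open Matrix

variable {r : ℕ}

/-- The coordinates of a pair of matrices. -/
def pairPt (M₀ M₁ : Matrix (Fin r) (Fin r) ℂ) : Fin 2 × Fin r × Fin r → ℂ :=
  fun x => (![M₀, M₁] x.1) x.2.1 x.2.2

theorem pairPt_zero (M₀ M₁ : Matrix (Fin r) (Fin r) ℂ) (i j : Fin r) :
    pairPt M₀ M₁ (0, i, j) = M₀ i j := rfl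

theorem pairPt_one (M₀ M₁ : Matrix (Fin r) (Fin r) ℂ) (i j : Fin r) :
    pairPt M₀ M₁ (1, i, j) = M₁ i j := rfl

/-- Invariance under simultaneous conjugation by `SL_r(ℂ)` implies invariance under
simultaneous conjugation by any invertible matrix. -/
theorem pair_conj_eq (p q : ℕ) (F : MvPolynomial (Fin 2 × Fin r × Fin r) ℂ)
    (Hinv : ∀ A B h : Matrix.SpecialLinearGroup (Fin r) ℂ, A ^ p = B ^ q →
      MvPolynomial.eval (pairPt (h * A * h⁻¹).1 (h * B * h⁻¹).1) F
        = MvPolynomial.eval (pairPt A.1 B.1) F)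
    (A B : Matrix.SpecialLinearGroup (Fin r) ℂ) (hAB : A ^ p = B ^ q)
    (P Q : Matrix (Fin r) (Fin r) ℂ) (hPQ : P * Q = 1) (hQP : Q * P = 1) :
    MvPolynomial.eval (pairPt (Q * A.1 * P) (Q * B.1 * P)) F
      = MvPolynomial.eval (pairPt A.1 B.1) F := by
  rcases r with _ | m
  · exact congrArg (fun x => MvPolynomial.eval x F) (funext fun x => x.2.1.elim0)
  · have hdet : Q.det * P.det = 1 := by rw [← Matrix.det_mul, hQP, Matrix.det_one]
    have hdetQ : Q.det ≠ 0 := left_ne_zero_of_mul_eq_one hdet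
    obtain ⟨c, hc⟩ := IsAlgClosed.exists_pow_nat_eq Q.det (Nat.succ_pos m)
    have hc0 : c ≠ 0 := by
      rintro rfl
      rw [zero_pow (Nat.succ_ne_zero m)] at hc
      exact hdetQ hc.symm
    let h : Matrix.SpecialLinearGroup (Fin (m + 1)) ℂ := ⟨c⁻¹ • Q, by
      rw [Matrix.det_smul, Fintype.card_fin, inv_pow, hc, inv_mul_cancel₀ hdetQ]⟩
    let h' : Matrix.SpecialLinearGroup (Fin (m + 1)) ℂ := ⟨c • P, by
      rw [Matrix.det_smul, Fintype.card_fin, hc, hdet]⟩
    have hh' : h * h' = 1 := by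
      apply Subtype.ext
      show (c⁻¹ • Q) * (c • P) = 1
      rw [smul_mul_smul_comm, hQP, inv_mul_cancel₀ hc0, one_smul]
    have hinv : h⁻¹ = h' := inv_eq_of_mul_eq_one_right hh'
    have hval : ∀ g : Matrix.SpecialLinearGroup (Fin (m + 1)) ℂ,
        (h * g * h').1 = Q * g.1 * P := by
      intro g
      have e1 : (h * g * h').1 = h.1 * g.1 * h'.1 := by
        rw [Matrix.SpecialLinearGroup.coe_mul, Matrix.SpecialLinearGroup.coe_mul]
      have e2 : h.1 = c⁻¹ • Q := rfl
      have e3 : h'.1 = c • P := rfl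
      rw [e1, e2, e3, Matrix.smul_mul, Matrix.smul_mul, Matrix.mul_smul, smul_smul,
        inv_mul_cancel₀ hc0, one_smul]
    have key := Hinv A B h hAB
    rw [hinv, hval, hval] at key
    exact key

/-- Divisibility of levels gives inclusion of the unit groups. -/
theorem unitGroup_mono {N N' : ℕ} (h : N ∣ N') (hN' : 0 < N') : unitGroup N ≤ unitGroup N' := by
  unfold unitGroup
  rw [Subgroup.closure_le]
  rintro x (rfl | rfl)
  · apply zpowers_zetaU_le_unitGroup
    apply mem_zpowers_zetaU hN'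
    have hN : 0 < N := Nat.pos_of_dvd_of_pos h hN'
    obtain ⟨c, rfl⟩ := h
    rw [pow_mul, zetaU_pow hN, one_pow]
  · exact unitW_mem_unitGroup N'

/-- The invertible matrices commuting with `diagonal δ` whose entries, and the entries of whose
inverse, are algebraic integers of the field `fieldLN N`. -/
def intSet (N : ℕ) (δ : Fin r → ℂ) : Set (Matrix (Fin r) (Fin r) ℂ) :=
  {g | IsUnit g.det ∧ g * Matrix.diagonal δ = Matrix.diagonal δ * g ∧
    (∀ i j, g i j ∈ fieldLN N ∧ IsIntegral ℤ (g i j)) ∧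
    (∀ i j, g⁻¹ i j ∈ fieldLN N ∧ IsIntegral ℤ (g⁻¹ i j))}

theorem intSet_det {N : ℕ} {δ : Fin r → ℂ} : ∀ s ∈ intSet N δ, IsUnit s.det :=
  fun _ hs => hs.1

theorem mul_entries_integral {N : ℕ} {g h : Matrix (Fin r) (Fin r) ℂ}
    (hg : ∀ i j, g i j ∈ fieldLN N ∧ IsIntegral ℤ (g i j))
    (hh : ∀ i j, h i j ∈ fieldLN N ∧ IsIntegral ℤ (h i j)) (i j : Fin r) :
    (g * h) i j ∈ fieldLN N ∧ IsIntegral ℤ ((g * h) i j) := by
  rw [Matrix.mul_apply]
  exact ⟨sum_mem fun k _ => mul_mem (hg i k).1 (hh k j).1,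
    IsIntegral.sum _ fun k _ => (hg i k).2.mul (hh k j).2⟩

theorem intSet_mul {N : ℕ} {δ : Fin r → ℂ} :
    ∀ s ∈ intSet N δ, ∀ s' ∈ intSet N δ, s * s' ∈ intSet N δ := by
  intro s hs s' hs'
  refine ⟨?_, ?_, ?_, ?_⟩
  · rw [Matrix.det_mul]
    exact hs.1.mul hs'.1
  · rw [Matrix.mul_assoc, hs'.2.1, ← Matrix.mul_assoc, hs.2.1, Matrix.mul_assoc]
  · exact mul_entries_integral hs.2.2.1 hs'.2.2.1
  · rw [Matrix.mul_inv_rev]
    exact mul_entries_integral hs'.2.2.2 hs.2.2.2

theorem commute_diagonal_iff (g : Matrix (Fin r) (Fin r) ℂ) (δ : Fin r → ℂ) :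
    g * Matrix.diagonal δ = Matrix.diagonal δ * g ↔ ∀ i j, g i j * δ j = δ i * g i j := by
  constructor
  · intro h i j
    have := congrFun (congrFun h i) j
    rwa [Matrix.mul_diagonal, Matrix.diagonal_mul] at this
  · intro h
    ext i j
    rw [Matrix.mul_diagonal, Matrix.diagonal_mul]
    exact h i j

theorem transvection_mem_intSet (N : ℕ) (δ : Fin r → ℂ) (i j : Fin r) (hij : i ≠ j)
    (hδ : δ i = δ j) (k : ℤ) : Matrix.transvection i j (k : ℂ) ∈ intSet N δ := by
  have hent : ∀ (k : ℤ) (a c : Fin r), Matrix.transvection i j (k : ℂ) a c ∈ fieldLN N ∧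
      IsIntegral ℤ (Matrix.transvection i j (k : ℂ) a c) := by
    intro k a c
    rw [transvection_apply]
    have h1 : ((if a = c then 1 else 0 : ℂ)) ∈ fieldLN N ∧
        IsIntegral ℤ ((if a = c then 1 else 0 : ℂ)) := by
      split_ifs
      · exact ⟨one_mem _, isIntegral_one⟩
      · exact ⟨zero_mem _, isIntegral_zero⟩
    have h2 : ((if i = a ∧ j = c then (k : ℂ) else 0 : ℂ)) ∈ fieldLN N ∧
        IsIntegral ℤ ((if i = a ∧ j = c then (k : ℂ) else 0 : ℂ)) := by
      split_ifs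
      · refine ⟨?_, ?_⟩
        · have : ((k : ℚ) : ℂ) = (k : ℂ) := by push_cast; rfl
          rw [← this]
          exact IntermediateField.algebraMap_mem _ (k : ℚ)
        · exact isIntegral_algebraMap (R := ℤ) (A := ℂ) (x := k)
      · exact ⟨zero_mem _, isIntegral_zero⟩
    exact ⟨add_mem h1.1 h2.1, h1.2.add h2.2⟩
  refine ⟨?_, ?_, hent k, ?_⟩
  · rw [Matrix.det_transvection_of_ne i j hij]
    exact isUnit_one
  · rw [commute_diagonal_iff]
    intro a c
    rw [transvection_apply]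
    by_cases hac : a = c
    · subst hac
      ring
    · by_cases h : i = a ∧ j = c
      · obtain ⟨rfl, rfl⟩ := h
        rw [hδ]
        ring
      · simp [hac, h]
  · intro a c
    rw [transvection_inv i j hij]
    have := hent (-k) a c
    simpa using this

theorem diagonal_mem_intSet {N : ℕ} (hN : 0 < N) (δ : Fin r → ℂ) (d : Fin r → ℂˣ)
    (hd : ∀ i, d i ∈ unitGroup N) :
    (Matrix.diagonal fun i => ((d i : ℂˣ) : ℂ)) ∈ intSet N δ := by
  refine ⟨det_diagonal_units d, ?_, ?_, ?_⟩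
  · rw [Matrix.diagonal_mul_diagonal, Matrix.diagonal_mul_diagonal]
    congr 1
    funext i
    exact mul_comm _ _
  · intro i j
    rw [Matrix.diagonal_apply]
    split_ifs
    · exact (unitGroup_spec hN (hd i)).1
    · exact ⟨zero_mem _, isIntegral_zero⟩
  · intro i j
    rw [diagonal_units_inv, Matrix.diagonal_apply]
    split_ifs
    · exact (unitGroup_spec hN (hd i)).2
    · exact ⟨zero_mem _, isIntegral_zero⟩

end Vale.Agent.Lib.P002

end
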