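import Vale.Agent.Lib.P002.E6Dens
import Vale.Agent.Lib.P002.E6Chart2
import Vale.Agent.Lib.P002.E6Pt
import Vale.Agent.Lib.P002.TKPrep

/-!
# Rank three local systems on the thrice punctured sphere: density of integral points

Let `a, b, c : Fin 3 → ℂ` be triples of distinct algebraic integers, each with product one.
The pairs `(A, B)` in `SL_3(ℂ)` with `A` conjugate to `diagonal a`,
`B` conjugate to `diagonal b` and `A * B` conjugate to `diagonal c` are the representations of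
the fundamental group of the thrice punctured sphere with prescribed regular semisimple
boundary classes.  There is a number field `L` such that the pairs with entries in the ring of
integers of `L` are dense: every conjugation invariant polynomial vanishing at them vanishes at
all pairs.
-/

noncomputable section

namespace Vale.Agent.Lib.P002

open Polynomial Matrix

/-- Conjugation invariance of the characteristic polynomial. -/
theorem e6_charpoly_conj (P P' M : Matrix (Fin 3) (Fin 3) ℂ) (h : P' * P = 1) :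
    (P * M * P').charpoly = M.charpoly := by
  rw [Matrix.mul_assoc, Matrix.charpoly_mul_comm, Matrix.mul_assoc, h, Matrix.mul_one]

/-- Invariance under simultaneous conjugation by `SL_3(ℂ)` on a class of pairs implies
invariance under simultaneous conjugation by any invertible matrix. -/
theorem e6_conj_eq (Y : Matrix.SpecialLinearGroup (Fin 3) ℂ →
      Matrix.SpecialLinearGroup (Fin 3) ℂ → Prop)
    (F : MvPolynomial (Fin 2 × Fin 3 × Fin 3) ℂ)
    (Hinv : ∀ A B h : Matrix.SpecialLinearGroup (Fin 3) ℂ, Y A B →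
      MvPolynomial.eval (pairPt (h * A * h⁻¹).1 (h * B * h⁻¹).1) F
        = MvPolynomial.eval (pairPt A.1 B.1) F)
    (A B : Matrix.SpecialLinearGroup (Fin 3) ℂ) (hAB : Y A B)
    (P Q : Matrix (Fin 3) (Fin 3) ℂ) (_hPQ : P * Q = 1) (hQP : Q * P = 1) :
    MvPolynomial.eval (pairPt (Q * A.1 * P) (Q * B.1 * P)) F
      = MvPolynomial.eval (pairPt A.1 B.1) F := by
  have hdet : Q.det * P.det = 1 := by rw [← Matrix.det_mul, hQP, Matrix.det_one]
  have hdetQ : Q.det ≠ 0 := left_ne_zero_of_mul_eq_one hdet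
  obtain ⟨c, hc⟩ := IsAlgClosed.exists_pow_nat_eq Q.det (Nat.succ_pos 2)
  have hc0 : c ≠ 0 := by
    rintro rfl
    rw [zero_pow (Nat.succ_ne_zero 2)] at hc
    exact hdetQ hc.symm
  let h : Matrix.SpecialLinearGroup (Fin 3) ℂ := ⟨c⁻¹ • Q, by
    rw [Matrix.det_smul, Fintype.card_fin, inv_pow, hc, inv_mul_cancel₀ hdetQ]⟩
  let h' : Matrix.SpecialLinearGroup (Fin 3) ℂ := ⟨c • P, by
    rw [Matrix.det_smul, Fintype.card_fin, hc, hdet]⟩
  have hh' : h * h' = 1 := by
    apply Subtype.ext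
    show (c⁻¹ • Q) * (c • P) = 1
    rw [smul_mul_smul_comm, hQP, inv_mul_cancel₀ hc0, one_smul]
  have hinv : h⁻¹ = h' := inv_eq_of_mul_eq_one_right hh'
  have hval : ∀ g : Matrix.SpecialLinearGroup (Fin 3) ℂ,
      (h * g * h').1 = Q * g.1 * P := by
    intro g
    have e1 : (h * g * h').1 = h.1 * g.1 * h'.1 := by
      rw [Matrix.SpecialLinearGroup.coe_mul, Matrix.SpecialLinearGroup.coe_mul]
    have e2 : h.1 = c⁻¹ • Q := rfl
    have e3 : h'.1 = c • P := rfl
    rw [e1, e2, e3, Matrix.smul_mul, Matrix.smul_mul, Matrix.mul_smul, smul_smul,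
      inv_mul_cancel₀ hc0, one_smul]
  have key := Hinv A B h hAB
  rw [hinv, hval, hval] at key
  exact key

/-- Composition of a polynomial with polynomial coordinates is a polynomial. -/
theorem e6_exists_comp {σ τ : Type*} (x : (τ → ℂ) → σ → ℂ)
    (hx : ∀ v, ∃ q : MvPolynomial τ ℂ, ∀ p, x p v = MvPolynomial.eval p q)
    (F : MvPolynomial σ ℂ) :
    ∃ f : MvPolynomial τ ℂ, ∀ p, MvPolynomial.eval p f = MvPolynomial.eval (x p) F := by
  induction F using MvPolynomial.induction_on with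
  | C a => exact ⟨MvPolynomial.C a, fun p => by simp⟩
  | add f1 f2 h1 h2 =>
    obtain ⟨g1, hg1⟩ := h1
    obtain ⟨g2, hg2⟩ := h2
    exact ⟨g1 + g2, fun p => by simp [hg1, hg2]⟩
  | mul_X f1 v h1 =>
    obtain ⟨g1, hg1⟩ := h1
    obtain ⟨q, hq⟩ := hx v
    exact ⟨g1 * q, fun p => by simp [hg1, hq]⟩

/-- The coordinates of the pair of matrices of a chart point are polynomials in the point. -/
theorem e6_coords_poly (a b : Fin 3 → ℂ) (v : Fin 2 × Fin 3 × Fin 3) :
    ∃ q : MvPolynomial (Fin 6) ℂ, ∀ p : Fin 6 → ℂ,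
      pairPt (e6U a p) (e6L b p) v = MvPolynomial.eval p q := by
  obtain ⟨m, i, j⟩ := v
  fin_cases m
  · let UP : Matrix (Fin 3) (Fin 3) (MvPolynomial (Fin 6) ℂ) :=
      !![MvPolynomial.C (a 0), MvPolynomial.X 0,
          MvPolynomial.C (a 1)⁻¹ * (MvPolynomial.X 0 * MvPolynomial.X 1 - MvPolynomial.X 2);
        0, MvPolynomial.C (a 1), MvPolynomial.X 1; 0, 0, MvPolynomial.C (a 2)]
    refine ⟨UP i j, fun p => ?_⟩
    show e6U a p i j = _
    fin_cases i <;> fin_cases j <;> simp [e6U, UP]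
  · let LP : Matrix (Fin 3) (Fin 3) (MvPolynomial (Fin 6) ℂ) :=
      !![MvPolynomial.C (b 0), 0, 0; MvPolynomial.X 3, MvPolynomial.C (b 1), 0;
        MvPolynomial.C (b 1)⁻¹ * (MvPolynomial.X 3 * MvPolynomial.X 4 - MvPolynomial.X 5),
          MvPolynomial.X 4, MvPolynomial.C (b 2)]
    refine ⟨LP i j, fun p => ?_⟩
    show e6L b p i j = _
    fin_cases i <;> fin_cases j <;> simp [e6L, LP]

/-- The boundary conditions on a pair. -/
def e6Y (a b c : Fin 3 → ℂ) (A B : Matrix.SpecialLinearGroup (Fin 3) ℂ) : Prop :=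
  (∃ g : Matrix.SpecialLinearGroup (Fin 3) ℂ, (g * A * g⁻¹).1 = Matrix.diagonal a) ∧
  (∃ g : Matrix.SpecialLinearGroup (Fin 3) ℂ, (g * B * g⁻¹).1 = Matrix.diagonal b) ∧
  (∃ g : Matrix.SpecialLinearGroup (Fin 3) ℂ, (g * (A * B) * g⁻¹).1 = Matrix.diagonal c)

theorem e6_prod_three (d : Fin 3 → ℂ) :
    (∏ i, (X - C (d i)) : ℂ[X]) = (X - C (d 0)) * (X - C (d 1)) * (X - C (d 2)) :=
  Fin.prod_univ_three _

/-- A pair of matrices of determinant one with the right characteristic polynomials satisfies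
the boundary conditions. -/
theorem e6Y_of_charpoly (a b c : Fin 3 → ℂ) (hainj : Function.Injective a)
    (hbinj : Function.Injective b) (hcinj : Function.Injective c)
    (A B : Matrix.SpecialLinearGroup (Fin 3) ℂ)
    (hA : A.1.charpoly = (X - C (a 0)) * (X - C (a 1)) * (X - C (a 2)))
    (hB : B.1.charpoly = (X - C (b 0)) * (X - C (b 1)) * (X - C (b 2)))
    (hAB : (A.1 * B.1).charpoly = (X - C (c 0)) * (X - C (c 1)) * (X - C (c 2))) :
    e6Y a b c A B := by
  refine ⟨?_, ?_, ?_⟩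
  · obtain ⟨g, g', hg, -, h⟩ := e6_diag3 A.1 a hainj hA
    exact e6_sl_conj A g g' hg _ h
  · obtain ⟨g, g', hg, -, h⟩ := e6_diag3 B.1 b hbinj hB
    exact e6_sl_conj B g g' hg _ h
  · obtain ⟨g, g', hg, -, h⟩ := e6_diag3 (A.1 * B.1) c hcinj hAB
    exact e6_sl_conj (A * B) g g' hg _ (by
      rw [Matrix.SpecialLinearGroup.coe_mul]
      exact h)

theorem e6_sl_mul_inv (g : Matrix.SpecialLinearGroup (Fin 3) ℂ) : g.1 * (g⁻¹).1 = 1 := by
  rw [← Matrix.SpecialLinearGroup.coe_mul, mul_inv_cancel, Matrix.SpecialLinearGroup.coe_one]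

theorem e6_sl_inv_mul (g : Matrix.SpecialLinearGroup (Fin 3) ℂ) : (g⁻¹).1 * g.1 = 1 := by
  rw [← Matrix.SpecialLinearGroup.coe_mul, inv_mul_cancel, Matrix.SpecialLinearGroup.coe_one]

theorem e6_sl_conj_val (g M : Matrix.SpecialLinearGroup (Fin 3) ℂ) :
    (g * M * g⁻¹).1 = g.1 * M.1 * (g⁻¹).1 := by
  rw [Matrix.SpecialLinearGroup.coe_mul, Matrix.SpecialLinearGroup.coe_mul]

/-- **Density of integral points for rank three local systems on the thrice punctured sphere
with regular semisimple boundary classes.** -/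
theorem density_e6 (a b c : Fin 3 → ℂ)
    (ha : ∀ i, IsIntegral ℤ (a i)) (hb : ∀ i, IsIntegral ℤ (b i)) (hc : ∀ i, IsIntegral ℤ (c i))
    (ha1 : a 0 * a 1 * a 2 = 1) (hb1 : b 0 * b 1 * b 2 = 1) (hc1 : c 0 * c 1 * c 2 = 1)
    (hainj : Function.Injective a) (hbinj : Function.Injective b) (hcinj : Function.Injective c) :
    ∃ L : IntermediateField ℚ ℂ, FiniteDimensional ℚ L ∧
      ∀ F : MvPolynomial (Fin 2 × Fin 3 × Fin 3) ℂ,
        (∀ A B h : Matrix.SpecialLinearGroup (Fin 3) ℂ,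
          (∃ g : Matrix.SpecialLinearGroup (Fin 3) ℂ, (g * A * g⁻¹).1 = Matrix.diagonal a) →
          (∃ g : Matrix.SpecialLinearGroup (Fin 3) ℂ, (g * B * g⁻¹).1 = Matrix.diagonal b) →
          (∃ g : Matrix.SpecialLinearGroup (Fin 3) ℂ,
            (g * (A * B) * g⁻¹).1 = Matrix.diagonal c) →
          MvPolynomial.eval (fun x => (![(h * A * h⁻¹).1, (h * B * h⁻¹).1] x.1) x.2.1 x.2.2) F
            = MvPolynomial.eval (fun x => (![A.1, B.1] x.1) x.2.1 x.2.2) F) →
        (∀ A B : Matrix.SpecialLinearGroup (Fin 3) ℂ,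
          (∃ g : Matrix.SpecialLinearGroup (Fin 3) ℂ, (g * A * g⁻¹).1 = Matrix.diagonal a) →
          (∃ g : Matrix.SpecialLinearGroup (Fin 3) ℂ, (g * B * g⁻¹).1 = Matrix.diagonal b) →
          (∃ g : Matrix.SpecialLinearGroup (Fin 3) ℂ,
            (g * (A * B) * g⁻¹).1 = Matrix.diagonal c) →
          (∀ i j, A.1 i j ∈ L ∧ IsIntegral ℤ (A.1 i j)) →
          (∀ i j, B.1 i j ∈ L ∧ IsIntegral ℤ (B.1 i j)) →
          MvPolynomial.eval (fun x => (![A.1, B.1] x.1) x.2.1 x.2.2) F = 0) →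
        ∀ A B : Matrix.SpecialLinearGroup (Fin 3) ℂ,
          (∃ g : Matrix.SpecialLinearGroup (Fin 3) ℂ, (g * A * g⁻¹).1 = Matrix.diagonal a) →
          (∃ g : Matrix.SpecialLinearGroup (Fin 3) ℂ, (g * B * g⁻¹).1 = Matrix.diagonal b) →
          (∃ g : Matrix.SpecialLinearGroup (Fin 3) ℂ,
            (g * (A * B) * g⁻¹).1 = Matrix.diagonal c) →
          MvPolynomial.eval (fun x => (![A.1, B.1] x.1) x.2.1 x.2.2) F = 0 := by
  classical
  -- the number field
  let S : Set ℂ := Set.range a ∪ Set.range b ∪ Set.range c ∪ {sqrtTwo}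
  let L : IntermediateField ℚ ℂ := IntermediateField.adjoin ℚ S
  have hSint : ∀ x ∈ S, IsIntegral ℤ x := by
    rintro x (((⟨i, rfl⟩ | ⟨i, rfl⟩) | ⟨i, rfl⟩) | hx)
    · exact ha i
    · exact hb i
    · exact hc i
    · rw [Set.mem_singleton_iff] at hx
      rw [hx]
      exact isIntegral_sqrtTwo
  have hSfin : S.Finite :=
    (((Set.finite_range a).union (Set.finite_range b)).union (Set.finite_range c)).union
      (Set.finite_singleton _)
  have hfin : FiniteDimensional ℚ L := by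
    have : Finite S := hSfin.to_subtype
    exact IntermediateField.finiteDimensional_adjoin (fun x hx => (hSint x hx).tower_top)
  have hSL : ∀ x ∈ S, x ∈ L := fun x hx => IntermediateField.subset_adjoin ℚ S hx
  refine ⟨L, hfin, ?_⟩
  intro F Hinv Hvan A B hA hB hAB
  -- the ring of integers of `L` as a subring of `ℂ`
  let O : Subring ℂ := (integralClosure ℤ ℂ).toSubring ⊓ L.toSubfield.toSubring
  have hO : ∀ x : ℂ, x ∈ O ↔ IsIntegral ℤ x ∧ x ∈ L := fun x => Iff.rfl
  have haO : ∀ i, a i ∈ O := fun i =>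
    (hO _).mpr ⟨ha i, hSL _ (Or.inl (Or.inl (Or.inl ⟨i, rfl⟩)))⟩
  have hbO : ∀ i, b i ∈ O := fun i =>
    (hO _).mpr ⟨hb i, hSL _ (Or.inl (Or.inl (Or.inr ⟨i, rfl⟩)))⟩
  have hcO : ∀ i, c i ∈ O := fun i =>
    (hO _).mpr ⟨hc i, hSL _ (Or.inl (Or.inr ⟨i, rfl⟩))⟩
  -- the units
  have hsqrt : sqrtTwo ∈ L := hSL _ (Or.inr rfl)
  have hUO : ∀ u ∈ (Subgroup.zpowers unitW : Set ℂˣ),
      (u : ℂ) ∈ O ∧ ((u⁻¹ : ℂˣ) : ℂ) ∈ O := by
    have key : ∀ u ∈ (Subgroup.zpowers unitW : Set ℂˣ), (u : ℂ) ∈ O := by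
      intro u hu
      refine (hO _).mpr ⟨isIntegral_of_mem_zpowers hu, ?_⟩
      obtain ⟨k, rfl⟩ := hu
      rw [Units.val_zpow_eq_zpow_val, unitW_val]
      exact zpow_mem (add_mem (one_mem _) hsqrt) k
    intro u hu
    exact ⟨key u hu, key _ (inv_mem hu)⟩
  -- invariance under all invertible matrices
  have Hgl := e6_conj_eq (e6Y a b c) F (fun A B h hY => Hinv A B h hY.1 hY.2.1 hY.2.2)
  -- no common eigenvector
  obtain ⟨gA, hgA⟩ := hA
  obtain ⟨gB, hgB⟩ := hB
  obtain ⟨gC, hgC⟩ := hAB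
  rw [e6_sl_conj_val] at hgA hgB hgC
  rw [Matrix.SpecialLinearGroup.coe_mul] at hgC
  -- the chart
  obtain ⟨σ, τ, P, P', x, y, z, u, v, w, hPP', hP'P, hUA, hLB⟩ :=
    e6_chart2 A.1 B.1 a b gA.1 (gA⁻¹).1 gB.1 (gB⁻¹).1 (e6_sl_mul_inv gA) (e6_sl_mul_inv gB)
      hgA hgB
  let a' : Fin 3 → ℂ := fun i => a (σ i)
  let b' : Fin 3 → ℂ := fun i => b (τ i)
  have ha' : a' 0 * a' 1 * a' 2 = 1 := by
    have h1 : ∏ i, a (σ i) = ∏ i, a i := Equiv.prod_comp σ a
    rw [Fin.prod_univ_three, Fin.prod_univ_three] at h1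
    exact h1.trans ha1
  have hb' : b' 0 * b' 1 * b' 2 = 1 := by
    have h1 : ∏ i, b (τ i) = ∏ i, b i := Equiv.prod_comp τ b
    rw [Fin.prod_univ_three, Fin.prod_univ_three] at h1
    exact h1.trans hb1
  have ha'1 : a' 1 ≠ 0 := by
    intro h0
    rw [h0] at ha'
    simp at ha'
  have hb'1 : b' 1 ≠ 0 := by
    intro h0
    rw [h0] at hb'
    simp at hb'
  have ha'O : ∀ i, a' i ∈ O := fun i => haO _
  have hb'O : ∀ i, b' i ∈ O := fun i => hbO _
  have ha'inv : (a' 1)⁻¹ ∈ O := by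
    have : (a' 1)⁻¹ = a' 0 * a' 2 := by
      field_simp
      linear_combination (-1 : ℂ) * ha'
    rw [this]
    exact mul_mem (ha'O 0) (ha'O 2)
  have hb'inv : (b' 1)⁻¹ ∈ O := by
    have : (b' 1)⁻¹ = b' 0 * b' 2 := by
      field_simp
      linear_combination (-1 : ℂ) * hb'
    rw [this]
    exact mul_mem (hb'O 0) (hb'O 2)
  have ha'poly : (X - C (a' 0)) * (X - C (a' 1)) * (X - C (a' 2))
      = ((X - C (a 0)) * (X - C (a 1)) * (X - C (a 2)) : ℂ[X]) := by
    rw [← e6_prod_three a', ← e6_prod_three a]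
    exact Equiv.prod_comp σ (fun i => (X - C (a i) : ℂ[X]))
  have hb'poly : (X - C (b' 0)) * (X - C (b' 1)) * (X - C (b' 2))
      = ((X - C (b 0)) * (X - C (b 1)) * (X - C (b 2)) : ℂ[X]) := by
    rw [← e6_prod_three b', ← e6_prod_three b]
    exact Equiv.prod_comp τ (fun i => (X - C (b i) : ℂ[X]))
  -- the constants of the chart
  set al : ℂ := a' 2 * b' 2 with hal
  set be : ℂ := a' 0 * b' 0 with hbe
  set ga : ℂ := a' 1 * b' 1 with hga
  have habg : al * be * ga = 1 := by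
    rw [hal, hbe, hga]
    linear_combination (b' 0 * b' 1 * b' 2) * ha' + hb'
  have halO : al ∈ O := mul_mem (ha'O 2) (hb'O 2)
  have hbeO : be ∈ O := mul_mem (ha'O 0) (hb'O 0)
  have hgaO : ga ∈ O := mul_mem (ha'O 1) (hb'O 1)
  have hk1O : e6k1 al be ga c ∈ O :=
    sub_mem (add_mem (add_mem (hcO 0) (hcO 1)) (hcO 2)) (add_mem (add_mem halO hbeO) hgaO)
  have hk2O : e6k2 al be ga c ∈ O :=
    sub_mem (add_mem (add_mem (mul_mem (hcO 0) (hcO 1)) (mul_mem (hcO 0) (hcO 2)))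
      (mul_mem (hcO 1) (hcO 2)))
      (add_mem (add_mem (mul_mem halO hbeO) (mul_mem hbeO hgaO)) (mul_mem hgaO halO))
  have hal0 : al ≠ 0 := by
    intro h0
    rw [h0] at habg
    simp at habg
  have hSS : ∀ p, e6SS a' b' c p ↔ e6S al be ga (e6k1 al be ga c) (e6k2 al be ga c) p :=
    fun p => Iff.rfl
  -- the point of the chart given by `(A, B)`
  let p0 : Fin 6 → ℂ := ![x, y, x * y - a' 1 * z, u, v, u * v - b' 1 * w]
  have hU0 : e6U a' p0 = P * A.1 * P' := by
    rw [hUA]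
    have hz : (a' 1)⁻¹ * (x * y - (x * y - a' 1 * z)) = z := by
      field_simp
      ring
    unfold e6U
    simp only [p0, Matrix.cons_val_zero, Matrix.cons_val_one, Matrix.cons_val, hz]
    rfl
  have hL0 : e6L b' p0 = P * B.1 * P' := by
    rw [hLB]
    have hz : (b' 1)⁻¹ * (u * v - (u * v - b' 1 * w)) = w := by
      field_simp
      ring
    unfold e6L
    simp only [p0, Matrix.cons_val, hz]
    rfl
  have hcharAB : (A.1 * B.1).charpoly = (X - C (c 0)) * (X - C (c 1)) * (X - C (c 2)) := by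
    rw [← e6_charpoly_conj gC.1 (gC⁻¹).1 (A.1 * B.1) (e6_sl_inv_mul gC), hgC,
      Matrix.charpoly_diagonal, e6_prod_three]
  have hp0 : e6S al be ga (e6k1 al be ga c) (e6k2 al be ga c) p0 := by
    rw [← hSS, ← e6UL_charpoly_iff a' b' c ha' hb' hc1, hU0, hL0]
    have : P * A.1 * P' * (P * B.1 * P') = P * (A.1 * B.1) * P' := by
      simp only [Matrix.mul_assoc]
      rw [← Matrix.mul_assoc P' P, hP'P, Matrix.one_mul]
    rw [this, e6_charpoly_conj P P' _ hP'P, hcharAB]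
  -- the polynomial on the chart
  obtain ⟨f, hf⟩ := e6_exists_comp (fun p : Fin 6 → ℂ => pairPt (e6U a' p) (e6L b' p))
    (e6_coords_poly a' b') F
  -- the chart points satisfy the boundary conditions
  have hY : ∀ p, e6S al be ga (e6k1 al be ga c) (e6k2 al be ga c) p →
      ∀ (hdU : (e6U a' p).det = 1) (hdL : (e6L b' p).det = 1),
        e6Y a b c ⟨e6U a' p, hdU⟩ ⟨e6L b' p, hdL⟩ := by
    intro p hp hdU hdL
    apply e6Y_of_charpoly a b c hainj hbinj hcinj
    · show (e6U a' p).charpoly = _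
      rw [e6U_charpoly, ha'poly]
    · show (e6L b' p).charpoly = _
      rw [e6L_charpoly, hb'poly]
    · show (e6U a' p * e6L b' p).charpoly = _
      exact (e6UL_charpoly_iff a' b' c ha' hb' hc1 p).mpr ((hSS p).mpr hp)
  have hdU : ∀ p, (e6U a' p).det = 1 := fun p => by rw [e6U_det, ha']
  have hdL : ∀ p, (e6L b' p).det = 1 := fun p => by rw [e6L_det, hb']
  -- torus invariance
  have hinv : ∀ p, e6S al be ga (e6k1 al be ga c) (e6k2 al be ga c) p → ∀ s t : ℂ, s ≠ 0 →
      t ≠ 0 → MvPolynomial.eval (e6T s t p) f = MvPolynomial.eval p f := by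
    intro p hp s t hs ht
    rw [hf, hf, (e6T_conj a' b' s t hs ht p).1, (e6T_conj a' b' s t hs ht p).2]
    have hD1 : Matrix.diagonal ![(s * t)⁻¹, t⁻¹, 1] * Matrix.diagonal ![s * t, t, 1]
        = (1 : Matrix (Fin 3) (Fin 3) ℂ) := by
      rw [Matrix.diagonal_mul_diagonal, ← Matrix.diagonal_one]
      congr 1
      funext i
      fin_cases i
      · simp
        field_simp
      · simp [inv_mul_cancel₀ ht]
      · simp
    have hD2 : Matrix.diagonal ![s * t, t, 1] * Matrix.diagonal ![(s * t)⁻¹, t⁻¹, 1]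
        = (1 : Matrix (Fin 3) (Fin 3) ℂ) := mul_eq_one_comm.mp hD1
    exact Hgl ⟨e6U a' p, hdU p⟩ ⟨e6L b' p, hdL p⟩ (hY p hp (hdU p) (hdL p)) _ _ hD1 hD2
  -- vanishing at the integral points of the chart
  have hvan : ∀ p, e6S al be ga (e6k1 al be ga c) (e6k2 al be ga c) p → (∀ i, p i ∈ O) →
      MvPolynomial.eval p f = 0 := by
    intro p hp hpO
    rw [hf]
    have hUO' : ∀ i j, e6U a' p i j ∈ O := by
      intro i j
      fin_cases i <;> fin_cases j <;> simp only [e6U, Matrix.of_apply, Matrix.cons_val',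
        Matrix.cons_val_zero, Matrix.cons_val_one, Matrix.cons_val, Fin.zero_eta, Fin.mk_one,
        Fin.reduceFinMk]
      · exact ha'O 0
      · exact hpO 0
      · exact mul_mem ha'inv (sub_mem (mul_mem (hpO 0) (hpO 1)) (hpO 2))
      · exact zero_mem O
      · exact ha'O 1
      · exact hpO 1
      · exact zero_mem O
      · exact zero_mem O
      · exact ha'O 2
    have hLO' : ∀ i j, e6L b' p i j ∈ O := by
      intro i j
      fin_cases i <;> fin_cases j <;> simp only [e6L, Matrix.of_apply, Matrix.cons_val',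
        Matrix.cons_val_zero, Matrix.cons_val_one, Matrix.cons_val, Fin.zero_eta, Fin.mk_one,
        Fin.reduceFinMk]
      · exact hb'O 0
      · exact zero_mem O
      · exact zero_mem O
      · exact hpO 3
      · exact hb'O 1
      · exact zero_mem O
      · exact mul_mem hb'inv (sub_mem (mul_mem (hpO 3) (hpO 4)) (hpO 5))
      · exact hpO 4
      · exact hb'O 2
    obtain ⟨h1, h2, h3⟩ := hY p hp (hdU p) (hdL p)
    exact Hvan ⟨e6U a' p, hdU p⟩ ⟨e6L b' p, hdL p⟩ h1 h2 h3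
      (fun i j => ⟨((hO _).mp (hUO' i j)).2, ((hO _).mp (hUO' i j)).1⟩)
      (fun i j => ⟨((hO _).mp (hLO' i j)).2, ((hO _).mp (hLO' i j)).1⟩)
  -- density on the chart
  have hzero := e6_chart_density al be ga (e6k1 al be ga c) (e6k2 al be ga c) hal0 O halO hbeO
    hgaO hk1O hk2O (Subgroup.zpowers unitW : Set ℂˣ) infinite_zpowers_unitW hUO f hinv hvan
    p0 hp0
  rw [hf, hU0, hL0] at hzero
  have hAB' : e6Y a b c A B := by
    refine ⟨⟨gA, ?_⟩, ⟨gB, ?_⟩, ⟨gC, ?_⟩⟩
    · rw [e6_sl_conj_val]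
      exact hgA
    · rw [e6_sl_conj_val]
      exact hgB
    · rw [e6_sl_conj_val, Matrix.SpecialLinearGroup.coe_mul]
      exact hgC
  have hfinal := Hgl A B hAB' P' P hP'P hPP'
  rw [hzero] at hfinal
  exact hfinal.symm

end Vale.Agent.Lib.P002

end
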