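import Vale.Agent.Lib.P002.E6Const

/-!
# Normal form of torus invariant polynomials on a chart

On `e6S`, with `X = p 0 * p 3`, `Y = p 1 * p 4`, `P = p 0 * p 1 * p 5`, every torus invariant
polynomial function has the form `G0(X, Y) + G1(X, Y) * P`.
-/

noncomputable section

namespace Vale.Agent.Lib.P002

/-- Functions of the form `G0(X, Y) + G1(X, Y) * P` on the chart. -/
def e6NF (al be ga k1 k2 : ℂ) (φ : (Fin 6 → ℂ) → ℂ) : Prop :=
  ∃ G0 G1 : MvPolynomial (Fin 2) ℂ, ∀ p : Fin 6 → ℂ, e6S al be ga k1 k2 p →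
    φ p = MvPolynomial.eval ![p 0 * p 3, p 1 * p 4] G0 +
      MvPolynomial.eval ![p 0 * p 3, p 1 * p 4] G1 * (p 0 * p 1 * p 5)

/-- The product `p 2 * p 5` on the chart, as a polynomial in `X` and `Y`. -/
def e6NFmZ (al be k2 : ℂ) : MvPolynomial (Fin 2) ℂ :=
  MvPolynomial.C k2 - MvPolynomial.C al * MvPolynomial.X 0 - MvPolynomial.C be * MvPolynomial.X 1

/-- The sum `p 0 * p 1 * p 5 + p 3 * p 4 * p 2` on the chart, as a polynomial in `X` and `Y`. -/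
def e6NFmH (al be ga k1 k2 : ℂ) : MvPolynomial (Fin 2) ℂ :=
  MvPolynomial.X 0 * MvPolynomial.X 1 + e6NFmZ al be k2
    + MvPolynomial.C ga * (MvPolynomial.X 0 + MvPolynomial.X 1) - MvPolynomial.C (ga * k1)

theorem e6NF_eval_mZ (al be k2 : ℂ) (a b : ℂ) :
    MvPolynomial.eval ![a, b] (e6NFmZ al be k2) = k2 - al * a - be * b := by
  simp [e6NFmZ]

theorem e6NF_eval_mH (al be ga k1 k2 : ℂ) (a b : ℂ) :
    MvPolynomial.eval ![a, b] (e6NFmH al be ga k1 k2)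
      = a * b + (k2 - al * a - be * b) + ga * (a + b) - ga * k1 := by
  simp [e6NFmH, e6NF_eval_mZ]

theorem e6NF_congr {al be ga k1 k2 : ℂ} {φ ψ : (Fin 6 → ℂ) → ℂ} (h : ∀ p, φ p = ψ p)
    (hφ : e6NF al be ga k1 k2 φ) : e6NF al be ga k1 k2 ψ := by
  obtain ⟨G0, G1, hG⟩ := hφ
  exact ⟨G0, G1, fun p hp => by rw [← h p]; exact hG p hp⟩

theorem e6NF_const (al be ga k1 k2 : ℂ) (c : ℂ) : e6NF al be ga k1 k2 (fun _ => c) :=
  ⟨MvPolynomial.C c, 0, fun p _ => by simp⟩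

theorem e6NF_X (al be ga k1 k2 : ℂ) : e6NF al be ga k1 k2 (fun p => p 0 * p 3) :=
  ⟨MvPolynomial.X 0, 0, fun p _ => by simp⟩

theorem e6NF_Y (al be ga k1 k2 : ℂ) : e6NF al be ga k1 k2 (fun p => p 1 * p 4) :=
  ⟨MvPolynomial.X 1, 0, fun p _ => by simp⟩

theorem e6NF_Z (al be ga k1 k2 : ℂ) : e6NF al be ga k1 k2 (fun p => p 2 * p 5) := by
  refine ⟨e6NFmZ al be k2, 0, fun p hp => ?_⟩
  rw [e6NF_eval_mZ, map_zero, zero_mul, add_zero]
  linear_combination hp.1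

theorem e6NF_P (al be ga k1 k2 : ℂ) : e6NF al be ga k1 k2 (fun p => p 0 * p 1 * p 5) :=
  ⟨0, 1, fun p _ => by simp⟩

theorem e6NF_Q (al be ga k1 k2 : ℂ) : e6NF al be ga k1 k2 (fun p => p 3 * p 4 * p 2) := by
  refine ⟨e6NFmH al be ga k1 k2, -1, fun p hp => ?_⟩
  rw [e6NF_eval_mH, map_neg, map_one]
  linear_combination hp.1 - hp.2

theorem e6NF_add {al be ga k1 k2 : ℂ} {φ ψ : (Fin 6 → ℂ) → ℂ} (hφ : e6NF al be ga k1 k2 φ)
    (hψ : e6NF al be ga k1 k2 ψ) : e6NF al be ga k1 k2 (fun p => φ p + ψ p) := by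
  obtain ⟨G0, G1, hG⟩ := hφ
  obtain ⟨H0, H1, hH⟩ := hψ
  refine ⟨G0 + H0, G1 + H1, fun p hp => ?_⟩
  simp only [hG p hp, hH p hp, map_add]
  ring

/-- The quadratic relation satisfied by `p 0 * p 1 * p 5` on the chart. -/
theorem e6NF_key (al be ga k1 k2 : ℂ) (p : Fin 6 → ℂ) (hp : e6S al be ga k1 k2 p) :
    (p 0 * p 1 * p 5) ^ 2
      = MvPolynomial.eval ![p 0 * p 3, p 1 * p 4] (e6NFmH al be ga k1 k2) * (p 0 * p 1 * p 5)
        - MvPolynomial.eval ![p 0 * p 3, p 1 * p 4]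
            (MvPolynomial.X 0 * MvPolynomial.X 1 * e6NFmZ al be k2) := by
  rw [e6NF_eval_mH, map_mul, map_mul, e6NF_eval_mZ]
  simp only [MvPolynomial.eval_X, Matrix.cons_val_zero, Matrix.cons_val_one]
  linear_combination (p 0 * p 1 * p 5 - p 0 * p 3 * (p 1 * p 4)) * hp.1
    - (p 0 * p 1 * p 5) * hp.2

theorem e6NF_mul {al be ga k1 k2 : ℂ} {φ ψ : (Fin 6 → ℂ) → ℂ} (hφ : e6NF al be ga k1 k2 φ)
    (hψ : e6NF al be ga k1 k2 ψ) : e6NF al be ga k1 k2 (fun p => φ p * ψ p) := by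
  obtain ⟨G0, G1, hG⟩ := hφ
  obtain ⟨H0, H1, hH⟩ := hψ
  refine ⟨G0 * H0 - G1 * H1 * (MvPolynomial.X 0 * MvPolynomial.X 1 * e6NFmZ al be k2),
    G0 * H1 + G1 * H0 + G1 * H1 * e6NFmH al be ga k1 k2, fun p hp => ?_⟩
  have key := e6NF_key al be ga k1 k2 p hp
  simp only [hG p hp, hH p hp, map_add, map_sub]
  rw [map_mul (MvPolynomial.eval ![p 0 * p 3, p 1 * p 4]) G0 H0,
    map_mul (MvPolynomial.eval ![p 0 * p 3, p 1 * p 4]) (G1 * H1),
    map_mul (MvPolynomial.eval ![p 0 * p 3, p 1 * p 4]) G1 H1,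
    map_mul (MvPolynomial.eval ![p 0 * p 3, p 1 * p 4]) G0 H1,
    map_mul (MvPolynomial.eval ![p 0 * p 3, p 1 * p 4]) G1 H0,
    map_mul (MvPolynomial.eval ![p 0 * p 3, p 1 * p 4]) (G1 * H1),
    map_mul (MvPolynomial.eval ![p 0 * p 3, p 1 * p 4]) G1 H1]
  linear_combination (MvPolynomial.eval ![p 0 * p 3, p 1 * p 4] G1
    * MvPolynomial.eval ![p 0 * p 3, p 1 * p 4] H1) * key

theorem e6NF_pow {al be ga k1 k2 : ℂ} {φ : (Fin 6 → ℂ) → ℂ} (hφ : e6NF al be ga k1 k2 φ)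
    (n : ℕ) : e6NF al be ga k1 k2 (fun p => φ p ^ n) := by
  induction n with
  | zero =>
    exact e6NF_congr (fun p => (pow_zero (φ p)).symm) (e6NF_const al be ga k1 k2 1)
  | succ n ih =>
    exact e6NF_congr (fun p => (pow_succ (φ p) n).symm) (e6NF_mul ih hφ)

theorem e6NF_sum {al be ga k1 k2 : ℂ} {ι : Type*} (s : Finset ι)
    (φ : ι → (Fin 6 → ℂ) → ℂ) (h : ∀ i ∈ s, e6NF al be ga k1 k2 (φ i)) :
    e6NF al be ga k1 k2 (fun p => ∑ i ∈ s, φ i p) := by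
  classical
  induction s using Finset.induction_on with
  | empty =>
    exact e6NF_congr (fun p => (Finset.sum_empty).symm) (e6NF_const al be ga k1 k2 0)
  | insert a s ha ih =>
    have h1 := h a (Finset.mem_insert_self a s)
    have h2 := ih (fun i hi => h i (Finset.mem_insert_of_mem hi))
    exact e6NF_congr (fun p => (Finset.sum_insert ha).symm) (e6NF_add h1 h2)

/-- Monomials of weight zero are of normal form. -/
theorem e6NF_monomial (al be ga k1 k2 : ℂ) (d : Fin 6 →₀ ℕ)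
    (h1 : d 0 + d 2 = d 3 + d 5) (h2 : d 1 + d 2 = d 4 + d 5) :
    e6NF al be ga k1 k2 (fun p => ∏ i, p i ^ d i) := by
  rcases Nat.le_total (d 3) (d 0) with h | h
  · obtain ⟨D, hD⟩ := Nat.exists_eq_add_of_le h
    have hD1 : d 1 = d 4 + D := by omega
    have hD5 : d 5 = d 2 + D := by omega
    have hnf : e6NF al be ga k1 k2 (fun p => (p 0 * p 3) ^ d 3 * (p 1 * p 4) ^ d 4
        * (p 2 * p 5) ^ d 2 * (p 0 * p 1 * p 5) ^ D) :=
      e6NF_mul (e6NF_mul (e6NF_mul (e6NF_pow (e6NF_X al be ga k1 k2) _)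
        (e6NF_pow (e6NF_Y al be ga k1 k2) _)) (e6NF_pow (e6NF_Z al be ga k1 k2) _))
        (e6NF_pow (e6NF_P al be ga k1 k2) _)
    refine e6NF_congr (fun p => ?_) hnf
    rw [Fin.prod_univ_six, hD, hD1, hD5]
    ring
  · obtain ⟨E, hE⟩ := Nat.exists_eq_add_of_le h
    have hE2 : d 2 = d 5 + E := by omega
    have hE4 : d 4 = d 1 + E := by omega
    have hnf : e6NF al be ga k1 k2 (fun p => (p 0 * p 3) ^ d 0 * (p 1 * p 4) ^ d 1
        * (p 2 * p 5) ^ d 5 * (p 3 * p 4 * p 2) ^ E) :=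
      e6NF_mul (e6NF_mul (e6NF_mul (e6NF_pow (e6NF_X al be ga k1 k2) _)
        (e6NF_pow (e6NF_Y al be ga k1 k2) _)) (e6NF_pow (e6NF_Z al be ga k1 k2) _))
        (e6NF_pow (e6NF_Q al be ga k1 k2) _)
    refine e6NF_congr (fun p => ?_) hnf
    rw [Fin.prod_univ_six, hE, hE2, hE4]
    ring

/-- A polynomial which is torus invariant at the points of the chart has a normal form. -/
theorem e6_normal_form (al be ga k1 k2 : ℂ) (f : MvPolynomial (Fin 6) ℂ) :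
    ∃ G0 G1 : MvPolynomial (Fin 2) ℂ, ∀ p : Fin 6 → ℂ, e6S al be ga k1 k2 p →
      (∀ s t : ℂ, s ≠ 0 → t ≠ 0 →
        MvPolynomial.eval (e6T s t p) f = MvPolynomial.eval p f) →
      MvPolynomial.eval p f = MvPolynomial.eval ![p 0 * p 3, p 1 * p 4] G0 +
        MvPolynomial.eval ![p 0 * p 3, p 1 * p 4] G1 * (p 0 * p 1 * p 5) := by
  have hsum : e6NF al be ga k1 k2 (fun p =>
      ∑ d ∈ f.support.filter (fun d => d 0 + d 2 = d 3 + d 5 ∧ d 1 + d 2 = d 4 + d 5),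
        MvPolynomial.coeff d f * ∏ i, p i ^ d i) := by
    refine e6NF_sum _ (fun d p => MvPolynomial.coeff d f * ∏ i, p i ^ d i) (fun d hd => ?_)
    have hd' := (Finset.mem_filter.1 hd).2
    exact e6NF_mul (e6NF_const al be ga k1 k2 _) (e6NF_monomial al be ga k1 k2 d hd'.1 hd'.2)
  obtain ⟨G0, G1, hG⟩ := hsum
  refine ⟨G0, G1, fun p hp hinv => ?_⟩
  rw [e6_weight_zero f p hinv]
  exact hG p hp

end Vale.Agent.Lib.P002

end
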