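import Vale.Agent.Lib.P002.E6Defs

/-!
# Two polynomials in two variables vanishing along the rational parametrisation of a chart
-/

noncomputable section

namespace Vale.Agent.Lib.P002

/-- The determinant of the linear system for the pair `y`, `z`. -/
def e6Dl (be ga : ℂ) (u w : ℂ) : ℂ := w ^ 2 - w * u - (ga - be) * w - be * u

/-- The numerator of `y`. -/
def e6Ny (al ga k1 k2 : ℂ) (u w : ℂ) : ℂ :=
  -((k2 - al * u) * u) - w * (ga * k1 - k2 - (ga - al) * u)

/-- The numerator of `z`. -/
def e6Nz (al be ga k1 k2 : ℂ) (u w : ℂ) : ℂ :=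
  be * (ga * k1 - k2 - (ga - al) * u) - (u - w + ga - be) * (k2 - al * u)

/-- For a fixed first coordinate, the evaluation is a polynomial function of the second. -/
lemma e6van_evalY (G : MvPolynomial (Fin 2) ℂ) (u y : ℂ) :
    Polynomial.eval y (MvPolynomial.aeval ![Polynomial.C u, Polynomial.X] G)
      = MvPolynomial.eval ![u, y] G := by
  induction G using MvPolynomial.induction_on with
  | C a => simp
  | add p q hp hq => rw [map_add, map_add, Polynomial.eval_add, hp, hq]
  | mul_X p i hp =>
    rw [map_mul, map_mul, Polynomial.eval_mul, hp, MvPolynomial.aeval_X, MvPolynomial.eval_X]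
    congr 1
    fin_cases i <;> simp

/-- For a fixed second coordinate, the evaluation is a polynomial function of the first. -/
lemma e6van_evalX (G : MvPolynomial (Fin 2) ℂ) (u y : ℂ) :
    Polynomial.eval u (MvPolynomial.aeval ![Polynomial.X, Polynomial.C y] G)
      = MvPolynomial.eval ![u, y] G := by
  induction G using MvPolynomial.induction_on with
  | C a => simp
  | add p q hp hq => rw [map_add, map_add, Polynomial.eval_add, hp, hq]
  | mul_X p i hp =>
    rw [map_mul, map_mul, Polynomial.eval_mul, hp, MvPolynomial.aeval_X, MvPolynomial.eval_X]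
    congr 1
    fin_cases i <;> simp

/-- A nonzero polynomial of degree at most two has finitely many roots. -/
lemma e6van_finite_quad (c2 c1 c0 : ℂ) (hc : c2 ≠ 0 ∨ c1 ≠ 0 ∨ c0 ≠ 0) :
    {w : ℂ | c2 * w ^ 2 + c1 * w + c0 = 0}.Finite := by
  have hp : (Polynomial.C c2 * Polynomial.X ^ 2 + Polynomial.C c1 * Polynomial.X
      + Polynomial.C c0 : Polynomial ℂ) ≠ 0 := by
    intro h0
    have h2 := congrArg (fun q => Polynomial.coeff q 2) h0
    have h1 := congrArg (fun q => Polynomial.coeff q 1) h0
    have h00 := congrArg (fun q => Polynomial.coeff q 0) h0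
    simp [Polynomial.coeff_X, Polynomial.coeff_C] at h2 h1 h00
    rcases hc with h | h | h
    · exact h h2
    · exact h h1
    · exact h h00
  have hfin := Polynomial.finite_setOfPred_isRoot hp
  refine hfin.subset ?_
  intro w hw
  have hw' : c2 * w ^ 2 + c1 * w + c0 = 0 := hw
  have hr : Polynomial.IsRoot (Polynomial.C c2 * Polynomial.X ^ 2 + Polynomial.C c1 * Polynomial.X
      + Polynomial.C c0 : Polynomial ℂ) w := by
    simp only [Polynomial.IsRoot, Polynomial.eval_add, Polynomial.eval_mul, Polynomial.eval_C,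
      Polynomial.eval_pow, Polynomial.eval_X]
    exact hw'
  exact hr

/-- A one-variable polynomial vanishing at the values of the parametrisation over an infinite
set of parameters is zero. -/
lemma e6van_key (al be ga k1 k2 u0 : ℂ) (hB : (ga - al) * u0 - (ga * k1 - k2) ≠ 0)
    (W : Set ℂ) (hW : W.Infinite) (hD : ∀ w ∈ W, e6Dl be ga u0 w ≠ 0)
    (P : Polynomial ℂ)
    (hP : ∀ w ∈ W, P.eval (e6Ny al ga k1 k2 u0 w / e6Dl be ga u0 w) = 0) : P = 0 := by
  apply Polynomial.eq_zero_of_infinite_isRoot
  have himg : ((fun w => e6Ny al ga k1 k2 u0 w / e6Dl be ga u0 w) '' W).Infinite := by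
    intro hfin
    apply hW
    refine Set.Finite.of_finite_fibers
      (fun w => e6Ny al ga k1 k2 u0 w / e6Dl be ga u0 w) hfin ?_
    intro y0 _
    refine (e6van_finite_quad y0
      (-(y0 * (u0 + ga - be)) - ((ga - al) * u0 - (ga * k1 - k2)))
      (-(y0 * be * u0) - (-((k2 - al * u0) * u0))) ?_).subset ?_
    · by_cases hy : y0 = 0
      · right
        left
        rw [hy]
        intro h0
        apply hB
        linear_combination (-1 : ℂ) * h0
      · left
        exact hy
    · rintro w ⟨hwW, hwy⟩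
      have hd := hD w hwW
      have hwy' : e6Ny al ga k1 k2 u0 w / e6Dl be ga u0 w = y0 := hwy
      rw [div_eq_iff hd] at hwy'
      unfold e6Ny e6Dl at hwy'
      have hgoal : y0 * w ^ 2 + (-(y0 * (u0 + ga - be)) - ((ga - al) * u0 - (ga * k1 - k2))) * w
          + (-(y0 * be * u0) - (-((k2 - al * u0) * u0))) = 0 := by
        linear_combination (-1 : ℂ) * hwy'
      exact hgoal
  refine himg.mono ?_
  rintro y ⟨w, hw, rfl⟩
  exact hP w hw

/-- If `G0 + G1 * P` vanishes at the two families of points of the chart parametrised by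
the pair `u`, `w`, then `G0` and `G1` vanish identically as functions. -/
theorem e6_poly_vanish (al be ga k1 k2 : ℂ) (hnd : k2 ≠ al * k1)
    (G0 G1 : MvPolynomial (Fin 2) ℂ)
    (h : ∀ u w : ℂ, w + be ≠ 0 → e6Dl be ga u w ≠ 0 →
      MvPolynomial.eval ![u, e6Ny al ga k1 k2 u w / e6Dl be ga u w] G0 +
          MvPolynomial.eval ![u, e6Ny al ga k1 k2 u w / e6Dl be ga u w] G1 *
            (e6Ny al ga k1 k2 u w / e6Dl be ga u w * w) = 0 ∧
        MvPolynomial.eval ![u, e6Ny al ga k1 k2 u w / e6Dl be ga u w] G0 +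
          MvPolynomial.eval ![u, e6Ny al ga k1 k2 u w / e6Dl be ga u w] G1 *
            (u * (e6Nz al be ga k1 k2 u w / e6Dl be ga u w)) = 0) :
    ∀ x y : ℂ, MvPolynomial.eval ![x, y] G0 = 0 ∧ MvPolynomial.eval ![x, y] G1 = 0 := by
  -- the set of good first coordinates is infinite
  have hU0 : {u : ℂ | (ga - al) * u - (ga * k1 - k2) ≠ 0}.Infinite := by
    have hfin : {u : ℂ | 0 * u ^ 2 + (ga - al) * u + (-(ga * k1 - k2)) = 0}.Finite := by
      apply e6van_finite_quad
      by_cases hga : ga - al = 0
      · right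
        right
        intro h0
        apply hnd
        have hga' : ga = al := sub_eq_zero.mp hga
        rw [hga'] at h0
        linear_combination h0
      · right
        left
        exact hga
    refine hfin.infinite_compl.mono ?_
    intro u hu hu0
    apply hu
    have hgoal : 0 * u ^ 2 + (ga - al) * u + (-(ga * k1 - k2)) = 0 := by
      linear_combination hu0
    exact hgoal
  -- vanishing on the lines over the good first coordinates
  have hline : ∀ u0 : ℂ, (ga - al) * u0 - (ga * k1 - k2) ≠ 0 → ∀ y : ℂ,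
      MvPolynomial.eval ![u0, y] G0 = 0 ∧ MvPolynomial.eval ![u0, y] G1 = 0 := by
    intro u0 hB
    have hW : {w : ℂ | w + be ≠ 0 ∧ e6Dl be ga u0 w ≠ 0 ∧
        e6Ny al ga k1 k2 u0 w * w - u0 * e6Nz al be ga k1 k2 u0 w ≠ 0}.Infinite := by
      have hf1 : {w : ℂ | 0 * w ^ 2 + 1 * w + be = 0}.Finite :=
        e6van_finite_quad 0 1 be (Or.inr (Or.inl one_ne_zero))
      have hf2 : {w : ℂ | 1 * w ^ 2 + (-(u0 + ga - be)) * w + (-(be * u0)) = 0}.Finite :=
        e6van_finite_quad 1 _ _ (Or.inl one_ne_zero)
      have hf3 : {w : ℂ | ((ga - al) * u0 - (ga * k1 - k2)) * w ^ 2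
          + (-(2 * u0 * (k2 - al * u0))) * w
          + (u0 * be * ((ga - al) * u0 - (ga * k1 - k2))
            + u0 * (u0 + ga - be) * (k2 - al * u0)) = 0}.Finite :=
        e6van_finite_quad _ _ _ (Or.inl hB)
      refine ((hf1.union hf2).union hf3).infinite_compl.mono ?_
      intro w hw
      refine ⟨?_, ?_, ?_⟩
      · intro h0
        apply hw
        left
        left
        have hgoal : 0 * w ^ 2 + 1 * w + be = 0 := by linear_combination h0
        exact hgoal
      · intro h0
        apply hw
        left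
        right
        unfold e6Dl at h0
        have hgoal : 1 * w ^ 2 + (-(u0 + ga - be)) * w + (-(be * u0)) = 0 := by
          linear_combination h0
        exact hgoal
      · intro h0
        apply hw
        right
        unfold e6Ny e6Nz at h0
        have hgoal : ((ga - al) * u0 - (ga * k1 - k2)) * w ^ 2
            + (-(2 * u0 * (k2 - al * u0))) * w
            + (u0 * be * ((ga - al) * u0 - (ga * k1 - k2))
              + u0 * (u0 + ga - be) * (k2 - al * u0)) = 0 := by
          linear_combination h0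
        exact hgoal
    have hD : ∀ w ∈ {w : ℂ | w + be ≠ 0 ∧ e6Dl be ga u0 w ≠ 0 ∧
        e6Ny al ga k1 k2 u0 w * w - u0 * e6Nz al be ga k1 k2 u0 w ≠ 0},
        e6Dl be ga u0 w ≠ 0 := fun w hw => hw.2.1
    have hvan : ∀ w ∈ {w : ℂ | w + be ≠ 0 ∧ e6Dl be ga u0 w ≠ 0 ∧
        e6Ny al ga k1 k2 u0 w * w - u0 * e6Nz al be ga k1 k2 u0 w ≠ 0},
        MvPolynomial.eval ![u0, e6Ny al ga k1 k2 u0 w / e6Dl be ga u0 w] G0 = 0 ∧
          MvPolynomial.eval ![u0, e6Ny al ga k1 k2 u0 w / e6Dl be ga u0 w] G1 = 0 := by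
      intro w hw
      obtain ⟨hw1, hw2, hw3⟩ := hw
      obtain ⟨e1, e2⟩ := h u0 w hw1 hw2
      have hsub : MvPolynomial.eval ![u0, e6Ny al ga k1 k2 u0 w / e6Dl be ga u0 w] G1 *
          ((e6Ny al ga k1 k2 u0 w * w - u0 * e6Nz al be ga k1 k2 u0 w) / e6Dl be ga u0 w) = 0 := by
        have hq : (e6Ny al ga k1 k2 u0 w * w - u0 * e6Nz al be ga k1 k2 u0 w) / e6Dl be ga u0 w
            = e6Ny al ga k1 k2 u0 w / e6Dl be ga u0 w * w
              - u0 * (e6Nz al be ga k1 k2 u0 w / e6Dl be ga u0 w) := by
          field_simp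
        rw [hq]
        linear_combination e1 - e2
      have hg1 : MvPolynomial.eval ![u0, e6Ny al ga k1 k2 u0 w / e6Dl be ga u0 w] G1 = 0 := by
        rcases mul_eq_zero.mp hsub with h1 | h1
        · exact h1
        · exact absurd h1 (div_ne_zero hw3 hw2)
      refine ⟨?_, hg1⟩
      rw [hg1, zero_mul, add_zero] at e1
      exact e1
    have hP0 := e6van_key al be ga k1 k2 u0 hB _ hW hD
      (MvPolynomial.aeval ![Polynomial.C u0, Polynomial.X] G0)
      (fun w hw => by rw [e6van_evalY]; exact (hvan w hw).1)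
    have hP1 := e6van_key al be ga k1 k2 u0 hB _ hW hD
      (MvPolynomial.aeval ![Polynomial.C u0, Polynomial.X] G1)
      (fun w hw => by rw [e6van_evalY]; exact (hvan w hw).2)
    intro y
    constructor
    · rw [← e6van_evalY, hP0, Polynomial.eval_zero]
    · rw [← e6van_evalY, hP1, Polynomial.eval_zero]
  -- vanishing everywhere
  intro x y
  have hQ0 : MvPolynomial.aeval ![Polynomial.X, Polynomial.C y] G0 = 0 := by
    apply Polynomial.eq_zero_of_infinite_isRoot
    refine hU0.mono ?_
    intro u hu
    have hr : Polynomial.IsRoot (MvPolynomial.aeval ![Polynomial.X, Polynomial.C y] G0) u := by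
      rw [Polynomial.IsRoot, e6van_evalX]
      exact (hline u hu y).1
    exact hr
  have hQ1 : MvPolynomial.aeval ![Polynomial.X, Polynomial.C y] G1 = 0 := by
    apply Polynomial.eq_zero_of_infinite_isRoot
    refine hU0.mono ?_
    intro u hu
    have hr : Polynomial.IsRoot (MvPolynomial.aeval ![Polynomial.X, Polynomial.C y] G1) u := by
      rw [Polynomial.IsRoot, e6van_evalX]
      exact (hline u hu y).2
    exact hr
  constructor
  · rw [← e6van_evalX, hQ0, Polynomial.eval_zero]
  · rw [← e6van_evalX, hQ1, Polynomial.eval_zero]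

end Vale.Agent.Lib.P002

end
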