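import Vale.Agent.Lib.P002.GPDefs

/-!
# Antidiagonal matrices
-/

open Matrix

namespace Vale.Agent.Lib.P002

theorem gpSgn_mul_self (R : Type*) [CommRing R] (r : ℕ) : gpSgn R r * gpSgn R r = 1 := by
  unfold gpSgn
  rw [← mul_pow]
  simp

theorem gpSgn_map {R S : Type*} [CommRing R] [CommRing S] (f : R →+* S) (r : ℕ) :
    Units.map (f : R →* S) (gpSgn R r) = gpSgn S r := by
  unfold gpSgn
  rw [map_pow]
  congr 1
  ext
  simp

theorem gpAntiAux_sgn_succ (R : Type*) [CommRing R] (r : ℕ) :
    ((gpSgn R (r + 1) : Rˣ) : R) = (-1) ^ r * ((gpSgn R r : Rˣ) : R) := by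
  unfold gpSgn
  have h1 : (r + 1) * (r + 1 - 1) = r * (r - 1) + r * 2 := by
    cases r with
    | zero => rfl
    | succ m =>
      simp only [Nat.add_sub_cancel]
      ring
  have h : (r + 1) * (r + 1 - 1) / 2 = r * (r - 1) / 2 + r := by
    rw [h1, Nat.add_mul_div_right _ _ (by norm_num : 0 < 2)]
  rw [h, pow_add, Units.val_mul, Units.val_pow_eq_pow_val, Units.val_pow_eq_pow_val,
    Units.val_neg, Units.val_one, mul_comm]

theorem gpAntiAux_mul_apply {R : Type*} [CommRing R] {r : ℕ} (t : Fin r → R)
    (L : Matrix (Fin r) (Fin r) R) (i m : Fin r) :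
    (gpAnti t * L) i m = t i * L (Fin.rev i) m := by
  rw [Matrix.mul_apply, Finset.sum_eq_single (Fin.rev i)]
  · simp only [gpAnti, Matrix.of_apply, Fin.val_rev]
    have hi := i.isLt
    rw [if_pos (by omega)]
  · intro k _ hk
    simp only [gpAnti, Matrix.of_apply]
    rw [if_neg, zero_mul]
    intro h
    apply hk
    ext
    rw [Fin.val_rev]
    omega
  · intro h
    exact absurd (Finset.mem_univ _) h

theorem gpAntiAux_apply_mul {R : Type*} [CommRing R] {r : ℕ} (u : Fin r → R)
    (M : Matrix (Fin r) (Fin r) R) (i j : Fin r) :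
    (M * gpAnti u) i j = M i (Fin.rev j) * u (Fin.rev j) := by
  rw [Matrix.mul_apply, Finset.sum_eq_single (Fin.rev j)]
  · simp only [gpAnti, Matrix.of_apply, Fin.val_rev]
    have hj := j.isLt
    rw [if_pos (by omega)]
  · intro k _ hk
    simp only [gpAnti, Matrix.of_apply]
    rw [if_neg, mul_zero]
    intro h
    apply hk
    ext
    rw [Fin.val_rev]
    omega
  · intro h
    exact absurd (Finset.mem_univ _) h

/-- The determinant of an antidiagonal matrix. -/
theorem gpAnti_det {R : Type*} [CommRing R] {r : ℕ} (t : Fin r → R) :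
    (gpAnti t).det = (gpSgn R r : R) * ∏ i, t i := by
  induction r with
  | zero =>
    rw [Matrix.det_isEmpty]
    simp [gpSgn]
  | succ r ih =>
    rw [Matrix.det_succ_row_zero, Finset.sum_eq_single (Fin.last r)]
    · have hsub : (gpAnti t).submatrix Fin.succ (Fin.succAbove (Fin.last r))
          = gpAnti (fun a => t a.succ) := by
        ext a b
        simp only [gpAnti, Matrix.submatrix_apply, Matrix.of_apply, Fin.succAbove_last,
          Fin.val_succ, Fin.val_castSucc]
        by_cases hab : (a : ℕ) + (b : ℕ) + 1 = r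
        · rw [if_pos hab, if_pos (by omega)]
        · rw [if_neg hab, if_neg (by omega)]
      have h0 : gpAnti t 0 (Fin.last r) = t 0 := by
        simp only [gpAnti, Matrix.of_apply]
        rw [if_pos]
        rw [Fin.val_zero, Fin.val_last]
        omega
      rw [hsub, ih, h0, gpAntiAux_sgn_succ, Fin.prod_univ_succ, Fin.val_last]
      ring
    · intro j _ hj
      have hz : gpAnti t 0 j = 0 := by
        simp only [gpAnti, Matrix.of_apply]
        rw [if_neg]
        intro h
        apply hj
        ext
        rw [Fin.val_last]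
        rw [Fin.val_zero] at h
        omega
      rw [hz, mul_zero, zero_mul]
    · intro h
      exact absurd (Finset.mem_univ _) h

/-- The product of two antidiagonal matrices is diagonal. -/
theorem gpAnti_mul {R : Type*} [CommRing R] {r : ℕ} (t u : Fin r → R) :
    gpAnti t * gpAnti u = Matrix.diagonal (fun i => t i * u (Fin.rev i)) := by
  ext a b
  rw [gpAntiAux_mul_apply]
  have ha := a.isLt
  have hb := b.isLt
  by_cases hab : a = b
  · subst hab
    rw [Matrix.diagonal_apply_eq]
    simp only [gpAnti, Matrix.of_apply, Fin.val_rev]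
    rw [if_pos (by omega)]
  · rw [Matrix.diagonal_apply_ne _ hab]
    simp only [gpAnti, Matrix.of_apply, Fin.val_rev]
    rw [if_neg, mul_zero]
    intro h
    apply hab
    ext
    omega

theorem gpAnti_map {R S : Type*} [CommRing R] [CommRing S] (f : R →+* S) {r : ℕ}
    (t : Fin r → R) : (gpAnti t).map f = gpAnti (fun i => f (t i)) := by
  ext a b
  simp only [gpAnti, Matrix.map_apply, Matrix.of_apply]
  by_cases hab : (a : ℕ) + (b : ℕ) + 1 = r
  · rw [if_pos hab, if_pos hab]
  · rw [if_neg hab, if_neg hab, map_zero]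

/-- Conjugating a lower triangular matrix by antidiagonal matrices gives an upper triangular
matrix. -/
theorem gpAnti_conj_low {R : Type*} [CommRing R] {r : ℕ} (t u : Fin r → R)
    (L : Matrix (Fin r) (Fin r) R) (hL : L.IsLowerTriangular) :
    (gpAnti t * L * gpAnti u).IsUpperTriangular ∧
      ∀ i, (gpAnti t * L * gpAnti u) i i = t i * L (Fin.rev i) (Fin.rev i) * u (Fin.rev i) := by
  have key : ∀ i j, (gpAnti t * L * gpAnti u) i j
      = t i * L (Fin.rev i) (Fin.rev j) * u (Fin.rev j) := by
    intro i j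
    rw [gpAntiAux_apply_mul, gpAntiAux_mul_apply]
  refine ⟨?_, fun i => key i i⟩
  intro i j hij
  have hlt : Fin.rev i < Fin.rev j := Fin.rev_lt_rev.mpr hij
  have hlow : L (Fin.rev i) (Fin.rev j) = 0 := hL (OrderDual.toDual_lt_toDual.mpr hlt)
  rw [key, hlow, mul_zero, zero_mul]

end Vale.Agent.Lib.P002
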