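import Vale.Agent.Lib.P002.GWDefs

/-!
# Uniqueness of triangular factorizations; inverses of unipotent triangular matrices
-/

open Matrix

namespace Vale.Agent.Lib.P002

/-- The diagonal of a product of two upper triangular matrices. -/
theorem gwTriAux_diag_mul {R : Type*} [CommRing R] {r : ℕ} (A B : Matrix (Fin r) (Fin r) R)
    (hA : A.IsUpperTriangular) (hB : B.IsUpperTriangular) (i : Fin r) :
    (A * B) i i = A i i * B i i := by
  rw [Matrix.mul_apply]
  apply Finset.sum_eq_single i
  · intro m _ hm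
    rcases lt_or_gt_of_ne hm with h | h
    · have h0 : A i m = 0 := hA h
      rw [h0, zero_mul]
    · have h0 : B m i = 0 := hB h
      rw [h0, mul_zero]
  · intro hi
    exact absurd (Finset.mem_univ i) hi

/-- A matrix which is upper triangular with unit diagonal and lower triangular is the
identity. -/
theorem gwTriAux_eq_one {R : Type*} [CommRing R] {r : ℕ} (m : Matrix (Fin r) (Fin r) R)
    (hu : m.IsUpperTriangular) (hl : m.IsLowerTriangular) (h1 : ∀ i, m i i = 1) : m = 1 := by
  ext i j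
  rcases lt_trichotomy i j with h | h | h
  · have h0 : m i j = 0 := hl (OrderDual.toDual_lt_toDual.mpr h)
    rw [h0, Matrix.one_apply_ne h.ne]
  · rw [h, h1, Matrix.one_apply_eq]
  · have h0 : m i j = 0 := hu h
    rw [h0, Matrix.one_apply_ne h.ne']

/-- The inverse of an upper triangular matrix with unit diagonal. -/
theorem gwTriAux_upU_inv {R : Type*} [CommRing R] (r : ℕ) (q : Matrix (Fin r) (Fin r) R)
    (hq : q.IsUpperTriangular) (hq1 : ∀ i, q i i = 1) :
    ∃ qi : Matrix (Fin r) (Fin r) R, qi.IsUpperTriangular ∧ (∀ i, qi i i = 1) ∧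
      q * qi = 1 ∧ qi * q = 1 := by
  have hdet : IsUnit q.det := by
    rw [Matrix.det_of_isUpperTriangular hq]
    have e : ∏ i, q i i = 1 := Finset.prod_eq_one (fun i _ => hq1 i)
    rw [e]
    exact isUnit_one
  have hinv : Invertible q := Matrix.invertibleOfIsUnitDet q hdet
  have hqi : (q⁻¹).IsUpperTriangular := Matrix.blockTriangular_inv_of_blockTriangular hq
  have hmul : q * q⁻¹ = 1 := Matrix.mul_nonsing_inv q hdet
  refine ⟨q⁻¹, hqi, ?_, hmul, Matrix.nonsing_inv_mul q hdet⟩
  intro i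
  have h := gwTriAux_diag_mul q q⁻¹ hq hqi i
  rw [hmul, Matrix.one_apply_eq, hq1, one_mul] at h
  exact h.symm

/-- A lower triangular matrix with unit diagonal entries has an invertible determinant. -/
theorem gwTriAux_det_unit {R : Type*} [CommRing R] {r : ℕ} (l : Matrix (Fin r) (Fin r) R)
    (hl : l.IsLowerTriangular) (hd : ∀ i, IsUnit (l i i)) : IsUnit l.det := by
  rw [Matrix.det_of_isLowerTriangular l hl]
  exact IsUnit.prod_univ_iff.mpr hd

theorem gw_lu_unique {R : Type*} [CommRing R] (r : ℕ) (l l' n n' : Matrix (Fin r) (Fin r) R)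
    (hl : l.IsLowerTriangular) (hl' : l'.IsLowerTriangular) (hd : ∀ i, IsUnit (l i i))
    (hn : n.IsUpperTriangular) (hn1 : ∀ i, n i i = 1)
    (hn' : n'.IsUpperTriangular) (hn1' : ∀ i, n' i i = 1)
    (h : l * n = l' * n') : l = l' ∧ n = n' := by
  obtain ⟨ni, hni, hni1, hmul1, hmul2⟩ := gwTriAux_upU_inv r n' hn' hn1'
  have hdet : IsUnit l.det := gwTriAux_det_unit l hl hd
  have hinv : Invertible l := Matrix.invertibleOfIsUnitDet l hdet
  have hli : (l⁻¹).IsLowerTriangular := Matrix.blockTriangular_inv_of_blockTriangular hl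
  -- the matrix `n * ni = l⁻¹ * l'`
  have e1 : l * (n * ni) = l' := by
    rw [← Matrix.mul_assoc, h, Matrix.mul_assoc, hmul1, Matrix.mul_one]
  have e2 : n * ni = l⁻¹ * l' := by
    rw [← e1, Matrix.nonsing_inv_mul_cancel_left l _ hdet]
  have hup : (n * ni).IsUpperTriangular := hn.mul hni
  have hlow : (n * ni).IsLowerTriangular := by
    rw [e2]
    exact hli.mul hl'
  have hdiag : ∀ i, (n * ni) i i = 1 := by
    intro i
    rw [gwTriAux_diag_mul n ni hn hni i, hn1, hni1, one_mul]
  have hone : n * ni = 1 := gwTriAux_eq_one (n * ni) hup hlow hdiag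
  constructor
  · rw [← e1, hone, Matrix.mul_one]
  · calc n = n * (ni * n') := by rw [hmul2, Matrix.mul_one]
      _ = (n * ni) * n' := (Matrix.mul_assoc n ni n').symm
      _ = n' := by rw [hone, Matrix.one_mul]

theorem gw_ul_unique {R : Type*} [CommRing R] (r : ℕ) (q q' l l' : Matrix (Fin r) (Fin r) R)
    (hq : q.IsUpperTriangular) (hq1 : ∀ i, q i i = 1)
    (hq' : q'.IsUpperTriangular) (hq1' : ∀ i, q' i i = 1)
    (hl : l.IsLowerTriangular) (hl' : l'.IsLowerTriangular) (hd : ∀ i, IsUnit (l i i))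
    (h : q * l = q' * l') : q = q' ∧ l = l' := by
  obtain ⟨qi, hqi, hqi1, hmul1, hmul2⟩ := gwTriAux_upU_inv r q' hq' hq1'
  have hdet : IsUnit l.det := gwTriAux_det_unit l hl hd
  have hinv : Invertible l := Matrix.invertibleOfIsUnitDet l hdet
  have hli : (l⁻¹).IsLowerTriangular := Matrix.blockTriangular_inv_of_blockTriangular hl
  -- the matrix `qi * q = l' * l⁻¹`
  have e1 : (qi * q) * l = l' := by
    rw [Matrix.mul_assoc, h, ← Matrix.mul_assoc, hmul2, Matrix.one_mul]
  have e2 : qi * q = l' * l⁻¹ := by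
    rw [← e1, Matrix.mul_nonsing_inv_cancel_right l _ hdet]
  have hup : (qi * q).IsUpperTriangular := hqi.mul hq
  have hlow : (qi * q).IsLowerTriangular := by
    rw [e2]
    exact hl'.mul hli
  have hdiag : ∀ i, (qi * q) i i = 1 := by
    intro i
    rw [gwTriAux_diag_mul qi q hqi hq i, hq1, hqi1, one_mul]
  have hone : qi * q = 1 := gwTriAux_eq_one (qi * q) hup hlow hdiag
  constructor
  · calc q = (q' * qi) * q := by rw [hmul1, Matrix.one_mul]
      _ = q' * (qi * q) := Matrix.mul_assoc q' qi q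
      _ = q' := by rw [hone, Matrix.mul_one]
  · rw [← e1, hone, Matrix.one_mul]

theorem gw_upU_inv {R : Type*} [CommRing R] (r : ℕ) (q : Matrix (Fin r) (Fin r) R)
    (hq : q.IsUpperTriangular) (hq1 : ∀ i, q i i = 1) :
    ∃ qi : Matrix (Fin r) (Fin r) R, qi.IsUpperTriangular ∧ (∀ i, qi i i = 1) ∧
      q * qi = 1 ∧ qi * q = 1 :=
  gwTriAux_upU_inv r q hq hq1

end Vale.Agent.Lib.P002
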