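import Vale.Agent.Lib.P002.GSDefs
import Vale.Agent.Lib.P002.GWTri

/-!
# Telescoping products along a chain of cells
-/

open Matrix

namespace Vale.Agent.Lib.P002

/-- The diagonal of a product of two lower triangular matrices. -/
theorem gsTeleAux_diag_mul_low {R : Type*} [CommRing R] {r : ℕ}
    (A B : Matrix (Fin r) (Fin r) R) (hA : A.IsLowerTriangular) (hB : B.IsLowerTriangular)
    (i : Fin r) : (A * B) i i = A i i * B i i := by
  rw [Matrix.mul_apply]
  apply Finset.sum_eq_single i
  · intro m _ hm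
    rcases lt_or_gt_of_ne hm with h | h
    · have h0 : B m i = 0 := hB (OrderDual.toDual_lt_toDual.mpr h)
      rw [h0, mul_zero]
    · have h0 : A i m = 0 := hA (OrderDual.toDual_lt_toDual.mpr h)
      rw [h0, zero_mul]
  · intro hi
    exact absurd (Finset.mem_univ i) hi

theorem gs_tele {R : Type*} [CommRing R] {r : ℕ} (n : ℕ)
    (B l p l' : Fin n → Matrix (Fin r) (Fin r) R) (q M : Fin (n + 1) → Matrix (Fin r) (Fin r) R)
    (h1 : ∀ j, l j * p j = q j.castSucc * l' j)
    (h2 : ∀ j : Fin n, M j.succ * q j.succ = M j.castSucc * p j)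
    (h3 : ∀ j, B j * M j.castSucc = M j.castSucc * l j) :
    (List.ofFn B).prod * (M (Fin.last n) * q (Fin.last n)) = M 0 * q 0 * (List.ofFn l').prod := by
  induction n with
  | zero =>
    rw [List.ofFn_zero, List.ofFn_zero, List.prod_nil, one_mul, mul_one]
    rfl
  | succ n ih =>
    have h1' : ∀ j : Fin n, l j.succ * p j.succ = q j.castSucc.succ * l' j.succ := by
      intro j
      rw [Fin.succ_castSucc]
      exact h1 j.succ
    have h2' : ∀ j : Fin n,
        M j.succ.succ * q j.succ.succ = M j.castSucc.succ * p j.succ := by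
      intro j
      rw [Fin.succ_castSucc]
      exact h2 j.succ
    have h3' : ∀ j : Fin n, B j.succ * M j.castSucc.succ = M j.castSucc.succ * l j.succ := by
      intro j
      rw [Fin.succ_castSucc]
      exact h3 j.succ
    have key : (List.ofFn fun j : Fin n => B j.succ).prod
        * (M (Fin.last n).succ * q (Fin.last n).succ)
        = M (Fin.succ 0) * q (Fin.succ 0) * (List.ofFn fun j : Fin n => l' j.succ).prod :=
      ih (fun j => B j.succ) (fun j => l j.succ) (fun j => p j.succ) (fun j => l' j.succ)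
        (fun j => q j.succ) (fun j => M j.succ) h1' h2' h3'
    have e1 := h1 0
    have e2 := h2 0
    have e3 := h3 0
    rw [Fin.castSucc_zero] at e1 e2 e3
    rw [List.ofFn_succ, List.prod_cons, List.ofFn_succ (f := l'), List.prod_cons,
      ← Fin.succ_last, mul_assoc (B 0), key, e2, ← mul_assoc (B 0), ← mul_assoc (B 0), e3,
      mul_assoc (M 0), e1]
    simp only [mul_assoc]

/-- Products of lower triangular matrices: shape and diagonal. -/
theorem gs_low_prod {R : Type*} [CommRing R] {r : ℕ} (n : ℕ)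
    (l' : Fin n → Matrix (Fin r) (Fin r) R) (h : ∀ j, (l' j).IsLowerTriangular) :
    ((List.ofFn l').prod).IsLowerTriangular ∧ ∀ i, (List.ofFn l').prod i i = ∏ j, l' j i i := by
  induction n with
  | zero =>
    rw [List.ofFn_zero, List.prod_nil]
    refine ⟨Matrix.blockTriangular_one, fun i => ?_⟩
    rw [Matrix.one_apply_eq, Finset.univ_eq_empty, Finset.prod_empty]
  | succ n ih =>
    obtain ⟨hT, hTd⟩ := ih (fun j => l' j.succ) (fun j => h j.succ)
    rw [List.ofFn_succ, List.prod_cons]
    refine ⟨Matrix.BlockTriangular.mul (h 0) hT, fun i => ?_⟩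
    rw [gsTeleAux_diag_mul_low _ _ (h 0) hT, hTd, Fin.prod_univ_succ]

/-- The matrices `M j` of a chain are upper triangular with unit diagonal. -/
theorem gs_M_up {R : Type*} [CommRing R] {r : ℕ} (n : ℕ)
    (p : Fin n → Matrix (Fin r) (Fin r) R) (q M : Fin (n + 1) → Matrix (Fin r) (Fin r) R)
    (hp : ∀ j, (p j).IsUpperTriangular ∧ ∀ i, p j i i = 1)
    (hq : ∀ j, (q j).IsUpperTriangular ∧ ∀ i, q j i i = 1)
    (hM0 : M 0 = 1) (hM : ∀ j : Fin n, M j.succ * q j.succ = M j.castSucc * p j) :
    ∀ j, (M j).IsUpperTriangular ∧ ∀ i, M j i i = 1 := by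
  intro j
  induction j using Fin.induction with
  | zero =>
    rw [hM0]
    exact ⟨Matrix.blockTriangular_one, fun i => Matrix.one_apply_eq i⟩
  | succ j ih =>
    obtain ⟨qi, hqi, hqi1, hqq, _⟩ := gw_upU_inv r (q j.succ) (hq j.succ).1 (hq j.succ).2
    have e : M j.succ = M j.castSucc * p j * qi := by
      calc M j.succ = M j.succ * (q j.succ * qi) := by rw [hqq, mul_one]
        _ = M j.succ * q j.succ * qi := by rw [mul_assoc]
        _ = M j.castSucc * p j * qi := by rw [hM j]
    rw [e]
    have hA : (M j.castSucc * p j).IsUpperTriangular :=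
      Matrix.BlockTriangular.mul ih.1 (hp j).1
    refine ⟨Matrix.BlockTriangular.mul hA hqi, fun i => ?_⟩
    rw [gwTriAux_diag_mul _ _ hA hqi, gwTriAux_diag_mul _ _ ih.1 (hp j).1, ih.2, (hp j).2,
      hqi1, mul_one, mul_one]

end Vale.Agent.Lib.P002
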