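import Vale.Agent.Lib.P002.GPAnti
import Vale.Agent.Lib.P002.GWTri
import Vale.Agent.Lib.P002.GSTele

/-!
# The commutator of a handle
-/

open Matrix

namespace Vale.Agent.Lib.P002

/-- A lower triangular complex matrix with nonzero diagonal entries has a lower triangular
two-sided inverse whose diagonal entries are the inverses of the diagonal entries. -/
theorem gpBlockAux_low_inv {r : ℕ} (a : Matrix (Fin r) (Fin r) ℂ) (ha : a.IsLowerTriangular)
    (hd : ∀ i, a i i ≠ 0) :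
    ∃ ai : Matrix (Fin r) (Fin r) ℂ, ai.IsLowerTriangular ∧ (∀ i, ai i i = (a i i)⁻¹) ∧
      a * ai = 1 ∧ ai * a = 1 := by
  have hdet : a.det ≠ 0 := by
    rw [Matrix.det_of_isLowerTriangular a ha]
    exact Finset.prod_ne_zero_iff.mpr (fun i _ => hd i)
  have hu : IsUnit a.det := isUnit_iff_ne_zero.mpr hdet
  have h1 : a * a⁻¹ = 1 := Matrix.mul_nonsing_inv a hu
  have h2 : a⁻¹ * a = 1 := Matrix.nonsing_inv_mul a hu
  have hlow : a⁻¹.IsLowerTriangular := by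
    let _ : Invertible a := Matrix.invertibleOfIsUnitDet a hu
    exact Matrix.blockTriangular_inv_of_blockTriangular ha
  refine ⟨a⁻¹, hlow, ?_, h1, h2⟩
  intro i
  have h3 := gsTeleAux_diag_mul_low a⁻¹ a hlow ha i
  rw [h2, Matrix.one_apply_eq] at h3
  exact eq_inv_of_mul_eq_one_left h3.symm

/-- An antidiagonal matrix with nonzero entries has an antidiagonal two-sided inverse. -/
theorem gpBlockAux_anti_inv {r : ℕ} (t : Fin r → ℂ) (ht : ∀ i, t i ≠ 0) :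
    gpAnti t * gpAnti (fun a => (t (Fin.rev a))⁻¹) = 1 ∧
      gpAnti (fun a => (t (Fin.rev a))⁻¹) * gpAnti t = 1 := by
  constructor
  · rw [gpAnti_mul]
    have h : (fun i => t i * (t (Fin.rev (Fin.rev i)))⁻¹) = fun _ => (1 : ℂ) := by
      funext i
      rw [Fin.rev_rev]
      exact mul_inv_cancel₀ (ht i)
    rw [h]
    exact Matrix.diagonal_one
  · rw [gpAnti_mul]
    have h : (fun i => (t (Fin.rev i))⁻¹ * t (Fin.rev i)) = fun _ => (1 : ℂ) := by
      funext i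
      exact inv_mul_cancel₀ (ht _)
    rw [h]
    exact Matrix.diagonal_one

/-- The algebraic chain behind `gp_block`, with all the matrices abstract. -/
theorem gpBlockAux_chain {r : ℕ}
    (x y xi yi Q0 Q1 P1 P2 Γ Γ' a0 b1 a1 b2 p1 T T' Ti Ti' a0i a1i :
      Matrix (Fin r) (Fin r) ℂ)
    (hxi : xi * x = 1) (hyi : yi * y = 1)
    (h1 : x * Q1 = Q0 * T) (h2 : y * P1 = P2 * T')
    (hQ1 : Q1 = P1 * p1)
    (hQ0 : Q0 = Γ * a0) (hP1 : P1 = Γ * b1) (hQ1' : Q1 = Γ' * a1) (hP2 : P2 = Γ' * b2)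
    (hT : T * Ti = 1) (hT' : T' * Ti' = 1)
    (ha0 : a0 * a0i = 1) (ha1 : a1 * a1i = 1) :
    x * y * xi * yi * P2 =
      Q0 * ((T * (a1i * b2) * T') * p1 * (Ti * (a0i * b1) * Ti')) := by
  -- the four basic identities
  have e1 : yi * P2 = P1 * Ti' := by
    calc yi * P2 = yi * (P2 * (T' * Ti')) := by rw [hT', Matrix.mul_one]
      _ = yi * ((P2 * T') * Ti') := by rw [Matrix.mul_assoc]
      _ = yi * ((y * P1) * Ti') := by rw [h2]
      _ = (yi * y) * (P1 * Ti') := by simp only [Matrix.mul_assoc]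
      _ = P1 * Ti' := by rw [hyi, Matrix.one_mul]
  have e2 : xi * Q0 = Q1 * Ti := by
    calc xi * Q0 = xi * (Q0 * (T * Ti)) := by rw [hT, Matrix.mul_one]
      _ = xi * ((Q0 * T) * Ti) := by rw [Matrix.mul_assoc]
      _ = xi * ((x * Q1) * Ti) := by rw [h1]
      _ = (xi * x) * (Q1 * Ti) := by simp only [Matrix.mul_assoc]
      _ = Q1 * Ti := by rw [hxi, Matrix.one_mul]
  have e3 : P1 = Q0 * (a0i * b1) := by
    calc P1 = Γ * b1 := hP1
      _ = Γ * ((a0 * a0i) * b1) := by rw [ha0, Matrix.one_mul]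
      _ = (Γ * a0) * (a0i * b1) := by simp only [Matrix.mul_assoc]
      _ = Q0 * (a0i * b1) := by rw [← hQ0]
  have e4 : P2 = Q1 * (a1i * b2) := by
    calc P2 = Γ' * b2 := hP2
      _ = Γ' * ((a1 * a1i) * b2) := by rw [ha1, Matrix.one_mul]
      _ = (Γ' * a1) * (a1i * b2) := by simp only [Matrix.mul_assoc]
      _ = Q1 * (a1i * b2) := by rw [← hQ1']
  -- abbreviations for the two outer factors
  obtain ⟨W, hW⟩ : ∃ W, W = (a0i * b1) * Ti' := ⟨_, rfl⟩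
  obtain ⟨V, hV⟩ : ∃ V, V = (a1i * b2) * T' := ⟨_, rfl⟩
  have f1 : yi * P2 = Q0 * W := by
    calc yi * P2 = P1 * Ti' := e1
      _ = (Q0 * (a0i * b1)) * Ti' := by rw [← e3]
      _ = Q0 * W := by rw [hW, Matrix.mul_assoc]
  have f2 : xi * (yi * P2) = Q1 * (Ti * W) := by
    calc xi * (yi * P2) = xi * (Q0 * W) := by rw [f1]
      _ = (xi * Q0) * W := by rw [Matrix.mul_assoc]
      _ = (Q1 * Ti) * W := by rw [e2]
      _ = Q1 * (Ti * W) := by rw [Matrix.mul_assoc]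
  have f3 : y * (xi * (yi * P2)) = Q1 * (V * (p1 * (Ti * W))) := by
    calc y * (xi * (yi * P2)) = y * (Q1 * (Ti * W)) := by rw [f2]
      _ = y * ((P1 * p1) * (Ti * W)) := by rw [← hQ1]
      _ = (y * P1) * (p1 * (Ti * W)) := by simp only [Matrix.mul_assoc]
      _ = (P2 * T') * (p1 * (Ti * W)) := by rw [h2]
      _ = ((Q1 * (a1i * b2)) * T') * (p1 * (Ti * W)) := by rw [← e4]
      _ = Q1 * (V * (p1 * (Ti * W))) := by rw [hV]; simp only [Matrix.mul_assoc]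
  calc x * y * xi * yi * P2 = x * (y * (xi * (yi * P2))) := by simp only [Matrix.mul_assoc]
    _ = x * (Q1 * (V * (p1 * (Ti * W)))) := by rw [f3]
    _ = (x * Q1) * (V * (p1 * (Ti * W))) := by rw [Matrix.mul_assoc]
    _ = (Q0 * T) * (V * (p1 * (Ti * W))) := by rw [h1]
    _ = Q0 * ((T * (a1i * b2) * T') * p1 * (Ti * (a0i * b1) * Ti')) := by
      rw [hV, hW]; simp only [Matrix.mul_assoc]

/-- The commutator of the two generators of a handle maps the frame `P2` at the end of the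
handle to the frame `Q0` at its start, up to an upper triangular matrix with explicit
diagonal. -/
theorem gp_block {r : ℕ}
    (x y xi yi Q0 Q1 P1 P2 Γ Γ' a0 b1 a1 b2 p1 : Matrix (Fin r) (Fin r) ℂ) (t t' : Fin r → ℂ)
    (hx : x * xi = 1) (hxi : xi * x = 1) (hy : y * yi = 1) (hyi : yi * y = 1)
    (h1 : x * Q1 = Q0 * gpAnti t) (h2 : y * P1 = P2 * gpAnti t')
    (hQ1 : Q1 = P1 * p1) (hp1 : p1.IsUpperTriangular) (hp11 : ∀ i, p1 i i = 1)
    (hQ0 : Q0 = Γ * a0) (hP1 : P1 = Γ * b1) (hQ1' : Q1 = Γ' * a1) (hP2 : P2 = Γ' * b2)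
    (ha0 : a0.IsLowerTriangular) (hb1 : b1.IsLowerTriangular) (ha1 : a1.IsLowerTriangular)
    (hb2 : b2.IsLowerTriangular) (hΓ : IsUnit Γ.det) (hΓ' : IsUnit Γ'.det)
    (hd0 : ∀ i, a0 i i ≠ 0) (hd1 : ∀ i, a1 i i ≠ 0) (ht : ∀ i, t i ≠ 0) (ht' : ∀ i, t' i ≠ 0) :
    ∃ U : Matrix (Fin r) (Fin r) ℂ, U.IsUpperTriangular ∧
      (∀ i, U i i = t i * t' (Fin.rev i) * b2 (Fin.rev i) (Fin.rev i) * b1 (Fin.rev i) (Fin.rev i) /
        (t (Fin.rev i) * t' i * a1 (Fin.rev i) (Fin.rev i) * a0 (Fin.rev i) (Fin.rev i))) ∧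
      x * y * xi * yi * P2 = Q0 * U := by
  obtain ⟨a0i, ha0il, ha0id, ha0r, _⟩ := gpBlockAux_low_inv a0 ha0 hd0
  obtain ⟨a1i, ha1il, ha1id, ha1r, _⟩ := gpBlockAux_low_inv a1 ha1 hd1
  obtain ⟨hT, _⟩ := gpBlockAux_anti_inv t ht
  obtain ⟨hT', _⟩ := gpBlockAux_anti_inv t' ht'
  have hlowA : (a1i * b2).IsLowerTriangular := Matrix.BlockTriangular.mul ha1il hb2
  have hlowB : (a0i * b1).IsLowerTriangular := Matrix.BlockTriangular.mul ha0il hb1
  obtain ⟨hAup, hAd⟩ := gpAnti_conj_low t t' (a1i * b2) hlowA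
  obtain ⟨hBup, hBd⟩ := gpAnti_conj_low (fun a => (t (Fin.rev a))⁻¹)
    (fun a => (t' (Fin.rev a))⁻¹) (a0i * b1) hlowB
  refine ⟨(gpAnti t * (a1i * b2) * gpAnti t') * p1 *
    (gpAnti (fun a => (t (Fin.rev a))⁻¹) * (a0i * b1) * gpAnti (fun a => (t' (Fin.rev a))⁻¹)),
    ?_, ?_, ?_⟩
  · exact Matrix.BlockTriangular.mul (Matrix.BlockTriangular.mul hAup hp1) hBup
  · intro i
    rw [gwTriAux_diag_mul _ _ (Matrix.BlockTriangular.mul hAup hp1) hBup i,
      gwTriAux_diag_mul _ _ hAup hp1 i, hp11 i, mul_one, hAd i, hBd i,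
      gsTeleAux_diag_mul_low a1i b2 ha1il hb2, gsTeleAux_diag_mul_low a0i b1 ha0il hb1,
      ha1id, ha0id, Fin.rev_rev]
    have n1 := ht (Fin.rev i)
    have n2 := ht' i
    have n3 := hd1 (Fin.rev i)
    have n4 := hd0 (Fin.rev i)
    field_simp
  · exact gpBlockAux_chain x y xi yi Q0 Q1 P1 P2 Γ Γ' a0 b1 a1 b2 p1 (gpAnti t) (gpAnti t')
      (gpAnti (fun a => (t (Fin.rev a))⁻¹)) (gpAnti (fun a => (t' (Fin.rev a))⁻¹)) a0i a1i
      hxi hyi h1 h2 hQ1 hQ0 hP1 hQ1' hP2 hT hT' ha0r ha1r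

end Vale.Agent.Lib.P002
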