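import Vale.Agent.Lib.P002.GPFrames
import Vale.Agent.Lib.P002.GPAnti

/-!
# Nonvanishing of the diagonal data of a chart point
-/

open Matrix

namespace Vale.Agent.Lib.P002

/-- The factors of a nonzero product are nonzero. -/
theorem gpRelNeAux_ne {r : ℕ} (a : Fin r → ℂ) (h : ∏ i, a i ≠ 0) (i : Fin r) : a i ≠ 0 := by
  intro h0
  exact h (Finset.prod_eq_zero (Finset.mem_univ i) h0)

/-- From `1 = s * P` with `s * s = 1` one gets `P = s`. -/
theorem gpRelNeAux_solve (s P : ℂ) (hs : s * s = 1) (h : 1 = s * P) : P = s := by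
  calc P = (s * s) * P := by rw [hs, one_mul]
    _ = s * (s * P) := by ring
    _ = s := by rw [← h, mul_one]

/-- For generators of determinant one satisfying the chart relations, the antidiagonal data have
product `gpSgn` (in particular they do not vanish), and the trailing diagonals of the cells have
product one (in particular they do not vanish). -/
theorem gp_rel_ne {g n r : ℕ} (x y : Fin g → Matrix.SpecialLinearGroup (Fin r) ℂ)
    (z : Fin n → Matrix.SpecialLinearGroup (Fin r) ℂ)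
    (l p q l' G : ℕ → Matrix (Fin r) (Fin r) ℂ) (t t' : Fin g → Fin r → ℂ)
    (τ : Fin n → Fin r → ℂ)
    (h : gpRel (fun h => (x h).1) (fun h => (y h).1) (fun j => (z j).1) l p q l' G t t' τ) :
    (∀ h, ∏ i, t h i = ((gpSgn ℂ r : ℂˣ) : ℂ) ∧ ∏ i, t' h i = ((gpSgn ℂ r : ℂˣ) : ℂ)) ∧
      (∀ h i, t h i ≠ 0 ∧ t' h i ≠ 0) ∧ (∀ k, ∏ i, l' k i i = 1) ∧ (∀ k i, l' k i i ≠ 0) ∧
      ∀ j, ∏ i, τ j i = 1 := by
  obtain ⟨hc, -, hG0, hG, hxy, hz⟩ := h
  have hfr := gp_frames l p q l' G hc hG0 hG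
  have hsgn : ((gpSgn ℂ r : ℂˣ) : ℂ) * ((gpSgn ℂ r : ℂˣ) : ℂ) = 1 := by
    rw [← Units.val_mul, gpSgn_mul_self, Units.val_one]
  have hsgn0 : ((gpSgn ℂ r : ℂˣ) : ℂ) ≠ 0 := (gpSgn ℂ r).ne_zero
  have ht : ∀ h, ∏ i, t h i = ((gpSgn ℂ r : ℂˣ) : ℂ) ∧
      ∏ i, t' h i = ((gpSgn ℂ r : ℂˣ) : ℂ) := by
    intro h
    obtain ⟨e1, e2⟩ := hxy h
    constructor
    · have hd : ((x h).1).det * (G (2 * h + 1) * l (2 * h + 1) * p (2 * h + 1)).det
          = (G (2 * h) * l (2 * h) * p (2 * h)).det * (gpAnti (t h)).det := by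
        rw [← Matrix.det_mul, ← Matrix.det_mul]
        exact congrArg Matrix.det e1
      rw [(hfr (2 * h + 1)).2.2.2.2.1, (hfr (2 * h)).2.2.2.2.1, gpAnti_det, (x h).2, mul_one,
        one_mul] at hd
      exact gpRelNeAux_solve _ _ hsgn hd
    · have hd : ((y h).1).det * (G (2 * h + 1) * l (2 * h + 1)).det
          = (G (2 * h + 2) * l (2 * h + 2)).det * (gpAnti (t' h)).det := by
        rw [← Matrix.det_mul, ← Matrix.det_mul]
        exact congrArg Matrix.det e2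
      rw [(hfr (2 * h + 1)).2.2.2.1, (hfr (2 * h + 2)).2.2.2.1, gpAnti_det, (y h).2, mul_one,
        one_mul] at hd
      exact gpRelNeAux_solve _ _ hsgn hd
  refine ⟨ht, ?_, fun k => (hfr k).2.2.2.2.2.2, ?_, ?_⟩
  · intro h i
    refine ⟨gpRelNeAux_ne _ ?_ i, gpRelNeAux_ne _ ?_ i⟩
    · rw [(ht h).1]
      exact hsgn0
    · rw [(ht h).2]
      exact hsgn0
  · intro k i
    refine gpRelNeAux_ne (fun i => l' k i i) ?_ i
    rw [(hfr k).2.2.2.2.2.2]
    exact one_ne_zero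
  · intro j
    have hd : ((z j).1).det * (G (2 * g + j + 1) * l (2 * g + j + 1)).det
        = (G (2 * g + j) * l (2 * g + j) * p (2 * g + j)).det * (Matrix.diagonal (τ j)).det := by
      rw [← Matrix.det_mul, ← Matrix.det_mul]
      exact congrArg Matrix.det (hz j)
    rw [(hfr (2 * g + j + 1)).2.2.2.1, (hfr (2 * g + j)).2.2.2.2.1, Matrix.det_diagonal, (z j).2,
      mul_one, one_mul] at hd
    exact hd.symm

end Vale.Agent.Lib.P002
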