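import Vale.Agent.Lib.P002.GPDefs
import Vale.Agent.Lib.P002.GWTri

/-!
# Telescoping along a chain of frames
-/

open Matrix

namespace Vale.Agent.Lib.P002

/-- If `C k` maps the frame `B (k+1)` to the frame `A k = B k * π k` up to an upper triangular
matrix `U k`, then the product of the `C k` maps `B m` to `B 0` up to an upper triangular matrix
whose diagonal is the product of the diagonals of the `U k`. -/
theorem gp_tele {R : Type*} [CommRing R] {r : ℕ} (m : ℕ) (C : Fin m → Matrix (Fin r) (Fin r) R)
    (A B π U : ℕ → Matrix (Fin r) (Fin r) R)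
    (h1 : ∀ k : Fin m, C k * B (k + 1) = A k * U k) (h2 : ∀ k, A k = B k * π k)
    (hπ : ∀ k, (π k).IsUpperTriangular ∧ ∀ i, π k i i = 1)
    (hU : ∀ k : Fin m, (U k).IsUpperTriangular) :
    ∃ V : Matrix (Fin r) (Fin r) R, V.IsUpperTriangular ∧
      (∀ i, V i i = ∏ k : Fin m, U k i i) ∧ (List.ofFn C).prod * B m = B 0 * V := by
  induction m with
  | zero =>
    refine ⟨1, Matrix.blockTriangular_one, fun i => ?_, ?_⟩
    · rw [Matrix.one_apply_eq, Fin.prod_univ_zero]
    · rw [List.ofFn_zero, List.prod_nil, Matrix.one_mul, Matrix.mul_one]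
  | succ m ih =>
    obtain ⟨V, hV, hVd, hVm⟩ := ih (fun k : Fin m => C k.castSucc)
      (fun k => h1 k.castSucc) (fun k => hU k.castSucc)
    have hUm : (U m).IsUpperTriangular := hU (Fin.last m)
    have hlast : C (Fin.last m) * B (m + 1) = A m * U m := h1 (Fin.last m)
    have hVπ : (V * π m).IsUpperTriangular := hV.mul (hπ m).1
    refine ⟨V * π m * U m, hVπ.mul hUm, fun i => ?_, ?_⟩
    · rw [gwTriAux_diag_mul (V * π m) (U m) hVπ hUm i,
        gwTriAux_diag_mul V (π m) hV (hπ m).1 i, (hπ m).2 i, mul_one, hVd i,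
        Fin.prod_univ_castSucc]
      rfl
    · rw [List.ofFn_succ', List.concat_eq_append, List.prod_append, List.prod_singleton,
        Matrix.mul_assoc, hlast, h2 m]
      calc (List.ofFn fun k : Fin m => C k.castSucc).prod * (B m * π m * U m)
          = ((List.ofFn fun k : Fin m => C k.castSucc).prod * B m) * (π m * U m) := by
            simp only [Matrix.mul_assoc]
        _ = B 0 * V * (π m * U m) := by rw [hVm]
        _ = B 0 * (V * π m * U m) := by simp only [Matrix.mul_assoc]

end Vale.Agent.Lib.P002
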