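import Vale.Agent.Lib.P002.GPFrames
import Vale.Agent.Lib.P002.GPBlock
import Vale.Agent.Lib.P002.GPTele
import Vale.Agent.Lib.P002.GPRelNe

/-!
# The loop around the last puncture is upper triangular with explicit diagonal
-/

open Matrix

namespace Vale.Agent.Lib.P002

theorem gpApexAux_coe_prod {r : ℕ} : ∀ (m : ℕ) (f : Fin m → Matrix.SpecialLinearGroup (Fin r) ℂ),
    ((List.ofFn f).prod).1 = (List.ofFn fun k => (f k).1).prod := by
  intro m
  induction m with
  | zero =>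
    intro f
    simp
  | succ m ih =>
    intro f
    rw [List.ofFn_succ, List.prod_cons, Matrix.SpecialLinearGroup.coe_mul, ih, List.ofFn_succ,
      List.prod_cons]

theorem gpApexAux_inv {r : ℕ} (a : Matrix.SpecialLinearGroup (Fin r) ℂ) :
    a.1 * (a⁻¹).1 = 1 ∧ (a⁻¹).1 * a.1 = 1 := by
  constructor
  · rw [← Matrix.SpecialLinearGroup.coe_mul, mul_inv_cancel]
    rfl
  · rw [← Matrix.SpecialLinearGroup.coe_mul, inv_mul_cancel]
    rfl

/-- For generators of determinant one satisfying the chart relations, the product of the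
commutators of the handles and of the loops `z j` is upper triangular, with explicit diagonal. -/
theorem gp_apex {g n r : ℕ} (x y : Fin g → Matrix.SpecialLinearGroup (Fin r) ℂ)
    (z : Fin n → Matrix.SpecialLinearGroup (Fin r) ℂ)
    (l p q l' G : ℕ → Matrix (Fin r) (Fin r) ℂ) (t t' : Fin g → Fin r → ℂ)
    (τ : Fin n → Fin r → ℂ)
    (h : gpRel (fun h => (x h).1) (fun h => (y h).1) (fun j => (z j).1) l p q l' G t t' τ) :
    (((List.ofFn fun h => x h * y h * (x h)⁻¹ * (y h)⁻¹).prod *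
        (List.ofFn z).prod).1).IsUpperTriangular ∧
      ∀ i, ((List.ofFn fun h => x h * y h * (x h)⁻¹ * (y h)⁻¹).prod * (List.ofFn z).prod).1 i i =
        (∏ h : Fin g, t h i * t' h (Fin.rev i) /
          (t h (Fin.rev i) * t' h i * l' (2 * h) (Fin.rev i) (Fin.rev i) *
            l' (2 * h + 1) (Fin.rev i) (Fin.rev i))) * ∏ j : Fin n, τ j i := by
  classical
  have hne := gp_rel_ne x y z l p q l' G t t' τ h
  obtain ⟨hcells, htriv, hG0, hG, hxy, hz⟩ := h
  have hfr := gp_frames l p q l' G hcells hG0 hG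
  -- the handles
  have hblock : ∀ hh : Fin g, ∃ U : Matrix (Fin r) (Fin r) ℂ, U.IsUpperTriangular ∧
      (∀ i, U i i = t hh i * t' hh (Fin.rev i) /
        (t hh (Fin.rev i) * t' hh i * l' (2 * hh) (Fin.rev i) (Fin.rev i) *
          l' (2 * hh + 1) (Fin.rev i) (Fin.rev i))) ∧
      (x hh).1 * (y hh).1 * ((x hh)⁻¹).1 * ((y hh)⁻¹).1 * (G (2 * hh + 2) * l (2 * hh + 2)) =
        G (2 * hh) * l (2 * hh) * p (2 * hh) * U := by
    intro hh
    obtain ⟨U, hU1, hU2, hU3⟩ := gp_block (x hh).1 (y hh).1 ((x hh)⁻¹).1 ((y hh)⁻¹).1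
      (G (2 * hh) * l (2 * hh) * p (2 * hh)) (G (2 * hh + 1) * l (2 * hh + 1) * p (2 * hh + 1))
      (G (2 * hh + 1) * l (2 * hh + 1)) (G (2 * hh + 2) * l (2 * hh + 2))
      (G (2 * hh + 1)) (G (2 * hh + 2)) (l' (2 * hh)) (l (2 * hh + 1)) (l' (2 * hh + 1))
      (l (2 * hh + 2)) (p (2 * hh + 1)) (t hh) (t' hh)
      (gpApexAux_inv _).1 (gpApexAux_inv _).2 (gpApexAux_inv _).1 (gpApexAux_inv _).2
      (hxy hh).1 (hxy hh).2 rfl (hcells _).2.2.1 (hcells _).2.2.2.1
      (hfr (2 * hh)).2.2.2.2.2.1 rfl (hfr (2 * hh + 1)).2.2.2.2.2.1 rfl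
      (hcells _).2.2.2.2.2.2.1 (hcells _).1 (hcells _).2.2.2.2.2.2.1 (hcells _).1
      (by rw [(hfr _).2.2.1]; exact isUnit_one) (by rw [(hfr _).2.2.1]; exact isUnit_one)
      (fun i => hne.2.2.2.1 _ i) (fun i => hne.2.2.2.1 _ i) (fun i => (hne.2.1 hh i).1)
      (fun i => (hne.2.1 hh i).2)
    refine ⟨U, hU1, fun i => ?_, hU3⟩
    rw [hU2 i, (hcells _).2.1, (hcells _).2.1]
    ring
  choose U hU1 hU2 hU3 using hblock
  obtain ⟨V, hV1, hV2, hV3⟩ := gp_tele g
    (fun hh => (x hh).1 * (y hh).1 * ((x hh)⁻¹).1 * ((y hh)⁻¹).1)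
    (fun k => G (2 * k) * l (2 * k) * p (2 * k)) (fun k => G (2 * k) * l (2 * k))
    (fun k => p (2 * k)) (fun k => if hk : k < g then U ⟨k, hk⟩ else 1)
    (fun k => by
      simp only [Fin.is_lt, dite_true, Fin.eta]
      have e : 2 * ((k : ℕ) + 1) = 2 * (k : ℕ) + 2 := by ring
      rw [e]
      exact hU3 k)
    (fun k => rfl) (fun k => ⟨(hcells _).2.2.1, (hcells _).2.2.2.1⟩)
    (fun k => by
      simp only [Fin.is_lt, dite_true, Fin.eta]
      exact hU1 k)
  -- the punctures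
  obtain ⟨V', hV'1, hV'2, hV'3⟩ := gp_tele n (fun j => (z j).1)
    (fun k => G (2 * g + k) * l (2 * g + k) * p (2 * g + k))
    (fun k => G (2 * g + k) * l (2 * g + k)) (fun k => p (2 * g + k))
    (fun k => if hk : k < n then Matrix.diagonal (τ ⟨k, hk⟩) else 1)
    (fun j => by
      simp only [Fin.is_lt, dite_true, Fin.eta]
      exact hz j)
    (fun k => rfl) (fun k => ⟨(hcells _).2.2.1, (hcells _).2.2.2.1⟩)
    (fun j => by
      simp only [Fin.is_lt, dite_true, Fin.eta]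
      exact Matrix.blockTriangular_diagonal _)
  have hl0 : l 0 = 1 := (htriv 0 (Or.inl rfl)).1
  have hlN : l (2 * g + n) = 1 := (htriv _ (Or.inr le_rfl)).1
  simp only [Nat.mul_zero, Nat.add_zero, hG0, hl0, hlN, mul_one] at hV3 hV'3
  have hW : ((List.ofFn fun h => x h * y h * (x h)⁻¹ * (y h)⁻¹).prod * (List.ofFn z).prod).1 =
      (List.ofFn fun hh => (x hh).1 * (y hh).1 * ((x hh)⁻¹).1 * ((y hh)⁻¹).1).prod *
        (List.ofFn fun j => (z j).1).prod := by
    rw [Matrix.SpecialLinearGroup.coe_mul, gpApexAux_coe_prod, gpApexAux_coe_prod]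
    simp only [Matrix.SpecialLinearGroup.coe_mul]
  obtain ⟨Gi, hGi1, hGi2, hGi3, hGi4⟩ := gw_upU_inv r (G (2 * g + n)) (hfr _).1 (hfr _).2.1
  have hkey : ((List.ofFn fun h => x h * y h * (x h)⁻¹ * (y h)⁻¹).prod * (List.ofFn z).prod).1 =
      V * V' * Gi := by
    have e1 : ((List.ofFn fun h => x h * y h * (x h)⁻¹ * (y h)⁻¹).prod *
        (List.ofFn z).prod).1 * G (2 * g + n) = V * V' := by
      rw [hW, mul_assoc, hV'3, ← mul_assoc, hV3, one_mul]
    calc _ = ((List.ofFn fun h => x h * y h * (x h)⁻¹ * (y h)⁻¹).prod *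
          (List.ofFn z).prod).1 * (G (2 * g + n) * Gi) := by rw [hGi3, mul_one]
      _ = V * V' * Gi := by rw [← mul_assoc, e1]
  rw [hkey]
  refine ⟨(hV1.mul hV'1).mul hGi1, fun i => ?_⟩
  rw [gwTriAux_diag_mul _ _ (hV1.mul hV'1) hGi1, gwTriAux_diag_mul _ _ hV1 hV'1, hGi2, mul_one,
    hV2, hV'2]
  congr 1
  · refine Finset.prod_congr rfl fun k _ => ?_
    simp only [Fin.is_lt, dite_true, Fin.eta]
    exact hU2 k i
  · refine Finset.prod_congr rfl fun j _ => ?_
    simp only [Fin.is_lt, dite_true, Fin.eta]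
    exact Matrix.diagonal_apply_eq _ _

end Vale.Agent.Lib.P002
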