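import Vale.Agent.Lib.P002.GSDefs

/-!
# Families with product one, and the trailing diagonal data of the cells
-/

open Matrix

namespace Vale.Agent.Lib.P002

theorem gwE_prod {G : Type*} [CommGroup G] {r : ℕ} (ε : Fin r → G) : ∏ i, gwE ε i = 1 := by
  unfold gwE
  rw [Finset.prod_mul_distrib, Finset.prod_inv_distrib, Equiv.prod_comp (finRotate r) ε,
    mul_inv_cancel]

theorem gsRotAux_cancel {G : Type*} [CommGroup G] (a x P : G) :
    a * (x * P) * a⁻¹ * P⁻¹ = x := by
  rw [mul_comm a, mul_assoc (x * P), mul_inv_cancel, mul_one, mul_assoc, mul_inv_cancel, mul_one]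

theorem gsRotAux_gwE_apply {G : Type*} [CommGroup G] {r : ℕ} (ε : Fin r → G) (i : Fin r) :
    gwE ε i = ε i * (ε (finRotate r i))⁻¹ := rfl

theorem gwE_surj {G : Type*} [CommGroup G] {r : ℕ} (e : Fin r → G) (h : ∏ i, e i = 1) :
    ∃ ε : Fin r → G, gwE ε = e := by
  cases r with
  | zero => exact ⟨fun i => i.elim0, funext fun i => i.elim0⟩
  | succ m =>
    refine ⟨fun i => (∏ t ∈ Finset.Iio i, e t)⁻¹, funext fun i => ?_⟩
    rw [gsRotAux_gwE_apply, finRotate_apply, inv_inv]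
    by_cases hi : i = Fin.last m
    · rw [hi, Fin.last_add_one]
      have h0 : Finset.Iio (0 : Fin (m + 1)) = ∅ := by
        ext t
        simp
      have h1 : Finset.Iio (Fin.last m) = Finset.univ.erase (Fin.last m) := by
        ext t
        rw [Finset.mem_Iio, Finset.mem_erase]
        constructor
        · intro ht
          exact ⟨ne_of_lt ht, Finset.mem_univ _⟩
        · intro ht
          exact Fin.lt_last_iff_ne_last.mpr ht.1
      rw [h0, Finset.prod_empty, mul_one, h1]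
      have h2 := Finset.prod_erase_mul (Finset.univ : Finset (Fin (m + 1))) e
        (Finset.mem_univ (Fin.last m))
      rw [h] at h2
      exact inv_eq_of_mul_eq_one_right h2
    · have hlt : i < Fin.last m := Fin.lt_last_iff_ne_last.mpr hi
      have hval : ((i + 1 : Fin (m + 1)) : ℕ) = (i : ℕ) + 1 := Fin.val_add_one_of_lt hlt
      have h1 : Finset.Iio (i + 1) = insert i (Finset.Iio i) := by
        ext t
        rw [Finset.mem_Iio, Finset.mem_insert, Finset.mem_Iio, Fin.lt_def, Fin.lt_def, hval,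
          Fin.ext_iff]
        omega
      rw [h1, Finset.prod_insert (by simp)]
      rw [mul_comm (e i), ← mul_assoc, inv_mul_cancel, one_mul]

theorem gsRotAux_gsE_zero {R : Type*} [CommRing R] {n r : ℕ} (a c : Fin r → Rˣ)
    (s : GsIdx n r → Rˣ) (i : Fin r) :
    gsE a c s 0 i = c i * (a i)⁻¹ * ∏ t ∈ Finset.univ.erase (0 : Fin (n + 1)),
        (gwE (fun i' => s (Sum.inr (t, i'))) i)⁻¹ := by
  unfold gsE
  rw [if_pos rfl]

theorem gsRotAux_gsE_ne {R : Type*} [CommRing R] {n r : ℕ} (a c : Fin r → Rˣ)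
    (s : GsIdx n r → Rˣ) (j : Fin (n + 1)) (hj : j ≠ 0) (i : Fin r) :
    gsE a c s j i = gwE (fun i' => s (Sum.inr (j, i'))) i := by
  unfold gsE
  rw [if_neg hj]

theorem gsE_prod {R : Type*} [CommRing R] {n r : ℕ} (a c : Fin r → Rˣ)
    (h : ∏ i, a i = ∏ i, c i) (s : GsIdx n r → Rˣ) (j : Fin (n + 1)) :
    ∏ i, gsE a c s j i = 1 := by
  by_cases hj : j = 0
  · rw [hj]
    simp only [gsRotAux_gsE_zero]
    rw [Finset.prod_mul_distrib, Finset.prod_mul_distrib, Finset.prod_inv_distrib, h,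
      mul_inv_cancel, one_mul, Finset.prod_comm]
    refine Finset.prod_eq_one (fun t _ => ?_)
    rw [Finset.prod_inv_distrib, gwE_prod, inv_one]
  · simp only [gsRotAux_gsE_ne a c s j hj]
    exact gwE_prod _

theorem gsE_diag {R : Type*} [CommRing R] {n r : ℕ} (a c : Fin r → Rˣ)
    (s : GsIdx n r → Rˣ) (i : Fin r) : a i * ∏ j, gsE a c s j i = c i := by
  rw [← Finset.mul_prod_erase Finset.univ (fun j => gsE a c s j i)
    (Finset.mem_univ (0 : Fin (n + 1)))]
  have h1 : ∏ t ∈ Finset.univ.erase (0 : Fin (n + 1)), gsE a c s t i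
      = ∏ t ∈ Finset.univ.erase (0 : Fin (n + 1)), gwE (fun i' => s (Sum.inr (t, i'))) i :=
    Finset.prod_congr rfl (fun t ht => gsRotAux_gsE_ne a c s t (Finset.ne_of_mem_erase ht) i)
  rw [h1, gsRotAux_gsE_zero, Finset.prod_inv_distrib]
  rw [mul_assoc (c i * (a i)⁻¹), inv_mul_cancel, mul_one, mul_comm (c i), ← mul_assoc,
    mul_inv_cancel, one_mul]

theorem gsRotAux_gwE_map {G H : Type*} [CommGroup G] [CommGroup H] (φ : G →* H) {r : ℕ}
    (ε : Fin r → G) (i : Fin r) : φ (gwE ε i) = gwE (fun i' => φ (ε i')) i := by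
  rw [gsRotAux_gwE_apply, gsRotAux_gwE_apply, map_mul, map_inv]

theorem gsE_map {R S : Type*} [CommRing R] [CommRing S] (f : R →+* S) {n r : ℕ}
    (a c : Fin r → Rˣ) (s : GsIdx n r → Rˣ) (j : Fin (n + 1)) (i : Fin r) :
    Units.map (f : R →* S) (gsE a c s j i) =
      gsE (fun i => Units.map (f : R →* S) (a i)) (fun i => Units.map (f : R →* S) (c i))
        (fun w => Units.map (f : R →* S) (s w)) j i := by
  by_cases hj : j = 0
  · rw [hj, gsRotAux_gsE_zero, gsRotAux_gsE_zero, map_mul, map_mul, map_inv, map_prod]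
    congr 1
    refine Finset.prod_congr rfl (fun t _ => ?_)
    rw [map_inv, gsRotAux_gwE_map]
  · rw [gsRotAux_gsE_ne _ _ _ j hj, gsRotAux_gsE_ne _ _ _ j hj, gsRotAux_gwE_map]

theorem gsE_surj {R : Type*} [CommRing R] {n r : ℕ} (a c : Fin r → Rˣ)
    (e : Fin (n + 1) → Fin r → Rˣ) (he : ∀ j, ∏ i, e j i = 1)
    (hd : ∀ i, a i * ∏ j, e j i = c i) (s₀ : GsIdx n r → Rˣ) :
    ∃ s : GsIdx n r → Rˣ, (∀ w, s (Sum.inl w) = s₀ (Sum.inl w)) ∧ gsE a c s = e := by
  have hex : ∀ j, ∃ ε : Fin r → Rˣ, gwE ε = e j := fun j => gwE_surj (e j) (he j)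
  choose ε hε using hex
  refine ⟨Sum.elim (fun w => s₀ (Sum.inl w)) (fun x => ε x.1 x.2), fun w => rfl, ?_⟩
  have hgw : ∀ t : Fin (n + 1), (gwE (fun i' => (Sum.elim (fun w => s₀ (Sum.inl w))
      (fun x : Fin (n + 1) × Fin r => ε x.1 x.2) : GsIdx n r → Rˣ) (Sum.inr (t, i')))) = e t := by
    intro t
    exact hε t
  funext j i
  by_cases hj : j = 0
  · rw [hj, gsRotAux_gsE_zero]
    simp only [hgw]
    rw [Finset.prod_inv_distrib]
    have h1 := hd i
    rw [← Finset.mul_prod_erase Finset.univ (fun j => e j i)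
      (Finset.mem_univ (0 : Fin (n + 1)))] at h1
    rw [← h1]
    exact gsRotAux_cancel _ _ _
  · rw [gsRotAux_gsE_ne _ _ _ j hj, hgw]

end Vale.Agent.Lib.P002
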