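import Vale.Agent.Lib.P002.GPDefs
import Vale.Agent.Lib.P002.GSRot

/-!
# The trailing diagonals of the cells: solving for the last nontrivial cell
-/

open Matrix

namespace Vale.Agent.Lib.P002

theorem gpE0_prod {R : Type*} [CommRing R] {g n r : ℕ} (s : GpIdx g n r → Rˣ) (k : ℕ) :
    ∏ i, gpE0 s k i = 1 := by
  unfold gpE0
  by_cases h : 1 ≤ k ∧ k + 1 < 2 * g + n
  · rw [dif_pos h]
    exact gwE_prod _
  · rw [dif_neg h]
    exact Finset.prod_const_one

theorem gpE0_triv {R : Type*} [CommRing R] {g n r : ℕ} (s : GpIdx g n r → Rˣ) (k : ℕ)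
    (hk : k = 0 ∨ 2 * g + n ≤ k + 1) : gpE0 s k = 1 := by
  have h : ¬ (1 ≤ k ∧ k + 1 < 2 * g + n) := by omega
  unfold gpE0
  rw [dif_neg h]

/-- A product over `Fin m` of a factor that is nontrivial only at the last index. -/
private theorem gpSolveAux_prod_last {G : Type*} [CommGroup G] (m : ℕ) (x : G) :
    ∏ h : Fin m, (if (h : ℕ) + 1 = m then x else 1) = if m = 0 then 1 else x := by
  cases m with
  | zero => rfl
  | succ m' =>
    rw [Fin.prod_univ_castSucc]
    have h1 : ∏ h : Fin m',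
        (if ((Fin.castSucc h : Fin (m' + 1)) : ℕ) + 1 = m' + 1 then x else 1) = 1 := by
      apply Finset.prod_eq_one
      intro h _
      have h2 : ¬ (((Fin.castSucc h : Fin (m' + 1)) : ℕ) + 1 = m' + 1) := by
        have h3 := h.isLt
        rw [Fin.val_castSucc]
        omega
      rw [if_neg h2]
    rw [h1, one_mul, Fin.val_last, if_pos rfl, if_neg (Nat.succ_ne_zero m')]

/-- The factor of a handle: the modified family differs only at the last handle, and only if
there are no extra punctures. -/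
private theorem gpSolveAux_handle {G : Type*} [CommGroup G] {g n r : ℕ} (e : ℕ → Fin r → G)
    (h : ℕ) (hh : h < g) (v : Fin r) (A : G) :
    A * (e (2 * h) v)⁻¹ * (e (2 * h + 1) v)⁻¹ =
      A * ((if 2 * h + 1 = 2 * g + n then (1 : Fin r → G) else e (2 * h)) v)⁻¹ *
          ((if 2 * h + 1 + 1 = 2 * g + n then (1 : Fin r → G) else e (2 * h + 1)) v)⁻¹ *
        (if h + 1 = g ∧ n = 0 then (e (2 * g + n - 1) v)⁻¹ else 1) := by
  have h1 : ¬ (2 * h + 1 = 2 * g + n) := by omega
  rw [if_neg h1]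
  by_cases h2 : h + 1 = g ∧ n = 0
  · have h3 : 2 * h + 1 + 1 = 2 * g + n := by omega
    have h4 : 2 * g + n - 1 = 2 * h + 1 := by omega
    rw [if_pos h3, if_pos h2, h4, Pi.one_apply, inv_one, mul_one]
  · have h3 : ¬ (2 * h + 1 + 1 = 2 * g + n) := by omega
    rw [if_neg h3, if_neg h2, mul_one]

/-- The factor of a puncture: the modified family differs only at the last puncture. -/
private theorem gpSolveAux_punct {G : Type*} [CommGroup G] {g n r : ℕ} (e : ℕ → Fin r → G)
    (j : ℕ) (v : Fin r) (A : G) :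
    A * (e (2 * g + j) v)⁻¹ =
      A * ((if 2 * g + j + 1 = 2 * g + n then (1 : Fin r → G) else e (2 * g + j)) v)⁻¹ *
        (if j + 1 = n then (e (2 * g + n - 1) v)⁻¹ else 1) := by
  by_cases h2 : j + 1 = n
  · have h3 : 2 * g + j + 1 = 2 * g + n := by omega
    have h4 : 2 * g + n - 1 = 2 * g + j := by omega
    rw [if_pos h3, if_pos h2, h4, Pi.one_apply, inv_one, mul_one]
  · have h3 : ¬ (2 * g + j + 1 = 2 * g + n) := by omega
    rw [if_neg h3, if_neg h2, mul_one]

/-- The family `e (2 g + n - 1)` enters the diagonal of the last loop exactly once. -/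
theorem gpApex_split {G : Type*} [CommGroup G] {g n r : ℕ} (hN : 2 ≤ 2 * g + n)
    (e : ℕ → Fin r → G) (t t' : Fin g → Fin r → G) (d : Fin n → Fin r → G) (i : Fin r) :
    gpApex e t t' d i =
      gpApex (fun k => if k + 1 = 2 * g + n then 1 else e k) t t' d i *
        (if n = 0 then (e (2 * g + n - 1) (Fin.rev i))⁻¹ else (e (2 * g + n - 1) i)⁻¹) := by
  have hx : ∏ h : Fin g, (if (h : ℕ) + 1 = g ∧ n = 0
      then (e (2 * g + n - 1) (Fin.rev i))⁻¹ else 1)
      = if n = 0 then (e (2 * g + n - 1) (Fin.rev i))⁻¹ else 1 := by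
    by_cases hn : n = 0
    · have hg : g ≠ 0 := by omega
      have hl := gpSolveAux_prod_last g ((e (2 * g + n - 1) (Fin.rev i))⁻¹)
      rw [if_neg hg] at hl
      rw [if_pos hn]
      refine Eq.trans ?_ hl
      apply Finset.prod_congr rfl
      intro h _
      by_cases hh : (h : ℕ) + 1 = g
      · rw [if_pos hh, if_pos ⟨hh, hn⟩]
      · rw [if_neg hh, if_neg (fun hc => hh hc.1)]
    · rw [if_neg hn]
      apply Finset.prod_eq_one
      intro h _
      rw [if_neg (fun hc => hn hc.2)]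
  have hy : ∏ j : Fin n, (if (j : ℕ) + 1 = n then (e (2 * g + n - 1) i)⁻¹ else 1)
      = if n = 0 then 1 else (e (2 * g + n - 1) i)⁻¹ := gpSolveAux_prod_last n _
  have hcomb : (if n = 0 then (e (2 * g + n - 1) (Fin.rev i))⁻¹ else (e (2 * g + n - 1) i)⁻¹)
      = (if n = 0 then (e (2 * g + n - 1) (Fin.rev i))⁻¹ else 1)
        * (if n = 0 then 1 else (e (2 * g + n - 1) i)⁻¹) := by
    by_cases hn : n = 0
    · rw [if_pos hn, if_pos hn, if_pos hn, mul_one]
    · rw [if_neg hn, if_neg hn, if_neg hn, one_mul]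
  rw [hcomb, ← hx, ← hy]
  unfold gpApex
  rw [mul_mul_mul_comm, ← Finset.prod_mul_distrib, ← Finset.prod_mul_distrib]
  congr 1
  · apply Finset.prod_congr rfl
    intro h _
    exact gpSolveAux_handle e h h.isLt (Fin.rev i) _
  · apply Finset.prod_congr rfl
    intro j _
    exact gpSolveAux_punct e j i _

theorem gpE_eq_of_ne {R : Type*} [CommRing R] {g n r : ℕ} (c : Fin r → Rˣ)
    (d : Fin n → Fin r → Rˣ) (s : GpIdx g n r → Rˣ) (k : ℕ) (hk : k + 1 ≠ 2 * g + n) :
    gpE c d s k = gpE0 s k := by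
  funext i
  unfold gpE
  rw [if_neg hk]

theorem gpE_triv {R : Type*} [CommRing R] {g n r : ℕ} (hN : 2 ≤ 2 * g + n) (c : Fin r → Rˣ)
    (d : Fin n → Fin r → Rˣ) (s : GpIdx g n r → Rˣ) (k : ℕ) (hk : k = 0 ∨ 2 * g + n ≤ k) :
    gpE c d s k = 1 := by
  rw [gpE_eq_of_ne c d s k (by omega)]
  exact gpE0_triv s k (by omega)

/-- The product over a family composed with the reversal. -/
private theorem gpSolveAux_prod_rev {G : Type*} [CommGroup G] {r : ℕ} (f : Fin r → G) :
    ∏ i, f (Fin.rev i) = ∏ i, f i :=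
  Equiv.prod_comp Fin.revPerm f

/-- The product of the diagonal of the last loop is `1` if all families have product `1`. -/
private theorem gpSolveAux_apex_prod {G : Type*} [CommGroup G] {g n r : ℕ}
    (e : ℕ → Fin r → G) (t t' : Fin g → Fin r → G) (d : Fin n → Fin r → G)
    (he : ∀ k, ∏ i, e k i = 1) (hd : ∀ j, ∏ i, d j i = 1) :
    ∏ i, gpApex e t t' d i = 1 := by
  unfold gpApex
  rw [Finset.prod_mul_distrib, Finset.prod_comm, Finset.prod_comm (f := fun i j => d j i * _)]
  have h1 : ∀ h : Fin g, ∏ i, (t h i * t' h (Fin.rev i) * (t h (Fin.rev i))⁻¹ * (t' h i)⁻¹ *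
      (e (2 * h) (Fin.rev i))⁻¹ * (e (2 * h + 1) (Fin.rev i))⁻¹) = 1 := by
    intro h
    rw [Finset.prod_mul_distrib, Finset.prod_mul_distrib, Finset.prod_mul_distrib,
      Finset.prod_mul_distrib, Finset.prod_mul_distrib, Finset.prod_inv_distrib,
      Finset.prod_inv_distrib, Finset.prod_inv_distrib, Finset.prod_inv_distrib,
      gpSolveAux_prod_rev (t' h), gpSolveAux_prod_rev (t h), gpSolveAux_prod_rev (e (2 * h)),
      gpSolveAux_prod_rev (e (2 * h + 1)), he, he, inv_one, mul_one, mul_one,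
      mul_comm (∏ i, t h i), mul_assoc (∏ i, t' h i), mul_inv_cancel, mul_one, mul_inv_cancel]
  have h2 : ∀ j : Fin n, ∏ i, (d j i * (e (2 * g + j) i)⁻¹) = 1 := by
    intro j
    rw [Finset.prod_mul_distrib, Finset.prod_inv_distrib, hd, he, inv_one, mul_one]
  rw [Finset.prod_congr rfl (fun h _ => h1 h), Finset.prod_congr rfl (fun j _ => h2 j),
    Finset.prod_const_one, Finset.prod_const_one, mul_one]

theorem gpE_prod {R : Type*} [CommRing R] {g n r : ℕ} (hN : 2 ≤ 2 * g + n) (c : Fin r → Rˣ)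
    (d : Fin n → Fin r → Rˣ) (hc : ∏ i, c i = 1) (hd : ∀ j, ∏ i, d j i = 1)
    (s : GpIdx g n r → Rˣ) (k : ℕ) : ∏ i, gpE c d s k i = 1 := by
  have _ := hN
  by_cases hk : k + 1 = 2 * g + n
  · have hA : ∏ i, (gpApex (gpE0 s) (fun h => gpTt s h 0) (fun h => gpTt s h 1) d i
        * (c i)⁻¹) = 1 := by
      rw [Finset.prod_mul_distrib, Finset.prod_inv_distrib, hc,
        gpSolveAux_apex_prod (gpE0 s) _ _ d (gpE0_prod s) hd, inv_one, mul_one]
    unfold gpE
    by_cases hn : n = 0
    · simp only [if_pos hk, if_pos hn]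
      rw [gpSolveAux_prod_rev (fun i =>
        gpApex (gpE0 s) (fun h => gpTt s h 0) (fun h => gpTt s h 1) d i * (c i)⁻¹)]
      exact hA
    · simp only [if_pos hk, if_neg hn]
      exact hA
  · rw [gpE_eq_of_ne c d s k hk]
    exact gpE0_prod s k

/-- With the trailing diagonals `gpE`, the diagonal of the last loop is `c`. -/
theorem gpE_apex {R : Type*} [CommRing R] {g n r : ℕ} (hN : 2 ≤ 2 * g + n) (c : Fin r → Rˣ)
    (d : Fin n → Fin r → Rˣ) (s : GpIdx g n r → Rˣ) :
    gpApex (gpE c d s) (fun h => gpTt s h 0) (fun h => gpTt s h 1) d = c := by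
  funext i
  rw [gpApex_split hN]
  have hfam : (fun k => if k + 1 = 2 * g + n then 1 else gpE c d s k) = gpE0 s := by
    funext k
    by_cases hk : k + 1 = 2 * g + n
    · rw [if_pos hk]
      exact (gpE0_triv s k (by omega)).symm
    · rw [if_neg hk]
      exact gpE_eq_of_ne c d s k hk
  rw [hfam]
  have hK : 2 * g + n - 1 + 1 = 2 * g + n := by omega
  have hlast : ∀ v : Fin r, gpE c d s (2 * g + n - 1) v =
      if n = 0 then
        gpApex (gpE0 s) (fun h => gpTt s h 0) (fun h => gpTt s h 1) d (Fin.rev v) *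
          (c (Fin.rev v))⁻¹
      else gpApex (gpE0 s) (fun h => gpTt s h 0) (fun h => gpTt s h 1) d v * (c v)⁻¹ := by
    intro v
    unfold gpE
    rw [if_pos hK]
  by_cases hn : n = 0
  · rw [if_pos hn, hlast, if_pos hn, Fin.rev_rev, _root_.mul_inv_rev, inv_inv, mul_comm (c i),
      mul_inv_cancel_left]
  · rw [if_neg hn, hlast, if_neg hn, _root_.mul_inv_rev, inv_inv, mul_comm (c i),
      mul_inv_cancel_left]

end Vale.Agent.Lib.P002
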