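import Vale.Agent.Lib.P002.GPAnti
import Vale.Agent.Lib.P002.GSRot

/-!
# Families with product `gpSgn`
-/

open Matrix

namespace Vale.Agent.Lib.P002

/-- The product of a family equal to `u` at the index `0` and to `1` elsewhere. -/
theorem gpTAux_prod_ite {M : Type*} [CommMonoid M] (u : M) (m : ℕ) :
    ∏ a : Fin (m + 1), (if (a : ℕ) = 0 then u else 1) = u := by
  rw [Fin.prod_univ_succ]
  have h : ∀ i : Fin m, (if ((i.succ : Fin (m + 1)) : ℕ) = 0 then u else 1) = 1 := by
    intro i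
    rw [if_neg]
    rw [Fin.val_succ]
    exact Nat.succ_ne_zero _
  rw [Finset.prod_congr rfl (fun i _ => h i), Finset.prod_const_one, mul_one, if_pos]
  exact Fin.val_zero _

theorem gpT_prod {R : Type*} [CommRing R] {r : ℕ} (ε : Fin r → Rˣ) :
    ∏ a, gpT ε a = gpSgn R r := by
  unfold gpT
  rw [Finset.prod_mul_distrib, gwE_prod, one_mul]
  cases r with
  | zero => simp [gpSgn]
  | succ m => exact gpTAux_prod_ite _ m

theorem gpT_surj {R : Type*} [CommRing R] {r : ℕ} (t : Fin r → Rˣ)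
    (h : ∏ a, t a = gpSgn R r) : ∃ ε : Fin r → Rˣ, gpT ε = t := by
  cases r with
  | zero => exact ⟨fun _ => 1, funext fun a => a.elim0⟩
  | succ m =>
    have h0 : ∏ a, t a * (if (a : ℕ) = 0 then gpSgn R (m + 1) else 1)⁻¹ = 1 := by
      rw [Finset.prod_mul_distrib, Finset.prod_inv_distrib, gpTAux_prod_ite, h, mul_inv_cancel]
    obtain ⟨ε, hε⟩ :=
      gwE_surj (fun a => t a * (if (a : ℕ) = 0 then gpSgn R (m + 1) else 1)⁻¹) h0
    refine ⟨ε, funext fun a => ?_⟩
    unfold gpT
    rw [hε]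
    exact inv_mul_cancel_right _ _

theorem gpT_map {R S : Type*} [CommRing R] [CommRing S] (f : R →+* S) {r : ℕ}
    (ε : Fin r → Rˣ) (a : Fin r) :
    Units.map (f : R →* S) (gpT ε a) = gpT (fun i => Units.map (f : R →* S) (ε i)) a := by
  unfold gpT
  rw [map_mul, gsRotAux_gwE_map]
  congr 1
  by_cases h0 : (a : ℕ) = 0
  · rw [if_pos h0, if_pos h0, gpSgn_map]
  · rw [if_neg h0, if_neg h0, map_one]

/-- The antidiagonal matrix of a family `gpT ε` has determinant one. -/
theorem gpAnti_gpT_det {R : Type*} [CommRing R] {r : ℕ} (ε : Fin r → Rˣ) :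
    (gpAnti (fun i => (gpT ε i : R))).det = 1 := by
  rw [gpAnti_det, ← Units.coe_prod, gpT_prod, ← Units.val_mul, gpSgn_mul_self, Units.val_one]

end Vale.Agent.Lib.P002
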