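import Vale.Agent.Lib.P002.GWDefs

/-!
# Principal minors of products of triangular matrices
-/

open Matrix

namespace Vale.Agent.Lib.P002

/-- A block of a product is the product of the blocks when the rows of the left factor
vanish outside the block. -/
private lemma gwLeadAux_submatrix_mul {R : Type*} [CommRing R] {r k : ℕ} (g : Fin k → Fin r)
    (hg : Function.Injective g) (A B : Matrix (Fin r) (Fin r) R)
    (hzero : ∀ (s : Fin k) (m : Fin r), (∀ u, g u ≠ m) → A (g s) m = 0) :
    (A * B).submatrix g g = A.submatrix g g * B.submatrix g g := by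
  ext s t
  simp only [Matrix.submatrix_apply, Matrix.mul_apply]
  rw [← Finset.sum_image (s := Finset.univ) (g := g) (f := fun m => A (g s) m * B m (g t))
    (fun a _ b _ h => hg h)]
  symm
  apply Finset.sum_subset (Finset.subset_univ _)
  intro m _ hm
  rw [hzero s m (fun u hu => hm (Finset.mem_image.mpr ⟨u, Finset.mem_univ u, hu⟩)), zero_mul]

private lemma gwLeadAux_lower_submatrix {R : Type*} [CommRing R] {r k : ℕ} (g : Fin k → Fin r)
    (hg : StrictMono g) (l : Matrix (Fin r) (Fin r) R) (hl : l.IsLowerTriangular) :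
    (l.submatrix g g).IsLowerTriangular := by
  intro i j hij
  exact hl (show OrderDual.toDual (g j) < OrderDual.toDual (g i) from
    OrderDual.toDual_lt_toDual.mpr (hg (OrderDual.toDual_lt_toDual.mp hij)))

private lemma gwLeadAux_upper_submatrix {R : Type*} [CommRing R] {r k : ℕ} (g : Fin k → Fin r)
    (hg : StrictMono g) (n : Matrix (Fin r) (Fin r) R) (hn : n.IsUpperTriangular) :
    (n.submatrix g g).IsUpperTriangular := by
  intro i j hij
  exact hn (show id (g j) < id (g i) from hg hij)

/-- Block of `lower * unipotent upper` on an initial segment of indices. -/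
private lemma gwLeadAux_det_lower_upper {R : Type*} [CommRing R] {r k : ℕ} (g : Fin k → Fin r)
    (hg : StrictMono g) (l n : Matrix (Fin r) (Fin r) R) (hl : l.IsLowerTriangular)
    (hn : n.IsUpperTriangular) (hn1 : ∀ i, n i i = 1)
    (hclosed : ∀ (m : Fin r) (s : Fin k), m ≤ g s → ∃ u, g u = m) :
    ((l * n).submatrix g g).det = ∏ i : Fin k, l (g i) (g i) := by
  have h1 : (l * n).submatrix g g = l.submatrix g g * n.submatrix g g := by
    apply gwLeadAux_submatrix_mul g hg.injective
    intro s m hm
    apply hl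
    rw [OrderDual.toDual_lt_toDual]
    by_contra hlt
    obtain ⟨u, hu⟩ := hclosed m s (not_lt.mp hlt)
    exact hm u hu
  rw [h1, Matrix.det_mul,
    Matrix.det_of_isLowerTriangular _ (gwLeadAux_lower_submatrix g hg l hl),
    Matrix.det_of_isUpperTriangular (gwLeadAux_upper_submatrix g hg n hn)]
  simp [hn1]

/-- Block of `unipotent upper * lower` on a final segment of indices. -/
private lemma gwLeadAux_det_upper_lower {R : Type*} [CommRing R] {r k : ℕ} (g : Fin k → Fin r)
    (hg : StrictMono g) (q l : Matrix (Fin r) (Fin r) R) (hq : q.IsUpperTriangular)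
    (hq1 : ∀ i, q i i = 1) (hl : l.IsLowerTriangular)
    (hclosed : ∀ (m : Fin r) (s : Fin k), g s ≤ m → ∃ u, g u = m) :
    ((q * l).submatrix g g).det = ∏ i : Fin k, l (g i) (g i) := by
  have h1 : (q * l).submatrix g g = q.submatrix g g * l.submatrix g g := by
    apply gwLeadAux_submatrix_mul g hg.injective
    intro s m hm
    apply hq
    change m < g s
    by_contra hlt
    obtain ⟨u, hu⟩ := hclosed m s (not_lt.mp hlt)
    exact hm u hu
  rw [h1, Matrix.det_mul,
    Matrix.det_of_isLowerTriangular _ (gwLeadAux_lower_submatrix g hg l hl),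
    Matrix.det_of_isUpperTriangular (gwLeadAux_upper_submatrix g hg q hq)]
  simp [hq1]

/-- Leading principal minors of `lower * unipotent upper`. -/
theorem gw_lead_mul {R : Type*} [CommRing R] (r : ℕ) (l n : Matrix (Fin r) (Fin r) R)
    (hl : l.IsLowerTriangular) (hn : n.IsUpperTriangular) (hn1 : ∀ i, n i i = 1)
    (k : ℕ) (hk : k ≤ r) :
    gwMinor (l * n) 0 0 k = ∏ i : Fin k, l (Fin.castLE hk i) (Fin.castLE hk i) := by
  have hblock : (Matrix.of fun s t : Fin k =>
      if h : 0 + (s : ℕ) < r ∧ 0 + (t : ℕ) < r then (l * n) ⟨0 + s, h.1⟩ ⟨0 + t, h.2⟩ else 0) =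
      (l * n).submatrix (Fin.castLE hk) (Fin.castLE hk) := by
    ext s t
    have hs : 0 + (s : ℕ) < r := by have := s.isLt; omega
    have ht : 0 + (t : ℕ) < r := by have := t.isLt; omega
    have e1 : (⟨0 + (s : ℕ), hs⟩ : Fin r) = Fin.castLE hk s := Fin.ext (by simp)
    have e2 : (⟨0 + (t : ℕ), ht⟩ : Fin r) = Fin.castLE hk t := Fin.ext (by simp)
    simp only [Matrix.of_apply, Matrix.submatrix_apply]
    rw [dif_pos ⟨hs, ht⟩, e1, e2]
  unfold gwMinor
  rw [hblock]
  apply gwLeadAux_det_lower_upper (Fin.castLE hk) (Fin.strictMono_castLE hk) l n hl hn hn1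
  intro m s hms
  have h1 : m.val ≤ s.val := hms
  exact ⟨⟨m.val, lt_of_le_of_lt h1 s.isLt⟩, Fin.ext rfl⟩

/-- Trailing principal minors of `unipotent upper * lower`. -/
theorem gw_trail_mul {R : Type*} [CommRing R] (r : ℕ) (q l : Matrix (Fin r) (Fin r) R)
    (hq : q.IsUpperTriangular) (hq1 : ∀ i, q i i = 1) (hl : l.IsLowerTriangular)
    (k : ℕ) (hk : k ≤ r) :
    gwMinor (q * l) (r - k) (r - k) k =
      ∏ i : Fin k, l ⟨r - k + i, by have := i.isLt; omega⟩ ⟨r - k + i, by have := i.isLt; omega⟩ := by
  have hblock : (Matrix.of fun s t : Fin k =>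
      if h : r - k + (s : ℕ) < r ∧ r - k + (t : ℕ) < r then
        (q * l) ⟨r - k + s, h.1⟩ ⟨r - k + t, h.2⟩ else 0) =
      (q * l).submatrix (fun i : Fin k => (⟨r - k + i, by have := i.isLt; omega⟩ : Fin r))
        (fun i : Fin k => (⟨r - k + i, by have := i.isLt; omega⟩ : Fin r)) := by
    ext s t
    have hs : r - k + (s : ℕ) < r := by have := s.isLt; omega
    have ht : r - k + (t : ℕ) < r := by have := t.isLt; omega
    simp only [Matrix.of_apply, Matrix.submatrix_apply]
    rw [dif_pos ⟨hs, ht⟩]
  unfold gwMinor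
  rw [hblock]
  apply gwLeadAux_det_upper_lower
    (fun i : Fin k => (⟨r - k + i, by have := i.isLt; omega⟩ : Fin r)) ?_ q l hq hq1 hl
  · intro m s hms
    have h1 : r - k + s.val ≤ m.val := hms
    have h2 := m.isLt
    exact ⟨⟨m.val - (r - k), by omega⟩, Fin.ext (by simp; omega)⟩
  · intro a b hab
    have h1 : a.val < b.val := hab
    change r - k + a.val < r - k + b.val
    omega

end Vale.Agent.Lib.P002
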