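import Vale.Agent.Lib.P002.GSDefs
import Vale.Agent.Lib.P002.GSRot
import Vale.Agent.Lib.P002.GSTele
import Vale.Agent.Lib.P002.GWTri
import Vale.Agent.Lib.P002.GWLead

/-!
# Chart points in the sense of `gsIsPt` lie in the chart
-/

open Matrix

namespace Vale.Agent.Lib.P002

/-- A two-sided inverse of an upper triangular matrix with unit diagonal is upper triangular
with unit diagonal. -/
theorem gsChartAux_inv_up {R : Type*} [CommRing R] {r : ℕ} (q qi : Matrix (Fin r) (Fin r) R)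
    (hq : q.IsUpperTriangular) (hq1 : ∀ i, q i i = 1) (h2 : qi * q = 1) :
    qi.IsUpperTriangular ∧ ∀ i, qi i i = 1 := by
  obtain ⟨qi', hqi'up, hqi'1, g1, -⟩ := gw_upU_inv r q hq hq1
  have hqq : qi = qi' := by
    calc qi = qi * (q * qi') := by rw [g1, mul_one]
      _ = (qi * q) * qi' := by rw [mul_assoc]
      _ = qi' := by rw [h2, one_mul]
  rw [hqq]
  exact ⟨hqi'up, hqi'1⟩

/-- The wall minors of a cell with unit diagonal data and unit free wall data do not vanish. -/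
theorem gsChartAux_minor {r : ℕ} (b e : Fin r → ℂˣ) (fr : ℕ → ℕ → ℕ → ℂˣ)
    (l p q l' : Matrix (Fin r) (Fin r) ℂ)
    (hcell : gwCell (fun i => (b i : ℂ)) (fun i => (e i : ℂ)) l p q l')
    (hfr : ∀ δ i k : ℕ, δ ≤ 1 → 1 ≤ k → i + δ + k ≤ r → ¬ (δ = 0 ∧ (i = 0 ∨ i + k = r)) →
      gwMinor (l * p) i (i + δ) k = (fr δ i k : ℂ))
    (δ i k : ℕ) (hδ : δ ≤ 1) (hk : 1 ≤ k) (hr : i + δ + k ≤ r) :
    gwMinor (l * p) i (i + δ) k ≠ 0 := by
  obtain ⟨hl, hld, hp, hp1, hq, hq1, hl', hl'd, hrel⟩ := hcell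
  by_cases hn : δ = 0 ∧ (i = 0 ∨ i + k = r)
  · obtain ⟨rfl, hi⟩ := hn
    rw [Nat.add_zero]
    rcases hi with rfl | hi
    · rw [gw_lead_mul r l p hl hp hp1 k (by omega)]
      simp only [hld]
      rw [← Units.coe_prod]
      exact Units.ne_zero _
    · obtain rfl : i = r - k := by omega
      rw [hrel, gw_trail_mul r q l' hq hq1 hl' k (by omega)]
      simp only [hl'd]
      rw [← Units.coe_prod]
      exact Units.ne_zero _
  · rw [hfr δ i k hδ hk hr hn]
    exact Units.ne_zero _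

theorem gsIsPt_chartO {n r : ℕ} (a c : Fin r → ℂˣ) (b : Fin (n + 1) → Fin r → ℂˣ)
    (s : GsIdx n r → ℂˣ) {A : Matrix (Fin r) (Fin r) ℂ}
    {B : Fin (n + 1) → Matrix (Fin r) (Fin r) ℂ} (h : gsIsPt a c b s A B) :
    gsChartO (fun i => (a i : ℂ)) (fun i => (c i : ℂ)) (fun j i => (b j i : ℂ)) A B := by
  obtain ⟨l, p, l', q, qi, M, Mi, hcell, hfr, hqlast, hqi, hM0, hMs, hMi, hA, hB⟩ := h
  have hl : ∀ j, (l j).IsLowerTriangular := fun j => (hcell j).1
  have hld : ∀ j i, l j i i = b j i := fun j => (hcell j).2.1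
  have hp : ∀ j, (p j).IsUpperTriangular := fun j => (hcell j).2.2.1
  have hp1 : ∀ j i, p j i i = 1 := fun j => (hcell j).2.2.2.1
  have hq : ∀ j : Fin (n + 1), (q j.castSucc).IsUpperTriangular :=
    fun j => (hcell j).2.2.2.2.1
  have hq1 : ∀ (j : Fin (n + 1)) i, q j.castSucc i i = 1 := fun j => (hcell j).2.2.2.2.2.1
  have hl' : ∀ j, (l' j).IsLowerTriangular := fun j => (hcell j).2.2.2.2.2.2.1
  have hl'd : ∀ j i, l' j i i = gsE a c s j i := fun j => (hcell j).2.2.2.2.2.2.2.1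
  have hrel : ∀ j, l j * p j = q j.castSucc * l' j := fun j => (hcell j).2.2.2.2.2.2.2.2
  have hqall : ∀ j : Fin (n + 2), (q j).IsUpperTriangular ∧ ∀ i, q j i i = 1 := by
    intro j
    induction j using Fin.lastCases with
    | last =>
      rw [hqlast]
      exact ⟨Matrix.blockTriangular_one, fun i => Matrix.one_apply_eq i⟩
    | cast j => exact ⟨hq j, hq1 j⟩
  have hglue : ∀ j : Fin (n + 1), M j.succ * q j.succ = M j.castSucc * p j := by
    intro j
    rw [hMs j, mul_assoc, (hqi j.succ).2, mul_one]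
  have hMup := gs_M_up (n + 1) p q M (fun j => ⟨hp j, hp1 j⟩) hqall hM0 hglue
  obtain ⟨hqiup, hqi1⟩ := gsChartAux_inv_up (q 0) (qi 0) (hqall 0).1 (hqall 0).2 (hqi 0).2
  have hD : (Matrix.diagonal (fun i => (a i : ℂ))).IsUpperTriangular :=
    Matrix.blockTriangular_diagonal _
  have hLow := gs_low_prod (n + 1) l' hl'
  have hBM : ∀ j : Fin (n + 1), B j * M j.castSucc = M j.castSucc * l j := by
    intro j
    rw [hB j, mul_assoc, (hMi j.castSucc).2, mul_one]
  have htele := gs_tele (n + 1) B l p l' q M hrel hglue hBM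
  rw [hqlast, mul_one, hM0, one_mul] at htele
  refine ⟨l, p, l', q, M, Matrix.diagonal (fun i => (a i : ℂ)) * (List.ofFn l').prod, ?_,
    hqlast, hM0, hglue, hBM, ?_, ?_, ?_, ?_, ?_, ?_, ?_⟩
  · intro j
    exact ⟨hl j, hp j, hp1 j, hq j, hq1 j, hl' j, hrel j⟩
  · rw [hA]
    exact ((hMup _).1.mul hD).mul hqiup
  · intro i j hij
    rw [Matrix.diagonal_mul, hLow.1 hij, mul_zero]
  · rw [mul_assoc, htele, hA]
    calc M (Fin.last (n + 1)) * Matrix.diagonal (fun i => (a i : ℂ)) * qi 0 *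
          (q 0 * (List.ofFn l').prod)
        = M (Fin.last (n + 1)) * Matrix.diagonal (fun i => (a i : ℂ)) * (qi 0 * q 0) *
          (List.ofFn l').prod := by simp only [mul_assoc]
      _ = M (Fin.last (n + 1)) * (Matrix.diagonal (fun i => (a i : ℂ)) *
          (List.ofFn l').prod) := by rw [(hqi 0).2, mul_one, mul_assoc]
  · intro i
    rw [hA, gw_diag_mul_up _ _ ((hMup _).1.mul hD) hqiup, gw_diag_mul_up _ _ (hMup _).1 hD,
      (hMup _).2, hqi1, Matrix.diagonal_apply_eq, one_mul, mul_one]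
  · intro j i
    exact hld j i
  · intro i
    rw [Matrix.diagonal_mul, hLow.2 i]
    simp only [hl'd]
    rw [← Units.coe_prod, ← Units.val_mul, gsE_diag]
  · intro j δ i k hδ hk hr
    exact gsChartAux_minor (b j) (gsE a c s j) (gwFr r (fun w => s (Sum.inl (j, w))))
      (l j) (p j) (q j.castSucc) (l' j) (hcell j) (hfr j) δ i k hδ hk hr

end Vale.Agent.Lib.P002
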