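import Vale.Agent.Lib.P002.GPApex
import Vale.Agent.Lib.P002.GPSolve
import Vale.Agent.Lib.P002.GPT
import Vale.Agent.Lib.P002.GSChart

/-!
# Chart points in the sense of `gpIsPt` lie in the chart with ordered diagonals
-/

open Matrix

namespace Vale.Agent.Lib.P002

/-- The diagonal of the trailing factor of every cell of a chart point is `gpE`. -/
theorem gpChartAux_diag {g n r : ℕ} (hN : 2 ≤ 2 * g + n) (c : Fin r → ℂˣ)
    (d : Fin n → Fin r → ℂˣ) (s : GpIdx g n r → ℂˣ)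
    (l p q l' : ℕ → Matrix (Fin r) (Fin r) ℂ)
    (hcell : ∀ k, 1 ≤ k → k + 1 ≤ 2 * g + n →
      gwCell (fun _ => (1 : ℂ)) (fun i => (gpE c d s k i : ℂ)) (l k) (p k) (q k) (l' k))
    (htriv : ∀ k, k = 0 ∨ 2 * g + n ≤ k → l k = 1 ∧ p k = 1 ∧ q k = 1 ∧ l' k = 1)
    (k : ℕ) (i : Fin r) : l' k i i = (gpE c d s k i : ℂ) := by
  by_cases hk : 1 ≤ k ∧ k + 1 ≤ 2 * g + n
  · exact (hcell k hk.1 hk.2).2.2.2.2.2.2.2.1 i
  · have hk' : k = 0 ∨ 2 * g + n ≤ k := by omega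
    rw [(htriv k hk').2.2.2, gpE_triv hN c d s k hk']
    simp

/-- The relations of the chart for a chart point. -/
theorem gpChartAux_rel {g n r : ℕ} (x y : Fin g → Matrix (Fin r) (Fin r) ℂ)
    (z : Fin n → Matrix (Fin r) (Fin r) ℂ) (l p q l' G P Pi Q Qi : ℕ → Matrix (Fin r) (Fin r) ℂ)
    (t t' : Fin g → Fin r → ℂ) (τ : Fin n → Fin r → ℂ)
    (hcells : ∀ k, (l k).IsLowerTriangular ∧ (∀ i, l k i i = 1) ∧ (p k).IsUpperTriangular ∧
      (∀ i, p k i i = 1) ∧ (q k).IsUpperTriangular ∧ (∀ i, q k i i = 1) ∧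
      (l' k).IsLowerTriangular ∧ l k * p k = q k * l' k)
    (htriv : ∀ k, k = 0 ∨ 2 * g + n ≤ k → l k = 1 ∧ p k = 1 ∧ q k = 1 ∧ l' k = 1)
    (hG0 : G 0 = 1) (hG : ∀ k, G (k + 1) = G k * q k)
    (hPQ : ∀ k, P k = G k * l k ∧ Q k = P k * p k ∧ P k * Pi k = 1 ∧ Pi k * P k = 1 ∧
      Q k * Qi k = 1 ∧ Qi k * Q k = 1)
    (hxy : ∀ h : Fin g,
      x h = Q (2 * h) * gpAnti (t h) * Qi (2 * h + 1) ∧
      y h = P (2 * h + 2) * gpAnti (t' h) * Pi (2 * h + 1))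
    (hz : ∀ j : Fin n, z j = Q (2 * g + j) * Matrix.diagonal (τ j) * Pi (2 * g + j + 1)) :
    gpRel x y z l p q l' G t t' τ := by
  have hQ : ∀ k, G k * l k * p k = Q k := by
    intro k
    rw [(hPQ k).2.1, (hPQ k).1]
  have hP : ∀ k, G k * l k = P k := fun k => ((hPQ k).1).symm
  refine ⟨hcells, htriv, hG0, hG, ?_, ?_⟩
  · intro h
    obtain ⟨hx, hy⟩ := hxy h
    constructor
    · rw [hQ, hQ, hx, mul_assoc, (hPQ _).2.2.2.2.2, mul_one]
    · rw [hP, hP, hy, mul_assoc, (hPQ _).2.2.2.1, mul_one]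
  · intro j
    rw [hP, hQ, hz j, mul_assoc, (hPQ _).2.2.2.1, mul_one]

theorem gpIsPt_chartO {g n r : ℕ} (hN : 2 ≤ 2 * g + n) (c : Fin r → ℂˣ)
    (d : Fin n → Fin r → ℂˣ) (hc : ∏ i, c i = 1) (hd : ∀ j, ∏ i, d j i = 1)
    (s : GpIdx g n r → ℂˣ) (x y : Fin g → Matrix.SpecialLinearGroup (Fin r) ℂ)
    (z : Fin n → Matrix.SpecialLinearGroup (Fin r) ℂ)
    (h : gpIsPt c d s (fun h => (x h).1) (fun h => (y h).1) (fun j => (z j).1)) :
    gpChartO (fun i => (c i : ℂ)) (fun j i => (d j i : ℂ)) x y z := by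
  obtain ⟨l, p, q, l', G, P, Pi, Q, Qi, hcell, htriv, hG0, hG, hPQ, hxy, hz⟩ := h
  have hcells := gp_cells_of_pt (g := g) (n := n) (fun k i => (gpE c d s k i : ℂ)) l p q l'
    (fun k h1 h2 => (hcell k h1 h2).1) htriv
  have hl'd : ∀ k i, l' k i i = (gpE c d s k i : ℂ) :=
    gpChartAux_diag hN c d s l p q l' (fun k h1 h2 => (hcell k h1 h2).1) htriv
  have hrel : gpRel (fun h => (x h).1) (fun h => (y h).1) (fun j => (z j).1) l p q l' G
      (fun h i => (gpTt s h 0 i : ℂ)) (fun h i => (gpTt s h 1 i : ℂ))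
      (fun j i => ((d j i * (gpE c d s (2 * g + j) i)⁻¹ : ℂˣ) : ℂ)) :=
    gpChartAux_rel _ _ _ l p q l' G P Pi Q Qi _ _ _ hcells htriv hG0 hG hPQ hxy hz
  refine ⟨l, p, q, l', G, _, _, _, hrel, ?_, ?_, ?_⟩
  · intro j i
    rw [hl'd, ← Units.val_mul]
    congr 1
    rw [mul_comm, mul_assoc, inv_mul_cancel, mul_one]
  · intro i
    rw [(gp_apex x y z l p q l' G _ _ _ hrel).2 i]
    simp only [hl'd]
    have hap := congrFun (gpE_apex hN c d s) i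
    rw [← hap]
    unfold gpApex
    simp only [Units.val_mul, Units.coe_prod, Units.val_inv_eq_inv_val]
    congr 1
    refine Finset.prod_congr rfl fun h _ => ?_
    rw [div_eq_mul_inv]
    simp only [mul_inv]
    ring
  · intro k hk1 hk2 δ i m hδ hm hr
    have hck := hcell k hk1 hk2
    refine gsChartAux_minor (fun _ => (1 : ℂˣ)) (gpE c d s k) (gwFr r (gpWall s k))
      (l k) (p k) (q k) (l' k) ?_ hck.2 δ i m hδ hm hr
    simpa using hck.1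

end Vale.Agent.Lib.P002
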