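import Vale.Agent.Lib.P002.GSDefs
import Vale.Agent.Lib.P002.GSTele
import Vale.Agent.Lib.P002.GWTri

/-!
# Characteristic polynomials and determinants of the points of the chart
-/

open Matrix Polynomial

namespace Vale.Agent.Lib.P002

/-- The characteristic polynomial of a lower triangular matrix. -/
theorem gsCpAux_charpoly_low {r : ℕ} (L : Matrix (Fin r) (Fin r) ℂ) (h : L.IsLowerTriangular) :
    L.charpoly = ∏ i, (X - C (L i i)) := by
  have hT : Lᵀ.IsUpperTriangular := fun i j hij => h hij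
  rw [← Matrix.charpoly_transpose, Matrix.charpoly_of_isUpperTriangular _ hT]
  rfl

/-- A matrix conjugated by an invertible matrix to `L`: it is `M * L * Mi`. -/
theorem gsCpAux_conj {r : ℕ} (P M Mi L : Matrix (Fin r) (Fin r) ℂ)
    (h : P * M = M * L) (h1 : M * Mi = 1) : P = M * (L * Mi) := by
  calc P = P * (M * Mi) := by rw [h1, mul_one]
    _ = P * M * Mi := by rw [mul_assoc]
    _ = M * L * Mi := by rw [h]
    _ = M * (L * Mi) := by rw [mul_assoc]

/-- Conjugate matrices have the same characteristic polynomial. -/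
theorem gsCpAux_charpoly_conj {r : ℕ} (P M Mi L : Matrix (Fin r) (Fin r) ℂ)
    (h : P * M = M * L) (h1 : M * Mi = 1) (h2 : Mi * M = 1) : P.charpoly = L.charpoly := by
  rw [gsCpAux_conj P M Mi L h h1, Matrix.charpoly_mul_comm, mul_assoc, h2, mul_one]

/-- Conjugate matrices have the same determinant. -/
theorem gsCpAux_det_conj {r : ℕ} (P M Mi L : Matrix (Fin r) (Fin r) ℂ)
    (h : P * M = M * L) (h1 : M * Mi = 1) : P.det = L.det := by
  have hd : M.det * Mi.det = 1 := by
    rw [← Matrix.det_mul, h1, Matrix.det_one]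
  rw [gsCpAux_conj P M Mi L h h1, Matrix.det_mul, Matrix.det_mul]
  calc M.det * (L.det * Mi.det) = L.det * (M.det * Mi.det) := by ring
    _ = L.det := by rw [hd, mul_one]

theorem gsChartO_charpoly {n r : ℕ} (a c : Fin r → ℂ) (b : Fin (n + 1) → Fin r → ℂ)
    (A : Matrix (Fin r) (Fin r) ℂ) (B : Fin (n + 1) → Matrix (Fin r) (Fin r) ℂ)
    (h : gsChartO a c b A B) :
    A.charpoly = ∏ i, (X - C (a i)) ∧ A.det = ∏ i, a i ∧
      (∀ j, (B j).charpoly = ∏ i, (X - C (b j i)) ∧ (B j).det = ∏ i, b j i) ∧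
      (A * (List.ofFn B).prod).charpoly = ∏ i, (X - C (c i)) := by
  obtain ⟨l, p, l', q, M, K, hcell, hqlast, hM0, hM, hB, hA, hKlow, hprod, hAd, hld, hKd, -⟩ := h
  -- all the matrices of the chain are upper triangular with unit diagonal
  have hp : ∀ j, (p j).IsUpperTriangular ∧ ∀ i, p j i i = 1 := fun j =>
    ⟨(hcell j).2.1, (hcell j).2.2.1⟩
  have hq : ∀ j, (q j).IsUpperTriangular ∧ ∀ i, q j i i = 1 := by
    intro j
    induction j using Fin.lastCases with
    | last =>
      rw [hqlast]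
      exact ⟨Matrix.blockTriangular_one, fun i => Matrix.one_apply_eq i⟩
    | cast j => exact ⟨(hcell j).2.2.2.1, (hcell j).2.2.2.2.1⟩
  have hMup := gs_M_up (n + 1) p q M hp hq hM0 hM
  have hMinv : ∀ j, ∃ Mi : Matrix (Fin r) (Fin r) ℂ, M j * Mi = 1 ∧ Mi * M j = 1 := by
    intro j
    obtain ⟨Mi, -, -, h1, h2⟩ := gw_upU_inv r (M j) (hMup j).1 (hMup j).2
    exact ⟨Mi, h1, h2⟩
  refine ⟨?_, ?_, ?_, ?_⟩
  · rw [Matrix.charpoly_of_isUpperTriangular _ hA]
    exact Finset.prod_congr rfl (fun i _ => by rw [hAd i])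
  · rw [Matrix.det_of_isUpperTriangular hA]
    exact Finset.prod_congr rfl (fun i _ => hAd i)
  · intro j
    obtain ⟨Mi, h1, h2⟩ := hMinv j.castSucc
    constructor
    · rw [gsCpAux_charpoly_conj (B j) (M j.castSucc) Mi (l j) (hB j) h1 h2,
        gsCpAux_charpoly_low (l j) (hcell j).1]
      exact Finset.prod_congr rfl (fun i _ => by rw [hld j i])
    · rw [gsCpAux_det_conj (B j) (M j.castSucc) Mi (l j) (hB j) h1,
        Matrix.det_of_isLowerTriangular (l j) (hcell j).1]
      exact Finset.prod_congr rfl (fun i _ => hld j i)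
  · obtain ⟨Mi, h1, h2⟩ := hMinv (Fin.last (n + 1))
    rw [gsCpAux_charpoly_conj (A * (List.ofFn B).prod) (M (Fin.last (n + 1))) Mi K hprod h1 h2,
      gsCpAux_charpoly_low K hKlow]
    exact Finset.prod_congr rfl (fun i _ => by rw [hKd i])

end Vale.Agent.Lib.P002
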