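import Mathlib

/-!
# The diagonal of a triangular matrix with split characteristic polynomial
-/

open Matrix Polynomial

namespace Vale.Agent.Lib.P002

/-- Two families indexed by the same finite type with the same multiset of values differ by a
permutation of the index type. -/
theorem gwPermAux_exists_perm {ι β : Type*} [Fintype ι] [DecidableEq β] (f g : ι → β)
    (h : Multiset.map f Finset.univ.val = Multiset.map g Finset.univ.val) :
    ∃ σ : Equiv.Perm ι, ∀ i, f i = g (σ i) := by
  classical
  have hcard : ∀ b : β, Fintype.card {x // f x = b} = Fintype.card {x // g x = b} := by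
    intro b
    have h1 := congrArg (Multiset.count b) h
    rw [Multiset.count_map, Multiset.count_map] at h1
    rw [Fintype.card_subtype, Fintype.card_subtype]
    simp only [Finset.card_def, Finset.filter_val]
    simpa [eq_comm] using h1
  let e : ∀ b : β, {x // f x = b} ≃ {x // g x = b} := fun b => Fintype.equivOfCardEq (hcard b)
  refine ⟨(Equiv.sigmaFiberEquiv f).symm.trans
    ((Equiv.sigmaCongrRight e).trans (Equiv.sigmaFiberEquiv g)), ?_⟩
  intro i
  have h2 := (e (f i) ⟨i, rfl⟩).2
  simpa [Equiv.sigmaFiberEquiv] using h2.symm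

/-- The roots of a split polynomial. -/
theorem gwPermAux_roots (r : ℕ) (f : Fin r → ℂ) :
    (∏ i, (X - C (f i))).roots = Multiset.map f Finset.univ.val := by
  rw [Finset.prod_eq_multiset_prod]
  have h1 : Multiset.map (fun i => X - C (f i)) Finset.univ.val
      = Multiset.map (fun a : ℂ => X - C a) (Multiset.map f Finset.univ.val) := by
    rw [Multiset.map_map]
    rfl
  rw [h1, Polynomial.roots_multiset_prod_X_sub_C]

theorem gw_diag_perm (r : ℕ) (M : Matrix (Fin r) (Fin r) ℂ) (a : Fin r → ℂ)
    (hM : M.IsUpperTriangular ∨ M.IsLowerTriangular)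
    (h : M.charpoly = ∏ i, (X - C (a i))) :
    ∃ σ : Equiv.Perm (Fin r), ∀ i, M i i = a (σ i) := by
  have hdiag : M.charpoly = ∏ i, (X - C (M i i)) := by
    rcases hM with hU | hL
    · exact Matrix.charpoly_of_isUpperTriangular M hU
    · have hT : Mᵀ.IsUpperTriangular := fun i j hij => hL (OrderDual.toDual_lt_toDual.mpr hij)
      have h1 := Matrix.charpoly_of_isUpperTriangular Mᵀ hT
      rw [Matrix.charpoly_transpose] at h1
      simpa using h1
  have hms : Multiset.map (fun i => M i i) Finset.univ.val = Multiset.map a Finset.univ.val := by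
    rw [← gwPermAux_roots, ← gwPermAux_roots, ← hdiag, h]
  exact gwPermAux_exists_perm _ _ hms

end Vale.Agent.Lib.P002
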