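import Mathlib

/-!
# The unit `1 + √2` and the number field `ℚ(√2) ⊂ ℂ`
-/

namespace Vale.Agent.Lib.P002

/-- `√2` as a complex number. -/
noncomputable def sqrtTwo : ℂ := ((Real.sqrt 2 : ℝ) : ℂ)

theorem sqrtTwo_sq : sqrtTwo ^ 2 = 2 := by
  unfold sqrtTwo
  rw [← Complex.ofReal_pow, Real.sq_sqrt (by norm_num : (0 : ℝ) ≤ 2)]
  norm_num

theorem sqrtTwo_mul_self : sqrtTwo * sqrtTwo = 2 := by
  rw [← sq, sqrtTwo_sq]

theorem isIntegral_sqrtTwo : IsIntegral ℤ sqrtTwo := by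
  refine IsIntegral.of_pow (n := 2) (by norm_num) ?_
  rw [sqrtTwo_sq]
  exact isIntegral_algebraMap (R := ℤ) (A := ℂ) (x := 2)

/-- The fundamental unit `1 + √2` of `ℤ[√2]`, as a unit of `ℂ`. -/
noncomputable def unitW : ℂˣ :=
  ⟨1 + sqrtTwo, sqrtTwo - 1, by ring_nf; rw [sqrtTwo_sq]; norm_num,
    by ring_nf; rw [sqrtTwo_sq]; norm_num⟩

theorem unitW_val : (unitW : ℂ) = 1 + sqrtTwo := rfl

theorem unitW_inv_val : ((unitW⁻¹ : ℂˣ) : ℂ) = sqrtTwo - 1 := rfl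

/-- The number field `ℚ(√2)` inside `ℂ`. -/
noncomputable def fieldL : IntermediateField ℚ ℂ := IntermediateField.adjoin ℚ {sqrtTwo}

theorem finiteDimensional_fieldL : FiniteDimensional ℚ fieldL :=
  IntermediateField.adjoin.finiteDimensional (isIntegral_sqrtTwo.tower_top)

theorem sqrtTwo_mem_fieldL : sqrtTwo ∈ fieldL :=
  IntermediateField.mem_adjoin_simple_self ℚ sqrtTwo

theorem zpow_unitW_mem_fieldL (k : ℤ) : ((unitW ^ k : ℂˣ) : ℂ) ∈ fieldL := by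
  rw [Units.val_zpow_eq_zpow_val, unitW_val]
  exact zpow_mem (add_mem (one_mem _) sqrtTwo_mem_fieldL) k

theorem isIntegral_zpow_unitW (k : ℤ) : IsIntegral ℤ ((unitW ^ k : ℂˣ) : ℂ) := by
  have h1 : IsIntegral ℤ (1 + sqrtTwo) := isIntegral_one.add isIntegral_sqrtTwo
  have h2 : IsIntegral ℤ (sqrtTwo - 1) := isIntegral_sqrtTwo.sub isIntegral_one
  cases k with
  | ofNat m =>
    rw [Int.ofNat_eq_natCast, zpow_natCast, Units.val_pow_eq_pow_val, unitW_val]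
    exact h1.pow m
  | negSucc m =>
    rw [zpow_negSucc, ← inv_pow, Units.val_pow_eq_pow_val, unitW_inv_val]
    exact h2.pow (m + 1)

theorem mem_fieldL_of_mem_zpowers {u : ℂˣ} (hu : u ∈ Subgroup.zpowers unitW) :
    (u : ℂ) ∈ fieldL := by
  obtain ⟨k, rfl⟩ := hu
  exact zpow_unitW_mem_fieldL k

theorem isIntegral_of_mem_zpowers {u : ℂˣ} (hu : u ∈ Subgroup.zpowers unitW) :
    IsIntegral ℤ (u : ℂ) := by
  obtain ⟨k, rfl⟩ := hu
  exact isIntegral_zpow_unitW k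

theorem infinite_zpowers_unitW : (Subgroup.zpowers unitW : Set ℂˣ).Infinite := by
  have hx : (1 : ℝ) < 1 + Real.sqrt 2 := by
    have : 0 < Real.sqrt 2 := Real.sqrt_pos.mpr (by norm_num)
    linarith
  have hinj : Function.Injective (fun k : ℕ => unitW ^ k) := by
    intro a b hab
    have h1 : ((unitW ^ a : ℂˣ) : ℂ) = ((unitW ^ b : ℂˣ) : ℂ) := congrArg _ hab
    rw [Units.val_pow_eq_pow_val, Units.val_pow_eq_pow_val, unitW_val] at h1
    have h2 : ((1 + Real.sqrt 2 : ℝ) : ℂ) ^ a = ((1 + Real.sqrt 2 : ℝ) : ℂ) ^ b := by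
      simpa [sqrtTwo] using h1
    rw [← Complex.ofReal_pow, ← Complex.ofReal_pow] at h2
    have h3 : (1 + Real.sqrt 2) ^ a = (1 + Real.sqrt 2) ^ b := Complex.ofReal_injective h2
    exact pow_right_injective₀ (by linarith) (ne_of_gt hx) h3
  exact Set.infinite_of_injective_forall_mem hinj
    (fun k => Subgroup.pow_mem _ (Subgroup.mem_zpowers unitW) k)

end Vale.Agent.Lib.P002
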