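import Vale.Agent.Lib.P002.GWPants
import Vale.Agent.Lib.P002.GWPerm
import Vale.Agent.Lib.P002.Units

/-!
# Density of integral points on the wall chart: thrice punctured sphere, arbitrary rank
-/

noncomputable section

namespace Vale.Agent.Lib.P002

open Polynomial Matrix

/-- The wall chart of pairs `(A, B)`: `A` is upper triangular, `B` is lower triangular, the
product `A * B` is conjugated to a lower triangular matrix `K` by an upper triangular matrix `N`
with unit diagonal, the characteristic polynomials of `A`, `B`, `K` (hence of `A * B`) are the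
prescribed ones, and all solid minors of `B * N` on the diagonal (`δ = 0`) and on the
superdiagonal (`δ = 1`) are nonzero. -/
def gwChart {r : ℕ} (a b c : Fin r → ℂ) (A B N K : Matrix (Fin r) (Fin r) ℂ) : Prop :=
  A.IsUpperTriangular ∧ B.IsLowerTriangular ∧ N.IsUpperTriangular ∧ (∀ i, N i i = 1) ∧
    K.IsLowerTriangular ∧ A * B * N = N * K ∧
    A.charpoly = ∏ i, (X - C (a i)) ∧ B.charpoly = ∏ i, (X - C (b i)) ∧
    K.charpoly = ∏ i, (X - C (c i)) ∧
    ∀ δ i k : ℕ, δ ≤ 1 → 1 ≤ k → i + δ + k ≤ r → gwMinor (B * N) i (i + δ) k ≠ 0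

/-- A number field containing a given finite set of algebraic integers and infinitely many
units. -/
theorem gwField (S : Set ℂ) (hSfin : S.Finite) (hSint : ∀ x ∈ S, IsIntegral ℤ x) :
    ∃ L : IntermediateField ℚ ℂ, FiniteDimensional ℚ L ∧ (∀ x ∈ S, x ∈ L) ∧
      ∀ u ∈ (Subgroup.zpowers unitW : Set ℂˣ),
        (IsIntegral ℤ (u : ℂ) ∧ (u : ℂ) ∈ L) ∧
          (IsIntegral ℤ ((u⁻¹ : ℂˣ) : ℂ) ∧ ((u⁻¹ : ℂˣ) : ℂ) ∈ L) := by
  classical
  let T : Set ℂ := S ∪ {sqrtTwo}
  let L : IntermediateField ℚ ℂ := IntermediateField.adjoin ℚ T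
  have hTint : ∀ x ∈ T, IsIntegral ℤ x := by
    rintro x (hx | hx)
    · exact hSint x hx
    · rw [Set.mem_singleton_iff] at hx
      rw [hx]
      exact isIntegral_sqrtTwo
  have hTfin : T.Finite := hSfin.union (Set.finite_singleton _)
  have hfin : FiniteDimensional ℚ L := by
    have : Finite T := hTfin.to_subtype
    exact IntermediateField.finiteDimensional_adjoin (fun x hx => (hTint x hx).tower_top)
  have hTL : ∀ x ∈ T, x ∈ L := fun x hx => IntermediateField.subset_adjoin ℚ T hx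
  have hsqrt : sqrtTwo ∈ L := hTL _ (Or.inr rfl)
  have key : ∀ u ∈ (Subgroup.zpowers unitW : Set ℂˣ), IsIntegral ℤ (u : ℂ) ∧ (u : ℂ) ∈ L := by
    intro u hu
    refine ⟨isIntegral_of_mem_zpowers hu, ?_⟩
    obtain ⟨k, rfl⟩ := hu
    rw [Units.val_zpow_eq_zpow_val, unitW_val]
    exact zpow_mem (add_mem (one_mem _) hsqrt) k
  exact ⟨L, hfin, fun x hx => hTL x (Or.inl hx), fun u hu => ⟨key u hu, key _ (inv_mem hu)⟩⟩

/-- The characteristic polynomial of a lower triangular matrix. -/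
theorem gw_charpoly_low {r : ℕ} (M : Matrix (Fin r) (Fin r) ℂ) (h : M.IsLowerTriangular) :
    M.charpoly = ∏ i, (X - C (M i i)) := by
  have hT : Mᵀ.IsUpperTriangular := fun i j hij => h hij
  rw [← Matrix.charpoly_transpose, Matrix.charpoly_of_isUpperTriangular _ hT]
  rfl

theorem gw_ne_zero {r : ℕ} (a : Fin r → ℂ) (h : ∏ i, a i = 1) (i : Fin r) : a i ≠ 0 := by
  intro h0
  rw [Finset.prod_eq_zero (Finset.mem_univ i) h0] at h
  exact zero_ne_one h

theorem gw_inv_mem {r : ℕ} (O : Subring ℂ) (a : Fin r → ℂ) (h : ∏ i, a i = 1)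
    (hO : ∀ i, a i ∈ O) (i : Fin r) : (a i)⁻¹ ∈ O := by
  classical
  have h1 : a i * ∏ j ∈ Finset.univ.erase i, a j = 1 := by
    rw [Finset.mul_prod_erase _ _ (Finset.mem_univ i)]
    exact h
  have h2 : (a i)⁻¹ = ∏ j ∈ Finset.univ.erase i, a j := inv_eq_of_mul_eq_one_right h1
  rw [h2]
  exact Subring.prod_mem _ (fun j _ => hO j)

/-- **Density of integral points on the wall chart**, for local systems of arbitrary rank `r`
on the thrice punctured sphere with prescribed characteristic polynomials of the three boundary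
monodromies. -/
theorem gw_pants_density (r : ℕ) (a b c : Fin r → ℂ)
    (ha : ∀ i, IsIntegral ℤ (a i)) (hb : ∀ i, IsIntegral ℤ (b i)) (hc : ∀ i, IsIntegral ℤ (c i))
    (ha1 : ∏ i, a i = 1) (hb1 : ∏ i, b i = 1) (hc1 : ∏ i, c i = 1) :
    ∃ L : IntermediateField ℚ ℂ, FiniteDimensional ℚ L ∧
      (∃ A B N K : Matrix (Fin r) (Fin r) ℂ, gwChart a b c A B N K) ∧
      ∀ F : MvPolynomial (Fin 2 × Fin r × Fin r) ℂ,
        (∀ A B : Matrix.SpecialLinearGroup (Fin r) ℂ,
          (∀ i j, A.1 i j ∈ L ∧ IsIntegral ℤ (A.1 i j)) →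
          (∀ i j, B.1 i j ∈ L ∧ IsIntegral ℤ (B.1 i j)) →
          A.1.charpoly = ∏ i, (X - C (a i)) → B.1.charpoly = ∏ i, (X - C (b i)) →
          (A.1 * B.1).charpoly = ∏ i, (X - C (c i)) →
          MvPolynomial.eval (fun x => (![A.1, B.1] x.1) x.2.1 x.2.2) F = 0) →
        ∀ A B N K : Matrix (Fin r) (Fin r) ℂ, gwChart a b c A B N K →
          MvPolynomial.eval (fun x => (![A, B] x.1) x.2.1 x.2.2) F = 0 := by
  classical
  obtain ⟨L, hfin, hSL, hUL⟩ := gwField (Set.range a ∪ Set.range b ∪ Set.range c)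
    (((Set.finite_range a).union (Set.finite_range b)).union (Set.finite_range c)) (by
      rintro x ((⟨i, rfl⟩ | ⟨i, rfl⟩) | ⟨i, rfl⟩)
      · exact ha i
      · exact hb i
      · exact hc i)
  refine ⟨L, hfin, ?_, ?_⟩
  · -- the chart is not empty
    let aU : Fin r → ℂˣ := fun i => Units.mk0 (a i) (gw_ne_zero a ha1 i)
    let bU : Fin r → ℂˣ := fun i => Units.mk0 (b i) (gw_ne_zero b hb1 i)
    let cU : Fin r → ℂˣ := fun i => Units.mk0 (c i) (gw_ne_zero c hc1 i)
    have h : ∏ i, bU i = ∏ i, ((aU i)⁻¹ * cU i) := by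
      ext
      rw [Units.coe_prod, Units.coe_prod]
      simp only [Units.val_mul, Units.val_inv_eq_inv_val, aU, bU, cU, Units.val_mk0]
      rw [Finset.prod_mul_distrib, Finset.prod_inv_distrib, ha1, hb1, hc1]
      simp
    obtain ⟨A, B, hpt⟩ := gwIsPt_exists aU bU cU h (fun _ => 1)
    obtain ⟨N, K, c1, c2, c3, c4, c5, c6, c7, c8, c9, c10⟩ := gwIsPt_chart aU bU cU _ hpt
    refine ⟨A, B, N, K, c1, c3, c5, c6, c7, c9, ?_, ?_, ?_,
      fun δ i k hδ hk hr => (c10 δ i k hδ hk hr).ne_zero⟩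
    · rw [Matrix.charpoly_of_isUpperTriangular A c1]
      exact Finset.prod_congr rfl (fun i _ => by rw [c2]; rfl)
    · rw [gw_charpoly_low B c3]
      exact Finset.prod_congr rfl (fun i _ => by rw [c4]; rfl)
    · rw [gw_charpoly_low K c7]
      exact Finset.prod_congr rfl (fun i _ => by rw [c8]; rfl)
  · intro F Hvan A B N K hch
    obtain ⟨hA, hB, hN, hN1, hK, hrel, hcA, hcB, hcK, hw⟩ := hch
    obtain ⟨σ, hσ⟩ := gw_diag_perm r A a (Or.inl hA) hcA
    obtain ⟨τ, hτ⟩ := gw_diag_perm r B b (Or.inr hB) hcB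
    obtain ⟨υ, hυ⟩ := gw_diag_perm r K c (Or.inr hK) hcK
    -- the ring of integers of `L` as a subring of `ℂ`
    let O : Subring ℂ := (integralClosure ℤ ℂ).toSubring ⊓ L.toSubfield.toSubring
    have hO : ∀ x : ℂ, x ∈ O ↔ IsIntegral ℤ x ∧ x ∈ L := fun x => Iff.rfl
    have haO : ∀ i, a i ∈ O := fun i =>
      (hO _).mpr ⟨ha i, hSL _ (Or.inl (Or.inl ⟨i, rfl⟩))⟩
    have hbO : ∀ i, b i ∈ O := fun i =>
      (hO _).mpr ⟨hb i, hSL _ (Or.inl (Or.inr ⟨i, rfl⟩))⟩
    have hcO : ∀ i, c i ∈ O := fun i =>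
      (hO _).mpr ⟨hc i, hSL _ (Or.inr ⟨i, rfl⟩)⟩
    have hUO : ∀ u ∈ (Subgroup.zpowers unitW : Set ℂˣ),
        (u : ℂ) ∈ O ∧ ((u⁻¹ : ℂˣ) : ℂ) ∈ O :=
      fun u hu => ⟨(hO _).mpr (hUL u hu).1, (hO _).mpr (hUL u hu).2⟩
    let aU : Fin r → ℂˣ := fun i => Units.mk0 (a (σ i)) (gw_ne_zero a ha1 _)
    let bU : Fin r → ℂˣ := fun i => Units.mk0 (b (τ i)) (gw_ne_zero b hb1 _)
    let cU : Fin r → ℂˣ := fun i => Units.mk0 (c (υ i)) (gw_ne_zero c hc1 _)
    have pa : ∏ i, a (σ i) = 1 := (Equiv.prod_comp σ a).trans ha1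
    have pb : ∏ i, b (τ i) = 1 := (Equiv.prod_comp τ b).trans hb1
    have pc : ∏ i, c (υ i) = 1 := (Equiv.prod_comp υ c).trans hc1
    have h : ∏ i, bU i = ∏ i, ((aU i)⁻¹ * cU i) := by
      ext
      rw [Units.coe_prod, Units.coe_prod]
      simp only [Units.val_mul, Units.val_inv_eq_inv_val, aU, bU, cU, Units.val_mk0]
      rw [Finset.prod_mul_distrib, Finset.prod_inv_distrib, pa, pb, pc]
      simp
    refine gw_pants_core r aU bU cU h O
      (fun i => ⟨haO _, gw_inv_mem O a ha1 haO _⟩) (fun i => ⟨hbO _, gw_inv_mem O b hb1 hbO _⟩)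
      (fun i => ⟨hcO _, gw_inv_mem O c hc1 hcO _⟩) _ infinite_zpowers_unitW hUO F ?_
      A B N K hA hσ hB hτ hN hN1 hK hυ hrel hw
    intro A' B' N' K' hA' hAd' hB' hBd' hN' hN1' hK' hKd' hrel' hAO hBO
    have hdA : A'.det = 1 := by
      rw [Matrix.det_of_isUpperTriangular hA']
      simp only [hAd']
      exact pa
    have hdB : B'.det = 1 := by
      rw [Matrix.det_of_isLowerTriangular _ hB']
      simp only [hBd']
      exact pb
    have h1 : A'.charpoly = ∏ i, (X - C (a i)) := by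
      rw [Matrix.charpoly_of_isUpperTriangular _ hA']
      simp only [hAd']
      exact Equiv.prod_comp σ (fun i => X - C (a i))
    have h2 : B'.charpoly = ∏ i, (X - C (b i)) := by
      rw [gw_charpoly_low _ hB']
      simp only [hBd']
      exact Equiv.prod_comp τ (fun i => X - C (b i))
    have h3 : (A' * B').charpoly = ∏ i, (X - C (c i)) := by
      obtain ⟨Ni, -, -, n1, n2⟩ := gw_upU_inv r N' hN' hN1'
      have e : A' * B' = N' * (K' * Ni) := by
        calc A' * B' = A' * B' * (N' * Ni) := by rw [n1, mul_one]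
          _ = (A' * B' * N') * Ni := by rw [mul_assoc (A' * B')]
          _ = N' * (K' * Ni) := by rw [hrel', mul_assoc]
      rw [e, Matrix.charpoly_mul_comm, mul_assoc, n2, mul_one, gw_charpoly_low _ hK']
      simp only [hKd']
      exact Equiv.prod_comp υ (fun i => X - C (c i))
    exact Hvan ⟨A', hdA⟩ ⟨B', hdB⟩
      (fun i j => ⟨((hO _).mp (hAO i j)).2, ((hO _).mp (hAO i j)).1⟩)
      (fun i j => ⟨((hO _).mp (hBO i j)).2, ((hO _).mp (hBO i j)).1⟩) h1 h2 h3

end Vale.Agent.Lib.P002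

end
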