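import Vale.Agent.Lib.P002.GPFrames
import Vale.Agent.Lib.P002.GPRelNe
import Vale.Agent.Lib.P002.GWTri
import Vale.Agent.Lib.P002.GWMain
import Vale.Agent.Lib.P002.GSTele
import Vale.Agent.Lib.P002.GSCharpoly

/-!
# The characteristic polynomials of the loops around the punctures
-/

open Matrix Polynomial

namespace Vale.Agent.Lib.P002

/-- A lower triangular matrix with unit diagonal has a lower triangular inverse with unit
diagonal. -/
theorem gpZCharAux_low_inv {R : Type*} [CommRing R] (r : ℕ) (lam : Matrix (Fin r) (Fin r) R)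
    (hl : lam.IsLowerTriangular) (hl1 : ∀ i, lam i i = 1) :
    ∃ li : Matrix (Fin r) (Fin r) R, li.IsLowerTriangular ∧ (∀ i, li i i = 1) ∧
      lam * li = 1 ∧ li * lam = 1 := by
  have hT : lamᵀ.IsUpperTriangular := fun i j hij => hl hij
  have hT1 : ∀ i, lamᵀ i i = 1 := fun i => by
    rw [Matrix.transpose_apply]
    exact hl1 i
  obtain ⟨qi, hqi, hqi1, h1, h2⟩ := gw_upU_inv r lamᵀ hT hT1
  refine ⟨qiᵀ, fun i j hij => hqi hij, fun i => ?_, ?_, ?_⟩
  · rw [Matrix.transpose_apply]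
    exact hqi1 i
  · have e : (qi * lamᵀ)ᵀ = (1 : Matrix (Fin r) (Fin r) R)ᵀ := by rw [h2]
    rw [Matrix.transpose_mul, Matrix.transpose_transpose, Matrix.transpose_one] at e
    exact e
  · have e : (lamᵀ * qi)ᵀ = (1 : Matrix (Fin r) (Fin r) R)ᵀ := by rw [h1]
    rw [Matrix.transpose_mul, Matrix.transpose_transpose, Matrix.transpose_one] at e
    exact e

/-- For generators of determinant one satisfying the chart relations, `z j` is conjugate to a
lower triangular matrix with diagonal `l' (2 g + j) i i * τ j i`. -/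
theorem gp_z_charpoly {g n r : ℕ} (x y : Fin g → Matrix.SpecialLinearGroup (Fin r) ℂ)
    (z : Fin n → Matrix.SpecialLinearGroup (Fin r) ℂ)
    (l p q l' G : ℕ → Matrix (Fin r) (Fin r) ℂ) (t t' : Fin g → Fin r → ℂ)
    (τ : Fin n → Fin r → ℂ)
    (h : gpRel (fun h => (x h).1) (fun h => (y h).1) (fun j => (z j).1) l p q l' G t t' τ)
    (j : Fin n) :
    (z j).1.charpoly = ∏ i, (X - C (l' (2 * g + j) i i * τ j i)) := by
  obtain ⟨hc, _, hG0, hG, _, hz⟩ := h
  have hzj : (z j).1 * (G (2 * g + j + 1) * l (2 * g + j + 1)) =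
      G (2 * g + j) * l (2 * g + j) * p (2 * g + j) * Matrix.diagonal (τ j) := hz j
  obtain ⟨_, _, _, _, _, hfr, _⟩ := gp_frames l p q l' G hc hG0 hG (2 * g + j)
  obtain ⟨hΓ, hΓ1, _, _, _, _, _⟩ := gp_frames l p q l' G hc hG0 hG (2 * g + j + 1)
  obtain ⟨Γi, _, _, hΓΓi, hΓiΓ⟩ := gw_upU_inv r (G (2 * g + j + 1)) hΓ hΓ1
  obtain ⟨hlam, hlam1, _, _, _, _, _, _⟩ := hc (2 * g + j + 1)
  obtain ⟨li, hli, hli1, hlli, _⟩ := gpZCharAux_low_inv r (l (2 * g + j + 1)) hlam hlam1
  obtain ⟨_, _, _, _, _, _, hl'low, _⟩ := hc (2 * g + j)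
  have hD : (Matrix.diagonal (τ j)).IsLowerTriangular := Matrix.blockTriangular_diagonal _
  have hLD : (l' (2 * g + j) * Matrix.diagonal (τ j)).IsLowerTriangular :=
    Matrix.BlockTriangular.mul hl'low hD
  have hL : (l' (2 * g + j) * Matrix.diagonal (τ j) * li).IsLowerTriangular :=
    Matrix.BlockTriangular.mul hLD hli
  have hLdiag : ∀ i, (l' (2 * g + j) * Matrix.diagonal (τ j) * li) i i =
      l' (2 * g + j) i i * τ j i := by
    intro i
    rw [gsTeleAux_diag_mul_low _ _ hLD hli, gsTeleAux_diag_mul_low _ _ hl'low hD,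
      Matrix.diagonal_apply_eq, hli1, mul_one]
  have hconj : (z j).1 * G (2 * g + j + 1) =
      G (2 * g + j + 1) * (l' (2 * g + j) * Matrix.diagonal (τ j) * li) := by
    calc (z j).1 * G (2 * g + j + 1)
        = (z j).1 * G (2 * g + j + 1) * (l (2 * g + j + 1) * li) := by rw [hlli, mul_one]
      _ = (z j).1 * (G (2 * g + j + 1) * l (2 * g + j + 1)) * li := by
          simp only [mul_assoc]
      _ = G (2 * g + j) * l (2 * g + j) * p (2 * g + j) * Matrix.diagonal (τ j) * li := by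
          rw [hzj]
      _ = G (2 * g + j + 1) * l' (2 * g + j) * Matrix.diagonal (τ j) * li := by rw [hfr]
      _ = G (2 * g + j + 1) * (l' (2 * g + j) * Matrix.diagonal (τ j) * li) := by
          simp only [mul_assoc]
  rw [gsCpAux_charpoly_conj (z j).1 (G (2 * g + j + 1)) Γi _ hconj hΓΓi hΓiΓ,
    gw_charpoly_low _ hL]
  refine Finset.prod_congr rfl (fun i _ => ?_)
  rw [hLdiag i]

end Vale.Agent.Lib.P002
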