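import Vale.Agent.Lib.P002.GPApex
import Vale.Agent.Lib.P002.GPZChar
import Vale.Agent.Lib.P002.GWPerm

/-!
# The chart with characteristic polynomials and the chart with ordered diagonals
-/

open Matrix Polynomial

namespace Vale.Agent.Lib.P002

/-- The diagonal of a diagonal matrix with a split characteristic polynomial is a
rearrangement of the roots. -/
theorem gpEquivAux_diag_perm (r : ℕ) (f a : Fin r → ℂ)
    (h : ∏ i, (X - C (f i)) = ∏ i, (X - C (a i))) :
    ∃ σ : Equiv.Perm (Fin r), ∀ i, f i = a (σ i) := by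
  have hU : (Matrix.diagonal f).IsUpperTriangular := Matrix.blockTriangular_diagonal f
  have h1 : (Matrix.diagonal f).charpoly = ∏ i, (X - C (a i)) := by
    rw [Matrix.charpoly_diagonal, h]
  obtain ⟨σ, hσ⟩ := gw_diag_perm r (Matrix.diagonal f) a (Or.inl hU) h1
  refine ⟨σ, fun i => ?_⟩
  rw [← hσ i, Matrix.diagonal_apply_eq]

/-- A chart point with ordered diagonals is a chart point. -/
theorem gpChart_of_chartO {g n r : ℕ} (c : Fin r → ℂ) (d : Fin n → Fin r → ℂ)
    (x y : Fin g → Matrix.SpecialLinearGroup (Fin r) ℂ)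
    (z : Fin n → Matrix.SpecialLinearGroup (Fin r) ℂ) (h : gpChartO c d x y z) :
    gpChart c d x y z := by
  obtain ⟨l, p, q, l', G, t, t', τ, hrel, hd, hc, hm⟩ := h
  refine (gpChart_iff c d x y z).mpr ⟨l, p, q, l', G, t, t', τ, hrel, ?_, ?_, hm⟩
  · intro j
    rw [gp_z_charpoly x y z l p q l' G t t' τ hrel j]
    apply Finset.prod_congr rfl
    intro i _
    rw [hd j i]
  · rw [Matrix.charpoly_of_isUpperTriangular _ (gp_apex x y z l p q l' G t t' τ hrel).1]
    apply Finset.prod_congr rfl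
    intro i _
    rw [hc i]

/-- A chart point is a chart point with ordered diagonals, for suitable orderings. -/
theorem gpChartO_of_chart {g n r : ℕ} (c : Fin r → ℂ) (d : Fin n → Fin r → ℂ)
    (x y : Fin g → Matrix.SpecialLinearGroup (Fin r) ℂ)
    (z : Fin n → Matrix.SpecialLinearGroup (Fin r) ℂ) (h : gpChart c d x y z) :
    ∃ (υ : Equiv.Perm (Fin r)) (σ : Fin n → Equiv.Perm (Fin r)),
      gpChartO (fun i => c (υ i)) (fun j i => d j (σ j i)) x y z := by
  obtain ⟨l, p, q, l', G, t, t', τ, hrel, hd, hc, hm⟩ := (gpChart_iff c d x y z).mp h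
  have hz : ∀ j : Fin n, ∃ σ : Equiv.Perm (Fin r),
      ∀ i, l' (2 * g + j) i i * τ j i = d j (σ i) := by
    intro j
    apply gpEquivAux_diag_perm r (fun i => l' (2 * g + j) i i * τ j i) (d j)
    rw [← gp_z_charpoly x y z l p q l' G t t' τ hrel j, hd j]
  choose σ hσ using hz
  obtain ⟨υ, hυ⟩ := gw_diag_perm r _ c
    (Or.inl (gp_apex x y z l p q l' G t t' τ hrel).1) hc
  exact ⟨υ, σ, l, p, q, l', G, t, t', τ, hrel, fun j i => hσ j i, hυ, hm⟩

end Vale.Agent.Lib.P002
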