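import Vale.Agent.Lib.P002.GPDefs
import Vale.Agent.Lib.P002.GWTri

/-!
# The frames of a chain of cells
-/

open Matrix

namespace Vale.Agent.Lib.P002

/-- The frames are upper triangular with unit diagonal. -/
theorem gpFramesAux_G {R : Type*} [CommRing R] {r : ℕ} (q G : ℕ → Matrix (Fin r) (Fin r) R)
    (hq : ∀ k, (q k).IsUpperTriangular ∧ ∀ i, q k i i = 1)
    (hG0 : G 0 = 1) (hG : ∀ k, G (k + 1) = G k * q k) (k : ℕ) :
    (G k).IsUpperTriangular ∧ ∀ i, G k i i = 1 := by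
  induction k with
  | zero =>
    rw [hG0]
    exact ⟨Matrix.blockTriangular_one, fun i => Matrix.one_apply_eq i⟩
  | succ k ih =>
    rw [hG k]
    refine ⟨ih.1.mul (hq k).1, fun i => ?_⟩
    rw [gwTriAux_diag_mul _ _ ih.1 (hq k).1 i, ih.2 i, (hq k).2 i, one_mul]

/-- The cells of a chart point (nontrivial cells given by `gwCell` with leading diagonal `1`,
the others equal to `1`) satisfy the cell conditions for every index. -/
theorem gp_cells_of_pt {R : Type*} [CommRing R] {g n r : ℕ} (e : ℕ → Fin r → R)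
    (l p q l' : ℕ → Matrix (Fin r) (Fin r) R)
    (h1 : ∀ k, 1 ≤ k → k + 1 ≤ 2 * g + n →
      gwCell (fun _ => (1 : R)) (e k) (l k) (p k) (q k) (l' k))
    (h2 : ∀ k, k = 0 ∨ 2 * g + n ≤ k → l k = 1 ∧ p k = 1 ∧ q k = 1 ∧ l' k = 1) :
    ∀ k, (l k).IsLowerTriangular ∧ (∀ i, l k i i = 1) ∧ (p k).IsUpperTriangular ∧
      (∀ i, p k i i = 1) ∧ (q k).IsUpperTriangular ∧ (∀ i, q k i i = 1) ∧
      (l' k).IsLowerTriangular ∧ l k * p k = q k * l' k := by
  intro k
  by_cases hk : 1 ≤ k ∧ k + 1 ≤ 2 * g + n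
  · obtain ⟨a1, a2, a3, a4, a5, a6, a7, _, a9⟩ := h1 k hk.1 hk.2
    exact ⟨a1, a2, a3, a4, a5, a6, a7, a9⟩
  · have hk' : k = 0 ∨ 2 * g + n ≤ k := by omega
    obtain ⟨b1, b2, b3, b4⟩ := h2 k hk'
    rw [b1, b2, b3, b4]
    exact ⟨Matrix.blockTriangular_one, fun i => Matrix.one_apply_eq i,
      Matrix.blockTriangular_one, fun i => Matrix.one_apply_eq i,
      Matrix.blockTriangular_one, fun i => Matrix.one_apply_eq i,
      Matrix.blockTriangular_one, rfl⟩

/-- The frames `G k` are upper triangular with unit diagonal, all frames have determinant one,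
`G k * l k * p k = G (k+1) * l' k`, and the trailing diagonals have product one. -/
theorem gp_frames {R : Type*} [CommRing R] {r : ℕ} (l p q l' G : ℕ → Matrix (Fin r) (Fin r) R)
    (hc : ∀ k, (l k).IsLowerTriangular ∧ (∀ i, l k i i = 1) ∧ (p k).IsUpperTriangular ∧
      (∀ i, p k i i = 1) ∧ (q k).IsUpperTriangular ∧ (∀ i, q k i i = 1) ∧
      (l' k).IsLowerTriangular ∧ l k * p k = q k * l' k)
    (hG0 : G 0 = 1) (hG : ∀ k, G (k + 1) = G k * q k) (k : ℕ) :
    (G k).IsUpperTriangular ∧ (∀ i, G k i i = 1) ∧ (G k).det = 1 ∧ (G k * l k).det = 1 ∧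
      (G k * l k * p k).det = 1 ∧ G k * l k * p k = G (k + 1) * l' k ∧ ∏ i, l' k i i = 1 := by
  obtain ⟨hl, hl1, hp, hp1, hq, hq1, hl', hmul⟩ := hc k
  have hGk := gpFramesAux_G q G (fun j => ⟨(hc j).2.2.2.2.1, (hc j).2.2.2.2.2.1⟩) hG0 hG k
  have dG : (G k).det = 1 := by
    rw [Matrix.det_of_isUpperTriangular hGk.1]
    exact Finset.prod_eq_one (fun i _ => hGk.2 i)
  have dl : (l k).det = 1 := by
    rw [Matrix.det_of_isLowerTriangular _ hl]
    exact Finset.prod_eq_one (fun i _ => hl1 i)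
  have dp : (p k).det = 1 := by
    rw [Matrix.det_of_isUpperTriangular hp]
    exact Finset.prod_eq_one (fun i _ => hp1 i)
  have dq : (q k).det = 1 := by
    rw [Matrix.det_of_isUpperTriangular hq]
    exact Finset.prod_eq_one (fun i _ => hq1 i)
  refine ⟨hGk.1, hGk.2, dG, ?_, ?_, ?_, ?_⟩
  · rw [Matrix.det_mul, dG, dl, one_mul]
  · rw [Matrix.det_mul, Matrix.det_mul, dG, dl, dp, one_mul, one_mul]
  · rw [Matrix.mul_assoc, hmul, ← Matrix.mul_assoc, ← hG k]
  · have h1 : (l k * p k).det = 1 := by rw [Matrix.det_mul, dl, dp, one_mul]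
    rw [hmul, Matrix.det_mul, dq, one_mul, Matrix.det_of_isLowerTriangular _ hl'] at h1
    exact h1

end Vale.Agent.Lib.P002
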