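import Vale.Agent.Lib.P002.GPSolve
import Vale.Agent.Lib.P002.GPT
import Vale.Agent.Lib.P002.GPFrames

/-!
# Chart points consist of matrices of determinant one
-/

open Matrix

namespace Vale.Agent.Lib.P002

theorem gpIsPt_det {R : Type*} [CommRing R] {g n r : ℕ} (hN : 2 ≤ 2 * g + n)
    (c : Fin r → Rˣ) (d : Fin n → Fin r → Rˣ) (hc : ∏ i, c i = 1) (hd : ∀ j, ∏ i, d j i = 1)
    (s : GpIdx g n r → Rˣ)
    {x y : Fin g → Matrix (Fin r) (Fin r) R} {z : Fin n → Matrix (Fin r) (Fin r) R}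
    (h : gpIsPt c d s x y z) :
    (∀ h, (x h).det = 1 ∧ (y h).det = 1) ∧ ∀ j, (z j).det = 1 := by
  obtain ⟨l, p, q, l', G, P, Pi, Q, Qi, h1, h2, hG0, hG, hPQ, hxy, hz⟩ := h
  have hcells := gp_cells_of_pt (g := g) (n := n) (fun k i => (gpE c d s k i : R)) l p q l'
    (fun k hk1 hk2 => (h1 k hk1 hk2).1) h2
  have hfr := gp_frames l p q l' G hcells hG0 hG
  have hP : ∀ k, (P k).det = 1 := by
    intro k
    rw [(hPQ k).1]
    exact (hfr k).2.2.2.1
  have hQ : ∀ k, (Q k).det = 1 := by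
    intro k
    rw [(hPQ k).2.1, (hPQ k).1]
    exact (hfr k).2.2.2.2.1
  have hPi : ∀ k, (Pi k).det = 1 := by
    intro k
    have h3 := congrArg Matrix.det (hPQ k).2.2.1
    rwa [Matrix.det_mul, hP k, one_mul, Matrix.det_one] at h3
  have hQi : ∀ k, (Qi k).det = 1 := by
    intro k
    have h3 := congrArg Matrix.det (hPQ k).2.2.2.2.1
    rwa [Matrix.det_mul, hQ k, one_mul, Matrix.det_one] at h3
  refine ⟨fun h => ⟨?_, ?_⟩, fun j => ?_⟩
  · rw [(hxy h).1, Matrix.det_mul, Matrix.det_mul, hQ, hQi, one_mul, mul_one]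
    unfold gpTt
    exact gpAnti_gpT_det _
  · rw [(hxy h).2, Matrix.det_mul, Matrix.det_mul, hP, hPi, one_mul, mul_one]
    unfold gpTt
    exact gpAnti_gpT_det _
  · rw [hz j, Matrix.det_mul, Matrix.det_mul, hQ, hPi, one_mul, mul_one, Matrix.det_diagonal,
      ← Units.coe_prod, Finset.prod_mul_distrib, Finset.prod_inv_distrib, hd j,
      gpE_prod hN c d hc hd s, inv_one, mul_one, Units.val_one]

end Vale.Agent.Lib.P002
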