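import Vale.Agent.Lib.P002.GWDefs

/-!
# Corner expansions of solid minors
-/

open Matrix

namespace Vale.Agent.Lib.P002

/-- Expansion of a determinant along its first column when only the lower left corner entry
changes. -/
theorem gwCornerAux_low {R : Type*} [CommRing R] {k : ℕ}
    (A A' : Matrix (Fin (k + 1)) (Fin (k + 1)) R)
    (h : ∀ s t, ¬ (s = Fin.last k ∧ t = 0) → A' s t = A s t) (h0 : A' (Fin.last k) 0 = 0) :
    A.det = A'.det + (-1) ^ k * A (Fin.last k) 0 * (A.submatrix Fin.castSucc Fin.succ).det := by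
  rw [Matrix.det_succ_column_zero A, Matrix.det_succ_column_zero A', Fin.sum_univ_castSucc,
    Fin.sum_univ_castSucc]
  rw [h0, mul_zero, zero_mul, add_zero, Fin.succAbove_last, Fin.val_last]
  congr 1
  apply Finset.sum_congr rfl
  intro s _
  have h1 : A' (Fin.castSucc s) 0 = A (Fin.castSucc s) 0 :=
    h _ _ (fun hh => (Fin.castSucc_lt_last s).ne hh.1)
  have h2 : A'.submatrix (Fin.castSucc s).succAbove Fin.succ =
      A.submatrix (Fin.castSucc s).succAbove Fin.succ := by
    ext a b
    exact h _ _ (fun hh => Fin.succ_ne_zero b hh.2)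
  rw [h1, h2]

/-- Expansion of a determinant along its first row when only the upper right corner entry
changes. -/
theorem gwCornerAux_up {R : Type*} [CommRing R] {k : ℕ}
    (A A' : Matrix (Fin (k + 1)) (Fin (k + 1)) R)
    (h : ∀ s t, ¬ (s = 0 ∧ t = Fin.last k) → A' s t = A s t) (h0 : A' 0 (Fin.last k) = 0) :
    A.det = A'.det + (-1) ^ k * A 0 (Fin.last k) * (A.submatrix Fin.succ Fin.castSucc).det := by
  rw [Matrix.det_succ_row_zero A, Matrix.det_succ_row_zero A', Fin.sum_univ_castSucc,
    Fin.sum_univ_castSucc]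
  rw [h0, mul_zero, zero_mul, add_zero, Fin.succAbove_last, Fin.val_last]
  congr 1
  apply Finset.sum_congr rfl
  intro s _
  have h1 : A' 0 (Fin.castSucc s) = A 0 (Fin.castSucc s) :=
    h _ _ (fun hh => (Fin.castSucc_lt_last s).ne hh.2)
  have h2 : A'.submatrix Fin.succ (Fin.castSucc s).succAbove =
      A.submatrix Fin.succ (Fin.castSucc s).succAbove := by
    ext a b
    exact h _ _ (fun hh => Fin.succ_ne_zero a hh.1)
  rw [h1, h2]

/-- Expansion of a solid minor with respect to its lower left corner entry. -/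
theorem gw_corner_low {R : Type*} [CommRing R] {r : ℕ} (X : Matrix (Fin r) (Fin r) R)
    (i j k : ℕ) (hi : i + k < r) (hj : j + k < r) :
    gwMinor X i j (k + 1) =
      gwMinor (Matrix.of fun a b : Fin r =>
        if a = ⟨i + k, hi⟩ ∧ b = ⟨j, by omega⟩ then 0 else X a b) i j (k + 1)
      + (-1) ^ k * X ⟨i + k, hi⟩ ⟨j, by omega⟩ * gwMinor X i (j + 1) k := by
  have hj0 : j < r := by omega
  unfold gwMinor
  rw [gwCornerAux_low _ _ (A' := Matrix.of fun s t : Fin (k + 1) =>
    if h : i + (s : ℕ) < r ∧ j + (t : ℕ) < r then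
      (Matrix.of fun a b : Fin r =>
        if a = ⟨i + k, hi⟩ ∧ b = ⟨j, by omega⟩ then 0 else X a b) ⟨i + s, h.1⟩ ⟨j + t, h.2⟩
    else 0)]
  · congr 1
    congr 1
    · congr 1
      simp [hi, hj0]
    · congr 1
      ext a b
      have ha := a.isLt
      have hb := b.isLt
      have h1 : i + (a : ℕ) < r ∧ j + ((b : ℕ) + 1) < r := ⟨by omega, by omega⟩
      have h2 : i + (a : ℕ) < r ∧ j + 1 + (b : ℕ) < r := ⟨by omega, by omega⟩
      simp only [Matrix.submatrix_apply, Matrix.of_apply, Fin.val_castSucc, Fin.val_succ]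
      rw [dif_pos h1, dif_pos h2]
      congr 1
      exact Fin.ext (by simp only []; omega)
  · simp [hi, hj0]
  · intro s t hst
    have hs := s.isLt
    have ht := t.isLt
    simp only [Matrix.of_apply]
    split_ifs with h1 h2
    · exfalso
      apply hst
      constructor
      · apply Fin.ext
        have := congrArg Fin.val h2.1
        simp only [Fin.val_last] at this ⊢
        omega
      · apply Fin.ext
        have := congrArg Fin.val h2.2
        simp only [Fin.val_zero] at this ⊢
        omega
    · rfl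
    · rfl

/-- Expansion of a solid minor with respect to its upper right corner entry. -/
theorem gw_corner_up {R : Type*} [CommRing R] {r : ℕ} (X : Matrix (Fin r) (Fin r) R)
    (i j k : ℕ) (hi : i + k < r) (hj : j + k < r) :
    gwMinor X i j (k + 1) =
      gwMinor (Matrix.of fun a b : Fin r =>
        if a = ⟨i, by omega⟩ ∧ b = ⟨j + k, hj⟩ then 0 else X a b) i j (k + 1)
      + (-1) ^ k * X ⟨i, by omega⟩ ⟨j + k, hj⟩ * gwMinor X (i + 1) j k := by
  have hi0 : i < r := by omega
  unfold gwMinor
  rw [gwCornerAux_up _ _ (A' := Matrix.of fun s t : Fin (k + 1) =>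
    if h : i + (s : ℕ) < r ∧ j + (t : ℕ) < r then
      (Matrix.of fun a b : Fin r =>
        if a = ⟨i, by omega⟩ ∧ b = ⟨j + k, hj⟩ then 0 else X a b) ⟨i + s, h.1⟩ ⟨j + t, h.2⟩
    else 0)]
  · congr 1
    congr 1
    · congr 1
      simp [hi0, hj]
    · congr 1
      ext a b
      have ha := a.isLt
      have hb := b.isLt
      have h1 : i + ((a : ℕ) + 1) < r ∧ j + (b : ℕ) < r := ⟨by omega, by omega⟩
      have h2 : i + 1 + (a : ℕ) < r ∧ j + (b : ℕ) < r := ⟨by omega, by omega⟩
      simp only [Matrix.submatrix_apply, Matrix.of_apply, Fin.val_castSucc, Fin.val_succ]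
      rw [dif_pos h1, dif_pos h2]
      have e : (⟨i + ((a : ℕ) + 1), h1.1⟩ : Fin r) = ⟨i + 1 + (a : ℕ), h2.1⟩ :=
        Fin.ext (by simp only []; omega)
      rw [e]
  · simp [hi0, hj]
  · intro s t hst
    have hs := s.isLt
    have ht := t.isLt
    simp only [Matrix.of_apply]
    split_ifs with h1 h2
    · exfalso
      apply hst
      constructor
      · apply Fin.ext
        have := congrArg Fin.val h2.1
        simp only [Fin.val_zero] at this ⊢
        omega
      · apply Fin.ext
        have := congrArg Fin.val h2.2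
        simp only [Fin.val_last] at this ⊢
        omega
    · rfl
    · rfl

end Vale.Agent.Lib.P002
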