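import Vale.Agent.Lib.P002.GWDefs
import Vale.Agent.Lib.P002.GWCorner

/-!
# Existence of a matrix with prescribed wall minors
-/

open Matrix

namespace Vale.Agent.Lib.P002

/-- The stage recursion: `gwExAux_psi r z k` has the prescribed wall minors of size at most
`k` and vanishes at all entries of stage larger than `k`. -/
noncomputable def gwExAux_psi {R : Type*} [CommRing R] (r : ℕ) (z : ℕ → ℕ → ℕ → Rˣ) :
    ℕ → Matrix (Fin r) (Fin r) R
  | 0 => 0
  | k + 1 => Matrix.of fun a b =>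
      if a.val = b.val + k then
        ((z 0 b.val (k + 1) : R) - gwMinor (gwExAux_psi r z k) b.val b.val (k + 1)) * (-1) ^ k *
          (((if k = 0 then 1 else z 1 b.val k : Rˣ)⁻¹ : Rˣ) : R)
      else if b.val = a.val + k + 1 then
        ((z 1 a.val (k + 1) : R) - gwMinor (gwExAux_psi r z k) a.val (a.val + 1) (k + 1)) *
          (-1) ^ k * (((if k = 0 then 1 else z 0 (a.val + 1) k : Rˣ)⁻¹ : Rˣ) : R)
      else gwExAux_psi r z k a b

theorem gwExAux_psi_low {R : Type*} [CommRing R] (r : ℕ) (z : ℕ → ℕ → ℕ → Rˣ) (k : ℕ)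
    (a b : Fin r) (h : a.val = b.val + k) :
    gwExAux_psi r z (k + 1) a b =
      ((z 0 b.val (k + 1) : R) - gwMinor (gwExAux_psi r z k) b.val b.val (k + 1)) * (-1) ^ k *
        (((if k = 0 then 1 else z 1 b.val k : Rˣ)⁻¹ : Rˣ) : R) := by
  rw [gwExAux_psi, Matrix.of_apply, if_pos h]

theorem gwExAux_psi_up {R : Type*} [CommRing R] (r : ℕ) (z : ℕ → ℕ → ℕ → Rˣ) (k : ℕ)
    (a b : Fin r) (h : b.val = a.val + k + 1) :
    gwExAux_psi r z (k + 1) a b =
      ((z 1 a.val (k + 1) : R) - gwMinor (gwExAux_psi r z k) a.val (a.val + 1) (k + 1)) *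
        (-1) ^ k * (((if k = 0 then 1 else z 0 (a.val + 1) k : Rˣ)⁻¹ : Rˣ) : R) := by
  have h' : ¬ a.val = b.val + k := by omega
  rw [gwExAux_psi, Matrix.of_apply, if_neg h', if_pos h]

theorem gwExAux_psi_keep {R : Type*} [CommRing R] (r : ℕ) (z : ℕ → ℕ → ℕ → Rˣ) (k : ℕ)
    (a b : Fin r) (h1 : ¬ a.val = b.val + k) (h2 : ¬ b.val = a.val + k + 1) :
    gwExAux_psi r z (k + 1) a b = gwExAux_psi r z k a b := by
  rw [gwExAux_psi, Matrix.of_apply, if_neg h1, if_neg h2]

theorem gwExAux_psi_stage {R : Type*} [CommRing R] (r : ℕ) (z : ℕ → ℕ → ℕ → Rˣ) :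
    ∀ (k : ℕ) (a b : Fin r),
      ((b.val ≤ a.val ∧ k ≤ a.val - b.val) ∨ (a.val < b.val ∧ k < b.val - a.val)) →
      gwExAux_psi r z k a b = 0 := by
  intro k
  induction k with
  | zero =>
    intro a b _
    rw [gwExAux_psi, Matrix.zero_apply]
  | succ k ih =>
    intro a b h
    rw [gwExAux_psi_keep r z k a b (by omega) (by omega)]
    exact ih a b (by omega)

theorem gwExAux_alg {R : Type*} [CommRing R] (D zv : R) (k : ℕ) (u : Rˣ) :
    D + (-1) ^ k * ((zv - D) * (-1) ^ k * ((u⁻¹ : Rˣ) : R)) * (u : R) = zv := by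
  have hu : ((u⁻¹ : Rˣ) : R) * (u : R) = 1 := Units.inv_mul u
  have hs : (-1 : R) ^ k * (-1) ^ k = 1 := by
    rw [← mul_pow]
    simp
  linear_combination (zv - D) * ((u⁻¹ : Rˣ) : R) * (u : R) * hs + (zv - D) * hu

theorem gwExAux_step_low {R : Type*} [CommRing R] (r : ℕ) (z : ℕ → ℕ → ℕ → Rˣ) (k i : ℕ)
    (hr : i + (k + 1) ≤ r)
    (ih : 1 ≤ k → gwMinor (gwExAux_psi r z k) i (i + 1) k = (z 1 i k : R)) :
    gwMinor (gwExAux_psi r z (k + 1)) i i (k + 1) = (z 0 i (k + 1) : R) := by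
  have hi : i + k < r := by omega
  have hi0 : i < r := by omega
  have hZ : gwMinor (Matrix.of fun a b : Fin r =>
        if a = ⟨i + k, hi⟩ ∧ b = ⟨i, hi0⟩ then 0 else gwExAux_psi r z (k + 1) a b) i i (k + 1)
      = gwMinor (gwExAux_psi r z k) i i (k + 1) := by
    refine gwMinor_congr _ _ _ _ _ fun a b h1 h2 h3 h4 => ?_
    rw [Matrix.of_apply]
    split_ifs with hc
    · obtain ⟨rfl, rfl⟩ := hc
      symm
      apply gwExAux_psi_stage
      left
      constructor
      · show i ≤ i + k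
        omega
      · show k ≤ i + k - i
        omega
    · apply gwExAux_psi_keep
      · intro h
        apply hc
        constructor
        · apply Fin.ext
          show a.val = i + k
          omega
        · apply Fin.ext
          show b.val = i
          omega
      · omega
  have hcorner : gwExAux_psi r z (k + 1) ⟨i + k, hi⟩ ⟨i, hi0⟩
      = ((z 0 i (k + 1) : R) - gwMinor (gwExAux_psi r z k) i i (k + 1)) * (-1) ^ k *
        (((if k = 0 then 1 else z 1 i k : Rˣ)⁻¹ : Rˣ) : R) :=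
    gwExAux_psi_low r z k ⟨i + k, hi⟩ ⟨i, hi0⟩ rfl
  have hcof : gwMinor (gwExAux_psi r z (k + 1)) i (i + 1) k
      = ((if k = 0 then 1 else z 1 i k : Rˣ) : R) := by
    have h1 : gwMinor (gwExAux_psi r z (k + 1)) i (i + 1) k
        = gwMinor (gwExAux_psi r z k) i (i + 1) k :=
      gwMinor_congr _ _ _ _ _ fun a b h1 h2 h3 h4 =>
        gwExAux_psi_keep r z k a b (by omega) (by omega)
    rw [h1]
    by_cases hk0 : k = 0
    · subst hk0
      rw [gwMinor_zero]
      simp
    · rw [if_neg hk0]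
      exact ih (by omega)
  rw [gw_corner_low (gwExAux_psi r z (k + 1)) i i k hi hi, hZ, hcorner, hcof]
  exact gwExAux_alg _ _ k _

theorem gwExAux_step_up {R : Type*} [CommRing R] (r : ℕ) (z : ℕ → ℕ → ℕ → Rˣ) (k i : ℕ)
    (hr : i + 1 + (k + 1) ≤ r)
    (ih : 1 ≤ k → gwMinor (gwExAux_psi r z k) (i + 1) (i + 1) k = (z 0 (i + 1) k : R)) :
    gwMinor (gwExAux_psi r z (k + 1)) i (i + 1) (k + 1) = (z 1 i (k + 1) : R) := by
  have hi : i + k < r := by omega
  have hj : i + 1 + k < r := by omega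
  have hi0 : i < r := by omega
  have hZ : gwMinor (Matrix.of fun a b : Fin r =>
        if a = ⟨i, hi0⟩ ∧ b = ⟨i + 1 + k, hj⟩ then 0 else gwExAux_psi r z (k + 1) a b)
        i (i + 1) (k + 1)
      = gwMinor (gwExAux_psi r z k) i (i + 1) (k + 1) := by
    refine gwMinor_congr _ _ _ _ _ fun a b h1 h2 h3 h4 => ?_
    rw [Matrix.of_apply]
    split_ifs with hc
    · obtain ⟨rfl, rfl⟩ := hc
      symm
      apply gwExAux_psi_stage
      right
      constructor
      · show i < i + 1 + k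
        omega
      · show k < i + 1 + k - i
        omega
    · apply gwExAux_psi_keep
      · omega
      · intro h
        apply hc
        constructor
        · apply Fin.ext
          show a.val = i
          omega
        · apply Fin.ext
          show b.val = i + 1 + k
          omega
  have hcorner : gwExAux_psi r z (k + 1) ⟨i, hi0⟩ ⟨i + 1 + k, hj⟩
      = ((z 1 i (k + 1) : R) - gwMinor (gwExAux_psi r z k) i (i + 1) (k + 1)) * (-1) ^ k *
        (((if k = 0 then 1 else z 0 (i + 1) k : Rˣ)⁻¹ : Rˣ) : R) :=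
    gwExAux_psi_up r z k ⟨i, hi0⟩ ⟨i + 1 + k, hj⟩ (by show i + 1 + k = i + k + 1; omega)
  have hcof : gwMinor (gwExAux_psi r z (k + 1)) (i + 1) (i + 1) k
      = ((if k = 0 then 1 else z 0 (i + 1) k : Rˣ) : R) := by
    have h1 : gwMinor (gwExAux_psi r z (k + 1)) (i + 1) (i + 1) k
        = gwMinor (gwExAux_psi r z k) (i + 1) (i + 1) k :=
      gwMinor_congr _ _ _ _ _ fun a b h1 h2 h3 h4 =>
        gwExAux_psi_keep r z k a b (by omega) (by omega)
    rw [h1]
    by_cases hk0 : k = 0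
    · subst hk0
      rw [gwMinor_zero]
      simp
    · rw [if_neg hk0]
      exact ih (by omega)
  rw [gw_corner_up (gwExAux_psi r z (k + 1)) i (i + 1) k hi hj, hZ, hcorner, hcof]
  exact gwExAux_alg _ _ k _

theorem gwExAux_minor {R : Type*} [CommRing R] (r : ℕ) (z : ℕ → ℕ → ℕ → Rˣ) :
    ∀ (k δ i k' : ℕ), δ ≤ 1 → 1 ≤ k' → k' ≤ k → i + δ + k' ≤ r →
      gwMinor (gwExAux_psi r z k) i (i + δ) k' = (z δ i k' : R) := by
  intro k
  induction k with
  | zero =>
    intro δ i k' _ h1 h2 _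
    omega
  | succ k ih =>
    intro δ i k' hδ h1 h2 hr
    by_cases hk : k' ≤ k
    · have h3 : gwMinor (gwExAux_psi r z (k + 1)) i (i + δ) k'
          = gwMinor (gwExAux_psi r z k) i (i + δ) k' :=
        gwMinor_congr _ _ _ _ _ fun a b h1 h2 h3 h4 =>
          gwExAux_psi_keep r z k a b (by omega) (by omega)
      rw [h3]
      exact ih δ i k' hδ h1 hk hr
    · obtain rfl : k' = k + 1 := by omega
      obtain rfl | rfl : δ = 0 ∨ δ = 1 := by omega
      · exact gwExAux_step_low r z k i (by omega)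
          (fun hk1 => ih 1 i k le_rfl hk1 le_rfl (by omega))
      · exact gwExAux_step_up r z k i (by omega)
          (fun hk1 => ih 0 (i + 1) k (by omega) hk1 le_rfl (by omega))

/-- For any family of units `z` there is a square matrix whose solid minors on the diagonal
(`δ = 0`) and on the superdiagonal (`δ = 1`) are the prescribed units. -/
theorem gw_wall_exists {R : Type*} [CommRing R] (r : ℕ) (z : ℕ → ℕ → ℕ → Rˣ) :
    ∃ X : Matrix (Fin r) (Fin r) R, ∀ δ i k : ℕ, δ ≤ 1 → 1 ≤ k → i + δ + k ≤ r →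
      gwMinor X i (i + δ) k = (z δ i k : R) :=
  ⟨gwExAux_psi r z r, fun δ i k hδ hk hr =>
    gwExAux_minor r z r δ i k hδ hk (by omega) hr⟩

end Vale.Agent.Lib.P002
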