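import Vale.Agent.Lib.P002.GWDefs

/-!
# LU decomposition over a commutative ring
-/

open Matrix

namespace Vale.Agent.Lib.P002

/-- The leading principal minors of the leading principal block of size `r` are those of the
matrix. -/
theorem gwLUAux_minor_sub {R : Type*} [CommRing R] (r : ℕ)
    (X : Matrix (Fin (r + 1)) (Fin (r + 1)) R) (k : ℕ) (hk : k ≤ r) :
    gwMinor (X.submatrix Fin.castSucc Fin.castSucc) 0 0 k = gwMinor X 0 0 k := by
  unfold gwMinor
  congr 1
  ext s t
  simp only [Matrix.of_apply]
  have hs : 0 + (s : ℕ) < r := by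
    have := s.2
    omega
  have ht : 0 + (t : ℕ) < r := by
    have := t.2
    omega
  have hs' : 0 + (s : ℕ) < r + 1 := by omega
  have ht' : 0 + (t : ℕ) < r + 1 := by omega
  rw [dif_pos ⟨hs, ht⟩, dif_pos ⟨hs', ht'⟩]
  rfl

/-- The leading principal minor of full size is the determinant. -/
theorem gwLUAux_minor_full {R : Type*} [CommRing R] (r : ℕ) (X : Matrix (Fin r) (Fin r) R) :
    gwMinor X 0 0 r = X.det := by
  unfold gwMinor
  congr 1
  ext s t
  simp only [Matrix.of_apply]
  have hs : 0 + (s : ℕ) < r := by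
    have := s.2
    omega
  have ht : 0 + (t : ℕ) < r := by
    have := t.2
    omega
  have e1 : (⟨0 + (s : ℕ), hs⟩ : Fin r) = s := Fin.ext (Nat.zero_add _)
  have e2 : (⟨0 + (t : ℕ), ht⟩ : Fin r) = t := Fin.ext (Nat.zero_add _)
  rw [dif_pos ⟨hs, ht⟩, e1, e2]

/-- The matrix of size `r + 1` with leading block `A`, last column `col`, last row `row` and
corner `x`. -/
def gwLUAux_glue {R : Type*} {r : ℕ} (A : Matrix (Fin r) (Fin r) R) (col row : Fin r → R)
    (x : R) : Matrix (Fin (r + 1)) (Fin (r + 1)) R :=
  Matrix.of fun a b => Fin.lastCases (motive := fun _ => R)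
    (Fin.lastCases (motive := fun _ => R) x (fun j => row j) b)
    (fun i => Fin.lastCases (motive := fun _ => R) (col i) (fun j => A i j) b) a

theorem gwLUAux_glue_cc {R : Type*} {r : ℕ} (A : Matrix (Fin r) (Fin r) R)
    (col row : Fin r → R) (x : R) (i j : Fin r) :
    gwLUAux_glue A col row x (Fin.castSucc i) (Fin.castSucc j) = A i j := by
  simp [gwLUAux_glue]

theorem gwLUAux_glue_cl {R : Type*} {r : ℕ} (A : Matrix (Fin r) (Fin r) R)
    (col row : Fin r → R) (x : R) (i : Fin r) :
    gwLUAux_glue A col row x (Fin.castSucc i) (Fin.last r) = col i := by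
  simp [gwLUAux_glue]

theorem gwLUAux_glue_lc {R : Type*} {r : ℕ} (A : Matrix (Fin r) (Fin r) R)
    (col row : Fin r → R) (x : R) (j : Fin r) :
    gwLUAux_glue A col row x (Fin.last r) (Fin.castSucc j) = row j := by
  simp [gwLUAux_glue]

theorem gwLUAux_glue_ll {R : Type*} {r : ℕ} (A : Matrix (Fin r) (Fin r) R)
    (col row : Fin r → R) (x : R) :
    gwLUAux_glue A col row x (Fin.last r) (Fin.last r) = x := by
  simp [gwLUAux_glue]

/-- The induction step: an LU decomposition of the leading block of size `r`, whose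
determinant is a unit, extends to the matrix of size `r + 1`. -/
theorem gwLUAux_step {R : Type*} [CommRing R] (r : ℕ)
    (X : Matrix (Fin (r + 1)) (Fin (r + 1)) R)
    (hdet : IsUnit (X.submatrix Fin.castSucc Fin.castSucc).det)
    (l' n' : Matrix (Fin r) (Fin r) R) (hl : l'.IsLowerTriangular)
    (hn : n'.IsUpperTriangular) (hn1 : ∀ i, n' i i = 1)
    (hX : X.submatrix Fin.castSucc Fin.castSucc = l' * n') :
    ∃ l n : Matrix (Fin (r + 1)) (Fin (r + 1)) R, l.IsLowerTriangular ∧
      n.IsUpperTriangular ∧ (∀ i, n i i = 1) ∧ X = l * n := by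
  have hdet2 : IsUnit (l'.det * n'.det) := by
    rw [← Matrix.det_mul, ← hX]
    exact hdet
  have hl' : IsUnit l'.det := isUnit_of_mul_isUnit_left hdet2
  have hn' : IsUnit n'.det := isUnit_of_mul_isUnit_right hdet2
  obtain ⟨w, hw⟩ : ∃ w : Fin r → R,
      l' *ᵥ w = fun i => X (Fin.castSucc i) (Fin.last r) := by
    refine ⟨l'⁻¹ *ᵥ (fun i => X (Fin.castSucc i) (Fin.last r)), ?_⟩
    rw [Matrix.mulVec_mulVec, Matrix.mul_nonsing_inv l' hl', Matrix.one_mulVec]
  obtain ⟨v, hv⟩ : ∃ v : Fin r → R,
      v ᵥ* n' = fun j => X (Fin.last r) (Fin.castSucc j) := by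
    refine ⟨(fun j => X (Fin.last r) (Fin.castSucc j)) ᵥ* n'⁻¹, ?_⟩
    rw [Matrix.vecMul_vecMul, Matrix.nonsing_inv_mul n' hn', Matrix.vecMul_one]
  refine ⟨gwLUAux_glue l' (fun _ => 0) v (X (Fin.last r) (Fin.last r) - v ⬝ᵥ w),
    gwLUAux_glue n' w (fun _ => 0) 1, ?_, ?_, ?_, ?_⟩
  · intro a b hab
    have hab' : a < b := OrderDual.toDual_lt_toDual.mp hab
    induction a using Fin.lastCases with
    | last => exact absurd hab' (not_lt.mpr (Fin.le_last b))
    | cast i =>
      induction b using Fin.lastCases with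
      | last => rw [gwLUAux_glue_cl]
      | cast j =>
        rw [gwLUAux_glue_cc]
        have hij : i < j := Fin.castSucc_lt_castSucc_iff.mp hab'
        exact hl (OrderDual.toDual_lt_toDual.mpr hij)
  · intro a b hab
    have hab' : b < a := hab
    induction a using Fin.lastCases with
    | last =>
      induction b using Fin.lastCases with
      | last => exact absurd hab' (lt_irrefl _)
      | cast j => rw [gwLUAux_glue_lc]
    | cast i =>
      induction b using Fin.lastCases with
      | last => exact absurd hab' (lt_asymm (Fin.castSucc_lt_last i))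
      | cast j =>
        rw [gwLUAux_glue_cc]
        have hji : j < i := Fin.castSucc_lt_castSucc_iff.mp hab'
        exact hn (show id j < id i from hji)
  · intro a
    induction a using Fin.lastCases with
    | last => rw [gwLUAux_glue_ll]
    | cast i => rw [gwLUAux_glue_cc, hn1]
  · ext a b
    rw [Matrix.mul_apply, Fin.sum_univ_castSucc]
    induction a using Fin.lastCases with
    | last =>
      induction b using Fin.lastCases with
      | last =>
        simp only [gwLUAux_glue_lc, gwLUAux_glue_cl, gwLUAux_glue_ll]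
        have e : v ⬝ᵥ w = ∑ k, v k * w k := rfl
        rw [e]
        ring
      | cast j =>
        simp only [gwLUAux_glue_lc, gwLUAux_glue_cc, gwLUAux_glue_ll]
        have e : (v ᵥ* n') j = ∑ k, v k * n' k j := rfl
        rw [mul_zero, add_zero, ← e, hv]
    | cast i =>
      induction b using Fin.lastCases with
      | last =>
        simp only [gwLUAux_glue_cl, gwLUAux_glue_cc, gwLUAux_glue_ll]
        have e : (l' *ᵥ w) i = ∑ k, l' i k * w k := rfl
        rw [zero_mul, add_zero, ← e, hw]
      | cast j =>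
        simp only [gwLUAux_glue_cl, gwLUAux_glue_cc, gwLUAux_glue_lc]
        have e : (l' * n') i j = ∑ k, l' i k * n' k j := Matrix.mul_apply
        rw [mul_zero, add_zero, ← e, ← hX]
        rfl

/-- A square matrix whose leading principal minors are units is a product of a lower triangular
matrix and an upper triangular matrix with unit diagonal. -/
theorem gw_lu_exists {R : Type*} [CommRing R] (r : ℕ) (X : Matrix (Fin r) (Fin r) R)
    (h : ∀ k, k ≤ r → IsUnit (gwMinor X 0 0 k)) :
    ∃ l n : Matrix (Fin r) (Fin r) R, l.IsLowerTriangular ∧ n.IsUpperTriangular ∧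
      (∀ i, n i i = 1) ∧ X = l * n := by
  induction r with
  | zero =>
    refine ⟨1, 1, ?_, ?_, fun i => i.elim0, ?_⟩
    · intro i
      exact i.elim0
    · intro i
      exact i.elim0
    · ext i
      exact i.elim0
  | succ r ih =>
    have hsub : ∀ k, k ≤ r →
        IsUnit (gwMinor (X.submatrix Fin.castSucc Fin.castSucc) 0 0 k) := by
      intro k hk
      rw [gwLUAux_minor_sub r X k hk]
      exact h k (Nat.le_succ_of_le hk)
    obtain ⟨l', n', hl, hn, hn1, hX⟩ := ih (X.submatrix Fin.castSucc Fin.castSucc) hsub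
    have hdet : IsUnit (X.submatrix Fin.castSucc Fin.castSucc).det := by
      rw [← gwLUAux_minor_full]
      exact hsub r le_rfl
    exact gwLUAux_step r X hdet l' n' hl hn hn1 hX

end Vale.Agent.Lib.P002
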