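import Vale.Agent.Lib.P002.GWDefs
import Vale.Agent.Lib.P002.GWLU

/-!
# UL decomposition over a commutative ring
-/

open Matrix

namespace Vale.Agent.Lib.P002

/-- The leading principal minors of the reversed transposed matrix are the trailing principal
minors of the matrix. -/
theorem gwULAux_minor {R : Type*} [CommRing R] (r : ℕ) (X : Matrix (Fin r) (Fin r) R) (k : ℕ)
    (hk : k ≤ r) :
    gwMinor (Matrix.of fun a b : Fin r => X (Fin.rev b) (Fin.rev a)) 0 0 k
      = gwMinor X (r - k) (r - k) k := by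
  unfold gwMinor
  rw [← Matrix.det_submatrix_equiv_self Fin.revPerm (Matrix.of fun s t : Fin k =>
    if h : r - k + (s : ℕ) < r ∧ r - k + (t : ℕ) < r then X ⟨r - k + s, h.1⟩ ⟨r - k + t, h.2⟩
    else 0), ← Matrix.det_transpose]
  congr 1
  ext s t
  have hs := s.isLt
  have ht := t.isLt
  simp only [Matrix.of_apply, Matrix.transpose_apply, Matrix.submatrix_apply, Fin.revPerm_apply]
  have h1 : 0 + (t : ℕ) < r ∧ 0 + (s : ℕ) < r := ⟨by omega, by omega⟩
  have h2 : r - k + ((Fin.rev s : Fin k) : ℕ) < r ∧ r - k + ((Fin.rev t : Fin k) : ℕ) < r := by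
    rw [Fin.val_rev, Fin.val_rev]
    constructor <;> omega
  rw [dif_pos h1, dif_pos h2]
  congr 1
  · apply Fin.ext
    simp only [Fin.val_rev]
    omega
  · apply Fin.ext
    simp only [Fin.val_rev]
    omega

/-- A square matrix whose trailing principal minors are units is a product of an upper
triangular matrix with unit diagonal and a lower triangular matrix. -/
theorem gw_ul_exists {R : Type*} [CommRing R] (r : ℕ) (X : Matrix (Fin r) (Fin r) R)
    (h : ∀ k, k ≤ r → IsUnit (gwMinor X (r - k) (r - k) k)) :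
    ∃ q l : Matrix (Fin r) (Fin r) R, q.IsUpperTriangular ∧ (∀ i, q i i = 1) ∧
      l.IsLowerTriangular ∧ X = q * l := by
  obtain ⟨l0, n0, hl0, hn0, hn1, hY⟩ :=
    gw_lu_exists r (Matrix.of fun a b : Fin r => X (Fin.rev b) (Fin.rev a))
      (fun k hk => by
        rw [gwULAux_minor r X k hk]
        exact h k hk)
  refine ⟨Matrix.of fun a b => n0 (Fin.rev b) (Fin.rev a),
    Matrix.of fun a b => l0 (Fin.rev b) (Fin.rev a), ?_, ?_, ?_, ?_⟩
  · intro i j hij
    have hij' : j < i := hij
    exact hn0 (show id (Fin.rev i) < id (Fin.rev j) from Fin.rev_lt_rev.mpr hij')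
  · intro i
    exact hn1 _
  · intro i j hij
    have hij' : i < j := hij
    exact hl0 (show OrderDual.toDual (Fin.rev i) < OrderDual.toDual (Fin.rev j) from
      OrderDual.toDual_lt_toDual.mpr (Fin.rev_lt_rev.mpr hij'))
  · ext a b
    have h1 := congrFun (congrFun hY (Fin.rev b)) (Fin.rev a)
    simp only [Matrix.of_apply, Fin.rev_rev] at h1
    rw [h1, Matrix.mul_apply, Matrix.mul_apply, ← Equiv.sum_comp Fin.revPerm]
    refine Finset.sum_congr rfl fun j _ => ?_
    simp only [Matrix.of_apply, Fin.revPerm_apply]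
    ring

end Vale.Agent.Lib.P002
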