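import Vale.Agent.Lib.P002.GWDefs
import Vale.Agent.Lib.P002.GWExist
import Vale.Agent.Lib.P002.GWLU
import Vale.Agent.Lib.P002.GWUL
import Vale.Agent.Lib.P002.GWLead

/-!
# Existence of cells with prescribed diagonals and prescribed free wall minors
-/

open Matrix

namespace Vale.Agent.Lib.P002

/-- The prescribed wall minors: products of the `b` on the leading principal minors, products
of the `e` on the trailing principal minors, and the free family elsewhere. -/
noncomputable def gwCellEAux_z {R : Type*} [CommRing R] (r : ℕ) (b e : Fin r → Rˣ)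
    (fr : ℕ → ℕ → ℕ → Rˣ) : ℕ → ℕ → ℕ → Rˣ := fun δ i k =>
  if δ = 0 ∧ i = 0 then
    (if hk : k ≤ r then ∏ t : Fin k, b (Fin.castLE hk t) else 1)
  else if δ = 0 ∧ i + k = r then
    (if hk : k ≤ r then
      ∏ t : Fin k, e ⟨r - k + t, by have := t.isLt; omega⟩ else 1)
  else fr δ i k

/-- The diagonal of a matrix is determined by the products of its leading diagonal entries,
when these are units. -/
theorem gwCellEAux_diag_lead {R : Type*} [CommRing R] (r : ℕ) (l : Matrix (Fin r) (Fin r) R)
    (b : Fin r → Rˣ)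
    (h : ∀ (k : ℕ) (hk : k ≤ r), ∏ t : Fin k, l (Fin.castLE hk t) (Fin.castLE hk t) =
      ∏ t : Fin k, (b (Fin.castLE hk t) : R)) :
    ∀ i, l i i = (b i : R) := by
  intro i
  have hi : (i : ℕ) ≤ r := i.isLt.le
  have hi1 : (i : ℕ) + 1 ≤ r := i.isLt
  have h0 := h i hi
  have h1 := h (i + 1) hi1
  rw [Fin.prod_univ_castSucc, Fin.prod_univ_castSucc] at h1
  have e1 : ∀ t : Fin (i : ℕ), Fin.castLE hi1 (Fin.castSucc t) = Fin.castLE hi t := fun t => rfl
  have e2 : Fin.castLE hi1 (Fin.last (i : ℕ)) = i := Fin.ext rfl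
  simp only [e1, e2] at h1
  rw [h0] at h1
  have hu : IsUnit (∏ t : Fin (i : ℕ), (b (Fin.castLE hi t) : R)) := by
    rw [← Units.coe_prod]
    exact Units.isUnit _
  exact hu.mul_left_cancel h1

/-- The diagonal of a matrix is determined by the products of its trailing diagonal entries,
when these are units. -/
theorem gwCellEAux_diag_trail {R : Type*} [CommRing R] (r : ℕ) (l : Matrix (Fin r) (Fin r) R)
    (e : Fin r → Rˣ)
    (h : ∀ (k : ℕ) (hk : k ≤ r),
      ∏ t : Fin k, l ⟨r - k + t, by have := t.isLt; omega⟩ ⟨r - k + t, by have := t.isLt; omega⟩ =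
      ∏ t : Fin k, (e ⟨r - k + t, by have := t.isLt; omega⟩ : R)) :
    ∀ i, l i i = (e i : R) := by
  intro i
  have hi := i.isLt
  obtain ⟨k, hk⟩ : ∃ k : ℕ, k = r - (i : ℕ) - 1 := ⟨_, rfl⟩
  have hk0 : k ≤ r := by omega
  have hk1 : k + 1 ≤ r := by omega
  have h0 := h k hk0
  have h1 := h (k + 1) hk1
  rw [Fin.prod_univ_succ, Fin.prod_univ_succ] at h1
  have e1 : ∀ t : Fin k, (⟨r - (k + 1) + ((Fin.succ t : Fin (k + 1)) : ℕ),
      by have := t.isLt; simp only [Fin.val_succ]; omega⟩ : Fin r) =
      ⟨r - k + t, by have := t.isLt; omega⟩ := by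
    intro t
    apply Fin.ext
    have := t.isLt
    simp only [Fin.val_succ]
    omega
  have e2 : (⟨r - (k + 1) + ((0 : Fin (k + 1)) : ℕ), by simp only [Fin.val_zero]; omega⟩ : Fin r)
      = i := by
    apply Fin.ext
    simp only [Fin.val_zero]
    omega
  simp only [e1, e2] at h1
  rw [h0] at h1
  have hu : IsUnit (∏ t : Fin k, (e ⟨r - k + t, by have := t.isLt; omega⟩ : R)) := by
    rw [← Units.coe_prod]
    exact Units.isUnit _
  exact hu.mul_right_cancel h1

/-- For units `b, e` with equal products and any family of units `fr` there is a cell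
`l * p = q * l'` with diagonals `b` (of `l`) and `e` (of `l'`) whose wall minors other than the
leading and trailing principal ones are given by `fr`. -/
theorem gw_cell_exists {R : Type*} [CommRing R] (r : ℕ) (b e : Fin r → Rˣ)
    (hbe : ∏ i, b i = ∏ i, e i) (fr : ℕ → ℕ → ℕ → Rˣ) :
    ∃ l p q l' : Matrix (Fin r) (Fin r) R,
      gwCell (fun i => (b i : R)) (fun i => (e i : R)) l p q l' ∧
      ∀ δ i k : ℕ, δ ≤ 1 → 1 ≤ k → i + δ + k ≤ r → ¬ (δ = 0 ∧ (i = 0 ∨ i + k = r)) →
        gwMinor (l * p) i (i + δ) k = (fr δ i k : R) := by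
  obtain ⟨X, hX⟩ := gw_wall_exists (R := R) r (gwCellEAux_z r b e fr)
  -- leading principal minors
  have hlead : ∀ (k : ℕ) (hk : k ≤ r),
      gwMinor X 0 0 k = ((∏ t : Fin k, b (Fin.castLE hk t) : Rˣ) : R) := by
    intro k hk
    rcases Nat.eq_zero_or_pos k with h0 | h0
    · subst h0
      rw [gwMinor_zero]
      simp
    · have h1 := hX 0 0 k (by omega) h0 (by omega)
      simp only [add_zero] at h1
      rw [h1]
      simp only [gwCellEAux_z, true_and, if_true, dif_pos hk]
  -- trailing principal minors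
  have htrail : ∀ (k : ℕ) (hk : k ≤ r),
      gwMinor X (r - k) (r - k) k =
        ((∏ t : Fin k, e ⟨r - k + t, by have := t.isLt; omega⟩ : Rˣ) : R) := by
    intro k hk
    rcases Nat.eq_zero_or_pos k with h0 | h0
    · subst h0
      rw [gwMinor_zero]
      simp
    · have h1 := hX 0 (r - k) k (by omega) h0 (by omega)
      simp only [add_zero] at h1
      rw [h1]
      by_cases hkr : k = r
      · subst hkr
        have hz : gwCellEAux_z k b e fr 0 (k - k) k = ∏ t : Fin k, b t := by
          simp only [gwCellEAux_z, Nat.sub_self, true_and, if_true, dif_pos le_rfl]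
          rfl
        rw [hz, hbe]
        congr 1
        apply Finset.prod_congr rfl
        intro t _
        congr 1
        apply Fin.ext
        simp
      · have hne : ¬ (r - k = 0) := by omega
        have hyes : r - k + k = r := by omega
        simp only [gwCellEAux_z, true_and, if_neg hne, if_pos hyes, dif_pos hk]
  obtain ⟨l, p, hl, hp, hp1, hXlp⟩ := gw_lu_exists r X
    (fun k hk => by rw [hlead k hk]; exact Units.isUnit _)
  obtain ⟨q, l', hq, hq1, hl', hXql⟩ := gw_ul_exists r X
    (fun k hk => by rw [htrail k hk]; exact Units.isUnit _)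
  refine ⟨l, p, q, l', ⟨hl, ?_, hp, hp1, hq, hq1, hl', ?_, ?_⟩, ?_⟩
  · apply gwCellEAux_diag_lead r l b
    intro k hk
    rw [← gw_lead_mul r l p hl hp hp1 k hk, ← hXlp, hlead k hk, Units.coe_prod]
  · apply gwCellEAux_diag_trail r l' e
    intro k hk
    rw [← gw_trail_mul r q l' hq hq1 hl' k hk, ← hXql, htrail k hk, Units.coe_prod]
  · rw [← hXlp, ← hXql]
  · intro δ i k hδ hk1 hik hnot
    rw [← hXlp, hX δ i k hδ hk1 hik]
    have hne1 : ¬ (δ = 0 ∧ i = 0) := fun hc => hnot ⟨hc.1, Or.inl hc.2⟩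
    have hne2 : ¬ (δ = 0 ∧ i + k = r) := fun hc => hnot ⟨hc.1, Or.inr hc.2⟩
    simp only [gwCellEAux_z, if_neg hne1, if_neg hne2]

end Vale.Agent.Lib.P002
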