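import Vale.Agent.Lib.P002.GPSolve
import Vale.Agent.Lib.P002.GPFrames
import Vale.Agent.Lib.P002.GWCellE

/-!
# Existence of the chart point for all parameters
-/

open Matrix

namespace Vale.Agent.Lib.P002

/-- The frames of a chain: `G 0 = 1` and `G (k + 1) = G k * q k`. -/
noncomputable def gpExAux_G {R : Type*} [CommRing R] {r : ℕ}
    (q : ℕ → Matrix (Fin r) (Fin r) R) : ℕ → Matrix (Fin r) (Fin r) R
  | 0 => 1
  | k + 1 => gpExAux_G q k * q k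

theorem gpExAux_G_zero {R : Type*} [CommRing R] {r : ℕ} (q : ℕ → Matrix (Fin r) (Fin r) R) :
    gpExAux_G q 0 = 1 := rfl

theorem gpExAux_G_succ {R : Type*} [CommRing R] {r : ℕ} (q : ℕ → Matrix (Fin r) (Fin r) R)
    (k : ℕ) : gpExAux_G q (k + 1) = gpExAux_G q k * q k := rfl

theorem gpIsPt_exists {R : Type*} [CommRing R] {g n r : ℕ} (hN : 2 ≤ 2 * g + n)
    (c : Fin r → Rˣ) (d : Fin n → Fin r → Rˣ) (hc : ∏ i, c i = 1) (hd : ∀ j, ∏ i, d j i = 1)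
    (s : GpIdx g n r → Rˣ) :
    ∃ (x y : Fin g → Matrix (Fin r) (Fin r) R) (z : Fin n → Matrix (Fin r) (Fin r) R),
      gpIsPt c d s x y z := by
  have hcell : ∀ k : ℕ, ∃ l p q l' : Matrix (Fin r) (Fin r) R,
      (1 ≤ k → k + 1 ≤ 2 * g + n →
        gwCell (fun _ => (1 : R)) (fun i => (gpE c d s k i : R)) l p q l' ∧
        ∀ δ i m : ℕ, δ ≤ 1 → 1 ≤ m → i + δ + m ≤ r → ¬ (δ = 0 ∧ (i = 0 ∨ i + m = r)) →
          gwMinor (l * p) i (i + δ) m = (gwFr r (gpWall s k) δ i m : R)) ∧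
      (k = 0 ∨ 2 * g + n ≤ k → l = 1 ∧ p = 1 ∧ q = 1 ∧ l' = 1) := by
    intro k
    by_cases hk : 1 ≤ k ∧ k + 1 ≤ 2 * g + n
    · obtain ⟨l, p, q, l', h1, h2⟩ := gw_cell_exists (R := R) r (fun _ => (1 : Rˣ))
        (gpE c d s k) (by rw [gpE_prod hN c d hc hd s k]; simp) (gwFr r (gpWall s k))
      refine ⟨l, p, q, l', fun _ _ => ⟨?_, h2⟩, fun h => ?_⟩
      · have e : (fun _ : Fin r => (((1 : Rˣ)) : R)) = fun _ => (1 : R) := by
          funext i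
          exact Units.val_one
        rw [e] at h1
        exact h1
      · exfalso
        omega
    · exact ⟨1, 1, 1, 1, fun h1 h2 => absurd ⟨h1, h2⟩ hk, fun _ => ⟨rfl, rfl, rfl, rfl⟩⟩
  choose l p q l' hcell1 hcell2 using hcell
  have hcl := gp_cells_of_pt (g := g) (n := n) (fun k i => (gpE c d s k i : R)) l p q l'
    (fun k h1 h2 => (hcell1 k h1 h2).1) hcell2
  have hf := gp_frames l p q l' (gpExAux_G q) hcl (gpExAux_G_zero q) (gpExAux_G_succ q)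
  have hPdet : ∀ k, IsUnit (gpExAux_G q k * l k).det := by
    intro k
    rw [(hf k).2.2.2.1]
    exact isUnit_one
  have hQdet : ∀ k, IsUnit (gpExAux_G q k * l k * p k).det := by
    intro k
    rw [(hf k).2.2.2.2.1]
    exact isUnit_one
  refine ⟨fun h => (gpExAux_G q (2 * (h : ℕ)) * l (2 * (h : ℕ)) * p (2 * (h : ℕ))) *
      gpAnti (fun i => (gpTt s h 0 i : R)) *
      (gpExAux_G q (2 * (h : ℕ) + 1) * l (2 * (h : ℕ) + 1) * p (2 * (h : ℕ) + 1))⁻¹,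
    fun h => (gpExAux_G q (2 * (h : ℕ) + 2) * l (2 * (h : ℕ) + 2)) *
      gpAnti (fun i => (gpTt s h 1 i : R)) *
      (gpExAux_G q (2 * (h : ℕ) + 1) * l (2 * (h : ℕ) + 1))⁻¹,
    fun j => (gpExAux_G q (2 * g + (j : ℕ)) * l (2 * g + (j : ℕ)) * p (2 * g + (j : ℕ))) *
      Matrix.diagonal (fun i => ((d j i * (gpE c d s (2 * g + j) i)⁻¹ : Rˣ) : R)) *
      (gpExAux_G q (2 * g + (j : ℕ) + 1) * l (2 * g + (j : ℕ) + 1))⁻¹,
    l, p, q, l', gpExAux_G q, fun k => gpExAux_G q k * l k, fun k => (gpExAux_G q k * l k)⁻¹,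
    fun k => gpExAux_G q k * l k * p k, fun k => (gpExAux_G q k * l k * p k)⁻¹,
    hcell1, hcell2, gpExAux_G_zero q, gpExAux_G_succ q, fun k => ⟨rfl, rfl, ?_, ?_, ?_, ?_⟩,
    fun h => ⟨rfl, rfl⟩, fun j => rfl⟩
  · exact Matrix.mul_nonsing_inv _ (hPdet k)
  · exact Matrix.nonsing_inv_mul _ (hPdet k)
  · exact Matrix.mul_nonsing_inv _ (hQdet k)
  · exact Matrix.nonsing_inv_mul _ (hQdet k)

end Vale.Agent.Lib.P002
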