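import Vale.Agent.Lib.P002.GPSolveMap
import Vale.Agent.Lib.P002.GPAnti

/-!
# A ring homomorphism maps chart points to chart points
-/

open Matrix

namespace Vale.Agent.Lib.P002

/-- The image of an antidiagonal matrix with unit entries of the handle data. -/
theorem gpMapAux_anti {R S : Type*} [CommRing R] [CommRing S] (f : R →+* S) {g n r : ℕ}
    (s : GpIdx g n r → Rˣ) (h : Fin g) (b : Fin 2) :
    (gpAnti (fun i => ((gpTt s h b i : Rˣ) : R))).map f =
      gpAnti (fun i => ((gpTt (fun w => Units.map (f : R →* S) (s w)) h b i : Sˣ) : S)) := by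
  rw [gpAnti_map]
  congr 1
  ext i
  rw [← gpTt_map]
  rfl

/-- The image of the diagonal matrix of a puncture. -/
theorem gpMapAux_diag {R S : Type*} [CommRing R] [CommRing S] (f : R →+* S) {g n r : ℕ}
    (c : Fin r → Rˣ) (d : Fin n → Fin r → Rˣ) (s : GpIdx g n r → Rˣ) (j : Fin n) (k : ℕ) :
    (Matrix.diagonal (fun i => ((d j i * (gpE c d s k i)⁻¹ : Rˣ) : R))).map f =
      Matrix.diagonal (fun i => ((Units.map (f : R →* S) (d j i) *
        (gpE (fun i => Units.map (f : R →* S) (c i))
          (fun j i => Units.map (f : R →* S) (d j i))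
          (fun w => Units.map (f : R →* S) (s w)) k i)⁻¹ : Sˣ) : S)) := by
  rw [Matrix.diagonal_map f.map_zero]
  congr 1
  ext i
  rw [← gpE_map, ← map_inv, ← map_mul]
  rfl

theorem gpIsPt.map {R S : Type*} [CommRing R] [CommRing S] (f : R →+* S) {g n r : ℕ}
    {c : Fin r → Rˣ} {d : Fin n → Fin r → Rˣ} {s : GpIdx g n r → Rˣ}
    {x y : Fin g → Matrix (Fin r) (Fin r) R} {z : Fin n → Matrix (Fin r) (Fin r) R}
    (h : gpIsPt c d s x y z) :
    gpIsPt (fun i => Units.map (f : R →* S) (c i)) (fun j i => Units.map (f : R →* S) (d j i))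
      (fun w => Units.map (f : R →* S) (s w))
      (fun h => (x h).map f) (fun h => (y h).map f) (fun j => (z j).map f) := by
  obtain ⟨l, p, q, l', G, P, Pi, Q, Qi, hcell, htriv, hG0, hG, hPQ, hxy, hz⟩ := h
  have hone : (1 : Matrix (Fin r) (Fin r) R).map f = 1 :=
    Matrix.map_one _ f.map_zero f.map_one
  refine ⟨fun k => (l k).map f, fun k => (p k).map f, fun k => (q k).map f,
    fun k => (l' k).map f, fun k => (G k).map f, fun k => (P k).map f,
    fun k => (Pi k).map f, fun k => (Q k).map f, fun k => (Qi k).map f,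
    ?_, ?_, ?_, ?_, ?_, ?_, ?_⟩
  · intro k hk1 hk2
    obtain ⟨hc, hfr⟩ := hcell k hk1 hk2
    refine ⟨?_, ?_⟩
    · have hm := hc.map f
      have e1 : (fun _ : Fin r => f (1 : R)) = fun _ => (1 : S) := funext fun _ => f.map_one
      have e2 : (fun i => f ((gpE c d s k i : Rˣ) : R)) = fun i =>
          ((gpE (fun i => Units.map (f : R →* S) (c i))
            (fun j i => Units.map (f : R →* S) (d j i))
            (fun w => Units.map (f : R →* S) (s w)) k i : Sˣ) : S) := by
        ext i
        rw [← gpE_map]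
        rfl
      rw [e1, e2] at hm
      exact hm
    · intro δ i m hδ hm hr hn
      have e3 : (fun w => Units.map (f : R →* S) (gpWall s k w)) =
          gpWall (fun v => Units.map (f : R →* S) (s v)) k :=
        funext fun w => gpWall_map f s k w
      show gwMinor ((l k).map f * (p k).map f) i (i + δ) m = _
      rw [← Matrix.map_mul, gwMinor_map, hfr δ i m hδ hm hr hn, gwFr_map, e3]
  · intro k hk
    obtain ⟨h1, h2, h3, h4⟩ := htriv k hk
    refine ⟨?_, ?_, ?_, ?_⟩
    · show (l k).map f = 1
      rw [h1, hone]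
    · show (p k).map f = 1
      rw [h2, hone]
    · show (q k).map f = 1
      rw [h3, hone]
    · show (l' k).map f = 1
      rw [h4, hone]
  · show (G 0).map f = 1
    rw [hG0, hone]
  · intro k
    show (G (k + 1)).map f = (G k).map f * (q k).map f
    rw [hG k, Matrix.map_mul]
  · intro k
    obtain ⟨h1, h2, h3, h4, h5, h6⟩ := hPQ k
    refine ⟨?_, ?_, ?_, ?_, ?_, ?_⟩
    · show (P k).map f = (G k).map f * (l k).map f
      rw [← Matrix.map_mul, ← h1]
    · show (Q k).map f = (P k).map f * (p k).map f
      rw [← Matrix.map_mul, ← h2]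
    · show (P k).map f * (Pi k).map f = 1
      rw [← Matrix.map_mul, h3, hone]
    · show (Pi k).map f * (P k).map f = 1
      rw [← Matrix.map_mul, h4, hone]
    · show (Q k).map f * (Qi k).map f = 1
      rw [← Matrix.map_mul, h5, hone]
    · show (Qi k).map f * (Q k).map f = 1
      rw [← Matrix.map_mul, h6, hone]
  · intro a
    obtain ⟨h1, h2⟩ := hxy a
    refine ⟨?_, ?_⟩
    · show (x a).map f = (Q (2 * a)).map f *
        gpAnti (fun i => ((gpTt (fun w => Units.map (f : R →* S) (s w)) a 0 i : Sˣ) : S)) *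
          (Qi (2 * a + 1)).map f
      rw [h1, Matrix.map_mul, Matrix.map_mul, gpMapAux_anti]
    · show (y a).map f = (P (2 * a + 2)).map f *
        gpAnti (fun i => ((gpTt (fun w => Units.map (f : R →* S) (s w)) a 1 i : Sˣ) : S)) *
          (Pi (2 * a + 1)).map f
      rw [h2, Matrix.map_mul, Matrix.map_mul, gpMapAux_anti]
  · intro j
    show (z j).map f = (Q (2 * g + j)).map f *
      Matrix.diagonal (fun i => ((Units.map (f : R →* S) (d j i) *
        (gpE (fun i => Units.map (f : R →* S) (c i))
          (fun j i => Units.map (f : R →* S) (d j i))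
          (fun w => Units.map (f : R →* S) (s w)) (2 * g + j) i)⁻¹ : Sˣ) : S)) *
        (Pi (2 * g + j + 1)).map f
    rw [hz j, Matrix.map_mul, Matrix.map_mul, gpMapAux_diag]

end Vale.Agent.Lib.P002
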