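import Vale.Agent.Lib.P002.GPSolve
import Vale.Agent.Lib.P002.GPT

/-!
# Every admissible diagonal data comes from parameters
-/

open Matrix

namespace Vale.Agent.Lib.P002

theorem gpSurjAux_group {G : Type*} [CommGroup G] (A c x : G) (h : c = A * x⁻¹) :
    A * c⁻¹ = x := by
  rw [h, _root_.mul_inv_rev, inv_inv, mul_comm x, mul_inv_cancel_left]

theorem gpE_surj {R : Type*} [CommRing R] {g n r : ℕ} (hN : 2 ≤ 2 * g + n) (c : Fin r → Rˣ)
    (d : Fin n → Fin r → Rˣ) (e : ℕ → Fin r → Rˣ) (t t' : Fin g → Fin r → Rˣ)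
    (he0 : ∀ k, k = 0 ∨ 2 * g + n ≤ k → e k = 1) (he : ∀ k, ∏ i, e k i = 1)
    (ht : ∀ h, ∏ i, t h i = gpSgn R r) (ht' : ∀ h, ∏ i, t' h i = gpSgn R r)
    (hap : gpApex e t t' d = c) (s₀ : GpIdx g n r → Rˣ) :
    ∃ s : GpIdx g n r → Rˣ, (∀ w, s (Sum.inl w) = s₀ (Sum.inl w)) ∧ gpE c d s = e ∧
      (∀ h, gpTt s h 0 = t h) ∧ (∀ h, gpTt s h 1 = t' h) := by
  have hex : ∀ k, ∃ ε : Fin r → Rˣ, gwE ε = e k := fun k => gwE_surj (e k) (he k)
  choose ε hε using hex
  have hex1 : ∀ h, ∃ η : Fin r → Rˣ, gpT η = t h := fun h => gpT_surj (t h) (ht h)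
  choose η hη using hex1
  have hex2 : ∀ h, ∃ η : Fin r → Rˣ, gpT η = t' h := fun h => gpT_surj (t' h) (ht' h)
  choose η' hη' using hex2
  let s : GpIdx g n r → Rˣ := Sum.elim (fun w => s₀ (Sum.inl w))
    (Sum.elim (fun v => ε v.1 v.2)
      (fun v => if v.2.1 = 0 then η v.1 v.2.2 else η' v.1 v.2.2))
  have hT0 : ∀ h, gpTt s h 0 = t h := by
    intro h
    rw [← hη h]
    rfl
  have hT1 : ∀ h, gpTt s h 1 = t' h := by
    intro h
    rw [← hη' h]
    rfl
  have hE0 : gpE0 s = fun k => if k + 1 = 2 * g + n then 1 else e k := by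
    funext k
    unfold gpE0
    by_cases h1 : 1 ≤ k ∧ k + 1 < 2 * g + n
    · rw [dif_pos h1, if_neg (by omega), ← hε k]
      rfl
    · rw [dif_neg h1]
      by_cases h2 : k + 1 = 2 * g + n
      · rw [if_pos h2]
      · rw [if_neg h2, he0 k (by omega)]
  refine ⟨s, fun w => rfl, ?_, hT0, hT1⟩
  funext k
  by_cases hk : k + 1 = 2 * g + n
  · funext i
    have hk' : 2 * g + n - 1 = k := by omega
    have hfun0 : (fun h => gpTt s h 0) = t := funext hT0
    have hfun1 : (fun h => gpTt s h 1) = t' := funext hT1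
    have hgE : gpE c d s k i = if n = 0 then
        gpApex (gpE0 s) (fun h => gpTt s h 0) (fun h => gpTt s h 1) d (Fin.rev i) *
          (c (Fin.rev i))⁻¹
      else gpApex (gpE0 s) (fun h => gpTt s h 0) (fun h => gpTt s h 1) d i * (c i)⁻¹ := by
      unfold gpE
      rw [if_pos hk]
    rw [hgE, hfun0, hfun1, hE0]
    by_cases hn : n = 0
    · rw [if_pos hn]
      have h1 := gpApex_split hN e t t' d (Fin.rev i)
      rw [if_pos hn, Fin.rev_rev, hk', hap] at h1
      exact gpSurjAux_group _ _ _ h1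
    · rw [if_neg hn]
      have h1 := gpApex_split hN e t t' d i
      rw [if_neg hn, hk', hap] at h1
      exact gpSurjAux_group _ _ _ h1
  · rw [gpE_eq_of_ne c d s k hk, hE0]
    simp only [if_neg hk]

end Vale.Agent.Lib.P002
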