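import Vale.Agent.Lib.P002.GPApex
import Vale.Agent.Lib.P002.GPSolveSurj
import Vale.Agent.Lib.P002.GPRelNe

/-!
# Every point of the chart with ordered diagonals is a chart point in the sense of `gpIsPt`
-/

open Matrix

namespace Vale.Agent.Lib.P002

/-- Cancelling a two-sided inverse on the right. -/
theorem gpOfAux_cancel {r : ℕ} (X Y q qi : Matrix (Fin r) (Fin r) ℂ) (h : X * q = Y)
    (hq : q * qi = 1) : X = Y * qi := by
  rw [← h, mul_assoc, hq, mul_one]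

/-- A matrix of determinant one times its inverse. -/
theorem gpOfAux_inv {r : ℕ} (A : Matrix (Fin r) (Fin r) ℂ) (h : A.det = 1) :
    A * A⁻¹ = 1 ∧ A⁻¹ * A = 1 := by
  have hu : IsUnit A.det := by
    rw [h]
    exact isUnit_one
  exact ⟨Matrix.mul_nonsing_inv A hu, Matrix.nonsing_inv_mul A hu⟩

/-- The coercion of the apex formula. -/
theorem gpOfAux_apex_val {g n r : ℕ} (e : ℕ → Fin r → ℂˣ) (t t' : Fin g → Fin r → ℂˣ)
    (d : Fin n → Fin r → ℂˣ) (i : Fin r) :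
    ((gpApex e t t' d i : ℂˣ) : ℂ) =
      (∏ h : Fin g, (t h i : ℂ) * (t' h (Fin.rev i) : ℂ) /
        ((t h (Fin.rev i) : ℂ) * (t' h i : ℂ) * (e (2 * h) (Fin.rev i) : ℂ) *
          (e (2 * h + 1) (Fin.rev i) : ℂ))) *
        ∏ j : Fin n, (d j i : ℂ) * ((e (2 * g + j) i : ℂˣ) : ℂ)⁻¹ := by
  unfold gpApex
  rw [Units.val_mul, Units.coe_prod, Units.coe_prod]
  congr 1
  · refine Finset.prod_congr rfl (fun h _ => ?_)
    simp only [Units.val_mul, Units.val_inv_eq_inv_val]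
    rw [div_eq_mul_inv]
    simp only [mul_inv]
    ring
  · refine Finset.prod_congr rfl (fun j _ => ?_)
    simp only [Units.val_mul, Units.val_inv_eq_inv_val]

theorem gpIsPt_of_chartO {g n r : ℕ} (hN : 2 ≤ 2 * g + n) (c : Fin r → ℂˣ)
    (d : Fin n → Fin r → ℂˣ) (hc : ∏ i, c i = 1) (hd : ∀ j, ∏ i, d j i = 1)
    (x y : Fin g → Matrix.SpecialLinearGroup (Fin r) ℂ)
    (z : Fin n → Matrix.SpecialLinearGroup (Fin r) ℂ)
    (h : gpChartO (fun i => (c i : ℂ)) (fun j i => (d j i : ℂ)) x y z) :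
    ∃ s : GpIdx g n r → ℂˣ,
      gpIsPt c d s (fun h => (x h).1) (fun h => (y h).1) (fun j => (z j).1) := by
  classical
  have _h := And.intro hc hd
  obtain ⟨l, p, q, l', G, t, t', τ, hrel, hdiag0, hW0, hmin⟩ := h
  have hdiag : ∀ (j : Fin n) (i : Fin r), l' (2 * g + j) i i * τ j i = (d j i : ℂ) := hdiag0
  have hW : ∀ i, ((List.ofFn fun h => x h * y h * (x h)⁻¹ * (y h)⁻¹).prod *
      (List.ofFn z).prod).1 i i = (c i : ℂ) := hW0
  obtain ⟨htp, htne, hlp, hlne, -⟩ := gp_rel_ne x y z l p q l' G t t' τ hrel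
  obtain ⟨-, hapex⟩ := gp_apex x y z l p q l' G t t' τ hrel
  obtain ⟨hcell, htriv, hG0, hG, hxy, hz⟩ := hrel
  -- the diagonal data as units
  obtain ⟨e, he⟩ : ∃ e : ℕ → Fin r → ℂˣ, ∀ k i, ((e k i : ℂˣ) : ℂ) = l' k i i :=
    ⟨fun k i => Units.mk0 (l' k i i) (hlne k i), fun k i => rfl⟩
  obtain ⟨tU, htU⟩ : ∃ tU : Fin g → Fin r → ℂˣ, ∀ h i, ((tU h i : ℂˣ) : ℂ) = t h i :=
    ⟨fun h i => Units.mk0 (t h i) (htne h i).1, fun h i => rfl⟩
  obtain ⟨tU', htU'⟩ : ∃ tU' : Fin g → Fin r → ℂˣ, ∀ h i, ((tU' h i : ℂˣ) : ℂ) = t' h i :=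
    ⟨fun h i => Units.mk0 (t' h i) (htne h i).2, fun h i => rfl⟩
  have he0 : ∀ k, k = 0 ∨ 2 * g + n ≤ k → e k = 1 := by
    intro k hk
    funext i
    apply Units.ext
    rw [he k i, (htriv k hk).2.2.2, Matrix.one_apply_eq]
    rfl
  have he1 : ∀ k, ∏ i, e k i = 1 := by
    intro k
    apply Units.ext
    rw [Units.coe_prod, Units.val_one, ← hlp k]
    exact Finset.prod_congr rfl (fun i _ => he k i)
  have htU1 : ∀ h, ∏ i, tU h i = gpSgn ℂ r := by
    intro h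
    apply Units.ext
    rw [Units.coe_prod, ← (htp h).1]
    exact Finset.prod_congr rfl (fun i _ => htU h i)
  have htU1' : ∀ h, ∏ i, tU' h i = gpSgn ℂ r := by
    intro h
    apply Units.ext
    rw [Units.coe_prod, ← (htp h).2]
    exact Finset.prod_congr rfl (fun i _ => htU' h i)
  have hτ : ∀ (j : Fin n) (i : Fin r), τ j i = (d j i : ℂ) * (l' (2 * g + j) i i)⁻¹ := by
    intro j i
    rw [← hdiag j i, mul_comm (l' (2 * g + j) i i), mul_assoc, mul_inv_cancel₀ (hlne _ i),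
      mul_one]
  have hap : gpApex e tU tU' d = c := by
    funext i
    apply Units.ext
    rw [gpOfAux_apex_val, ← hW i, hapex i]
    congr 1
    · refine Finset.prod_congr rfl (fun h _ => ?_)
      rw [htU h i, htU' h (Fin.rev i), htU h (Fin.rev i), htU' h i, he, he]
    · refine Finset.prod_congr rfl (fun j _ => ?_)
      rw [he, hτ j i]
  -- the wall data as units
  obtain ⟨s₀, hs₀⟩ : ∃ s₀ : GpIdx g n r → ℂˣ, s₀ = Sum.elim
      (fun w => if hw : gwMinor (l w.1 * p w.1) w.2.2.1 (w.2.2.1 + w.2.1) w.2.2.2 ≠ 0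
        then Units.mk0 _ hw else 1) (fun _ => 1) := ⟨_, rfl⟩
  obtain ⟨s, hs1, hs2, hs3, hs4⟩ := gpE_surj hN c d e tU tU' he0 he1 htU1 htU1' hap s₀
  have hfr := fun k => gp_frames l p q l' G hcell hG0 hG k
  refine ⟨s, l, p, q, l', G, fun k => G k * l k, fun k => (G k * l k)⁻¹,
    fun k => G k * l k * p k, fun k => (G k * l k * p k)⁻¹, ?_, htriv, hG0, hG, ?_, ?_, ?_⟩
  · intro k hk1 hk2
    obtain ⟨c1, c2, c3, c4, c5, c6, c7, c8⟩ := hcell k
    refine ⟨⟨c1, c2, c3, c4, c5, c6, c7, fun i => ?_, c8⟩, ?_⟩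
    · rw [hs2]
      exact (he k i).symm
    · intro δ i m hδ hm hr _
      have hcnd : δ < 2 ∧ i < r ∧ m < r + 1 := ⟨by omega, by omega, by omega⟩
      have hk : k < 2 * g + n := by omega
      unfold gwFr gpWall
      simp only [dif_pos hcnd, dif_pos hk]
      rw [hs1, hs₀]
      simp only [Sum.elim_inl]
      rw [dif_pos (hmin k hk1 hk2 δ i m hδ hm hr)]
      rfl
  · intro k
    obtain ⟨-, -, -, hd1, hd2, -, -⟩ := hfr k
    exact ⟨rfl, rfl, (gpOfAux_inv _ hd1).1, (gpOfAux_inv _ hd1).2, (gpOfAux_inv _ hd2).1,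
      (gpOfAux_inv _ hd2).2⟩
  · intro h
    obtain ⟨hx, hy⟩ := hxy h
    have ht0 : (fun i => ((gpTt s h 0 i : ℂˣ) : ℂ)) = t h := by
      funext i
      rw [hs3 h, htU h i]
    have ht1 : (fun i => ((gpTt s h 1 i : ℂˣ) : ℂ)) = t' h := by
      funext i
      rw [hs4 h, htU' h i]
    obtain ⟨-, -, -, -, hd2, -, -⟩ := hfr (2 * h + 1)
    obtain ⟨-, -, -, hd1, -, -, -⟩ := hfr (2 * h + 1)
    refine ⟨?_, ?_⟩
    · rw [ht0]
      exact gpOfAux_cancel _ _ _ _ hx (gpOfAux_inv _ hd2).1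
    · rw [ht1]
      exact gpOfAux_cancel _ _ _ _ hy (gpOfAux_inv _ hd1).1
  · intro j
    have hτj : (fun i => ((d j i * (gpE c d s (2 * g + j) i)⁻¹ : ℂˣ) : ℂ)) = τ j := by
      funext i
      rw [hs2, Units.val_mul, Units.val_inv_eq_inv_val, he, hτ j i]
    obtain ⟨-, -, -, hd1, -, -, -⟩ := hfr (2 * g + j + 1)
    rw [hτj]
    exact gpOfAux_cancel _ _ _ _ (hz j) (gpOfAux_inv _ hd1).1

end Vale.Agent.Lib.P002
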