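import Vale.Agent.Lib.P002.GWDefs
import Vale.Agent.Lib.P002.GWCorner

/-!
# A matrix is determined by its wall minors when these are units
-/

open Matrix

namespace Vale.Agent.Lib.P002

/-- Cancel a sign and a unit cofactor. -/
theorem gwUnAux_cancel {R : Type*} [CommRing R] (k : ℕ) (x y u v : R) (huv : u = v)
    (hu : IsUnit u) (hxy : (-1) ^ k * x * u = (-1) ^ k * y * v) : x = y := by
  rw [← huv] at hxy
  have h1 : (-1 : R) ^ k * x = (-1) ^ k * y := hu.mul_left_inj.1 hxy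
  have h2 : (-1 : R) ^ k * (-1) ^ k = 1 := by
    rw [← mul_pow]
    simp
  calc x = ((-1) ^ k * (-1) ^ k) * x := by rw [h2, one_mul]
    _ = (-1) ^ k * ((-1) ^ k * x) := by ring
    _ = (-1) ^ k * ((-1) ^ k * y) := by rw [h1]
    _ = ((-1) ^ k * (-1) ^ k) * y := by ring
    _ = y := by rw [h2, one_mul]

/-- The entry `(i + k, i)` on or below the diagonal, once all entries of smaller stage agree. -/
theorem gwUnAux_low {R : Type*} [CommRing R] {r : ℕ} (X Y : Matrix (Fin r) (Fin r) R)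
    (hu : ∀ δ i k : ℕ, δ ≤ 1 → 1 ≤ k → i + δ + k ≤ r → IsUnit (gwMinor X i (i + δ) k))
    (h : ∀ δ i k : ℕ, δ ≤ 1 → 1 ≤ k → i + δ + k ≤ r →
      gwMinor X i (i + δ) k = gwMinor Y i (i + δ) k)
    (k : ℕ)
    (ih : ∀ a b : Fin r, ((b.val ≤ a.val ∧ a.val - b.val < k)
      ∨ (a.val < b.val ∧ b.val - a.val ≤ k)) → X a b = Y a b)
    (i : ℕ) (hi : i + k < r) (hi' : i < r) :
    X ⟨i + k, hi⟩ ⟨i, hi'⟩ = Y ⟨i + k, hi⟩ ⟨i, hi'⟩ := by
  have hX := gw_corner_low X i i k hi hi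
  have hY := gw_corner_low Y i i k hi hi
  have hL : gwMinor X i i (k + 1) = gwMinor Y i i (k + 1) :=
    h 0 i (k + 1) (by omega) (by omega) (by omega)
  have hZ : gwMinor (Matrix.of fun a b : Fin r =>
        if a = ⟨i + k, hi⟩ ∧ b = ⟨i, hi'⟩ then 0 else X a b) i i (k + 1)
      = gwMinor (Matrix.of fun a b : Fin r =>
        if a = ⟨i + k, hi⟩ ∧ b = ⟨i, hi'⟩ then 0 else Y a b) i i (k + 1) := by
    apply gwMinor_congr
    intro a b ha1 ha2 hb1 hb2
    simp only [Matrix.of_apply]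
    split_ifs with hc
    · rfl
    · apply ih
      by_cases hba : b.val ≤ a.val
      · left
        refine ⟨hba, ?_⟩
        by_contra hcon
        apply hc
        constructor
        · apply Fin.ext
          simp only
          omega
        · apply Fin.ext
          simp only
          omega
      · right
        omega
  have hC : gwMinor X i (i + 1) k = gwMinor Y i (i + 1) k
      ∧ IsUnit (gwMinor X i (i + 1) k) := by
    rcases Nat.eq_zero_or_pos k with hk | hk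
    · subst hk
      rw [gwMinor_zero, gwMinor_zero]
      exact ⟨rfl, isUnit_one⟩
    · exact ⟨h 1 i k le_rfl hk (by omega), hu 1 i k le_rfl hk (by omega)⟩
  obtain ⟨hC1, hC2⟩ := hC
  have hfin : (-1 : R) ^ k * X ⟨i + k, hi⟩ ⟨i, hi'⟩ * gwMinor X i (i + 1) k
      = (-1) ^ k * Y ⟨i + k, hi⟩ ⟨i, hi'⟩ * gwMinor Y i (i + 1) k := by
    have e : gwMinor X i i (k + 1) - gwMinor (Matrix.of fun a b : Fin r =>
          if a = ⟨i + k, hi⟩ ∧ b = ⟨i, hi'⟩ then 0 else X a b) i i (k + 1)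
        = gwMinor Y i i (k + 1) - gwMinor (Matrix.of fun a b : Fin r =>
          if a = ⟨i + k, hi⟩ ∧ b = ⟨i, hi'⟩ then 0 else Y a b) i i (k + 1) := by
      rw [hL, hZ]
    have eX : (-1 : R) ^ k * X ⟨i + k, hi⟩ ⟨i, hi'⟩ * gwMinor X i (i + 1) k
        = gwMinor X i i (k + 1) - gwMinor (Matrix.of fun a b : Fin r =>
          if a = ⟨i + k, hi⟩ ∧ b = ⟨i, hi'⟩ then 0 else X a b) i i (k + 1) :=
      eq_sub_of_add_eq' hX.symm
    have eY : (-1 : R) ^ k * Y ⟨i + k, hi⟩ ⟨i, hi'⟩ * gwMinor Y i (i + 1) k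
        = gwMinor Y i i (k + 1) - gwMinor (Matrix.of fun a b : Fin r =>
          if a = ⟨i + k, hi⟩ ∧ b = ⟨i, hi'⟩ then 0 else Y a b) i i (k + 1) :=
      eq_sub_of_add_eq' hY.symm
    rw [eX, eY, e]
  exact gwUnAux_cancel k _ _ _ _ hC1 hC2 hfin

/-- The entry `(i, i + 1 + k)` above the diagonal, once all entries of smaller stage agree. -/
theorem gwUnAux_up {R : Type*} [CommRing R] {r : ℕ} (X Y : Matrix (Fin r) (Fin r) R)
    (hu : ∀ δ i k : ℕ, δ ≤ 1 → 1 ≤ k → i + δ + k ≤ r → IsUnit (gwMinor X i (i + δ) k))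
    (h : ∀ δ i k : ℕ, δ ≤ 1 → 1 ≤ k → i + δ + k ≤ r →
      gwMinor X i (i + δ) k = gwMinor Y i (i + δ) k)
    (k : ℕ)
    (ih : ∀ a b : Fin r, ((b.val ≤ a.val ∧ a.val - b.val < k)
      ∨ (a.val < b.val ∧ b.val - a.val ≤ k)) → X a b = Y a b)
    (i : ℕ) (hi : i + 1 + k < r) (hi' : i < r) :
    X ⟨i, hi'⟩ ⟨i + 1 + k, hi⟩ = Y ⟨i, hi'⟩ ⟨i + 1 + k, hi⟩ := by
  have hik : i + k < r := by omega
  have hX := gw_corner_up X i (i + 1) k hik hi
  have hY := gw_corner_up Y i (i + 1) k hik hi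
  have hL : gwMinor X i (i + 1) (k + 1) = gwMinor Y i (i + 1) (k + 1) :=
    h 1 i (k + 1) le_rfl (by omega) (by omega)
  have hZ : gwMinor (Matrix.of fun a b : Fin r =>
        if a = ⟨i, hi'⟩ ∧ b = ⟨i + 1 + k, hi⟩ then 0 else X a b) i (i + 1) (k + 1)
      = gwMinor (Matrix.of fun a b : Fin r =>
        if a = ⟨i, hi'⟩ ∧ b = ⟨i + 1 + k, hi⟩ then 0 else Y a b) i (i + 1) (k + 1) := by
    apply gwMinor_congr
    intro a b ha1 ha2 hb1 hb2
    simp only [Matrix.of_apply]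
    split_ifs with hc
    · rfl
    · apply ih
      by_cases hba : b.val ≤ a.val
      · left
        omega
      · right
        refine ⟨by omega, ?_⟩
        by_contra hcon
        apply hc
        constructor
        · apply Fin.ext
          simp only
          omega
        · apply Fin.ext
          simp only
          omega
  have hC : gwMinor X (i + 1) (i + 1) k = gwMinor Y (i + 1) (i + 1) k
      ∧ IsUnit (gwMinor X (i + 1) (i + 1) k) := by
    rcases Nat.eq_zero_or_pos k with hk | hk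
    · subst hk
      rw [gwMinor_zero, gwMinor_zero]
      exact ⟨rfl, isUnit_one⟩
    · exact ⟨h 0 (i + 1) k (by omega) hk (by omega), hu 0 (i + 1) k (by omega) hk (by omega)⟩
  obtain ⟨hC1, hC2⟩ := hC
  have hfin : (-1 : R) ^ k * X ⟨i, hi'⟩ ⟨i + 1 + k, hi⟩ * gwMinor X (i + 1) (i + 1) k
      = (-1) ^ k * Y ⟨i, hi'⟩ ⟨i + 1 + k, hi⟩ * gwMinor Y (i + 1) (i + 1) k := by
    have e : gwMinor X i (i + 1) (k + 1) - gwMinor (Matrix.of fun a b : Fin r =>
          if a = ⟨i, hi'⟩ ∧ b = ⟨i + 1 + k, hi⟩ then 0 else X a b) i (i + 1) (k + 1)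
        = gwMinor Y i (i + 1) (k + 1) - gwMinor (Matrix.of fun a b : Fin r =>
          if a = ⟨i, hi'⟩ ∧ b = ⟨i + 1 + k, hi⟩ then 0 else Y a b) i (i + 1) (k + 1) := by
      rw [hL, hZ]
    have eX : (-1 : R) ^ k * X ⟨i, hi'⟩ ⟨i + 1 + k, hi⟩ * gwMinor X (i + 1) (i + 1) k
        = gwMinor X i (i + 1) (k + 1) - gwMinor (Matrix.of fun a b : Fin r =>
          if a = ⟨i, hi'⟩ ∧ b = ⟨i + 1 + k, hi⟩ then 0 else X a b) i (i + 1) (k + 1) :=
      eq_sub_of_add_eq' hX.symm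
    have eY : (-1 : R) ^ k * Y ⟨i, hi'⟩ ⟨i + 1 + k, hi⟩ * gwMinor Y (i + 1) (i + 1) k
        = gwMinor Y i (i + 1) (k + 1) - gwMinor (Matrix.of fun a b : Fin r =>
          if a = ⟨i, hi'⟩ ∧ b = ⟨i + 1 + k, hi⟩ then 0 else Y a b) i (i + 1) (k + 1) :=
      eq_sub_of_add_eq' hY.symm
    rw [eX, eY, e]
  exact gwUnAux_cancel k _ _ _ _ hC1 hC2 hfin

theorem gw_wall_unique {R : Type*} [CommRing R] (r : ℕ) (X Y : Matrix (Fin r) (Fin r) R)
    (hu : ∀ δ i k : ℕ, δ ≤ 1 → 1 ≤ k → i + δ + k ≤ r → IsUnit (gwMinor X i (i + δ) k))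
    (h : ∀ δ i k : ℕ, δ ≤ 1 → 1 ≤ k → i + δ + k ≤ r →
      gwMinor X i (i + δ) k = gwMinor Y i (i + δ) k) :
    X = Y := by
  have key : ∀ k : ℕ, ∀ a b : Fin r, ((b.val ≤ a.val ∧ a.val - b.val < k)
      ∨ (a.val < b.val ∧ b.val - a.val ≤ k)) → X a b = Y a b := by
    intro k
    induction k with
    | zero =>
      intro a b hab
      omega
    | succ k ih =>
      intro a b hab
      by_cases hold : (b.val ≤ a.val ∧ a.val - b.val < k) ∨ (a.val < b.val ∧ b.val - a.val ≤ k)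
      · exact ih a b hold
      · rcases hab with ⟨h1, h2⟩ | ⟨h1, h2⟩
        · have hk : a.val = b.val + k := by omega
          obtain ⟨av, ha⟩ := a
          obtain ⟨bv, hb⟩ := b
          simp only at hk
          subst hk
          exact gwUnAux_low X Y hu h k ih bv ha hb
        · have hk : b.val = a.val + 1 + k := by omega
          obtain ⟨av, ha⟩ := a
          obtain ⟨bv, hb⟩ := b
          simp only at hk
          subst hk
          exact gwUnAux_up X Y hu h k ih av hb ha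
  ext a b
  apply key r
  have h1 := a.isLt
  have h2 := b.isLt
  omega

end Vale.Agent.Lib.P002
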