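import Vale.Agent.Lib.P002.GWDefs
import Vale.Agent.Lib.P002.GWUnique
import Vale.Agent.Lib.P002.GWTri
import Vale.Agent.Lib.P002.GWLead

/-!
# Uniqueness of cells with given diagonals and given free wall minors
-/

open Matrix

namespace Vale.Agent.Lib.P002

/-- Leading principal minors of a cell are products of the entries of `b`. -/
theorem gwCellUAux_lead {R : Type*} [CommRing R] (r : ℕ) (b e : Fin r → R)
    (l p q l' : Matrix (Fin r) (Fin r) R) (h1 : gwCell b e l p q l') (k : ℕ) (hk : k ≤ r) :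
    gwMinor (l * p) 0 0 k = ∏ i : Fin k, b (Fin.castLE hk i) := by
  obtain ⟨hl, hlb, hp, hp1, -, -, -, -, -⟩ := h1
  rw [gw_lead_mul r l p hl hp hp1 k hk]
  exact Finset.prod_congr rfl fun i _ => hlb _

/-- Trailing principal minors of a cell are products of the entries of `e`. -/
theorem gwCellUAux_trail {R : Type*} [CommRing R] (r : ℕ) (b e : Fin r → R)
    (l p q l' : Matrix (Fin r) (Fin r) R) (h1 : gwCell b e l p q l') (k : ℕ) (hk : k ≤ r) :
    gwMinor (l * p) (r - k) (r - k) k =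
      ∏ i : Fin k, e ⟨r - k + i, by have := i.isLt; omega⟩ := by
  obtain ⟨-, -, -, -, hq, hq1, hl', hle, hX⟩ := h1
  rw [hX, gw_trail_mul r q l' hq hq1 hl' k hk]
  exact Finset.prod_congr rfl fun i _ => hle _

/-- Two cells with the same unit diagonals whose free wall minors agree and are units
coincide. -/
theorem gw_cell_unique {R : Type*} [CommRing R] (r : ℕ) (b e : Fin r → R)
    (hb : ∀ i, IsUnit (b i)) (he : ∀ i, IsUnit (e i))
    (l p q l' l₂ p₂ q₂ l₂' : Matrix (Fin r) (Fin r) R)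
    (h1 : gwCell b e l p q l') (h2 : gwCell b e l₂ p₂ q₂ l₂')
    (hu : ∀ δ i k : ℕ, δ ≤ 1 → 1 ≤ k → i + δ + k ≤ r → ¬ (δ = 0 ∧ (i = 0 ∨ i + k = r)) →
      IsUnit (gwMinor (l * p) i (i + δ) k))
    (h : ∀ δ i k : ℕ, δ ≤ 1 → 1 ≤ k → i + δ + k ≤ r → ¬ (δ = 0 ∧ (i = 0 ∨ i + k = r)) →
      gwMinor (l * p) i (i + δ) k = gwMinor (l₂ * p₂) i (i + δ) k) :
    l = l₂ ∧ p = p₂ ∧ q = q₂ ∧ l' = l₂' := by
  have key : l * p = l₂ * p₂ := by
    apply gw_wall_unique r
    · intro δ i k hδ hk hik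
      by_cases hc : δ = 0 ∧ (i = 0 ∨ i + k = r)
      · obtain ⟨rfl, hi | hi⟩ := hc
        · subst hi
          have hkr : k ≤ r := by omega
          rw [add_zero, gwCellUAux_lead r b e l p q l' h1 k hkr]
          exact IsUnit.prod_univ_iff.mpr fun t => hb _
        · have hkr : k ≤ r := by omega
          have hi' : i = r - k := by omega
          subst hi'
          rw [add_zero, gwCellUAux_trail r b e l p q l' h1 k hkr]
          exact IsUnit.prod_univ_iff.mpr fun t => he _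
      · exact hu δ i k hδ hk hik hc
    · intro δ i k hδ hk hik
      by_cases hc : δ = 0 ∧ (i = 0 ∨ i + k = r)
      · obtain ⟨rfl, hi | hi⟩ := hc
        · subst hi
          have hkr : k ≤ r := by omega
          rw [add_zero, gwCellUAux_lead r b e l p q l' h1 k hkr,
            gwCellUAux_lead r b e l₂ p₂ q₂ l₂' h2 k hkr]
        · have hkr : k ≤ r := by omega
          have hi' : i = r - k := by omega
          subst hi'
          rw [add_zero, gwCellUAux_trail r b e l p q l' h1 k hkr,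
            gwCellUAux_trail r b e l₂ p₂ q₂ l₂' h2 k hkr]
      · exact h δ i k hδ hk hik hc
  obtain ⟨hl, hlb, hp, hp1, hq, hq1, hl', hle, hX⟩ := h1
  obtain ⟨hl₂, hlb₂, hp₂, hp1₂, hq₂, hq1₂, hl₂', hle₂, hX₂⟩ := h2
  have hA := gw_lu_unique r l l₂ p p₂ hl hl₂ (fun i => by rw [hlb]; exact hb i) hp hp1 hp₂ hp1₂ key
  have key2 : q * l' = q₂ * l₂' := by rw [← hX, ← hX₂, key]
  have hB := gw_ul_unique r q q₂ l' l₂' hq hq1 hq₂ hq1₂ hl' hl₂'
    (fun i => by rw [hle]; exact he i) key2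
  exact ⟨hA.1, hA.2, hB.1, hB.2⟩

end Vale.Agent.Lib.P002
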