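import Vale.Agent.Lib.P002.GPDefs
import Vale.Agent.Lib.P002.GWCellU

/-!
# The chart point with given parameters is unique
-/

open Matrix

namespace Vale.Agent.Lib.P002

/-- A two-sided inverse of a matrix is unique. -/
theorem gpUnAux_inv_unique {R : Type*} [CommRing R] {r : ℕ}
    {q qi qi₂ : Matrix (Fin r) (Fin r) R} (h : qi * q = 1) (h₂ : q * qi₂ = 1) : qi = qi₂ := by
  calc qi = qi * (q * qi₂) := by rw [h₂, mul_one]
    _ = (qi * q) * qi₂ := by rw [mul_assoc]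
    _ = qi₂ := by rw [h, one_mul]

theorem gpIsPt_unique {R : Type*} [CommRing R] {g n r : ℕ} (c : Fin r → Rˣ)
    (d : Fin n → Fin r → Rˣ) (s : GpIdx g n r → Rˣ)
    {x y x' y' : Fin g → Matrix (Fin r) (Fin r) R} {z z' : Fin n → Matrix (Fin r) (Fin r) R}
    (h : gpIsPt c d s x y z) (h' : gpIsPt c d s x' y' z') : x = x' ∧ y = y' ∧ z = z' := by
  obtain ⟨l, p, q, l', G, P, Pi, Q, Qi, hcell, htriv, hG0, hGs, hfr, hxy, hz⟩ := h
  obtain ⟨l₂, p₂, q₂, l₂', G₂, P₂, Pi₂, Q₂, Qi₂, hcell₂, htriv₂, hG0₂, hGs₂, hfr₂, hxy₂,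
    hz₂⟩ := h'
  have hc : ∀ k, l k = l₂ k ∧ p k = p₂ k ∧ q k = q₂ k ∧ l' k = l₂' k := by
    intro k
    by_cases hk : 1 ≤ k ∧ k + 1 ≤ 2 * g + n
    · obtain ⟨hk1, hk2⟩ := hk
      obtain ⟨hc1, hm1⟩ := hcell k hk1 hk2
      obtain ⟨hc2, hm2⟩ := hcell₂ k hk1 hk2
      exact gw_cell_unique r _ _ (fun _ => isUnit_one) (fun i => Units.isUnit _)
        (l k) (p k) (q k) (l' k) (l₂ k) (p₂ k) (q₂ k) (l₂' k) hc1 hc2
        (fun δ i m hδ hm hr hn => by
          rw [hm1 δ i m hδ hm hr hn]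
          exact Units.isUnit _)
        (fun δ i m hδ hm hr hn => by
          rw [hm1 δ i m hδ hm hr hn, hm2 δ i m hδ hm hr hn])
    · have hk' : k = 0 ∨ 2 * g + n ≤ k := by omega
      obtain ⟨a1, a2, a3, a4⟩ := htriv k hk'
      obtain ⟨b1, b2, b3, b4⟩ := htriv₂ k hk'
      exact ⟨a1.trans b1.symm, a2.trans b2.symm, a3.trans b3.symm, a4.trans b4.symm⟩
  have hl : l = l₂ := funext fun k => (hc k).1
  have hp : p = p₂ := funext fun k => (hc k).2.1
  have hq : q = q₂ := funext fun k => (hc k).2.2.1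
  subst hl hp hq
  have hG : G = G₂ := by
    funext k
    induction k with
    | zero => rw [hG0, hG0₂]
    | succ k ih => rw [hGs k, hGs₂ k, ih]
  subst hG
  have hP : P = P₂ := funext fun k => (hfr k).1.trans (hfr₂ k).1.symm
  subst hP
  have hQ : Q = Q₂ := funext fun k => (hfr k).2.1.trans (hfr₂ k).2.1.symm
  subst hQ
  have hPi : Pi = Pi₂ := funext fun k =>
    gpUnAux_inv_unique (hfr k).2.2.2.1 (hfr₂ k).2.2.1
  subst hPi
  have hQi : Qi = Qi₂ := funext fun k =>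
    gpUnAux_inv_unique (hfr k).2.2.2.2.2 (hfr₂ k).2.2.2.2.1
  subst hQi
  refine ⟨?_, ?_, ?_⟩
  · funext a
    rw [(hxy a).1, (hxy₂ a).1]
  · funext a
    rw [(hxy a).2, (hxy₂ a).2]
  · funext j
    rw [hz j, hz₂ j]

end Vale.Agent.Lib.P002
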