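import Vale.Agent.Lib.P002.Laurent

/-!
# The ring of Laurent polynomial functions on `ℂˣ`
-/

namespace Vale.Agent.Lib.P002

/-- The ring of Laurent polynomial functions on `ℂˣ`, as a subring of all functions. -/
def gwLaur : Subring (ℂˣ → ℂ) where
  carrier := {f | IsLaurent f}
  mul_mem' := fun hf hg => hf.mul hg
  one_mem' := isLaurent_const 1
  add_mem' := fun hf hg => hf.add hg
  zero_mem' := isLaurent_const 0
  neg_mem' := fun {f} hf => by
    have h := hf.const_mul (-1)
    have e : (fun u => -1 * f u) = -f := by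
      ext u
      simp
    rw [e] at h
    exact h

/-- Evaluation at a point. -/
def gwEv (u : ℂˣ) : gwLaur →+* ℂ :=
  (Pi.evalRingHom (fun _ : ℂˣ => ℂ) u).comp gwLaur.subtype

/-- Constant functions. -/
def gwConst : ℂ →+* gwLaur :=
  (Pi.constRingHom ℂˣ ℂ).codRestrict gwLaur (fun c => isLaurent_const c)

theorem gwEv_const (u : ℂˣ) (c : ℂ) : gwEv u (gwConst c) = c := rfl

/-- The coordinate function, a unit of the ring. -/
def gwT : gwLaurˣ where
  val := ⟨fun u => (u : ℂ), isLaurent_id⟩
  inv := ⟨fun u => ((u⁻¹ : ℂˣ) : ℂ), isLaurent_inv⟩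
  val_inv := by
    ext u
    simp
  inv_val := by
    ext u
    simp

theorem gwEv_T (u : ℂˣ) : gwEv u (gwT : gwLaur) = (u : ℂ) := rfl

theorem gwLaur_isLaurent (f : gwLaur) : IsLaurent (fun u => gwEv u f) := f.2

end Vale.Agent.Lib.P002
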