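import Vale.Agent.Lib.P002.GPDefs
import Vale.Agent.Lib.P002.GPExist
import Vale.Agent.Lib.P002.GPUnique
import Vale.Agent.Lib.P002.GPMap
import Vale.Agent.Lib.P002.GPDet
import Vale.Agent.Lib.P002.GPChart
import Vale.Agent.Lib.P002.GPOfChart
import Vale.Agent.Lib.P002.GWLaur

/-!
# Core density statement for the wall chart of a punctured surface of any genus
-/

open Matrix

namespace Vale.Agent.Lib.P002

/-- **Core density statement.** If a polynomial vanishes at all chart points with entries in the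
subring `O` (which contains the diagonal data, their inverses, and an infinite set `U` of units
with their inverses), then it vanishes at every chart point. -/
theorem gp_core (g n r : ℕ) (hN : 2 ≤ 2 * g + n) (c : Fin r → ℂˣ) (d : Fin n → Fin r → ℂˣ)
    (hc : ∏ i, c i = 1) (hd : ∀ j, ∏ i, d j i = 1)
    (O : Subring ℂ) (hcO : ∀ i, ((c i : ℂˣ) : ℂ) ∈ O ∧ (((c i)⁻¹ : ℂˣ) : ℂ) ∈ O)
    (hdO : ∀ j i, ((d j i : ℂˣ) : ℂ) ∈ O ∧ (((d j i)⁻¹ : ℂˣ) : ℂ) ∈ O)
    (U : Set ℂˣ) (hU : U.Infinite) (hUO : ∀ u ∈ U, (u : ℂ) ∈ O ∧ ((u⁻¹ : ℂˣ) : ℂ) ∈ O)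
    (F : MvPolynomial ((Fin g ⊕ Fin g ⊕ Fin n) × Fin r × Fin r) ℂ)
    (H : ∀ (x y : Fin g → Matrix.SpecialLinearGroup (Fin r) ℂ)
        (z : Fin n → Matrix.SpecialLinearGroup (Fin r) ℂ),
      gpChartO (fun i => (c i : ℂ)) (fun j i => (d j i : ℂ)) x y z →
      (∀ h i j, (x h).1 i j ∈ O) → (∀ h i j, (y h).1 i j ∈ O) → (∀ t i j, (z t).1 i j ∈ O) →
      MvPolynomial.eval (gpPt (fun h => (x h).1) (fun h => (y h).1) (fun j => (z j).1)) F = 0)
    (x y : Fin g → Matrix.SpecialLinearGroup (Fin r) ℂ)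
    (z : Fin n → Matrix.SpecialLinearGroup (Fin r) ℂ)
    (h : gpChartO (fun i => (c i : ℂ)) (fun j i => (d j i : ℂ)) x y z) :
    MvPolynomial.eval (gpPt (fun h => (x h).1) (fun h => (y h).1) (fun j => (z j).1)) F = 0 := by
  classical
  -- integrality of chart points with unit parameters
  have key_int : ∀ s : GpIdx g n r → ℂˣ, (∀ w, s w ∈ U) →
      ∀ (x y : Fin g → Matrix (Fin r) (Fin r) ℂ) (z : Fin n → Matrix (Fin r) (Fin r) ℂ),
        gpIsPt c d s x y z →
        (∀ h i j, x h i j ∈ O) ∧ (∀ h i j, y h i j ∈ O) ∧ (∀ t i j, z t i j ∈ O) := by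
    intro s hs x y z hpt
    let lift : ∀ u : ℂˣ, (u : ℂ) ∈ O → ((u⁻¹ : ℂˣ) : ℂ) ∈ O → (↥O)ˣ := fun u h1 h2 =>
      ⟨⟨u, h1⟩, ⟨_, h2⟩, by ext; simp, by ext; simp⟩
    have hlift : ∀ (u : ℂˣ) (h1 : (u : ℂ) ∈ O) (h2 : ((u⁻¹ : ℂˣ) : ℂ) ∈ O),
        Units.map (O.subtype : ↥O →* ℂ) (lift u h1 h2) = u := by
      intro u h1 h2
      ext
      rfl
    let cO : Fin r → (↥O)ˣ := fun i => lift (c i) (hcO i).1 (hcO i).2
    let dO : Fin n → Fin r → (↥O)ˣ := fun j i => lift (d j i) (hdO j i).1 (hdO j i).2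
    let sO : GpIdx g n r → (↥O)ˣ := fun w => lift (s w) (hUO _ (hs w)).1 (hUO _ (hs w)).2
    have hcO' : ∏ i, cO i = 1 := by
      apply Units.map_injective (f := (O.subtype : ↥O →* ℂ)) Subtype.val_injective
      rw [map_prod, map_one]
      simp only [cO, hlift]
      exact hc
    have hdO' : ∀ j, ∏ i, dO j i = 1 := by
      intro j
      apply Units.map_injective (f := (O.subtype : ↥O →* ℂ)) Subtype.val_injective
      rw [map_prod, map_one]
      simp only [dO, hlift]
      exact hd j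
    obtain ⟨x0, y0, z0, hpt0⟩ := gpIsPt_exists hN cO dO hcO' hdO' sO
    have hm := hpt0.map O.subtype
    have ec : (fun i => Units.map (O.subtype : ↥O →* ℂ) (cO i)) = c := by
      ext i
      rfl
    have ed : (fun j i => Units.map (O.subtype : ↥O →* ℂ) (dO j i)) = d := by
      ext j i
      rfl
    have es : (fun w => Units.map (O.subtype : ↥O →* ℂ) (sO w)) = s := by
      ext w
      rfl
    rw [ec, ed, es] at hm
    obtain ⟨e1, e2, e3⟩ := gpIsPt_unique c d s hpt hm
    rw [e1, e2, e3]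
    exact ⟨fun h i j => (x0 h i j).2, fun h i j => (y0 h i j).2, fun t i j => (z0 t i j).2⟩
  -- Laurent dependence on each parameter
  have key_laur : ∀ (s : GpIdx g n r → ℂˣ) (v : GpIdx g n r),
      ∃ (X Y : ℂˣ → Fin g → Matrix (Fin r) (Fin r) ℂ)
        (Z : ℂˣ → Fin n → Matrix (Fin r) (Fin r) ℂ),
        (∀ h i j, IsLaurent (fun u => X u h i j)) ∧ (∀ h i j, IsLaurent (fun u => Y u h i j)) ∧
        (∀ t i j, IsLaurent (fun u => Z u t i j)) ∧
        ∀ u, gpIsPt c d (Function.update s v u) (X u) (Y u) (Z u) := by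
    intro s v
    let cU : ℂˣ →* gwLaurˣ := Units.map (gwConst : ℂ →* gwLaur)
    have hcL : ∏ i, cU (c i) = 1 := by
      rw [← map_prod, hc, map_one]
    have hdL : ∀ j, ∏ i, cU (d j i) = 1 := by
      intro j
      rw [← map_prod, hd j, map_one]
    obtain ⟨x0, y0, z0, hpt0⟩ := gpIsPt_exists hN (fun i => cU (c i))
      (fun j i => cU (d j i)) hcL hdL (fun w => if w = v then gwT else cU (s w))
    refine ⟨fun u h => (x0 h).map (gwEv u), fun u h => (y0 h).map (gwEv u),
      fun u t => (z0 t).map (gwEv u),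
      fun h i j => gwLaur_isLaurent (x0 h i j), fun h i j => gwLaur_isLaurent (y0 h i j),
      fun t i j => gwLaur_isLaurent (z0 t i j), fun u => ?_⟩
    have hm := hpt0.map (gwEv u)
    have ec : (fun i => Units.map (gwEv u : gwLaur →* ℂ) (cU (c i))) = c := by
      ext i
      rfl
    have ed : (fun j i => Units.map (gwEv u : gwLaur →* ℂ) (cU (d j i))) = d := by
      ext j i
      rfl
    have es : (fun w => Units.map (gwEv u : gwLaur →* ℂ) (if w = v then gwT else cU (s w)))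
        = Function.update s v u := by
      ext w
      by_cases hwv : w = v
      · subst hwv
        rw [if_pos rfl, Function.update_self]
        rfl
      · rw [if_neg hwv, Function.update_of_ne hwv]
        rfl
    rw [ec, ed, es] at hm
    exact hm
  -- the function on the parameter torus
  choose X Y Z hXYZ using fun s => gpIsPt_exists hN c d hc hd s
  have hG : ∀ (s : GpIdx g n r → ℂˣ) (x y : Fin g → Matrix (Fin r) (Fin r) ℂ)
      (z : Fin n → Matrix (Fin r) (Fin r) ℂ), gpIsPt c d s x y z →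
        MvPolynomial.eval (gpPt x y z) F = MvPolynomial.eval (gpPt (X s) (Y s) (Z s)) F := by
    intro s x y z hpt
    obtain ⟨e1, e2, e3⟩ := gpIsPt_unique c d s hpt (hXYZ s)
    rw [e1, e2, e3]
  have hG0 : ∀ s : GpIdx g n r → ℂˣ, MvPolynomial.eval (gpPt (X s) (Y s) (Z s)) F = 0 := by
    apply eq_zero_of_grid (fun s => MvPolynomial.eval (gpPt (X s) (Y s) (Z s)) F) ?_ U hU ?_
    · intro s v
      obtain ⟨X', Y', Z', hX', hY', hZ', hpt⟩ := key_laur s v
      have e : (fun u => MvPolynomial.eval (gpPt (X (Function.update s v u))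
          (Y (Function.update s v u)) (Z (Function.update s v u))) F) =
          fun u => MvPolynomial.eval (gpPt (X' u) (Y' u) (Z' u)) F := by
        ext u
        exact (hG _ _ _ _ (hpt u)).symm
      rw [e]
      apply IsLaurent.eval_mvPolynomial
      rintro ⟨(h | h | t), i, j⟩
      · exact hX' h i j
      · exact hY' h i j
      · exact hZ' t i j
    · intro s hs
      obtain ⟨i1, i2, i3⟩ := key_int s hs _ _ _ (hXYZ s)
      obtain ⟨d1, d2⟩ := gpIsPt_det hN c d hc hd s (hXYZ s)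
      exact H (fun h => ⟨X s h, (d1 h).1⟩) (fun h => ⟨Y s h, (d1 h).2⟩) (fun j => ⟨Z s j, d2 j⟩)
        (gpIsPt_chartO hN c d hc hd s _ _ _ (hXYZ s)) i1 i2 i3
  obtain ⟨s, hpt⟩ := gpIsPt_of_chartO hN c d hc hd x y z h
  rw [hG s _ _ _ hpt]
  exact hG0 s

end Vale.Agent.Lib.P002
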