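import Vale.Agent.Lib.P002.GSDefs

/-!
# The wall chart for punctured surfaces of any genus, arbitrary rank: definitions

The fundamental group of the surface of genus `g` with `n + 1` punctures is free on
`x_1, y_1, …, x_g, y_g, z_1, …, z_n`, where `z_j` is the loop around the `j`-th puncture, and
the loop around the last puncture is the inverse of `[x_1, y_1] ⋯ [x_g, y_g] z_1 ⋯ z_n`.
-/

open Matrix Polynomial

namespace Vale.Agent.Lib.P002

/-- The antidiagonal matrix with entries `t` (row `a` has the entry `t a` in column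
`r - 1 - a`). -/
def gpAnti {R : Type*} [CommRing R] {r : ℕ} (t : Fin r → R) : Matrix (Fin r) (Fin r) R :=
  Matrix.of fun a b : Fin r => if (a : ℕ) + (b : ℕ) + 1 = r then t a else 0

/-- The wall chart of tuples `(x, y, z)`.  There is a chain of cells `l k * p k = q k * l' k`
(`l k` lower triangular with unit diagonal, `p k`, `q k` upper triangular with unit diagonal,
`l' k` lower triangular), trivial for `k = 0` and `k ≥ 2 g + n`, with frames `G 0 = 1`,
`G (k+1) = G k * q k`, such that the generators are given by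
`x h * (G (2h+1) * l (2h+1) * p (2h+1)) = G (2h) * l (2h) * p (2h) * T`,
`y h * (G (2h+1) * l (2h+1)) = G (2h+2) * l (2h+2) * T'` with antidiagonal `T, T'`, and
`z j * (G (2g+j+1) * l (2g+j+1)) = G (2g+j) * l (2g+j) * p (2g+j) * D` with diagonal `D`;
the characteristic polynomials of the `z j` and of the loop around the last puncture are the
prescribed ones; and the solid minors of the nontrivial cells `l k * p k` on the diagonal and
the superdiagonal do not vanish. -/
def gpChart {g n r : ℕ} (c : Fin r → ℂ) (d : Fin n → Fin r → ℂ)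
    (x y : Fin g → Matrix.SpecialLinearGroup (Fin r) ℂ)
    (z : Fin n → Matrix.SpecialLinearGroup (Fin r) ℂ) : Prop :=
  ∃ (l p q l' G : ℕ → Matrix (Fin r) (Fin r) ℂ) (t t' : Fin g → Fin r → ℂ)
    (τ : Fin n → Fin r → ℂ),
    ((∀ k, (l k).IsLowerTriangular ∧ (∀ i, l k i i = 1) ∧ (p k).IsUpperTriangular ∧
        (∀ i, p k i i = 1) ∧ (q k).IsUpperTriangular ∧ (∀ i, q k i i = 1) ∧
        (l' k).IsLowerTriangular ∧ l k * p k = q k * l' k) ∧
      (∀ k, k = 0 ∨ 2 * g + n ≤ k → l k = 1 ∧ p k = 1 ∧ q k = 1 ∧ l' k = 1) ∧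
      G 0 = 1 ∧ (∀ k, G (k + 1) = G k * q k) ∧
      (∀ h : Fin g,
        (x h).1 * (G (2 * h + 1) * l (2 * h + 1) * p (2 * h + 1)) =
          G (2 * h) * l (2 * h) * p (2 * h) * gpAnti (t h) ∧
        (y h).1 * (G (2 * h + 1) * l (2 * h + 1)) =
          G (2 * h + 2) * l (2 * h + 2) * gpAnti (t' h)) ∧
      (∀ j : Fin n, (z j).1 * (G (2 * g + j + 1) * l (2 * g + j + 1)) =
        G (2 * g + j) * l (2 * g + j) * p (2 * g + j) * Matrix.diagonal (τ j))) ∧
    (∀ j, (z j).1.charpoly = ∏ i, (X - C (d j i))) ∧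
    ((List.ofFn fun h => x h * y h * (x h)⁻¹ * (y h)⁻¹).prod * (List.ofFn z).prod).1.charpoly =
      ∏ i, (X - C (c i)) ∧
    ∀ k, 1 ≤ k → k + 1 ≤ 2 * g + n → ∀ δ i m : ℕ, δ ≤ 1 → 1 ≤ m → i + δ + m ≤ r →
      gwMinor (l k * p k) i (i + δ) m ≠ 0

/-- The relations between the generators and the auxiliary data of the chart (the first block
of conditions in `gpChart`), for arbitrary matrices `x, y, z`. -/
def gpRel {g n r : ℕ} (x y : Fin g → Matrix (Fin r) (Fin r) ℂ)
    (z : Fin n → Matrix (Fin r) (Fin r) ℂ) (l p q l' G : ℕ → Matrix (Fin r) (Fin r) ℂ)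
    (t t' : Fin g → Fin r → ℂ) (τ : Fin n → Fin r → ℂ) : Prop :=
  (∀ k, (l k).IsLowerTriangular ∧ (∀ i, l k i i = 1) ∧ (p k).IsUpperTriangular ∧
      (∀ i, p k i i = 1) ∧ (q k).IsUpperTriangular ∧ (∀ i, q k i i = 1) ∧
      (l' k).IsLowerTriangular ∧ l k * p k = q k * l' k) ∧
    (∀ k, k = 0 ∨ 2 * g + n ≤ k → l k = 1 ∧ p k = 1 ∧ q k = 1 ∧ l' k = 1) ∧
    G 0 = 1 ∧ (∀ k, G (k + 1) = G k * q k) ∧
    (∀ h : Fin g,
      x h * (G (2 * h + 1) * l (2 * h + 1) * p (2 * h + 1)) =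
        G (2 * h) * l (2 * h) * p (2 * h) * gpAnti (t h) ∧
      y h * (G (2 * h + 1) * l (2 * h + 1)) =
        G (2 * h + 2) * l (2 * h + 2) * gpAnti (t' h)) ∧
    (∀ j : Fin n, z j * (G (2 * g + j + 1) * l (2 * g + j + 1)) =
      G (2 * g + j) * l (2 * g + j) * p (2 * g + j) * Matrix.diagonal (τ j))

theorem gpChart_iff {g n r : ℕ} (c : Fin r → ℂ) (d : Fin n → Fin r → ℂ)
    (x y : Fin g → Matrix.SpecialLinearGroup (Fin r) ℂ)
    (z : Fin n → Matrix.SpecialLinearGroup (Fin r) ℂ) :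
    gpChart c d x y z ↔
      ∃ (l p q l' G : ℕ → Matrix (Fin r) (Fin r) ℂ) (t t' : Fin g → Fin r → ℂ)
        (τ : Fin n → Fin r → ℂ),
        gpRel (fun h => (x h).1) (fun h => (y h).1) (fun j => (z j).1) l p q l' G t t' τ ∧
        (∀ j, (z j).1.charpoly = ∏ i, (X - C (d j i))) ∧
        ((List.ofFn fun h => x h * y h * (x h)⁻¹ * (y h)⁻¹).prod * (List.ofFn z).prod).1.charpoly =
          ∏ i, (X - C (c i)) ∧
        ∀ k, 1 ≤ k → k + 1 ≤ 2 * g + n → ∀ δ i m : ℕ, δ ≤ 1 → 1 ≤ m → i + δ + m ≤ r →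
          gwMinor (l k * p k) i (i + δ) m ≠ 0 :=
  Iff.rfl

/-- The same chart with prescribed diagonals (in a fixed order) instead of characteristic
polynomials: the diagonal of the lower triangular matrix conjugate to `z j` is `d j`, and the
diagonal of the (upper triangular) loop around the last puncture is `c`. -/
def gpChartO {g n r : ℕ} (c : Fin r → ℂ) (d : Fin n → Fin r → ℂ)
    (x y : Fin g → Matrix.SpecialLinearGroup (Fin r) ℂ)
    (z : Fin n → Matrix.SpecialLinearGroup (Fin r) ℂ) : Prop :=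
  ∃ (l p q l' G : ℕ → Matrix (Fin r) (Fin r) ℂ) (t t' : Fin g → Fin r → ℂ)
    (τ : Fin n → Fin r → ℂ),
    gpRel (fun h => (x h).1) (fun h => (y h).1) (fun j => (z j).1) l p q l' G t t' τ ∧
    (∀ (j : Fin n) (i : Fin r), l' (2 * g + j) i i * τ j i = d j i) ∧
    (∀ i, ((List.ofFn fun h => x h * y h * (x h)⁻¹ * (y h)⁻¹).prod * (List.ofFn z).prod).1 i i = c i) ∧
    ∀ k, 1 ≤ k → k + 1 ≤ 2 * g + n → ∀ δ i m : ℕ, δ ≤ 1 → 1 ≤ m → i + δ + m ≤ r →
      gwMinor (l k * p k) i (i + δ) m ≠ 0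

/-- The sign of the determinant of an antidiagonal matrix. -/
def gpSgn (R : Type*) [CommRing R] (r : ℕ) : Rˣ := (-1) ^ (r * (r - 1) / 2)

/-- A family with product `gpSgn` built from a free family. -/
def gpT {R : Type*} [CommRing R] {r : ℕ} (ε : Fin r → Rˣ) : Fin r → Rˣ :=
  fun a => gwE ε a * (if (a : ℕ) = 0 then gpSgn R r else 1)

/-- Index type of the parameters: free wall data of each cell, free data for the trailing
diagonals of the cells, and free data for the antidiagonal matrices of the handles. -/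
abbrev GpIdx (g n r : ℕ) : Type :=
  (Fin (2 * g + n) × (Fin 2 × Fin r × Fin (r + 1))) ⊕
    ((Fin (2 * g + n) × Fin r) ⊕ (Fin g × Fin 2 × Fin r))

/-- The free wall data of the cell `k`. -/
def gpWall {R : Type*} [CommRing R] {g n r : ℕ} (s : GpIdx g n r → Rˣ) (k : ℕ) :
    Fin 2 × Fin r × Fin (r + 1) → Rˣ :=
  fun w => if h : k < 2 * g + n then s (Sum.inl (⟨k, h⟩, w)) else 1

/-- The antidiagonal data of the handle `h` (`b = 0` for `x h`, `b = 1` for `y h`). -/
def gpTt {R : Type*} [CommRing R] {g n r : ℕ} (s : GpIdx g n r → Rˣ) (h : Fin g) (b : Fin 2) :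
    Fin r → Rˣ :=
  gpT (fun i => s (Sum.inr (Sum.inr (h, b, i))))

/-- The trailing diagonals of the cells, with the last nontrivial cell set to `1`. -/
def gpE0 {R : Type*} [CommRing R] {g n r : ℕ} (s : GpIdx g n r → Rˣ) : ℕ → Fin r → Rˣ :=
  fun k => if h : 1 ≤ k ∧ k + 1 < 2 * g + n then
      gwE (fun i => s (Sum.inr (Sum.inl (⟨k, by omega⟩, i))))
    else 1

/-- The diagonal of the loop around the last puncture, as a function of the trailing diagonals
`e` of the cells, the antidiagonal data `t, t'` and the diagonals `d` at the other punctures. -/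
def gpApex {G : Type*} [CommGroup G] {g n r : ℕ} (e : ℕ → Fin r → G) (t t' : Fin g → Fin r → G)
    (d : Fin n → Fin r → G) : Fin r → G :=
  fun i => (∏ h : Fin g, t h i * t' h (Fin.rev i) * (t h (Fin.rev i))⁻¹ * (t' h i)⁻¹ *
      (e (2 * h) (Fin.rev i))⁻¹ * (e (2 * h + 1) (Fin.rev i))⁻¹) *
    ∏ j : Fin n, d j i * (e (2 * g + j) i)⁻¹

/-- The trailing diagonals of the cells: free for the cells before the last nontrivial one,
and determined for the last nontrivial cell by the diagonal `c` at the last puncture. -/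
def gpE {R : Type*} [CommRing R] {g n r : ℕ} (c : Fin r → Rˣ) (d : Fin n → Fin r → Rˣ)
    (s : GpIdx g n r → Rˣ) : ℕ → Fin r → Rˣ :=
  fun k i => if k + 1 = 2 * g + n then
      (if n = 0 then
        gpApex (gpE0 s) (fun h => gpTt s h 0) (fun h => gpTt s h 1) d (Fin.rev i) *
          (c (Fin.rev i))⁻¹
      else gpApex (gpE0 s) (fun h => gpTt s h 0) (fun h => gpTt s h 1) d i * (c i)⁻¹)
    else gpE0 s k i

/-- `(x, y, z)` is the chart point with diagonal data `c, d` and parameters `s`. -/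
def gpIsPt {R : Type*} [CommRing R] {g n r : ℕ} (c : Fin r → Rˣ) (d : Fin n → Fin r → Rˣ)
    (s : GpIdx g n r → Rˣ) (x y : Fin g → Matrix (Fin r) (Fin r) R)
    (z : Fin n → Matrix (Fin r) (Fin r) R) : Prop :=
  ∃ (l p q l' G P Pi Q Qi : ℕ → Matrix (Fin r) (Fin r) R),
    (∀ k, 1 ≤ k → k + 1 ≤ 2 * g + n →
      gwCell (fun _ => (1 : R)) (fun i => (gpE c d s k i : R)) (l k) (p k) (q k) (l' k) ∧
      ∀ δ i m : ℕ, δ ≤ 1 → 1 ≤ m → i + δ + m ≤ r → ¬ (δ = 0 ∧ (i = 0 ∨ i + m = r)) →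
        gwMinor (l k * p k) i (i + δ) m = (gwFr r (gpWall s k) δ i m : R)) ∧
    (∀ k, k = 0 ∨ 2 * g + n ≤ k → l k = 1 ∧ p k = 1 ∧ q k = 1 ∧ l' k = 1) ∧
    G 0 = 1 ∧ (∀ k, G (k + 1) = G k * q k) ∧
    (∀ k, P k = G k * l k ∧ Q k = P k * p k ∧ P k * Pi k = 1 ∧ Pi k * P k = 1 ∧
      Q k * Qi k = 1 ∧ Qi k * Q k = 1) ∧
    (∀ h : Fin g,
      x h = Q (2 * h) * gpAnti (fun i => (gpTt s h 0 i : R)) * Qi (2 * h + 1) ∧
      y h = P (2 * h + 2) * gpAnti (fun i => (gpTt s h 1 i : R)) * Pi (2 * h + 1)) ∧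
    ∀ j : Fin n, z j = Q (2 * g + j) *
      Matrix.diagonal (fun i => ((d j i * (gpE c d s (2 * g + j) i)⁻¹ : Rˣ) : R)) *
        Pi (2 * g + j + 1)

/-- The point of the affine space of tuples of matrices given by `(x, y, z)`. -/
def gpPt {g n r : ℕ} (x y : Fin g → Matrix (Fin r) (Fin r) ℂ)
    (z : Fin n → Matrix (Fin r) (Fin r) ℂ) : (Fin g ⊕ Fin g ⊕ Fin n) × Fin r × Fin r → ℂ :=
  fun v => Sum.elim x (Sum.elim y z) v.1 v.2.1 v.2.2

end Vale.Agent.Lib.P002
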