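import Vale.Agent.Lib.P002.GPCore
import Vale.Agent.Lib.P002.GPChartEquiv
import Vale.Agent.Lib.P002.GWMain

/-!
# Density of integral points on the wall chart: punctured surfaces of any genus, any rank
-/

noncomputable section

namespace Vale.Agent.Lib.P002

open Polynomial Matrix

/-- The number field generated by a finite set of algebraic integers and `√2` contains
infinitely many units. -/
theorem gwFieldE (S : Set ℂ) (hSfin : S.Finite) (hSint : ∀ x ∈ S, IsIntegral ℤ x) :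
    FiniteDimensional ℚ (IntermediateField.adjoin ℚ (S ∪ {((Real.sqrt 2 : ℝ) : ℂ)})) ∧
      (∀ x ∈ S, x ∈ IntermediateField.adjoin ℚ (S ∪ {((Real.sqrt 2 : ℝ) : ℂ)})) ∧
      ∀ u ∈ (Subgroup.zpowers unitW : Set ℂˣ),
        (IsIntegral ℤ (u : ℂ) ∧
            (u : ℂ) ∈ IntermediateField.adjoin ℚ (S ∪ {((Real.sqrt 2 : ℝ) : ℂ)})) ∧
          (IsIntegral ℤ ((u⁻¹ : ℂˣ) : ℂ) ∧
            ((u⁻¹ : ℂˣ) : ℂ) ∈ IntermediateField.adjoin ℚ (S ∪ {((Real.sqrt 2 : ℝ) : ℂ)})) := by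
  classical
  have hs : ((Real.sqrt 2 : ℝ) : ℂ) = sqrtTwo := rfl
  rw [hs]
  let T : Set ℂ := S ∪ {sqrtTwo}
  let L : IntermediateField ℚ ℂ := IntermediateField.adjoin ℚ T
  have hTint : ∀ x ∈ T, IsIntegral ℤ x := by
    rintro x (hx | hx)
    · exact hSint x hx
    · rw [Set.mem_singleton_iff] at hx
      rw [hx]
      exact isIntegral_sqrtTwo
  have hTfin : T.Finite := hSfin.union (Set.finite_singleton _)
  have hfin : FiniteDimensional ℚ L := by
    have : Finite T := hTfin.to_subtype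
    exact IntermediateField.finiteDimensional_adjoin (fun x hx => (hTint x hx).tower_top)
  have hTL : ∀ x ∈ T, x ∈ L := fun x hx => IntermediateField.subset_adjoin ℚ T hx
  have hsqrt : sqrtTwo ∈ L := hTL _ (Or.inr rfl)
  have key : ∀ u ∈ (Subgroup.zpowers unitW : Set ℂˣ), IsIntegral ℤ (u : ℂ) ∧ (u : ℂ) ∈ L := by
    intro u hu
    refine ⟨isIntegral_of_mem_zpowers hu, ?_⟩
    obtain ⟨k, rfl⟩ := hu
    rw [Units.val_zpow_eq_zpow_val, unitW_val]
    exact zpow_mem (add_mem (one_mem _) hsqrt) k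
  exact ⟨hfin, fun x hx => hTL x (Or.inl hx), fun u hu => ⟨key u hu, key _ (inv_mem hu)⟩⟩

/-- **Density of integral points on the wall chart**, for local systems of arbitrary rank `r`
on the surface of genus `g` with `n + 1` punctures (`2 g + n ≥ 2`) with prescribed
characteristic polynomials of all boundary monodromies.  The number field is generated by the
prescribed eigenvalues and `√2`. -/
theorem gp_density (g n r : ℕ) (hN : 2 ≤ 2 * g + n) (c : Fin r → ℂ) (d : Fin n → Fin r → ℂ)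
    (hc : ∀ i, IsIntegral ℤ (c i)) (hd : ∀ j i, IsIntegral ℤ (d j i))
    (hc1 : ∏ i, c i = 1) (hd1 : ∀ j, ∏ i, d j i = 1) :
    ∃ L : IntermediateField ℚ ℂ,
      L = IntermediateField.adjoin ℚ (Set.range c ∪
        Set.range (fun v : Fin n × Fin r => d v.1 v.2) ∪ {((Real.sqrt 2 : ℝ) : ℂ)}) ∧
      FiniteDimensional ℚ L ∧
      (∃ (x y : Fin g → Matrix.SpecialLinearGroup (Fin r) ℂ)
        (z : Fin n → Matrix.SpecialLinearGroup (Fin r) ℂ), gpChart c d x y z) ∧
      ∀ F : MvPolynomial ((Fin g ⊕ Fin g ⊕ Fin n) × Fin r × Fin r) ℂ,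
        (∀ (x y : Fin g → Matrix.SpecialLinearGroup (Fin r) ℂ)
            (z : Fin n → Matrix.SpecialLinearGroup (Fin r) ℂ),
          (∀ h i j, (x h).1 i j ∈ L ∧ IsIntegral ℤ ((x h).1 i j)) →
          (∀ h i j, (y h).1 i j ∈ L ∧ IsIntegral ℤ ((y h).1 i j)) →
          (∀ t i j, (z t).1 i j ∈ L ∧ IsIntegral ℤ ((z t).1 i j)) →
          (∀ t, (z t).1.charpoly = ∏ i, (X - C (d t i))) →
          ((List.ofFn fun h => x h * y h * (x h)⁻¹ * (y h)⁻¹).prod * (List.ofFn z).prod).1.charpoly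
            = ∏ i, (X - C (c i)) →
          MvPolynomial.eval (fun v => Sum.elim (fun h => (x h).1)
            (Sum.elim (fun h => (y h).1) (fun t => (z t).1)) v.1 v.2.1 v.2.2) F = 0) →
        ∀ (x y : Fin g → Matrix.SpecialLinearGroup (Fin r) ℂ)
          (z : Fin n → Matrix.SpecialLinearGroup (Fin r) ℂ), gpChart c d x y z →
          MvPolynomial.eval (fun v => Sum.elim (fun h => (x h).1)
            (Sum.elim (fun h => (y h).1) (fun t => (z t).1)) v.1 v.2.1 v.2.2) F = 0 := by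
  classical
  obtain ⟨hfin, hSL, hUL⟩ := gwFieldE
    (Set.range c ∪ Set.range (fun v : Fin n × Fin r => d v.1 v.2))
    ((Set.finite_range c).union (Set.finite_range _)) (by
      rintro v (⟨i, rfl⟩ | ⟨i, rfl⟩)
      · exact hc i
      · exact hd _ _)
  refine ⟨_, rfl, hfin, ?_, ?_⟩
  · -- the chart is not empty
    let cU : Fin r → ℂˣ := fun i => Units.mk0 (c i) (gw_ne_zero c hc1 i)
    let dU : Fin n → Fin r → ℂˣ := fun j i => Units.mk0 (d j i) (gw_ne_zero (d j) (hd1 j) i)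
    have hcU : ∏ i, cU i = 1 := by
      ext
      rw [Units.coe_prod]
      simp only [cU, Units.val_mk0]
      rw [hc1]
      rfl
    have hdU : ∀ j, ∏ i, dU j i = 1 := by
      intro j
      ext
      rw [Units.coe_prod]
      simp only [dU, Units.val_mk0]
      rw [hd1 j]
      rfl
    obtain ⟨x, y, z, hpt⟩ := gpIsPt_exists hN cU dU hcU hdU (fun _ => 1)
    obtain ⟨d1, d2⟩ := gpIsPt_det hN cU dU hcU hdU _ hpt
    exact ⟨fun h => ⟨x h, (d1 h).1⟩, fun h => ⟨y h, (d1 h).2⟩, fun j => ⟨z j, d2 j⟩,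
      gpChart_of_chartO _ _ _ _ _ (gpIsPt_chartO hN cU dU hcU hdU _ _ _ _ hpt)⟩
  · intro F Hvan x y z hch
    obtain ⟨υ, σ, hO'⟩ := gpChartO_of_chart c d x y z hch
    -- the ring of integers of `L` as a subring of `ℂ`
    let L : IntermediateField ℚ ℂ := IntermediateField.adjoin ℚ (Set.range c ∪
      Set.range (fun v : Fin n × Fin r => d v.1 v.2) ∪ {((Real.sqrt 2 : ℝ) : ℂ)})
    let O : Subring ℂ := (integralClosure ℤ ℂ).toSubring ⊓ L.toSubfield.toSubring
    have hO : ∀ v : ℂ, v ∈ O ↔ IsIntegral ℤ v ∧ v ∈ L := fun v => Iff.rfl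
    have hcO : ∀ i, c i ∈ O := fun i =>
      (hO _).mpr ⟨hc i, hSL _ (Or.inl ⟨i, rfl⟩)⟩
    have hdO : ∀ j i, d j i ∈ O := fun j i =>
      (hO _).mpr ⟨hd j i, hSL _ (Or.inr ⟨(j, i), rfl⟩)⟩
    have hUO : ∀ u ∈ (Subgroup.zpowers unitW : Set ℂˣ),
        (u : ℂ) ∈ O ∧ ((u⁻¹ : ℂˣ) : ℂ) ∈ O :=
      fun u hu => ⟨(hO _).mpr (hUL u hu).1, (hO _).mpr (hUL u hu).2⟩
    let cU : Fin r → ℂˣ := fun i => Units.mk0 (c (υ i)) (gw_ne_zero c hc1 _)
    let dU : Fin n → Fin r → ℂˣ := fun j i =>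
      Units.mk0 (d j (σ j i)) (gw_ne_zero (d j) (hd1 j) _)
    have pc : ∏ i, c (υ i) = 1 := (Equiv.prod_comp υ c).trans hc1
    have pd : ∀ j, ∏ i, d j (σ j i) = 1 := fun j => (Equiv.prod_comp (σ j) (d j)).trans (hd1 j)
    have hcU : ∏ i, cU i = 1 := by
      ext
      rw [Units.coe_prod]
      simp only [cU, Units.val_mk0]
      rw [pc]
      rfl
    have hdU : ∀ j, ∏ i, dU j i = 1 := by
      intro j
      ext
      rw [Units.coe_prod]
      simp only [dU, Units.val_mk0]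
      rw [pd j]
      rfl
    refine gp_core g n r hN cU dU hcU hdU O
      (fun i => ⟨hcO _, gw_inv_mem O c hc1 hcO _⟩)
      (fun j i => ⟨hdO _ _, gw_inv_mem O (d j) (hd1 j) (hdO j) _⟩)
      _ infinite_zpowers_unitW hUO F ?_ x y z hO'
    intro x' y' z' hch' hxO hyO hzO
    obtain ⟨l, p, q, l', G, t, t', τ, -, k1, k2, -⟩ := gpChart_of_chartO _ _ x' y' z' hch'
    exact Hvan x' y' z'
      (fun h i j => ⟨((hO _).mp (hxO h i j)).2, ((hO _).mp (hxO h i j)).1⟩)
      (fun h i j => ⟨((hO _).mp (hyO h i j)).2, ((hO _).mp (hyO h i j)).1⟩)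
      (fun t i j => ⟨((hO _).mp (hzO t i j)).2, ((hO _).mp (hzO t i j)).1⟩)
      (fun t => (k1 t).trans (Equiv.prod_comp (σ t) (fun i => X - C (d t i))))
      (k2.trans (Equiv.prod_comp υ (fun i => X - C (c i))))

end Vale.Agent.Lib.P002

end
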