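import Vale.Agent.Lib.P002.GPDefs
import Vale.Agent.Lib.P002.GPT
import Vale.Agent.Lib.P002.GSRot

/-!
# The parameter data commute with ring homomorphisms
-/

open Matrix

namespace Vale.Agent.Lib.P002

theorem gpWall_map {R S : Type*} [CommRing R] [CommRing S] (f : R →+* S) {g n r : ℕ}
    (s : GpIdx g n r → Rˣ) (k : ℕ) (w : Fin 2 × Fin r × Fin (r + 1)) :
    Units.map (f : R →* S) (gpWall s k w) =
      gpWall (fun v => Units.map (f : R →* S) (s v)) k w := by
  unfold gpWall
  by_cases h : k < 2 * g + n
  · simp only [dif_pos h]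
  · simp only [dif_neg h, map_one]

theorem gpTt_map {R S : Type*} [CommRing R] [CommRing S] (f : R →+* S) {g n r : ℕ}
    (s : GpIdx g n r → Rˣ) (h : Fin g) (b : Fin 2) (i : Fin r) :
    Units.map (f : R →* S) (gpTt s h b i) =
      gpTt (fun v => Units.map (f : R →* S) (s v)) h b i := by
  unfold gpTt
  exact gpT_map f _ i

/-- The free trailing diagonals commute with ring homomorphisms. -/
theorem gpSolveMapAux_gpE0 {R S : Type*} [CommRing R] [CommRing S] (f : R →+* S) {g n r : ℕ}
    (s : GpIdx g n r → Rˣ) (k : ℕ) (i : Fin r) :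
    Units.map (f : R →* S) (gpE0 s k i) =
      gpE0 (fun v => Units.map (f : R →* S) (s v)) k i := by
  unfold gpE0
  by_cases h : 1 ≤ k ∧ k + 1 < 2 * g + n
  · simp only [dif_pos h]
    exact gsRotAux_gwE_map (Units.map (f : R →* S)) _ i
  · simp only [dif_neg h, Pi.one_apply, map_one]

/-- The apex diagonal commutes with homomorphisms of commutative groups. -/
theorem gpSolveMapAux_gpApex {G H : Type*} [CommGroup G] [CommGroup H] (φ : G →* H)
    {g n r : ℕ} (e : ℕ → Fin r → G) (t t' : Fin g → Fin r → G) (d : Fin n → Fin r → G)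
    (i : Fin r) :
    φ (gpApex e t t' d i) =
      gpApex (fun k i => φ (e k i)) (fun h i => φ (t h i)) (fun h i => φ (t' h i))
        (fun j i => φ (d j i)) i := by
  unfold gpApex
  simp only [map_mul, map_prod, map_inv]

theorem gpE_map {R S : Type*} [CommRing R] [CommRing S] (f : R →+* S) {g n r : ℕ}
    (c : Fin r → Rˣ) (d : Fin n → Fin r → Rˣ) (s : GpIdx g n r → Rˣ) (k : ℕ) (i : Fin r) :
    Units.map (f : R →* S) (gpE c d s k i) =
      gpE (fun i => Units.map (f : R →* S) (c i)) (fun j i => Units.map (f : R →* S) (d j i))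
        (fun v => Units.map (f : R →* S) (s v)) k i := by
  have e1 : (fun k i => Units.map (f : R →* S) (gpE0 s k i)) =
      gpE0 (fun v => Units.map (f : R →* S) (s v)) := by
    funext k i
    exact gpSolveMapAux_gpE0 f s k i
  have e2 : (fun h i => Units.map (f : R →* S) (gpTt s h 0 i)) =
      fun h => gpTt (fun v => Units.map (f : R →* S) (s v)) h 0 := by
    funext h i
    exact gpTt_map f s h 0 i
  have e3 : (fun h i => Units.map (f : R →* S) (gpTt s h 1 i)) =
      fun h => gpTt (fun v => Units.map (f : R →* S) (s v)) h 1 := by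
    funext h i
    exact gpTt_map f s h 1 i
  unfold gpE
  by_cases h1 : k + 1 = 2 * g + n
  · simp only [if_pos h1]
    by_cases h2 : n = 0
    · simp only [if_pos h2]
      rw [map_mul, map_inv, gpSolveMapAux_gpApex, e1, e2, e3]
    · simp only [if_neg h2]
      rw [map_mul, map_inv, gpSolveMapAux_gpApex, e1, e2, e3]
  · simp only [if_neg h1]
    exact gpSolveMapAux_gpE0 f s k i

end Vale.Agent.Lib.P002
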