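import Vale.Agent.Lib.P002.GQSec
import Vale.Agent.Lib.P002.GPExist
import Vale.Agent.Lib.P002.GPUnique
import Vale.Agent.Lib.P002.GPMap

/-!
# The chart points are Laurent polynomials in the parameters
-/

open Matrix

namespace Vale.Agent.Lib.P002

/-- Evaluation of a polynomial at the parameters and their inverses, as a ring homomorphism into
the ring of functions of the parameters. -/
noncomputable def gqAlgAux_Psi (ι : Type) : MvPolynomial (ι ⊕ ι) ℂ →+* ((ι → ℂˣ) → ℂ) :=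
  RingHom.pi (fun s => MvPolynomial.eval
    (Sum.elim (fun i => (s i : ℂ)) (fun i => (((s i)⁻¹ : ℂˣ) : ℂ))))

theorem gqAlgAux_Psi_apply (ι : Type) (P : MvPolynomial (ι ⊕ ι) ℂ) (s : ι → ℂˣ) :
    gqAlgAux_Psi ι P s = MvPolynomial.eval
      (Sum.elim (fun i => (s i : ℂ)) (fun i => (((s i)⁻¹ : ℂˣ) : ℂ))) P := rfl

/-- The coordinate functions, units of the ring of Laurent polynomial functions. -/
noncomputable def gqAlgAux_T (ι : Type) (i : ι) : ((gqAlgAux_Psi ι).range)ˣ where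
  val := ⟨gqAlgAux_Psi ι (MvPolynomial.X (Sum.inl i)), ⟨_, rfl⟩⟩
  inv := ⟨gqAlgAux_Psi ι (MvPolynomial.X (Sum.inr i)), ⟨_, rfl⟩⟩
  val_inv := by
    apply Subtype.ext
    funext s
    show gqAlgAux_Psi ι (MvPolynomial.X (Sum.inl i)) s *
      gqAlgAux_Psi ι (MvPolynomial.X (Sum.inr i)) s = 1
    rw [gqAlgAux_Psi_apply, gqAlgAux_Psi_apply, MvPolynomial.eval_X, MvPolynomial.eval_X]
    simp
  inv_val := by
    apply Subtype.ext
    funext s
    show gqAlgAux_Psi ι (MvPolynomial.X (Sum.inr i)) s *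
      gqAlgAux_Psi ι (MvPolynomial.X (Sum.inl i)) s = 1
    rw [gqAlgAux_Psi_apply, gqAlgAux_Psi_apply, MvPolynomial.eval_X, MvPolynomial.eval_X]
    simp

/-- Constant functions. -/
noncomputable def gqAlgAux_K (ι : Type) : ℂ →+* (gqAlgAux_Psi ι).range :=
  (gqAlgAux_Psi ι).rangeRestrict.comp MvPolynomial.C

/-- Evaluation at a point of the parameter torus. -/
noncomputable def gqAlgAux_ev (ι : Type) (s : ι → ℂˣ) : (gqAlgAux_Psi ι).range →+* ℂ :=
  (Pi.evalRingHom (fun _ : ι → ℂˣ => ℂ) s).comp (gqAlgAux_Psi ι).range.subtype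

theorem gqAlgAux_ev_K (ι : Type) (s : ι → ℂˣ) (a : ℂ) :
    gqAlgAux_ev ι s (gqAlgAux_K ι a) = a := by
  show gqAlgAux_Psi ι (MvPolynomial.C a) s = a
  rw [gqAlgAux_Psi_apply, MvPolynomial.eval_C]

theorem gqAlgAux_ev_T (ι : Type) (s : ι → ℂˣ) (i : ι) :
    gqAlgAux_ev ι s (gqAlgAux_T ι i : (gqAlgAux_Psi ι).range) = (s i : ℂ) := by
  show gqAlgAux_Psi ι (MvPolynomial.X (Sum.inl i)) s = (s i : ℂ)
  rw [gqAlgAux_Psi_apply, MvPolynomial.eval_X]
  rfl

theorem gqAlgAux_ev_poly (ι : Type) (e : (gqAlgAux_Psi ι).range) :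
    ∃ P : MvPolynomial (ι ⊕ ι) ℂ, ∀ s : ι → ℂˣ,
      gqAlgAux_ev ι s e = MvPolynomial.eval
        (Sum.elim (fun i => (s i : ℂ)) (fun i => (((s i)⁻¹ : ℂˣ) : ℂ))) P := by
  obtain ⟨P, hP⟩ := RingHom.mem_range.mp e.2
  refine ⟨P, fun s => ?_⟩
  rw [← gqAlgAux_Psi_apply, hP]
  rfl

/-- The entries of the chart point with parameters `gqSec j s` are Laurent polynomials in `s`:
polynomials in the `s i` and their inverses. -/
theorem gq_alg {g n r : ℕ} (hN : 2 ≤ 2 * g + n) (c : Fin r → ℂˣ) (d : Fin n → Fin r → ℂˣ)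
    (hc : ∏ i, c i = 1) (hd : ∀ j, ∏ i, d j i = 1) {ι : Type} (j : ι → GpIdx g n r)
    (X Y : (ι → ℂˣ) → Fin g → Matrix (Fin r) (Fin r) ℂ)
    (Z : (ι → ℂˣ) → Fin n → Matrix (Fin r) (Fin r) ℂ)
    (hpt : ∀ s, gpIsPt c d (gqSec j s) (X s) (Y s) (Z s))
    (v : (Fin g ⊕ Fin g ⊕ Fin n) × Fin r × Fin r) :
    ∃ P : MvPolynomial (ι ⊕ ι) ℂ, ∀ s : ι → ℂˣ,
      gpPt (X s) (Y s) (Z s) v =
        MvPolynomial.eval (Sum.elim (fun i => (s i : ℂ)) (fun i => (((s i)⁻¹ : ℂˣ) : ℂ))) P := by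
  obtain ⟨cU, hcU⟩ : ∃ cU : ℂˣ →* ((gqAlgAux_Psi ι).range)ˣ,
      cU = Units.map (gqAlgAux_K ι : ℂ →* (gqAlgAux_Psi ι).range) := ⟨_, rfl⟩
  have hcL : ∏ i, cU (c i) = 1 := by
    rw [← map_prod, hc, map_one]
  have hdL : ∀ t, ∏ i, cU (d t i) = 1 := by
    intro t
    rw [← map_prod, hd t, map_one]
  obtain ⟨x0, y0, z0, hpt0⟩ := gpIsPt_exists hN (fun i => cU (c i)) (fun t i => cU (d t i))
    hcL hdL (gqSec j (gqAlgAux_T ι))
  have key : ∀ s : ι → ℂˣ, X s = (fun h => (x0 h).map (gqAlgAux_ev ι s)) ∧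
      Y s = (fun h => (y0 h).map (gqAlgAux_ev ι s)) ∧
      Z s = (fun t => (z0 t).map (gqAlgAux_ev ι s)) := by
    intro s
    have hm := hpt0.map (gqAlgAux_ev ι s)
    have ea : (fun i => Units.map (gqAlgAux_ev ι s : (gqAlgAux_Psi ι).range →* ℂ) (cU (c i)))
        = c := by
      funext i
      apply Units.ext
      rw [hcU]
      exact gqAlgAux_ev_K ι s (c i)
    have eb : (fun t i => Units.map (gqAlgAux_ev ι s : (gqAlgAux_Psi ι).range →* ℂ)
        (cU (d t i))) = d := by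
      funext t i
      apply Units.ext
      rw [hcU]
      exact gqAlgAux_ev_K ι s (d t i)
    have es : (fun w => Units.map (gqAlgAux_ev ι s : (gqAlgAux_Psi ι).range →* ℂ)
        (gqSec j (gqAlgAux_T ι) w)) = gqSec j s := by
      funext w
      rw [gqSec_map (Units.map (gqAlgAux_ev ι s : (gqAlgAux_Psi ι).range →* ℂ)) j
        (gqAlgAux_T ι) w]
      have e2 : (fun i => Units.map (gqAlgAux_ev ι s : (gqAlgAux_Psi ι).range →* ℂ)
          (gqAlgAux_T ι i)) = s := by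
        funext i
        apply Units.ext
        exact gqAlgAux_ev_T ι s i
      rw [e2]
    rw [ea, eb, es] at hm
    exact gpIsPt_unique c d (gqSec j s) (hpt s) hm
  rcases v with ⟨(h | h | t), a, b⟩
  · obtain ⟨P, hP⟩ := gqAlgAux_ev_poly ι (x0 h a b)
    refine ⟨P, fun s => ?_⟩
    rw [← hP s]
    show X s h a b = gqAlgAux_ev ι s (x0 h a b)
    rw [(key s).1]
    rfl
  · obtain ⟨P, hP⟩ := gqAlgAux_ev_poly ι (y0 h a b)
    refine ⟨P, fun s => ?_⟩
    rw [← hP s]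
    show Y s h a b = gqAlgAux_ev ι s (y0 h a b)
    rw [(key s).2.1]
    rfl
  · obtain ⟨P, hP⟩ := gqAlgAux_ev_poly ι (z0 t a b)
    refine ⟨P, fun s => ?_⟩
    rw [← hP s]
    show Z s t a b = gqAlgAux_ev ι s (z0 t a b)
    rw [(key s).2.2]
    rfl

end Vale.Agent.Lib.P002
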