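import Vale.Agent.Lib.P002.GQDefs

/-!
# The number of effective parameters
-/

namespace Vale.Agent.Lib.P002

/-- The number of ordered pairs of distinct elements of `Fin m`. -/
theorem gqCardAux_offdiag (m : ℕ) [Fintype {v : Fin m × Fin m // v.1 ≠ v.2}] :
    Fintype.card {v : Fin m × Fin m // v.1 ≠ v.2} + m = m * m := by
  have h1 : Fintype.card {v : Fin m × Fin m // v.1 ≠ v.2}
      = (Finset.univ : Finset (Fin m)).offDiag.card :=
    Fintype.card_of_subtype _ (fun x => by simp [Finset.mem_offDiag])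
  rw [h1, Finset.offDiag_card, Finset.card_univ, Fintype.card_fin]
  exact Nat.sub_add_cancel (Nat.le_mul_self m)

theorem gq_card (g n r : ℕ) (hN : 2 ≤ 2 * g + n) :
    Fintype.card (GqIdx g n r) + 2 * (r - 1) = (r - 1) * ((2 * g + n - 1) * r + 2 * g) := by
  have haux := gqCardAux_offdiag (r - 1)
  simp only [Fintype.card_sum, Fintype.card_prod, Fintype.card_fin]
  obtain ⟨c, hc⟩ : ∃ c, Fintype.card {v : Fin (r - 1) × Fin (r - 1) // v.1 ≠ v.2} = c :=
    ⟨_, rfl⟩
  rw [hc] at haux ⊢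
  obtain ⟨N', hN'⟩ : ∃ N', 2 * g + n = N' + 2 := ⟨2 * g + n - 2, by omega⟩
  rw [hN']
  have e1 : N' + 2 - 2 = N' := by omega
  have e2 : N' + 2 - 1 = N' + 1 := by omega
  rw [e1, e2]
  rcases Nat.eq_zero_or_pos r with hr | hr
  · subst hr
    simp only [Nat.zero_sub, Nat.mul_zero, Nat.add_zero, Nat.zero_mul] at haux ⊢
    omega
  · obtain ⟨ρ, rfl⟩ : ∃ ρ, r = ρ + 1 := ⟨r - 1, by omega⟩
    simp only [Nat.add_sub_cancel] at haux ⊢
    nlinarith [haux]

end Vale.Agent.Lib.P002
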