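import Vale.Agent.Lib.P002.GQDefs

/-!
# Conjugation by diagonal matrices preserves the relations of the chart
-/

open Matrix

namespace Vale.Agent.Lib.P002

theorem gqConj_apply {r : ℕ} (δ : Fin r → ℂ) (M : Matrix (Fin r) (Fin r) ℂ) (i j : Fin r) :
    gqConj δ M i j = δ i * M i j * (δ j)⁻¹ := by
  unfold gqConj
  rw [Matrix.mul_diagonal, Matrix.diagonal_mul]

theorem gqConjAux_inv_mul {r : ℕ} (δ : Fin r → ℂ) (hδ : ∀ i, δ i ≠ 0) :
    Matrix.diagonal (fun i => (δ i)⁻¹) * Matrix.diagonal δ = 1 := by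
  rw [Matrix.diagonal_mul_diagonal]
  have h1 : (fun i => (δ i)⁻¹ * δ i) = fun _ => (1 : ℂ) := by
    funext i
    exact inv_mul_cancel₀ (hδ i)
  rw [h1]
  exact Matrix.diagonal_one

theorem gqConjAux_mul_inv {r : ℕ} (δ : Fin r → ℂ) (hδ : ∀ i, δ i ≠ 0) :
    Matrix.diagonal δ * Matrix.diagonal (fun i => (δ i)⁻¹) = 1 := by
  rw [Matrix.diagonal_mul_diagonal]
  have h1 : (fun i => δ i * (δ i)⁻¹) = fun _ => (1 : ℂ) := by
    funext i
    exact mul_inv_cancel₀ (hδ i)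
  rw [h1]
  exact Matrix.diagonal_one

theorem gqConj_mul {r : ℕ} (δ : Fin r → ℂ) (hδ : ∀ i, δ i ≠ 0)
    (M M' : Matrix (Fin r) (Fin r) ℂ) : gqConj δ (M * M') = gqConj δ M * gqConj δ M' := by
  unfold gqConj
  have h1 : Matrix.diagonal δ * M * Matrix.diagonal (fun i => (δ i)⁻¹) *
      (Matrix.diagonal δ * M' * Matrix.diagonal (fun i => (δ i)⁻¹)) =
      Matrix.diagonal δ * M * (Matrix.diagonal (fun i => (δ i)⁻¹) * Matrix.diagonal δ) * M' *
        Matrix.diagonal (fun i => (δ i)⁻¹) := by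
    simp only [Matrix.mul_assoc]
  rw [h1, gqConjAux_inv_mul δ hδ, Matrix.mul_one]
  simp only [Matrix.mul_assoc]

theorem gqConj_one {r : ℕ} (δ : Fin r → ℂ) (hδ : ∀ i, δ i ≠ 0) :
    gqConj δ (1 : Matrix (Fin r) (Fin r) ℂ) = 1 := by
  unfold gqConj
  rw [Matrix.mul_one, gqConjAux_mul_inv δ hδ]

/-- Conjugation by a scalar matrix is trivial. -/
theorem gqConj_scalar {r : ℕ} (δ : Fin r → ℂ) (hδ : ∀ i, δ i ≠ 0) (h : ∀ i j, δ i = δ j)
    (M : Matrix (Fin r) (Fin r) ℂ) : gqConj δ M = M := by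
  ext i j
  rw [gqConj_apply, h i j, mul_comm (δ j), mul_assoc, mul_inv_cancel₀ (hδ j), mul_one]

/-- If `γ = diagonal δ` is invertible and `γ * a = b * γ`, then `b` is the conjugate of `a`. -/
theorem gqConj_of_comm {r : ℕ} (δ : Fin r → ℂ) (hδ : ∀ i, δ i ≠ 0)
    (a b : Matrix (Fin r) (Fin r) ℂ) (h : Matrix.diagonal δ * a = b * Matrix.diagonal δ) :
    b = gqConj δ a := by
  unfold gqConj
  rw [h, Matrix.mul_assoc, gqConjAux_mul_inv δ hδ, Matrix.mul_one]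

theorem gqConj_anti {r : ℕ} (δ : Fin r → ℂ) (t : Fin r → ℂ) :
    gqConj δ (gpAnti t) = gpAnti (fun a => δ a * t a * (δ (Fin.rev a))⁻¹) := by
  ext a b
  rw [gqConj_apply]
  unfold gpAnti
  rw [Matrix.of_apply, Matrix.of_apply]
  by_cases hab : (a : ℕ) + (b : ℕ) + 1 = r
  · have hb : b = Fin.rev a := by
      apply Fin.ext
      rw [Fin.val_rev]
      omega
    rw [if_pos hab, if_pos hab, hb]
  · rw [if_neg hab, if_neg hab, mul_zero, zero_mul]

theorem gqConj_diagonal {r : ℕ} (δ : Fin r → ℂ) (hδ : ∀ i, δ i ≠ 0) (τ : Fin r → ℂ) :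
    gqConj δ (Matrix.diagonal τ) = Matrix.diagonal τ := by
  unfold gqConj
  rw [Matrix.diagonal_mul_diagonal, Matrix.diagonal_mul_diagonal]
  congr 1
  funext i
  rw [mul_comm (δ i), mul_assoc, mul_inv_cancel₀ (hδ i), mul_one]

theorem gqConjAux_lower {r : ℕ} (δ : Fin r → ℂ) (M : Matrix (Fin r) (Fin r) ℂ)
    (hM : M.IsLowerTriangular) : (gqConj δ M).IsLowerTriangular := by
  intro i j hij
  rw [gqConj_apply, hM hij, mul_zero, zero_mul]

theorem gqConjAux_upper {r : ℕ} (δ : Fin r → ℂ) (M : Matrix (Fin r) (Fin r) ℂ)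
    (hM : M.IsUpperTriangular) : (gqConj δ M).IsUpperTriangular := by
  intro i j hij
  rw [gqConj_apply, hM hij, mul_zero, zero_mul]

theorem gqConjAux_diag_one {r : ℕ} (δ : Fin r → ℂ) (hδ : ∀ i, δ i ≠ 0)
    (M : Matrix (Fin r) (Fin r) ℂ) (hM : ∀ i, M i i = 1) (i : Fin r) :
    gqConj δ M i i = 1 := by
  rw [gqConj_apply, hM i, mul_one, mul_inv_cancel₀ (hδ i)]

/-- The relations of the chart are preserved by the conjugation by a diagonal matrix. -/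
theorem gq_rel_conj {g n r : ℕ} (x y : Fin g → Matrix (Fin r) (Fin r) ℂ)
    (z : Fin n → Matrix (Fin r) (Fin r) ℂ) (l p q l' G : ℕ → Matrix (Fin r) (Fin r) ℂ)
    (t t' : Fin g → Fin r → ℂ) (τ : Fin n → Fin r → ℂ)
    (h : gpRel x y z l p q l' G t t' τ) (δ : Fin r → ℂ) (hδ : ∀ i, δ i ≠ 0) :
    gpRel (fun h => gqConj δ (x h)) (fun h => gqConj δ (y h)) (fun j => gqConj δ (z j))
      (fun k => gqConj δ (l k)) (fun k => gqConj δ (p k)) (fun k => gqConj δ (q k))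
      (fun k => gqConj δ (l' k)) (fun k => gqConj δ (G k))
      (fun h a => δ a * t h a * (δ (Fin.rev a))⁻¹)
      (fun h a => δ a * t' h a * (δ (Fin.rev a))⁻¹) τ := by
  obtain ⟨hcells, htriv, hG0, hG, hxy, hz⟩ := h
  refine ⟨?_, ?_, ?_, ?_, ?_, ?_⟩
  · intro k
    obtain ⟨h1, h2, h3, h4, h5, h6, h7, h8⟩ := hcells k
    refine ⟨gqConjAux_lower δ _ h1, gqConjAux_diag_one δ hδ _ h2, gqConjAux_upper δ _ h3,
      gqConjAux_diag_one δ hδ _ h4, gqConjAux_upper δ _ h5, gqConjAux_diag_one δ hδ _ h6,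
      gqConjAux_lower δ _ h7, ?_⟩
    show gqConj δ (l k) * gqConj δ (p k) = gqConj δ (q k) * gqConj δ (l' k)
    rw [← gqConj_mul δ hδ, ← gqConj_mul δ hδ, h8]
  · intro k hk
    obtain ⟨h1, h2, h3, h4⟩ := htriv k hk
    refine ⟨?_, ?_, ?_, ?_⟩
    · show gqConj δ (l k) = 1
      rw [h1, gqConj_one δ hδ]
    · show gqConj δ (p k) = 1
      rw [h2, gqConj_one δ hδ]
    · show gqConj δ (q k) = 1
      rw [h3, gqConj_one δ hδ]
    · show gqConj δ (l' k) = 1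
      rw [h4, gqConj_one δ hδ]
  · show gqConj δ (G 0) = 1
    rw [hG0, gqConj_one δ hδ]
  · intro k
    show gqConj δ (G (k + 1)) = gqConj δ (G k) * gqConj δ (q k)
    rw [hG k, gqConj_mul δ hδ]
  · intro h
    obtain ⟨h1, h2⟩ := hxy h
    refine ⟨?_, ?_⟩
    · show gqConj δ (x h) * (gqConj δ (G (2 * h + 1)) * gqConj δ (l (2 * h + 1)) *
          gqConj δ (p (2 * h + 1))) =
        gqConj δ (G (2 * h)) * gqConj δ (l (2 * h)) * gqConj δ (p (2 * h)) *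
          gpAnti (fun a => δ a * t h a * (δ (Fin.rev a))⁻¹)
      rw [← gqConj_anti, ← gqConj_mul δ hδ, ← gqConj_mul δ hδ, ← gqConj_mul δ hδ,
        ← gqConj_mul δ hδ, ← gqConj_mul δ hδ, ← gqConj_mul δ hδ, h1]
    · show gqConj δ (y h) * (gqConj δ (G (2 * h + 1)) * gqConj δ (l (2 * h + 1))) =
        gqConj δ (G (2 * h + 2)) * gqConj δ (l (2 * h + 2)) *
          gpAnti (fun a => δ a * t' h a * (δ (Fin.rev a))⁻¹)
      rw [← gqConj_anti, ← gqConj_mul δ hδ, ← gqConj_mul δ hδ, ← gqConj_mul δ hδ,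
        ← gqConj_mul δ hδ, h2]
  · intro j
    have h1 := hz j
    show gqConj δ (z j) * (gqConj δ (G (2 * g + j + 1)) * gqConj δ (l (2 * g + j + 1))) =
      gqConj δ (G (2 * g + j)) * gqConj δ (l (2 * g + j)) * gqConj δ (p (2 * g + j)) *
        Matrix.diagonal (τ j)
    rw [← gqConj_diagonal δ hδ (τ j), ← gqConj_mul δ hδ, ← gqConj_mul δ hδ, ← gqConj_mul δ hδ,
      ← gqConj_mul δ hδ, ← gqConj_mul δ hδ, h1]

end Vale.Agent.Lib.P002
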