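import Vale.Agent.Lib.P002.GQDefs
import Vale.Agent.Lib.P002.GPChart

/-!
# The data of the chart of a chart point, with their dependence on the parameters
-/

open Matrix

namespace Vale.Agent.Lib.P002

/-- A chart point in the sense of `gpIsPt` has data of the chart whose free wall minors,
trailing diagonals and antidiagonal data are given by the parameters. -/
theorem gq_data {g n r : ℕ} (hN : 2 ≤ 2 * g + n) (c : Fin r → ℂˣ)
    (d : Fin n → Fin r → ℂˣ)
    (s : GpIdx g n r → ℂˣ) (x y : Fin g → Matrix.SpecialLinearGroup (Fin r) ℂ)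
    (z : Fin n → Matrix.SpecialLinearGroup (Fin r) ℂ)
    (h : gpIsPt c d s (fun h => (x h).1) (fun h => (y h).1) (fun j => (z j).1)) :
    ∃ (l p q l' G : ℕ → Matrix (Fin r) (Fin r) ℂ),
      gpRel (fun h => (x h).1) (fun h => (y h).1) (fun j => (z j).1) l p q l' G
        (fun h i => (gpTt s h 0 i : ℂ)) (fun h i => (gpTt s h 1 i : ℂ))
        (fun j i => ((d j i * (gpE c d s (2 * g + j) i)⁻¹ : ℂˣ) : ℂ)) ∧
      (∀ k i, l' k i i = (gpE c d s k i : ℂ)) ∧
      (∀ (j : Fin n) (i : Fin r), l' (2 * g + j) i i *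
        ((d j i * (gpE c d s (2 * g + j) i)⁻¹ : ℂˣ) : ℂ) = (d j i : ℂ)) ∧
      (((List.ofFn fun h => x h * y h * (x h)⁻¹ * (y h)⁻¹).prod *
        (List.ofFn z).prod).1).IsUpperTriangular ∧
      (∀ i, ((List.ofFn fun h => x h * y h * (x h)⁻¹ * (y h)⁻¹).prod *
        (List.ofFn z).prod).1 i i = (c i : ℂ)) ∧
      ∀ k, 1 ≤ k → k + 1 ≤ 2 * g + n → ∀ δ i m : ℕ, δ ≤ 1 → 1 ≤ m → i + δ + m ≤ r →
        ¬ (δ = 0 ∧ (i = 0 ∨ i + m = r)) →
        gwMinor (l k * p k) i (i + δ) m = (gwFr r (gpWall s k) δ i m : ℂ) := by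
  obtain ⟨l, p, q, l', G, P, Pi, Q, Qi, hcell, htriv, hG0, hG, hPQ, hxy, hz⟩ := h
  have hcells := gp_cells_of_pt (g := g) (n := n) (fun k i => (gpE c d s k i : ℂ)) l p q l'
    (fun k h1 h2 => (hcell k h1 h2).1) htriv
  have hl'd : ∀ k i, l' k i i = (gpE c d s k i : ℂ) :=
    gpChartAux_diag hN c d s l p q l' (fun k h1 h2 => (hcell k h1 h2).1) htriv
  have hrel : gpRel (fun h => (x h).1) (fun h => (y h).1) (fun j => (z j).1) l p q l' G
      (fun h i => (gpTt s h 0 i : ℂ)) (fun h i => (gpTt s h 1 i : ℂ))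
      (fun j i => ((d j i * (gpE c d s (2 * g + j) i)⁻¹ : ℂˣ) : ℂ)) :=
    gpChartAux_rel _ _ _ l p q l' G P Pi Q Qi _ _ _ hcells htriv hG0 hG hPQ hxy hz
  refine ⟨l, p, q, l', G, hrel, hl'd, ?_, (gp_apex x y z l p q l' G _ _ _ hrel).1, ?_, ?_⟩
  · intro j i
    rw [hl'd, ← Units.val_mul]
    congr 1
    rw [mul_comm, mul_assoc, inv_mul_cancel, mul_one]
  · intro i
    rw [(gp_apex x y z l p q l' G _ _ _ hrel).2 i]
    simp only [hl'd]
    have hap := congrFun (gpE_apex hN c d s) i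
    rw [← hap]
    unfold gpApex
    simp only [Units.val_mul, Units.coe_prod, Units.val_inv_eq_inv_val]
    congr 1
    refine Finset.prod_congr rfl fun h _ => ?_
    rw [div_eq_mul_inv]
    simp only [mul_inv]
    ring
  · intro k hk1 hk2 δ i m hδ hm hr hne
    exact (hcell k hk1 hk2).2 δ i m hδ hm hr hne

end Vale.Agent.Lib.P002
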