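import Vale.Agent.Lib.P002.GPDefs

/-!
# A full-dimensional slice of the wall chart: definitions

The chart points of `GPDefs` depend on redundant parameters.  Here we single out the effective
parameters: the free wall minors of each cell (indexed by pairs in `Fin (r - 1)`), without the
superdiagonal entries of the first cell (which are normalized to `1`, a slice for the
conjugation by diagonal matrices), the trailing diagonals of the cells before the last one and
the antidiagonal data of the handles (each with `r - 1` free entries).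
-/

open Matrix

namespace Vale.Agent.Lib.P002

/-- Index type of the effective parameters. -/
abbrev GqIdx (g n r : ℕ) : Type :=
  (Fin (2 * g + n - 2) × Fin (r - 1) × Fin (r - 1)) ⊕
    ({v : Fin (r - 1) × Fin (r - 1) // v.1 ≠ v.2} ⊕
      ((Fin (2 * g + n - 2) × Fin (r - 1)) ⊕ (Fin g × Fin 2 × Fin (r - 1))))

/-- The free wall minor attached to a pair `(a, b)`: for `a < b` the principal solid minor on
the rows and columns `a + 1, …, b`, and for `b ≤ a` the superdiagonal solid minor on the rows
`b, …, a` and the columns `b + 1, …, a + 1`. -/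
def gqWallIdx (r : ℕ) (v : Fin (r - 1) × Fin (r - 1)) : Fin 2 × Fin r × Fin (r + 1) :=
  if (v.1 : ℕ) < (v.2 : ℕ) then
    (0, ⟨(v.1 : ℕ) + 1, by have := v.1.isLt; omega⟩,
      ⟨(v.2 : ℕ) - (v.1 : ℕ), by have := v.2.isLt; omega⟩)
  else
    (1, ⟨(v.2 : ℕ), by have := v.2.isLt; omega⟩,
      ⟨(v.1 : ℕ) - (v.2 : ℕ) + 1, by have := v.1.isLt; omega⟩)

/-- The effective parameters as parameters of the chart. -/
def gqEmb {g n r : ℕ} (hN : 2 ≤ 2 * g + n) : GqIdx g n r → GpIdx g n r
  | Sum.inl (k, v) => Sum.inl (⟨(k : ℕ) + 2, by have := k.isLt; omega⟩, gqWallIdx r v)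
  | Sum.inr (Sum.inl v) => Sum.inl (⟨1, by omega⟩, gqWallIdx r v.1)
  | Sum.inr (Sum.inr (Sum.inl (k, i))) =>
      Sum.inr (Sum.inl (⟨(k : ℕ) + 1, by have := k.isLt; omega⟩,
        ⟨(i : ℕ), by have := i.isLt; omega⟩))
  | Sum.inr (Sum.inr (Sum.inr (h, b, i))) =>
      Sum.inr (Sum.inr (h, b, ⟨(i : ℕ), by have := i.isLt; omega⟩))

open Classical in
/-- Extension of a family of parameters by `1` along a map of index types. -/
noncomputable def gqSec {M : Type*} [One M] {ι κ : Type*} (j : ι → κ) (s : ι → M) : κ → M :=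
  fun v => if h : ∃ i, j i = v then s (Classical.choose h) else 1

/-- Conjugation by the diagonal matrix with entries `δ`. -/
noncomputable def gqConj {r : ℕ} (δ : Fin r → ℂ) (M : Matrix (Fin r) (Fin r) ℂ) : Matrix (Fin r) (Fin r) ℂ :=
  Matrix.diagonal δ * M * Matrix.diagonal (fun i => (δ i)⁻¹)

end Vale.Agent.Lib.P002
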