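import Vale.Agent.Lib.P002.GQDefs
import Vale.Agent.Lib.P002.GPAnti
import Vale.Agent.Lib.P002.GPBlock

/-!
# Uniqueness of the data of the chart: the step at a handle
-/

open Matrix

namespace Vale.Agent.Lib.P002

/-- Cancellation on the left by an element with a left inverse. -/
theorem gqStepHAux_cancel {M : Type*} [Monoid M] (g gi a b : M) (hg : gi * g = 1)
    (h : g * a = g * b) : a = b := by
  calc a = gi * g * a := by rw [hg, one_mul]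
    _ = gi * (g * b) := by rw [mul_assoc, h]
    _ = b := by rw [← mul_assoc, hg, one_mul]

/-- Algebra of the first step. -/
theorem gqStepHAux_alg1 {M : Type*} [Monoid M] (x xi A B La Lb Lbi P ua uai ub Ta Tai Tb : M)
    (hx : xi * x = 1) (hLb : Lb * Lbi = 1) (hua : ua * uai = 1) (hTa : Ta * Tai = 1)
    (ea : x * (A * La) = P * ua * Ta) (eb : x * (B * Lb) = P * ub * Tb) :
    B = A * (La * (Tai * (uai * ub) * Tb) * Lbi) := by
  have h1 : A * La = xi * (P * ua * Ta) := by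
    rw [← ea, ← mul_assoc, hx, one_mul]
  have h2 : B = xi * (P * ub * Tb) * Lbi := by
    rw [← eb, ← mul_assoc xi, hx, one_mul, mul_assoc, hLb, mul_one]
  calc B = xi * (P * ub * Tb) * Lbi := h2
    _ = xi * (P * (ua * uai) * ub * Tb) * Lbi := by rw [hua, mul_one]
    _ = xi * (P * (ua * (Ta * Tai) * uai) * ub * Tb) * Lbi := by rw [hTa, mul_one]
    _ = xi * (P * ua * Ta) * (Tai * (uai * ub) * Tb) * Lbi := by simp only [mul_assoc]
    _ = A * La * (Tai * (uai * ub) * Tb) * Lbi := by rw [h1]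
    _ = A * (La * (Tai * (uai * ub) * Tb) * Lbi) := by simp only [mul_assoc]

/-- Algebra of the second step. -/
theorem gqStepHAux_alg2 {M : Type*} [Monoid M] (y yi C C₂ G l li l₂ T Ti T₂ : M)
    (hy : yi * y = 1) (hl : l * li = 1) (hT : T * Ti = 1)
    (e : y * C = G * l * T) (e₂ : y * C₂ = G * l₂ * T₂) :
    C₂ = C * (Ti * (li * l₂) * T₂) := by
  have h1 : C = yi * (G * l * T) := by
    rw [← e, ← mul_assoc, hy, one_mul]
  have h2 : C₂ = yi * (G * l₂ * T₂) := by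
    rw [← e₂, ← mul_assoc, hy, one_mul]
  calc C₂ = yi * (G * l₂ * T₂) := h2
    _ = yi * (G * (l * li) * l₂ * T₂) := by rw [hl, mul_one]
    _ = yi * (G * (l * (T * Ti) * li) * l₂ * T₂) := by rw [hT, mul_one]
    _ = yi * (G * l * T) * (Ti * (li * l₂) * T₂) := by simp only [mul_assoc]
    _ = C * (Ti * (li * l₂) * T₂) := by rw [← h1]

/-- Algebra of the third step. -/
theorem gqStepHAux_alg3 {M : Type*} [Monoid M]
    (x A A₂ C C₂ p pi p₂ La La₂ La₂i T T₂ T₂i u : M)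
    (hp : p * pi = 1) (hLa₂ : La₂ * La₂i = 1) (hT₂ : T₂ * T₂i = 1)
    (e : x * (C * p) = A * La * T) (e₂ : x * (C₂ * p₂) = A₂ * La₂ * T₂) (hC : C₂ = C * u) :
    A₂ = A * (La * (T * (pi * u * p₂) * T₂i) * La₂i) := by
  calc A₂ = A₂ * (La₂ * La₂i) := by rw [hLa₂, mul_one]
    _ = A₂ * (La₂ * (T₂ * T₂i) * La₂i) := by rw [hT₂, mul_one]
    _ = A₂ * La₂ * T₂ * (T₂i * La₂i) := by simp only [mul_assoc]
    _ = x * (C₂ * p₂) * (T₂i * La₂i) := by rw [e₂]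
    _ = x * (C * u * p₂) * (T₂i * La₂i) := by rw [hC]
    _ = x * (C * (p * pi) * u * p₂) * (T₂i * La₂i) := by rw [hp, mul_one]
    _ = x * (C * p) * (pi * u * p₂ * (T₂i * La₂i)) := by simp only [mul_assoc]
    _ = A * La * T * (pi * u * p₂ * (T₂i * La₂i)) := by rw [e]
    _ = A * (La * (T * (pi * u * p₂) * T₂i) * La₂i) := by simp only [mul_assoc]

/-- Algebra of the last step. -/
theorem gqStepHAux_alg5 {M : Type*} [Monoid M] (l li l₂ T Ti T₂ T₂i : M)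
    (hl : l * li = 1) (hT : T * Ti = 1) (hT₂ : T₂ * T₂i = 1)
    (hu : Ti * (li * l₂) * T₂ = 1) : l₂ = l * (T * T₂i) := by
  calc l₂ = (l * li) * l₂ := by rw [hl, one_mul]
    _ = l * ((T * Ti) * (li * l₂) * (T₂ * T₂i)) := by
        rw [hT, hT₂, one_mul, mul_one, mul_assoc]
    _ = l * (T * (Ti * (li * l₂) * T₂) * T₂i) := by simp only [mul_assoc]
    _ = l * (T * T₂i) := by rw [hu, mul_one]

/-- Two unit upper triangular matrices that differ by a lower triangular right factor are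
equal. -/
theorem gqStepHAux_core_up {r : ℕ} (A B W : Matrix (Fin r) (Fin r) ℂ)
    (hA : A.IsUpperTriangular ∧ ∀ i, A i i = 1) (hB : B.IsUpperTriangular ∧ ∀ i, B i i = 1)
    (hW : W.IsLowerTriangular) (h : B = A * W) : B = A ∧ W = 1 := by
  obtain ⟨Ai, hAiU, hAi1, -, hAiA⟩ := gw_upU_inv r A hA.1 hA.2
  have hW' : W = Ai * B := by rw [h, ← Matrix.mul_assoc, hAiA, Matrix.one_mul]
  have hWU : W.IsUpperTriangular := by
    rw [hW']
    exact Matrix.BlockTriangular.mul hAiU hB.1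
  have hW1 : ∀ i, W i i = 1 := by
    intro i
    rw [hW', gwTriAux_diag_mul Ai B hAiU hB.1 i, hAi1, hB.2, one_mul]
  have h1 : W = 1 := gwTriAux_eq_one W hWU hW hW1
  exact ⟨by rw [h, h1, Matrix.mul_one], h1⟩

/-- Two unit lower triangular matrices that differ by an upper triangular right factor are
equal. -/
theorem gqStepHAux_core_low {r : ℕ} (A B W : Matrix (Fin r) (Fin r) ℂ)
    (hA : A.IsLowerTriangular ∧ ∀ i, A i i = 1) (hB : B.IsLowerTriangular ∧ ∀ i, B i i = 1)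
    (hW : W.IsUpperTriangular) (h : B = A * W) : B = A ∧ W = 1 := by
  obtain ⟨Ai, hAiL, hAi1, -, hAiA⟩ := gpBlockAux_low_inv A hA.1
    (fun i => by rw [hA.2 i]; exact one_ne_zero)
  have hAi1' : ∀ i, Ai i i = 1 := fun i => by rw [hAi1 i, hA.2 i, inv_one]
  have hW' : W = Ai * B := by rw [h, ← Matrix.mul_assoc, hAiA, Matrix.one_mul]
  have hWL : W.IsLowerTriangular := by
    rw [hW']
    exact Matrix.BlockTriangular.mul hAiL hB.1
  have hW1 : ∀ i, W i i = 1 := by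
    intro i
    rw [hW', gsTeleAux_diag_mul_low Ai B hAiL hB.1 i, hAi1', hB.2, one_mul]
  have h1 : W = 1 := gwTriAux_eq_one W hW hWL hW1
  exact ⟨by rw [h, h1, Matrix.mul_one], h1⟩

/-- Conjugating an upper triangular matrix by antidiagonal matrices gives a lower triangular
matrix. -/
theorem gqStepHAux_anti_up {r : ℕ} (a b : Fin r → ℂ) (U : Matrix (Fin r) (Fin r) ℂ)
    (hU : U.IsUpperTriangular) : (gpAnti a * U * gpAnti b).IsLowerTriangular := by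
  intro i j hij
  have hij' : i < j := OrderDual.toDual_lt_toDual.mp hij
  rw [gpAntiAux_apply_mul, gpAntiAux_mul_apply]
  have h0 : U (Fin.rev i) (Fin.rev j) = 0 := hU (Fin.rev_lt_rev.mpr hij')
  rw [h0, mul_zero, zero_mul]

/-- The step at a handle.  Here `x, y` are the generators of the handle, `P` the (common) frame
before the handle, and for each of the two data `p0, L0` are the unipotent upper factor and the
trailing lower factor of the cell before the handle, `G1, l1, p1, L1` the frame and the factors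
of the middle cell, `G2, l2` the frame and the lower factor of the cell after the handle, and
`t, t'` the antidiagonal data. -/
theorem gq_step_handle {r : ℕ} (x y P : Matrix (Fin r) (Fin r) ℂ)
    (p0 L0 G1 l1 p1 L1 G2 l2 : Matrix (Fin r) (Fin r) ℂ) (t t' : Fin r → ℂ)
    (p0₂ L0₂ G1₂ l1₂ p1₂ L1₂ G2₂ l2₂ : Matrix (Fin r) (Fin r) ℂ) (t₂ t'₂ : Fin r → ℂ)
    (hx : IsUnit x.det) (hy : IsUnit y.det) (hP : IsUnit P.det)
    (ht : ∀ i, t i ≠ 0) (ht' : ∀ i, t' i ≠ 0)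
    (hp0 : p0.IsUpperTriangular ∧ ∀ i, p0 i i = 1)
    (hL0 : L0.IsLowerTriangular ∧ ∀ i, L0 i i ≠ 0)
    (hG1 : G1.IsUpperTriangular ∧ ∀ i, G1 i i = 1)
    (hl1 : l1.IsLowerTriangular ∧ ∀ i, l1 i i = 1)
    (hp1 : p1.IsUpperTriangular ∧ ∀ i, p1 i i = 1)
    (hL1 : L1.IsLowerTriangular ∧ ∀ i, L1 i i ≠ 0)
    (hG2 : G2.IsUpperTriangular ∧ ∀ i, G2 i i = 1)
    (hl2 : l2.IsLowerTriangular ∧ ∀ i, l2 i i = 1)
    (e1 : x * (G1 * l1 * p1) = P * p0 * gpAnti t) (e2 : y * (G1 * l1) = G2 * l2 * gpAnti t')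
    (e3 : P * p0 = G1 * L0) (e4 : G1 * l1 * p1 = G2 * L1)
    (ht₂ : ∀ i, t₂ i ≠ 0) (ht'₂ : ∀ i, t'₂ i ≠ 0)
    (hp0₂ : p0₂.IsUpperTriangular ∧ ∀ i, p0₂ i i = 1)
    (hL0₂ : L0₂.IsLowerTriangular ∧ ∀ i, L0₂ i i ≠ 0)
    (hG1₂ : G1₂.IsUpperTriangular ∧ ∀ i, G1₂ i i = 1)
    (hl1₂ : l1₂.IsLowerTriangular ∧ ∀ i, l1₂ i i = 1)
    (hp1₂ : p1₂.IsUpperTriangular ∧ ∀ i, p1₂ i i = 1)
    (hL1₂ : L1₂.IsLowerTriangular ∧ ∀ i, L1₂ i i ≠ 0)
    (hG2₂ : G2₂.IsUpperTriangular ∧ ∀ i, G2₂ i i = 1)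
    (hl2₂ : l2₂.IsLowerTriangular ∧ ∀ i, l2₂ i i = 1)
    (e1₂ : x * (G1₂ * l1₂ * p1₂) = P * p0₂ * gpAnti t₂)
    (e2₂ : y * (G1₂ * l1₂) = G2₂ * l2₂ * gpAnti t'₂)
    (e3₂ : P * p0₂ = G1₂ * L0₂) (e4₂ : G1₂ * l1₂ * p1₂ = G2₂ * L1₂) :
    G1₂ = G1 ∧ l1₂ = l1 ∧ G2₂ = G2 ∧ l2₂ = l2 := by
  have hxi : x⁻¹ * x = 1 := Matrix.nonsing_inv_mul x hx
  have hyi : y⁻¹ * y = 1 := Matrix.nonsing_inv_mul y hy
  obtain ⟨hT, -⟩ := gpBlockAux_anti_inv t ht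
  obtain ⟨hT', -⟩ := gpBlockAux_anti_inv t' ht'
  obtain ⟨hT₂, -⟩ := gpBlockAux_anti_inv t₂ ht₂
  obtain ⟨hT'₂, -⟩ := gpBlockAux_anti_inv t'₂ ht'₂
  obtain ⟨p0i, hp0iU, -, hp0p0i, -⟩ := gw_upU_inv r p0 hp0.1 hp0.2
  obtain ⟨p1i, hp1iU, -, hp1p1i, -⟩ := gw_upU_inv r p1 hp1.1 hp1.2
  obtain ⟨G1i, -, -, -, hG1iG1⟩ := gw_upU_inv r G1 hG1.1 hG1.2
  obtain ⟨L1₂i, hL1₂iL, -, hL1₂L1₂i, -⟩ := gpBlockAux_low_inv L1₂ hL1₂.1 hL1₂.2
  obtain ⟨L0₂i, hL0₂iL, -, hL0₂L0₂i, -⟩ := gpBlockAux_low_inv L0₂ hL0₂.1 hL0₂.2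
  obtain ⟨l2i, hl2iL, -, hl2l2i, -⟩ := gpBlockAux_low_inv l2 hl2.1
    (fun i => by rw [hl2.2 i]; exact one_ne_zero)
  -- Step 1: the frames after the handle agree
  have e14 : x * (G2 * L1) = P * p0 * gpAnti t := by rw [← e4]; exact e1
  have e14₂ : x * (G2₂ * L1₂) = P * p0₂ * gpAnti t₂ := by rw [← e4₂]; exact e1₂
  have hG2eq := gqStepHAux_alg1 x x⁻¹ G2 G2₂ L1 L1₂ L1₂i P p0 p0i p0₂ (gpAnti t)
    (gpAnti (fun a => (t (Fin.rev a))⁻¹)) (gpAnti t₂) hxi hL1₂L1₂i hp0p0i hT e14 e14₂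
  have hW1 : (L1 * (gpAnti (fun a => (t (Fin.rev a))⁻¹) * (p0i * p0₂) * gpAnti t₂)
      * L1₂i).IsLowerTriangular :=
    Matrix.BlockTriangular.mul (Matrix.BlockTriangular.mul hL1.1
      (gqStepHAux_anti_up _ _ _ (Matrix.BlockTriangular.mul hp0iU hp0₂.1))) hL1₂iL
  have hG2' : G2₂ = G2 := (gqStepHAux_core_up G2 G2₂ _ hG2 hG2₂ hW1 hG2eq).1
  -- Step 2: the middle frames differ by an upper triangular factor
  rw [hG2'] at e2₂
  have hCeq := gqStepHAux_alg2 y y⁻¹ (G1 * l1) (G1₂ * l1₂) G2 l2 l2i l2₂ (gpAnti t')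
    (gpAnti (fun a => (t' (Fin.rev a))⁻¹)) (gpAnti t'₂) hyi hl2l2i hT' e2 e2₂
  obtain ⟨u, hu⟩ : ∃ u : Matrix (Fin r) (Fin r) ℂ,
      u = gpAnti (fun a => (t' (Fin.rev a))⁻¹) * (l2i * l2₂) * gpAnti t'₂ := ⟨_, rfl⟩
  rw [← hu] at hCeq
  have huU : u.IsUpperTriangular := by
    rw [hu]
    exact (gpAnti_conj_low _ _ _ (Matrix.BlockTriangular.mul hl2iL hl2₂.1)).1
  -- Step 3: the middle frames agree
  have e13 : x * (G1 * l1 * p1) = G1 * L0 * gpAnti t := by rw [← e3]; exact e1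
  have e13₂ : x * (G1₂ * l1₂ * p1₂) = G1₂ * L0₂ * gpAnti t₂ := by rw [← e3₂]; exact e1₂
  have hG1eq := gqStepHAux_alg3 x G1 G1₂ (G1 * l1) (G1₂ * l1₂) p1 p1i p1₂ L0 L0₂ L0₂i
    (gpAnti t) (gpAnti t₂) (gpAnti (fun a => (t₂ (Fin.rev a))⁻¹)) u hp1p1i hL0₂L0₂i hT₂
    e13 e13₂ hCeq
  have hW3 : (L0 * (gpAnti t * (p1i * u * p1₂) * gpAnti (fun a => (t₂ (Fin.rev a))⁻¹))
      * L0₂i).IsLowerTriangular :=
    Matrix.BlockTriangular.mul (Matrix.BlockTriangular.mul hL0.1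
      (gqStepHAux_anti_up _ _ _ (Matrix.BlockTriangular.mul
        (Matrix.BlockTriangular.mul hp1iU huU) hp1₂.1))) hL0₂iL
  have hG1' : G1₂ = G1 := (gqStepHAux_core_up G1 G1₂ _ hG1 hG1₂ hW3 hG1eq).1
  -- Step 4: the lower factors of the middle cell agree
  rw [hG1'] at hCeq
  have hl1eq : l1₂ = l1 * u :=
    gqStepHAux_cancel G1 G1i l1₂ (l1 * u) hG1iG1 (by rw [hCeq, Matrix.mul_assoc])
  obtain ⟨hl1', hu1⟩ := gqStepHAux_core_low l1 l1₂ u hl1 hl1₂ huU hl1eq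
  -- Step 5: the lower factors after the handle agree
  have hl2eq := gqStepHAux_alg5 l2 l2i l2₂ (gpAnti t') (gpAnti (fun a => (t' (Fin.rev a))⁻¹))
    (gpAnti t'₂) (gpAnti (fun a => (t'₂ (Fin.rev a))⁻¹)) hl2l2i hT' hT'₂
    (by rw [← hu]; exact hu1)
  have hW5 : (gpAnti t' * gpAnti (fun a => (t'₂ (Fin.rev a))⁻¹)).IsUpperTriangular := by
    rw [gpAnti_mul]
    exact Matrix.blockTriangular_diagonal _
  have hl2' : l2₂ = l2 := (gqStepHAux_core_low l2 l2₂ _ hl2 hl2₂ hW5 hl2eq).1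
  exact ⟨hG1', hl1', hG2', hl2'⟩

end Vale.Agent.Lib.P002
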