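import Vale.Agent.Lib.P002.GQStepP
import Vale.Agent.Lib.P002.GQStepH
import Vale.Agent.Lib.P002.GPFrames
import Vale.Agent.Lib.P002.GPRelNe

/-!
# Uniqueness of the data of the chart: the frames and the lower factors
-/

open Matrix

namespace Vale.Agent.Lib.P002

/-- A matrix of determinant one has a unit determinant. -/
theorem gqFramesAux_isUnit_det {r : ℕ} (A : Matrix (Fin r) (Fin r) ℂ) (h : A.det = 1) :
    IsUnit A.det := by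
  rw [h]
  exact isUnit_one

/-- Two data of the chart for the same tuple, with the same ordered distinct eigenvalues at the
punctures, have the same frames `G k` and the same lower factors `l k`. -/
theorem gq_frames_unique {g n r : ℕ} (hN : 2 ≤ 2 * g + n)
    (x y : Fin g → Matrix.SpecialLinearGroup (Fin r) ℂ)
    (z : Fin n → Matrix.SpecialLinearGroup (Fin r) ℂ)
    (l p q l' G : ℕ → Matrix (Fin r) (Fin r) ℂ) (t t' : Fin g → Fin r → ℂ)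
    (τ : Fin n → Fin r → ℂ)
    (l₂ p₂ q₂ l'₂ G₂ : ℕ → Matrix (Fin r) (Fin r) ℂ) (t₂ t'₂ : Fin g → Fin r → ℂ)
    (τ₂ : Fin n → Fin r → ℂ)
    (h : gpRel (fun h => (x h).1) (fun h => (y h).1) (fun j => (z j).1) l p q l' G t t' τ)
    (h₂ : gpRel (fun h => (x h).1) (fun h => (y h).1) (fun j => (z j).1) l₂ p₂ q₂ l'₂ G₂
      t₂ t'₂ τ₂)
    (d : Fin n → Fin r → ℂ) (hd : ∀ j, Function.Injective (d j))
    (hdiag : ∀ (j : Fin n) (i : Fin r), l' (2 * g + j) i i * τ j i = d j i)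
    (hdiag₂ : ∀ (j : Fin n) (i : Fin r), l'₂ (2 * g + j) i i * τ₂ j i = d j i) :
    ∀ k, G₂ k = G k ∧ l₂ k = l k := by
  have _hN := hN
  obtain ⟨-, htne, -, hlne, hτp⟩ := gp_rel_ne x y z l p q l' G t t' τ h
  obtain ⟨-, htne₂, -, hlne₂, -⟩ := gp_rel_ne x y z l₂ p₂ q₂ l'₂ G₂ t₂ t'₂ τ₂ h₂
  obtain ⟨hcell, htriv, hG0, hG, hxy, hz⟩ := h
  obtain ⟨hcell₂, htriv₂, hG0₂, hG₂, hxy₂, hz₂⟩ := h₂
  have hfr := fun k => gp_frames l p q l' G hcell hG0 hG k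
  have hfr₂ := fun k => gp_frames l₂ p₂ q₂ l'₂ G₂ hcell₂ hG0₂ hG₂ k
  -- the facts on the cells and the frames, in the shape used by the two steps
  have hlL : ∀ k, (l k).IsLowerTriangular ∧ ∀ i, l k i i = 1 :=
    fun k => ⟨(hcell k).1, (hcell k).2.1⟩
  have hpU : ∀ k, (p k).IsUpperTriangular ∧ ∀ i, p k i i = 1 :=
    fun k => ⟨(hcell k).2.2.1, (hcell k).2.2.2.1⟩
  have hLL : ∀ k, (l' k).IsLowerTriangular ∧ ∀ i, l' k i i ≠ 0 :=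
    fun k => ⟨(hcell k).2.2.2.2.2.2.1, hlne k⟩
  have hGU : ∀ k, (G k).IsUpperTriangular ∧ ∀ i, G k i i = 1 :=
    fun k => ⟨(hfr k).1, (hfr k).2.1⟩
  have hPdet : ∀ k, IsUnit (G k * l k).det :=
    fun k => gqFramesAux_isUnit_det _ (hfr k).2.2.2.1
  have hnext : ∀ k, G k * l k * p k = G (k + 1) * l' k := fun k => (hfr k).2.2.2.2.2.1
  have hlL₂ : ∀ k, (l₂ k).IsLowerTriangular ∧ ∀ i, l₂ k i i = 1 :=
    fun k => ⟨(hcell₂ k).1, (hcell₂ k).2.1⟩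
  have hpU₂ : ∀ k, (p₂ k).IsUpperTriangular ∧ ∀ i, p₂ k i i = 1 :=
    fun k => ⟨(hcell₂ k).2.2.1, (hcell₂ k).2.2.2.1⟩
  have hLL₂ : ∀ k, (l'₂ k).IsLowerTriangular ∧ ∀ i, l'₂ k i i ≠ 0 :=
    fun k => ⟨(hcell₂ k).2.2.2.2.2.2.1, hlne₂ k⟩
  have hGU₂ : ∀ k, (G₂ k).IsUpperTriangular ∧ ∀ i, G₂ k i i = 1 :=
    fun k => ⟨(hfr₂ k).1, (hfr₂ k).2.1⟩
  have hnext₂ : ∀ k, G₂ k * l₂ k * p₂ k = G₂ (k + 1) * l'₂ k := fun k => (hfr₂ k).2.2.2.2.2.1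
  have H0 : G₂ 0 = G 0 ∧ l₂ 0 = l 0 := by
    refine ⟨by rw [hG0, hG0₂], ?_⟩
    rw [(htriv 0 (Or.inl rfl)).1, (htriv₂ 0 (Or.inl rfl)).1]
  -- the step at a handle
  have hstepH : ∀ a : Fin g,
      (G₂ (2 * (a : ℕ)) = G (2 * (a : ℕ)) ∧ l₂ (2 * (a : ℕ)) = l (2 * (a : ℕ))) →
      (G₂ (2 * (a : ℕ) + 1) = G (2 * (a : ℕ) + 1) ∧
        l₂ (2 * (a : ℕ) + 1) = l (2 * (a : ℕ) + 1)) ∧
      (G₂ (2 * (a : ℕ) + 2) = G (2 * (a : ℕ) + 2) ∧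
        l₂ (2 * (a : ℕ) + 2) = l (2 * (a : ℕ) + 2)) := by
    intro a hH
    have e1 := (hxy a).1
    have e2 := (hxy a).2
    have e1₂ := (hxy₂ a).1
    have e2₂ := (hxy₂ a).2
    have e3 := hnext (2 * (a : ℕ))
    have e3₂ := hnext₂ (2 * (a : ℕ))
    have e4 := hnext (2 * (a : ℕ) + 1)
    have e4₂ := hnext₂ (2 * (a : ℕ) + 1)
    rw [hH.1, hH.2] at e1₂ e3₂
    have key := gq_step_handle (x a).1 (y a).1 (G (2 * (a : ℕ)) * l (2 * (a : ℕ)))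
      (p (2 * (a : ℕ))) (l' (2 * (a : ℕ))) (G (2 * (a : ℕ) + 1)) (l (2 * (a : ℕ) + 1))
      (p (2 * (a : ℕ) + 1)) (l' (2 * (a : ℕ) + 1)) (G (2 * (a : ℕ) + 2))
      (l (2 * (a : ℕ) + 2)) (t a) (t' a)
      (p₂ (2 * (a : ℕ))) (l'₂ (2 * (a : ℕ))) (G₂ (2 * (a : ℕ) + 1)) (l₂ (2 * (a : ℕ) + 1))
      (p₂ (2 * (a : ℕ) + 1)) (l'₂ (2 * (a : ℕ) + 1)) (G₂ (2 * (a : ℕ) + 2))
      (l₂ (2 * (a : ℕ) + 2)) (t₂ a) (t'₂ a)
      (gqFramesAux_isUnit_det _ (x a).2) (gqFramesAux_isUnit_det _ (y a).2)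
      (hPdet (2 * (a : ℕ))) (fun i => (htne a i).1) (fun i => (htne a i).2)
      (hpU _) (hLL _) (hGU _) (hlL _) (hpU _) (hLL _) (hGU _) (hlL _) e1 e2 e3 e4
      (fun i => (htne₂ a i).1) (fun i => (htne₂ a i).2)
      (hpU₂ _) (hLL₂ _) (hGU₂ _) (hlL₂ _) (hpU₂ _) (hLL₂ _) (hGU₂ _) (hlL₂ _) e1₂ e2₂ e3₂ e4₂
    exact ⟨⟨key.1, key.2.1⟩, ⟨key.2.2.1, key.2.2.2⟩⟩
  -- the step at a puncture
  have hstepP : ∀ j : Fin n,
      (G₂ (2 * g + (j : ℕ)) = G (2 * g + (j : ℕ)) ∧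
        l₂ (2 * g + (j : ℕ)) = l (2 * g + (j : ℕ))) →
      (G₂ (2 * g + (j : ℕ) + 1) = G (2 * g + (j : ℕ) + 1) ∧
        l₂ (2 * g + (j : ℕ) + 1) = l (2 * g + (j : ℕ) + 1)) := by
    intro j hH
    have f1 := hz j
    have f1₂ := hz₂ j
    have f2 := hnext (2 * g + (j : ℕ))
    have f2₂ := hnext₂ (2 * g + (j : ℕ))
    rw [hH.1, hH.2] at f1₂ f2₂
    have hτne : ∀ i, τ j i ≠ 0 :=
      fun i => gpRelNeAux_ne (τ j) (by rw [hτp j]; exact one_ne_zero) i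
    have hd0 : ∀ i, d j i ≠ 0 := by
      intro i
      rw [← hdiag j i]
      exact mul_ne_zero (hlne _ i) (hτne i)
    exact gq_step_punct (z j).1 (G (2 * g + (j : ℕ)) * l (2 * g + (j : ℕ)))
      (p (2 * g + (j : ℕ))) (l' (2 * g + (j : ℕ))) (G (2 * g + (j : ℕ) + 1))
      (l (2 * g + (j : ℕ) + 1)) (p₂ (2 * g + (j : ℕ))) (l'₂ (2 * g + (j : ℕ)))
      (G₂ (2 * g + (j : ℕ) + 1)) (l₂ (2 * g + (j : ℕ) + 1)) (τ j) (τ₂ j) (d j)
      (gqFramesAux_isUnit_det _ (z j).2) (hPdet _) (hd j) hd0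
      (hpU _) (hLL _).1 (hGU _) (hlL _) f1 f2 (hdiag j)
      (hpU₂ _) (hLL₂ _).1 (hGU₂ _) (hlL₂ _) f1₂ f2₂ (hdiag₂ j)
  -- along the handles
  have hA : ∀ m, m ≤ g → (G₂ (2 * m) = G (2 * m) ∧ l₂ (2 * m) = l (2 * m)) := by
    intro m
    induction m with
    | zero =>
      intro _
      exact H0
    | succ m ih =>
      intro hm
      have h1 := (hstepH ⟨m, hm⟩ (ih (by omega))).2
      have e : 2 * (m + 1) = 2 * m + 2 := by ring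
      rw [e]
      exact h1
  -- along the punctures
  have hC : ∀ m, m ≤ n →
      (G₂ (2 * g + m) = G (2 * g + m) ∧ l₂ (2 * g + m) = l (2 * g + m)) := by
    intro m
    induction m with
    | zero =>
      intro _
      exact hA g le_rfl
    | succ m ih =>
      intro hm
      exact hstepP ⟨m, hm⟩ (ih (by omega))
  -- beyond the last cell
  have hD : ∀ k, 2 * g + n ≤ k → (G₂ k = G k ∧ l₂ k = l k) := by
    intro k hk
    induction k, hk using Nat.le_induction with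
    | base => exact hC n le_rfl
    | succ k hk ih =>
      have hq := (htriv k (Or.inr hk)).2.2.1
      have hq₂ := (htriv₂ k (Or.inr hk)).2.2.1
      refine ⟨?_, ?_⟩
      · rw [hG k, hG₂ k, hq, hq₂, mul_one, mul_one]
        exact ih.1
      · rw [(htriv (k + 1) (Or.inr (by omega))).1, (htriv₂ (k + 1) (Or.inr (by omega))).1]
  intro k
  rcases le_or_gt k (2 * g) with hk | hk
  · rcases Nat.even_or_odd' k with ⟨m, rfl | rfl⟩
    · exact hA m (by omega)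
    · exact (hstepH ⟨m, by omega⟩ (hA m (by omega))).1
  · rcases le_or_gt k (2 * g + n) with hk2 | hk2
    · obtain ⟨m, rfl⟩ : ∃ m, k = 2 * g + m := ⟨k - 2 * g, by omega⟩
      exact hC m (by omega)
    · exact hD k hk2.le

end Vale.Agent.Lib.P002
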