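import Vale.Agent.Lib.P002.GRMul

/-!
# The determinant on an invariant subspace of the loop around the last puncture
-/

open Matrix

namespace Vale.Agent.Lib.P002

theorem grWordAux_list {r : ℕ} (V : Submodule ℂ (Fin r → ℂ)) :
    ∀ (m : ℕ) (u : Fin m → Matrix.SpecialLinearGroup (Fin r) ℂ),
      (∀ k, grInv V (u k).1) →
        grInv V ((List.ofFn u).prod).1 ∧
          grDet V ((List.ofFn u).prod).1 = ∏ k, grDet V (u k).1 := by
  intro m
  induction m with
  | zero =>
    intro u _
    rw [List.ofFn_zero, List.prod_nil]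
    refine ⟨?_, ?_⟩
    · rw [Matrix.SpecialLinearGroup.coe_one]
      exact grInv_one V
    · rw [Matrix.SpecialLinearGroup.coe_one, grDet_one]
      simp
  | succ m ih =>
    intro u hu
    rw [List.ofFn_succ, List.prod_cons]
    obtain ⟨h1, h2⟩ := ih (fun i => u i.succ) (fun k => hu k.succ)
    refine ⟨?_, ?_⟩
    · rw [Matrix.SpecialLinearGroup.coe_mul]
      exact grInv_mul V _ _ (hu 0) h1
    · rw [Matrix.SpecialLinearGroup.coe_mul, grDet_mul V _ _ (hu 0) h1, h2,
        Fin.prod_univ_succ]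

theorem grWordAux_comm {r : ℕ} (V : Submodule ℂ (Fin r → ℂ))
    (a b : Matrix.SpecialLinearGroup (Fin r) ℂ) (ha : grInv V a.1) (hb : grInv V b.1) :
    grInv V (a * b * a⁻¹ * b⁻¹).1 ∧ grDet V (a * b * a⁻¹ * b⁻¹).1 = 1 := by
  have ha' := grInv_inv V a ha
  have hb' := grInv_inv V b hb
  have hab : grInv V (a.1 * b.1) := grInv_mul V _ _ ha hb
  have haba : grInv V (a.1 * b.1 * (a⁻¹).1) := grInv_mul V _ _ hab ha'
  refine ⟨?_, ?_⟩
  · rw [Matrix.SpecialLinearGroup.coe_mul, Matrix.SpecialLinearGroup.coe_mul,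
      Matrix.SpecialLinearGroup.coe_mul]
    exact grInv_mul V _ _ haba hb'
  · rw [Matrix.SpecialLinearGroup.coe_mul, Matrix.SpecialLinearGroup.coe_mul,
      Matrix.SpecialLinearGroup.coe_mul, grDet_mul V _ _ haba hb', grDet_mul V _ _ hab ha',
      grDet_mul V _ _ ha hb]
    have e1 := grDet_inv V a ha
    have e2 := grDet_inv V b hb
    linear_combination (grDet V b.1 * grDet V (b⁻¹).1) * e1 + e2

/-- If `V` is invariant under all generators, it is invariant under the product of the
commutators of the handles and of the loops `z j`, and the determinant of this product on `V`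
is the product of the determinants of the `z j` on `V`. -/
theorem gr_word {g n r : ℕ} (V : Submodule ℂ (Fin r → ℂ))
    (x y : Fin g → Matrix.SpecialLinearGroup (Fin r) ℂ)
    (z : Fin n → Matrix.SpecialLinearGroup (Fin r) ℂ)
    (hx : ∀ h, grInv V (x h).1) (hy : ∀ h, grInv V (y h).1) (hz : ∀ j, grInv V (z j).1) :
    grInv V ((List.ofFn fun h => x h * y h * (x h)⁻¹ * (y h)⁻¹).prod * (List.ofFn z).prod).1 ∧
      grDet V ((List.ofFn fun h => x h * y h * (x h)⁻¹ * (y h)⁻¹).prod * (List.ofFn z).prod).1 =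
        ∏ j, grDet V (z j).1 := by
  obtain ⟨c1, c2⟩ := grWordAux_list V g (fun h => x h * y h * (x h)⁻¹ * (y h)⁻¹)
    (fun h => (grWordAux_comm V (x h) (y h) (hx h) (hy h)).1)
  obtain ⟨z1, z2⟩ := grWordAux_list V n z hz
  refine ⟨?_, ?_⟩
  · rw [Matrix.SpecialLinearGroup.coe_mul]
    exact grInv_mul V _ _ c1 z1
  · rw [Matrix.SpecialLinearGroup.coe_mul, grDet_mul V _ _ c1 z1, c2, z2]
    have : ∏ k, grDet V ((fun h => x h * y h * (x h)⁻¹ * (y h)⁻¹) k).1 = 1 := by
      apply Finset.prod_eq_one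
      intro h _
      exact (grWordAux_comm V (x h) (y h) (hx h) (hy h)).2
    rw [this, one_mul]

end Vale.Agent.Lib.P002
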