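import Vale.Agent.Lib.P002.GRDetProd
import Vale.Agent.Lib.P002.GRWord

/-!
# Representations with generic prescribed boundary eigenvalues are irreducible
-/

open Polynomial Matrix

namespace Vale.Agent.Lib.P002

/-- A tuple `(x, y, z)` whose loops `z j` and whose loop around the last puncture have the
characteristic polynomials `∏ (X - d j i)` and `∏ (X - c i)`, where no product of `k` of the
`c i` is the product over `j` of products of `k` of the `d j i` (`0 < k < r`), has no invariant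
subspace besides `0` and `ℂ^r`. -/
theorem gr_irred {g n r : ℕ} (c : Fin r → ℂ) (d : Fin n → Fin r → ℂ)
    (x y : Fin g → Matrix.SpecialLinearGroup (Fin r) ℂ)
    (z : Fin n → Matrix.SpecialLinearGroup (Fin r) ℂ)
    (hzc : ∀ j, (z j).1.charpoly = ∏ i, (X - C (d j i)))
    (hWc : ((List.ofFn fun h => x h * y h * (x h)⁻¹ * (y h)⁻¹).prod *
      (List.ofFn z).prod).1.charpoly = ∏ i, (X - C (c i)))
    (hgen : ∀ (S : Finset (Fin r)) (T : Fin n → Finset (Fin r)), S.Nonempty →
      S ≠ Finset.univ → (∀ j, (T j).card = S.card) → ∏ i ∈ S, c i ≠ ∏ j, ∏ i ∈ T j, d j i)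
    (V : Submodule ℂ (Fin r → ℂ))
    (hx : ∀ h, ∀ v ∈ V, (x h).1.mulVec v ∈ V) (hy : ∀ h, ∀ v ∈ V, (y h).1.mulVec v ∈ V)
    (hz : ∀ j, ∀ v ∈ V, (z j).1.mulVec v ∈ V) : V = ⊥ ∨ V = ⊤ := by
  classical
  obtain ⟨hWinv, hWdet⟩ := gr_word V x y z hx hy hz
  obtain ⟨S, hS1, hS2⟩ := grDet_eq_prod V _ hWinv c hWc
  have hT : ∀ j, ∃ T : Finset (Fin r), T.card = Module.finrank ℂ V ∧
      grDet V (z j).1 = ∏ i ∈ T, d j i := fun j => grDet_eq_prod V _ (hz j) (d j) (hzc j)
  choose T hT1 hT2 using hT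
  have hprod : ∏ i ∈ S, c i = ∏ j, ∏ i ∈ T j, d j i := by
    rw [← hS2, hWdet]
    exact Finset.prod_congr rfl fun j _ => hT2 j
  by_cases h0 : S.Nonempty
  · by_cases h1 : S = Finset.univ
    · right
      apply Submodule.eq_top_of_finrank_eq
      rw [← hS1, h1, Finset.card_univ, Fintype.card_fin, Module.finrank_fin_fun]
    · exact absurd hprod (hgen S T h0 h1 fun j => (hT1 j).trans hS1.symm)
  · left
    rw [Finset.not_nonempty_iff_eq_empty] at h0
    rw [h0, Finset.card_empty] at hS1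
    exact Submodule.finrank_eq_zero.mp hS1.symm

end Vale.Agent.Lib.P002
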