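import Vale.Agent.Lib.P002.GQMain
import Vale.Agent.Lib.P002.GRIrred

/-!
# The family of full dimension: irreducibility for generic eigenvalues
-/

noncomputable section

namespace Vale.Agent.Lib.P002

open Polynomial Matrix

/-- The family of `gq_family`, with the additional property that its members are irreducible
when the prescribed eigenvalues are generic. -/
theorem gq_family_irred (g n r : ℕ) (hN : 2 ≤ 2 * g + n) (c : Fin r → ℂ)
    (d : Fin n → Fin r → ℂ)
    (hc : ∀ i, IsIntegral ℤ (c i)) (hd : ∀ j i, IsIntegral ℤ (d j i))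
    (hc1 : ∏ i, c i = 1) (hd1 : ∀ j, ∏ i, d j i = 1) :
    ∃ L : IntermediateField ℚ ℂ,
      L = IntermediateField.adjoin ℚ (Set.range c ∪
        Set.range (fun v : Fin n × Fin r => d v.1 v.2) ∪ {((Real.sqrt 2 : ℝ) : ℂ)}) ∧
      FiniteDimensional ℚ L ∧
      ∃ (ι : Type) (_ : Fintype ι)
        (x y : (ι → Units ℂ) → Fin g → Matrix.SpecialLinearGroup (Fin r) ℂ)
        (z : (ι → Units ℂ) → Fin n → Matrix.SpecialLinearGroup (Fin r) ℂ),
        Fintype.card ι + 2 * (r - 1) = (r - 1) * ((2 * g + n - 1) * r + 2 * g) ∧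
        (∀ s, (∀ t, (z s t).1.charpoly = ∏ i, (X - C (d t i))) ∧
          ((List.ofFn fun h => x s h * y s h * (x s h)⁻¹ * (y s h)⁻¹).prod *
            (List.ofFn (z s)).prod).1.charpoly = ∏ i, (X - C (c i))) ∧
        (∀ v : (Fin g ⊕ Fin g ⊕ Fin n) × Fin r × Fin r, ∃ P : MvPolynomial (ι ⊕ ι) ℂ,
          ∀ s : ι → Units ℂ,
            Sum.elim (fun h => (x s h).1) (Sum.elim (fun h => (y s h).1) (fun t => (z s t).1))
              v.1 v.2.1 v.2.2 =
            MvPolynomial.eval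
              (Sum.elim (fun i => (s i : ℂ)) (fun i => (((s i)⁻¹ : Units ℂ) : ℂ))) P) ∧
        (Function.Injective c → (∀ j, Function.Injective (d j)) →
          ∀ s s' : ι → Units ℂ,
            (∃ γ : Matrix (Fin r) (Fin r) ℂ, γ.det ≠ 0 ∧
              (∀ h, γ * (x s h).1 = (x s' h).1 * γ) ∧ (∀ h, γ * (y s h).1 = (y s' h).1 * γ) ∧
              (∀ t, γ * (z s t).1 = (z s' t).1 * γ)) → s = s') ∧
        ((∀ (S : Finset (Fin r)) (T : Fin n → Finset (Fin r)), S.Nonempty →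
            S ≠ Finset.univ → (∀ j, (T j).card = S.card) →
            ∏ i ∈ S, c i ≠ ∏ j, ∏ i ∈ T j, d j i) →
          ∀ (s : ι → Units ℂ) (V : Submodule ℂ (Fin r → ℂ)),
            (∀ h, ∀ v ∈ V, (x s h).1.mulVec v ∈ V) → (∀ h, ∀ v ∈ V, (y s h).1.mulVec v ∈ V) →
            (∀ t, ∀ v ∈ V, (z s t).1.mulVec v ∈ V) → V = ⊥ ∨ V = ⊤) ∧
        ∀ F : MvPolynomial ((Fin g ⊕ Fin g ⊕ Fin n) × Fin r × Fin r) ℂ,
          (∀ (x' y' : Fin g → Matrix.SpecialLinearGroup (Fin r) ℂ)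
              (z' : Fin n → Matrix.SpecialLinearGroup (Fin r) ℂ),
            (∀ h i j, (x' h).1 i j ∈ L ∧ IsIntegral ℤ ((x' h).1 i j)) →
            (∀ h i j, (y' h).1 i j ∈ L ∧ IsIntegral ℤ ((y' h).1 i j)) →
            (∀ t i j, (z' t).1 i j ∈ L ∧ IsIntegral ℤ ((z' t).1 i j)) →
            (∀ t, (z' t).1.charpoly = ∏ i, (X - C (d t i))) →
            ((List.ofFn fun h => x' h * y' h * (x' h)⁻¹ * (y' h)⁻¹).prod *
              (List.ofFn z').prod).1.charpoly = ∏ i, (X - C (c i)) →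
            MvPolynomial.eval (fun v => Sum.elim (fun h => (x' h).1)
              (Sum.elim (fun h => (y' h).1) (fun t => (z' t).1)) v.1 v.2.1 v.2.2) F = 0) →
          ∀ s, MvPolynomial.eval (fun v => Sum.elim (fun h => (x s h).1)
            (Sum.elim (fun h => (y s h).1) (fun t => (z s t).1)) v.1 v.2.1 v.2.2) F = 0 := by
  obtain ⟨L, hL, hfin, ι, inst, x, y, z, hcard, hch, halg, hnc, hvan⟩ :=
    gq_family g n r hN c d hc hd hc1 hd1
  exact ⟨L, hL, hfin, ι, inst, x, y, z, hcard, hch, halg, hnc,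
    fun hgen s V hx hy hz =>
      gr_irred c d (x s) (y s) (z s) (hch s).1 (hch s).2 hgen V hx hy hz, hvan⟩

end Vale.Agent.Lib.P002

end
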