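import Vale.Agent.Lib.P002.GQDefs

/-!
# The free data of a family with prescribed product, normalized at the last index
-/

namespace Vale.Agent.Lib.P002

/-- Downward induction from the last index: two families with the same `gwE` and last entry `1`
agree at every index. -/
theorem gqGwEAux_step {G : Type*} [CommGroup G] {m : ℕ} (ε ε' : Fin (m + 1) → G)
    (h1 : ε ⟨m, by omega⟩ = 1) (h1' : ε' ⟨m, by omega⟩ = 1) (h : gwE ε = gwE ε') :
    ∀ k (_ : k ≤ m), ε ⟨m - k, by omega⟩ = ε' ⟨m - k, by omega⟩ := by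
  intro k
  induction k with
  | zero =>
    intro _
    simp only [Nat.sub_zero]
    rw [h1, h1']
  | succ k ih =>
    intro hk
    have ih' := ih (by omega)
    have hlt : m - (k + 1) < m := by omega
    have hrot : finRotate (m + 1) ⟨m - (k + 1), by omega⟩ = ⟨m - k, by omega⟩ := by
      rw [finRotate_of_lt hlt]
      apply Fin.ext
      simp only
      omega
    have hc := congrFun h ⟨m - (k + 1), by omega⟩
    simp only [gwE] at hc
    rw [hrot, ih'] at hc
    exact mul_right_cancel hc

/-- `gwE` is injective on the families with last entry `1`. -/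
theorem gwE_inj_of_last {G : Type*} [CommGroup G] {r : ℕ} (hr : 0 < r) (ε ε' : Fin r → G)
    (h1 : ε ⟨r - 1, by omega⟩ = 1) (h1' : ε' ⟨r - 1, by omega⟩ = 1) (h : gwE ε = gwE ε') :
    ε = ε' := by
  obtain ⟨m, rfl⟩ := Nat.exists_eq_succ_of_ne_zero (by omega : r ≠ 0)
  funext i
  have hi := i.isLt
  have hm := gqGwEAux_step ε ε' h1 h1' h (m - (i : ℕ)) (by omega)
  have hidx : (⟨m - (m - (i : ℕ)), by omega⟩ : Fin (m + 1)) = i := by
    apply Fin.ext
    simp only
    omega
  rw [hidx] at hm
  exact hm

/-- `gpT` is injective on the families with last entry `1`. -/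
theorem gpT_inj_of_last {R : Type*} [CommRing R] {r : ℕ} (hr : 0 < r) (ε ε' : Fin r → Rˣ)
    (h1 : ε ⟨r - 1, by omega⟩ = 1) (h1' : ε' ⟨r - 1, by omega⟩ = 1) (h : gpT ε = gpT ε') :
    ε = ε' := by
  apply gwE_inj_of_last hr ε ε' h1 h1'
  funext a
  have ha := congrFun h a
  simp only [gpT] at ha
  exact mul_right_cancel ha

end Vale.Agent.Lib.P002
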