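import Vale.Agent.Lib.P002.GWDefs
import Vale.Agent.Lib.P002.GWCellE
import Vale.Agent.Lib.P002.GWCellU
import Vale.Agent.Lib.P002.GWTri
import Vale.Agent.Lib.P002.GWLead
import Vale.Agent.Lib.P002.GWLaur

/-!
# The wall chart for the thrice punctured sphere in arbitrary rank

A chart point is a pair `(A, B)` with `A` upper triangular, `B` lower triangular such that
`A * B` is conjugated to a lower triangular matrix `K` by an upper triangular matrix `N` with
unit diagonal.  Chart points with given diagonals of `A, B, K` are parametrized by the free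
wall minors of `B * N`; unit parameters give integral chart points and the dependence on each
parameter is Laurent polynomial.
-/

open Matrix

namespace Vale.Agent.Lib.P002

/-- The point of the affine space of pairs of matrices given by `(A, B)`. -/
def gwPair {r : ℕ} (A B : Matrix (Fin r) (Fin r) ℂ) : Fin 2 × Fin r × Fin r → ℂ :=
  fun x => (![A, B] x.1) x.2.1 x.2.2

/-- Free wall data from a point of the coordinate torus. -/
def gwFr {R : Type*} [CommRing R] (r : ℕ) (s : Fin 2 × Fin r × Fin (r + 1) → Rˣ) :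
    ℕ → ℕ → ℕ → Rˣ :=
  fun δ i k => if h : δ < 2 ∧ i < r ∧ k < r + 1 then s (⟨δ, h.1⟩, ⟨i, h.2.1⟩, ⟨k, h.2.2⟩) else 1

theorem gwFr_map {R S : Type*} [CommRing R] [CommRing S] (f : R →+* S) (r : ℕ)
    (s : Fin 2 × Fin r × Fin (r + 1) → Rˣ) (δ i k : ℕ) :
    f (gwFr r s δ i k : R) = (gwFr r (fun w => Units.map (f : R →* S) (s w)) δ i k : S) := by
  unfold gwFr
  split_ifs <;> simp

/-- `(A, B)` is the chart point with diagonals `a, b, c` and free wall data `s`. -/
def gwIsPt {R : Type*} [CommRing R] {r : ℕ} (a b c : Fin r → Rˣ)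
    (s : Fin 2 × Fin r × Fin (r + 1) → Rˣ) (A B : Matrix (Fin r) (Fin r) R) : Prop :=
  ∃ l p q l' qi : Matrix (Fin r) (Fin r) R,
    gwCell (fun i => (b i : R)) (fun i => (((a i)⁻¹ * c i : Rˣ) : R)) l p q l' ∧
    (∀ δ i k : ℕ, δ ≤ 1 → 1 ≤ k → i + δ + k ≤ r → ¬ (δ = 0 ∧ (i = 0 ∨ i + k = r)) →
        gwMinor (l * p) i (i + δ) k = (gwFr r s δ i k : R)) ∧
    q * qi = 1 ∧ qi * q = 1 ∧ A = p * Matrix.diagonal (fun i => (a i : R)) * qi ∧ B = l

theorem gwIsPt_exists {R : Type*} [CommRing R] {r : ℕ} (a b c : Fin r → Rˣ)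
    (h : ∏ i, b i = ∏ i, ((a i)⁻¹ * c i)) (s : Fin 2 × Fin r × Fin (r + 1) → Rˣ) :
    ∃ A B : Matrix (Fin r) (Fin r) R, gwIsPt a b c s A B := by
  obtain ⟨l, p, q, l', hcell, hfr⟩ := gw_cell_exists r b (fun i => (a i)⁻¹ * c i) h (gwFr r s)
  obtain ⟨qi, -, -, h1, h2⟩ := gw_upU_inv r q hcell.2.2.2.2.1 hcell.2.2.2.2.2.1
  exact ⟨_, _, l, p, q, l', qi, hcell, hfr, h1, h2, rfl, rfl⟩

theorem gwIsPt_unique {R : Type*} [CommRing R] {r : ℕ} (a b c : Fin r → Rˣ)
    (s : Fin 2 × Fin r × Fin (r + 1) → Rˣ) {A B A' B' : Matrix (Fin r) (Fin r) R}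
    (h : gwIsPt a b c s A B) (h' : gwIsPt a b c s A' B') : A = A' ∧ B = B' := by
  obtain ⟨l, p, q, l', qi, hcell, hfr, h1, h2, hA, hB⟩ := h
  obtain ⟨l₂, p₂, q₂, l₂', qi₂, hcell₂, hfr₂, h1₂, h2₂, hA', hB'⟩ := h'
  obtain ⟨e1, e2, e3, e4⟩ := gw_cell_unique r _ _ (fun i => (b i).isUnit)
    (fun i => Units.isUnit _) l p q l' l₂ p₂ q₂ l₂' hcell hcell₂
    (fun δ i k hδ hk hr hn => by rw [hfr δ i k hδ hk hr hn]; exact Units.isUnit _)
    (fun δ i k hδ hk hr hn => by rw [hfr δ i k hδ hk hr hn, hfr₂ δ i k hδ hk hr hn])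
  subst e1 e2 e3 e4
  have hq : qi = qi₂ := by
    calc qi = qi * (q * qi₂) := by rw [h1₂, mul_one]
      _ = (qi * q) * qi₂ := by rw [mul_assoc]
      _ = qi₂ := by rw [h2, one_mul]
  subst hq
  exact ⟨hA.trans hA'.symm, hB.trans hB'.symm⟩

theorem gwIsPt.map {R S : Type*} [CommRing R] [CommRing S] (f : R →+* S) {r : ℕ}
    {a b c : Fin r → Rˣ} {s : Fin 2 × Fin r × Fin (r + 1) → Rˣ}
    {A B : Matrix (Fin r) (Fin r) R} (h : gwIsPt a b c s A B) :
    gwIsPt (fun i => Units.map (f : R →* S) (a i)) (fun i => Units.map (f : R →* S) (b i))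
      (fun i => Units.map (f : R →* S) (c i)) (fun w => Units.map (f : R →* S) (s w))
      (A.map f) (B.map f) := by
  obtain ⟨l, p, q, l', qi, hcell, hfr, h1, h2, hA, hB⟩ := h
  refine ⟨l.map f, p.map f, q.map f, l'.map f, qi.map f, ?_, ?_, ?_, ?_, ?_, by rw [hB]⟩
  · have hm := hcell.map f
    have e1 : (fun i => f ((b i : Rˣ) : R)) = fun i => ((Units.map (f : R →* S) (b i) : Sˣ) : S) :=
      rfl
    have e2 : (fun i => f (((a i)⁻¹ * c i : Rˣ) : R)) = fun i =>
        (((Units.map (f : R →* S) (a i))⁻¹ * Units.map (f : R →* S) (c i) : Sˣ) : S) := by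
      ext i
      rw [← map_inv, ← map_mul]
      rfl
    rw [e1, e2] at hm
    exact hm
  · intro δ i k hδ hk hr hn
    rw [← Matrix.map_mul, gwMinor_map, hfr δ i k hδ hk hr hn, gwFr_map]
  · rw [← Matrix.map_mul, h1, Matrix.map_one _ f.map_zero f.map_one]
  · rw [← Matrix.map_mul, h2, Matrix.map_one _ f.map_zero f.map_one]
  · rw [hA, Matrix.map_mul, Matrix.map_mul, Matrix.diagonal_map f.map_zero]
    rfl

/-- The diagonal of a product of upper triangular matrices. -/
theorem gw_diag_mul_up {R : Type*} [CommRing R] {r : ℕ} (M N : Matrix (Fin r) (Fin r) R)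
    (hM : M.IsUpperTriangular) (hN : N.IsUpperTriangular) (i : Fin r) :
    (M * N) i i = M i i * N i i := by
  rw [Matrix.mul_apply]
  apply Finset.sum_eq_single i
  · intro j _ hj
    rcases lt_or_gt_of_ne hj with h | h
    · rw [hM h, zero_mul]
    · rw [hN h, mul_zero]
  · intro hi
    exact absurd (Finset.mem_univ i) hi

/-- A chart point is an honest chart point: triangular shapes, diagonals, and the relation. -/
theorem gwIsPt_chart {R : Type*} [CommRing R] {r : ℕ} (a b c : Fin r → Rˣ)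
    (s : Fin 2 × Fin r × Fin (r + 1) → Rˣ) {A B : Matrix (Fin r) (Fin r) R}
    (h : gwIsPt a b c s A B) :
    ∃ N K : Matrix (Fin r) (Fin r) R, A.IsUpperTriangular ∧ (∀ i, A i i = a i) ∧
      B.IsLowerTriangular ∧ (∀ i, B i i = b i) ∧ N.IsUpperTriangular ∧ (∀ i, N i i = 1) ∧
      K.IsLowerTriangular ∧ (∀ i, K i i = c i) ∧ A * B * N = N * K ∧
      ∀ δ i k : ℕ, δ ≤ 1 → 1 ≤ k → i + δ + k ≤ r → IsUnit (gwMinor (B * N) i (i + δ) k) := by
  obtain ⟨l, p, q, l', qi, hcell, hfr, h1, h2, hA, hB⟩ := h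
  obtain ⟨hl, hld, hp, hp1, hq, hq1, hl', hl'd, hrel⟩ := hcell
  obtain ⟨qi', hqi', hqi'1, g1, g2⟩ := gw_upU_inv r q hq hq1
  have hqq : qi = qi' := by
    calc qi = qi * (q * qi') := by rw [g1, mul_one]
      _ = (qi * q) * qi' := by rw [mul_assoc]
      _ = qi' := by rw [h2, one_mul]
  subst hqq
  have hD : (Matrix.diagonal (fun i => (a i : R))).IsUpperTriangular :=
    Matrix.blockTriangular_diagonal _
  refine ⟨p, Matrix.diagonal (fun i => (a i : R)) * l', ?_, ?_, ?_, ?_, hp, hp1, ?_, ?_, ?_, ?_⟩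
  · rw [hA]
    exact (hp.mul hD).mul hqi'
  · intro i
    rw [hA, gw_diag_mul_up _ _ (hp.mul hD) hqi', gw_diag_mul_up _ _ hp hD, hp1, hqi'1,
      Matrix.diagonal_apply_eq, one_mul, mul_one]
  · rw [hB]
    exact hl
  · intro i
    rw [hB]
    exact hld i
  · intro i j hij
    rw [Matrix.diagonal_mul, hl' hij, mul_zero]
  · intro i
    rw [Matrix.diagonal_mul, hl'd i]
    simp
  · rw [hA, hB]
    calc p * Matrix.diagonal (fun i => (a i : R)) * qi * l * p
        = p * Matrix.diagonal (fun i => (a i : R)) * qi * (l * p) := by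
          simp only [mul_assoc]
      _ = p * Matrix.diagonal (fun i => (a i : R)) * (qi * q) * l' := by
          rw [hrel]
          simp only [mul_assoc]
      _ = p * (Matrix.diagonal (fun i => (a i : R)) * l') := by
          rw [h2, mul_one, mul_assoc]
  · intro δ i k hδ hk hr
    rw [hB]
    by_cases hn : δ = 0 ∧ (i = 0 ∨ i + k = r)
    · obtain ⟨rfl, hi⟩ := hn
      rw [Nat.add_zero]
      rcases hi with rfl | hi
      · rw [gw_lead_mul r l p hl hp hp1 k (by omega)]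
        simp only [hld]
        rw [← Units.coe_prod]
        exact Units.isUnit _
      · obtain rfl : i = r - k := by omega
        rw [hrel, gw_trail_mul r q l' hq hq1 hl' k (by omega)]
        simp only [hl'd]
        rw [← Units.coe_prod]
        exact Units.isUnit _
    · rw [hfr δ i k hδ hk hr hn]
      exact Units.isUnit _

/-- Every chart point over `ℂ` with nonvanishing wall minors is a chart point in the sense of
`gwIsPt`, for suitable free wall data. -/
theorem gwIsPt_of_chart {r : ℕ} (a b c : Fin r → ℂˣ) (A B N K : Matrix (Fin r) (Fin r) ℂ)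
    (hA : A.IsUpperTriangular) (hAd : ∀ i, A i i = a i) (hB : B.IsLowerTriangular)
    (hBd : ∀ i, B i i = b i) (hN : N.IsUpperTriangular) (hN1 : ∀ i, N i i = 1)
    (hK : K.IsLowerTriangular) (hKd : ∀ i, K i i = c i) (hrel : A * B * N = N * K)
    (hw : ∀ δ i k : ℕ, δ ≤ 1 → 1 ≤ k → i + δ + k ≤ r → gwMinor (B * N) i (i + δ) k ≠ 0) :
    ∃ s : Fin 2 × Fin r × Fin (r + 1) → ℂˣ, gwIsPt a b c s A B := by
  classical
  obtain ⟨Ni, hNi, hNi1, n1, n2⟩ := gw_upU_inv r N hN hN1
  have hDi : (Matrix.diagonal (fun i => ((a i)⁻¹ : ℂ))).IsUpperTriangular :=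
    Matrix.blockTriangular_diagonal _
  set qi : Matrix (Fin r) (Fin r) ℂ := Matrix.diagonal (fun i => ((a i)⁻¹ : ℂ)) * Ni * A
    with hqi
  have hqiU : qi.IsUpperTriangular := (hDi.mul hNi).mul hA
  have hqi1 : ∀ i, qi i i = 1 := by
    intro i
    rw [hqi, gw_diag_mul_up _ _ (hDi.mul hNi) hA, gw_diag_mul_up _ _ hDi hNi, hNi1, hAd,
      Matrix.diagonal_apply_eq, mul_one]
    exact inv_mul_cancel₀ (a i).ne_zero
  obtain ⟨q, hq, hq1, g1, g2⟩ := gw_upU_inv r qi hqiU hqi1
  set l' : Matrix (Fin r) (Fin r) ℂ := Matrix.diagonal (fun i => ((a i)⁻¹ : ℂ)) * K with hl'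
  have key : qi * (B * N) = l' := by
    rw [hqi, hl']
    calc Matrix.diagonal (fun i => ((a i)⁻¹ : ℂ)) * Ni * A * (B * N)
        = Matrix.diagonal (fun i => ((a i)⁻¹ : ℂ)) * Ni * (A * B * N) := by
          simp only [mul_assoc]
      _ = Matrix.diagonal (fun i => ((a i)⁻¹ : ℂ)) * (Ni * N) * K := by
          rw [hrel]
          simp only [mul_assoc]
      _ = Matrix.diagonal (fun i => ((a i)⁻¹ : ℂ)) * K := by rw [n2, mul_one]
  have hBN : B * N = q * l' := by
    rw [← key, ← mul_assoc, g2, one_mul]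
  refine ⟨fun w => if h : gwMinor (B * N) w.2.1 (w.2.1 + w.1) w.2.2 ≠ 0 then Units.mk0 _ h else 1,
    B, N, q, l', qi, ⟨hB, hBd, hN, hN1, hq, hq1, ?_, ?_, hBN⟩, ?_, g2, g1, ?_, rfl⟩
  · intro i j hij
    rw [hl', Matrix.diagonal_mul, hK hij, mul_zero]
  · intro i
    rw [hl', Matrix.diagonal_mul, hKd i]
    simp
  · intro δ i k hδ hk hr hn
    have hc : δ < 2 ∧ i < r ∧ k < r + 1 := ⟨by omega, by omega, by omega⟩
    unfold gwFr
    rw [dif_pos hc]
    simp only
    rw [dif_pos (hw δ i k hδ hk hr)]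
    rfl
  · rw [hqi]
    calc A = (N * Ni) * A := by rw [n1, one_mul]
      _ = N * (Matrix.diagonal (fun i => (a i : ℂ)) * Matrix.diagonal (fun i => ((a i)⁻¹ : ℂ)))
            * Ni * A := by
          rw [Matrix.diagonal_mul_diagonal]
          have : (fun i => (a i : ℂ) * ((a i)⁻¹ : ℂ)) = fun _ => (1 : ℂ) := by
            ext i
            exact mul_inv_cancel₀ (a i).ne_zero
          rw [this, Matrix.diagonal_one, mul_one]
      _ = N * Matrix.diagonal (fun i => (a i : ℂ)) *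
            (Matrix.diagonal (fun i => ((a i)⁻¹ : ℂ)) * Ni * A) := by
          simp only [mul_assoc]

/-- **Core density statement for the wall chart.** If a polynomial vanishes at all chart points
with entries in the subring `O` (which contains the diagonal data, their inverses, and an
infinite set `U` of units with their inverses), then it vanishes at every chart point whose
wall minors do not vanish. -/
theorem gw_pants_core (r : ℕ) (a b c : Fin r → ℂˣ) (h : ∏ i, b i = ∏ i, ((a i)⁻¹ * c i))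
    (O : Subring ℂ) (haO : ∀ i, ((a i : ℂˣ) : ℂ) ∈ O ∧ (((a i)⁻¹ : ℂˣ) : ℂ) ∈ O)
    (hbO : ∀ i, ((b i : ℂˣ) : ℂ) ∈ O ∧ (((b i)⁻¹ : ℂˣ) : ℂ) ∈ O)
    (hcO : ∀ i, ((c i : ℂˣ) : ℂ) ∈ O ∧ (((c i)⁻¹ : ℂˣ) : ℂ) ∈ O)
    (U : Set ℂˣ) (hU : U.Infinite) (hUO : ∀ u ∈ U, (u : ℂ) ∈ O ∧ ((u⁻¹ : ℂˣ) : ℂ) ∈ O)
    (F : MvPolynomial (Fin 2 × Fin r × Fin r) ℂ)
    (H : ∀ A B N K : Matrix (Fin r) (Fin r) ℂ, A.IsUpperTriangular → (∀ i, A i i = a i) →
      B.IsLowerTriangular → (∀ i, B i i = b i) → N.IsUpperTriangular → (∀ i, N i i = 1) →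
      K.IsLowerTriangular → (∀ i, K i i = c i) → A * B * N = N * K →
      (∀ i j, A i j ∈ O) → (∀ i j, B i j ∈ O) → MvPolynomial.eval (gwPair A B) F = 0)
    (A B N K : Matrix (Fin r) (Fin r) ℂ)
    (hA : A.IsUpperTriangular) (hAd : ∀ i, A i i = a i) (hB : B.IsLowerTriangular)
    (hBd : ∀ i, B i i = b i) (hN : N.IsUpperTriangular) (hN1 : ∀ i, N i i = 1)
    (hK : K.IsLowerTriangular) (hKd : ∀ i, K i i = c i) (hrel : A * B * N = N * K)
    (hw : ∀ δ i k : ℕ, δ ≤ 1 → 1 ≤ k → i + δ + k ≤ r → gwMinor (B * N) i (i + δ) k ≠ 0) :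
    MvPolynomial.eval (gwPair A B) F = 0 := by
  classical
  -- integrality of chart points with unit parameters
  have key_int : ∀ s : Fin 2 × Fin r × Fin (r + 1) → ℂˣ, (∀ w, s w ∈ U) →
      ∀ A B : Matrix (Fin r) (Fin r) ℂ, gwIsPt a b c s A B →
        (∀ i j, A i j ∈ O) ∧ (∀ i j, B i j ∈ O) := by
    intro s hs A B hpt
    let lift : ∀ x : ℂˣ, (x : ℂ) ∈ O → ((x⁻¹ : ℂˣ) : ℂ) ∈ O → (↥O)ˣ := fun x h1 h2 =>
      ⟨⟨x, h1⟩, ⟨_, h2⟩, by ext; simp, by ext; simp⟩
    have hlift : ∀ (x : ℂˣ) (h1 : (x : ℂ) ∈ O) (h2 : ((x⁻¹ : ℂˣ) : ℂ) ∈ O),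
        Units.map (O.subtype : ↥O →* ℂ) (lift x h1 h2) = x := by
      intro x h1 h2
      ext
      rfl
    let aO : Fin r → (↥O)ˣ := fun i => lift (a i) (haO i).1 (haO i).2
    let bO : Fin r → (↥O)ˣ := fun i => lift (b i) (hbO i).1 (hbO i).2
    let cO : Fin r → (↥O)ˣ := fun i => lift (c i) (hcO i).1 (hcO i).2
    let sO : Fin 2 × Fin r × Fin (r + 1) → (↥O)ˣ := fun w =>
      lift (s w) (hUO _ (hs w)).1 (hUO _ (hs w)).2
    have hO : ∏ i, bO i = ∏ i, ((aO i)⁻¹ * cO i) := by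
      apply Units.map_injective (f := (O.subtype : ↥O →* ℂ)) Subtype.val_injective
      rw [map_prod, map_prod]
      simp only [map_mul, map_inv]
      simp only [aO, bO, cO, hlift]
      exact h
    obtain ⟨A0, B0, hpt0⟩ := gwIsPt_exists aO bO cO hO sO
    have hm := hpt0.map O.subtype
    have ea : (fun i => Units.map (O.subtype : ↥O →* ℂ) (aO i)) = a := by
      ext i
      rfl
    have eb : (fun i => Units.map (O.subtype : ↥O →* ℂ) (bO i)) = b := by
      ext i
      rfl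
    have ec : (fun i => Units.map (O.subtype : ↥O →* ℂ) (cO i)) = c := by
      ext i
      rfl
    have es : (fun w => Units.map (O.subtype : ↥O →* ℂ) (sO w)) = s := by
      ext w
      rfl
    rw [ea, eb, ec, es] at hm
    obtain ⟨e1, e2⟩ := gwIsPt_unique a b c s hpt hm
    rw [e1, e2]
    exact ⟨fun i j => (A0 i j).2, fun i j => (B0 i j).2⟩
  -- Laurent dependence on each parameter
  have key_laur : ∀ (s : Fin 2 × Fin r × Fin (r + 1) → ℂˣ) (v : Fin 2 × Fin r × Fin (r + 1)),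
      ∃ P Q : ℂˣ → Matrix (Fin r) (Fin r) ℂ, (∀ i j, IsLaurent (fun u => P u i j)) ∧
        (∀ i j, IsLaurent (fun u => Q u i j)) ∧
        ∀ u, gwIsPt a b c (Function.update s v u) (P u) (Q u) := by
    intro s v
    let cU : ℂˣ →* gwLaurˣ := Units.map (gwConst : ℂ →* gwLaur)
    have hcU : ∀ (u : ℂˣ) (x : ℂˣ), Units.map (gwEv u : gwLaur →* ℂ) (cU x) = x := by
      intro u x
      ext
      rfl
    have hL : ∏ i, cU (b i) = ∏ i, ((cU (a i))⁻¹ * cU (c i)) := by
      rw [← map_prod]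
      simp only [← map_inv, ← map_mul]
      rw [← map_prod, h]
    obtain ⟨A0, B0, hpt0⟩ := gwIsPt_exists (fun i => cU (a i)) (fun i => cU (b i))
      (fun i => cU (c i)) hL (fun w => if w = v then gwT else cU (s w))
    refine ⟨fun u => A0.map (gwEv u), fun u => B0.map (gwEv u),
      fun i j => gwLaur_isLaurent (A0 i j), fun i j => gwLaur_isLaurent (B0 i j), fun u => ?_⟩
    have hm := hpt0.map (gwEv u)
    have ea : (fun i => Units.map (gwEv u : gwLaur →* ℂ) (cU (a i))) = a := by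
      ext i
      rfl
    have eb : (fun i => Units.map (gwEv u : gwLaur →* ℂ) (cU (b i))) = b := by
      ext i
      rfl
    have ec : (fun i => Units.map (gwEv u : gwLaur →* ℂ) (cU (c i))) = c := by
      ext i
      rfl
    have es : (fun w => Units.map (gwEv u : gwLaur →* ℂ) (if w = v then gwT else cU (s w)))
        = Function.update s v u := by
      ext w
      by_cases hwv : w = v
      · subst hwv
        rw [if_pos rfl, Function.update_self]
        rfl
      · rw [if_neg hwv, Function.update_of_ne hwv]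
        rfl
    rw [ea, eb, ec, es] at hm
    exact hm
  -- the function on the parameter torus
  choose P Q hPQ using fun s => gwIsPt_exists a b c h s
  have hG : ∀ (s : Fin 2 × Fin r × Fin (r + 1) → ℂˣ) (A B : Matrix (Fin r) (Fin r) ℂ),
      gwIsPt a b c s A B →
        MvPolynomial.eval (gwPair A B) F = MvPolynomial.eval (gwPair (P s) (Q s)) F := by
    intro s A B hpt
    obtain ⟨e1, e2⟩ := gwIsPt_unique a b c s hpt (hPQ s)
    rw [e1, e2]
  have hG0 : ∀ s : Fin 2 × Fin r × Fin (r + 1) → ℂˣ,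
      MvPolynomial.eval (gwPair (P s) (Q s)) F = 0 := by
    apply eq_zero_of_grid (fun s => MvPolynomial.eval (gwPair (P s) (Q s)) F) ?_ U hU ?_
    · intro s v
      obtain ⟨P', Q', hP', hQ', hpt⟩ := key_laur s v
      have e : (fun u => MvPolynomial.eval (gwPair (P (Function.update s v u))
          (Q (Function.update s v u))) F) = fun u => MvPolynomial.eval (gwPair (P' u) (Q' u)) F := by
        ext u
        exact (hG _ _ _ (hpt u)).symm
      rw [e]
      apply IsLaurent.eval_mvPolynomial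
      rintro ⟨t, i, j⟩
      fin_cases t
      · exact hP' i j
      · exact hQ' i j
    · intro s hs
      obtain ⟨N', K', c1, c2, c3, c4, c5, c6, c7, c8, c9, -⟩ := gwIsPt_chart a b c s (hPQ s)
      obtain ⟨i1, i2⟩ := key_int s hs _ _ (hPQ s)
      exact H _ _ N' K' c1 c2 c3 c4 c5 c6 c7 c8 c9 i1 i2
  obtain ⟨s, hpt⟩ := gwIsPt_of_chart a b c A B N K hA hAd hB hBd hN hN1 hK hKd hrel hw
  rw [hG s A B hpt]
  exact hG0 s

end Vale.Agent.Lib.P002
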