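import Vale.Agent.Lib.P002.GQSec
import Vale.Agent.Lib.P002.GQGwE
import Vale.Agent.Lib.P002.GWPants

/-!
# The effective parameters are determined by the data of the chart point
-/

namespace Vale.Agent.Lib.P002

/-- The free wall data of a cell, read off at a wall index. -/
theorem gqParamAux_fr {g n r : ℕ} (σ : GpIdx g n r → ℂˣ) (k : ℕ) (hk : k < 2 * g + n)
    (w : Fin 2 × Fin r × Fin (r + 1)) :
    gwFr r (gpWall σ k) (w.1 : ℕ) (w.2.1 : ℕ) (w.2.2 : ℕ) = σ (Sum.inl (⟨k, hk⟩, w)) := by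
  unfold gwFr gpWall
  rw [dif_pos ⟨w.1.isLt, w.2.1.isLt, w.2.2.isLt⟩, dif_pos hk]

/-- The wall parameters of a cell are determined by its free wall minors. -/
theorem gqParamAux_wall {g n r : ℕ} (hN : 2 ≤ 2 * g + n) (s s' : GqIdx g n r → ℂˣ)
    (hw : ∀ k, 1 ≤ k → k + 1 ≤ 2 * g + n → ∀ δ i m : ℕ, δ ≤ 1 → 1 ≤ m → i + δ + m ≤ r →
      ¬ (δ = 0 ∧ (i = 0 ∨ i + m = r)) →
      gwFr r (gpWall (gqSec (gqEmb hN) s) k) δ i m =
        gwFr r (gpWall (gqSec (gqEmb hN) s') k) δ i m)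
    (k : ℕ) (hk1 : 1 ≤ k) (hk : k < 2 * g + n) (v : Fin (r - 1) × Fin (r - 1)) :
    gqSec (gqEmb hN) s (Sum.inl (⟨k, hk⟩, gqWallIdx r v)) =
      gqSec (gqEmb hN) s' (Sum.inl (⟨k, hk⟩, gqWallIdx r v)) := by
  obtain ⟨h1, h2, h3, h4⟩ := gqWallIdx_used r v
  rw [← gqParamAux_fr (gqSec (gqEmb hN) s) k hk (gqWallIdx r v),
    ← gqParamAux_fr (gqSec (gqEmb hN) s') k hk (gqWallIdx r v)]
  exact hw k hk1 (by omega) _ _ _ h1 h2 h3 h4

/-- The superdiagonal entries of the first cell are normalized to `1`. -/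
theorem gq_slice {g n r : ℕ} (hN : 2 ≤ 2 * g + n) (s : GqIdx g n r → ℂˣ) (i : ℕ)
    (hi : i + 1 < r) : gwFr r (gpWall (gqSec (gqEmb hN) s) 1) 1 i 1 = 1 := by
  have h := gqParamAux_fr (gqSec (gqEmb hN) s) 1 (by omega)
    ((1 : Fin 2), ⟨i, by omega⟩, ⟨1, by omega⟩)
  exact h.trans (gqSec_of_not_range _ _ _ (gqEmb_ne_slice hN i hi))

/-- The effective parameters are determined by the free wall minors of the cells, the trailing
diagonals of the cells before the last one and the antidiagonal data of the handles. -/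
theorem gq_param_inj {g n r : ℕ} (hN : 2 ≤ 2 * g + n) (s s' : GqIdx g n r → ℂˣ)
    (hw : ∀ k, 1 ≤ k → k + 1 ≤ 2 * g + n → ∀ δ i m : ℕ, δ ≤ 1 → 1 ≤ m → i + δ + m ≤ r →
      ¬ (δ = 0 ∧ (i = 0 ∨ i + m = r)) →
      gwFr r (gpWall (gqSec (gqEmb hN) s) k) δ i m =
        gwFr r (gpWall (gqSec (gqEmb hN) s') k) δ i m)
    (he : ∀ k, 1 ≤ k → k + 1 < 2 * g + n →
      gpE0 (gqSec (gqEmb hN) s) k = gpE0 (gqSec (gqEmb hN) s') k)
    (ht : ∀ h b, gpTt (gqSec (gqEmb hN) s) h b = gpTt (gqSec (gqEmb hN) s') h b) :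
    s = s' := by
  have hinj := gqEmb_injective (g := g) (n := n) (r := r) hN
  funext v
  rcases v with ⟨k, v⟩ | ⟨v⟩ | ⟨k, i⟩ | ⟨h, b, i⟩
  · have hk := k.isLt
    have h := gqParamAux_wall hN s s' hw ((k : ℕ) + 2) (by omega) (by omega) v
    have e1 := gqSec_emb (gqEmb hN) hinj s (Sum.inl (k, v))
    have e2 := gqSec_emb (gqEmb hN) hinj s' (Sum.inl (k, v))
    exact e1.symm.trans (h.trans e2)
  · have h := gqParamAux_wall hN s s' hw 1 le_rfl (by omega) v.1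
    have e1 := gqSec_emb (gqEmb hN) hinj s (Sum.inr (Sum.inl v))
    have e2 := gqSec_emb (gqEmb hN) hinj s' (Sum.inr (Sum.inl v))
    exact e1.symm.trans (h.trans e2)
  · have hk := k.isLt
    have hi := i.isLt
    have hr : 0 < r := by omega
    have hc : 1 ≤ (k : ℕ) + 1 ∧ (k : ℕ) + 1 + 1 < 2 * g + n := ⟨by omega, by omega⟩
    have h := he ((k : ℕ) + 1) hc.1 hc.2
    unfold gpE0 at h
    rw [dif_pos hc, dif_pos hc] at h
    have h' := gwE_inj_of_last hr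
      (fun i => gqSec (gqEmb hN) s (Sum.inr (Sum.inl (⟨(k : ℕ) + 1, by omega⟩, i))))
      (fun i => gqSec (gqEmb hN) s' (Sum.inr (Sum.inl (⟨(k : ℕ) + 1, by omega⟩, i))))
      (gqSec_of_not_range (gqEmb hN) s _ (gqEmb_ne_last_e hN hr ⟨(k : ℕ) + 1, by omega⟩))
      (gqSec_of_not_range (gqEmb hN) s' _ (gqEmb_ne_last_e hN hr ⟨(k : ℕ) + 1, by omega⟩)) h
    have h'' := congrFun h' ⟨(i : ℕ), by omega⟩
    have e1 := gqSec_emb (gqEmb hN) hinj s (Sum.inr (Sum.inr (Sum.inl (k, i))))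
    have e2 := gqSec_emb (gqEmb hN) hinj s' (Sum.inr (Sum.inr (Sum.inl (k, i))))
    exact e1.symm.trans (h''.trans e2)
  · have hi := i.isLt
    have hr : 0 < r := by omega
    have h0 := ht h b
    unfold gpTt at h0
    have h' := gpT_inj_of_last hr
      (fun i => gqSec (gqEmb hN) s (Sum.inr (Sum.inr (h, b, i))))
      (fun i => gqSec (gqEmb hN) s' (Sum.inr (Sum.inr (h, b, i))))
      (gqSec_of_not_range (gqEmb hN) s _ (gqEmb_ne_last_t hN hr h b))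
      (gqSec_of_not_range (gqEmb hN) s' _ (gqEmb_ne_last_t hN hr h b)) h0
    have h'' := congrFun h' ⟨(i : ℕ), by omega⟩
    have e1 := gqSec_emb (gqEmb hN) hinj s (Sum.inr (Sum.inr (Sum.inr (h, b, i))))
    have e2 := gqSec_emb (gqEmb hN) hinj s' (Sum.inr (Sum.inr (Sum.inr (h, b, i))))
    exact e1.symm.trans (h''.trans e2)

end Vale.Agent.Lib.P002
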