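import Vale.Agent.Lib.P002.GQDefs

/-!
# An intertwiner of two tuples intertwines the loops around the last puncture
-/

open Matrix

namespace Vale.Agent.Lib.P002

theorem gq_comm_inv {r : ℕ} (a a' : Matrix.SpecialLinearGroup (Fin r) ℂ)
    (γ : Matrix (Fin r) (Fin r) ℂ) (h : γ * a.1 = a'.1 * γ) : γ * (a⁻¹).1 = (a'⁻¹).1 * γ := by
  have h1 : (a'⁻¹).1 * a'.1 = 1 := by
    rw [← Matrix.SpecialLinearGroup.coe_mul, inv_mul_cancel, Matrix.SpecialLinearGroup.coe_one]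
  have h2 : a.1 * (a⁻¹).1 = 1 := by
    rw [← Matrix.SpecialLinearGroup.coe_mul, mul_inv_cancel, Matrix.SpecialLinearGroup.coe_one]
  calc γ * (a⁻¹).1 = ((a'⁻¹).1 * a'.1) * γ * (a⁻¹).1 := by rw [h1, one_mul]
    _ = (a'⁻¹).1 * (a'.1 * γ) * (a⁻¹).1 := by simp only [mul_assoc]
    _ = (a'⁻¹).1 * (γ * a.1) * (a⁻¹).1 := by rw [h]
    _ = (a'⁻¹).1 * γ * (a.1 * (a⁻¹).1) := by simp only [mul_assoc]
    _ = (a'⁻¹).1 * γ := by rw [h2, mul_one]

/-- The intertwining relation is closed under products. -/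
theorem gqWordAux_mul {r : ℕ} (a b a' b' : Matrix.SpecialLinearGroup (Fin r) ℂ)
    (γ : Matrix (Fin r) (Fin r) ℂ) (ha : γ * a.1 = a'.1 * γ) (hb : γ * b.1 = b'.1 * γ) :
    γ * (a * b).1 = (a' * b').1 * γ := by
  rw [Matrix.SpecialLinearGroup.coe_mul, Matrix.SpecialLinearGroup.coe_mul]
  calc γ * (a.1 * b.1) = (γ * a.1) * b.1 := by rw [mul_assoc]
    _ = a'.1 * (γ * b.1) := by rw [ha, mul_assoc]
    _ = a'.1 * b'.1 * γ := by rw [hb, mul_assoc]

/-- The intertwining relation passes to products of families. -/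
theorem gqWordAux_prod {r : ℕ} (γ : Matrix (Fin r) (Fin r) ℂ) :
    ∀ (m : ℕ) (u u' : Fin m → Matrix.SpecialLinearGroup (Fin r) ℂ),
      (∀ k, γ * (u k).1 = (u' k).1 * γ) →
      γ * ((List.ofFn u).prod).1 = ((List.ofFn u').prod).1 * γ := by
  intro m
  induction m with
  | zero =>
    intro u u' _
    rw [List.ofFn_zero, List.ofFn_zero, List.prod_nil, Matrix.SpecialLinearGroup.coe_one,
      mul_one, one_mul]
  | succ m ih =>
    intro u u' h
    rw [List.ofFn_succ, List.ofFn_succ, List.prod_cons, List.prod_cons]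
    exact gqWordAux_mul _ _ _ _ γ (h 0) (ih _ _ (fun k => h k.succ))

theorem gq_word {g n r : ℕ} (x y x' y' : Fin g → Matrix.SpecialLinearGroup (Fin r) ℂ)
    (z z' : Fin n → Matrix.SpecialLinearGroup (Fin r) ℂ) (γ : Matrix (Fin r) (Fin r) ℂ)
    (hx : ∀ h, γ * (x h).1 = (x' h).1 * γ) (hy : ∀ h, γ * (y h).1 = (y' h).1 * γ)
    (hz : ∀ j, γ * (z j).1 = (z' j).1 * γ) :
    γ * ((List.ofFn fun h => x h * y h * (x h)⁻¹ * (y h)⁻¹).prod * (List.ofFn z).prod).1 =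
      ((List.ofFn fun h => x' h * y' h * (x' h)⁻¹ * (y' h)⁻¹).prod * (List.ofFn z').prod).1 *
        γ := by
  have hc : ∀ h, γ * (x h * y h * (x h)⁻¹ * (y h)⁻¹).1
      = (x' h * y' h * (x' h)⁻¹ * (y' h)⁻¹).1 * γ := by
    intro h
    exact gqWordAux_mul _ _ _ _ γ
      (gqWordAux_mul _ _ _ _ γ (gqWordAux_mul _ _ _ _ γ (hx h) (hy h))
        (gq_comm_inv _ _ γ (hx h)))
      (gq_comm_inv _ _ γ (hy h))
  exact gqWordAux_mul _ _ _ _ γ (gqWordAux_prod γ g _ _ hc) (gqWordAux_prod γ n z z' hz)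

end Vale.Agent.Lib.P002
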