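import Vale.Agent.Lib.P002.GQTri
import Vale.Agent.Lib.P002.GQWord
import Vale.Agent.Lib.P002.GPAnti
import Vale.Agent.Lib.P002.GPFrames
import Vale.Agent.Lib.P002.GPRelNe
import Vale.Agent.Lib.P002.GPBlock

/-!
# An upper triangular intertwiner of two chart points is lower triangular
-/

open Matrix

namespace Vale.Agent.Lib.P002

theorem gqPosAux_cancel {M : Type*} [Monoid M] {a b : M} (h : a * b = 1) (m : M) :
    a * (b * m) = m := by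
  rw [← mul_assoc, h, one_mul]

/-- The conjugate `x0 * yi * xi` in terms of the data of the first handle. -/
theorem gqPosAux_word {M : Type*} [Monoid M]
    (x0 xi y0 yi l1 p1 p1i G2 l2 l2i l'1 T Ti T' T'i : M)
    (hE1 : x0 * (l1 * p1) = T) (hE2 : y0 * l1 = G2 * l2 * T') (hE3 : l1 * p1 = G2 * l'1)
    (hxi : xi * x0 = 1) (hyi : yi * y0 = 1) (hp : p1 * p1i = 1) (hl2 : l2 * l2i = 1)
    (hT : T * Ti = 1) (hT' : T' * T'i = 1) :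
    x0 * yi * xi = T * p1i * T'i * (l2i * l'1) * Ti := by
  have a1 : x0 * l1 = T * p1i := by
    rw [← hE1]
    simp only [mul_assoc, hp, mul_one]
  have a2 : xi * T = l1 * p1 := by
    rw [← hE1, gqPosAux_cancel hxi]
  have a3 : yi * G2 = l1 * T'i * l2i := by
    have e : yi * (G2 * l2 * T') = l1 := by rw [← hE2, gqPosAux_cancel hyi]
    rw [← e]
    simp only [mul_assoc, gqPosAux_cancel hT', hl2, mul_one]
  calc x0 * yi * xi = x0 * yi * (xi * T) * Ti := by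
        simp only [mul_assoc, hT, mul_one]
    _ = x0 * (yi * G2) * l'1 * Ti := by
        rw [a2, hE3]
        simp only [mul_assoc]
    _ = x0 * l1 * T'i * l2i * l'1 * Ti := by
        rw [a3]
        simp only [mul_assoc]
    _ = T * p1i * T'i * (l2i * l'1) * Ti := by
        rw [a1]
        simp only [mul_assoc]

theorem gqPosAux_inv {M : Type*} [Monoid M]
    (p1 p1i l2 l2i l'1 l'1i T Ti T' T'i : M)
    (hp : p1 * p1i = 1) (hpi : p1i * p1 = 1) (hl2 : l2 * l2i = 1) (hl2i : l2i * l2 = 1)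
    (hl' : l'1 * l'1i = 1) (hl'i : l'1i * l'1 = 1)
    (hT : T * Ti = 1) (hTi : Ti * T = 1) (hT' : T' * T'i = 1) (hT'i : T'i * T' = 1) :
    (T * p1i * T'i * (l2i * l'1)) * ((l'1i * l2) * (T' * p1 * Ti)) = 1 ∧
      ((l'1i * l2) * (T' * p1 * Ti)) * (T * p1i * T'i * (l2i * l'1)) = 1 := by
  constructor
  · simp only [mul_assoc, gqPosAux_cancel hl', gqPosAux_cancel hl2i, gqPosAux_cancel hT'i,
      gqPosAux_cancel hpi, hT]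
  · simp only [mul_assoc, gqPosAux_cancel hTi, gqPosAux_cancel hp, gqPosAux_cancel hT',
      gqPosAux_cancel hl2, hl'i]

theorem gqPosAux_solve {M : Type*} [Monoid M] (γ lam lami lam₂ T Ti T₂i : M)
    (hΞ : γ * (lam * Ti) = (lam₂ * T₂i) * γ) (hTi : Ti * T = 1) (hlam : lam * lami = 1) :
    γ = lam₂ * (T₂i * γ * T) * lami := by
  calc γ = γ * (lam * Ti) * (T * lami) := by
        simp only [mul_assoc, gqPosAux_cancel hTi, hlam, mul_one]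
    _ = lam₂ * (T₂i * γ * T) * lami := by
        rw [hΞ]
        simp only [mul_assoc]

theorem gqPosAux_comm3 {M : Type*} [Monoid M] (γ a b c a' b' c' : M)
    (h1 : γ * a = a' * γ) (h2 : γ * b = b' * γ) (h3 : γ * c = c' * γ) :
    γ * (a * b * c) = a' * b' * c' * γ := by
  calc γ * (a * b * c) = γ * a * b * c := by simp only [mul_assoc]
    _ = a' * (γ * b) * c := by
        rw [h1]
        simp only [mul_assoc]
    _ = a' * b' * (γ * c) := by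
        rw [h2]
        simp only [mul_assoc]
    _ = a' * b' * c' * γ := by
        rw [h3]
        simp only [mul_assoc]

/-- Conjugating an upper triangular matrix by antidiagonal matrices gives a lower triangular
matrix. -/
theorem gqPosAux_conj_up {r : ℕ} (t u : Fin r → ℂ) (U : Matrix (Fin r) (Fin r) ℂ)
    (hU : U.IsUpperTriangular) : (gpAnti t * U * gpAnti u).IsLowerTriangular := by
  intro i j hij
  have hij' : i < j := OrderDual.toDual_lt_toDual.mp hij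
  have hlt : Fin.rev j < Fin.rev i := Fin.rev_lt_rev.mpr hij'
  have hup : U (Fin.rev i) (Fin.rev j) = 0 := hU hlt
  rw [gpAntiAux_apply_mul, gpAntiAux_mul_apply, hup, mul_zero, zero_mul]

/-- Genus zero: the first puncture matrix is lower triangular with the prescribed diagonal. -/
theorem gqPosAux_punct {g n r : ℕ} (hg : g = 0) (hn : 0 < n)
    (x y : Fin g → Matrix (Fin r) (Fin r) ℂ)
    (z : Fin n → Matrix (Fin r) (Fin r) ℂ) (l p q l' G : ℕ → Matrix (Fin r) (Fin r) ℂ)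
    (t t' : Fin g → Fin r → ℂ) (τ : Fin n → Fin r → ℂ)
    (h : gpRel x y z l p q l' G t t' τ)
    (d : Fin n → Fin r → ℂ)
    (hdiag : ∀ (j : Fin n) (i : Fin r), l' (2 * g + j) i i * τ j i = d j i) :
    (z ⟨0, hn⟩).IsLowerTriangular ∧ ∀ i, z ⟨0, hn⟩ i i = d ⟨0, hn⟩ i := by
  subst hg
  obtain ⟨hc, htriv, hG0, hG, -, hpunc⟩ := h
  obtain ⟨hl0, hp0, hq0, hl'0⟩ := htriv 0 (Or.inl rfl)
  have hG1 : G 1 = 1 := by
    have e := hG 0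
    rw [hG0, hq0, mul_one] at e
    exact e
  have hE : z ⟨0, hn⟩ * (G 1 * l 1) = G 0 * l 0 * p 0 * Matrix.diagonal (τ ⟨0, hn⟩) :=
    hpunc ⟨0, hn⟩
  rw [hG1, hG0, hl0, hp0] at hE
  simp only [one_mul] at hE
  obtain ⟨hl1, hl1d, -⟩ := hc 1
  obtain ⟨li, hli, hlid, hmul, -⟩ := gpBlockAux_low_inv (l 1) hl1
    (fun i => by rw [hl1d i]; exact one_ne_zero)
  have hz : z ⟨0, hn⟩ = Matrix.diagonal (τ ⟨0, hn⟩) * li := by
    calc z ⟨0, hn⟩ = z ⟨0, hn⟩ * (l 1 * li) := by rw [hmul, mul_one]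
      _ = z ⟨0, hn⟩ * l 1 * li := by rw [mul_assoc]
      _ = Matrix.diagonal (τ ⟨0, hn⟩) * li := by rw [hE]
  have hdl : (Matrix.diagonal (τ ⟨0, hn⟩)).IsLowerTriangular :=
    Matrix.blockTriangular_diagonal _
  refine ⟨?_, ?_⟩
  · rw [hz]
    exact hdl.mul hli
  · intro i
    rw [hz, gsTeleAux_diag_mul_low _ _ hdl hli i, Matrix.diagonal_apply_eq, hlid i, hl1d i,
      inv_one, mul_one]
    have e' : l' 0 i i * τ ⟨0, hn⟩ i = d ⟨0, hn⟩ i := hdiag ⟨0, hn⟩ i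
    rw [hl'0, Matrix.one_apply_eq, one_mul] at e'
    exact e'

/-- Positive genus: the conjugate `x0 * yi * xi` of the first handle is a lower triangular
invertible matrix times the inverse antidiagonal matrix. -/
theorem gqPosAux_handle {g n r : ℕ} (hg : 0 < g) (x y : Fin g → Matrix (Fin r) (Fin r) ℂ)
    (z : Fin n → Matrix (Fin r) (Fin r) ℂ) (l p q l' G : ℕ → Matrix (Fin r) (Fin r) ℂ)
    (t t' : Fin g → Fin r → ℂ) (τ : Fin n → Fin r → ℂ)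
    (h : gpRel x y z l p q l' G t t' τ)
    (ht : ∀ i, t ⟨0, hg⟩ i ≠ 0) (ht' : ∀ i, t' ⟨0, hg⟩ i ≠ 0) (hl' : ∀ i, l' 1 i i ≠ 0)
    (xi yi : Matrix (Fin r) (Fin r) ℂ) (hxi : xi * x ⟨0, hg⟩ = 1)
    (hyi : yi * y ⟨0, hg⟩ = 1) :
    ∃ lam lami : Matrix (Fin r) (Fin r) ℂ, lam.IsLowerTriangular ∧ lami.IsLowerTriangular ∧
      lam * lami = 1 ∧
      x ⟨0, hg⟩ * yi * xi = lam * gpAnti (fun a => (t ⟨0, hg⟩ (Fin.rev a))⁻¹) := by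
  obtain ⟨hc, htriv, hG0, hG, hhand, -⟩ := h
  obtain ⟨hl0, hp0, hq0, -⟩ := htriv 0 (Or.inl rfl)
  have hG1 : G 1 = 1 := by
    have e := hG 0
    rw [hG0, hq0, mul_one] at e
    exact e
  have hG2 : G 2 = q 1 := by
    have e := hG 1
    rw [hG1, one_mul] at e
    exact e
  have hE : x ⟨0, hg⟩ * (G 1 * l 1 * p 1) = G 0 * l 0 * p 0 * gpAnti (t ⟨0, hg⟩) ∧
      y ⟨0, hg⟩ * (G 1 * l 1) = G 2 * l 2 * gpAnti (t' ⟨0, hg⟩) := hhand ⟨0, hg⟩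
  obtain ⟨hE1, hE2⟩ := hE
  rw [hG1, hG0, hl0, hp0] at hE1
  simp only [one_mul] at hE1
  rw [hG1] at hE2
  simp only [one_mul] at hE2
  obtain ⟨hl1, hl1d, hp1, hp1d, hq1, hq1d, hl'1, hcell1⟩ := hc 1
  obtain ⟨hl2, hl2d, -⟩ := hc 2
  have hE3 : l 1 * p 1 = G 2 * l' 1 := by
    rw [hG2]
    exact hcell1
  obtain ⟨p1i, hp1i, -, hpp, hpip⟩ := gw_upU_inv r (p 1) hp1 hp1d
  obtain ⟨l2i, hl2i, -, hll2, hl2il⟩ := gpBlockAux_low_inv (l 2) hl2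
    (fun i => by rw [hl2d i]; exact one_ne_zero)
  obtain ⟨l'1i, hl'1i, -, hl'l, hl'il⟩ := gpBlockAux_low_inv (l' 1) hl'1 hl'
  obtain ⟨hTT, hTiT⟩ := gpBlockAux_anti_inv (t ⟨0, hg⟩) ht
  obtain ⟨hT'T, hT'iT⟩ := gpBlockAux_anti_inv (t' ⟨0, hg⟩) ht'
  refine ⟨gpAnti (t ⟨0, hg⟩) * p1i * gpAnti (fun a => (t' ⟨0, hg⟩ (Fin.rev a))⁻¹) *
      (l2i * l' 1),
    (l'1i * l 2) * (gpAnti (t' ⟨0, hg⟩) * p 1 * gpAnti (fun a => (t ⟨0, hg⟩ (Fin.rev a))⁻¹)),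
    ?_, ?_, ?_, ?_⟩
  · exact (gqPosAux_conj_up _ _ p1i hp1i).mul (hl2i.mul hl'1)
  · exact (hl'1i.mul hl2).mul (gqPosAux_conj_up _ _ (p 1) hp1)
  · exact (gqPosAux_inv (p 1) p1i (l 2) l2i (l' 1) l'1i _ _ _ _ hpp hpip hll2 hl2il hl'l hl'il
      hTT hTiT hT'T hT'iT).1
  · exact gqPosAux_word (x ⟨0, hg⟩) xi (y ⟨0, hg⟩) yi (l 1) (p 1) p1i (G 2) (l 2) l2i (l' 1)
      _ _ _ _ hE1 hE2 hE3 hxi hyi hpp hll2 hTT hT'T

/-- Let `γ` be an upper triangular matrix intertwining two tuples with data of the chart, with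
the same ordered distinct eigenvalues at the punctures.  Then `γ` is lower triangular. -/
theorem gq_lower {g n r : ℕ} (hN : 2 ≤ 2 * g + n)
    (x y x₂ y₂ : Fin g → Matrix.SpecialLinearGroup (Fin r) ℂ)
    (z z₂ : Fin n → Matrix.SpecialLinearGroup (Fin r) ℂ)
    (l p q l' G : ℕ → Matrix (Fin r) (Fin r) ℂ) (t t' : Fin g → Fin r → ℂ)
    (τ : Fin n → Fin r → ℂ)
    (l₂ p₂ q₂ l'₂ G₂ : ℕ → Matrix (Fin r) (Fin r) ℂ) (t₂ t'₂ : Fin g → Fin r → ℂ)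
    (τ₂ : Fin n → Fin r → ℂ)
    (h : gpRel (fun h => (x h).1) (fun h => (y h).1) (fun j => (z j).1) l p q l' G t t' τ)
    (h₂ : gpRel (fun h => (x₂ h).1) (fun h => (y₂ h).1) (fun j => (z₂ j).1) l₂ p₂ q₂ l'₂ G₂
      t₂ t'₂ τ₂)
    (d : Fin n → Fin r → ℂ) (hd : ∀ j, Function.Injective (d j))
    (hdiag : ∀ (j : Fin n) (i : Fin r), l' (2 * g + j) i i * τ j i = d j i)
    (hdiag₂ : ∀ (j : Fin n) (i : Fin r), l'₂ (2 * g + j) i i * τ₂ j i = d j i)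
    (γ : Matrix (Fin r) (Fin r) ℂ) (hγ : γ.IsUpperTriangular)
    (hx : ∀ h, γ * (x h).1 = (x₂ h).1 * γ) (hy : ∀ h, γ * (y h).1 = (y₂ h).1 * γ)
    (hz : ∀ j, γ * (z j).1 = (z₂ j).1 * γ) :
    γ.IsLowerTriangular := by
  rcases Nat.eq_zero_or_pos g with hg | hg
  · have hn : 0 < n := by omega
    obtain ⟨hA, hAd⟩ := gqPosAux_punct hg hn (fun h => (x h).1) (fun h => (y h).1)
      (fun j => (z j).1) l p q l' G t t' τ h d hdiag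
    obtain ⟨hA', hAd'⟩ := gqPosAux_punct hg hn (fun h => (x₂ h).1) (fun h => (y₂ h).1)
      (fun j => (z₂ j).1) l₂ p₂ q₂ l'₂ G₂ t₂ t'₂ τ₂ h₂ d hdiag₂
    exact gq_lower_of_comm γ (z ⟨0, hn⟩).1 (z₂ ⟨0, hn⟩).1 (d ⟨0, hn⟩) (hd ⟨0, hn⟩) hA hA'
      hAd hAd' (hz ⟨0, hn⟩)
  · obtain ⟨-, htne, -, hl'ne, -⟩ := gp_rel_ne x y z l p q l' G t t' τ h
    obtain ⟨-, htne₂, -, hl'ne₂, -⟩ := gp_rel_ne x₂ y₂ z₂ l₂ p₂ q₂ l'₂ G₂ t₂ t'₂ τ₂ h₂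
    have hxi : ((x ⟨0, hg⟩)⁻¹).1 * (x ⟨0, hg⟩).1 = 1 := by
      rw [← Matrix.SpecialLinearGroup.coe_mul, inv_mul_cancel, Matrix.SpecialLinearGroup.coe_one]
    have hyi : ((y ⟨0, hg⟩)⁻¹).1 * (y ⟨0, hg⟩).1 = 1 := by
      rw [← Matrix.SpecialLinearGroup.coe_mul, inv_mul_cancel, Matrix.SpecialLinearGroup.coe_one]
    have hxi₂ : ((x₂ ⟨0, hg⟩)⁻¹).1 * (x₂ ⟨0, hg⟩).1 = 1 := by
      rw [← Matrix.SpecialLinearGroup.coe_mul, inv_mul_cancel, Matrix.SpecialLinearGroup.coe_one]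
    have hyi₂ : ((y₂ ⟨0, hg⟩)⁻¹).1 * (y₂ ⟨0, hg⟩).1 = 1 := by
      rw [← Matrix.SpecialLinearGroup.coe_mul, inv_mul_cancel, Matrix.SpecialLinearGroup.coe_one]
    obtain ⟨lam, lami, -, hlami, hll, hΞ⟩ := gqPosAux_handle hg (fun h => (x h).1)
      (fun h => (y h).1) (fun j => (z j).1) l p q l' G t t' τ h
      (fun i => (htne ⟨0, hg⟩ i).1) (fun i => (htne ⟨0, hg⟩ i).2) (hl'ne 1)
      ((x ⟨0, hg⟩)⁻¹).1 ((y ⟨0, hg⟩)⁻¹).1 hxi hyi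
    obtain ⟨lam₂, lami₂, hlam₂, -, -, hΞ₂⟩ := gqPosAux_handle hg (fun h => (x₂ h).1)
      (fun h => (y₂ h).1) (fun j => (z₂ j).1) l₂ p₂ q₂ l'₂ G₂ t₂ t'₂ τ₂ h₂
      (fun i => (htne₂ ⟨0, hg⟩ i).1) (fun i => (htne₂ ⟨0, hg⟩ i).2) (hl'ne₂ 1)
      ((x₂ ⟨0, hg⟩)⁻¹).1 ((y₂ ⟨0, hg⟩)⁻¹).1 hxi₂ hyi₂
    have hΞ' : (x ⟨0, hg⟩).1 * ((y ⟨0, hg⟩)⁻¹).1 * ((x ⟨0, hg⟩)⁻¹).1 =
        lam * gpAnti (fun a => (t ⟨0, hg⟩ (Fin.rev a))⁻¹) := hΞ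
    have hΞ₂' : (x₂ ⟨0, hg⟩).1 * ((y₂ ⟨0, hg⟩)⁻¹).1 * ((x₂ ⟨0, hg⟩)⁻¹).1 =
        lam₂ * gpAnti (fun a => (t₂ ⟨0, hg⟩ (Fin.rev a))⁻¹) := hΞ₂
    have hTi := (gpBlockAux_anti_inv (t ⟨0, hg⟩) (fun i => (htne ⟨0, hg⟩ i).1)).2
    have hcomm : γ * ((x ⟨0, hg⟩).1 * ((y ⟨0, hg⟩)⁻¹).1 * ((x ⟨0, hg⟩)⁻¹).1) =
        (x₂ ⟨0, hg⟩).1 * ((y₂ ⟨0, hg⟩)⁻¹).1 * ((x₂ ⟨0, hg⟩)⁻¹).1 * γ :=
      gqPosAux_comm3 γ _ _ _ _ _ _ (hx ⟨0, hg⟩) (gq_comm_inv _ _ γ (hy ⟨0, hg⟩))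
        (gq_comm_inv _ _ γ (hx ⟨0, hg⟩))
    rw [hΞ', hΞ₂'] at hcomm
    have hγeq : γ = lam₂ * (gpAnti (fun a => (t₂ ⟨0, hg⟩ (Fin.rev a))⁻¹) * γ *
        gpAnti (t ⟨0, hg⟩)) * lami :=
      gqPosAux_solve γ lam lami lam₂ (gpAnti (t ⟨0, hg⟩)) _ _ hcomm hTi hll
    rw [hγeq]
    exact (hlam₂.mul (gqPosAux_conj_up _ _ γ hγ)).mul hlami

end Vale.Agent.Lib.P002
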