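import Vale.Agent.Lib.P002.GQDefs
import Vale.Agent.Lib.P002.GPFrames
import Vale.Agent.Lib.P002.GPRelNe
import Vale.Agent.Lib.P002.GWTri

/-!
# Uniqueness of the data of the chart: the remaining data
-/

open Matrix

namespace Vale.Agent.Lib.P002

/-- Left cancellation of a matrix of determinant one. -/
theorem gqRestAux_cancel {r : ℕ} (A B C : Matrix (Fin r) (Fin r) ℂ) (hA : A.det = 1)
    (h : A * B = A * C) : B = C := by
  have hu : IsUnit A.det := by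
    rw [hA]
    exact isUnit_one
  have hi : A⁻¹ * A = 1 := Matrix.nonsing_inv_mul A hu
  calc B = A⁻¹ * A * B := by rw [hi, Matrix.one_mul]
    _ = A⁻¹ * (A * C) := by rw [Matrix.mul_assoc, h]
    _ = C := by rw [← Matrix.mul_assoc, hi, Matrix.one_mul]

/-- An antidiagonal matrix determines its entries. -/
theorem gqRestAux_anti_inj {r : ℕ} (t u : Fin r → ℂ) (h : gpAnti t = gpAnti u) : t = u := by
  funext a
  have h1 := congrFun (congrFun h a) (Fin.rev a)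
  have hr : (a : ℕ) + ((Fin.rev a : Fin r) : ℕ) + 1 = r := by
    rw [Fin.val_rev]
    have := a.isLt
    omega
  simp only [gpAnti, Matrix.of_apply, if_pos hr] at h1
  exact h1

/-- The upper factors and the trailing lower factors of a cell are determined by the lower
factor and the frame step. -/
theorem gqRestAux_cell {r : ℕ} (l p q l' p₂ l'₂ : Matrix (Fin r) (Fin r) ℂ)
    (hp : p.IsUpperTriangular) (hp1 : ∀ i, p i i = 1)
    (hq : q.IsUpperTriangular) (hq1 : ∀ i, q i i = 1)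
    (hl' : l'.IsLowerTriangular) (hmul : l * p = q * l')
    (hp₂ : p₂.IsUpperTriangular) (hp1₂ : ∀ i, p₂ i i = 1)
    (hl'₂ : l'₂.IsLowerTriangular) (hmul₂ : l * p₂ = q * l'₂)
    (hd : ∀ i, l'₂ i i ≠ 0) : p₂ = p ∧ l'₂ = l' := by
  obtain ⟨pi, hpi, hpi1, hppi, hpip⟩ := gw_upU_inv r p hp hp1
  obtain ⟨pi₂, hpi₂, hpi1₂, hppi₂, hpip₂⟩ := gw_upU_inv r p₂ hp₂ hp1₂
  have dq : q.det = 1 := by
    rw [Matrix.det_of_isUpperTriangular hq]
    exact Finset.prod_eq_one (fun i _ => hq1 i)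
  have e1 : q * (l' * pi) = l := by
    rw [← Matrix.mul_assoc, ← hmul, Matrix.mul_assoc, hppi, Matrix.mul_one]
  have e2 : q * (l'₂ * pi₂) = l := by
    rw [← Matrix.mul_assoc, ← hmul₂, Matrix.mul_assoc, hppi₂, Matrix.mul_one]
  have e3 : l'₂ * pi₂ = l' * pi := gqRestAux_cancel _ _ _ dq (e2.trans e1.symm)
  have hu := gw_lu_unique r l'₂ l' pi₂ pi hl'₂ hl'
    (fun i => isUnit_iff_ne_zero.mpr (hd i)) hpi₂ hpi1₂ hpi hpi1 e3
  refine ⟨?_, hu.1⟩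
  calc p₂ = (p * pi) * p₂ := by rw [hppi, Matrix.one_mul]
    _ = p * (pi₂ * p₂) := by rw [Matrix.mul_assoc, hu.2]
    _ = p := by rw [hpip₂, Matrix.mul_one]

/-- Two data of the chart for the same tuple with the same frames `G k` and the same lower
factors `l k` are equal. -/
theorem gq_rest_unique {g n r : ℕ}
    (x y : Fin g → Matrix.SpecialLinearGroup (Fin r) ℂ)
    (z : Fin n → Matrix.SpecialLinearGroup (Fin r) ℂ)
    (l p q l' G : ℕ → Matrix (Fin r) (Fin r) ℂ) (t t' : Fin g → Fin r → ℂ)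
    (τ : Fin n → Fin r → ℂ)
    (l₂ p₂ q₂ l'₂ G₂ : ℕ → Matrix (Fin r) (Fin r) ℂ) (t₂ t'₂ : Fin g → Fin r → ℂ)
    (τ₂ : Fin n → Fin r → ℂ)
    (h : gpRel (fun h => (x h).1) (fun h => (y h).1) (fun j => (z j).1) l p q l' G t t' τ)
    (h₂ : gpRel (fun h => (x h).1) (fun h => (y h).1) (fun j => (z j).1) l₂ p₂ q₂ l'₂ G₂
      t₂ t'₂ τ₂)
    (hF : ∀ k, G₂ k = G k ∧ l₂ k = l k) :
    l₂ = l ∧ p₂ = p ∧ q₂ = q ∧ l'₂ = l' ∧ G₂ = G ∧ t₂ = t ∧ t'₂ = t' ∧ τ₂ = τ := by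
  have hGeq : G₂ = G := funext fun k => (hF k).1
  have hleq : l₂ = l := funext fun k => (hF k).2
  have hne₂ := gp_rel_ne x y z l₂ p₂ q₂ l'₂ G₂ t₂ t'₂ τ₂ h₂
  obtain ⟨hc, -, hG0, hG, hxy, hz⟩ := h
  obtain ⟨hc₂, -, -, hG₂, hxy₂, hz₂⟩ := h₂
  rw [hGeq] at hG₂ hxy₂ hz₂
  rw [hleq] at hc₂ hxy₂ hz₂
  have hfr := gp_frames l p q l' G hc hG0 hG
  have hq : q₂ = q := by
    funext k
    exact gqRestAux_cancel _ _ _ (hfr k).2.2.1 ((hG₂ k).symm.trans (hG k))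
  rw [hq] at hc₂
  have hpl : ∀ k, p₂ k = p k ∧ l'₂ k = l' k := by
    intro k
    obtain ⟨-, -, hp, hp1, hqk, hq1, hl', hmul⟩ := hc k
    obtain ⟨-, -, hp₂, hp1₂, -, -, hl'₂, hmul₂⟩ := hc₂ k
    exact gqRestAux_cell (l k) (p k) (q k) (l' k) (p₂ k) (l'₂ k) hp hp1 hqk hq1 hl' hmul
      hp₂ hp1₂ hl'₂ hmul₂ (hne₂.2.2.2.1 k)
  have hp : p₂ = p := funext fun k => (hpl k).1
  have hl' : l'₂ = l' := funext fun k => (hpl k).2
  rw [hp] at hxy₂ hz₂
  refine ⟨hleq, hp, hq, hl', hGeq, ?_, ?_, ?_⟩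
  · funext h
    exact gqRestAux_anti_inj _ _ (gqRestAux_cancel _ _ _ (hfr (2 * h)).2.2.2.2.1
      ((hxy₂ h).1.symm.trans (hxy h).1))
  · funext h
    exact gqRestAux_anti_inj _ _ (gqRestAux_cancel _ _ _ (hfr (2 * h + 2)).2.2.2.1
      ((hxy₂ h).2.symm.trans (hxy h).2))
  · funext j
    exact Matrix.diagonal_injective (gqRestAux_cancel _ _ _ (hfr (2 * g + j)).2.2.2.2.1
      ((hz₂ j).symm.trans (hz j)))

end Vale.Agent.Lib.P002
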