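import Mathlib

/-!
# Solid minors and cells (general rank)

`gwMinor X i j k` is the `k × k` minor of the square matrix `X` on the consecutive rows
`i, …, i+k-1` and the consecutive columns `j, …, j+k-1` (entries outside the matrix are read as
`0`).  A *cell* is a matrix written both as `lower * unipotent upper` and as
`unipotent upper * lower`, with prescribed diagonals of the two lower triangular factors.
-/

open Matrix

namespace Vale.Agent.Lib.P002

/-- The `k × k` minor of `X` on rows `i, …, i+k-1` and columns `j, …, j+k-1`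
(entries outside the matrix are read as `0`). -/
def gwMinor {R : Type*} [CommRing R] {r : ℕ} (X : Matrix (Fin r) (Fin r) R) (i j k : ℕ) : R :=
  (Matrix.of fun s t : Fin k =>
    if h : i + (s : ℕ) < r ∧ j + (t : ℕ) < r then X ⟨i + s, h.1⟩ ⟨j + t, h.2⟩ else 0).det

/-- `X = l * p = q * l'` with `l, l'` lower triangular with diagonals `b, e` and `p, q`
upper triangular with unit diagonal. -/
def gwCell {R : Type*} [CommRing R] {r : ℕ} (b e : Fin r → R)
    (l p q l' : Matrix (Fin r) (Fin r) R) : Prop :=
  l.IsLowerTriangular ∧ (∀ i, l i i = b i) ∧ p.IsUpperTriangular ∧ (∀ i, p i i = 1) ∧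
    q.IsUpperTriangular ∧ (∀ i, q i i = 1) ∧ l'.IsLowerTriangular ∧ (∀ i, l' i i = e i) ∧
    l * p = q * l'

theorem gwMinor_congr {R : Type*} [CommRing R] {r : ℕ} (X Y : Matrix (Fin r) (Fin r) R)
    (i j k : ℕ)
    (h : ∀ a b : Fin r, i ≤ a.val → a.val < i + k → j ≤ b.val → b.val < j + k → X a b = Y a b) :
    gwMinor X i j k = gwMinor Y i j k := by
  unfold gwMinor
  congr 1
  ext s t
  simp only [Matrix.of_apply]
  split_ifs with h1
  · exact h _ _ (by simp) (by simp) (by simp) (by simp)
  · rfl

theorem gwMinor_map {R S : Type*} [CommRing R] [CommRing S] (f : R →+* S) {r : ℕ}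
    (X : Matrix (Fin r) (Fin r) R) (i j k : ℕ) :
    gwMinor (X.map f) i j k = f (gwMinor X i j k) := by
  unfold gwMinor
  rw [RingHom.map_det]
  congr 1
  ext s t
  simp only [Matrix.of_apply, RingHom.mapMatrix_apply, Matrix.map_apply]
  split_ifs with h1
  · rfl
  · simp

theorem gwMinor_zero {R : Type*} [CommRing R] {r : ℕ} (X : Matrix (Fin r) (Fin r) R) (i j : ℕ) :
    gwMinor X i j 0 = 1 := by
  unfold gwMinor
  simp

theorem gwCell.map {R S : Type*} [CommRing R] [CommRing S] (f : R →+* S) {r : ℕ}
    {b e : Fin r → R} {l p q l' : Matrix (Fin r) (Fin r) R} (h : gwCell b e l p q l') :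
    gwCell (fun i => f (b i)) (fun i => f (e i)) (l.map f) (p.map f) (q.map f) (l'.map f) := by
  obtain ⟨h1, h2, h3, h4, h5, h6, h7, h8, h9⟩ := h
  refine ⟨h1.map f, fun i => ?_, h3.map f, fun i => ?_, h5.map f, fun i => ?_, h7.map f,
    fun i => ?_, ?_⟩
  · simp [h2]
  · simp [h4]
  · simp [h6]
  · simp [h8]
  · rw [← Matrix.map_mul, ← Matrix.map_mul, h9]

end Vale.Agent.Lib.P002
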