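import Vale.Agent.Lib.P002.GQConj
import Vale.Agent.Lib.P002.GWDefs

/-!
# The slice: a diagonal conjugation preserving the normalization is scalar
-/

open Matrix

namespace Vale.Agent.Lib.P002

/-- The entries of a conjugate by a diagonal matrix (direct from the definition). -/
theorem gqScalarAux_conj_apply {r : ℕ} (δ : Fin r → ℂ) (M : Matrix (Fin r) (Fin r) ℂ)
    (i j : Fin r) : gqConj δ M i j = δ i * M i j * (δ j)⁻¹ := by
  unfold gqConj
  rw [Matrix.mul_diagonal, Matrix.diagonal_mul]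

theorem gq_minor_one {r : ℕ} (X : Matrix (Fin r) (Fin r) ℂ) (i : ℕ) (hi : i + 1 < r) :
    gwMinor X i (i + 1) 1 = X ⟨i, by omega⟩ ⟨i + 1, hi⟩ := by
  unfold gwMinor
  rw [Matrix.det_unique]
  simp only [Matrix.of_apply]
  have h : i + ((default : Fin 1) : ℕ) < r ∧ i + 1 + ((default : Fin 1) : ℕ) < r := by
    have h0 : ((default : Fin 1) : ℕ) = 0 := rfl
    rw [h0]
    omega
  rw [dif_pos h]
  rfl

/-- Consecutive entries of `δ` agree. -/
theorem gqScalarAux_step {r : ℕ} (X : Matrix (Fin r) (Fin r) ℂ) (δ : Fin r → ℂ)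
    (hδ : ∀ i, δ i ≠ 0)
    (h1 : ∀ i, i + 1 < r → gwMinor X i (i + 1) 1 = 1)
    (h2 : ∀ i, i + 1 < r → gwMinor (gqConj δ X) i (i + 1) 1 = 1) (i : ℕ) (hi : i + 1 < r) :
    δ ⟨i + 1, hi⟩ = δ ⟨i, by omega⟩ := by
  have e1 := h1 i hi
  have e2 := h2 i hi
  rw [gq_minor_one X i hi] at e1
  rw [gq_minor_one (gqConj δ X) i hi, gqScalarAux_conj_apply, e1, mul_one] at e2
  have hne : δ ⟨i + 1, hi⟩ ≠ 0 := hδ _
  have e3 := (mul_inv_eq_one₀ hne).1 e2
  exact e3.symm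

/-- Every entry of `δ` equals the first one. -/
theorem gqScalarAux_zero {r : ℕ} (X : Matrix (Fin r) (Fin r) ℂ) (δ : Fin r → ℂ)
    (hδ : ∀ i, δ i ≠ 0)
    (h1 : ∀ i, i + 1 < r → gwMinor X i (i + 1) 1 = 1)
    (h2 : ∀ i, i + 1 < r → gwMinor (gqConj δ X) i (i + 1) 1 = 1) :
    ∀ (k : ℕ) (hk : k < r), δ ⟨k, hk⟩ = δ ⟨0, by omega⟩ := by
  intro k
  induction k with
  | zero =>
    intro hk
    rfl
  | succ m ih =>
    intro hk
    rw [gqScalarAux_step X δ hδ h1 h2 m hk]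
    exact ih (by omega)

/-- If the superdiagonal entries of `X` and of its conjugate by `diagonal δ` are all `1`, then
all entries of `δ` are equal. -/
theorem gq_scalar {r : ℕ} (X : Matrix (Fin r) (Fin r) ℂ) (δ : Fin r → ℂ) (hδ : ∀ i, δ i ≠ 0)
    (h1 : ∀ i, i + 1 < r → gwMinor X i (i + 1) 1 = 1)
    (h2 : ∀ i, i + 1 < r → gwMinor (gqConj δ X) i (i + 1) 1 = 1) : ∀ i j, δ i = δ j := by
  intro i j
  have hi := gqScalarAux_zero X δ hδ h1 h2 i.1 i.2
  have hj := gqScalarAux_zero X δ hδ h1 h2 j.1 j.2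
  have ei : (⟨i.1, i.2⟩ : Fin r) = i := rfl
  have ej : (⟨j.1, j.2⟩ : Fin r) = j := rfl
  rw [ei] at hi
  rw [ej] at hj
  rw [hi, hj]

end Vale.Agent.Lib.P002
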