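import Vale.Agent.Lib.P002.GQDefs

/-!
# Intertwiners of triangular matrices with the same distinct diagonal entries are triangular
-/

open Matrix

namespace Vale.Agent.Lib.P002

/-- Downward induction on the distance to the diagonal: the entries of `γ` below the diagonal
vanish. -/
lemma gqTriAux_upper {r : ℕ} (γ A A' : Matrix (Fin r) (Fin r) ℂ) (a : Fin r → ℂ)
    (ha : Function.Injective a) (hA : A.IsUpperTriangular) (hA' : A'.IsUpperTriangular)
    (hd : ∀ i, A i i = a i) (hd' : ∀ i, A' i i = a i) (h : γ * A = A' * γ) :
    ∀ k : ℕ, ∀ i j : Fin r, j < i → r ≤ ((i : ℕ) - (j : ℕ)) + k → γ i j = 0 := by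
  intro k
  induction k with
  | zero =>
    intro i j hji hr
    exfalso
    have hi := i.isLt
    omega
  | succ k ih =>
    intro i j hji hr
    have hjin : (j : ℕ) < (i : ℕ) := hji
    have h1 : (γ * A) i j = γ i j * a j := by
      rw [Matrix.mul_apply, Finset.sum_eq_single j]
      · rw [hd j]
      · intro b _ hbj
        rcases lt_or_gt_of_ne hbj with hlt | hgt
        · have hbn : (b : ℕ) < (j : ℕ) := hlt
          have hb : γ i b = 0 := by
            apply ih i b (lt_trans hlt hji)
            omega
          rw [hb, zero_mul]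
        · have hb : A b j = 0 := hA (show id j < id b from hgt)
          rw [hb, mul_zero]
      · intro hj
        exact absurd (Finset.mem_univ j) hj
    have h2 : (A' * γ) i j = a i * γ i j := by
      rw [Matrix.mul_apply, Finset.sum_eq_single i]
      · rw [hd' i]
      · intro b _ hbi
        rcases lt_or_gt_of_ne hbi with hlt | hgt
        · have hb : A' i b = 0 := hA' (show id b < id i from hlt)
          rw [hb, zero_mul]
        · have hbn : (i : ℕ) < (b : ℕ) := hgt
          have hb : γ b j = 0 := by
            apply ih b j (lt_trans hji hgt)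
            omega
          rw [hb, mul_zero]
      · intro hi
        exact absurd (Finset.mem_univ i) hi
    have h3 : γ i j * a j = a i * γ i j := by rw [← h1, ← h2, h]
    have hne : a j ≠ a i := fun e => (ne_of_lt hji) (ha e)
    have h4 : γ i j * (a j - a i) = 0 := by
      rw [mul_sub, h3]
      ring
    rcases mul_eq_zero.mp h4 with h5 | h5
    · exact h5
    · exact absurd (sub_eq_zero.mp h5) hne

/-- If `γ * A = A' * γ` with `A, A'` upper triangular with the same diagonal `a`, and the
entries of `a` are distinct, then `γ` is upper triangular. -/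
theorem gq_upper_of_comm {r : ℕ} (γ A A' : Matrix (Fin r) (Fin r) ℂ) (a : Fin r → ℂ)
    (ha : Function.Injective a) (hA : A.IsUpperTriangular) (hA' : A'.IsUpperTriangular)
    (hd : ∀ i, A i i = a i) (hd' : ∀ i, A' i i = a i) (h : γ * A = A' * γ) :
    γ.IsUpperTriangular := by
  intro i j hji
  exact gqTriAux_upper γ A A' a ha hA hA' hd hd' h r i j hji (by omega)

/-- If `γ * A = A' * γ` with `A, A'` lower triangular with the same diagonal `a`, and the
entries of `a` are distinct, then `γ` is lower triangular. -/
theorem gq_lower_of_comm {r : ℕ} (γ A A' : Matrix (Fin r) (Fin r) ℂ) (a : Fin r → ℂ)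
    (ha : Function.Injective a) (hA : A.IsLowerTriangular) (hA' : A'.IsLowerTriangular)
    (hd : ∀ i, A i i = a i) (hd' : ∀ i, A' i i = a i) (h : γ * A = A' * γ) :
    γ.IsLowerTriangular := by
  have hAt : Aᵀ.IsUpperTriangular := by
    intro i j hji
    exact hA (show OrderDual.toDual i < OrderDual.toDual j from hji)
  have hAt' : A'ᵀ.IsUpperTriangular := by
    intro i j hji
    exact hA' (show OrderDual.toDual i < OrderDual.toDual j from hji)
  have ht : γᵀ * A'ᵀ = Aᵀ * γᵀ := by
    rw [← Matrix.transpose_mul, ← Matrix.transpose_mul, h]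
  have hu : γᵀ.IsUpperTriangular :=
    gq_upper_of_comm γᵀ A'ᵀ Aᵀ a ha hAt' hAt (fun i => hd' i) (fun i => hd i) ht
  intro i j hij
  exact hu (show id i < id j from hij)

end Vale.Agent.Lib.P002
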