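import Vale.Agent.Lib.P002.GQData
import Vale.Agent.Lib.P002.GQTri
import Vale.Agent.Lib.P002.GQWord
import Vale.Agent.Lib.P002.GQConj
import Vale.Agent.Lib.P002.GQFrames
import Vale.Agent.Lib.P002.GQRest
import Vale.Agent.Lib.P002.GQPos
import Vale.Agent.Lib.P002.GQParam
import Vale.Agent.Lib.P002.GQScalar
import Vale.Agent.Lib.P002.GQAlg
import Vale.Agent.Lib.P002.GQCard
import Vale.Agent.Lib.P002.GPMain

/-!
# A family of pairwise non-conjugate chart points of full dimension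

The chart points with effective parameters (`GqIdx`) are pairwise non-conjugate when the
prescribed eigenvalues at each puncture are distinct, they depend Laurent polynomially on the
parameters, and they lie in the closure of the integral points.
-/

noncomputable section

namespace Vale.Agent.Lib.P002

open Polynomial Matrix

/-- The data of the chart of a tuple are unique, when the ordered eigenvalues at the punctures
are distinct. -/
theorem gq_data_unique {g n r : ℕ} (hN : 2 ≤ 2 * g + n)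
    (x y : Fin g → Matrix.SpecialLinearGroup (Fin r) ℂ)
    (z : Fin n → Matrix.SpecialLinearGroup (Fin r) ℂ)
    (l p q l' G : ℕ → Matrix (Fin r) (Fin r) ℂ) (t t' : Fin g → Fin r → ℂ)
    (τ : Fin n → Fin r → ℂ)
    (l₂ p₂ q₂ l'₂ G₂ : ℕ → Matrix (Fin r) (Fin r) ℂ) (t₂ t'₂ : Fin g → Fin r → ℂ)
    (τ₂ : Fin n → Fin r → ℂ)
    (h : gpRel (fun h => (x h).1) (fun h => (y h).1) (fun j => (z j).1) l p q l' G t t' τ)
    (h₂ : gpRel (fun h => (x h).1) (fun h => (y h).1) (fun j => (z j).1) l₂ p₂ q₂ l'₂ G₂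
      t₂ t'₂ τ₂)
    (d : Fin n → Fin r → ℂ) (hd : ∀ j, Function.Injective (d j))
    (hdiag : ∀ (j : Fin n) (i : Fin r), l' (2 * g + j) i i * τ j i = d j i)
    (hdiag₂ : ∀ (j : Fin n) (i : Fin r), l'₂ (2 * g + j) i i * τ₂ j i = d j i) :
    l₂ = l ∧ p₂ = p ∧ q₂ = q ∧ l'₂ = l' ∧ G₂ = G ∧ t₂ = t ∧ t'₂ = t' ∧ τ₂ = τ :=
  gq_rest_unique x y z l p q l' G t t' τ l₂ p₂ q₂ l'₂ G₂ t₂ t'₂ τ₂ h h₂
    (gq_frames_unique hN x y z l p q l' G t t' τ l₂ p₂ q₂ l'₂ G₂ t₂ t'₂ τ₂ h h₂ d hd hdiag hdiag₂)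

/-- Chart points with effective parameters `s, s'` that are conjugate have `s = s'`, when the
prescribed eigenvalues at each puncture are distinct. -/
theorem gq_nonconj {g n r : ℕ} (hN : 2 ≤ 2 * g + n) (c : Fin r → ℂˣ) (d : Fin n → Fin r → ℂˣ)
    (hci : Function.Injective c) (hdi : ∀ j, Function.Injective (d j))
    (s s' : GqIdx g n r → ℂˣ)
    (x y x₂ y₂ : Fin g → Matrix.SpecialLinearGroup (Fin r) ℂ)
    (z z₂ : Fin n → Matrix.SpecialLinearGroup (Fin r) ℂ)
    (hpt : gpIsPt c d (gqSec (gqEmb hN) s) (fun h => (x h).1) (fun h => (y h).1)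
      (fun j => (z j).1))
    (hpt₂ : gpIsPt c d (gqSec (gqEmb hN) s') (fun h => (x₂ h).1) (fun h => (y₂ h).1)
      (fun j => (z₂ j).1))
    (γ : Matrix (Fin r) (Fin r) ℂ) (hγ : γ.det ≠ 0)
    (hx : ∀ h, γ * (x h).1 = (x₂ h).1 * γ) (hy : ∀ h, γ * (y h).1 = (y₂ h).1 * γ)
    (hz : ∀ j, γ * (z j).1 = (z₂ j).1 * γ) : s = s' := by
  classical
  obtain ⟨l, p, q, l', G, hrel, hl'd, hdiag, hWu, hWd, hmin⟩ := gq_data hN c d _ x y z hpt
  obtain ⟨l₂, p₂, q₂, l'₂, G₂, hrel₂, hl'd₂, hdiag₂, hWu₂, hWd₂, hmin₂⟩ :=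
    gq_data hN c d _ x₂ y₂ z₂ hpt₂
  have hcinj : Function.Injective (fun i => (c i : ℂ)) := fun i j h => hci (Units.ext h)
  have hdinj : ∀ j, Function.Injective (fun i => (d j i : ℂ)) :=
    fun j i i' h => hdi j (Units.ext h)
  -- the intertwiner is upper triangular, then lower triangular, hence diagonal
  have hγu : γ.IsUpperTriangular :=
    gq_upper_of_comm γ _ _ (fun i => (c i : ℂ)) hcinj hWu hWu₂ hWd hWd₂
      (gq_word x y x₂ y₂ z z₂ γ hx hy hz)
  have hγl : γ.IsLowerTriangular :=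
    gq_lower hN x y x₂ y₂ z z₂ l p q l' G _ _ _ l₂ p₂ q₂ l'₂ G₂ _ _ _ hrel hrel₂
      (fun j i => (d j i : ℂ)) hdinj hdiag hdiag₂ γ hγu hx hy hz
  let δ : Fin r → ℂ := fun i => γ i i
  have hγd : γ = Matrix.diagonal δ := by
    ext i j
    by_cases hij : i = j
    · subst hij
      rw [Matrix.diagonal_apply_eq]
    · rw [Matrix.diagonal_apply_ne _ hij]
      rcases lt_or_gt_of_ne hij with h | h
      · exact hγl h
      · exact hγu h
  have hδ : ∀ i, δ i ≠ 0 := by
    have h0 : (Matrix.diagonal δ).det ≠ 0 := hγd ▸ hγ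
    rw [Matrix.det_diagonal] at h0
    exact fun i => (Finset.prod_ne_zero_iff.mp h0) i (Finset.mem_univ i)
  -- the second tuple is the conjugate of the first
  have ex : (fun h => gqConj δ ((x h).1)) = fun h => (x₂ h).1 :=
    funext fun h => (gqConj_of_comm δ hδ _ _ (by rw [← hγd]; exact hx h)).symm
  have ey : (fun h => gqConj δ ((y h).1)) = fun h => (y₂ h).1 :=
    funext fun h => (gqConj_of_comm δ hδ _ _ (by rw [← hγd]; exact hy h)).symm
  have ez : (fun j => gqConj δ ((z j).1)) = fun j => (z₂ j).1 :=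
    funext fun j => (gqConj_of_comm δ hδ _ _ (by rw [← hγd]; exact hz j)).symm
  have hrelc := gq_rel_conj _ _ _ l p q l' G _ _ _ hrel δ hδ
  rw [ex, ey, ez] at hrelc
  obtain ⟨el, ep, -, el', -, et, et', -⟩ := gq_data_unique hN x₂ y₂ z₂ _ _ _ _ _ _ _ _
    l₂ p₂ q₂ l'₂ G₂ _ _ _ hrelc hrel₂ (fun j i => (d j i : ℂ)) hdinj
    (fun j i => by
      have e : gqConj δ (l' (2 * g + j)) i i = l' (2 * g + j) i i := by
        rw [gqConj_apply, mul_comm (δ i), mul_assoc, mul_inv_cancel₀ (hδ i), mul_one]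
      change gqConj δ (l' (2 * g + j)) i i * _ = _
      rw [e]
      exact hdiag j i) hdiag₂
  -- the slice: the conjugation is scalar
  have hsc : ∀ i j, δ i = δ j := by
    apply gq_scalar (l 1 * p 1) δ hδ
    · intro i hi
      rw [hmin 1 le_rfl (by omega) 1 i 1 le_rfl le_rfl (by omega) (by omega),
        gq_slice hN s i hi]
      rfl
    · intro i hi
      have e1 : gqConj δ (l 1 * p 1) = l₂ 1 * p₂ 1 := by
        rw [gqConj_mul δ hδ, el, ep]
      rw [e1, hmin₂ 1 le_rfl (by omega) 1 i 1 le_rfl le_rfl (by omega) (by omega),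
        gq_slice hN s' i hi]
      rfl
  have hconj : ∀ M, gqConj δ M = M := gqConj_scalar δ hδ hsc
  -- the parameters are equal
  apply gq_param_inj hN s s'
  · intro k hk1 hk2 δ' i m hδ' hm hr hne
    apply Units.ext
    rw [← hmin k hk1 hk2 δ' i m hδ' hm hr hne, ← hmin₂ k hk1 hk2 δ' i m hδ' hm hr hne, el, ep]
    simp only [hconj]
  · intro k hk1 hk2
    funext i
    apply Units.ext
    rw [← gpE_eq_of_ne c d _ k (by omega), ← gpE_eq_of_ne c d _ k (by omega), ← hl'd k i,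
      ← hl'd₂ k i, el']
    simp only [hconj]
  · intro h b
    funext i
    apply Units.ext
    have key : ∀ a : ℂ, δ i * a * (δ (Fin.rev i))⁻¹ = a := by
      intro a
      rw [hsc (Fin.rev i) i, mul_comm (δ i), mul_assoc, mul_inv_cancel₀ (hδ i), mul_one]
    have hb : b = 0 ∨ b = 1 := by
      fin_cases b
      · exact Or.inl rfl
      · exact Or.inr rfl
    rcases hb with rfl | rfl
    · have := congrFun (congrFun et h) i
      rw [this, key]
    · have := congrFun (congrFun et' h) i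
      rw [this, key]

/-- **A family of full dimension in the closure of the integral points**, for local systems of
arbitrary rank `r` on the surface of genus `g` with `n + 1` punctures (`2 g + n ≥ 2`) with
prescribed characteristic polynomials of all boundary monodromies: a family of tuples indexed
by `(ℂˣ)^ι`, Laurent polynomial in the parameters, on which every polynomial vanishing at the
integral points vanishes; if the prescribed eigenvalues at each puncture are distinct, its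
members are pairwise non-conjugate. -/
theorem gq_family (g n r : ℕ) (hN : 2 ≤ 2 * g + n) (c : Fin r → ℂ) (d : Fin n → Fin r → ℂ)
    (hc : ∀ i, IsIntegral ℤ (c i)) (hd : ∀ j i, IsIntegral ℤ (d j i))
    (hc1 : ∏ i, c i = 1) (hd1 : ∀ j, ∏ i, d j i = 1) :
    ∃ L : IntermediateField ℚ ℂ,
      L = IntermediateField.adjoin ℚ (Set.range c ∪
        Set.range (fun v : Fin n × Fin r => d v.1 v.2) ∪ {((Real.sqrt 2 : ℝ) : ℂ)}) ∧
      FiniteDimensional ℚ L ∧
      ∃ (ι : Type) (_ : Fintype ι)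
        (x y : (ι → ℂˣ) → Fin g → Matrix.SpecialLinearGroup (Fin r) ℂ)
        (z : (ι → ℂˣ) → Fin n → Matrix.SpecialLinearGroup (Fin r) ℂ),
        Fintype.card ι + 2 * (r - 1) = (r - 1) * ((2 * g + n - 1) * r + 2 * g) ∧
        (∀ s, (∀ t, (z s t).1.charpoly = ∏ i, (X - C (d t i))) ∧
          ((List.ofFn fun h => x s h * y s h * (x s h)⁻¹ * (y s h)⁻¹).prod *
            (List.ofFn (z s)).prod).1.charpoly = ∏ i, (X - C (c i))) ∧
        (∀ v : (Fin g ⊕ Fin g ⊕ Fin n) × Fin r × Fin r, ∃ P : MvPolynomial (ι ⊕ ι) ℂ,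
          ∀ s : ι → ℂˣ,
            Sum.elim (fun h => (x s h).1) (Sum.elim (fun h => (y s h).1) (fun t => (z s t).1))
              v.1 v.2.1 v.2.2 =
            MvPolynomial.eval
              (Sum.elim (fun i => (s i : ℂ)) (fun i => (((s i)⁻¹ : ℂˣ) : ℂ))) P) ∧
        (Function.Injective c → (∀ j, Function.Injective (d j)) →
          ∀ s s' : ι → ℂˣ,
            (∃ γ : Matrix (Fin r) (Fin r) ℂ, γ.det ≠ 0 ∧
              (∀ h, γ * (x s h).1 = (x s' h).1 * γ) ∧ (∀ h, γ * (y s h).1 = (y s' h).1 * γ) ∧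
              (∀ t, γ * (z s t).1 = (z s' t).1 * γ)) → s = s') ∧
        ∀ F : MvPolynomial ((Fin g ⊕ Fin g ⊕ Fin n) × Fin r × Fin r) ℂ,
          (∀ (x' y' : Fin g → Matrix.SpecialLinearGroup (Fin r) ℂ)
              (z' : Fin n → Matrix.SpecialLinearGroup (Fin r) ℂ),
            (∀ h i j, (x' h).1 i j ∈ L ∧ IsIntegral ℤ ((x' h).1 i j)) →
            (∀ h i j, (y' h).1 i j ∈ L ∧ IsIntegral ℤ ((y' h).1 i j)) →
            (∀ t i j, (z' t).1 i j ∈ L ∧ IsIntegral ℤ ((z' t).1 i j)) →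
            (∀ t, (z' t).1.charpoly = ∏ i, (X - C (d t i))) →
            ((List.ofFn fun h => x' h * y' h * (x' h)⁻¹ * (y' h)⁻¹).prod *
              (List.ofFn z').prod).1.charpoly = ∏ i, (X - C (c i)) →
            MvPolynomial.eval (fun v => Sum.elim (fun h => (x' h).1)
              (Sum.elim (fun h => (y' h).1) (fun t => (z' t).1)) v.1 v.2.1 v.2.2) F = 0) →
          ∀ s, MvPolynomial.eval (fun v => Sum.elim (fun h => (x s h).1)
            (Sum.elim (fun h => (y s h).1) (fun t => (z s t).1)) v.1 v.2.1 v.2.2) F = 0 := by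
  classical
  obtain ⟨L, hL, hfin, -, hvan⟩ := gp_density g n r hN c d hc hd hc1 hd1
  refine ⟨L, hL, hfin, ?_⟩
  let cU : Fin r → ℂˣ := fun i => Units.mk0 (c i) (gw_ne_zero c hc1 i)
  let dU : Fin n → Fin r → ℂˣ := fun j i => Units.mk0 (d j i) (gw_ne_zero (d j) (hd1 j) i)
  have hcU : ∏ i, cU i = 1 := by
    ext
    rw [Units.coe_prod]
    simp only [cU, Units.val_mk0]
    rw [hc1]
    rfl
  have hdU : ∀ j, ∏ i, dU j i = 1 := by
    intro j
    ext
    rw [Units.coe_prod]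
    simp only [dU, Units.val_mk0]
    rw [hd1 j]
    rfl
  choose X Y Z hXYZ using fun s : GqIdx g n r → ℂˣ =>
    gpIsPt_exists hN cU dU hcU hdU (gqSec (gqEmb hN) s)
  have hdet := fun s => gpIsPt_det hN cU dU hcU hdU _ (hXYZ s)
  let x : (GqIdx g n r → ℂˣ) → Fin g → Matrix.SpecialLinearGroup (Fin r) ℂ :=
    fun s h => ⟨X s h, ((hdet s).1 h).1⟩
  let y : (GqIdx g n r → ℂˣ) → Fin g → Matrix.SpecialLinearGroup (Fin r) ℂ :=
    fun s h => ⟨Y s h, ((hdet s).1 h).2⟩
  let z : (GqIdx g n r → ℂˣ) → Fin n → Matrix.SpecialLinearGroup (Fin r) ℂ :=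
    fun s j => ⟨Z s j, (hdet s).2 j⟩
  have hpt : ∀ s, gpIsPt cU dU (gqSec (gqEmb hN) s) (fun h => (x s h).1) (fun h => (y s h).1)
      (fun j => (z s j).1) := hXYZ
  have hch : ∀ s, gpChart c d (x s) (y s) (z s) := fun s =>
    gpChart_of_chartO _ _ _ _ _ (gpIsPt_chartO hN cU dU hcU hdU _ _ _ _ (hpt s))
  refine ⟨GqIdx g n r, inferInstance, x, y, z, gq_card g n r hN, ?_, ?_, ?_, ?_⟩
  · intro s
    obtain ⟨l, p, q, l', G, t, t', τ, -, k1, k2, -⟩ := hch s
    exact ⟨k1, k2⟩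
  · intro v
    exact gq_alg hN cU dU hcU hdU (gqEmb hN) X Y Z hXYZ v
  · rintro hci hdi s s' ⟨γ, hγ, hx, hy, hz⟩
    refine gq_nonconj hN cU dU ?_ ?_ s s' (x s) (y s) (x s') (y s') (z s) (z s') (hpt s)
      (hpt s') γ hγ hx hy hz
    · intro i i' h
      exact hci (congrArg Units.val h)
    · intro j i i' h
      exact hdi j (congrArg Units.val h)
  · intro F H s
    exact hvan F H (x s) (y s) (z s) (hch s)

end Vale.Agent.Lib.P002

end
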