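import Vale.Agent.Lib.P002.GQDefs

/-!
# The effective parameters: elementary facts
-/

namespace Vale.Agent.Lib.P002

theorem gqSec_emb {M : Type*} [One M] {ι κ : Type*} (j : ι → κ) (hj : Function.Injective j)
    (s : ι → M) (i : ι) : gqSec j s (j i) = s i := by
  classical
  unfold gqSec
  have h : ∃ i', j i' = j i := ⟨i, rfl⟩
  rw [dif_pos h]
  exact congrArg s (hj (Classical.choose_spec h))

theorem gqSec_of_not_range {M : Type*} [One M] {ι κ : Type*} (j : ι → κ) (s : ι → M) (v : κ)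
    (h : ∀ i, j i ≠ v) : gqSec j s v = 1 := by
  classical
  unfold gqSec
  rw [dif_neg]
  rintro ⟨i, hi⟩
  exact h i hi

theorem gqSec_map {M M' : Type*} [Monoid M] [Monoid M'] (f : M →* M') {ι κ : Type*}
    (j : ι → κ) (s : ι → M) (v : κ) : f (gqSec j s v) = gqSec j (fun i => f (s i)) v := by
  classical
  unfold gqSec
  by_cases h : ∃ i, j i = v
  · simp only [dif_pos h]
  · simp only [dif_neg h, map_one]

theorem gqWallIdx_injective (r : ℕ) : Function.Injective (gqWallIdx r) := by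
  intro v w h
  have hv1 := v.1.isLt
  have hv2 := v.2.isLt
  have hw1 := w.1.isLt
  have hw2 := w.2.isLt
  unfold gqWallIdx at h
  by_cases c1 : (v.1 : ℕ) < (v.2 : ℕ) <;> by_cases c2 : (w.1 : ℕ) < (w.2 : ℕ)
  · rw [if_pos c1, if_pos c2] at h
    simp only [Prod.mk.injEq, Fin.mk.injEq, true_and] at h
    exact Prod.ext (Fin.ext (by omega)) (Fin.ext (by omega))
  · rw [if_pos c1, if_neg c2] at h
    simp only [Prod.mk.injEq] at h
    exact absurd h.1 (by decide)
  · rw [if_neg c1, if_pos c2] at h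
    simp only [Prod.mk.injEq] at h
    exact absurd h.1 (by decide)
  · rw [if_neg c1, if_neg c2] at h
    simp only [Prod.mk.injEq, Fin.mk.injEq, true_and] at h
    exact Prod.ext (Fin.ext (by omega)) (Fin.ext (by omega))

/-- The wall index of a pair is one of the free wall minors of a cell. -/
theorem gqWallIdx_used (r : ℕ) (v : Fin (r - 1) × Fin (r - 1)) :
    ((gqWallIdx r v).1 : ℕ) ≤ 1 ∧ 1 ≤ ((gqWallIdx r v).2.2 : ℕ) ∧
      ((gqWallIdx r v).2.1 : ℕ) + ((gqWallIdx r v).1 : ℕ) + ((gqWallIdx r v).2.2 : ℕ) ≤ r ∧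
      ¬ (((gqWallIdx r v).1 : ℕ) = 0 ∧ (((gqWallIdx r v).2.1 : ℕ) = 0 ∨
        ((gqWallIdx r v).2.1 : ℕ) + ((gqWallIdx r v).2.2 : ℕ) = r)) := by
  have hv1 := v.1.isLt
  have hv2 := v.2.isLt
  unfold gqWallIdx
  by_cases c : (v.1 : ℕ) < (v.2 : ℕ)
  · rw [if_pos c]
    simp only [Fin.val_zero]
    omega
  · rw [if_neg c]
    simp only [Fin.val_one]
    omega

/-- The wall index of a pair is a superdiagonal entry exactly for the pairs `(a, a)`. -/
theorem gqWallIdx_slice (r : ℕ) (v : Fin (r - 1) × Fin (r - 1))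
    (h : ((gqWallIdx r v).1 : ℕ) = 1 ∧ ((gqWallIdx r v).2.2 : ℕ) = 1) : v.1 = v.2 := by
  unfold gqWallIdx at h
  by_cases c : (v.1 : ℕ) < (v.2 : ℕ)
  · rw [if_pos c] at h
    simp only [Fin.val_zero] at h
    omega
  · rw [if_neg c] at h
    simp only [Fin.val_one] at h
    exact Fin.ext (by omega)

theorem gqEmb_injective {g n r : ℕ} (hN : 2 ≤ 2 * g + n) :
    Function.Injective (gqEmb (g := g) (n := n) (r := r) hN) := by
  rintro (⟨k, v⟩ | ⟨v⟩ | ⟨k, i⟩ | ⟨h, b, i⟩) (⟨k', v'⟩ | ⟨v'⟩ | ⟨k', i'⟩ | ⟨h', b', i'⟩) e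
  all_goals simp only [gqEmb, Sum.inl.injEq, Sum.inr.injEq, Prod.mk.injEq, Fin.mk.injEq,
    reduceCtorEq] at e
  · obtain ⟨e1, e2⟩ := e
    have hk : k = k' := Fin.ext (by omega)
    rw [hk, gqWallIdx_injective r e2]
  · exact absurd e.1 (by omega)
  · exact absurd e.1 (by omega)
  · have hv : v = v' := Subtype.ext (gqWallIdx_injective r e.2)
    rw [hv]
  · have hk : k = k' := Fin.ext (by omega)
    have hi : i = i' := Fin.ext e.2
    rw [hk, hi]
  · obtain ⟨e1, e2, e3⟩ := e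
    have hi : i = i' := Fin.ext e3
    rw [e1, e2, hi]

/-- The superdiagonal entries of the first cell are not effective parameters. -/
theorem gqEmb_ne_slice {g n r : ℕ} (hN : 2 ≤ 2 * g + n) (i : ℕ) (hi : i + 1 < r)
    (v : GqIdx g n r) :
    gqEmb hN v ≠ Sum.inl (⟨1, by omega⟩, ((1 : Fin 2), ⟨i, by omega⟩, ⟨1, by omega⟩)) := by
  rcases v with ⟨k, v⟩ | ⟨v⟩ | ⟨k, i'⟩ | ⟨h, b, i'⟩
  all_goals intro e
  all_goals simp only [gqEmb, Sum.inl.injEq, Prod.mk.injEq, Fin.mk.injEq, reduceCtorEq] at e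
  · exact absurd e.1 (by omega)
  · have h1 := gqWallIdx_slice r v.1 (by rw [e.2]; exact ⟨rfl, rfl⟩)
    exact v.2 h1

/-- The last entry of the free data of a trailing diagonal is not an effective parameter. -/
theorem gqEmb_ne_last_e {g n r : ℕ} (hN : 2 ≤ 2 * g + n) (hr : 0 < r) (k : Fin (2 * g + n))
    (v : GqIdx g n r) : gqEmb hN v ≠ Sum.inr (Sum.inl (k, ⟨r - 1, by omega⟩)) := by
  rcases v with ⟨k', v⟩ | ⟨v⟩ | ⟨k', i'⟩ | ⟨h, b, i'⟩
  all_goals intro e
  all_goals simp only [gqEmb, Sum.inl.injEq, Sum.inr.injEq, Prod.mk.injEq, Fin.mk.injEq,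
    reduceCtorEq] at e
  have hi := i'.isLt
  omega

/-- The last entry of the free data of an antidiagonal matrix is not an effective parameter. -/
theorem gqEmb_ne_last_t {g n r : ℕ} (hN : 2 ≤ 2 * g + n) (hr : 0 < r) (h : Fin g) (b : Fin 2)
    (v : GqIdx g n r) : gqEmb hN v ≠ Sum.inr (Sum.inr (h, b, ⟨r - 1, by omega⟩)) := by
  rcases v with ⟨k', v⟩ | ⟨v⟩ | ⟨k', i'⟩ | ⟨h', b', i'⟩
  all_goals intro e
  all_goals simp only [gqEmb, Sum.inr.injEq, Prod.mk.injEq, Fin.mk.injEq, reduceCtorEq] at e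
  have hi := i'.isLt
  omega

end Vale.Agent.Lib.P002
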