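import Vale.Agent.Lib.P002.GQTri
import Vale.Agent.Lib.P002.GWTri
import Vale.Agent.Lib.P002.GSTele
import Vale.Agent.Lib.P002.GPZChar

/-!
# Uniqueness of the data of the chart: the step at a puncture
-/

open Matrix

namespace Vale.Agent.Lib.P002

/-- Conjugating the loop by the next frame gives a lower triangular matrix. -/
theorem gqStepPAux_conj {r : ℕ} (z P p L G l Gi li : Matrix (Fin r) (Fin r) ℂ)
    (τ : Fin r → ℂ) (hGiG : Gi * G = 1) (hlli : l * li = 1)
    (h1 : z * (G * l) = P * p * Matrix.diagonal τ) (h2 : P * p = G * L) :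
    Gi * z * G = L * Matrix.diagonal τ * li := by
  calc Gi * z * G = Gi * z * G * (l * li) := by rw [hlli, mul_one]
    _ = Gi * (z * (G * l)) * li := by simp only [mul_assoc]
    _ = Gi * (G * L * Matrix.diagonal τ) * li := by rw [h1, h2]
    _ = (Gi * G) * L * Matrix.diagonal τ * li := by simp only [mul_assoc]
    _ = L * Matrix.diagonal τ * li := by rw [hGiG, one_mul]

/-- The matrix `L * diagonal τ * li` is lower triangular with diagonal `L i i * τ i`. -/
theorem gqStepPAux_low {r : ℕ} (L li : Matrix (Fin r) (Fin r) ℂ) (τ : Fin r → ℂ)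
    (hL : L.IsLowerTriangular) (hli : li.IsLowerTriangular) (hli1 : ∀ i, li i i = 1) :
    (L * Matrix.diagonal τ * li).IsLowerTriangular ∧
      ∀ i, (L * Matrix.diagonal τ * li) i i = L i i * τ i := by
  have hLD : (L * Matrix.diagonal τ).IsLowerTriangular :=
    Matrix.BlockTriangular.mul hL (Matrix.blockTriangular_diagonal τ)
  refine ⟨Matrix.BlockTriangular.mul hLD hli, fun i => ?_⟩
  rw [gsTeleAux_diag_mul_low (L * Matrix.diagonal τ) li hLD hli i, hli1, mul_one,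
    Matrix.mul_diagonal]

/-- Cancelling an invertible matrix and a frame on the left. -/
theorem gqStepPAux_cancel {r : ℕ} (z G Gi X Y : Matrix (Fin r) (Fin r) ℂ)
    (hz : IsUnit z.det) (hGiG : Gi * G = 1) (h : z * (G * X) = z * (G * Y)) : X = Y := by
  have e1 : ∀ W : Matrix (Fin r) (Fin r) ℂ, z⁻¹ * (z * W) = W := by
    intro W
    rw [← Matrix.mul_assoc z⁻¹ z W, Matrix.nonsing_inv_mul z hz, one_mul]
  have e2 : ∀ W : Matrix (Fin r) (Fin r) ℂ, Gi * (G * W) = W := by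
    intro W
    rw [← Matrix.mul_assoc Gi G W, hGiG, one_mul]
  calc X = Gi * (z⁻¹ * (z * (G * X))) := by rw [e1, e2]
    _ = Gi * (z⁻¹ * (z * (G * Y))) := by rw [h]
    _ = Y := by rw [e1, e2]

/-- The step at a puncture.  Here `z` is the loop around the puncture, `P` the (common) frame
before the puncture, and for each of the two data `p` is the unipotent upper factor of the
cell before the puncture, `L` its trailing lower factor, `G` the next frame, `l` the lower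
factor of the next cell and `τ` the diagonal.  The diagonal of `G⁻¹ * z * G` (which is lower
triangular) is `d` for both data, with distinct entries. -/
theorem gq_step_punct {r : ℕ} (z P p L G l p₂ L₂ G₂ l₂ : Matrix (Fin r) (Fin r) ℂ)
    (τ τ₂ d : Fin r → ℂ) (hz : IsUnit z.det) (hP : IsUnit P.det)
    (hd : Function.Injective d) (hd0 : ∀ i, d i ≠ 0)
    (hp : p.IsUpperTriangular ∧ ∀ i, p i i = 1) (hL : L.IsLowerTriangular)
    (hG : G.IsUpperTriangular ∧ ∀ i, G i i = 1) (hl : l.IsLowerTriangular ∧ ∀ i, l i i = 1)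
    (h1 : z * (G * l) = P * p * Matrix.diagonal τ) (h2 : P * p = G * L)
    (h3 : ∀ i, L i i * τ i = d i)
    (hp₂ : p₂.IsUpperTriangular ∧ ∀ i, p₂ i i = 1) (hL₂ : L₂.IsLowerTriangular)
    (hG₂ : G₂.IsUpperTriangular ∧ ∀ i, G₂ i i = 1)
    (hl₂ : l₂.IsLowerTriangular ∧ ∀ i, l₂ i i = 1)
    (h1₂ : z * (G₂ * l₂) = P * p₂ * Matrix.diagonal τ₂) (h2₂ : P * p₂ = G₂ * L₂)
    (h3₂ : ∀ i, L₂ i i * τ₂ i = d i) :
    G₂ = G ∧ l₂ = l := by
  obtain ⟨Gi, hGiU, hGi1, hGGi, hGiG⟩ := gw_upU_inv r G hG.1 hG.2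
  obtain ⟨G₂i, -, -, hG₂G₂i, hG₂iG₂⟩ := gw_upU_inv r G₂ hG₂.1 hG₂.2
  obtain ⟨li, hliL, hli1, hlli, hlil⟩ := gpZCharAux_low_inv r l hl.1 hl.2
  obtain ⟨l₂i, hl₂iL, hl₂i1, hl₂l₂i, -⟩ := gpZCharAux_low_inv r l₂ hl₂.1 hl₂.2
  obtain ⟨pi, hpiU, -, hppi, -⟩ := gw_upU_inv r p hp.1 hp.2
  -- the first step: the frames agree
  have hΛ := gqStepPAux_conj z P p L G l Gi li τ hGiG hlli h1 h2
  have hΛ₂ := gqStepPAux_conj z P p₂ L₂ G₂ l₂ G₂i l₂i τ₂ hG₂iG₂ hl₂l₂i h1₂ h2₂
  have hlow := gqStepPAux_low L li τ hL hliL hli1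
  have hlow₂ := gqStepPAux_low L₂ l₂i τ₂ hL₂ hl₂iL hl₂i1
  have hvU : (Gi * G₂).IsUpperTriangular := Matrix.BlockTriangular.mul hGiU hG₂.1
  have hv1 : ∀ i, (Gi * G₂) i i = 1 := fun i => by
    rw [gwTriAux_diag_mul Gi G₂ hGiU hG₂.1 i, hGi1, hG₂.2, mul_one]
  have hcomm : (Gi * G₂) * (L₂ * Matrix.diagonal τ₂ * l₂i) =
      (L * Matrix.diagonal τ * li) * (Gi * G₂) := by
    rw [← hΛ, ← hΛ₂]
    calc Gi * G₂ * (G₂i * z * G₂) = Gi * (G₂ * G₂i) * z * G₂ := by simp only [mul_assoc]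
      _ = Gi * z * G₂ := by rw [hG₂G₂i, mul_one]
      _ = Gi * z * (G * Gi) * G₂ := by rw [hGGi, mul_one]
      _ = Gi * z * G * (Gi * G₂) := by simp only [mul_assoc]
  have hvL : (Gi * G₂).IsLowerTriangular :=
    gq_lower_of_comm (Gi * G₂) _ _ d hd hlow₂.1 hlow.1
      (fun i => by rw [hlow₂.2, h3₂]) (fun i => by rw [hlow.2, h3]) hcomm
  have hv : Gi * G₂ = 1 := gwTriAux_eq_one _ hvU hvL hv1
  have hGG : G₂ = G := by
    calc G₂ = (G * Gi) * G₂ := by rw [hGGi, one_mul]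
      _ = G * (Gi * G₂) := Matrix.mul_assoc G Gi G₂
      _ = G := by rw [hv, mul_one]
  refine ⟨hGG, ?_⟩
  rw [hGG] at h1₂
  -- the second step: the lower factors agree
  have hτ : ∀ i, τ i ≠ 0 := fun i h => hd0 i (by rw [← h3 i, h, mul_zero])
  have hDDi : Matrix.diagonal τ * Matrix.diagonal (fun i => (τ i)⁻¹) = 1 := by
    rw [Matrix.diagonal_mul_diagonal]
    have hone : (fun i => τ i * (τ i)⁻¹) = fun _ => (1 : ℂ) :=
      funext fun i => mul_inv_cancel₀ (hτ i)
    rw [hone, Matrix.diagonal_one]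
  have hw : l * (Matrix.diagonal (fun i => (τ i)⁻¹) * pi * p₂ * Matrix.diagonal τ₂) = l₂ := by
    apply gqStepPAux_cancel z G Gi _ _ hz hGiG
    calc z * (G * (l * (Matrix.diagonal (fun i => (τ i)⁻¹) * pi * p₂ * Matrix.diagonal τ₂)))
        = (z * (G * l)) * (Matrix.diagonal (fun i => (τ i)⁻¹) * pi * p₂ *
            Matrix.diagonal τ₂) := by simp only [mul_assoc]
      _ = P * p * Matrix.diagonal τ * (Matrix.diagonal (fun i => (τ i)⁻¹) * pi * p₂ *
            Matrix.diagonal τ₂) := by rw [h1]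
      _ = P * (p * ((Matrix.diagonal τ * Matrix.diagonal (fun i => (τ i)⁻¹)) * pi)) * p₂ *
            Matrix.diagonal τ₂ := by simp only [mul_assoc]
      _ = P * p₂ * Matrix.diagonal τ₂ := by rw [hDDi, one_mul, hppi, mul_one]
      _ = z * (G * l₂) := h1₂.symm
  have hu : li * l₂ =
      Matrix.diagonal (fun i => (τ i)⁻¹) * pi * p₂ * Matrix.diagonal τ₂ := by
    calc li * l₂
        = li * (l * (Matrix.diagonal (fun i => (τ i)⁻¹) * pi * p₂ * Matrix.diagonal τ₂)) := by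
          rw [hw]
      _ = (li * l) * (Matrix.diagonal (fun i => (τ i)⁻¹) * pi * p₂ * Matrix.diagonal τ₂) :=
          (Matrix.mul_assoc li l _).symm
      _ = Matrix.diagonal (fun i => (τ i)⁻¹) * pi * p₂ * Matrix.diagonal τ₂ := by
          rw [hlil, one_mul]
  have huU : (li * l₂).IsUpperTriangular := by
    rw [hu]
    exact Matrix.BlockTriangular.mul
      (Matrix.BlockTriangular.mul
        (Matrix.BlockTriangular.mul (Matrix.blockTriangular_diagonal _) hpiU) hp₂.1)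
      (Matrix.blockTriangular_diagonal _)
  have huL : (li * l₂).IsLowerTriangular := Matrix.BlockTriangular.mul hliL hl₂.1
  have hu1 : ∀ i, (li * l₂) i i = 1 := fun i => by
    rw [gsTeleAux_diag_mul_low li l₂ hliL hl₂.1 i, hli1, hl₂.2, mul_one]
  have hu1' : li * l₂ = 1 := gwTriAux_eq_one _ huU huL hu1
  calc l₂ = (l * li) * l₂ := by rw [hlli, one_mul]
    _ = l * (li * l₂) := Matrix.mul_assoc l li l₂
    _ = l := by rw [hu1', mul_one]

end Vale.Agent.Lib.P002
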