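import Vale.Agent.Lib.P002.GRDefs

/-!
# The characteristic polynomial of the restriction to an invariant subspace divides
-/

open Polynomial

namespace Vale.Agent.Lib.P002

/-- The characteristic polynomial of an endomorphism is the product of the characteristic
polynomials of its restriction to an invariant subspace and of the induced endomorphism of the
quotient. -/
theorem gr_charpoly_mul {E : Type*} [AddCommGroup E] [Module ℂ E] [FiniteDimensional ℂ E]
    (V : Submodule ℂ E) (f : E →ₗ[ℂ] E) (hf : V ≤ V.comap f) :
    f.charpoly = (f.restrict hf).charpoly * (V.mapQ V f hf).charpoly := by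
  apply Polynomial.funext
  intro μ
  rw [Polynomial.eval_mul, LinearMap.eval_charpoly, LinearMap.eval_charpoly,
    LinearMap.eval_charpoly]
  have he : V ≤ V.comap (algebraMap ℂ (Module.End ℂ E) μ - f) := by
    intro v hv
    rw [Submodule.mem_comap, LinearMap.sub_apply, Module.algebraMap_end_apply]
    exact V.sub_mem (V.smul_mem μ hv) (hf hv)
  rw [LinearMap.det_eq_det_mul_det V _ he]
  have h1 : (algebraMap ℂ (Module.End ℂ E) μ - f).restrict he
      = algebraMap ℂ (Module.End ℂ V) μ - f.restrict hf := by
    ext v
    simp [LinearMap.restrict_apply, Module.algebraMap_end_apply]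
  have h2 : V.mapQ V (algebraMap ℂ (Module.End ℂ E) μ - f) he
      = algebraMap ℂ (Module.End ℂ (E ⧸ V)) μ - V.mapQ V f hf := by
    ext v
    simp [Module.algebraMap_end_apply]
  rw [h1, h2]

theorem gr_charpoly_restrict_dvd {E : Type*} [AddCommGroup E] [Module ℂ E]
    [FiniteDimensional ℂ E] (V : Submodule ℂ E) (f : E →ₗ[ℂ] E) (hf : V ≤ V.comap f) :
    (f.restrict hf).charpoly ∣ f.charpoly := by
  exact Dvd.intro _ (gr_charpoly_mul V f hf).symm

end Vale.Agent.Lib.P002
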