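import Mathlib

/-!
# Invariant subspaces of tuples of matrices: definitions

`grInv V M` says that the subspace `V` of `ℂ^r` is invariant under the matrix `M`, and
`grDet V M` is the determinant of the restriction of `M` to `V` (and `0` if `V` is not
invariant).
-/

open Matrix

namespace Vale.Agent.Lib.P002

/-- The subspace `V` is invariant under the matrix `M`. -/
def grInv {r : ℕ} (V : Submodule ℂ (Fin r → ℂ)) (M : Matrix (Fin r) (Fin r) ℂ) : Prop :=
  ∀ v ∈ V, M.mulVec v ∈ V

theorem grInv_iff {r : ℕ} (V : Submodule ℂ (Fin r → ℂ)) (M : Matrix (Fin r) (Fin r) ℂ) :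
    grInv V M ↔ V ≤ V.comap (Matrix.toLin' M) := by
  constructor
  · intro h v hv
    rw [Submodule.mem_comap, Matrix.toLin'_apply]
    exact h v hv
  · intro h v hv
    have := h hv
    rwa [Submodule.mem_comap, Matrix.toLin'_apply] at this

open Classical in
/-- The determinant of the restriction of `M` to the invariant subspace `V`. -/
noncomputable def grDet {r : ℕ} (V : Submodule ℂ (Fin r → ℂ)) (M : Matrix (Fin r) (Fin r) ℂ) :
    ℂ :=
  if h : V ≤ V.comap (Matrix.toLin' M) then LinearMap.det ((Matrix.toLin' M).restrict h) else 0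

theorem grDet_eq {r : ℕ} (V : Submodule ℂ (Fin r → ℂ)) (M : Matrix (Fin r) (Fin r) ℂ)
    (h : V ≤ V.comap (Matrix.toLin' M)) :
    grDet V M = LinearMap.det ((Matrix.toLin' M).restrict h) := by
  unfold grDet
  rw [dif_pos h]

end Vale.Agent.Lib.P002
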