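import Vale.Agent.Lib.P002.GRDefs

/-!
# Submultisets of a family are subfamilies
-/

namespace Vale.Agent.Lib.P002

/-- A multiset below the image of a multiset `t` under `f` is the image of a multiset
below `t`. -/
theorem grSubAux_exists_le {α β : Type*} (f : α → β) (t : Multiset α) :
    ∀ s : Multiset β, s ≤ t.map f → ∃ u : Multiset α, u ≤ t ∧ u.map f = s := by
  classical
  induction t using Multiset.induction_on with
  | empty =>
    intro s hs
    refine ⟨0, le_rfl, ?_⟩
    rw [Multiset.map_zero] at hs
    rw [Multiset.map_zero]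
    exact (Multiset.le_zero.mp hs).symm
  | cons x t ih =>
    intro s hs
    rw [Multiset.map_cons] at hs
    by_cases hx : f x ∈ s
    · have h1 : s.erase (f x) ≤ t.map f := by
        have h2 := Multiset.erase_le_erase (f x) hs
        rwa [Multiset.erase_cons_head] at h2
      obtain ⟨u, hu, hus⟩ := ih (s.erase (f x)) h1
      refine ⟨x ::ₘ u, Multiset.cons_le_cons x hu, ?_⟩
      rw [Multiset.map_cons, hus, Multiset.cons_erase hx]
    · obtain ⟨u, hu, hus⟩ := ih s ((Multiset.le_cons_of_notMem hx).mp hs)
      exact ⟨u, le_trans hu (Multiset.le_cons_self t x), hus⟩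

/-- A multiset below the multiset of values of a family `a : Fin r → ℂ` is the multiset of
values of a subfamily. -/
theorem gr_sub_family {r : ℕ} (a : Fin r → ℂ) (s : Multiset ℂ)
    (h : s ≤ Multiset.map a Finset.univ.val) :
    ∃ S : Finset (Fin r), S.card = Multiset.card s ∧ ∏ i ∈ S, a i = s.prod := by
  obtain ⟨u, hu, hus⟩ := grSubAux_exists_le a Finset.univ.val s h
  have hnd : u.Nodup := Multiset.nodup_of_le hu Finset.univ.nodup
  refine ⟨⟨u, hnd⟩, ?_, ?_⟩
  · rw [← hus, Multiset.card_map]
    rfl
  · rw [← hus]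
    rfl

end Vale.Agent.Lib.P002
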