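import Vale.Agent.Lib.P002.GRCharpoly
import Vale.Agent.Lib.P002.GRSub

/-!
# The determinant on an invariant subspace is a product of eigenvalues
-/

open Polynomial Matrix

namespace Vale.Agent.Lib.P002

/-- The roots of a split polynomial. -/
theorem grDetProdAux_roots (r : ℕ) (f : Fin r → ℂ) :
    (∏ i, (X - C (f i))).roots = Multiset.map f Finset.univ.val := by
  rw [Finset.prod_eq_multiset_prod]
  have h1 : Multiset.map (fun i => X - C (f i)) Finset.univ.val
      = Multiset.map (fun a : ℂ => X - C a) (Multiset.map f Finset.univ.val) := by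
    rw [Multiset.map_map]
    rfl
  rw [h1, Polynomial.roots_multiset_prod_X_sub_C]

/-- A product of monic linear factors is nonzero. -/
theorem grDetProdAux_ne_zero (r : ℕ) (f : Fin r → ℂ) :
    (∏ i, (X - C (f i)) : ℂ[X]) ≠ 0 :=
  (Polynomial.monic_prod_of_monic _ _ (fun i _ => Polynomial.monic_X_sub_C (f i))).ne_zero

/-- If `V` is invariant under `M` and the characteristic polynomial of `M` is `∏ (X - a i)`,
then the determinant of `M` on `V` is the product of the `a i` over a set of indices whose
number is the dimension of `V`. -/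
theorem grDet_eq_prod {r : ℕ} (V : Submodule ℂ (Fin r → ℂ)) (M : Matrix (Fin r) (Fin r) ℂ)
    (hM : grInv V M) (a : Fin r → ℂ) (h : M.charpoly = ∏ i, (X - C (a i))) :
    ∃ S : Finset (Fin r), S.card = Module.finrank ℂ V ∧ grDet V M = ∏ i ∈ S, a i := by
  have hf : V ≤ V.comap (Matrix.toLin' M) := (grInv_iff V M).mp hM
  have hdvd : ((Matrix.toLin' M).restrict hf).charpoly ∣ ∏ i, (X - C (a i)) := by
    have h1 := gr_charpoly_restrict_dvd V (Matrix.toLin' M) hf
    rwa [Matrix.charpoly_toLin', h] at h1
  have hle : ((Matrix.toLin' M).restrict hf).charpoly.roots ≤ Multiset.map a Finset.univ.val := by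
    rw [← grDetProdAux_roots]
    exact Polynomial.roots.le_of_dvd (grDetProdAux_ne_zero r a) hdvd
  have hsplit : ((Matrix.toLin' M).restrict hf).charpoly.Splits := IsAlgClosed.splits _
  obtain ⟨S, hS1, hS2⟩ := gr_sub_family a _ hle
  refine ⟨S, ?_, ?_⟩
  · rw [hS1, ← hsplit.natDegree_eq_card_roots, LinearMap.charpoly_natDegree]
  · rw [grDet_eq V M hf, Module.End.det_eq_prod_roots_charpoly_of_splits hsplit, hS2]

end Vale.Agent.Lib.P002
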