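import Vale.Agent.Lib.P002.GRDefs

/-!
# The determinant on an invariant subspace is multiplicative
-/

open Matrix

namespace Vale.Agent.Lib.P002

theorem grInv_one {r : ℕ} (V : Submodule ℂ (Fin r → ℂ)) :
    grInv V (1 : Matrix (Fin r) (Fin r) ℂ) := by
  intro v hv
  rw [Matrix.one_mulVec]
  exact hv

theorem grInv_mul {r : ℕ} (V : Submodule ℂ (Fin r → ℂ)) (M N : Matrix (Fin r) (Fin r) ℂ)
    (hM : grInv V M) (hN : grInv V N) : grInv V (M * N) := by
  intro v hv
  rw [← Matrix.mulVec_mulVec]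
  exact hM _ (hN v hv)

theorem grMulAux_restrict_one {r : ℕ} (V : Submodule ℂ (Fin r → ℂ))
    (h : V ≤ V.comap (Matrix.toLin' (1 : Matrix (Fin r) (Fin r) ℂ))) :
    (Matrix.toLin' (1 : Matrix (Fin r) (Fin r) ℂ)).restrict h = LinearMap.id := by
  apply LinearMap.ext
  intro x
  apply Subtype.ext
  rw [LinearMap.coe_restrict_apply, Matrix.toLin'_one]
  rfl

theorem grMulAux_restrict_mul {r : ℕ} (V : Submodule ℂ (Fin r → ℂ))
    (M N : Matrix (Fin r) (Fin r) ℂ)
    (hM : V ≤ V.comap (Matrix.toLin' M)) (hN : V ≤ V.comap (Matrix.toLin' N))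
    (hMN : V ≤ V.comap (Matrix.toLin' (M * N))) :
    (Matrix.toLin' (M * N)).restrict hMN
      = ((Matrix.toLin' M).restrict hM).comp ((Matrix.toLin' N).restrict hN) := by
  apply LinearMap.ext
  intro x
  apply Subtype.ext
  rw [LinearMap.coe_restrict_apply, Matrix.toLin'_mul]
  rfl

theorem grDet_one {r : ℕ} (V : Submodule ℂ (Fin r → ℂ)) :
    grDet V (1 : Matrix (Fin r) (Fin r) ℂ) = 1 := by
  have h := (grInv_iff V 1).mp (grInv_one V)
  rw [grDet_eq V 1 h, grMulAux_restrict_one V h, LinearMap.det_id]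

theorem grDet_mul {r : ℕ} (V : Submodule ℂ (Fin r → ℂ)) (M N : Matrix (Fin r) (Fin r) ℂ)
    (hM : grInv V M) (hN : grInv V N) : grDet V (M * N) = grDet V M * grDet V N := by
  have h1 := (grInv_iff V M).mp hM
  have h2 := (grInv_iff V N).mp hN
  have h3 := (grInv_iff V (M * N)).mp (grInv_mul V M N hM hN)
  rw [grDet_eq V (M * N) h3, grDet_eq V M h1, grDet_eq V N h2,
    grMulAux_restrict_mul V M N h1 h2 h3, LinearMap.det_comp]

theorem grMulAux_inv_mul {r : ℕ} (a : Matrix.SpecialLinearGroup (Fin r) ℂ) :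
    (a⁻¹).1 * a.1 = 1 := by
  have h := congrArg Subtype.val (inv_mul_cancel a)
  rw [Matrix.SpecialLinearGroup.coe_mul] at h
  exact h

theorem grMulAux_mul_inv {r : ℕ} (a : Matrix.SpecialLinearGroup (Fin r) ℂ) :
    a.1 * (a⁻¹).1 = 1 := by
  have h := congrArg Subtype.val (mul_inv_cancel a)
  rw [Matrix.SpecialLinearGroup.coe_mul] at h
  exact h

/-- A subspace invariant under a matrix of determinant one is invariant under its inverse. -/
theorem grInv_inv {r : ℕ} (V : Submodule ℂ (Fin r → ℂ))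
    (a : Matrix.SpecialLinearGroup (Fin r) ℂ) (h : grInv V a.1) : grInv V (a⁻¹).1 := by
  intro v hv
  have hM := (grInv_iff V a.1).mp h
  have hinv := grMulAux_inv_mul a
  have hinj : Function.Injective ((Matrix.toLin' a.1).restrict hM) := by
    intro x y hxy
    have h1 := congrArg Subtype.val hxy
    rw [LinearMap.coe_restrict_apply, LinearMap.coe_restrict_apply, Matrix.toLin'_apply,
      Matrix.toLin'_apply] at h1
    apply Subtype.ext
    have h2 : (a⁻¹).1.mulVec (a.1.mulVec x.1) = (a⁻¹).1.mulVec (a.1.mulVec y.1) := by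
      rw [h1]
    rw [Matrix.mulVec_mulVec, Matrix.mulVec_mulVec, hinv, Matrix.one_mulVec,
      Matrix.one_mulVec] at h2
    exact h2
  have hsurj : Function.Surjective ((Matrix.toLin' a.1).restrict hM) :=
    LinearMap.injective_iff_surjective.mp hinj
  obtain ⟨w, hw⟩ := hsurj ⟨v, hv⟩
  have hw' : a.1.mulVec w.1 = v := by
    have h1 := congrArg Subtype.val hw
    rw [LinearMap.coe_restrict_apply, Matrix.toLin'_apply] at h1
    exact h1
  rw [← hw', Matrix.mulVec_mulVec, hinv, Matrix.one_mulVec]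
  exact w.2

theorem grDet_inv {r : ℕ} (V : Submodule ℂ (Fin r → ℂ))
    (a : Matrix.SpecialLinearGroup (Fin r) ℂ) (h : grInv V a.1) :
    grDet V a.1 * grDet V (a⁻¹).1 = 1 := by
  rw [← grDet_mul V a.1 (a⁻¹).1 h (grInv_inv V a h), grMulAux_mul_inv a, grDet_one]

end Vale.Agent.Lib.P002
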