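import Vale.Agent.Lib.P002.GSDefs
import Vale.Agent.Lib.P002.GSRot
import Vale.Agent.Lib.P002.GSTele
import Vale.Agent.Lib.P002.GWCellE
import Vale.Agent.Lib.P002.GWTri

/-!
# Existence of chart points for all parameters
-/

open Matrix

namespace Vale.Agent.Lib.P002

/-- The identity is upper triangular with unit diagonal. -/
theorem gsExAux_up_one {R : Type*} [CommRing R] {r : ℕ} :
    (1 : Matrix (Fin r) (Fin r) R).IsUpperTriangular ∧
      ∀ i, (1 : Matrix (Fin r) (Fin r) R) i i = 1 :=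
  ⟨Matrix.blockTriangular_one, fun i => Matrix.one_apply_eq i⟩

/-- Products of upper triangular matrices with unit diagonal. -/
theorem gsExAux_up_mul {R : Type*} [CommRing R] {r : ℕ} (A B : Matrix (Fin r) (Fin r) R)
    (hA : A.IsUpperTriangular ∧ ∀ i, A i i = 1) (hB : B.IsUpperTriangular ∧ ∀ i, B i i = 1) :
    (A * B).IsUpperTriangular ∧ ∀ i, (A * B) i i = 1 := by
  refine ⟨Matrix.BlockTriangular.mul hA.1 hB.1, fun i => ?_⟩
  rw [gwTriAux_diag_mul A B hA.1 hB.1 i, hA.2 i, hB.2 i, mul_one]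

/-- The recursively defined gluing matrices of a chain. -/
noncomputable def gsExAux_Mn {R : Type*} [CommRing R] {r : ℕ} (n : ℕ)
    (p : Fin (n + 1) → Matrix (Fin r) (Fin r) R) (qi : Fin (n + 2) → Matrix (Fin r) (Fin r) R) :
    ℕ → Matrix (Fin r) (Fin r) R
  | 0 => 1
  | k + 1 => gsExAux_Mn n p qi k * (if h : k < n + 1 then p ⟨k, h⟩ else 1) *
      (if h : k + 1 < n + 2 then qi ⟨k + 1, h⟩ else 1)

theorem gsExAux_Mn_zero {R : Type*} [CommRing R] {r : ℕ} (n : ℕ)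
    (p : Fin (n + 1) → Matrix (Fin r) (Fin r) R) (qi : Fin (n + 2) → Matrix (Fin r) (Fin r) R) :
    gsExAux_Mn n p qi 0 = 1 := rfl

theorem gsExAux_Mn_succ {R : Type*} [CommRing R] {r : ℕ} (n : ℕ)
    (p : Fin (n + 1) → Matrix (Fin r) (Fin r) R) (qi : Fin (n + 2) → Matrix (Fin r) (Fin r) R)
    (k : ℕ) :
    gsExAux_Mn n p qi (k + 1) = gsExAux_Mn n p qi k * (if h : k < n + 1 then p ⟨k, h⟩ else 1) *
      (if h : k + 1 < n + 2 then qi ⟨k + 1, h⟩ else 1) := rfl

theorem gsExAux_Mn_up {R : Type*} [CommRing R] {r : ℕ} (n : ℕ)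
    (p : Fin (n + 1) → Matrix (Fin r) (Fin r) R) (qi : Fin (n + 2) → Matrix (Fin r) (Fin r) R)
    (hp : ∀ j, (p j).IsUpperTriangular ∧ ∀ i, p j i i = 1)
    (hqi : ∀ j, (qi j).IsUpperTriangular ∧ ∀ i, qi j i i = 1) (k : ℕ) :
    (gsExAux_Mn n p qi k).IsUpperTriangular ∧ ∀ i, gsExAux_Mn n p qi k i i = 1 := by
  induction k with
  | zero =>
    rw [gsExAux_Mn_zero]
    exact gsExAux_up_one
  | succ k ih =>
    rw [gsExAux_Mn_succ]
    apply gsExAux_up_mul
    · apply gsExAux_up_mul _ _ ih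
      by_cases h : k < n + 1
      · rw [dif_pos h]
        exact hp _
      · rw [dif_neg h]
        exact gsExAux_up_one
    · by_cases h : k + 1 < n + 2
      · rw [dif_pos h]
        exact hqi _
      · rw [dif_neg h]
        exact gsExAux_up_one

theorem gsIsPt_exists {R : Type*} [CommRing R] {n r : ℕ} (a c : Fin r → Rˣ)
    (b : Fin (n + 1) → Fin r → Rˣ) (hac : ∏ i, a i = ∏ i, c i) (hb : ∀ j, ∏ i, b j i = 1)
    (s : GsIdx n r → Rˣ) :
    ∃ (A : Matrix (Fin r) (Fin r) R) (B : Fin (n + 1) → Matrix (Fin r) (Fin r) R),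
      gsIsPt a c b s A B := by
  have hex : ∀ j : Fin (n + 1), ∃ l p q l' : Matrix (Fin r) (Fin r) R,
      gwCell (fun i => (b j i : R)) (fun i => (gsE a c s j i : R)) l p q l' ∧
      ∀ δ i k : ℕ, δ ≤ 1 → 1 ≤ k → i + δ + k ≤ r → ¬ (δ = 0 ∧ (i = 0 ∨ i + k = r)) →
        gwMinor (l * p) i (i + δ) k = (gwFr r (fun w => s (Sum.inl (j, w))) δ i k : R) :=
    fun j => gw_cell_exists r (b j) (gsE a c s j) (by rw [hb j, gsE_prod a c hac s j])
      (gwFr r (fun w => s (Sum.inl (j, w))))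
  choose l p q0 l' hcell hfr using hex
  -- the family q, completed by the identity at the last index
  obtain ⟨q, hqdef⟩ : ∃ q : Fin (n + 2) → Matrix (Fin r) (Fin r) R,
      q = fun j : Fin (n + 2) => if h : j.val < n + 1 then q0 ⟨j.val, h⟩ else 1 := ⟨_, rfl⟩
  have hqc : ∀ j : Fin (n + 1), q j.castSucc = q0 j := by
    intro j
    rw [hqdef]
    have h : (j.castSucc : Fin (n + 2)).val < n + 1 := j.isLt
    simp only [dif_pos h]
    rfl
  have hql : q (Fin.last (n + 1)) = 1 := by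
    rw [hqdef]
    have h : ¬ (Fin.last (n + 1)).val < n + 1 := by
      rw [Fin.val_last]
      exact lt_irrefl _
    simp only [dif_neg h]
  have hqU : ∀ j, (q j).IsUpperTriangular ∧ ∀ i, q j i i = 1 := by
    intro j
    by_cases h : j.val < n + 1
    · have e : q j = q0 ⟨j.val, h⟩ := by
        rw [hqdef]
        simp only [dif_pos h]
      rw [e]
      exact ⟨(hcell _).2.2.2.2.1, (hcell _).2.2.2.2.2.1⟩
    · have e : q j = 1 := by
        rw [hqdef]
        simp only [dif_neg h]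
      rw [e]
      exact gsExAux_up_one
  have hqiex : ∀ j, ∃ qi : Matrix (Fin r) (Fin r) R, qi.IsUpperTriangular ∧ (∀ i, qi i i = 1) ∧
      q j * qi = 1 ∧ qi * q j = 1 := fun j => gw_upU_inv r (q j) (hqU j).1 (hqU j).2
  choose qi hqiU hqi1 hqR hqL using hqiex
  -- the gluing matrices
  obtain ⟨M, hMdef⟩ : ∃ M : Fin (n + 2) → Matrix (Fin r) (Fin r) R,
      M = fun j : Fin (n + 2) => gsExAux_Mn n p qi j.val := ⟨_, rfl⟩
  have hM0 : M 0 = 1 := by
    rw [hMdef]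
    exact gsExAux_Mn_zero n p qi
  have hMs : ∀ j : Fin (n + 1), M j.succ = M j.castSucc * p j * qi j.succ := by
    intro j
    rw [hMdef]
    show gsExAux_Mn n p qi (j.val + 1) = gsExAux_Mn n p qi j.val * p j * qi j.succ
    rw [gsExAux_Mn_succ, dif_pos j.isLt, dif_pos (Nat.succ_lt_succ j.isLt)]
    rfl
  have hMU : ∀ j, (M j).IsUpperTriangular ∧ ∀ i, M j i i = 1 := by
    intro j
    rw [hMdef]
    exact gsExAux_Mn_up n p qi (fun j => ⟨(hcell j).2.2.1, (hcell j).2.2.2.1⟩)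
      (fun j => ⟨hqiU j, hqi1 j⟩) j.val
  have hMiex : ∀ j, ∃ Mi : Matrix (Fin r) (Fin r) R, Mi.IsUpperTriangular ∧ (∀ i, Mi i i = 1) ∧
      M j * Mi = 1 ∧ Mi * M j = 1 := fun j => gw_upU_inv r (M j) (hMU j).1 (hMU j).2
  choose Mi hMiU hMi1 hMMi hMiM using hMiex
  refine ⟨M (Fin.last (n + 1)) * Matrix.diagonal (fun i => (a i : R)) * qi 0,
    fun j => M j.castSucc * l j * Mi j.castSucc, l, p, l', q, qi, M, Mi, ?_, hfr, hql,
    fun j => ⟨hqR j, hqL j⟩, hM0, hMs, fun j => ⟨hMMi j, hMiM j⟩, rfl, fun j => rfl⟩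
  intro j
  rw [hqc j]
  exact hcell j

end Vale.Agent.Lib.P002
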