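import Vale.Agent.Lib.P002.GSDefs
import Vale.Agent.Lib.P002.GSRot

/-!
# Chart points are mapped to chart points by ring homomorphisms
-/

open Matrix

namespace Vale.Agent.Lib.P002

theorem gsIsPt.map {R S : Type*} [CommRing R] [CommRing S] (f : R →+* S) {n r : ℕ}
    {a c : Fin r → Rˣ} {b : Fin (n + 1) → Fin r → Rˣ} {s : GsIdx n r → Rˣ}
    {A : Matrix (Fin r) (Fin r) R} {B : Fin (n + 1) → Matrix (Fin r) (Fin r) R}
    (h : gsIsPt a c b s A B) :
    gsIsPt (fun i => Units.map (f : R →* S) (a i)) (fun i => Units.map (f : R →* S) (c i))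
      (fun j i => Units.map (f : R →* S) (b j i)) (fun w => Units.map (f : R →* S) (s w))
      (A.map f) (fun j => (B j).map f) := by
  obtain ⟨l, p, l', q, qi, M, Mi, hcell, hfr, hq, hqi, hM0, hMs, hMi, hA, hB⟩ := h
  refine ⟨fun j => (l j).map f, fun j => (p j).map f, fun j => (l' j).map f,
    fun j => (q j).map f, fun j => (qi j).map f, fun j => (M j).map f, fun j => (Mi j).map f,
    ?_, ?_, ?_, ?_, ?_, ?_, ?_, ?_, ?_⟩
  · intro j
    have hm := (hcell j).map f
    have e1 : (fun i => f ((b j i : Rˣ) : R))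
        = fun i => ((Units.map (f : R →* S) (b j i) : Sˣ) : S) := rfl
    have e2 : (fun i => f ((gsE a c s j i : Rˣ) : R)) = fun i =>
        ((gsE (fun i => Units.map (f : R →* S) (a i)) (fun i => Units.map (f : R →* S) (c i))
          (fun w => Units.map (f : R →* S) (s w)) j i : Sˣ) : S) := by
      ext i
      rw [← gsE_map]
      rfl
    rw [e1, e2] at hm
    exact hm
  · intro j δ i k hδ hk hr hn
    show gwMinor ((l j).map f * (p j).map f) i (i + δ) k = _
    rw [← Matrix.map_mul, gwMinor_map, hfr j δ i k hδ hk hr hn, gwFr_map]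
  · show (q (Fin.last (n + 1))).map f = 1
    rw [hq, Matrix.map_one _ f.map_zero f.map_one]
  · intro j
    constructor
    · show (q j).map f * (qi j).map f = 1
      rw [← Matrix.map_mul, (hqi j).1, Matrix.map_one _ f.map_zero f.map_one]
    · show (qi j).map f * (q j).map f = 1
      rw [← Matrix.map_mul, (hqi j).2, Matrix.map_one _ f.map_zero f.map_one]
  · show (M 0).map f = 1
    rw [hM0, Matrix.map_one _ f.map_zero f.map_one]
  · intro j
    show (M j.succ).map f = (M j.castSucc).map f * (p j).map f * (qi j.succ).map f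
    rw [hMs j, Matrix.map_mul, Matrix.map_mul]
  · intro j
    constructor
    · show (M j).map f * (Mi j).map f = 1
      rw [← Matrix.map_mul, (hMi j).1, Matrix.map_one _ f.map_zero f.map_one]
    · show (Mi j).map f * (M j).map f = 1
      rw [← Matrix.map_mul, (hMi j).2, Matrix.map_one _ f.map_zero f.map_one]
  · show A.map f = (M (Fin.last (n + 1))).map f
        * Matrix.diagonal (fun i => ((Units.map (f : R →* S) (a i) : Sˣ) : S)) * (qi 0).map f
    rw [hA, Matrix.map_mul, Matrix.map_mul, Matrix.diagonal_map f.map_zero]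
    rfl
  · intro j
    show (B j).map f = (M j.castSucc).map f * (l j).map f * (Mi j.castSucc).map f
    rw [hB j, Matrix.map_mul, Matrix.map_mul]

end Vale.Agent.Lib.P002
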