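import Vale.Agent.Lib.P002.GSDefs
import Vale.Agent.Lib.P002.GSTele
import Vale.Agent.Lib.P002.GWTri

/-!
# Solving the chart relations for `A` and `K`
-/

open Matrix

namespace Vale.Agent.Lib.P002

/-- A matrix which is both upper and lower triangular is diagonal. -/
theorem gsSolveAux_diag_of_up_low {r : ℕ} (D : Matrix (Fin r) (Fin r) ℂ)
    (hu : D.IsUpperTriangular) (hl : D.IsLowerTriangular) :
    D = Matrix.diagonal (fun i => D i i) := by
  ext i j
  rcases lt_trichotomy i j with h | h | h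
  · have h0 : D i j = 0 := hl (OrderDual.toDual_lt_toDual.mpr h)
    rw [h0, Matrix.diagonal_apply_ne _ h.ne]
  · rw [h, Matrix.diagonal_apply_eq]
  · have h0 : D i j = 0 := hu h
    rw [h0, Matrix.diagonal_apply_ne _ h.ne']

theorem gs_solve {n r : ℕ} (A : Matrix (Fin r) (Fin r) ℂ)
    (B l p l' : Fin (n + 1) → Matrix (Fin r) (Fin r) ℂ)
    (q M : Fin (n + 2) → Matrix (Fin r) (Fin r) ℂ) (K : Matrix (Fin r) (Fin r) ℂ)
    (hc : ∀ j, (l j).IsLowerTriangular ∧ (p j).IsUpperTriangular ∧ (∀ i, p j i i = 1) ∧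
      (q j.castSucc).IsUpperTriangular ∧ (∀ i, q j.castSucc i i = 1) ∧
      (l' j).IsLowerTriangular ∧ l j * p j = q j.castSucc * l' j)
    (hq : q (Fin.last (n + 1)) = 1) (hM0 : M 0 = 1)
    (hM : ∀ j : Fin (n + 1), M j.succ * q j.succ = M j.castSucc * p j)
    (hB : ∀ j : Fin (n + 1), B j * M j.castSucc = M j.castSucc * l j)
    (hA : A.IsUpperTriangular) (hK : K.IsLowerTriangular)
    (hrel : A * (List.ofFn B).prod * M (Fin.last (n + 1)) = M (Fin.last (n + 1)) * K)
    (hd : ∀ j i, l' j i i ≠ 0) :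
    A * q 0 = M (Fin.last (n + 1)) * Matrix.diagonal (fun i => A i i) ∧
      K = Matrix.diagonal (fun i => A i i) * (List.ofFn l').prod ∧
      ∀ i, K i i = A i i * ∏ j, l' j i i := by
  obtain ⟨hΛlow, hΛdiag⟩ := gs_low_prod (n + 1) l' (fun j => (hc j).2.2.2.2.2.1)
  have hΛunit : ∀ i, IsUnit ((List.ofFn l').prod i i) := by
    intro i
    rw [hΛdiag i, isUnit_iff_ne_zero]
    exact Finset.prod_ne_zero_iff.mpr (fun j _ => hd j i)
  have hdet : IsUnit (List.ofFn l').prod.det := gwTriAux_det_unit _ hΛlow hΛunit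
  have hinv : Invertible (List.ofFn l').prod := Matrix.invertibleOfIsUnitDet _ hdet
  have hΛi : ((List.ofFn l').prod)⁻¹.IsLowerTriangular :=
    Matrix.blockTriangular_inv_of_blockTriangular hΛlow
  have htele := gs_tele (n + 1) B l p l' q M (fun j => (hc j).2.2.2.2.2.2) hM hB
  rw [hq, hM0, Matrix.mul_one, Matrix.one_mul] at htele
  have hrel' : A * q 0 * (List.ofFn l').prod = M (Fin.last (n + 1)) * K := by
    calc A * q 0 * (List.ofFn l').prod = A * (q 0 * (List.ofFn l').prod) :=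
          Matrix.mul_assoc _ _ _
      _ = A * ((List.ofFn B).prod * M (Fin.last (n + 1))) := by rw [htele]
      _ = A * (List.ofFn B).prod * M (Fin.last (n + 1)) := (Matrix.mul_assoc _ _ _).symm
      _ = M (Fin.last (n + 1)) * K := hrel
  have hq_all : ∀ j : Fin (n + 1 + 1), (q j).IsUpperTriangular ∧ ∀ i, q j i i = 1 := by
    intro j
    refine Fin.lastCases ?_ (fun j' => ?_) j
    · rw [hq]
      exact ⟨Matrix.blockTriangular_one, fun i => Matrix.one_apply_eq i⟩
    · exact ⟨(hc j').2.2.2.1, (hc j').2.2.2.2.1⟩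
  have hMup := gs_M_up (n + 1) p q M (fun j => ⟨(hc j).2.1, (hc j).2.2.1⟩) hq_all hM0 hM
  obtain ⟨hMLup, hML1⟩ := hMup (Fin.last (n + 1))
  obtain ⟨Mi, hMiup, hMi1, hMMi, hMiM⟩ := gw_upU_inv r _ hMLup hML1
  obtain ⟨hq0up, hq01⟩ := hq_all 0
  have hAq : (A * q 0).IsUpperTriangular := hA.mul hq0up
  have hDup : (Mi * (A * q 0)).IsUpperTriangular := hMiup.mul hAq
  have hDK : Mi * (A * q 0) * (List.ofFn l').prod = K := by
    calc Mi * (A * q 0) * (List.ofFn l').prod = Mi * (A * q 0 * (List.ofFn l').prod) :=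
          Matrix.mul_assoc _ _ _
      _ = Mi * (M (Fin.last (n + 1)) * K) := by rw [hrel']
      _ = Mi * M (Fin.last (n + 1)) * K := (Matrix.mul_assoc _ _ _).symm
      _ = K := by rw [hMiM, Matrix.one_mul]
  have hDlow : (Mi * (A * q 0)).IsLowerTriangular := by
    have e : Mi * (A * q 0) = K * ((List.ofFn l').prod)⁻¹ := by
      rw [← hDK, Matrix.mul_nonsing_inv_cancel_right _ _ hdet]
    rw [e]
    exact hK.mul hΛi
  have hDdiag : ∀ i, (Mi * (A * q 0)) i i = A i i := by
    intro i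
    rw [gwTriAux_diag_mul Mi (A * q 0) hMiup hAq i, gwTriAux_diag_mul A (q 0) hA hq0up i,
      hMi1, hq01, one_mul, mul_one]
  have hD : Mi * (A * q 0) = Matrix.diagonal (fun i => A i i) := by
    calc Mi * (A * q 0) = Matrix.diagonal (fun i => (Mi * (A * q 0)) i i) :=
          gsSolveAux_diag_of_up_low _ hDup hDlow
      _ = Matrix.diagonal (fun i => A i i) := by rw [funext hDdiag]
  have hKeq : K = Matrix.diagonal (fun i => A i i) * (List.ofFn l').prod := by
    rw [← hD, hDK]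
  refine ⟨?_, hKeq, ?_⟩
  · calc A * q 0 = (M (Fin.last (n + 1)) * Mi) * (A * q 0) := by rw [hMMi, Matrix.one_mul]
      _ = M (Fin.last (n + 1)) * (Mi * (A * q 0)) := Matrix.mul_assoc _ _ _
      _ = M (Fin.last (n + 1)) * Matrix.diagonal (fun i => A i i) := by rw [hD]
  · intro i
    have h1 : K i i = (Matrix.diagonal (fun i => A i i) * (List.ofFn l').prod) i i := by
      rw [← hKeq]
    rw [h1, Matrix.diagonal_mul, hΛdiag i]

end Vale.Agent.Lib.P002
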