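import Vale.Agent.Lib.P002.GSDefs
import Vale.Agent.Lib.P002.GSRot
import Vale.Agent.Lib.P002.GSTele
import Vale.Agent.Lib.P002.GSSolve
import Vale.Agent.Lib.P002.GWTri
import Vale.Agent.Lib.P002.GWLead

/-!
# Every point of the chart is a chart point in the sense of `gsIsPt`
-/

open Matrix

namespace Vale.Agent.Lib.P002

/-- The trailing diagonal of a cell has product one when the leading diagonal has. -/
theorem gsOfAux_prod_one {r : ℕ} (l p q l' : Matrix (Fin r) (Fin r) ℂ)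
    (hl : l.IsLowerTriangular) (hp : p.IsUpperTriangular) (hp1 : ∀ i, p i i = 1)
    (hq : q.IsUpperTriangular) (hq1 : ∀ i, q i i = 1) (hl' : l'.IsLowerTriangular)
    (h : l * p = q * l') (hb : ∏ i, l i i = 1) : ∏ i, l' i i = 1 := by
  have h1 : (l * p).det = 1 := by
    rw [Matrix.det_mul, Matrix.det_of_isLowerTriangular l hl, Matrix.det_of_isUpperTriangular hp,
      hb, one_mul]
    exact Finset.prod_eq_one (fun i _ => hp1 i)
  have h2 : (q * l').det = ∏ i, l' i i := by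
    rw [Matrix.det_mul, Matrix.det_of_isLowerTriangular l' hl', Matrix.det_of_isUpperTriangular hq]
    rw [Finset.prod_eq_one (fun i _ => hq1 i), one_mul]
  rw [← h2, ← h, h1]

/-- A factor of a product equal to one is not zero. -/
theorem gsOfAux_ne_zero {r : ℕ} (d : Fin r → ℂ) (h : ∏ i, d i = 1) (i : Fin r) : d i ≠ 0 := by
  intro h0
  have : ∏ i, d i = 0 := Finset.prod_eq_zero (Finset.mem_univ i) h0
  rw [h] at this
  exact one_ne_zero this

/-- Cancelling a two-sided inverse on the right. -/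
theorem gsOfAux_cancel {r : ℕ} (X Y q qi : Matrix (Fin r) (Fin r) ℂ) (h : X * q = Y)
    (hq : q * qi = 1) : X = Y * qi := by
  rw [← h, mul_assoc, hq, mul_one]

theorem gsIsPt_of_chartO {n r : ℕ} (a c : Fin r → ℂˣ) (b : Fin (n + 1) → Fin r → ℂˣ)
    (hac : ∏ i, a i = ∏ i, c i) (hb : ∀ j, ∏ i, b j i = 1)
    (A : Matrix (Fin r) (Fin r) ℂ) (B : Fin (n + 1) → Matrix (Fin r) (Fin r) ℂ)
    (h : gsChartO (fun i => (a i : ℂ)) (fun i => (c i : ℂ)) (fun j i => (b j i : ℂ)) A B) :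
    ∃ s : GsIdx n r → ℂˣ, gsIsPt a c b s A B := by
  classical
  have _ := hac
  obtain ⟨l, p, l', q, M, K, hc, hq, hM0, hM, hB, hA, hK, hrel, hAd0, hld0, hKd0, hw⟩ := h
  have hAd : ∀ i, A i i = (a i : ℂ) := hAd0
  have hld : ∀ j i, l j i i = (b j i : ℂ) := hld0
  have hKd : ∀ i, K i i = (c i : ℂ) := hKd0
  -- the trailing diagonals have product one
  have hprod : ∀ j, ∏ i, l' j i i = 1 := by
    intro j
    obtain ⟨c1, c2, c3, c4, c5, c6, c7⟩ := hc j
    refine gsOfAux_prod_one (l j) (p j) (q j.castSucc) (l' j) c1 c2 c3 c4 c5 c6 c7 ?_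
    have : ∏ i, l j i i = ((∏ i, b j i : ℂˣ) : ℂ) := by
      rw [Units.coe_prod]
      exact Finset.prod_congr rfl (fun i _ => hld j i)
    rw [this, hb j]
    rfl
  have hne : ∀ j i, l' j i i ≠ 0 := fun j i => gsOfAux_ne_zero (fun i => l' j i i) (hprod j) i
  obtain ⟨hAq, -, hKdiag⟩ := gs_solve A B l p l' q M K hc hq hM0 hM hB hA hK hrel hne
  -- the trailing diagonals as units
  set e : Fin (n + 1) → Fin r → ℂˣ := fun j i => Units.mk0 (l' j i i) (hne j i) with he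
  have he1 : ∀ j, ∏ i, e j i = 1 := by
    intro j
    apply Units.ext
    rw [Units.coe_prod]
    simp only [he, Units.val_mk0, Units.val_one]
    exact hprod j
  have hed : ∀ i, a i * ∏ j, e j i = c i := by
    intro i
    apply Units.ext
    rw [Units.val_mul, Units.coe_prod]
    simp only [he, Units.val_mk0]
    rw [← hAd i, ← hKdiag i, hKd i]
  -- the wall minors as units
  set s₀ : GsIdx n r → ℂˣ := Sum.elim
    (fun x => if hx : gwMinor (l x.1 * p x.1) x.2.2.1 (x.2.2.1 + x.2.1) x.2.2.2 ≠ 0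
      then Units.mk0 _ hx else 1) (fun _ => 1) with hs₀
  obtain ⟨s, hs1, hs2⟩ := gsE_surj a c e he1 hed s₀
  -- all the matrices q j and M j are upper triangular with unit diagonal
  have hqU : ∀ j, (q j).IsUpperTriangular ∧ ∀ i, q j i i = 1 := by
    intro j
    rcases Fin.eq_castSucc_or_eq_last j with ⟨j', rfl⟩ | rfl
    · exact ⟨(hc j').2.2.2.1, (hc j').2.2.2.2.1⟩
    · rw [hq]
      exact ⟨Matrix.blockTriangular_one, fun i => Matrix.one_apply_eq i⟩
  have hpU : ∀ j, (p j).IsUpperTriangular ∧ ∀ i, p j i i = 1 :=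
    fun j => ⟨(hc j).2.1, (hc j).2.2.1⟩
  have hMU := gs_M_up (n + 1) p q M hpU hqU hM0 hM
  have hqi : ∀ j, ∃ qi : Matrix (Fin r) (Fin r) ℂ, q j * qi = 1 ∧ qi * q j = 1 := by
    intro j
    obtain ⟨qi, -, -, g1, g2⟩ := gw_upU_inv r (q j) (hqU j).1 (hqU j).2
    exact ⟨qi, g1, g2⟩
  have hMi : ∀ j, ∃ Mi : Matrix (Fin r) (Fin r) ℂ, M j * Mi = 1 ∧ Mi * M j = 1 := by
    intro j
    obtain ⟨Mi, -, -, g1, g2⟩ := gw_upU_inv r (M j) (hMU j).1 (hMU j).2
    exact ⟨Mi, g1, g2⟩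
  choose qi hqi1 using hqi
  choose Mi hMi1 using hMi
  refine ⟨s, l, p, l', q, qi, M, Mi, ?_, ?_, hq, hqi1, hM0, ?_, hMi1, ?_, ?_⟩
  · intro j
    obtain ⟨c1, c2, c3, c4, c5, c6, c7⟩ := hc j
    refine ⟨c1, fun i => hld j i, c2, c3, c4, c5, c6, fun i => ?_, c7⟩
    rw [hs2]
    rfl
  · intro j δ i k hδ hk hr _
    have hcnd : δ < 2 ∧ i < r ∧ k < r + 1 := ⟨by omega, by omega, by omega⟩
    unfold gwFr
    simp only [dif_pos hcnd]
    rw [hs1, hs₀]
    simp only [Sum.elim_inl]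
    rw [dif_pos (hw j δ i k hδ hk hr)]
    rfl
  · intro j
    exact gsOfAux_cancel _ _ _ _ (hM j) (hqi1 j.succ).1
  · have h1 := gsOfAux_cancel _ _ _ _ hAq (hqi1 0).1
    rw [h1]
    have : (fun i => A i i) = fun i => (a i : ℂ) := funext hAd
    rw [this]
  · intro j
    exact gsOfAux_cancel _ _ _ _ (hB j) (hMi1 j.castSucc).1

end Vale.Agent.Lib.P002
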