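import Vale.Agent.Lib.P002.GSDefs
import Vale.Agent.Lib.P002.GWCellU

/-!
# Uniqueness of the chart point with given parameters
-/

open Matrix

namespace Vale.Agent.Lib.P002

/-- A two-sided inverse of a matrix is unique. -/
theorem gsUnAux_inv_unique {R : Type*} [CommRing R] {r : ℕ}
    {q qi qi₂ : Matrix (Fin r) (Fin r) R} (h : qi * q = 1) (h₂ : q * qi₂ = 1) : qi = qi₂ := by
  calc qi = qi * (q * qi₂) := by rw [h₂, mul_one]
    _ = (qi * q) * qi₂ := by rw [mul_assoc]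
    _ = qi₂ := by rw [h, one_mul]

theorem gsIsPt_unique {R : Type*} [CommRing R] {n r : ℕ} (a c : Fin r → Rˣ)
    (b : Fin (n + 1) → Fin r → Rˣ) (s : GsIdx n r → Rˣ)
    {A A' : Matrix (Fin r) (Fin r) R} {B B' : Fin (n + 1) → Matrix (Fin r) (Fin r) R}
    (h : gsIsPt a c b s A B) (h' : gsIsPt a c b s A' B') : A = A' ∧ B = B' := by
  obtain ⟨l, p, l', q, qi, M, Mi, hcell, hfr, hqlast, hqi, hM0, hMs, hMi, hA, hB⟩ := h
  obtain ⟨l₂, p₂, l₂', q₂, qi₂, M₂, Mi₂, hcell₂, hfr₂, hqlast₂, hqi₂, hM0₂, hMs₂, hMi₂, hA',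
    hB'⟩ := h'
  have hc : ∀ j, l j = l₂ j ∧ p j = p₂ j ∧ q j.castSucc = q₂ j.castSucc ∧ l' j = l₂' j := by
    intro j
    exact gw_cell_unique r _ _ (fun i => (b j i).isUnit) (fun i => Units.isUnit _)
      (l j) (p j) (q j.castSucc) (l' j) (l₂ j) (p₂ j) (q₂ j.castSucc) (l₂' j)
      (hcell j) (hcell₂ j)
      (fun δ i k hδ hk hr hn => by
        rw [hfr j δ i k hδ hk hr hn]
        exact Units.isUnit _)
      (fun δ i k hδ hk hr hn => by
        rw [hfr j δ i k hδ hk hr hn, hfr₂ j δ i k hδ hk hr hn])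
  have hl : l = l₂ := funext fun j => (hc j).1
  have hp : p = p₂ := funext fun j => (hc j).2.1
  have hq : q = q₂ := by
    funext j
    refine Fin.lastCases ?_ (fun j => ?_) j
    · rw [hqlast, hqlast₂]
    · exact (hc j).2.2.1
  subst hl hp hq
  have hqi' : qi = qi₂ := funext fun j => gsUnAux_inv_unique (hqi j).2 (hqi₂ j).1
  subst hqi'
  have hM : M = M₂ := by
    funext j
    induction j using Fin.induction with
    | zero => rw [hM0, hM0₂]
    | succ j ih => rw [hMs j, hMs₂ j, ih]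
  subst hM
  have hMi' : Mi = Mi₂ := funext fun j => gsUnAux_inv_unique (hMi j).2 (hMi₂ j).1
  subst hMi'
  refine ⟨hA.trans hA'.symm, ?_⟩
  funext j
  rw [hB j, hB' j]

end Vale.Agent.Lib.P002
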