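import Vale.Agent.Lib.P002.GSDefs
import Vale.Agent.Lib.P002.GSExist
import Vale.Agent.Lib.P002.GSUnique
import Vale.Agent.Lib.P002.GSMap
import Vale.Agent.Lib.P002.GSChart
import Vale.Agent.Lib.P002.GSOfChart
import Vale.Agent.Lib.P002.GWLaur

/-!
# Core density statement for the wall chart of a sphere with any number of punctures
-/

open Matrix

namespace Vale.Agent.Lib.P002

/-- The point of the affine space of tuples of matrices given by `(A, B 0, …, B n)`. -/
def gsPt {n r : ℕ} (A : Matrix (Fin r) (Fin r) ℂ) (B : Fin (n + 1) → Matrix (Fin r) (Fin r) ℂ) :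
    Fin (n + 2) × Fin r × Fin r → ℂ :=
  fun x => (Fin.cons A B : Fin (n + 2) → Matrix (Fin r) (Fin r) ℂ) x.1 x.2.1 x.2.2

/-- **Core density statement.** If a polynomial vanishes at all chart points with entries in the
subring `O` (which contains the diagonal data, their inverses, and an infinite set `U` of units
with their inverses), then it vanishes at every chart point. -/
theorem gs_core (n r : ℕ) (a c : Fin r → ℂˣ) (b : Fin (n + 1) → Fin r → ℂˣ)
    (hac : ∏ i, a i = ∏ i, c i) (hb : ∀ j, ∏ i, b j i = 1)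
    (O : Subring ℂ) (haO : ∀ i, ((a i : ℂˣ) : ℂ) ∈ O ∧ (((a i)⁻¹ : ℂˣ) : ℂ) ∈ O)
    (hcO : ∀ i, ((c i : ℂˣ) : ℂ) ∈ O ∧ (((c i)⁻¹ : ℂˣ) : ℂ) ∈ O)
    (hbO : ∀ j i, ((b j i : ℂˣ) : ℂ) ∈ O ∧ (((b j i)⁻¹ : ℂˣ) : ℂ) ∈ O)
    (U : Set ℂˣ) (hU : U.Infinite) (hUO : ∀ u ∈ U, (u : ℂ) ∈ O ∧ ((u⁻¹ : ℂˣ) : ℂ) ∈ O)
    (F : MvPolynomial (Fin (n + 2) × Fin r × Fin r) ℂ)
    (H : ∀ (A : Matrix (Fin r) (Fin r) ℂ) (B : Fin (n + 1) → Matrix (Fin r) (Fin r) ℂ),
      gsChartO (fun i => (a i : ℂ)) (fun i => (c i : ℂ)) (fun j i => (b j i : ℂ)) A B →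
      (∀ i j, A i j ∈ O) → (∀ t i j, B t i j ∈ O) → MvPolynomial.eval (gsPt A B) F = 0)
    (A : Matrix (Fin r) (Fin r) ℂ) (B : Fin (n + 1) → Matrix (Fin r) (Fin r) ℂ)
    (h : gsChartO (fun i => (a i : ℂ)) (fun i => (c i : ℂ)) (fun j i => (b j i : ℂ)) A B) :
    MvPolynomial.eval (gsPt A B) F = 0 := by
  classical
  -- integrality of chart points with unit parameters
  have key_int : ∀ s : GsIdx n r → ℂˣ, (∀ w, s w ∈ U) →
      ∀ (A : Matrix (Fin r) (Fin r) ℂ) (B : Fin (n + 1) → Matrix (Fin r) (Fin r) ℂ),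
        gsIsPt a c b s A B → (∀ i j, A i j ∈ O) ∧ (∀ t i j, B t i j ∈ O) := by
    intro s hs A B hpt
    let lift : ∀ x : ℂˣ, (x : ℂ) ∈ O → ((x⁻¹ : ℂˣ) : ℂ) ∈ O → (↥O)ˣ := fun x h1 h2 =>
      ⟨⟨x, h1⟩, ⟨_, h2⟩, by ext; simp, by ext; simp⟩
    have hlift : ∀ (x : ℂˣ) (h1 : (x : ℂ) ∈ O) (h2 : ((x⁻¹ : ℂˣ) : ℂ) ∈ O),
        Units.map (O.subtype : ↥O →* ℂ) (lift x h1 h2) = x := by
      intro x h1 h2
      ext
      rfl
    let aO : Fin r → (↥O)ˣ := fun i => lift (a i) (haO i).1 (haO i).2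
    let cO : Fin r → (↥O)ˣ := fun i => lift (c i) (hcO i).1 (hcO i).2
    let bO : Fin (n + 1) → Fin r → (↥O)ˣ := fun j i => lift (b j i) (hbO j i).1 (hbO j i).2
    let sO : GsIdx n r → (↥O)ˣ := fun w => lift (s w) (hUO _ (hs w)).1 (hUO _ (hs w)).2
    have hacO : ∏ i, aO i = ∏ i, cO i := by
      apply Units.map_injective (f := (O.subtype : ↥O →* ℂ)) Subtype.val_injective
      rw [map_prod, map_prod]
      simp only [aO, cO, hlift]
      exact hac
    have hbO' : ∀ j, ∏ i, bO j i = 1 := by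
      intro j
      apply Units.map_injective (f := (O.subtype : ↥O →* ℂ)) Subtype.val_injective
      rw [map_prod, map_one]
      simp only [bO, hlift]
      exact hb j
    obtain ⟨A0, B0, hpt0⟩ := gsIsPt_exists aO cO bO hacO hbO' sO
    have hm := hpt0.map O.subtype
    have ea : (fun i => Units.map (O.subtype : ↥O →* ℂ) (aO i)) = a := by
      ext i
      rfl
    have ec : (fun i => Units.map (O.subtype : ↥O →* ℂ) (cO i)) = c := by
      ext i
      rfl
    have eb : (fun j i => Units.map (O.subtype : ↥O →* ℂ) (bO j i)) = b := by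
      ext j i
      rfl
    have es : (fun w => Units.map (O.subtype : ↥O →* ℂ) (sO w)) = s := by
      ext w
      rfl
    rw [ea, ec, eb, es] at hm
    obtain ⟨e1, e2⟩ := gsIsPt_unique a c b s hpt hm
    rw [e1, e2]
    exact ⟨fun i j => (A0 i j).2, fun t i j => (B0 t i j).2⟩
  -- Laurent dependence on each parameter
  have key_laur : ∀ (s : GsIdx n r → ℂˣ) (v : GsIdx n r),
      ∃ (P : ℂˣ → Matrix (Fin r) (Fin r) ℂ) (Q : ℂˣ → Fin (n + 1) → Matrix (Fin r) (Fin r) ℂ),
        (∀ i j, IsLaurent (fun u => P u i j)) ∧ (∀ t i j, IsLaurent (fun u => Q u t i j)) ∧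
        ∀ u, gsIsPt a c b (Function.update s v u) (P u) (Q u) := by
    intro s v
    let cU : ℂˣ →* gwLaurˣ := Units.map (gwConst : ℂ →* gwLaur)
    have hacL : ∏ i, cU (a i) = ∏ i, cU (c i) := by
      rw [← map_prod, ← map_prod, hac]
    have hbL : ∀ j, ∏ i, cU (b j i) = 1 := by
      intro j
      rw [← map_prod, hb j, map_one]
    obtain ⟨A0, B0, hpt0⟩ := gsIsPt_exists (fun i => cU (a i)) (fun i => cU (c i))
      (fun j i => cU (b j i)) hacL hbL (fun w => if w = v then gwT else cU (s w))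
    refine ⟨fun u => A0.map (gwEv u), fun u t => (B0 t).map (gwEv u),
      fun i j => gwLaur_isLaurent (A0 i j), fun t i j => gwLaur_isLaurent (B0 t i j),
      fun u => ?_⟩
    have hm := hpt0.map (gwEv u)
    have ea : (fun i => Units.map (gwEv u : gwLaur →* ℂ) (cU (a i))) = a := by
      ext i
      rfl
    have ec : (fun i => Units.map (gwEv u : gwLaur →* ℂ) (cU (c i))) = c := by
      ext i
      rfl
    have eb : (fun j i => Units.map (gwEv u : gwLaur →* ℂ) (cU (b j i))) = b := by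
      ext j i
      rfl
    have es : (fun w => Units.map (gwEv u : gwLaur →* ℂ) (if w = v then gwT else cU (s w)))
        = Function.update s v u := by
      ext w
      by_cases hwv : w = v
      · subst hwv
        rw [if_pos rfl, Function.update_self]
        rfl
      · rw [if_neg hwv, Function.update_of_ne hwv]
        rfl
    rw [ea, ec, eb, es] at hm
    exact hm
  -- the function on the parameter torus
  choose P Q hPQ using fun s => gsIsPt_exists a c b hac hb s
  have hG : ∀ (s : GsIdx n r → ℂˣ) (A : Matrix (Fin r) (Fin r) ℂ)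
      (B : Fin (n + 1) → Matrix (Fin r) (Fin r) ℂ), gsIsPt a c b s A B →
        MvPolynomial.eval (gsPt A B) F = MvPolynomial.eval (gsPt (P s) (Q s)) F := by
    intro s A B hpt
    obtain ⟨e1, e2⟩ := gsIsPt_unique a c b s hpt (hPQ s)
    rw [e1, e2]
  have hG0 : ∀ s : GsIdx n r → ℂˣ, MvPolynomial.eval (gsPt (P s) (Q s)) F = 0 := by
    apply eq_zero_of_grid (fun s => MvPolynomial.eval (gsPt (P s) (Q s)) F) ?_ U hU ?_
    · intro s v
      obtain ⟨P', Q', hP', hQ', hpt⟩ := key_laur s v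
      have e : (fun u => MvPolynomial.eval (gsPt (P (Function.update s v u))
          (Q (Function.update s v u))) F) = fun u => MvPolynomial.eval (gsPt (P' u) (Q' u)) F := by
        ext u
        exact (hG _ _ _ (hpt u)).symm
      rw [e]
      apply IsLaurent.eval_mvPolynomial
      rintro ⟨t, i, j⟩
      refine Fin.cases ?_ (fun t' => ?_) t
      · exact hP' i j
      · exact hQ' t' i j
    · intro s hs
      obtain ⟨i1, i2⟩ := key_int s hs _ _ (hPQ s)
      exact H _ _ (gsIsPt_chartO a c b s (hPQ s)) i1 i2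
  obtain ⟨s, hpt⟩ := gsIsPt_of_chartO a c b hac hb A B h
  rw [hG s A B hpt]
  exact hG0 s

end Vale.Agent.Lib.P002
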