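import Vale.Agent.Lib.P002.GWDefs
import Vale.Agent.Lib.P002.GWPants

/-!
# The wall chart for spheres with any number of punctures, arbitrary rank: definitions

The fundamental group of the sphere with `n + 3` punctures is free on the meridians
`γ_1, …, γ_{n+2}`, and the last meridian is `(γ_1 ⋯ γ_{n+2})⁻¹`.  A representation is given by
`A = ρ(γ_1)` and `B j = ρ(γ_{j+2})`, `j : Fin (n + 1)`.
-/

open Matrix Polynomial

namespace Vale.Agent.Lib.P002

/-- The wall chart of tuples `(A, B 0, …, B n)`.  There are upper triangular matrices `M j` with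
unit diagonal (`M 0 = 1`) and lower triangular matrices `l j` with `B j * M j = M j * l j`; `A` is
upper triangular; the product `A * B 0 * ⋯ * B n` is conjugated by the last `M` to a lower
triangular matrix `K`; the characteristic polynomials of `A`, of the `l j` (hence of the `B j`)
and of `K` (hence of the product) are the prescribed ones; and, with upper triangular matrices
`p j`, `q j` with unit diagonal such that `M (j+1) * q (j+1) = M j * p j` and the last `q` is `1`,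
each matrix `l j * p j` is of the form `q j * l' j` with `l' j` lower triangular and has
nonvanishing solid minors on the diagonal and the superdiagonal. -/
def gsChart {n r : ℕ} (a c : Fin r → ℂ) (b : Fin (n + 1) → Fin r → ℂ)
    (A : Matrix (Fin r) (Fin r) ℂ) (B : Fin (n + 1) → Matrix (Fin r) (Fin r) ℂ) : Prop :=
  ∃ (l p l' : Fin (n + 1) → Matrix (Fin r) (Fin r) ℂ)
    (q M : Fin (n + 2) → Matrix (Fin r) (Fin r) ℂ) (K : Matrix (Fin r) (Fin r) ℂ),
    (∀ j, (l j).IsLowerTriangular ∧ (p j).IsUpperTriangular ∧ (∀ i, p j i i = 1) ∧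
      (q j.castSucc).IsUpperTriangular ∧ (∀ i, q j.castSucc i i = 1) ∧
      (l' j).IsLowerTriangular ∧ l j * p j = q j.castSucc * l' j) ∧
    q (Fin.last (n + 1)) = 1 ∧ M 0 = 1 ∧
    (∀ j : Fin (n + 1), M j.succ * q j.succ = M j.castSucc * p j) ∧
    (∀ j : Fin (n + 1), B j * M j.castSucc = M j.castSucc * l j) ∧
    A.IsUpperTriangular ∧ K.IsLowerTriangular ∧
    A * (List.ofFn B).prod * M (Fin.last (n + 1)) = M (Fin.last (n + 1)) * K ∧
    A.charpoly = ∏ i, (X - C (a i)) ∧ (∀ j, (l j).charpoly = ∏ i, (X - C (b j i))) ∧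
    K.charpoly = ∏ i, (X - C (c i)) ∧
    ∀ (j : Fin (n + 1)) (δ i k : ℕ), δ ≤ 1 → 1 ≤ k → i + δ + k ≤ r →
      gwMinor (l j * p j) i (i + δ) k ≠ 0

/-- The same chart with prescribed diagonals (in a fixed order) instead of characteristic
polynomials. -/
def gsChartO {n r : ℕ} (a c : Fin r → ℂ) (b : Fin (n + 1) → Fin r → ℂ)
    (A : Matrix (Fin r) (Fin r) ℂ) (B : Fin (n + 1) → Matrix (Fin r) (Fin r) ℂ) : Prop :=
  ∃ (l p l' : Fin (n + 1) → Matrix (Fin r) (Fin r) ℂ)
    (q M : Fin (n + 2) → Matrix (Fin r) (Fin r) ℂ) (K : Matrix (Fin r) (Fin r) ℂ),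
    (∀ j, (l j).IsLowerTriangular ∧ (p j).IsUpperTriangular ∧ (∀ i, p j i i = 1) ∧
      (q j.castSucc).IsUpperTriangular ∧ (∀ i, q j.castSucc i i = 1) ∧
      (l' j).IsLowerTriangular ∧ l j * p j = q j.castSucc * l' j) ∧
    q (Fin.last (n + 1)) = 1 ∧ M 0 = 1 ∧
    (∀ j : Fin (n + 1), M j.succ * q j.succ = M j.castSucc * p j) ∧
    (∀ j : Fin (n + 1), B j * M j.castSucc = M j.castSucc * l j) ∧
    A.IsUpperTriangular ∧ K.IsLowerTriangular ∧
    A * (List.ofFn B).prod * M (Fin.last (n + 1)) = M (Fin.last (n + 1)) * K ∧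
    (∀ i, A i i = a i) ∧ (∀ j i, l j i i = b j i) ∧ (∀ i, K i i = c i) ∧
    ∀ (j : Fin (n + 1)) (δ i k : ℕ), δ ≤ 1 → 1 ≤ k → i + δ + k ≤ r →
      gwMinor (l j * p j) i (i + δ) k ≠ 0

/-- Index type of the parameters: free wall data of each cell, and free data for the trailing
diagonals. -/
abbrev GsIdx (n r : ℕ) : Type :=
  (Fin (n + 1) × (Fin 2 × Fin r × Fin (r + 1))) ⊕ (Fin (n + 1) × Fin r)

/-- A family with product one built from a free family. -/
def gwE {G : Type*} [CommGroup G] {r : ℕ} (ε : Fin r → G) : Fin r → G :=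
  fun i => ε i * (ε (finRotate r i))⁻¹

/-- The trailing diagonals of the cells: free for the cells `j ≠ 0`, determined for the cell
`0`. -/
def gsE {R : Type*} [CommRing R] {n r : ℕ} (a c : Fin r → Rˣ) (s : GsIdx n r → Rˣ) :
    Fin (n + 1) → Fin r → Rˣ :=
  fun j i => if j = 0 then
      c i * (a i)⁻¹ * ∏ t ∈ Finset.univ.erase (0 : Fin (n + 1)),
        (gwE (fun i' => s (Sum.inr (t, i'))) i)⁻¹
    else gwE (fun i' => s (Sum.inr (j, i'))) i

/-- `(A, B)` is the chart point with diagonal data `a, b, c` and parameters `s`. -/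
def gsIsPt {R : Type*} [CommRing R] {n r : ℕ} (a c : Fin r → Rˣ) (b : Fin (n + 1) → Fin r → Rˣ)
    (s : GsIdx n r → Rˣ) (A : Matrix (Fin r) (Fin r) R)
    (B : Fin (n + 1) → Matrix (Fin r) (Fin r) R) : Prop :=
  ∃ (l p l' : Fin (n + 1) → Matrix (Fin r) (Fin r) R)
    (q qi M Mi : Fin (n + 2) → Matrix (Fin r) (Fin r) R),
    (∀ j, gwCell (fun i => (b j i : R)) (fun i => (gsE a c s j i : R)) (l j) (p j)
      (q j.castSucc) (l' j)) ∧
    (∀ (j : Fin (n + 1)) (δ i k : ℕ), δ ≤ 1 → 1 ≤ k → i + δ + k ≤ r →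
      ¬ (δ = 0 ∧ (i = 0 ∨ i + k = r)) →
      gwMinor (l j * p j) i (i + δ) k = (gwFr r (fun w => s (Sum.inl (j, w))) δ i k : R)) ∧
    q (Fin.last (n + 1)) = 1 ∧ (∀ j, q j * qi j = 1 ∧ qi j * q j = 1) ∧
    M 0 = 1 ∧ (∀ j : Fin (n + 1), M j.succ = M j.castSucc * p j * qi j.succ) ∧
    (∀ j, M j * Mi j = 1 ∧ Mi j * M j = 1) ∧
    A = M (Fin.last (n + 1)) * Matrix.diagonal (fun i => (a i : R)) * qi 0 ∧
    ∀ j : Fin (n + 1), B j = M j.castSucc * l j * Mi j.castSucc

end Vale.Agent.Lib.P002
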