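import Vale.Agent.Lib.P002.GSCore
import Vale.Agent.Lib.P002.GSCharpoly
import Vale.Agent.Lib.P002.GWMain

/-!
# Density of integral points on the wall chart: spheres with any number of punctures, any rank
-/

noncomputable section

namespace Vale.Agent.Lib.P002

open Polynomial Matrix

/-- A chart point with ordered diagonals is a chart point. -/
theorem gsChart_of_chartO {n r : ℕ} (a c : Fin r → ℂ) (b : Fin (n + 1) → Fin r → ℂ)
    (A : Matrix (Fin r) (Fin r) ℂ) (B : Fin (n + 1) → Matrix (Fin r) (Fin r) ℂ)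
    (h : gsChartO a c b A B) : gsChart a c b A B := by
  obtain ⟨l, p, l', q, M, K, h1, h2, h3, h4, h5, h6, h7, h8, h9, h10, h11, h12⟩ := h
  refine ⟨l, p, l', q, M, K, h1, h2, h3, h4, h5, h6, h7, h8, ?_, ?_, ?_, h12⟩
  · rw [Matrix.charpoly_of_isUpperTriangular A h6]
    exact Finset.prod_congr rfl (fun i _ => by rw [h9])
  · intro j
    rw [gw_charpoly_low (l j) (h1 j).1]
    exact Finset.prod_congr rfl (fun i _ => by rw [h10])
  · rw [gw_charpoly_low K h7]
    exact Finset.prod_congr rfl (fun i _ => by rw [h11])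

/-- A chart point is a chart point with ordered diagonals, for suitable orderings. -/
theorem gsChartO_of_chart {n r : ℕ} (a c : Fin r → ℂ) (b : Fin (n + 1) → Fin r → ℂ)
    (A : Matrix (Fin r) (Fin r) ℂ) (B : Fin (n + 1) → Matrix (Fin r) (Fin r) ℂ)
    (h : gsChart a c b A B) :
    ∃ (σ υ : Equiv.Perm (Fin r)) (τ : Fin (n + 1) → Equiv.Perm (Fin r)),
      gsChartO (fun i => a (σ i)) (fun i => c (υ i)) (fun j i => b j (τ j i)) A B := by
  obtain ⟨l, p, l', q, M, K, h1, h2, h3, h4, h5, h6, h7, h8, h9, h10, h11, h12⟩ := h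
  obtain ⟨σ, hσ⟩ := gw_diag_perm r A a (Or.inl h6) h9
  obtain ⟨υ, hυ⟩ := gw_diag_perm r K c (Or.inr h7) h11
  choose τ hτ using fun j => gw_diag_perm r (l j) (b j) (Or.inr (h1 j).1) (h10 j)
  exact ⟨σ, υ, τ, l, p, l', q, M, K, h1, h2, h3, h4, h5, h6, h7, h8, hσ, hτ, hυ, h12⟩

/-- **Density of integral points on the wall chart**, for local systems of arbitrary rank `r`
on the sphere with `n + 3` punctures with prescribed characteristic polynomials of all boundary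
monodromies. -/
theorem gs_density (n r : ℕ) (a c : Fin r → ℂ) (b : Fin (n + 1) → Fin r → ℂ)
    (ha : ∀ i, IsIntegral ℤ (a i)) (hb : ∀ j i, IsIntegral ℤ (b j i))
    (hc : ∀ i, IsIntegral ℤ (c i))
    (ha1 : ∏ i, a i = 1) (hb1 : ∀ j, ∏ i, b j i = 1) (hc1 : ∏ i, c i = 1) :
    ∃ L : IntermediateField ℚ ℂ, FiniteDimensional ℚ L ∧
      (∃ (A : Matrix (Fin r) (Fin r) ℂ) (B : Fin (n + 1) → Matrix (Fin r) (Fin r) ℂ),
        gsChart a c b A B) ∧
      ∀ F : MvPolynomial (Fin (n + 2) × Fin r × Fin r) ℂ,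
        (∀ (A : Matrix.SpecialLinearGroup (Fin r) ℂ)
            (B : Fin (n + 1) → Matrix.SpecialLinearGroup (Fin r) ℂ),
          (∀ i j, A.1 i j ∈ L ∧ IsIntegral ℤ (A.1 i j)) →
          (∀ t i j, (B t).1 i j ∈ L ∧ IsIntegral ℤ ((B t).1 i j)) →
          A.1.charpoly = ∏ i, (X - C (a i)) →
          (∀ t, (B t).1.charpoly = ∏ i, (X - C (b t i))) →
          (A.1 * (List.ofFn fun t => (B t).1).prod).charpoly = ∏ i, (X - C (c i)) →
          MvPolynomial.eval (fun x => (Fin.cons A.1 (fun t => (B t).1) :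
            Fin (n + 2) → Matrix (Fin r) (Fin r) ℂ) x.1 x.2.1 x.2.2) F = 0) →
        ∀ (A : Matrix (Fin r) (Fin r) ℂ) (B : Fin (n + 1) → Matrix (Fin r) (Fin r) ℂ),
          gsChart a c b A B →
          MvPolynomial.eval (fun x => (Fin.cons A B :
            Fin (n + 2) → Matrix (Fin r) (Fin r) ℂ) x.1 x.2.1 x.2.2) F = 0 := by
  classical
  obtain ⟨L, hfin, hSL, hUL⟩ := gwField
    (Set.range a ∪ Set.range c ∪ Set.range (fun x : Fin (n + 1) × Fin r => b x.1 x.2))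
    (((Set.finite_range a).union (Set.finite_range c)).union (Set.finite_range _)) (by
      rintro x ((⟨i, rfl⟩ | ⟨i, rfl⟩) | ⟨i, rfl⟩)
      · exact ha i
      · exact hc i
      · exact hb _ _)
  refine ⟨L, hfin, ?_, ?_⟩
  · -- the chart is not empty
    let aU : Fin r → ℂˣ := fun i => Units.mk0 (a i) (gw_ne_zero a ha1 i)
    let cU : Fin r → ℂˣ := fun i => Units.mk0 (c i) (gw_ne_zero c hc1 i)
    let bU : Fin (n + 1) → Fin r → ℂˣ := fun j i => Units.mk0 (b j i) (gw_ne_zero (b j) (hb1 j) i)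
    have hac : ∏ i, aU i = ∏ i, cU i := by
      ext
      rw [Units.coe_prod, Units.coe_prod]
      simp only [aU, cU, Units.val_mk0]
      rw [ha1, hc1]
    have hbU : ∀ j, ∏ i, bU j i = 1 := by
      intro j
      ext
      rw [Units.coe_prod]
      simp only [bU, Units.val_mk0]
      rw [hb1 j]
      rfl
    obtain ⟨A, B, hpt⟩ := gsIsPt_exists aU cU bU hac hbU (fun _ => 1)
    exact ⟨A, B, gsChart_of_chartO _ _ _ A B (gsIsPt_chartO aU cU bU _ hpt)⟩
  · intro F Hvan A B hch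
    obtain ⟨σ, υ, τ, hO'⟩ := gsChartO_of_chart a c b A B hch
    -- the ring of integers of `L` as a subring of `ℂ`
    let O : Subring ℂ := (integralClosure ℤ ℂ).toSubring ⊓ L.toSubfield.toSubring
    have hO : ∀ x : ℂ, x ∈ O ↔ IsIntegral ℤ x ∧ x ∈ L := fun x => Iff.rfl
    have haO : ∀ i, a i ∈ O := fun i =>
      (hO _).mpr ⟨ha i, hSL _ (Or.inl (Or.inl ⟨i, rfl⟩))⟩
    have hcO : ∀ i, c i ∈ O := fun i =>
      (hO _).mpr ⟨hc i, hSL _ (Or.inl (Or.inr ⟨i, rfl⟩))⟩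
    have hbO : ∀ j i, b j i ∈ O := fun j i =>
      (hO _).mpr ⟨hb j i, hSL _ (Or.inr ⟨(j, i), rfl⟩)⟩
    have hUO : ∀ u ∈ (Subgroup.zpowers unitW : Set ℂˣ),
        (u : ℂ) ∈ O ∧ ((u⁻¹ : ℂˣ) : ℂ) ∈ O :=
      fun u hu => ⟨(hO _).mpr (hUL u hu).1, (hO _).mpr (hUL u hu).2⟩
    let aU : Fin r → ℂˣ := fun i => Units.mk0 (a (σ i)) (gw_ne_zero a ha1 _)
    let cU : Fin r → ℂˣ := fun i => Units.mk0 (c (υ i)) (gw_ne_zero c hc1 _)
    let bU : Fin (n + 1) → Fin r → ℂˣ := fun j i =>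
      Units.mk0 (b j (τ j i)) (gw_ne_zero (b j) (hb1 j) _)
    have pa : ∏ i, a (σ i) = 1 := (Equiv.prod_comp σ a).trans ha1
    have pc : ∏ i, c (υ i) = 1 := (Equiv.prod_comp υ c).trans hc1
    have pb : ∀ j, ∏ i, b j (τ j i) = 1 := fun j => (Equiv.prod_comp (τ j) (b j)).trans (hb1 j)
    have hac : ∏ i, aU i = ∏ i, cU i := by
      ext
      rw [Units.coe_prod, Units.coe_prod]
      simp only [aU, cU, Units.val_mk0]
      rw [pa, pc]
    have hbU : ∀ j, ∏ i, bU j i = 1 := by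
      intro j
      ext
      rw [Units.coe_prod]
      simp only [bU, Units.val_mk0]
      rw [pb j]
      rfl
    refine gs_core n r aU cU bU hac hbU O
      (fun i => ⟨haO _, gw_inv_mem O a ha1 haO _⟩) (fun i => ⟨hcO _, gw_inv_mem O c hc1 hcO _⟩)
      (fun j i => ⟨hbO _ _, gw_inv_mem O (b j) (hb1 j) (hbO j) _⟩)
      _ infinite_zpowers_unitW hUO F ?_ A B hO'
    intro A' B' hch' hAO hBO
    obtain ⟨k1, k2, k3, k4⟩ := gsChartO_charpoly _ _ _ A' B' hch'
    have hdA : A'.det = 1 := k2.trans pa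
    have hdB : ∀ t, (B' t).det = 1 := fun t => (k3 t).2.trans (pb t)
    exact Hvan ⟨A', hdA⟩ (fun t => ⟨B' t, hdB t⟩)
      (fun i j => ⟨((hO _).mp (hAO i j)).2, ((hO _).mp (hAO i j)).1⟩)
      (fun t i j => ⟨((hO _).mp (hBO t i j)).2, ((hO _).mp (hBO t i j)).1⟩)
      (k1.trans (Equiv.prod_comp σ (fun i => X - C (a i))))
      (fun t => (k3 t).1.trans (Equiv.prod_comp (τ t) (fun i => X - C (b t i))))
      (k4.trans (Equiv.prod_comp υ (fun i => X - C (c i))))

end Vale.Agent.Lib.P002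

end
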