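import Vale.Agent.Lib.P002.GTDefs
import Vale.Agent.Lib.P002.GPFrames
import Vale.Agent.Lib.P002.GPTele
import Vale.Agent.Lib.P002.GPSolve

/-!
# The total monodromy of a chart point of the punctured sphere is upper triangular
-/

open Matrix

namespace Vale.Agent.Lib.P002

/-- For genus zero the apex formula reads: the product over the punctures of the diagonal
entries of the diagonal matrices of the chart is the prescribed eigenvalue. -/
theorem gtApexAux_diag {R : Type*} [CommRing R] {n r : ℕ} (hN : 2 ≤ 2 * 0 + n) (c : Fin r → Rˣ)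
    (d : Fin n → Fin r → Rˣ) (s : GpIdx 0 n r → Rˣ) (i : Fin r) :
    ∏ j : Fin n, d j i * (gpE c d s (2 * 0 + j) i)⁻¹ = c i := by
  have hap := congrFun (gpE_apex hN c d s) i
  unfold gpApex at hap
  rw [Fin.prod_univ_zero, one_mul] at hap
  exact hap

/-- Over any commutative ring, the product `z 0 * ⋯ * z (n - 1)` of a chart point of the
punctured sphere is upper triangular with diagonal `c`. -/
theorem gt_apex {R : Type*} [CommRing R] {n r : ℕ} (hn : 2 ≤ n) (c : Fin r → Rˣ)
    (d : Fin n → Fin r → Rˣ) (hc : ∏ i, c i = 1) (hd : ∀ j, ∏ i, d j i = 1)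
    (s : GqIdx 0 n r → Rˣ) (z : Fin n → Matrix (Fin r) (Fin r) R) (h : gtIsPt hn c d s z) :
    ((List.ofFn z).prod).IsUpperTriangular ∧ ∀ i, (List.ofFn z).prod i i = ((c i : Rˣ) : R) := by
  have _hcd := And.intro hc hd
  obtain ⟨l, p, q, l', G, P, Pi, Q, Qi, hcell, htriv, hG0, hG, hPQ, _, hz⟩ := h
  -- the cell conditions for every index, and the frames
  have hcells := gp_cells_of_pt (g := 0) (n := n)
    (fun k i => ((gpE c d (gqSec (gqEmb (gtHN hn)) s) k i : Rˣ) : R)) l p q l'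
    (fun k hk1 hk2 => (hcell k hk1 hk2).1) htriv
  have hGk := gpFramesAux_G q G
    (fun k => ⟨(hcells k).2.2.2.2.1, (hcells k).2.2.2.2.2.1⟩) hG0 hG
  -- one step of the telescoping product
  have h1 : ∀ j : Fin n, z j * P (2 * 0 + j + 1) = Q (2 * 0 + j) *
      Matrix.diagonal (fun i =>
        ((d j i * (gpE c d (gqSec (gqEmb (gtHN hn)) s) (2 * 0 + j) i)⁻¹ : Rˣ) : R)) := by
    intro j
    rw [hz j, Matrix.mul_assoc, (hPQ (2 * 0 + j + 1)).2.2.2.1, Matrix.mul_one]
  obtain ⟨V, hV1, hV2, hV3⟩ := gp_tele n z (fun k => Q (2 * 0 + k)) (fun k => P (2 * 0 + k))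
    (fun k => p (2 * 0 + k))
    (fun k => if hk : k < n then Matrix.diagonal (fun i =>
        ((d ⟨k, hk⟩ i * (gpE c d (gqSec (gqEmb (gtHN hn)) s) (2 * 0 + k) i)⁻¹ : Rˣ) : R))
      else 1)
    (fun j => by
      simp only [Fin.is_lt, dite_true, Fin.eta]
      exact h1 j)
    (fun k => (hPQ (2 * 0 + k)).2.1)
    (fun k => ⟨(hcells _).2.2.1, (hcells _).2.2.2.1⟩)
    (fun j => by
      simp only [Fin.is_lt, dite_true, Fin.eta]
      exact Matrix.blockTriangular_diagonal _)
  -- the two ends of the chain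
  have hP0 : P (2 * 0 + 0) = 1 := by
    have e := (hPQ 0).1
    rw [hG0, (htriv 0 (Or.inl rfl)).1, Matrix.mul_one] at e
    exact e
  have hPn : P (2 * 0 + n) = G n := by
    have e := (hPQ n).1
    rw [(htriv n (Or.inr (by omega))).1, Matrix.mul_one] at e
    have e2 : 2 * 0 + n = n := by omega
    rw [e2]
    exact e
  have hW : (List.ofFn z).prod * G n = V := by
    have e : (List.ofFn z).prod * P (2 * 0 + n) = P (2 * 0 + 0) * V := hV3
    rw [hPn, hP0, Matrix.one_mul] at e
    exact e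
  obtain ⟨Gi, hGi1, hGi2, hGi3, _⟩ := gw_upU_inv r (G n) (hGk n).1 (hGk n).2
  have hkey : (List.ofFn z).prod = V * Gi := by
    calc (List.ofFn z).prod = (List.ofFn z).prod * (G n * Gi) := by rw [hGi3, Matrix.mul_one]
      _ = V * Gi := by rw [← Matrix.mul_assoc, hW]
  rw [hkey]
  refine ⟨hV1.mul hGi1, fun i => ?_⟩
  rw [gwTriAux_diag_mul _ _ hV1 hGi1, hGi2, mul_one, hV2]
  rw [← gtApexAux_diag (gtHN hn) c d (gqSec (gqEmb (gtHN hn)) s) i, Units.coe_prod]
  refine Finset.prod_congr rfl fun k _ => ?_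
  simp only [Fin.is_lt, dite_true, Fin.eta]
  exact Matrix.diagonal_apply_eq _ _

end Vale.Agent.Lib.P002
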