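import Vale.Agent.Lib.P002.GTDefs
import Vale.Agent.Lib.P002.GRMul

/-!
# The standard generators of the closed surface group from the double presentation
-/

open Matrix

namespace Vale.Agent.Lib.P002

theorem gtGroupAux_pre_zero {M : Type*} [Monoid M] {n : ℕ} (z : Fin n → M) :
    gtPre z 0 = 1 := by
  simp [gtPre]

theorem gtGroupAux_pre_succ {M : Type*} [Monoid M] {n : ℕ} (z : Fin n → M) (j : ℕ)
    (hj : j < n) : gtPre z (j + 1) = gtPre z j * z ⟨j, hj⟩ := by
  unfold gtPre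
  have hlen : j < (List.ofFn z).length := by
    rw [List.length_ofFn]
    exact hj
  rw [List.prod_take_succ _ _ hlen, List.getElem_ofFn]

theorem gtGroupAux_pre_full {M : Type*} [Monoid M] {n : ℕ} (z : Fin n → M) :
    gtPre z n = (List.ofFn z).prod := by
  unfold gtPre
  rw [List.take_of_length_le]
  rw [List.length_ofFn]

theorem gtGroupAux_take {G : Type*} [Group G] {n : ℕ} (z σ : Fin n → G) (m : ℕ)
    (hm : m ≤ n) :
    ((List.ofFn fun j : Fin n =>
        (gtPre z j * σ j * (gtPre z j)⁻¹) * (gtPre z j * z j * (gtPre z j)⁻¹) *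
          (gtPre z j * σ j * (gtPre z j)⁻¹)⁻¹ * (gtPre z j * z j * (gtPre z j)⁻¹)⁻¹).take
            m).prod =
      ((List.ofFn fun j => σ j * z j * (σ j)⁻¹).take m).prod * (gtPre z m)⁻¹ := by
  induction m with
  | zero =>
    rw [gtGroupAux_pre_zero]
    simp
  | succ k ih =>
    have hk : k < n := hm
    have ih' := ih (Nat.le_of_lt hk)
    have hlen1 : k < (List.ofFn fun j : Fin n =>
        (gtPre z j * σ j * (gtPre z j)⁻¹) * (gtPre z j * z j * (gtPre z j)⁻¹) *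
          (gtPre z j * σ j * (gtPre z j)⁻¹)⁻¹ * (gtPre z j * z j * (gtPre z j)⁻¹)⁻¹).length := by
      rw [List.length_ofFn]
      exact hk
    have hlen2 : k < (List.ofFn fun j : Fin n => σ j * z j * (σ j)⁻¹).length := by
      rw [List.length_ofFn]
      exact hk
    rw [List.prod_take_succ _ _ hlen1, List.prod_take_succ _ _ hlen2, List.getElem_ofFn,
      List.getElem_ofFn, ih', gtGroupAux_pre_succ z k hk]
    group

/-- With `a j = p * σ j * p⁻¹` and `b j = p * z j * p⁻¹`, `p = z 0 * ⋯ * z (j - 1)`, the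
product of the commutators `[a j, b j]` is the product of the `σ j * z j * (σ j)⁻¹` times the
inverse of the product of the `z j`. -/
theorem gt_group {G : Type*} [Group G] {n : ℕ} (z σ : Fin n → G) :
    (List.ofFn fun j : Fin n =>
        (gtPre z j * σ j * (gtPre z j)⁻¹) * (gtPre z j * z j * (gtPre z j)⁻¹) *
          (gtPre z j * σ j * (gtPre z j)⁻¹)⁻¹ * (gtPre z j * z j * (gtPre z j)⁻¹)⁻¹).prod =
      (List.ofFn fun j => σ j * z j * (σ j)⁻¹).prod * ((List.ofFn z).prod)⁻¹ := by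
  have h := gtGroupAux_take z σ n le_rfl
  rw [List.take_of_length_le (by rw [List.length_ofFn]),
    List.take_of_length_le (by rw [List.length_ofFn]), gtGroupAux_pre_full] at h
  exact h

theorem gtGroupAux_rev_take {G : Type*} [Group G] {n : ℕ} (z : Fin n → G) (m : ℕ)
    (hm : m ≤ n) :
    ((List.ofFn fun j : Fin n => gtPre z j * z j * (gtPre z j)⁻¹).take m).reverse.prod =
      gtPre z m := by
  induction m with
  | zero =>
    rw [gtGroupAux_pre_zero]
    simp
  | succ k ih =>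
    have hk : k < n := hm
    have ih' := ih (Nat.le_of_lt hk)
    have hlen : k < (List.ofFn fun j : Fin n => gtPre z j * z j * (gtPre z j)⁻¹).length := by
      rw [List.length_ofFn]
      exact hk
    rw [List.take_succ_eq_append_getElem hlen, List.reverse_append, List.prod_append, ih',
      List.getElem_ofFn, gtGroupAux_pre_succ z k hk]
    simp

/-- The product `b (n - 1) * ⋯ * b 0` is the product `z 0 * ⋯ * z (n - 1)`. -/
theorem gt_group_rev {G : Type*} [Group G] {n : ℕ} (z : Fin n → G) :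
    (List.ofFn fun j : Fin n => gtPre z j * z j * (gtPre z j)⁻¹).reverse.prod =
      (List.ofFn z).prod := by
  have h := gtGroupAux_rev_take z n le_rfl
  rw [List.take_of_length_le (by rw [List.length_ofFn]), gtGroupAux_pre_full] at h
  exact h

theorem gtGroupAux_cancel {r : ℕ} (p p' x x' : Matrix.SpecialLinearGroup (Fin r) ℂ)
    (γ : Matrix (Fin r) (Fin r) ℂ) (hp : γ * p.1 = p'.1 * γ)
    (h : γ * (p * x * p⁻¹).1 = (p' * x' * p'⁻¹).1 * γ) : γ * x.1 = x'.1 * γ := by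
  rw [Matrix.SpecialLinearGroup.coe_mul, Matrix.SpecialLinearGroup.coe_mul,
    Matrix.SpecialLinearGroup.coe_mul, Matrix.SpecialLinearGroup.coe_mul] at h
  have h1 : γ * (p.1 * x.1 * (p⁻¹).1) * p.1 = p'.1 * x'.1 * (p'⁻¹).1 * γ * p.1 := by
    rw [h]
  have e1 : γ * (p.1 * x.1 * (p⁻¹).1) * p.1 = p'.1 * (γ * x.1) := by
    calc γ * (p.1 * x.1 * (p⁻¹).1) * p.1 = γ * p.1 * x.1 * ((p⁻¹).1 * p.1) := by
          simp only [Matrix.mul_assoc]
      _ = γ * p.1 * x.1 := by rw [grMulAux_inv_mul, Matrix.mul_one]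
      _ = p'.1 * (γ * x.1) := by rw [hp, Matrix.mul_assoc]
  have e2 : p'.1 * x'.1 * (p'⁻¹).1 * γ * p.1 = p'.1 * (x'.1 * γ) := by
    calc p'.1 * x'.1 * (p'⁻¹).1 * γ * p.1 = p'.1 * x'.1 * (p'⁻¹).1 * (γ * p.1) := by
          simp only [Matrix.mul_assoc]
      _ = p'.1 * x'.1 * ((p'⁻¹).1 * p'.1) * γ := by
          rw [hp]
          simp only [Matrix.mul_assoc]
      _ = p'.1 * (x'.1 * γ) := by rw [grMulAux_inv_mul, Matrix.mul_one, Matrix.mul_assoc]
  rw [e1, e2] at h1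
  calc γ * x.1 = (p'⁻¹).1 * (p'.1 * (γ * x.1)) := by
        rw [← Matrix.mul_assoc, grMulAux_inv_mul, Matrix.one_mul]
    _ = (p'⁻¹).1 * (p'.1 * (x'.1 * γ)) := by rw [h1]
    _ = x'.1 * γ := by rw [← Matrix.mul_assoc, grMulAux_inv_mul, Matrix.one_mul]

theorem gtGroupAux_pre_comm {r n : ℕ} (z z' : Fin n → Matrix.SpecialLinearGroup (Fin r) ℂ)
    (γ : Matrix (Fin r) (Fin r) ℂ)
    (hB : ∀ j : Fin n, γ * (gtPre z j * z j * (gtPre z j)⁻¹).1 =
      (gtPre z' j * z' j * (gtPre z' j)⁻¹).1 * γ) (j : ℕ) (hj : j ≤ n) :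
    γ * (gtPre z j).1 = (gtPre z' j).1 * γ := by
  induction j with
  | zero =>
    rw [gtGroupAux_pre_zero, gtGroupAux_pre_zero, Matrix.SpecialLinearGroup.coe_one,
      Matrix.mul_one, Matrix.one_mul]
  | succ k ih =>
    have hk : k < n := hj
    have ih' := ih (Nat.le_of_lt hk)
    have hz := gtGroupAux_cancel (gtPre z k) (gtPre z' k) (z ⟨k, hk⟩) (z' ⟨k, hk⟩) γ ih'
      (hB ⟨k, hk⟩)
    rw [gtGroupAux_pre_succ z k hk, gtGroupAux_pre_succ z' k hk,
      Matrix.SpecialLinearGroup.coe_mul, Matrix.SpecialLinearGroup.coe_mul,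
      ← Matrix.mul_assoc, ih', Matrix.mul_assoc, hz, Matrix.mul_assoc]

/-- A matrix intertwining the standard generators intertwines the `z j` and the `σ j`. -/
theorem gt_group_comm {r n : ℕ} (z z' σ σ' : Fin n → Matrix.SpecialLinearGroup (Fin r) ℂ)
    (γ : Matrix (Fin r) (Fin r) ℂ)
    (hA : ∀ j : Fin n, γ * (gtPre z j * σ j * (gtPre z j)⁻¹).1 =
      (gtPre z' j * σ' j * (gtPre z' j)⁻¹).1 * γ)
    (hB : ∀ j : Fin n, γ * (gtPre z j * z j * (gtPre z j)⁻¹).1 =
      (gtPre z' j * z' j * (gtPre z' j)⁻¹).1 * γ) :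
    (∀ j, γ * (z j).1 = (z' j).1 * γ) ∧ ∀ j, γ * (σ j).1 = (σ' j).1 * γ := by
  constructor
  · intro j
    exact gtGroupAux_cancel (gtPre z j) (gtPre z' j) (z j) (z' j) γ
      (gtGroupAux_pre_comm z z' γ hB j (Nat.le_of_lt j.2)) (hB j)
  · intro j
    exact gtGroupAux_cancel (gtPre z j) (gtPre z' j) (σ j) (σ' j) γ
      (gtGroupAux_pre_comm z z' γ hB j (Nat.le_of_lt j.2)) (hA j)

theorem gtGroupAux_conj {r : ℕ} (p x : Matrix.SpecialLinearGroup (Fin r) ℂ)
    (V : Submodule ℂ (Fin r → ℂ)) (hp : grInv V p.1) (h : grInv V (p * x * p⁻¹).1) :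
    grInv V x.1 := by
  have e0 : p⁻¹ * (p * x * p⁻¹) * p = x := by group
  have e : x.1 = (p⁻¹).1 * (p * x * p⁻¹).1 * p.1 := by
    rw [← Matrix.SpecialLinearGroup.coe_mul, ← Matrix.SpecialLinearGroup.coe_mul, e0]
  rw [e]
  exact grInv_mul V _ _ (grInv_mul V _ _ (grInv_inv V p hp) h) hp

theorem gtGroupAux_pre_inv {r n : ℕ} (z : Fin n → Matrix.SpecialLinearGroup (Fin r) ℂ)
    (V : Submodule ℂ (Fin r → ℂ))
    (hB : ∀ j : Fin n, grInv V (gtPre z j * z j * (gtPre z j)⁻¹).1) (j : ℕ) (hj : j ≤ n) :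
    grInv V (gtPre z j).1 := by
  induction j with
  | zero =>
    rw [gtGroupAux_pre_zero, Matrix.SpecialLinearGroup.coe_one]
    exact grInv_one V
  | succ k ih =>
    have hk : k < n := hj
    have ih' := ih (Nat.le_of_lt hk)
    have hz := gtGroupAux_conj (gtPre z k) (z ⟨k, hk⟩) V ih' (hB ⟨k, hk⟩)
    rw [gtGroupAux_pre_succ z k hk, Matrix.SpecialLinearGroup.coe_mul]
    exact grInv_mul V _ _ ih' hz

/-- A subspace invariant under the standard generators `b j` is invariant under the `z j`. -/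
theorem gt_group_inv {r n : ℕ} (z : Fin n → Matrix.SpecialLinearGroup (Fin r) ℂ)
    (V : Submodule ℂ (Fin r → ℂ))
    (hB : ∀ j : Fin n, ∀ v ∈ V, (gtPre z j * z j * (gtPre z j)⁻¹).1.mulVec v ∈ V) :
    ∀ j, ∀ v ∈ V, (z j).1.mulVec v ∈ V := by
  intro j
  exact gtGroupAux_conj (gtPre z j) (z j) V
    (gtGroupAux_pre_inv z V hB j (Nat.le_of_lt j.2)) (hB j)

end Vale.Agent.Lib.P002
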