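import Vale.Agent.Lib.P002.GTSpec
import Vale.Agent.Lib.P002.GTGroup
import Vale.Agent.Lib.P002.GQMain
import Vale.Agent.Lib.P002.GRIrred

/-!
# Characteristic polynomials and irreducibility of the members of the family
-/

open Matrix Polynomial

namespace Vale.Agent.Lib.P002

theorem gtCharAux_conj {r : ℕ} (p x : Matrix.SpecialLinearGroup (Fin r) ℂ) :
    (p * x * p⁻¹).1.charpoly = x.1.charpoly := by
  rw [Matrix.SpecialLinearGroup.coe_mul, Matrix.SpecialLinearGroup.coe_mul,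
    Matrix.charpoly_mul_comm, ← Matrix.mul_assoc, grMulAux_inv_mul, Matrix.one_mul]

theorem gtCharAux_val {n r : ℕ} (hn : 2 ≤ n) (θ : GtK n r → ℂˣ) :
    (fun j => (gtZs hn θ j).1) = gtZ hn (gtP1 θ) :=
  funext fun j => gtSL_val _ (gtZ_det hn (gtP1 θ) j)

/-- The characteristic polynomials of the loops of the first chart point and of their
product. -/
theorem gtCharAux_chart {n r : ℕ} (hn : 2 ≤ n) (θ : GtK n r → ℂˣ) :
    (∀ j, (gtZs hn θ j).1.charpoly = ∏ i, (X - C ((gtD (gtP1 θ) j i : ℂˣ) : ℂ))) ∧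
      ((List.ofFn (gtZs hn θ)).prod).1.charpoly =
        ∏ i, (X - C ((gtC (gtP1 θ) i : ℂˣ) : ℂ)) := by
  have hpt : gtIsPt hn (gtC (gtP1 θ)) (gtD (gtP1 θ)) (gtS (gtP1 θ)) (gtZ hn (gtP1 θ)) :=
    gtZ_pt hn (gtP1 θ)
  have hpt' : gpIsPt (gtC (gtP1 θ)) (gtD (gtP1 θ)) (gqSec (gqEmb (gtHN hn)) (gtS (gtP1 θ)))
      (fun h : Fin 0 => ((1 : Matrix.SpecialLinearGroup (Fin r) ℂ)).1)
      (fun h : Fin 0 => ((1 : Matrix.SpecialLinearGroup (Fin r) ℂ)).1)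
      (fun j => (gtZs hn θ j).1) := by
    rw [gtCharAux_val hn θ]
    exact hpt
  have hch := gpChart_of_chartO _ _ _ _ _
    (gpIsPt_chartO (gtHN hn) (gtC (gtP1 θ)) (gtD (gtP1 θ)) (gtLast_prod _)
      (fun _ => gtLast_prod _) _ (fun _ : Fin 0 => 1) (fun _ : Fin 0 => 1) (gtZs hn θ)
      hpt')
  obtain ⟨l, p, q, l', G, t, t', τ, -, k1, k2, -⟩ := hch
  refine ⟨k1, ?_⟩
  rw [List.ofFn_zero, List.prod_nil, one_mul] at k2
  exact k2

theorem gtB_charpoly {n r : ℕ} (hn : 2 ≤ n) (θ : GtK n r → ℂˣ) (j : Fin n) :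
    (gtB hn θ j).1.charpoly = ∏ i, (X - C ((gtD (gtP1 θ) j i : ℂˣ) : ℂ)) := by
  have e : (gtB hn θ j).1.charpoly = (gtZs hn θ j).1.charpoly :=
    gtCharAux_conj (gtPre (gtZs hn θ) j) (gtZs hn θ j)
  rw [e]
  exact (gtCharAux_chart hn θ).1 j

theorem gtB_rev_charpoly {n r : ℕ} (hn : 2 ≤ n) (θ : GtK n r → ℂˣ) :
    ((List.ofFn (gtB hn θ)).reverse.prod).1.charpoly =
      ∏ i, (X - C ((gtC (gtP1 θ) i : ℂˣ) : ℂ)) := by
  have e : (List.ofFn (gtB hn θ)).reverse.prod = (List.ofFn (gtZs hn θ)).prod :=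
    gt_group_rev (gtZs hn θ)
  rw [e]
  exact (gtCharAux_chart hn θ).2

/-- For generic eigenvalue data the members of the family are irreducible. -/
theorem gt_irred {n r : ℕ} (hn : 2 ≤ n) (θ : GtK n r → ℂˣ)
    (hgen : ∀ (S : Finset (Fin r)) (T : Fin n → Finset (Fin r)), S.Nonempty →
      S ≠ Finset.univ → (∀ j, (T j).card = S.card) →
      ∏ i ∈ S, ((gtC (gtP1 θ) i : ℂˣ) : ℂ) ≠ ∏ j, ∏ i ∈ T j, ((gtD (gtP1 θ) j i : ℂˣ) : ℂ))
    (V : Submodule ℂ (Fin r → ℂ))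
    (hB : ∀ j, ∀ v ∈ V, (gtB hn θ j).1.mulVec v ∈ V) : V = ⊥ ∨ V = ⊤ := by
  have hz : ∀ j, ∀ v ∈ V, (gtZs hn θ j).1.mulVec v ∈ V := gt_group_inv (gtZs hn θ) V hB
  obtain ⟨k1, k2⟩ := gtCharAux_chart hn θ
  have hW : ((List.ofFn fun h : Fin 0 =>
      (1 : Matrix.SpecialLinearGroup (Fin r) ℂ) * 1 *
        (1 : Matrix.SpecialLinearGroup (Fin r) ℂ)⁻¹ *
        (1 : Matrix.SpecialLinearGroup (Fin r) ℂ)⁻¹).prod *
      (List.ofFn (gtZs hn θ)).prod).1.charpoly =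
        ∏ i, (X - C ((gtC (gtP1 θ) i : ℂˣ) : ℂ)) := by
    rw [List.ofFn_zero, List.prod_nil, one_mul]
    exact k2
  exact gr_irred (fun i => ((gtC (gtP1 θ) i : ℂˣ) : ℂ))
    (fun j i => ((gtD (gtP1 θ) j i : ℂˣ) : ℂ))
    (fun _ : Fin 0 => 1) (fun _ : Fin 0 => 1) (gtZs hn θ) k1 hW hgen V
    (fun h => h.elim0) (fun h => h.elim0) hz

end Vale.Agent.Lib.P002
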