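import Vale.Agent.Lib.P002.GTDefs
import Vale.Agent.Lib.P002.GWTri

/-!
# Unipotent conjugators between triangular matrices with the same diagonal
-/

open Matrix

namespace Vale.Agent.Lib.P002

/-- Entry of a product with an upper triangular right factor, when the row of the left factor
vanishes to the left of the column. -/
theorem gtConjAux_mul_right {R : Type*} [CommRing R] {r : ℕ} (N T : Matrix (Fin r) (Fin r) R)
    (hT : T.IsUpperTriangular) (i k : Fin r) (h : ∀ j : Fin r, j < k → N i j = 0) :
    (N * T) i k = N i k * T k k := by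
  rw [Matrix.mul_apply]
  apply Finset.sum_eq_single k
  · intro j _ hj
    rcases lt_or_gt_of_ne hj with h1 | h1
    · rw [h j h1, zero_mul]
    · have h0 : T j k = 0 := hT h1
      rw [h0, mul_zero]
  · intro hk
    exact absurd (Finset.mem_univ k) hk

/-- Entry of a product with an upper triangular left factor, when the column of the right
factor vanishes below the row. -/
theorem gtConjAux_mul_left {R : Type*} [CommRing R] {r : ℕ} (T' N : Matrix (Fin r) (Fin r) R)
    (hT' : T'.IsUpperTriangular) (i k : Fin r) (h : ∀ j : Fin r, i < j → N j k = 0) :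
    (T' * N) i k = T' i i * N i k := by
  rw [Matrix.mul_apply]
  apply Finset.sum_eq_single i
  · intro j _ hj
    rcases lt_or_gt_of_ne hj with h1 | h1
    · have h0 : T' i j = 0 := hT' h1
      rw [h0, zero_mul]
    · rw [h j h1, mul_zero]
  · intro hi
    exact absurd (Finset.mem_univ i) hi

/-- A strictly upper triangular matrix intertwining two upper triangular matrices with the
same diagonal (differences of diagonal entries invertible) vanishes: induction on the distance
to the diagonal. -/
theorem gtConjAux_strict_zero {R : Type*} [CommRing R] {r : ℕ} (c : Fin r → R)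
    (hc : ∀ i k, i ≠ k → IsUnit (c k - c i)) (T T' : Matrix (Fin r) (Fin r) R)
    (hT : T.IsUpperTriangular) (hT' : T'.IsUpperTriangular) (hd : ∀ i, T i i = c i)
    (hd' : ∀ i, T' i i = c i) (N : Matrix (Fin r) (Fin r) R)
    (hN : N.IsUpperTriangular) (hN0 : ∀ i, N i i = 0) (hNT : N * T = T' * N) :
    ∀ d : ℕ, ∀ i k : Fin r, (k : ℕ) ≤ (i : ℕ) + d → N i k = 0 := by
  intro d
  induction d with
  | zero =>
    intro i k hik
    have hki : k ≤ i := Fin.le_def.mpr (by omega)
    rcases lt_or_eq_of_le hki with h | h
    · exact hN h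
    · rw [h]
      exact hN0 i
  | succ d ih =>
    intro i k hik
    by_cases h : (k : ℕ) ≤ (i : ℕ) + d
    · exact ih i k h
    · have hk : (k : ℕ) = (i : ℕ) + d + 1 := by omega
      have hne : i ≠ k := by
        intro e
        rw [e] at hk
        omega
      have e1 : (N * T) i k = N i k * T k k :=
        gtConjAux_mul_right N T hT i k (fun j hj => ih i j (by
          have := Fin.lt_def.mp hj
          omega))
      have e2 : (T' * N) i k = T' i i * N i k :=
        gtConjAux_mul_left T' N hT' i k (fun j hj => ih j k (by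
          have := Fin.lt_def.mp hj
          omega))
      have e3 : (N * T) i k = (T' * N) i k := by rw [hNT]
      rw [e1, e2, hd, hd'] at e3
      have e4 : (c k - c i) * N i k = 0 := by linear_combination e3
      exact (hc i k hne).mul_right_eq_zero.mp e4

/-- Conjugators up to a given distance from the diagonal: induction on the distance, each step
corrects the entries at the next distance. -/
theorem gtConjAux_exists_upto {R : Type*} [CommRing R] {r : ℕ} (c : Fin r → R)
    (hc : ∀ i k, i ≠ k → IsUnit (c k - c i)) (T T' : Matrix (Fin r) (Fin r) R)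
    (hT : T.IsUpperTriangular) (hT' : T'.IsUpperTriangular) (hd : ∀ i, T i i = c i)
    (hd' : ∀ i, T' i i = c i) :
    ∀ m : ℕ, ∃ u : Matrix (Fin r) (Fin r) R, u.IsUpperTriangular ∧ (∀ i, u i i = 1) ∧
      ∀ i k : Fin r, (k : ℕ) ≤ (i : ℕ) + m → (u * T) i k = (T' * u) i k := by
  intro m
  induction m with
  | zero =>
    refine ⟨1, Matrix.blockTriangular_one, fun i => Matrix.one_apply_eq i, ?_⟩
    intro i k hik
    rw [Matrix.one_mul, Matrix.mul_one]
    have hki : k ≤ i := Fin.le_def.mpr (by omega)
    rcases lt_or_eq_of_le hki with h | h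
    · rw [hT h, hT' h]
    · rw [h, hd, hd']
  | succ m ih =>
    obtain ⟨u, hu, hu1, huT⟩ := ih
    obtain ⟨E, hE⟩ : ∃ E : Matrix (Fin r) (Fin r) R, ∀ i k, E i k =
        if (k : ℕ) = (i : ℕ) + m + 1 then
          -(Ring.inverse (c k - c i) * ((u * T) i k - (T' * u) i k)) else 0 :=
      ⟨fun i k => if (k : ℕ) = (i : ℕ) + m + 1 then
          -(Ring.inverse (c k - c i) * ((u * T) i k - (T' * u) i k)) else 0, fun _ _ => rfl⟩
    have hE0 : ∀ i k : Fin r, (k : ℕ) ≠ (i : ℕ) + m + 1 → E i k = 0 := by
      intro i k h
      rw [hE, if_neg h]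
    refine ⟨u + E, ?_, ?_, ?_⟩
    · intro i k hik
      have hik' : (k : ℕ) < (i : ℕ) := hik
      rw [Matrix.add_apply, hu hik, hE0 i k (by omega), add_zero]
    · intro i
      rw [Matrix.add_apply, hu1 i, hE0 i i (by omega), add_zero]
    · intro i k hik
      rw [Matrix.add_mul, Matrix.mul_add, Matrix.add_apply, Matrix.add_apply]
      have e1 : (E * T) i k = E i k * T k k :=
        gtConjAux_mul_right E T hT i k (fun j hj => hE0 i j (by
          have := Fin.lt_def.mp hj
          omega))
      have e2 : (T' * E) i k = T' i i * E i k :=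
        gtConjAux_mul_left T' E hT' i k (fun j hj => hE0 j k (by
          have := Fin.lt_def.mp hj
          omega))
      rw [e1, e2, hd, hd']
      by_cases h : (k : ℕ) ≤ (i : ℕ) + m
      · rw [huT i k h, hE0 i k (by omega)]
        ring
      · have hk : (k : ℕ) = (i : ℕ) + m + 1 := by omega
        have hne : i ≠ k := by
          intro e
          rw [e] at hk
          omega
        have hEik : E i k = -(Ring.inverse (c k - c i) * ((u * T) i k - (T' * u) i k)) := by
          rw [hE, if_pos hk]
        have hinv : Ring.inverse (c k - c i) * (c k - c i) = 1 :=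
          Ring.inverse_mul_cancel _ (hc i k hne)
        rw [hEik]
        linear_combination (-((u * T) i k - (T' * u) i k)) * hinv

/-- Two upper triangular matrices with the same diagonal `c`, whose entries have invertible
differences, are conjugate by an upper triangular matrix with unit diagonal. -/
theorem gt_conj_exists {R : Type*} [CommRing R] {r : ℕ} (c : Fin r → R)
    (hc : ∀ i k, i ≠ k → IsUnit (c k - c i)) (T T' : Matrix (Fin r) (Fin r) R)
    (hT : T.IsUpperTriangular) (hT' : T'.IsUpperTriangular) (hd : ∀ i, T i i = c i)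
    (hd' : ∀ i, T' i i = c i) :
    ∃ u : Matrix (Fin r) (Fin r) R, u.IsUpperTriangular ∧ (∀ i, u i i = 1) ∧ u * T = T' * u := by
  obtain ⟨u, hu, hu1, huT⟩ := gtConjAux_exists_upto c hc T T' hT hT' hd hd' r
  refine ⟨u, hu, hu1, ?_⟩
  ext i k
  exact huT i k (by
    have := k.isLt
    omega)

/-- The conjugator of `gt_conj_exists` is unique. -/
theorem gt_conj_unique {R : Type*} [CommRing R] {r : ℕ} (c : Fin r → R)
    (hc : ∀ i k, i ≠ k → IsUnit (c k - c i)) (T T' : Matrix (Fin r) (Fin r) R)
    (hT : T.IsUpperTriangular) (hT' : T'.IsUpperTriangular) (hd : ∀ i, T i i = c i)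
    (hd' : ∀ i, T' i i = c i) (u u' : Matrix (Fin r) (Fin r) R)
    (hu : u.IsUpperTriangular) (hu1 : ∀ i, u i i = 1) (huT : u * T = T' * u)
    (hu' : u'.IsUpperTriangular) (hu1' : ∀ i, u' i i = 1) (huT' : u' * T = T' * u') :
    u = u' := by
  have hN : (u - u').IsUpperTriangular := by
    intro i k hik
    rw [Matrix.sub_apply, hu hik, hu' hik, sub_zero]
  have hN0 : ∀ i, (u - u') i i = 0 := by
    intro i
    rw [Matrix.sub_apply, hu1 i, hu1' i, sub_self]
  have hNT : (u - u') * T = T' * (u - u') := by
    rw [Matrix.sub_mul, Matrix.mul_sub, huT, huT']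
  ext i k
  have h0 := gtConjAux_strict_zero c hc T T' hT hT' hd hd' (u - u') hN hN0 hNT r i k (by
    have := k.isLt
    omega)
  rw [Matrix.sub_apply] at h0
  exact sub_eq_zero.mp h0

end Vale.Agent.Lib.P002
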