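import Vale.Agent.Lib.P002.GTDefs

/-!
# Integrality of unipotent conjugators
-/

open Matrix

namespace Vale.Agent.Lib.P002

/-- Entry number i, k of the relation `u * T = T' * u`, with the terms of index `i` and `k` split
off from the two sums. -/
theorem gtConjIntAux_key {r : ℕ} (c : Fin r → ℂ) (T T' u : Matrix (Fin r) (Fin r) ℂ)
    (hd : ∀ i, T i i = c i) (hd' : ∀ i, T' i i = c i) (hu1 : ∀ i, u i i = 1)
    (huT : u * T = T' * u) (i k : Fin r) (hik : i ≠ k) :
    u i k * (c k - c i) = (T' i k - T i k)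
      + ∑ j ∈ (Finset.univ.erase i).erase k, (T' i j * u j k - u i j * T j k) := by
  have h := congrFun (congrFun huT i) k
  rw [Matrix.mul_apply, Matrix.mul_apply] at h
  have h0 : ∑ j, (T' i j * u j k - u i j * T j k) = 0 := by
    rw [Finset.sum_sub_distrib, h, sub_self]
  have hk : k ∈ (Finset.univ : Finset (Fin r)).erase i :=
    Finset.mem_erase.mpr ⟨fun h => hik h.symm, Finset.mem_univ k⟩
  rw [← Finset.add_sum_erase _ _ (Finset.mem_univ i), ← Finset.add_sum_erase _ _ hk] at h0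
  rw [hd' i, hu1 i, hu1 k, hd k] at h0
  linear_combination (-1 : ℂ) * h0

/-- The common step of the two inductions: a class of numbers `P` closed under sums,
differences and multiplication by `O` contains `u i k * (c k - c i)` as soon as it contains
`T' i k - T i k` and the entries of `u` strictly between the diagonal and the entry i, k. -/
theorem gtConjIntAux_step {r : ℕ} (O : Subring ℂ) (c : Fin r → ℂ)
    (T T' u : Matrix (Fin r) (Fin r) ℂ)
    (hT : T.IsUpperTriangular) (hT' : T'.IsUpperTriangular) (hd : ∀ i, T i i = c i)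
    (hd' : ∀ i, T' i i = c i) (hTO : ∀ i k, T i k ∈ O) (hTO' : ∀ i k, T' i k ∈ O)
    (hu : u.IsUpperTriangular) (hu1 : ∀ i, u i i = 1) (huT : u * T = T' * u)
    (P : ℂ → Prop) (h0 : P 0) (hadd : ∀ x y, P x → P y → P (x + y))
    (hsub : ∀ x y, P x → P y → P (x - y)) (hmul : ∀ a ∈ O, ∀ x, P x → P (a * x))
    (i k : Fin r) (hik : i < k) (hdiff : P (T' i k - T i k))
    (hind : ∀ j, i < j → j < k → P (u j k) ∧ P (u i j)) :
    P (u i k * (c k - c i)) := by
  rw [gtConjIntAux_key c T T' u hd hd' hu1 huT i k (ne_of_lt hik)]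
  refine hadd _ _ hdiff (Finset.sum_induction _ P hadd h0 fun j hj => ?_)
  rw [Finset.mem_erase, Finset.mem_erase] at hj
  obtain ⟨hjk, hji, _⟩ := hj
  rcases lt_trichotomy j i with hlt | heq | hgt
  · have e1 : T' i j = 0 := hT' hlt
    have e2 : u i j = 0 := hu hlt
    rw [e1, e2, zero_mul, zero_mul, sub_zero]
    exact h0
  · exact absurd heq hji
  · rcases lt_trichotomy j k with hlt2 | heq2 | hgt2
    · obtain ⟨h1, h2⟩ := hind j hgt hlt2
      refine hsub _ _ (hmul _ (hTO' i j) _ h1) ?_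
      rw [mul_comm]
      exact hmul _ (hTO j k) _ h2
    · exact absurd heq2 hjk
    · have e1 : u j k = 0 := hu hgt2
      have e2 : T j k = 0 := hT hgt2
      rw [e1, e2, mul_zero, mul_zero, sub_zero]
      exact h0

/-- Bounded denominators: `δ ^ n * u i k ∈ O` when `k ≤ i + n`. -/
theorem gtConjIntAux_part1 {r : ℕ} (O : Subring ℂ) (c : Fin r → ℂ) (δ : ℂ) (hδ : δ ∈ O)
    (hdiv : ∀ i k, i ≠ k → ∃ w ∈ O, δ = (c k - c i) * w)
    (T T' u : Matrix (Fin r) (Fin r) ℂ)
    (hT : T.IsUpperTriangular) (hT' : T'.IsUpperTriangular) (hd : ∀ i, T i i = c i)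
    (hd' : ∀ i, T' i i = c i) (hTO : ∀ i k, T i k ∈ O) (hTO' : ∀ i k, T' i k ∈ O)
    (hu : u.IsUpperTriangular) (hu1 : ∀ i, u i i = 1) (huT : u * T = T' * u) (n : ℕ) :
    ∀ i k : Fin r, (k : ℕ) ≤ (i : ℕ) + n → δ ^ n * u i k ∈ O := by
  induction n with
  | zero =>
    intro i k hk
    have hki : k ≤ i := by
      rw [Fin.le_def]
      omega
    rcases lt_or_eq_of_le hki with h | h
    · have e : u i k = 0 := hu h
      rw [e, mul_zero]
      exact O.zero_mem
    · rw [h, hu1, pow_zero, mul_one]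
      exact O.one_mem
  | succ n ih =>
    intro i k hk
    by_cases hkn : (k : ℕ) ≤ (i : ℕ) + n
    · have e : δ ^ (n + 1) * u i k = δ * (δ ^ n * u i k) := by ring
      rw [e]
      exact O.mul_mem hδ (ih i k hkn)
    · have hik : i < k := by
        rw [Fin.lt_def]
        omega
      obtain ⟨w, hw, hδw⟩ := hdiv i k (ne_of_lt hik)
      have hP0 : δ ^ n * 0 ∈ O := by
        rw [mul_zero]
        exact O.zero_mem
      have hPadd : ∀ x y : ℂ, δ ^ n * x ∈ O → δ ^ n * y ∈ O → δ ^ n * (x + y) ∈ O := by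
        intro x y hx hy
        rw [mul_add]
        exact O.add_mem hx hy
      have hPsub : ∀ x y : ℂ, δ ^ n * x ∈ O → δ ^ n * y ∈ O → δ ^ n * (x - y) ∈ O := by
        intro x y hx hy
        rw [mul_sub]
        exact O.sub_mem hx hy
      have hPmul : ∀ a ∈ O, ∀ x : ℂ, δ ^ n * x ∈ O → δ ^ n * (a * x) ∈ O := by
        intro a ha x hx
        rw [mul_left_comm]
        exact O.mul_mem ha hx
      have hdiff : δ ^ n * (T' i k - T i k) ∈ O :=
        O.mul_mem (O.pow_mem hδ n) (O.sub_mem (hTO' i k) (hTO i k))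
      have hind : ∀ j, i < j → j < k → δ ^ n * u j k ∈ O ∧ δ ^ n * u i j ∈ O := by
        intro j hij hjk
        rw [Fin.lt_def] at hij hjk
        exact ⟨ih j k (by omega), ih i j (by omega)⟩
      have hstep : δ ^ n * (u i k * (c k - c i)) ∈ O :=
        gtConjIntAux_step O c T T' u hT hT' hd hd' hTO hTO' hu hu1 huT
          (fun x => δ ^ n * x ∈ O) hP0 hPadd hPsub hPmul i k hik hdiff hind
      have e : δ ^ (n + 1) * u i k = w * (δ ^ n * (u i k * (c k - c i))) := by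
        calc δ ^ (n + 1) * u i k = δ ^ n * u i k * δ := by ring
          _ = δ ^ n * u i k * ((c k - c i) * w) := by rw [← hδw]
          _ = w * (δ ^ n * (u i k * (c k - c i))) := by ring
      rw [e]
      exact O.mul_mem hw hstep

/-- Congruent triangular matrices: `u i k ∈ δ ^ (r - n) * O` when `i < k ≤ i + n`. -/
theorem gtConjIntAux_part2 {r : ℕ} (O : Subring ℂ) (c : Fin r → ℂ) (δ : ℂ) (hδ : δ ∈ O)
    (hδ0 : δ ≠ 0) (hdiv : ∀ i k, i ≠ k → ∃ w ∈ O, δ = (c k - c i) * w)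
    (T T' u : Matrix (Fin r) (Fin r) ℂ)
    (hT : T.IsUpperTriangular) (hT' : T'.IsUpperTriangular) (hd : ∀ i, T i i = c i)
    (hd' : ∀ i, T' i i = c i) (hTO : ∀ i k, T i k ∈ O) (hTO' : ∀ i k, T' i k ∈ O)
    (hu : u.IsUpperTriangular) (hu1 : ∀ i, u i i = 1) (huT : u * T = T' * u)
    (hcong : ∀ i k, ∃ w ∈ O, T' i k - T i k = δ ^ r * w) (n : ℕ) :
    ∀ i k : Fin r, i < k → (k : ℕ) ≤ (i : ℕ) + n → ∃ y ∈ O, u i k = δ ^ (r - n) * y := by
  induction n with
  | zero =>
    intro i k hik hk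
    rw [Fin.lt_def] at hik
    omega
  | succ n ih =>
    intro i k hik hk
    by_cases hkn : (k : ℕ) ≤ (i : ℕ) + n
    · obtain ⟨y, hy, hyu⟩ := ih i k hik hkn
      refine ⟨δ ^ ((r - n) - (r - (n + 1))) * y, O.mul_mem (O.pow_mem hδ _) hy, ?_⟩
      have e : r - n = (r - (n + 1)) + ((r - n) - (r - (n + 1))) := by omega
      rw [hyu, ← mul_assoc, ← pow_add, ← e]
    · have hkr : (k : ℕ) < r := k.isLt
      have hik' : (i : ℕ) < (k : ℕ) := Fin.lt_def.mp hik
      have hrn : r - n = (r - (n + 1)) + 1 := by omega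
      have hrn' : r = (r - n) + n := by omega
      obtain ⟨w, hw, hδw⟩ := hdiv i k (ne_of_lt hik)
      have hP0 : ∃ y ∈ O, (0 : ℂ) = δ ^ (r - n) * y := ⟨0, O.zero_mem, by rw [mul_zero]⟩
      have hPadd : ∀ x y : ℂ, (∃ a ∈ O, x = δ ^ (r - n) * a) → (∃ a ∈ O, y = δ ^ (r - n) * a)
          → ∃ a ∈ O, x + y = δ ^ (r - n) * a := by
        rintro x y ⟨a, ha, rfl⟩ ⟨b, hb, rfl⟩
        exact ⟨a + b, O.add_mem ha hb, by ring⟩
      have hPsub : ∀ x y : ℂ, (∃ a ∈ O, x = δ ^ (r - n) * a) → (∃ a ∈ O, y = δ ^ (r - n) * a)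
          → ∃ a ∈ O, x - y = δ ^ (r - n) * a := by
        rintro x y ⟨a, ha, rfl⟩ ⟨b, hb, rfl⟩
        exact ⟨a - b, O.sub_mem ha hb, by ring⟩
      have hPmul : ∀ a ∈ O, ∀ x : ℂ, (∃ b ∈ O, x = δ ^ (r - n) * b)
          → ∃ b ∈ O, a * x = δ ^ (r - n) * b := by
        rintro a ha x ⟨b, hb, rfl⟩
        exact ⟨a * b, O.mul_mem ha hb, by ring⟩
      have hdiff : ∃ y ∈ O, T' i k - T i k = δ ^ (r - n) * y := by
        obtain ⟨w0, hw0, hw0e⟩ := hcong i k
        refine ⟨δ ^ n * w0, O.mul_mem (O.pow_mem hδ n) hw0, ?_⟩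
        rw [hw0e, ← mul_assoc, ← pow_add, ← hrn']
      have hind : ∀ j, i < j → j < k →
          (∃ y ∈ O, u j k = δ ^ (r - n) * y) ∧ (∃ y ∈ O, u i j = δ ^ (r - n) * y) := by
        intro j hij hjk
        have h1 : (i : ℕ) < (j : ℕ) := Fin.lt_def.mp hij
        have h2 : (j : ℕ) < (k : ℕ) := Fin.lt_def.mp hjk
        exact ⟨ih j k hjk (by omega), ih i j hij (by omega)⟩
      have hstep : ∃ y ∈ O, u i k * (c k - c i) = δ ^ (r - n) * y :=
        gtConjIntAux_step O c T T' u hT hT' hd hd' hTO hTO' hu hu1 huT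
          (fun x => ∃ y ∈ O, x = δ ^ (r - n) * y) hP0 hPadd hPsub hPmul i k hik hdiff hind
      obtain ⟨Y, hY, hYe⟩ := hstep
      refine ⟨Y * w, O.mul_mem hY hw, ?_⟩
      have h1 : δ * u i k = δ * (δ ^ (r - (n + 1)) * (Y * w)) := by
        calc δ * u i k = u i k * δ := mul_comm _ _
          _ = u i k * ((c k - c i) * w) := by rw [← hδw]
          _ = u i k * (c k - c i) * w := by ring
          _ = δ ^ (r - n) * Y * w := by rw [hYe]
          _ = δ ^ ((r - (n + 1)) + 1) * Y * w := by rw [← hrn]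
          _ = δ * (δ ^ (r - (n + 1)) * (Y * w)) := by ring
      exact mul_left_cancel₀ hδ0 h1

/-- Let `T, T'` be upper triangular complex matrices with entries in a subring `O` and the
same diagonal `c`, and let `δ ≠ 0` in `O` be divisible in `O` by all differences `c k - c i`,
`i ≠ k`.  For the upper triangular conjugator `u` with unit diagonal, `u * T = T' * u`:
the entries of `δ ^ r * u` lie in `O`; and if `T' - T` has entries in `δ ^ r * O`, then `u` has
entries in `O`. -/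
theorem gt_conj_int {r : ℕ} (O : Subring ℂ) (c : Fin r → ℂ) (δ : ℂ) (hδ : δ ∈ O) (hδ0 : δ ≠ 0)
    (hdiv : ∀ i k, i ≠ k → ∃ w ∈ O, δ = (c k - c i) * w)
    (T T' u : Matrix (Fin r) (Fin r) ℂ)
    (hT : T.IsUpperTriangular) (hT' : T'.IsUpperTriangular) (hd : ∀ i, T i i = c i)
    (hd' : ∀ i, T' i i = c i) (hTO : ∀ i k, T i k ∈ O) (hTO' : ∀ i k, T' i k ∈ O)
    (hu : u.IsUpperTriangular) (hu1 : ∀ i, u i i = 1) (huT : u * T = T' * u) :
    (∀ i k, δ ^ r * u i k ∈ O) ∧
      ((∀ i k, ∃ w ∈ O, T' i k - T i k = δ ^ r * w) → ∀ i k, u i k ∈ O) := by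
  refine ⟨fun i k => gtConjIntAux_part1 O c δ hδ hdiv T T' u hT hT' hd hd' hTO hTO' hu hu1
    huT r i k (by have := k.isLt; omega), fun hcong i k => ?_⟩
  rcases lt_trichotomy i k with h | h | h
  · obtain ⟨y, hy, hyu⟩ := gtConjIntAux_part2 O c δ hδ hδ0 hdiv T T' u hT hT' hd hd' hTO hTO'
      hu hu1 huT hcong r i k h (by have := k.isLt; omega)
    rw [hyu, Nat.sub_self, pow_zero, one_mul]
    exact hy
  · rw [h, hu1]
    exact O.one_mem
  · have e : u i k = 0 := hu h
    rw [e]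
    exact O.zero_mem

end Vale.Agent.Lib.P002
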