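import Vale.Agent.Lib.P002.GTConj
import Vale.Agent.Lib.P002.GTConjInt

/-!
# Unipotent conjugators between lower triangular matrices (by transposition)
-/

open Matrix

namespace Vale.Agent.Lib.P002

/-- The transpose of a lower triangular matrix is upper triangular. -/
theorem gtConjLowAux_up {R : Type*} [CommRing R] {r : ℕ} (T : Matrix (Fin r) (Fin r) R)
    (hT : T.IsLowerTriangular) : Tᵀ.IsUpperTriangular :=
  fun _ _ hij => hT hij

/-- The transpose of an upper triangular matrix is lower triangular. -/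
theorem gtConjLowAux_low {R : Type*} [CommRing R] {r : ℕ} (T : Matrix (Fin r) (Fin r) R)
    (hT : T.IsUpperTriangular) : Tᵀ.IsLowerTriangular :=
  fun _ _ hij => hT hij

/-- Transposing the intertwining relation. -/
theorem gtConjLowAux_tr {R : Type*} [CommRing R] {r : ℕ} (u T T' : Matrix (Fin r) (Fin r) R)
    (h : u * T = T' * u) : uᵀ * T'ᵀ = Tᵀ * uᵀ := by
  rw [← Matrix.transpose_mul, ← Matrix.transpose_mul, h]

theorem gt_conjL_exists {R : Type*} [CommRing R] {r : ℕ} (c : Fin r → R)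
    (hc : ∀ i k, i ≠ k → IsUnit (c k - c i)) (T T' : Matrix (Fin r) (Fin r) R)
    (hT : T.IsLowerTriangular) (hT' : T'.IsLowerTriangular) (hd : ∀ i, T i i = c i)
    (hd' : ∀ i, T' i i = c i) :
    ∃ u : Matrix (Fin r) (Fin r) R, u.IsLowerTriangular ∧ (∀ i, u i i = 1) ∧ u * T = T' * u := by
  obtain ⟨w, hw, hw1, hwT⟩ := gt_conj_exists c hc T'ᵀ Tᵀ (gtConjLowAux_up T' hT')
    (gtConjLowAux_up T hT) (fun i => by rw [Matrix.transpose_apply]; exact hd' i)
    (fun i => by rw [Matrix.transpose_apply]; exact hd i)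
  refine ⟨wᵀ, gtConjLowAux_low w hw, fun i => ?_, ?_⟩
  · rw [Matrix.transpose_apply]
    exact hw1 i
  · have e := gtConjLowAux_tr w T'ᵀ Tᵀ hwT
    rw [Matrix.transpose_transpose, Matrix.transpose_transpose] at e
    exact e

theorem gt_conjL_unique {R : Type*} [CommRing R] {r : ℕ} (c : Fin r → R)
    (hc : ∀ i k, i ≠ k → IsUnit (c k - c i)) (T T' : Matrix (Fin r) (Fin r) R)
    (hT : T.IsLowerTriangular) (hT' : T'.IsLowerTriangular) (hd : ∀ i, T i i = c i)
    (hd' : ∀ i, T' i i = c i) (u u' : Matrix (Fin r) (Fin r) R)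
    (hu : u.IsLowerTriangular) (hu1 : ∀ i, u i i = 1) (huT : u * T = T' * u)
    (hu' : u'.IsLowerTriangular) (hu1' : ∀ i, u' i i = 1) (huT' : u' * T = T' * u') :
    u = u' := by
  have h := gt_conj_unique c hc T'ᵀ Tᵀ (gtConjLowAux_up T' hT') (gtConjLowAux_up T hT)
    (fun i => by rw [Matrix.transpose_apply]; exact hd' i)
    (fun i => by rw [Matrix.transpose_apply]; exact hd i) uᵀ u'ᵀ
    (gtConjLowAux_up u hu) (fun i => by rw [Matrix.transpose_apply]; exact hu1 i)
    (gtConjLowAux_tr u T T' huT)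
    (gtConjLowAux_up u' hu') (fun i => by rw [Matrix.transpose_apply]; exact hu1' i)
    (gtConjLowAux_tr u' T T' huT')
  exact Matrix.transpose_injective h

theorem gt_conjL_int {r : ℕ} (O : Subring ℂ) (c : Fin r → ℂ) (δ : ℂ) (hδ : δ ∈ O) (hδ0 : δ ≠ 0)
    (hdiv : ∀ i k, i ≠ k → ∃ w ∈ O, δ = (c k - c i) * w)
    (T T' u : Matrix (Fin r) (Fin r) ℂ)
    (hT : T.IsLowerTriangular) (hT' : T'.IsLowerTriangular) (hd : ∀ i, T i i = c i)
    (hd' : ∀ i, T' i i = c i) (hTO : ∀ i k, T i k ∈ O) (hTO' : ∀ i k, T' i k ∈ O)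
    (hu : u.IsLowerTriangular) (hu1 : ∀ i, u i i = 1) (huT : u * T = T' * u) :
    (∀ i k, δ ^ r * u i k ∈ O) ∧
      ((∀ i k, ∃ w ∈ O, T' i k - T i k = δ ^ r * w) → ∀ i k, u i k ∈ O) := by
  obtain ⟨h1, h2⟩ := gt_conj_int O c δ hδ hδ0 hdiv T'ᵀ Tᵀ uᵀ (gtConjLowAux_up T' hT')
    (gtConjLowAux_up T hT) (fun i => by rw [Matrix.transpose_apply]; exact hd' i)
    (fun i => by rw [Matrix.transpose_apply]; exact hd i)
    (fun i k => by rw [Matrix.transpose_apply]; exact hTO' k i)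
    (fun i k => by rw [Matrix.transpose_apply]; exact hTO k i)
    (gtConjLowAux_up u hu) (fun i => by rw [Matrix.transpose_apply]; exact hu1 i)
    (gtConjLowAux_tr u T T' huT)
  refine ⟨fun i k => ?_, fun hcong i k => ?_⟩
  · have e := h1 k i
    rw [Matrix.transpose_apply] at e
    exact e
  · have e := h2 (fun a b => by
      obtain ⟨w, hw, hwe⟩ := hcong b a
      refine ⟨-w, O.neg_mem hw, ?_⟩
      rw [Matrix.transpose_apply, Matrix.transpose_apply]
      linear_combination (-1 : ℂ) * hwe) k i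
    rw [Matrix.transpose_apply] at e
    exact e

end Vale.Agent.Lib.P002
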