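import Vale.Agent.Lib.P002.GQDefs
import Vale.Agent.Lib.P002.Units

/-!
# Closed surfaces of every genus, arbitrary rank: definitions

The closed surface of genus `n` is the double of the sphere with `n + 1` punctures.  A
representation of its fundamental group is given by two representations `z, z'` of the free
group on `n` generators with the same total product and conjugate generators,
`z' j = σ j * z j * (σ j)⁻¹`: the standard generators are
`a j = p * σ j * p⁻¹`, `b j = p * z j * p⁻¹` with `p = z 0 * ⋯ * z (j - 1)`.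

This file contains the index types of the parameters, the rings of functions on the parameter
torus used for the integrality and density arguments, and the chart points of the punctured
sphere.
-/

open Matrix

namespace Vale.Agent.Lib.P002

/-- A tuple with product one built from `r - 1` free entries: the last entry is the inverse of
the product of the others. -/
def gtLast {G : Type*} [CommGroup G] {r : ℕ} (ε : Fin (r - 1) → G) : Fin r → G :=
  fun i => if h : (i : ℕ) < r - 1 then ε ⟨i, h⟩ else (∏ k, ε k)⁻¹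

/-- Index type of the parameters of one chart point with its eigenvalue data: free eigenvalues
at the last puncture, free eigenvalues at the other punctures, effective chart parameters. -/
abbrev GtK0 (n r : ℕ) : Type := Fin (r - 1) ⊕ ((Fin n × Fin (r - 1)) ⊕ GqIdx 0 n r)

/-- Index type of the remaining parameters: effective chart parameters of the second chart
point, twist parameters at the last puncture and at the other punctures. -/
abbrev GtK2 (n r : ℕ) : Type := GqIdx 0 n r ⊕ (Fin (r - 1) ⊕ (Fin n × Fin (r - 1)))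

/-- Index type of all parameters. -/
abbrev GtK (n r : ℕ) : Type := GtK0 n r ⊕ GtK2 n r

/-- The eigenvalues at the last puncture. -/
def gtC {G : Type*} [CommGroup G] {n r : ℕ} (θ : GtK0 n r → G) : Fin r → G :=
  gtLast fun i => θ (Sum.inl i)

/-- The eigenvalues at the other punctures. -/
def gtD {G : Type*} [CommGroup G] {n r : ℕ} (θ : GtK0 n r → G) : Fin n → Fin r → G :=
  fun j => gtLast fun i => θ (Sum.inr (Sum.inl (j, i)))

/-- The effective chart parameters. -/
def gtS {G : Type*} {n r : ℕ} (θ : GtK0 n r → G) : GqIdx 0 n r → G :=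
  fun w => θ (Sum.inr (Sum.inr w))

/-- The parameters of the first chart point. -/
def gtP1 {G : Type*} {n r : ℕ} (θ : GtK n r → G) : GtK0 n r → G := fun v => θ (Sum.inl v)

/-- The parameters of the second chart point: same eigenvalue data, other chart parameters. -/
def gtP2 {G : Type*} {n r : ℕ} (θ : GtK n r → G) : GtK0 n r → G :=
  Sum.elim (fun i => θ (Sum.inl (Sum.inl i)))
    (Sum.elim (fun v => θ (Sum.inl (Sum.inr (Sum.inl v)))) (fun w => θ (Sum.inr (Sum.inl w))))

/-- The twist at the last puncture (last entry `1`). -/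
def gtLam {G : Type*} [CommGroup G] {n r : ℕ} (θ : GtK n r → G) : Fin r → G :=
  fun i => if h : (i : ℕ) < r - 1 then θ (Sum.inr (Sum.inr (Sum.inl ⟨i, h⟩))) else 1

/-- The twists at the other punctures (the product of `gtLam θ` and `gtMu θ j` is one). -/
def gtMu {G : Type*} [CommGroup G] {n r : ℕ} (θ : GtK n r → G) : Fin n → Fin r → G :=
  fun j i => if h : (i : ℕ) < r - 1 then θ (Sum.inr (Sum.inr (Sum.inr (j, ⟨i, h⟩))))
    else ((∏ k : Fin (r - 1), θ (Sum.inr (Sum.inr (Sum.inl k)))) *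
      ∏ k : Fin (r - 1), θ (Sum.inr (Sum.inr (Sum.inr (j, k)))))⁻¹

/-- The discriminant of the eigenvalue data: the product of all differences of distinct
eigenvalues at the same puncture. -/
def gtDisc {n r : ℕ} (θ : GtK0 n r → ℂˣ) : ℂ :=
  (∏ i : Fin r, ∏ k : Fin r, if i = k then (1 : ℂ) else (((gtC θ k : ℂˣ) : ℂ) - ((gtC θ i : ℂˣ) : ℂ))) *
    ∏ j : Fin n, ∏ i : Fin r, ∏ k : Fin r,
      if i = k then (1 : ℂ) else (((gtD θ j k : ℂˣ) : ℂ) - ((gtD θ j i : ℂˣ) : ℂ))

/-! ### Rings of functions on the parameter torus -/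

/-- Evaluation of a polynomial at the parameters and their inverses. -/
noncomputable def gtEval {κ : Type} (θ : κ → ℂˣ) : MvPolynomial (κ ⊕ κ) ℂ →+* ℂ :=
  MvPolynomial.eval (Sum.elim (fun i => (θ i : ℂ)) (fun i => (((θ i)⁻¹ : ℂˣ) : ℂ)))

/-- Evaluation of a polynomial with integer coefficients at the parameters and their
inverses. -/
noncomputable def gtEvalZ {κ : Type} (θ : κ → ℂˣ) : MvPolynomial (κ ⊕ κ) ℤ →+* ℂ :=
  MvPolynomial.eval₂Hom (Int.castRingHom ℂ)
    (Sum.elim (fun i => (θ i : ℂ)) (fun i => (((θ i)⁻¹ : ℂˣ) : ℂ)))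

/-- The ring of Laurent polynomial functions with integer coefficients on the torus. -/
noncomputable def gtInt (κ : Type) : Subring ((κ → ℂˣ) → ℂ) :=
  (RingHom.pi fun θ : κ → ℂˣ => gtEvalZ θ).range

/-- Evaluation at a point of the torus. -/
noncomputable def gtIntEv {κ : Type} (θ : κ → ℂˣ) : gtInt κ →+* ℂ :=
  (Pi.evalRingHom (fun _ : κ → ℂˣ => ℂ) θ).comp (gtInt κ).subtype

/-- The coordinate functions, units of the ring. -/
noncomputable def gtIntT {κ : Type} (v : κ) : (gtInt κ)ˣ where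
  val := ⟨(RingHom.pi fun θ : κ → ℂˣ => gtEvalZ θ) (MvPolynomial.X (Sum.inl v)), ⟨_, rfl⟩⟩
  inv := ⟨(RingHom.pi fun θ : κ → ℂˣ => gtEvalZ θ) (MvPolynomial.X (Sum.inr v)), ⟨_, rfl⟩⟩
  val_inv := by
    apply Subtype.ext
    funext θ
    show gtEvalZ θ (MvPolynomial.X (Sum.inl v)) * gtEvalZ θ (MvPolynomial.X (Sum.inr v)) = 1
    simp [gtEvalZ]
  inv_val := by
    apply Subtype.ext
    funext θ
    show gtEvalZ θ (MvPolynomial.X (Sum.inr v)) * gtEvalZ θ (MvPolynomial.X (Sum.inl v)) = 1
    simp [gtEvalZ]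

theorem gtIntEv_T {κ : Type} (θ : κ → ℂˣ) (v : κ) :
    gtIntEv θ ((gtIntT v : (gtInt κ)ˣ) : gtInt κ) = (θ v : ℂ) := by
  show gtEvalZ θ (MvPolynomial.X (Sum.inl v)) = (θ v : ℂ)
  simp [gtEvalZ]

/-- Functions on the locus where the discriminant `PD` does not vanish that become Laurent
polynomials after multiplication by a power of the discriminant. -/
def gtRat {κ : Type} (PD : MvPolynomial (κ ⊕ κ) ℂ) :
    Subring ({θ : κ → ℂˣ // gtEval θ PD ≠ 0} → ℂ) where
  carrier := {h | ∃ (M : ℕ) (P : MvPolynomial (κ ⊕ κ) ℂ),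
    ∀ θ, gtEval θ.1 PD ^ M * h θ = gtEval θ.1 P}
  mul_mem' := by
    rintro f g ⟨M, P, hP⟩ ⟨M', P', hP'⟩
    refine ⟨M + M', P * P', fun θ => ?_⟩
    rw [map_mul, ← hP θ, ← hP' θ, Pi.mul_apply]
    ring
  one_mem' := ⟨0, 1, fun θ => by simp⟩
  add_mem' := by
    rintro f g ⟨M, P, hP⟩ ⟨M', P', hP'⟩
    refine ⟨M + M', PD ^ M' * P + PD ^ M * P', fun θ => ?_⟩
    rw [map_add, map_mul, map_mul, map_pow, map_pow, ← hP θ, ← hP' θ, Pi.add_apply]
    ring
  zero_mem' := ⟨0, 0, fun θ => by simp⟩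
  neg_mem' := by
    rintro f ⟨M, P, hP⟩
    refine ⟨M, -P, fun θ => ?_⟩
    rw [map_neg, ← hP θ, Pi.neg_apply]
    ring

/-- Evaluation at a point of the locus. -/
def gtRatEv {κ : Type} (PD : MvPolynomial (κ ⊕ κ) ℂ) (θ : {θ : κ → ℂˣ // gtEval θ PD ≠ 0}) :
    gtRat PD →+* ℂ :=
  (Pi.evalRingHom (fun _ : {θ : κ → ℂˣ // gtEval θ PD ≠ 0} => ℂ) θ).comp (gtRat PD).subtype

/-- The entries of a matrix valued function on the locus belong to the ring `gtRat PD`. -/
def gtIn {κ : Type} (PD : MvPolynomial (κ ⊕ κ) ℂ) {r : ℕ}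
    (f : {θ : κ → ℂˣ // gtEval θ PD ≠ 0} → Matrix (Fin r) (Fin r) ℂ) : Prop :=
  ∀ i k, (fun θ => f θ i k) ∈ gtRat PD

/-- The polynomial of an eigenvalue at the last puncture. -/
noncomputable def gtCPoly (n r : ℕ) (i : Fin r) : MvPolynomial (GtK n r ⊕ GtK n r) ℂ :=
  if h : (i : ℕ) < r - 1 then MvPolynomial.X (Sum.inl (Sum.inl (Sum.inl ⟨i, h⟩)))
  else ∏ k : Fin (r - 1), MvPolynomial.X (Sum.inr (Sum.inl (Sum.inl k)))

/-- The polynomial of an eigenvalue at another puncture. -/
noncomputable def gtDPoly (n r : ℕ) (j : Fin n) (i : Fin r) :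
    MvPolynomial (GtK n r ⊕ GtK n r) ℂ :=
  if h : (i : ℕ) < r - 1 then MvPolynomial.X (Sum.inl (Sum.inl (Sum.inr (Sum.inl (j, ⟨i, h⟩)))))
  else ∏ k : Fin (r - 1), MvPolynomial.X (Sum.inr (Sum.inl (Sum.inr (Sum.inl (j, k)))))

/-- The polynomial of the discriminant. -/
noncomputable def gtPD (n r : ℕ) : MvPolynomial (GtK n r ⊕ GtK n r) ℂ :=
  (∏ i : Fin r, ∏ k : Fin r, if i = k then 1 else (gtCPoly n r k - gtCPoly n r i)) *
    ∏ j : Fin n, ∏ i : Fin r, ∏ k : Fin r,
      if i = k then 1 else (gtDPoly n r j k - gtDPoly n r j i)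

/-- The subring of algebraic integers of the number field `ℚ(√2)`. -/
noncomputable def gtO : Subring ℂ := fieldL.toSubring ⊓ (integralClosure ℤ ℂ).toSubring

theorem gtO_mem (x : ℂ) : x ∈ gtO ↔ x ∈ fieldL ∧ IsIntegral ℤ x := Iff.rfl

/-! ### Chart points of the punctured sphere -/

theorem gtHN {n : ℕ} (hn : 2 ≤ n) : 2 ≤ 2 * 0 + n := by omega

/-- `z` is the chart point of the sphere with `n + 1` punctures with eigenvalue data `c, d` and
effective parameters `s`. -/
def gtIsPt {R : Type*} [CommRing R] {n r : ℕ} (hn : 2 ≤ n) (c : Fin r → Rˣ)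
    (d : Fin n → Fin r → Rˣ) (s : GqIdx 0 n r → Rˣ) (z : Fin n → Matrix (Fin r) (Fin r) R) :
    Prop :=
  gpIsPt c d (gqSec (gqEmb (gtHN hn)) s) (fun _ : Fin 0 => (1 : Matrix (Fin r) (Fin r) R))
    (fun _ : Fin 0 => (1 : Matrix (Fin r) (Fin r) R)) z

/-- The product of the first `j` members of a family. -/
def gtPre {M : Type*} [Monoid M] {n : ℕ} (z : Fin n → M) (j : ℕ) : M :=
  ((List.ofFn z).take j).prod

open Classical in
/-- A matrix of determinant one as an element of the special linear group (`1` otherwise). -/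
noncomputable def gtSL {r : ℕ} (m : Matrix (Fin r) (Fin r) ℂ) :
    Matrix.SpecialLinearGroup (Fin r) ℂ :=
  if h : m.det = 1 then (⟨m, h⟩ : Matrix.SpecialLinearGroup (Fin r) ℂ) else 1

theorem gtSL_val {r : ℕ} (m : Matrix (Fin r) (Fin r) ℂ) (h : m.det = 1) : (gtSL m).1 = m := by
  have e : gtSL m = (⟨m, h⟩ : Matrix.SpecialLinearGroup (Fin r) ℂ) := dif_pos h
  rw [e]

end Vale.Agent.Lib.P002
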