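import Vale.Agent.Lib.P002.GTDefs
import Vale.Agent.Lib.P002.Laurent

/-!
# Density on the parameter torus, two levels
-/

namespace Vale.Agent.Lib.P002

/-- Grid density with a separate infinite set for each variable. -/
theorem gtDensAux_grid {ι : Type*} [Fintype ι] [DecidableEq ι] (f : (ι → ℂˣ) → ℂ)
    (hf : ∀ (s : ι → ℂˣ) (v : ι), IsLaurent (fun u => f (Function.update s v u)))
    (A : ι → Set ℂˣ) (hA : ∀ v, (A v).Infinite)
    (h0 : ∀ s : ι → ℂˣ, (∀ v, s v ∈ A v) → f s = 0)
    (s : ι → ℂˣ) : f s = 0 := by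
  have key : ∀ T : Finset ι, ∀ s : ι → ℂˣ, (∀ v, v ∉ T → s v ∈ A v) → f s = 0 := by
    intro T
    induction T using Finset.induction_on with
    | empty =>
      intro s hs
      exact h0 s (fun v => hs v (Finset.notMem_empty v))
    | insert a T ha ih =>
      intro s hs
      have h1 : ∀ u ∈ A a, f (Function.update s a u) = 0 := by
        intro u hu
        apply ih
        intro v hv
        by_cases hva : v = a
        · subst hva
          simpa using hu
        · rw [Function.update_of_ne hva]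
          exact hs v (by simp [hva, hv])
      have h2 := (hf s a).eq_zero_of_infinite (A a) (hA a) h1 (s a)
      simpa using h2
  exact key Finset.univ s (fun v hv => absurd (Finset.mem_univ v) hv)

/-- The evaluation of a polynomial at the parameters and their inverses is a Laurent function
of each parameter separately. -/
theorem gtDensAux_laurent {κ : Type} [DecidableEq κ] (Q : MvPolynomial (κ ⊕ κ) ℂ)
    (θ : κ → ℂˣ) (v : κ) : IsLaurent (fun u => gtEval (Function.update θ v u) Q) := by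
  unfold gtEval
  apply IsLaurent.eval_mvPolynomial
    (fun u => Sum.elim (fun i => ((Function.update θ v u i : ℂˣ) : ℂ))
      (fun i => (((Function.update θ v u i)⁻¹ : ℂˣ) : ℂ)))
  intro w
  rcases w with w | w
  · by_cases hw : w = v
    · subst hw
      simpa using isLaurent_id
    · simpa [Function.update_of_ne hw] using isLaurent_const ((θ w : ℂˣ) : ℂ)
  · by_cases hw : w = v
    · subst hw
      simpa using isLaurent_inv
    · simpa [Function.update_of_ne hw] using isLaurent_const (((θ w)⁻¹ : ℂˣ) : ℂ)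

/-- **Two-level density.** The parameters are split into two blocks `κ0, κ2`, and the
discriminant `PD` depends only on the first block.  Let `h` be an element of `gtRat PD` that
vanishes at all points of the locus whose first block lies in `U^κ0` (`U` infinite) and whose
second block lies in a product of infinite sets `V` depending on the first block.  Then `h`
vanishes on the whole locus. -/
theorem gt_dens {κ0 κ2 : Type} [Fintype κ0] [Fintype κ2]
    (PD : MvPolynomial ((κ0 ⊕ κ2) ⊕ (κ0 ⊕ κ2)) ℂ)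
    (hPD : ∀ θ θ' : κ0 ⊕ κ2 → ℂˣ, (∀ v, θ (Sum.inl v) = θ' (Sum.inl v)) →
      gtEval θ PD = gtEval θ' PD)
    (U : Set ℂˣ) (hU : U.Infinite) (V : (κ0 → ℂˣ) → κ2 → Set ℂˣ)
    (hV : ∀ θ : κ0 ⊕ κ2 → ℂˣ, gtEval θ PD ≠ 0 → (∀ v, θ (Sum.inl v) ∈ U) →
      ∀ w, (V (fun v => θ (Sum.inl v)) w).Infinite)
    (h : {θ : κ0 ⊕ κ2 → ℂˣ // gtEval θ PD ≠ 0} → ℂ) (hh : h ∈ gtRat PD)
    (h0 : ∀ θ : {θ : κ0 ⊕ κ2 → ℂˣ // gtEval θ PD ≠ 0}, (∀ v, θ.1 (Sum.inl v) ∈ U) →
      (∀ w, θ.1 (Sum.inr w) ∈ V (fun v => θ.1 (Sum.inl v)) w) → h θ = 0) :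
    ∀ θ, h θ = 0 := by
  classical
  obtain ⟨M, P, hP⟩ := hh
  -- first level: the second block
  have L1 : ∀ e : κ0 → ℂˣ, (∀ v, e v ∈ U) → ∀ ϑ0 : κ2 → ℂˣ,
      gtEval (Sum.elim e ϑ0) PD ≠ 0 → ∀ ϑ : κ2 → ℂˣ, gtEval (Sum.elim e ϑ) P = 0 := by
    intro e heU ϑ0 hne ϑ
    have hne' : ∀ ϑ' : κ2 → ℂˣ, gtEval (Sum.elim e ϑ') PD ≠ 0 := by
      intro ϑ'
      rw [hPD (Sum.elim e ϑ') (Sum.elim e ϑ0) (fun v => rfl)]
      exact hne
    have hVinf : ∀ w, (V e w).Infinite := fun w => hV (Sum.elim e ϑ0) hne (fun v => heU v) w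
    refine gtDensAux_grid (fun ϑ' => gtEval (Sum.elim e ϑ') P) ?_ (V e) hVinf ?_ ϑ
    · intro s w
      have hl := gtDensAux_laurent P (Sum.elim e s) (Sum.inr w)
      simpa only [Sum.update_elim_inr] using hl
    · intro s hs
      have h1 := hP ⟨Sum.elim e s, hne' s⟩
      have h2 : h ⟨Sum.elim e s, hne' s⟩ = 0 :=
        h0 ⟨Sum.elim e s, hne' s⟩ (fun v => heU v) (fun w => hs w)
      rw [h2, mul_zero] at h1
      exact h1.symm
  -- second level: the first block
  have L2 : ∀ (ϑ : κ2 → ℂˣ) (e : κ0 → ℂˣ), gtEval (Sum.elim e ϑ) (P * PD) = 0 := by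
    intro ϑ
    refine eq_zero_of_grid (fun e => gtEval (Sum.elim e ϑ) (P * PD)) ?_ U hU ?_
    · intro s v
      have hl := gtDensAux_laurent (P * PD) (Sum.elim s ϑ) (Sum.inl v)
      simpa only [Sum.update_elim_inl] using hl
    · intro s hs
      show gtEval (Sum.elim s ϑ) (P * PD) = 0
      rw [map_mul]
      by_cases hz : gtEval (Sum.elim s ϑ) PD = 0
      · rw [hz, mul_zero]
      · rw [L1 s hs ϑ hz ϑ, zero_mul]
  intro θ
  have hθ : θ.1 = Sum.elim (fun v => θ.1 (Sum.inl v)) (fun w => θ.1 (Sum.inr w)) := by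
    funext x
    cases x <;> rfl
  have h3 := L2 (fun w => θ.1 (Sum.inr w)) (fun v => θ.1 (Sum.inl v))
  rw [← hθ, map_mul] at h3
  have h4 : gtEval θ.1 P = 0 := by
    rcases mul_eq_zero.mp h3 with h5 | h5
    · exact h5
    · exact absurd h5 θ.2
  have h6 := hP θ
  rw [h4] at h6
  rcases mul_eq_zero.mp h6 with h7 | h7
  · exact absurd h7 (pow_ne_zero _ θ.2)
  · exact h7

end Vale.Agent.Lib.P002
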