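import Vale.Agent.Lib.P002.GTRat

/-!
# The discriminant polynomial and the inverses of the differences of eigenvalues
-/

namespace Vale.Agent.Lib.P002

theorem gtP2_C {n r : ℕ} (θ : GtK n r → ℂˣ) : gtC (gtP2 θ) = gtC (gtP1 θ) := rfl

theorem gtP2_D {n r : ℕ} (θ : GtK n r → ℂˣ) : gtD (gtP2 θ) = gtD (gtP1 θ) := rfl

theorem gtCPoly_eval {n r : ℕ} (θ : GtK n r → ℂˣ) (i : Fin r) :
    gtEval θ (gtCPoly n r i) = ((gtC (gtP1 θ) i : ℂˣ) : ℂ) := by
  unfold gtCPoly gtC gtLast gtP1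
  by_cases h : (i : ℕ) < r - 1
  · rw [dif_pos h, dif_pos h]
    simp [gtEval]
  · rw [dif_neg h, dif_neg h, map_prod, ← Finset.prod_inv_distrib, Units.coe_prod]
    simp [gtEval]

theorem gtDPoly_eval {n r : ℕ} (θ : GtK n r → ℂˣ) (j : Fin n) (i : Fin r) :
    gtEval θ (gtDPoly n r j i) = ((gtD (gtP1 θ) j i : ℂˣ) : ℂ) := by
  unfold gtDPoly gtD gtLast gtP1
  by_cases h : (i : ℕ) < r - 1
  · rw [dif_pos h, dif_pos h]
    simp [gtEval]
  · rw [dif_neg h, dif_neg h, map_prod, ← Finset.prod_inv_distrib, Units.coe_prod]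
    simp [gtEval]

theorem gtPD_eval {n r : ℕ} (θ : GtK n r → ℂˣ) : gtEval θ (gtPD n r) = gtDisc (gtP1 θ) := by
  unfold gtPD gtDisc
  simp only [map_mul, map_prod, apply_ite (gtEval θ), map_one, map_sub, gtCPoly_eval,
    gtDPoly_eval]

/-- The product of all differences of distinct members of a family of units does not vanish
exactly when the family is injective. -/
theorem gtRatDiscAux_inj {r : ℕ} (c : Fin r → ℂˣ) :
    (∏ i : Fin r, ∏ k : Fin r,
      if i = k then (1 : ℂ) else (((c k : ℂˣ) : ℂ) - ((c i : ℂˣ) : ℂ))) ≠ 0 ↔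
      Function.Injective c := by
  rw [Finset.prod_ne_zero_iff]
  constructor
  · intro h i k hik
    by_contra hne
    have h1 := h i (Finset.mem_univ i)
    rw [Finset.prod_ne_zero_iff] at h1
    have h2 := h1 k (Finset.mem_univ k)
    rw [if_neg hne] at h2
    apply h2
    rw [hik, sub_self]
  · intro hinj i _
    rw [Finset.prod_ne_zero_iff]
    intro k _
    split_ifs with hik
    · exact one_ne_zero
    · intro h0
      exact hik (hinj (Units.val_injective (sub_eq_zero.mp h0))).symm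

/-- The discriminant does not vanish exactly when the eigenvalues at each puncture are
distinct. -/
theorem gtDisc_ne {n r : ℕ} (θ : GtK0 n r → ℂˣ) :
    gtDisc θ ≠ 0 ↔ Function.Injective (gtC θ) ∧ ∀ j, Function.Injective (gtD θ j) := by
  unfold gtDisc
  rw [mul_ne_zero_iff, gtRatDiscAux_inj, Finset.prod_ne_zero_iff]
  constructor
  · rintro ⟨h1, h2⟩
    exact ⟨h1, fun j => (gtRatDiscAux_inj _).mp (h2 j (Finset.mem_univ j))⟩
  · rintro ⟨h1, h2⟩
    exact ⟨h1, fun j _ => (gtRatDiscAux_inj _).mpr (h2 j)⟩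

/-- A difference of two distinct members of a family divides the product of all such
differences. -/
theorem gtRatDiscAux_dvd {R : Type*} [CommRing R] {r : ℕ} (c : Fin r → R) (i k : Fin r)
    (hik : i ≠ k) :
    (c k - c i) ∣ ∏ i' : Fin r, ∏ k' : Fin r, if i' = k' then (1 : R) else (c k' - c i') := by
  have h1 : (c k - c i) ∣ ∏ k' : Fin r, if i = k' then (1 : R) else (c k' - c i) := by
    have h := Finset.dvd_prod_of_mem
      (fun k' : Fin r => if i = k' then (1 : R) else (c k' - c i)) (Finset.mem_univ k)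
    simp only [if_neg hik] at h
    exact h
  exact h1.trans (Finset.dvd_prod_of_mem
    (fun i' : Fin r => ∏ k' : Fin r, if i' = k' then (1 : R) else (c k' - c i'))
    (Finset.mem_univ i))

theorem gtRat_diffC {n r : ℕ} (i k : Fin r) (hik : i ≠ k) :
    (fun θ : {θ : GtK n r → ℂˣ // gtEval θ (gtPD n r) ≠ 0} =>
      (((gtC (gtP1 θ.1) k : ℂˣ) : ℂ) - ((gtC (gtP1 θ.1) i : ℂˣ) : ℂ))⁻¹) ∈ gtRat (gtPD n r) := by
  have hdvd : (gtCPoly n r k - gtCPoly n r i) ∣ gtPD n r := by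
    unfold gtPD
    exact Dvd.dvd.mul_right (gtRatDiscAux_dvd (gtCPoly n r) i k hik) _
  obtain ⟨Q, hQ⟩ := hdvd
  have h := gtRat_inv (gtPD n r) _ Q hQ.symm
  have e : (fun θ : {θ : GtK n r → ℂˣ // gtEval θ (gtPD n r) ≠ 0} =>
      (((gtC (gtP1 θ.1) k : ℂˣ) : ℂ) - ((gtC (gtP1 θ.1) i : ℂˣ) : ℂ))⁻¹) =
      fun θ => (gtEval θ.1 (gtCPoly n r k - gtCPoly n r i))⁻¹ := by
    funext θ
    rw [map_sub, gtCPoly_eval, gtCPoly_eval]
  rw [e]
  exact h

theorem gtRat_diffD {n r : ℕ} (j : Fin n) (i k : Fin r) (hik : i ≠ k) :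
    (fun θ : {θ : GtK n r → ℂˣ // gtEval θ (gtPD n r) ≠ 0} =>
      (((gtD (gtP1 θ.1) j k : ℂˣ) : ℂ) - ((gtD (gtP1 θ.1) j i : ℂˣ) : ℂ))⁻¹) ∈
        gtRat (gtPD n r) := by
  have hdvd : (gtDPoly n r j k - gtDPoly n r j i) ∣ gtPD n r := by
    unfold gtPD
    refine Dvd.dvd.mul_left ((gtRatDiscAux_dvd (gtDPoly n r j) i k hik).trans ?_) _
    exact Finset.dvd_prod_of_mem
      (fun j' : Fin n => ∏ i' : Fin r, ∏ k' : Fin r,
        if i' = k' then (1 : MvPolynomial (GtK n r ⊕ GtK n r) ℂ)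
        else (gtDPoly n r j' k' - gtDPoly n r j' i'))
      (Finset.mem_univ j)
  obtain ⟨Q, hQ⟩ := hdvd
  have h := gtRat_inv (gtPD n r) _ Q hQ.symm
  have e : (fun θ : {θ : GtK n r → ℂˣ // gtEval θ (gtPD n r) ≠ 0} =>
      (((gtD (gtP1 θ.1) j k : ℂˣ) : ℂ) - ((gtD (gtP1 θ.1) j i : ℂˣ) : ℂ))⁻¹) =
      fun θ => (gtEval θ.1 (gtDPoly n r j k - gtDPoly n r j i))⁻¹ := by
    funext θ
    rw [map_sub, gtDPoly_eval, gtDPoly_eval]
  rw [e]
  exact h

end Vale.Agent.Lib.P002
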