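import Vale.Agent.Lib.P002.GTSpec
import Vale.Agent.Lib.P002.GTConj
import Vale.Agent.Lib.P002.GTConjLow
import Vale.Agent.Lib.P002.GTRatDisc

/-!
# The frames of a chart point with distinct eigenvalues
-/

open Matrix

namespace Vale.Agent.Lib.P002

theorem gtFrameAux_unitC {n r : ℕ} (θ : GtK0 n r → ℂˣ) (hD : gtDisc θ ≠ 0) :
    ∀ i k : Fin r, i ≠ k → IsUnit (((gtC θ k : ℂˣ) : ℂ) - ((gtC θ i : ℂˣ) : ℂ)) := by
  intro i k hik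
  have hinj := ((gtDisc_ne θ).mp hD).1
  rw [isUnit_iff_ne_zero]
  intro h
  have h2 : ((gtC θ k : ℂˣ) : ℂ) = ((gtC θ i : ℂˣ) : ℂ) := sub_eq_zero.mp h
  exact hik (hinj (Units.ext h2)).symm

theorem gtFrameAux_unitD {n r : ℕ} (θ : GtK0 n r → ℂˣ) (hD : gtDisc θ ≠ 0) (j : Fin n) :
    ∀ i k : Fin r, i ≠ k → IsUnit (((gtD θ j k : ℂˣ) : ℂ) - ((gtD θ j i : ℂˣ) : ℂ)) := by
  intro i k hik
  have hinj := ((gtDisc_ne θ).mp hD).2 j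
  rw [isUnit_iff_ne_zero]
  intro h
  have h2 : ((gtD θ j k : ℂˣ) : ℂ) = ((gtD θ j i : ℂˣ) : ℂ) := sub_eq_zero.mp h
  exact hik (hinj (Units.ext h2)).symm

theorem gtFrameAux_exW {n r : ℕ} (hn : 2 ≤ n) (θ : GtK0 n r → ℂˣ) (hD : gtDisc θ ≠ 0) :
    ∃ u : Matrix (Fin r) (Fin r) ℂ, u.IsUpperTriangular ∧ (∀ i, u i i = 1) ∧
      u * Matrix.diagonal (fun i => ((gtC θ i : ℂˣ) : ℂ)) = gtW hn θ * u :=
  gt_conj_exists (fun i => ((gtC θ i : ℂˣ) : ℂ)) (gtFrameAux_unitC θ hD)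
    (Matrix.diagonal (fun i => ((gtC θ i : ℂˣ) : ℂ))) (gtW hn θ)
    (Matrix.blockTriangular_diagonal _) (gtW_tri hn θ).1
    (fun i => Matrix.diagonal_apply_eq _ i) (gtW_tri hn θ).2

theorem gtFrameAux_exL {n r : ℕ} (hn : 2 ≤ n) (θ : GtK0 n r → ℂˣ) (hD : gtDisc θ ≠ 0)
    (j : Fin n) :
    ∃ v : Matrix (Fin r) (Fin r) ℂ, v.IsLowerTriangular ∧ (∀ i, v i i = 1) ∧
      v * Matrix.diagonal (fun i => ((gtD θ j i : ℂˣ) : ℂ)) = gtLm hn θ j * v :=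
  gt_conjL_exists (fun i => ((gtD θ j i : ℂˣ) : ℂ)) (gtFrameAux_unitD θ hD j)
    (Matrix.diagonal (fun i => ((gtD θ j i : ℂˣ) : ℂ))) (gtLm hn θ j)
    (Matrix.blockTriangular_diagonal _) (gtLow_pt hn θ j).2.2.2.1
    (fun i => Matrix.diagonal_apply_eq _ i) (gtLow_pt hn θ j).2.2.2.2.1

theorem gtFW_spec {n r : ℕ} (hn : 2 ≤ n) (θ : GtK0 n r → ℂˣ) (hD : gtDisc θ ≠ 0) :
    (gtFW hn θ).IsUpperTriangular ∧ (∀ i, gtFW hn θ i i = 1) ∧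
      gtFW hn θ * Matrix.diagonal (fun i => ((gtC θ i : ℂˣ) : ℂ)) = gtW hn θ * gtFW hn θ := by
  have hex := gtFrameAux_exW hn θ hD
  unfold gtFW
  rw [dif_pos hex]
  exact Classical.choose_spec hex

theorem gtFW_unique {n r : ℕ} (hn : 2 ≤ n) (θ : GtK0 n r → ℂˣ) (hD : gtDisc θ ≠ 0)
    (u : Matrix (Fin r) (Fin r) ℂ) (hu : u.IsUpperTriangular) (hu1 : ∀ i, u i i = 1)
    (h : u * Matrix.diagonal (fun i => ((gtC θ i : ℂˣ) : ℂ)) = gtW hn θ * u) :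
    u = gtFW hn θ := by
  obtain ⟨g1, g2, g3⟩ := gtFW_spec hn θ hD
  exact gt_conj_unique (fun i => ((gtC θ i : ℂˣ) : ℂ)) (gtFrameAux_unitC θ hD)
    (Matrix.diagonal (fun i => ((gtC θ i : ℂˣ) : ℂ))) (gtW hn θ)
    (Matrix.blockTriangular_diagonal _) (gtW_tri hn θ).1
    (fun i => Matrix.diagonal_apply_eq _ i) (gtW_tri hn θ).2 u (gtFW hn θ) hu hu1 h g1 g2 g3

theorem gtFW_det {n r : ℕ} (hn : 2 ≤ n) (θ : GtK0 n r → ℂˣ) (hD : gtDisc θ ≠ 0) :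
    (gtFW hn θ).det = 1 := by
  obtain ⟨g1, g2, _⟩ := gtFW_spec hn θ hD
  rw [Matrix.det_of_isUpperTriangular g1]
  exact Finset.prod_eq_one (fun i _ => g2 i)

theorem gtFL_spec {n r : ℕ} (hn : 2 ≤ n) (θ : GtK0 n r → ℂˣ) (hD : gtDisc θ ≠ 0) (j : Fin n) :
    (gtFL hn θ j).IsLowerTriangular ∧ (∀ i, gtFL hn θ j i i = 1) ∧
      gtFL hn θ j * Matrix.diagonal (fun i => ((gtD θ j i : ℂˣ) : ℂ)) =
        gtLm hn θ j * gtFL hn θ j := by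
  have hex := gtFrameAux_exL hn θ hD j
  unfold gtFL
  rw [dif_pos hex]
  exact Classical.choose_spec hex

theorem gtFL_unique {n r : ℕ} (hn : 2 ≤ n) (θ : GtK0 n r → ℂˣ) (hD : gtDisc θ ≠ 0) (j : Fin n)
    (v : Matrix (Fin r) (Fin r) ℂ) (hv : v.IsLowerTriangular) (hv1 : ∀ i, v i i = 1)
    (h : v * Matrix.diagonal (fun i => ((gtD θ j i : ℂˣ) : ℂ)) = gtLm hn θ j * v) :
    v = gtFL hn θ j := by
  obtain ⟨g1, g2, g3⟩ := gtFL_spec hn θ hD j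
  exact gt_conjL_unique (fun i => ((gtD θ j i : ℂˣ) : ℂ)) (gtFrameAux_unitD θ hD j)
    (Matrix.diagonal (fun i => ((gtD θ j i : ℂˣ) : ℂ))) (gtLm hn θ j)
    (Matrix.blockTriangular_diagonal _) (gtLow_pt hn θ j).2.2.2.1
    (fun i => Matrix.diagonal_apply_eq _ i) (gtLow_pt hn θ j).2.2.2.2.1 v (gtFL hn θ j)
    hv hv1 h g1 g2 g3

/-- The columns of the frame `gtFr hn θ j` are eigenvectors of the loop `z j`. -/
theorem gtFr_spec {n r : ℕ} (hn : 2 ≤ n) (θ : GtK0 n r → ℂˣ) (hD : gtDisc θ ≠ 0) (j : Fin n) :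
    (gtFr hn θ j).det = 1 ∧
      gtZ hn θ j * gtFr hn θ j =
        gtFr hn θ j * Matrix.diagonal (fun i => ((gtD θ j i : ℂˣ) : ℂ)) := by
  obtain ⟨_, _, h3, _, _, h6⟩ := gtLow_pt hn θ j
  obtain ⟨g1, g2, g3⟩ := gtFL_spec hn θ hD j
  unfold gtFr
  refine ⟨?_, ?_⟩
  · rw [Matrix.det_mul, h3, Matrix.det_of_isLowerTriangular _ g1, one_mul]
    exact Finset.prod_eq_one (fun i _ => g2 i)
  · rw [← Matrix.mul_assoc, h6, Matrix.mul_assoc, ← g3, Matrix.mul_assoc]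

end Vale.Agent.Lib.P002
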