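import Vale.Agent.Lib.P002.GTRat

/-!
# Matrix valued functions with entries in the ring `gtRat PD`
-/

open Matrix

namespace Vale.Agent.Lib.P002

/-- A matrix valued function with entries in the ring is the family of evaluations of a matrix
over the ring. -/
theorem gtIn_lift {κ : Type} (PD : MvPolynomial (κ ⊕ κ) ℂ) {r : ℕ}
    {f : {θ : κ → ℂˣ // gtEval θ PD ≠ 0} → Matrix (Fin r) (Fin r) ℂ} (hf : gtIn PD f) :
    ∃ m : Matrix (Fin r) (Fin r) (gtRat PD), ∀ θ, m.map (gtRatEv PD θ) = f θ := by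
  refine ⟨Matrix.of fun i k => ⟨fun θ => f θ i k, hf i k⟩, fun θ => ?_⟩
  ext i k
  rfl

theorem gtIn_of_lift {κ : Type} (PD : MvPolynomial (κ ⊕ κ) ℂ) {r : ℕ}
    (m : Matrix (Fin r) (Fin r) (gtRat PD)) : gtIn PD (fun θ => m.map (gtRatEv PD θ)) := by
  intro i k
  have e : (fun θ : {θ : κ → ℂˣ // gtEval θ PD ≠ 0} => (m.map (gtRatEv PD θ)) i k)
      = (m i k).1 := by
    funext θ
    rfl
  show (fun θ : {θ : κ → ℂˣ // gtEval θ PD ≠ 0} => (m.map (gtRatEv PD θ)) i k) ∈ gtRat PD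
  rw [e]
  exact (m i k).2

theorem gtIn_one {κ : Type} (PD : MvPolynomial (κ ⊕ κ) ℂ) {r : ℕ} :
    gtIn PD (fun _ => (1 : Matrix (Fin r) (Fin r) ℂ)) := by
  intro i k
  show (fun _ : {θ : κ → ℂˣ // gtEval θ PD ≠ 0} => (1 : Matrix (Fin r) (Fin r) ℂ) i k)
    ∈ gtRat PD
  by_cases h : i = k
  · subst h
    rw [Matrix.one_apply_eq]
    exact gtRat_const PD 1
  · rw [Matrix.one_apply_ne h]
    exact gtRat_const PD 0

theorem gtIn_mul {κ : Type} (PD : MvPolynomial (κ ⊕ κ) ℂ) {r : ℕ}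
    {f g : {θ : κ → ℂˣ // gtEval θ PD ≠ 0} → Matrix (Fin r) (Fin r) ℂ} (hf : gtIn PD f)
    (hg : gtIn PD g) : gtIn PD (fun θ => f θ * g θ) := by
  obtain ⟨m, hm⟩ := gtIn_lift PD hf
  obtain ⟨m', hm'⟩ := gtIn_lift PD hg
  have e : (fun θ => f θ * g θ) = fun θ => (m * m').map (gtRatEv PD θ) := by
    funext θ
    rw [Matrix.map_mul, hm θ, hm' θ]
  rw [e]
  exact gtIn_of_lift PD (m * m')

theorem gtIn_adjugate {κ : Type} (PD : MvPolynomial (κ ⊕ κ) ℂ) {r : ℕ}
    {f : {θ : κ → ℂˣ // gtEval θ PD ≠ 0} → Matrix (Fin r) (Fin r) ℂ} (hf : gtIn PD f) :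
    gtIn PD (fun θ => (f θ).adjugate) := by
  obtain ⟨m, hm⟩ := gtIn_lift PD hf
  have e : (fun θ => (f θ).adjugate) = fun θ => (m.adjugate).map (gtRatEv PD θ) := by
    funext θ
    rw [← hm θ]
    exact (RingHom.map_adjugate (gtRatEv PD θ) m).symm
  rw [e]
  exact gtIn_of_lift PD m.adjugate

theorem gtIn_diagonal {κ : Type} (PD : MvPolynomial (κ ⊕ κ) ℂ) {r : ℕ}
    (δ : {θ : κ → ℂˣ // gtEval θ PD ≠ 0} → Fin r → ℂ)
    (hδ : ∀ i, (fun θ => δ θ i) ∈ gtRat PD) : gtIn PD (fun θ => Matrix.diagonal (δ θ)) := by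
  intro i k
  by_cases h : i = k
  · subst h
    have e : (fun θ => Matrix.diagonal (δ θ) i i) = fun θ => δ θ i := by
      funext θ
      rw [Matrix.diagonal_apply_eq]
    show (fun θ => Matrix.diagonal (δ θ) i i) ∈ gtRat PD
    rw [e]
    exact hδ i
  · have e : (fun θ => Matrix.diagonal (δ θ) i k) = fun _ => (0 : ℂ) := by
      funext θ
      rw [Matrix.diagonal_apply_ne _ h]
    show (fun θ => Matrix.diagonal (δ θ) i k) ∈ gtRat PD
    rw [e]
    exact gtRat_const PD 0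

/-- The pointwise product of a list of matrix valued functions with entries in the ring. -/
theorem gtInAux_list {κ : Type} (PD : MvPolynomial (κ ⊕ κ) ℂ) {r : ℕ}
    (L : List ({θ : κ → ℂˣ // gtEval θ PD ≠ 0} → Matrix (Fin r) (Fin r) ℂ))
    (hL : ∀ g ∈ L, gtIn PD g) : gtIn PD (fun θ => (L.map fun g => g θ).prod) := by
  induction L with
  | nil =>
    have e : (fun θ : {θ : κ → ℂˣ // gtEval θ PD ≠ 0} =>
        (([] : List ({θ : κ → ℂˣ // gtEval θ PD ≠ 0} → Matrix (Fin r) (Fin r) ℂ)).map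
          fun g => g θ).prod) = fun _ => (1 : Matrix (Fin r) (Fin r) ℂ) := by
      funext θ
      simp
    rw [e]
    exact gtIn_one PD
  | cons g L ih =>
    have e : (fun θ => ((g :: L).map fun g => g θ).prod)
        = fun θ => g θ * (L.map fun g => g θ).prod := by
      funext θ
      rw [List.map_cons, List.prod_cons]
    rw [e]
    exact gtIn_mul PD (hL g (by simp)) (ih fun g' hg' => hL g' (List.mem_cons_of_mem _ hg'))

/-- Products of the first `j` members of a family. -/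
theorem gtIn_pre {κ : Type} (PD : MvPolynomial (κ ⊕ κ) ℂ) {r n : ℕ}
    (f : {θ : κ → ℂˣ // gtEval θ PD ≠ 0} → Fin n → Matrix (Fin r) (Fin r) ℂ)
    (hf : ∀ j, gtIn PD (fun θ => f θ j)) (j : ℕ) : gtIn PD (fun θ => gtPre (f θ) j) := by
  have e : (fun θ => gtPre (f θ) j) = fun θ =>
      (((List.ofFn fun (i : Fin n) (θ' : {θ : κ → ℂˣ // gtEval θ PD ≠ 0}) => f θ' i).take j).map
        fun g => g θ).prod := by
    funext θ
    unfold gtPre
    rw [List.map_take, List.map_ofFn]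
    rfl
  rw [e]
  apply gtInAux_list
  intro g hg
  have hg' := List.mem_of_mem_take hg
  rw [List.mem_ofFn] at hg'
  obtain ⟨i, rfl⟩ := hg'
  exact hf i

end Vale.Agent.Lib.P002
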