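import Vale.Agent.Lib.P002.GTDefs
import Vale.Agent.Lib.P002.GQMain

/-!
# Intertwiners of chart points of the punctured sphere are scalar
-/

open Matrix

namespace Vale.Agent.Lib.P002

/-- The proof of non-conjugacy of chart points also shows that the intertwiner is a scalar
diagonal matrix. -/
theorem gtScalarAux_nonconj {g n r : ℕ} (hN : 2 ≤ 2 * g + n) (c : Fin r → ℂˣ)
    (d : Fin n → Fin r → ℂˣ)
    (hci : Function.Injective c) (hdi : ∀ j, Function.Injective (d j))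
    (s s' : GqIdx g n r → ℂˣ)
    (x y x₂ y₂ : Fin g → Matrix.SpecialLinearGroup (Fin r) ℂ)
    (z z₂ : Fin n → Matrix.SpecialLinearGroup (Fin r) ℂ)
    (hpt : gpIsPt c d (gqSec (gqEmb hN) s) (fun h => (x h).1) (fun h => (y h).1)
      (fun j => (z j).1))
    (hpt₂ : gpIsPt c d (gqSec (gqEmb hN) s') (fun h => (x₂ h).1) (fun h => (y₂ h).1)
      (fun j => (z₂ j).1))
    (γ : Matrix (Fin r) (Fin r) ℂ) (hγ : γ.det ≠ 0)
    (hx : ∀ h, γ * (x h).1 = (x₂ h).1 * γ) (hy : ∀ h, γ * (y h).1 = (y₂ h).1 * γ)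
    (hz : ∀ j, γ * (z j).1 = (z₂ j).1 * γ) :
    s = s' ∧ ∃ δ : Fin r → ℂ, γ = Matrix.diagonal δ ∧ ∀ i j, δ i = δ j := by
  classical
  obtain ⟨l, p, q, l', G, hrel, hl'd, hdiag, hWu, hWd, hmin⟩ := gq_data hN c d _ x y z hpt
  obtain ⟨l₂, p₂, q₂, l'₂, G₂, hrel₂, hl'd₂, hdiag₂, hWu₂, hWd₂, hmin₂⟩ :=
    gq_data hN c d _ x₂ y₂ z₂ hpt₂
  have hcinj : Function.Injective (fun i => (c i : ℂ)) := fun i j h => hci (Units.ext h)
  have hdinj : ∀ j, Function.Injective (fun i => (d j i : ℂ)) :=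
    fun j i i' h => hdi j (Units.ext h)
  -- the intertwiner is upper triangular, then lower triangular, hence diagonal
  have hγu : γ.IsUpperTriangular :=
    gq_upper_of_comm γ _ _ (fun i => (c i : ℂ)) hcinj hWu hWu₂ hWd hWd₂
      (gq_word x y x₂ y₂ z z₂ γ hx hy hz)
  have hγl : γ.IsLowerTriangular :=
    gq_lower hN x y x₂ y₂ z z₂ l p q l' G _ _ _ l₂ p₂ q₂ l'₂ G₂ _ _ _ hrel hrel₂
      (fun j i => (d j i : ℂ)) hdinj hdiag hdiag₂ γ hγu hx hy hz
  let δ : Fin r → ℂ := fun i => γ i i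
  have hγd : γ = Matrix.diagonal δ := by
    ext i j
    by_cases hij : i = j
    · subst hij
      rw [Matrix.diagonal_apply_eq]
    · rw [Matrix.diagonal_apply_ne _ hij]
      rcases lt_or_gt_of_ne hij with h | h
      · exact hγl h
      · exact hγu h
  have hδ : ∀ i, δ i ≠ 0 := by
    have h0 : (Matrix.diagonal δ).det ≠ 0 := hγd ▸ hγ
    rw [Matrix.det_diagonal] at h0
    exact fun i => (Finset.prod_ne_zero_iff.mp h0) i (Finset.mem_univ i)
  -- the second tuple is the conjugate of the first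
  have ex : (fun h => gqConj δ ((x h).1)) = fun h => (x₂ h).1 :=
    funext fun h => (gqConj_of_comm δ hδ _ _ (by rw [← hγd]; exact hx h)).symm
  have ey : (fun h => gqConj δ ((y h).1)) = fun h => (y₂ h).1 :=
    funext fun h => (gqConj_of_comm δ hδ _ _ (by rw [← hγd]; exact hy h)).symm
  have ez : (fun j => gqConj δ ((z j).1)) = fun j => (z₂ j).1 :=
    funext fun j => (gqConj_of_comm δ hδ _ _ (by rw [← hγd]; exact hz j)).symm
  have hrelc := gq_rel_conj _ _ _ l p q l' G _ _ _ hrel δ hδ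
  rw [ex, ey, ez] at hrelc
  obtain ⟨el, ep, -, el', -, et, et', -⟩ := gq_data_unique hN x₂ y₂ z₂ _ _ _ _ _ _ _ _
    l₂ p₂ q₂ l'₂ G₂ _ _ _ hrelc hrel₂ (fun j i => (d j i : ℂ)) hdinj
    (fun j i => by
      have e : gqConj δ (l' (2 * g + j)) i i = l' (2 * g + j) i i := by
        rw [gqConj_apply, mul_comm (δ i), mul_assoc, mul_inv_cancel₀ (hδ i), mul_one]
      change gqConj δ (l' (2 * g + j)) i i * _ = _
      rw [e]
      exact hdiag j i) hdiag₂
  -- the slice: the conjugation is scalar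
  have hsc : ∀ i j, δ i = δ j := by
    apply gq_scalar (l 1 * p 1) δ hδ
    · intro i hi
      rw [hmin 1 le_rfl (by omega) 1 i 1 le_rfl le_rfl (by omega) (by omega),
        gq_slice hN s i hi]
      rfl
    · intro i hi
      have e1 : gqConj δ (l 1 * p 1) = l₂ 1 * p₂ 1 := by
        rw [gqConj_mul δ hδ, el, ep]
      rw [e1, hmin₂ 1 le_rfl (by omega) 1 i 1 le_rfl le_rfl (by omega) (by omega),
        gq_slice hN s' i hi]
      rfl
  have hconj : ∀ M, gqConj δ M = M := gqConj_scalar δ hδ hsc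
  -- the parameters are equal
  refine ⟨?_, δ, hγd, hsc⟩
  apply gq_param_inj hN s s'
  · intro k hk1 hk2 δ' i m hδ' hm hr hne
    apply Units.ext
    rw [← hmin k hk1 hk2 δ' i m hδ' hm hr hne, ← hmin₂ k hk1 hk2 δ' i m hδ' hm hr hne, el, ep]
    simp only [hconj]
  · intro k hk1 hk2
    funext i
    apply Units.ext
    rw [← gpE_eq_of_ne c d _ k (by omega), ← gpE_eq_of_ne c d _ k (by omega), ← hl'd k i,
      ← hl'd₂ k i, el']
    simp only [hconj]
  · intro h b
    funext i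
    apply Units.ext
    have key : ∀ a : ℂ, δ i * a * (δ (Fin.rev i))⁻¹ = a := by
      intro a
      rw [hsc (Fin.rev i) i, mul_comm (δ i), mul_assoc, mul_inv_cancel₀ (hδ i), mul_one]
    have hb : b = 0 ∨ b = 1 := by
      fin_cases b
      · exact Or.inl rfl
      · exact Or.inr rfl
    rcases hb with rfl | rfl
    · have := congrFun (congrFun et h) i
      rw [this, key]
    · have := congrFun (congrFun et' h) i
      rw [this, key]

/-- An invertible matrix intertwining two chart points of the punctured sphere with the same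
eigenvalue data (distinct at each puncture) is scalar, and the effective parameters agree. -/
theorem gt_nonconj {n r : ℕ} (hn : 2 ≤ n) (c : Fin r → ℂˣ) (d : Fin n → Fin r → ℂˣ)
    (hc : ∏ i, c i = 1) (hd : ∀ j, ∏ i, d j i = 1)
    (hci : Function.Injective c) (hdi : ∀ j, Function.Injective (d j))
    (s s' : GqIdx 0 n r → ℂˣ) (z z' : Fin n → Matrix (Fin r) (Fin r) ℂ)
    (h : gtIsPt hn c d s z) (h' : gtIsPt hn c d s' z')
    (γ : Matrix (Fin r) (Fin r) ℂ) (hγ : γ.det ≠ 0) (hz : ∀ j, γ * z j = z' j * γ) :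
    s = s' ∧ ∃ a : ℂ, γ = Matrix.diagonal (fun _ => a) := by
  classical
  have hdet := gpIsPt_det (gtHN hn) c d hc hd _ h
  have hdet' := gpIsPt_det (gtHN hn) c d hc hd _ h'
  let x0 : Fin 0 → Matrix.SpecialLinearGroup (Fin r) ℂ := fun _ => 1
  let zz : Fin n → Matrix.SpecialLinearGroup (Fin r) ℂ := fun j => ⟨z j, hdet.2 j⟩
  let zz' : Fin n → Matrix.SpecialLinearGroup (Fin r) ℂ := fun j => ⟨z' j, hdet'.2 j⟩
  have e0 : (fun k : Fin 0 => (x0 k).1) = fun _ : Fin 0 => (1 : Matrix (Fin r) (Fin r) ℂ) :=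
    funext fun k => k.elim0
  have hpt : gpIsPt c d (gqSec (gqEmb (gtHN hn)) s) (fun k => (x0 k).1) (fun k => (x0 k).1)
      (fun j => (zz j).1) := by
    rw [e0]
    exact h
  have hpt' : gpIsPt c d (gqSec (gqEmb (gtHN hn)) s') (fun k => (x0 k).1) (fun k => (x0 k).1)
      (fun j => (zz' j).1) := by
    rw [e0]
    exact h'
  obtain ⟨hs, δ, hγd, hsc⟩ := gtScalarAux_nonconj (gtHN hn) c d hci hdi s s' x0 x0 x0 x0 zz zz'
    hpt hpt' γ hγ (fun k => k.elim0) (fun k => k.elim0) (fun j => hz j)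
  refine ⟨hs, ?_⟩
  rcases Nat.eq_zero_or_pos r with hr | hr
  · subst hr
    exact ⟨0, by ext i; exact i.elim0⟩
  · refine ⟨δ ⟨0, hr⟩, ?_⟩
    rw [hγd]
    have e : δ = fun _ => δ ⟨0, hr⟩ := funext fun i => hsc i ⟨0, hr⟩
    rw [← e]

end Vale.Agent.Lib.P002
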