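import Vale.Agent.Lib.P002.GTRel
import Vale.Agent.Lib.P002.GTScalar

/-!
# The members of the family with the same eigenvalue data are pairwise non-conjugate
-/

open Matrix

namespace Vale.Agent.Lib.P002

/-- A nonzero scalar matrix intertwining two matrices shows that they are equal. -/
theorem gtInjAux_scalar {r : ℕ} (a : ℂ) (ha : a ≠ 0) (M M' : Matrix (Fin r) (Fin r) ℂ)
    (h : Matrix.diagonal (fun _ => a) * M = M' * Matrix.diagonal (fun _ => a)) : M = M' := by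
  rw [← Matrix.smul_one_eq_diagonal a, Matrix.smul_mul, Matrix.mul_smul, Matrix.one_mul,
    Matrix.mul_one] at h
  exact smul_right_injective _ ha h

/-- Left cancellation of a matrix of determinant one. -/
theorem gtInjAux_cancel_left {r : ℕ} (A X Y : Matrix (Fin r) (Fin r) ℂ) (hA : A.det = 1)
    (h : A * X = A * Y) : X = Y := by
  have e : A.adjugate * A = 1 := by rw [Matrix.adjugate_mul, hA, one_smul]
  calc X = A.adjugate * (A * X) := by rw [← Matrix.mul_assoc, e, Matrix.one_mul]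
    _ = A.adjugate * (A * Y) := by rw [h]
    _ = Y := by rw [← Matrix.mul_assoc, e, Matrix.one_mul]

/-- Right cancellation of a matrix of determinant one. -/
theorem gtInjAux_cancel_right {r : ℕ} (A X Y : Matrix (Fin r) (Fin r) ℂ) (hA : A.det = 1)
    (h : X * A = Y * A) : X = Y := by
  have e : A * A.adjugate = 1 := by rw [Matrix.mul_adjugate, hA, one_smul]
  calc X = X * A * A.adjugate := by rw [Matrix.mul_assoc, e, Matrix.mul_one]
    _ = Y * A * A.adjugate := by rw [h]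
    _ = Y := by rw [Matrix.mul_assoc, e, Matrix.mul_one]

/-- Right cancellation of the adjugate of a matrix of determinant one. -/
theorem gtInjAux_cancel_adj {r : ℕ} (A X Y : Matrix (Fin r) (Fin r) ℂ) (hA : A.det = 1)
    (h : X * A.adjugate = Y * A.adjugate) : X = Y := by
  have e : A.adjugate * A = 1 := by rw [Matrix.adjugate_mul, hA, one_smul]
  calc X = X * A.adjugate * A := by rw [Matrix.mul_assoc, e, Matrix.mul_one]
    _ = Y * A.adjugate * A := by rw [h]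
    _ = Y := by rw [Matrix.mul_assoc, e, Matrix.mul_one]

/-- A scalar matrix of nonzero determinant is nonzero (positive size). -/
theorem gtInjAux_ne {r : ℕ} (hr : 1 ≤ r) (a : ℂ)
    (h : (Matrix.diagonal (fun _ : Fin r => a)).det ≠ 0) : a ≠ 0 := by
  rintro rfl
  apply h
  rw [Matrix.det_diagonal]
  exact Finset.prod_eq_zero (Finset.mem_univ (⟨0, hr⟩ : Fin r)) rfl

/-- Equality of the eigenvalue data at the last puncture. -/
theorem gtInjAux_C {n r : ℕ} (θ θ' : GtK n r → ℂˣ)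
    (h1 : ∀ v : Fin (r - 1), θ (Sum.inl (Sum.inl v)) = θ' (Sum.inl (Sum.inl v))) :
    gtC (gtP1 θ) = gtC (gtP1 θ') := by
  have e : (fun i : Fin (r - 1) => gtP1 θ (Sum.inl i)) = fun i => gtP1 θ' (Sum.inl i) :=
    funext fun i => h1 i
  show gtLast (fun i : Fin (r - 1) => gtP1 θ (Sum.inl i))
    = gtLast (fun i : Fin (r - 1) => gtP1 θ' (Sum.inl i))
  rw [e]

/-- Equality of the eigenvalue data at the other punctures. -/
theorem gtInjAux_D {n r : ℕ} (θ θ' : GtK n r → ℂˣ)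
    (h2 : ∀ v : Fin n × Fin (r - 1),
      θ (Sum.inl (Sum.inr (Sum.inl v))) = θ' (Sum.inl (Sum.inr (Sum.inl v)))) :
    gtD (gtP1 θ) = gtD (gtP1 θ') := by
  funext j
  have e : (fun i : Fin (r - 1) => gtP1 θ (Sum.inr (Sum.inl (j, i))))
      = fun i => gtP1 θ' (Sum.inr (Sum.inl (j, i))) :=
    funext fun i => h2 (j, i)
  show gtLast (fun i : Fin (r - 1) => gtP1 θ (Sum.inr (Sum.inl (j, i))))
    = gtLast (fun i : Fin (r - 1) => gtP1 θ' (Sum.inr (Sum.inl (j, i))))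
  rw [e]

theorem gt_inj {n r : ℕ} (hn : 2 ≤ n) (hr : 1 ≤ r) (θ θ' : GtK n r → ℂˣ)
    (hD : gtDisc (gtP1 θ) ≠ 0)
    (h1 : ∀ v : Fin (r - 1), θ (Sum.inl (Sum.inl v)) = θ' (Sum.inl (Sum.inl v)))
    (h2 : ∀ v : Fin n × Fin (r - 1),
      θ (Sum.inl (Sum.inr (Sum.inl v))) = θ' (Sum.inl (Sum.inr (Sum.inl v))))
    (γ : Matrix (Fin r) (Fin r) ℂ) (hγ : γ.det ≠ 0)
    (hA : ∀ j, γ * (gtA hn θ j).1 = (gtA hn θ' j).1 * γ)
    (hB : ∀ j, γ * (gtB hn θ j).1 = (gtB hn θ' j).1 * γ) : θ = θ' := by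
  -- the eigenvalue data agree
  have hC : gtC (gtP1 θ) = gtC (gtP1 θ') := gtInjAux_C θ θ' h1
  have hDd : gtD (gtP1 θ) = gtD (gtP1 θ') := gtInjAux_D θ θ' h2
  obtain ⟨hci, hdi⟩ := (gtDisc_ne (gtP1 θ)).mp hD
  have hD' : gtDisc (gtP1 θ') ≠ 0 := by
    rw [gtDisc_ne, ← hC, ← hDd]
    exact ⟨hci, hdi⟩
  have hD2 : gtDisc (gtP2 θ) ≠ 0 := by
    rw [gtDisc_ne, gtP2_C, gtP2_D]
    exact ⟨hci, hdi⟩
  have hD2' : gtDisc (gtP2 θ') ≠ 0 := by
    rw [gtDisc_ne, gtP2_C, gtP2_D, ← hC, ← hDd]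
    exact ⟨hci, hdi⟩
  have hcp : ∏ i, gtC (gtP1 θ) i = 1 := gtLast_prod _
  have hdp : ∀ j, ∏ i, gtD (gtP1 θ) j i = 1 := fun j => gtLast_prod _
  -- the data of the two members
  obtain ⟨ui, hUui, huiU, -, hsg⟩ := gtSg_spec hn hr θ hD
  obtain ⟨ui', hUui', huiU', -, hsg'⟩ := gtSg_spec hn hr θ' hD'
  have hzs : ∀ j, (gtZs hn θ j).1 = gtZ hn (gtP1 θ) j :=
    fun j => gtSL_val _ (gtZ_det hn (gtP1 θ) j)
  have hzs' : ∀ j, (gtZs hn θ' j).1 = gtZ hn (gtP1 θ') j :=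
    fun j => gtSL_val _ (gtZ_det hn (gtP1 θ') j)
  have hss : ∀ j, (gtSs hn θ j).1 = gtSg hn θ j := fun j => gtSL_val _ (hsg j).1
  have hss' : ∀ j, (gtSs hn θ' j).1 = gtSg hn θ' j := fun j => gtSL_val _ (hsg' j).1
  -- step 1: the intertwiner intertwines the loops and the matrices sigma
  obtain ⟨hz, hσ⟩ := gt_group_comm (gtZs hn θ) (gtZs hn θ') (gtSs hn θ) (gtSs hn θ') γ hA hB
  have hz1 : ∀ j, γ * gtZ hn (gtP1 θ) j = gtZ hn (gtP1 θ') j * γ := by
    intro j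
    rw [← hzs j, ← hzs' j]
    exact hz j
  have hσ1 : ∀ j, γ * gtSg hn θ j = gtSg hn θ' j * γ := by
    intro j
    rw [← hss j, ← hss' j]
    exact hσ j
  -- step 2: the first chart points
  have hpt' : gtIsPt hn (gtC (gtP1 θ)) (gtD (gtP1 θ)) (gtS (gtP1 θ')) (gtZ hn (gtP1 θ')) := by
    rw [hC, hDd]
    exact gtZ_pt hn (gtP1 θ')
  obtain ⟨hS, a, hγa⟩ := gt_nonconj hn (gtC (gtP1 θ)) (gtD (gtP1 θ)) hcp hdp hci hdi
    (gtS (gtP1 θ)) (gtS (gtP1 θ')) (gtZ hn (gtP1 θ)) (gtZ hn (gtP1 θ')) (gtZ_pt hn (gtP1 θ))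
    hpt' γ hγ hz1
  have ha : a ≠ 0 := gtInjAux_ne hr a (by rw [← hγa]; exact hγ)
  have hP1 : gtP1 θ = gtP1 θ' := by
    funext v
    rcases v with i | v | w
    · exact h1 i
    · exact h2 v
    · exact congrFun hS w
  have hSg : ∀ j, gtSg hn θ j = gtSg hn θ' j := by
    intro j
    have h := hσ1 j
    rw [hγa] at h
    exact gtInjAux_scalar a ha _ _ h
  -- step 3: the second chart points
  have he3 : ∀ j, gtU hn θ * gtZ hn (gtP2 θ) j * ui = gtU hn θ' * gtZ hn (gtP2 θ') j * ui' := by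
    intro j
    have e1 := (hsg j).2
    have e2 := (hsg' j).2
    rw [← hSg j, ← hP1] at e2
    rw [e1] at e2
    exact gtInjAux_cancel_right (gtSg hn θ j) _ _ (hsg j).1 e2
  have hz2 : ∀ j, (ui' * gtU hn θ) * gtZ hn (gtP2 θ) j
      = gtZ hn (gtP2 θ') j * (ui' * gtU hn θ) := by
    intro j
    calc (ui' * gtU hn θ) * gtZ hn (gtP2 θ) j
        = ui' * (gtU hn θ * gtZ hn (gtP2 θ) j * (ui * gtU hn θ)) := by
          rw [huiU, Matrix.mul_one, Matrix.mul_assoc]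
      _ = ui' * ((gtU hn θ * gtZ hn (gtP2 θ) j * ui) * gtU hn θ) := by
          simp only [Matrix.mul_assoc]
      _ = ui' * ((gtU hn θ' * gtZ hn (gtP2 θ') j * ui') * gtU hn θ) := by rw [he3 j]
      _ = (ui' * gtU hn θ') * gtZ hn (gtP2 θ') j * (ui' * gtU hn θ) := by
          simp only [Matrix.mul_assoc]
      _ = gtZ hn (gtP2 θ') j * (ui' * gtU hn θ) := by rw [huiU', Matrix.one_mul]
  have hdet2 : (ui' * gtU hn θ).det ≠ 0 := by
    rw [Matrix.det_mul]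
    have d1 : (gtU hn θ).det * ui.det = 1 := by rw [← Matrix.det_mul, hUui, Matrix.det_one]
    have d2 : ui'.det * (gtU hn θ').det = 1 := by rw [← Matrix.det_mul, huiU', Matrix.det_one]
    have n1 : (gtU hn θ).det ≠ 0 := left_ne_zero_of_mul_eq_one d1
    have n2 : ui'.det ≠ 0 := left_ne_zero_of_mul_eq_one d2
    exact mul_ne_zero n2 n1
  have hpt2 : gtIsPt hn (gtC (gtP1 θ)) (gtD (gtP1 θ)) (gtS (gtP2 θ)) (gtZ hn (gtP2 θ)) := by
    have h := gtZ_pt hn (gtP2 θ)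
    rw [gtP2_C, gtP2_D] at h
    exact h
  have hpt2' : gtIsPt hn (gtC (gtP1 θ)) (gtD (gtP1 θ)) (gtS (gtP2 θ')) (gtZ hn (gtP2 θ')) := by
    have h := gtZ_pt hn (gtP2 θ')
    rw [gtP2_C, gtP2_D, ← hC, ← hDd] at h
    exact h
  obtain ⟨hS2, b, hγb⟩ := gt_nonconj hn (gtC (gtP1 θ)) (gtD (gtP1 θ)) hcp hdp hci hdi
    (gtS (gtP2 θ)) (gtS (gtP2 θ')) (gtZ hn (gtP2 θ)) (gtZ hn (gtP2 θ')) hpt2 hpt2'
    (ui' * gtU hn θ) hdet2 hz2
  have hP2 : gtP2 θ = gtP2 θ' := by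
    funext v
    rcases v with i | v | w
    · exact h1 i
    · exact h2 v
    · exact congrFun hS2 w
  have hUb : gtU hn θ = b • gtU hn θ' := by
    calc gtU hn θ = (gtU hn θ' * ui') * gtU hn θ := by rw [hUui', Matrix.one_mul]
      _ = gtU hn θ' * (ui' * gtU hn θ) := by rw [Matrix.mul_assoc]
      _ = b • gtU hn θ' := by
          rw [hγb, ← Matrix.smul_one_eq_diagonal b, Matrix.mul_smul, Matrix.mul_one]
  -- step 4: the twists at the last puncture
  have hFW1 : (gtFW hn (gtP1 θ)).det = 1 := gtFW_det hn (gtP1 θ) hD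
  have hFW2 : (gtFW hn (gtP2 θ)).det = 1 := gtFW_det hn (gtP2 θ) hD2
  have hU' : gtU hn θ' = gtFW hn (gtP1 θ) * Matrix.diagonal (fun i => ((gtLam θ' i : ℂˣ) : ℂ))
      * (gtFW hn (gtP2 θ)).adjugate := by
    unfold gtU
    rw [← hP1, ← hP2]
  have hlam : Matrix.diagonal (fun i => ((gtLam θ i : ℂˣ) : ℂ))
      = b • Matrix.diagonal (fun i => ((gtLam θ' i : ℂˣ) : ℂ)) := by
    have h4 : gtFW hn (gtP1 θ) * Matrix.diagonal (fun i => ((gtLam θ i : ℂˣ) : ℂ))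
          * (gtFW hn (gtP2 θ)).adjugate
        = b • (gtFW hn (gtP1 θ) * Matrix.diagonal (fun i => ((gtLam θ' i : ℂˣ) : ℂ))
          * (gtFW hn (gtP2 θ)).adjugate) := by
      rw [← hU']
      exact hUb
    apply gtInjAux_cancel_adj (gtFW hn (gtP2 θ)) _ _ hFW2
    apply gtInjAux_cancel_left (gtFW hn (gtP1 θ)) _ _ hFW1
    rw [← Matrix.mul_assoc, h4, Matrix.smul_mul, Matrix.mul_smul, Matrix.mul_assoc]
  have hb : b = 1 := by
    have h := congrFun (congrFun hlam (⟨r - 1, by omega⟩ : Fin r)) (⟨r - 1, by omega⟩ : Fin r)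
    rw [Matrix.smul_apply, Matrix.diagonal_apply_eq, Matrix.diagonal_apply_eq, smul_eq_mul] at h
    have e1 : gtLam θ (⟨r - 1, by omega⟩ : Fin r) = 1 := dif_neg (Nat.lt_irrefl (r - 1))
    have e2 : gtLam θ' (⟨r - 1, by omega⟩ : Fin r) = 1 := dif_neg (Nat.lt_irrefl (r - 1))
    rw [e1, e2, Units.val_one, mul_one] at h
    exact h.symm
  have hLam : ∀ i, gtLam θ i = gtLam θ' i := by
    intro i
    have h := congrFun (congrFun hlam i) i
    rw [Matrix.smul_apply, Matrix.diagonal_apply_eq, Matrix.diagonal_apply_eq, smul_eq_mul, hb,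
      one_mul] at h
    exact Units.ext h
  have hU : gtU hn θ = gtU hn θ' := by
    rw [hUb, hb, one_smul]
  -- step 5: the twists at the other punctures
  have hMu : ∀ j i, gtMu θ j i = gtMu θ' j i := by
    intro j i
    have hFr1 : (gtFr hn (gtP1 θ) j).det = 1 := (gtFr_spec hn (gtP1 θ) hD j).1
    have hFr2 : (gtFr hn (gtP2 θ) j).det = 1 := (gtFr_spec hn (gtP2 θ) hD2 j).1
    have hs' : gtSg hn θ' j = gtU hn θ * gtFr hn (gtP2 θ) j
        * Matrix.diagonal (fun i => ((gtMu θ' j i : ℂˣ) : ℂ))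
        * (gtFr hn (gtP1 θ) j).adjugate := by
      unfold gtSg
      rw [← hP1, ← hP2, ← hU]
    have h5 : gtU hn θ * gtFr hn (gtP2 θ) j
          * Matrix.diagonal (fun i => ((gtMu θ j i : ℂˣ) : ℂ))
          * (gtFr hn (gtP1 θ) j).adjugate
        = gtU hn θ * gtFr hn (gtP2 θ) j
          * Matrix.diagonal (fun i => ((gtMu θ' j i : ℂˣ) : ℂ))
          * (gtFr hn (gtP1 θ) j).adjugate := by
      rw [← hs']
      exact hSg j
    have h6 := gtInjAux_cancel_adj (gtFr hn (gtP1 θ) j) _ _ hFr1 h5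
    simp only [Matrix.mul_assoc] at h6
    have h7 : gtFr hn (gtP2 θ) j * Matrix.diagonal (fun i => ((gtMu θ j i : ℂˣ) : ℂ))
        = gtFr hn (gtP2 θ) j * Matrix.diagonal (fun i => ((gtMu θ' j i : ℂˣ) : ℂ)) := by
      calc gtFr hn (gtP2 θ) j * Matrix.diagonal (fun i => ((gtMu θ j i : ℂˣ) : ℂ))
          = ui * (gtU hn θ * (gtFr hn (gtP2 θ) j
              * Matrix.diagonal (fun i => ((gtMu θ j i : ℂˣ) : ℂ)))) := by
            rw [← Matrix.mul_assoc ui, huiU, Matrix.one_mul]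
        _ = ui * (gtU hn θ * (gtFr hn (gtP2 θ) j
              * Matrix.diagonal (fun i => ((gtMu θ' j i : ℂˣ) : ℂ)))) := by rw [h6]
        _ = gtFr hn (gtP2 θ) j * Matrix.diagonal (fun i => ((gtMu θ' j i : ℂˣ) : ℂ)) := by
            rw [← Matrix.mul_assoc ui, huiU, Matrix.one_mul]
    have h8 := gtInjAux_cancel_left (gtFr hn (gtP2 θ) j) _ _ hFr2 h7
    have h9 := congrFun (Matrix.diagonal_injective h8) i
    exact Units.ext h9
  -- conclusion
  funext v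
  rcases v with (i | v | w) | (w | i | v)
  · exact h1 i
  · exact h2 v
  · exact congrFun hS w
  · exact congrFun hS2 w
  · have h := hLam (⟨(i : ℕ), by have := i.isLt; omega⟩ : Fin r)
    have e1 : gtLam θ (⟨(i : ℕ), by have := i.isLt; omega⟩ : Fin r)
        = θ (Sum.inr (Sum.inr (Sum.inl i))) := dif_pos i.isLt
    have e2 : gtLam θ' (⟨(i : ℕ), by have := i.isLt; omega⟩ : Fin r)
        = θ' (Sum.inr (Sum.inr (Sum.inl i))) := dif_pos i.isLt
    rw [e1, e2] at h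
    exact h
  · have h := hMu v.1 (⟨(v.2 : ℕ), by have := v.2.isLt; omega⟩ : Fin r)
    have e1 : gtMu θ v.1 (⟨(v.2 : ℕ), by have := v.2.isLt; omega⟩ : Fin r)
        = θ (Sum.inr (Sum.inr (Sum.inr v))) := dif_pos v.2.isLt
    have e2 : gtMu θ' v.1 (⟨(v.2 : ℕ), by have := v.2.isLt; omega⟩ : Fin r)
        = θ' (Sum.inr (Sum.inr (Sum.inr v))) := dif_pos v.2.isLt
    rw [e1, e2] at h
    exact h

end Vale.Agent.Lib.P002
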