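import Vale.Agent.Lib.P002.GTDefs

/-!
# Integrality and congruences for Laurent polynomial functions with integer coefficients
-/

namespace Vale.Agent.Lib.P002

/-- Value of a coordinate polynomial. -/
theorem gtIntRingAux_X {κ : Type} (θ : κ → ℂˣ) (v : κ ⊕ κ) :
    gtEvalZ θ (MvPolynomial.X v)
      = Sum.elim (fun i => (θ i : ℂ)) (fun i => (((θ i)⁻¹ : ℂˣ) : ℂ)) v := by
  simp [gtEvalZ]

/-- Value of a constant polynomial. -/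
theorem gtIntRingAux_C {κ : Type} (θ : κ → ℂˣ) (a : ℤ) :
    gtEvalZ θ (MvPolynomial.C a) = (a : ℂ) := by
  simp [gtEvalZ]

/-- The coordinates and their inverses lie in the subring. -/
theorem gtIntRingAux_coord_mem (O : Subring ℂ) {κ : Type} (θ : κ → ℂˣ)
    (hθ : ∀ v, (θ v : ℂ) ∈ O ∧ (((θ v)⁻¹ : ℂˣ) : ℂ) ∈ O) (v : κ ⊕ κ) :
    Sum.elim (fun i => (θ i : ℂ)) (fun i => (((θ i)⁻¹ : ℂˣ) : ℂ)) v ∈ O := by
  cases v with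
  | inl i => exact (hθ i).1
  | inr i => exact (hθ i).2

/-- Values of polynomials with integer coefficients lie in the subring. -/
theorem gtIntRingAux_mem (O : Subring ℂ) {κ : Type} (θ : κ → ℂˣ)
    (hθ : ∀ v, (θ v : ℂ) ∈ O ∧ (((θ v)⁻¹ : ℂˣ) : ℂ) ∈ O) (P : MvPolynomial (κ ⊕ κ) ℤ) :
    gtEvalZ θ P ∈ O := by
  induction P using MvPolynomial.induction_on with
  | C a =>
    rw [gtIntRingAux_C]
    exact intCast_mem O a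
  | add p q hp hq =>
    rw [map_add]
    exact O.add_mem hp hq
  | mul_X p v hp =>
    rw [map_mul, gtIntRingAux_X]
    exact O.mul_mem hp (gtIntRingAux_coord_mem O θ hθ v)

/-- Congruence of the coordinates and of their inverses. -/
theorem gtIntRingAux_coord_congr (O : Subring ℂ) (N : ℂ) {κ : Type} (θ θ' : κ → ℂˣ)
    (hθ : ∀ v, (θ v : ℂ) ∈ O ∧ (((θ v)⁻¹ : ℂˣ) : ℂ) ∈ O)
    (hθ' : ∀ v, (θ' v : ℂ) ∈ O ∧ (((θ' v)⁻¹ : ℂˣ) : ℂ) ∈ O)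
    (hc : ∀ v, ∃ w ∈ O, (θ' v : ℂ) - (θ v : ℂ) = N * w) (v : κ ⊕ κ) :
    ∃ u ∈ O, Sum.elim (fun i => (θ' i : ℂ)) (fun i => (((θ' i)⁻¹ : ℂˣ) : ℂ)) v
      - Sum.elim (fun i => (θ i : ℂ)) (fun i => (((θ i)⁻¹ : ℂˣ) : ℂ)) v = N * u := by
  cases v with
  | inl i => exact hc i
  | inr i =>
    obtain ⟨w, hw, h⟩ := hc i
    refine ⟨-(w * (((θ i)⁻¹ : ℂˣ) : ℂ) * (((θ' i)⁻¹ : ℂˣ) : ℂ)),
      O.neg_mem (O.mul_mem (O.mul_mem hw (hθ i).2) (hθ' i).2), ?_⟩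
    have e1 : (θ i : ℂ) * (((θ i)⁻¹ : ℂˣ) : ℂ) = 1 := Units.mul_inv (θ i)
    have e2 : (θ' i : ℂ) * (((θ' i)⁻¹ : ℂˣ) : ℂ) = 1 := Units.mul_inv (θ' i)
    show (((θ' i)⁻¹ : ℂˣ) : ℂ) - (((θ i)⁻¹ : ℂˣ) : ℂ)
      = N * -(w * (((θ i)⁻¹ : ℂˣ) : ℂ) * (((θ' i)⁻¹ : ℂˣ) : ℂ))
    linear_combination (-((((θ i)⁻¹ : ℂˣ) : ℂ) * (((θ' i)⁻¹ : ℂˣ) : ℂ))) * h
      + (((θ i)⁻¹ : ℂˣ) : ℂ) * e2 - (((θ' i)⁻¹ : ℂˣ) : ℂ) * e1

/-- Congruent points have congruent values, for polynomials. -/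
theorem gtIntRingAux_congr (O : Subring ℂ) (N : ℂ) {κ : Type} (θ θ' : κ → ℂˣ)
    (hθ : ∀ v, (θ v : ℂ) ∈ O ∧ (((θ v)⁻¹ : ℂˣ) : ℂ) ∈ O)
    (hθ' : ∀ v, (θ' v : ℂ) ∈ O ∧ (((θ' v)⁻¹ : ℂˣ) : ℂ) ∈ O)
    (hc : ∀ v, ∃ w ∈ O, (θ' v : ℂ) - (θ v : ℂ) = N * w) (P : MvPolynomial (κ ⊕ κ) ℤ) :
    ∃ w ∈ O, gtEvalZ θ' P - gtEvalZ θ P = N * w := by
  induction P using MvPolynomial.induction_on with
  | C a =>
    refine ⟨0, O.zero_mem, ?_⟩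
    rw [gtIntRingAux_C, gtIntRingAux_C]
    ring
  | add p q hp hq =>
    obtain ⟨w1, hw1, h1⟩ := hp
    obtain ⟨w2, hw2, h2⟩ := hq
    refine ⟨w1 + w2, O.add_mem hw1 hw2, ?_⟩
    rw [map_add, map_add]
    linear_combination h1 + h2
  | mul_X p v hp =>
    obtain ⟨w, hw, h1⟩ := hp
    obtain ⟨u, hu, h2⟩ := gtIntRingAux_coord_congr O N θ θ' hθ hθ' hc v
    refine ⟨w * Sum.elim (fun i => (θ' i : ℂ)) (fun i => (((θ' i)⁻¹ : ℂˣ) : ℂ)) v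
        + gtEvalZ θ p * u,
      O.add_mem (O.mul_mem hw (gtIntRingAux_coord_mem O θ' hθ' v))
        (O.mul_mem (gtIntRingAux_mem O θ hθ p) hu), ?_⟩
    rw [map_mul, map_mul, gtIntRingAux_X, gtIntRingAux_X]
    linear_combination
      (Sum.elim (fun i => (θ' i : ℂ)) (fun i => (((θ' i)⁻¹ : ℂˣ) : ℂ)) v) * h1
        + gtEvalZ θ p * h2

/-- A Laurent polynomial function with integer coefficients takes values in a subring `O` at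
points whose coordinates and their inverses lie in `O`. -/
theorem gtInt_mem (O : Subring ℂ) {κ : Type} (θ : κ → ℂˣ)
    (hθ : ∀ v, (θ v : ℂ) ∈ O ∧ (((θ v)⁻¹ : ℂˣ) : ℂ) ∈ O) (h : gtInt κ) : gtIntEv θ h ∈ O := by
  obtain ⟨f, hf⟩ := h
  have hf' : f ∈ (RingHom.pi fun θ : κ → ℂˣ => gtEvalZ θ).range := hf
  obtain ⟨P, rfl⟩ := RingHom.mem_range.mp hf'
  exact gtIntRingAux_mem O θ hθ P

/-- Congruent points have congruent values. -/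
theorem gtInt_congr (O : Subring ℂ) (N : ℂ) {κ : Type} (θ θ' : κ → ℂˣ)
    (hθ : ∀ v, (θ v : ℂ) ∈ O ∧ (((θ v)⁻¹ : ℂˣ) : ℂ) ∈ O)
    (hθ' : ∀ v, (θ' v : ℂ) ∈ O ∧ (((θ' v)⁻¹ : ℂˣ) : ℂ) ∈ O)
    (hc : ∀ v, ∃ w ∈ O, (θ' v : ℂ) - (θ v : ℂ) = N * w) (h : gtInt κ) :
    ∃ w ∈ O, gtIntEv θ' h - gtIntEv θ h = N * w := by
  obtain ⟨f, hf⟩ := h
  have hf' : f ∈ (RingHom.pi fun θ : κ → ℂˣ => gtEvalZ θ).range := hf
  obtain ⟨P, rfl⟩ := RingHom.mem_range.mp hf'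
  exact gtIntRingAux_congr O N θ θ' hθ hθ' hc P

end Vale.Agent.Lib.P002
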