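import Vale.Agent.Lib.P002.GTDefs

/-!
# Units of `ℤ[√2]` congruent to one modulo a nonzero algebraic integer of `ℚ(√2)`
-/

namespace Vale.Agent.Lib.P002

theorem gtO_units (u : ℂˣ) (hu : u ∈ Subgroup.zpowers unitW) :
    (u : ℂ) ∈ gtO ∧ ((u⁻¹ : ℂˣ) : ℂ) ∈ gtO := by
  have hi : u⁻¹ ∈ Subgroup.zpowers unitW := inv_mem hu
  exact ⟨(gtO_mem _).2 ⟨mem_fieldL_of_mem_zpowers hu, isIntegral_of_mem_zpowers hu⟩,
    (gtO_mem _).2 ⟨mem_fieldL_of_mem_zpowers hi, isIntegral_of_mem_zpowers hi⟩⟩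

/-- Integer polynomials in an algebraic integer of the field are algebraic integers of the
field. -/
theorem gtUnitsAux_aeval_mem (N : ℂ) (hN : N ∈ gtO) (q : Polynomial ℤ) :
    Polynomial.aeval N q ∈ gtO := by
  rw [Polynomial.aeval_eq_sum_range]
  exact sum_mem (fun i _ => zsmul_mem (pow_mem hN i) _)

/-- A nonzero number killed by a nonzero integer polynomial is killed by one with nonzero
constant coefficient. -/
theorem gtUnitsAux_poly (N : ℂ) (hN0 : N ≠ 0) :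
    ∀ (d : ℕ) (p : Polynomial ℤ), p ≠ 0 → p.natDegree ≤ d → Polynomial.aeval N p = 0 →
      ∃ g : Polynomial ℤ, g.coeff 0 ≠ 0 ∧ Polynomial.aeval N g = 0 := by
  intro d
  induction d with
  | zero =>
    intro p hp hd h0
    refine ⟨p, ?_, h0⟩
    intro hc
    apply hp
    have h1 := Polynomial.eq_C_of_natDegree_eq_zero (Nat.le_zero.mp hd)
    rw [hc, Polynomial.C_0] at h1
    exact h1
  | succ d ih =>
    intro p hp hd h0
    by_cases hc : p.coeff 0 = 0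
    · have hdiv : p.divX * Polynomial.X = p := by
        have h1 := Polynomial.divX_mul_X_add p
        rw [hc, Polynomial.C_0, add_zero] at h1
        exact h1
      have hq0 : p.divX ≠ 0 := by
        intro h
        apply hp
        rw [← hdiv, h, zero_mul]
      have hqd : p.divX.natDegree ≤ d := by
        rw [Polynomial.natDegree_divX_eq_natDegree_tsub_one]
        omega
      have hqe : Polynomial.aeval N p.divX = 0 := by
        have h1 : Polynomial.aeval N (p.divX * Polynomial.X) = 0 := by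
          rw [hdiv]
          exact h0
        rw [map_mul, Polynomial.aeval_X] at h1
        exact (mul_eq_zero.mp h1).resolve_right hN0
      exact ih p.divX hq0 hqd hqe
    · exact ⟨p, hc, h0⟩

/-- A nonzero algebraic integer of the field divides a nonzero rational integer. -/
theorem gtUnitsAux_int (N : ℂ) (hN : N ∈ gtO) (hN0 : N ≠ 0) :
    ∃ m : ℤ, m ≠ 0 ∧ ∃ y ∈ gtO, (m : ℂ) = N * y := by
  have hint : IsIntegral ℤ N := ((gtO_mem N).1 hN).2
  obtain ⟨p, hpm, hp0⟩ := hint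
  have hp0' : Polynomial.aeval N p = 0 := by
    rw [Polynomial.aeval_def]
    exact hp0
  obtain ⟨g, hg0, hge⟩ := gtUnitsAux_poly N hN0 p.natDegree p hpm.ne_zero le_rfl hp0'
  refine ⟨g.coeff 0, hg0, -(Polynomial.aeval N g.divX),
    neg_mem (gtUnitsAux_aeval_mem N hN _), ?_⟩
  have h1 : Polynomial.aeval N (g.divX * Polynomial.X + Polynomial.C (g.coeff 0)) = 0 := by
    rw [Polynomial.divX_mul_X_add]
    exact hge
  rw [map_add, map_mul, Polynomial.aeval_X, Polynomial.aeval_C] at h1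
  have h2 : (algebraMap ℤ ℂ) (g.coeff 0) = ((g.coeff 0 : ℤ) : ℂ) := rfl
  rw [h2] at h1
  linear_combination h1

/-- The integer coordinates of the powers of `1 + √2`. -/
def gtUnitsAux_ab : ℕ → ℤ × ℤ
  | 0 => (1, 0)
  | k + 1 => ((gtUnitsAux_ab k).1 + 2 * (gtUnitsAux_ab k).2,
      (gtUnitsAux_ab k).1 + (gtUnitsAux_ab k).2)

theorem gtUnitsAux_pow (k : ℕ) :
    ((unitW ^ k : ℂˣ) : ℂ) =
      ((gtUnitsAux_ab k).1 : ℂ) + ((gtUnitsAux_ab k).2 : ℂ) * sqrtTwo := by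
  induction k with
  | zero => simp [gtUnitsAux_ab]
  | succ k ih =>
    rw [pow_succ, Units.val_mul, ih, unitW_val]
    simp only [gtUnitsAux_ab]
    push_cast
    linear_combination ((gtUnitsAux_ab k).2 : ℂ) * sqrtTwo_mul_self

theorem gtUnitsAux_mem (a b : ℤ) : ((a : ℂ) + (b : ℂ) * sqrtTwo) ∈ gtO := by
  have hs : sqrtTwo ∈ gtO := (gtO_mem _).2 ⟨sqrtTwo_mem_fieldL, isIntegral_sqrtTwo⟩
  exact add_mem (intCast_mem gtO a) (mul_mem (intCast_mem gtO b) hs)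

/-- Two powers with the same coordinates modulo `m` give a power congruent to one. -/
theorem gtUnitsAux_key (m : ℤ) (k1 k2 : ℕ) (hlt : k1 < k2)
    (ha : (((gtUnitsAux_ab k1).1 : ℤ) : ZMod m.natAbs) = ((gtUnitsAux_ab k2).1 : ZMod m.natAbs))
    (hb : (((gtUnitsAux_ab k1).2 : ℤ) : ZMod m.natAbs) = ((gtUnitsAux_ab k2).2 : ZMod m.natAbs)) :
    ∃ p : ℕ, 0 < p ∧ ∃ t ∈ gtO, ((unitW ^ p : ℂˣ) : ℂ) - 1 = (m : ℂ) * t := by
  rw [ZMod.intCast_eq_intCast_iff_dvd_sub] at ha hb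
  obtain ⟨a', ha'⟩ := Int.natAbs_dvd.mp ha
  obtain ⟨b', hb'⟩ := Int.natAbs_dvd.mp hb
  refine ⟨k2 - k1, by omega,
    (((unitW ^ k1)⁻¹ : ℂˣ) : ℂ) * ((a' : ℂ) + (b' : ℂ) * sqrtTwo), ?_, ?_⟩
  · exact mul_mem (gtO_units _ (pow_mem (Subgroup.mem_zpowers unitW) k1)).2
      (gtUnitsAux_mem a' b')
  · have e2 : unitW ^ k2 = unitW ^ k1 * unitW ^ (k2 - k1) := by
      rw [← pow_add]
      congr 1
      omega
    have hU2 : ((unitW ^ k2 : ℂˣ) : ℂ) =
        ((unitW ^ k1 : ℂˣ) : ℂ) * ((unitW ^ (k2 - k1) : ℂˣ) : ℂ) := by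
      rw [e2, Units.val_mul]
    have hI : (((unitW ^ k1)⁻¹ : ℂˣ) : ℂ) * ((unitW ^ k1 : ℂˣ) : ℂ) = 1 := Units.inv_mul _
    have hU1 := gtUnitsAux_pow k1
    have hU2' := gtUnitsAux_pow k2
    have hA : (((gtUnitsAux_ab k2).1 : ℤ) : ℂ) - ((gtUnitsAux_ab k1).1 : ℂ) = (m : ℂ) * (a' : ℂ) := by
      exact_mod_cast congrArg (fun z : ℤ => (z : ℂ)) ha'
    have hB : (((gtUnitsAux_ab k2).2 : ℤ) : ℂ) - ((gtUnitsAux_ab k1).2 : ℂ) = (m : ℂ) * (b' : ℂ) := by
      exact_mod_cast congrArg (fun z : ℤ => (z : ℂ)) hb'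
    linear_combination (((unitW ^ k1)⁻¹ : ℂˣ) : ℂ) * hA
      + (((unitW ^ k1)⁻¹ : ℂˣ) : ℂ) * sqrtTwo * hB
      - (((unitW ^ k1)⁻¹ : ℂˣ) : ℂ) * hU2
      - ((unitW ^ (k2 - k1) : ℂˣ) : ℂ) * hI + hI
      + (((unitW ^ k1)⁻¹ : ℂˣ) : ℂ) * hU2' - (((unitW ^ k1)⁻¹ : ℂˣ) : ℂ) * hU1

/-- Some positive power of `1 + √2` is congruent to one modulo a nonzero integer. -/
theorem gtUnitsAux_period (m : ℤ) (hm : m ≠ 0) :
    ∃ p : ℕ, 0 < p ∧ ∃ t ∈ gtO, ((unitW ^ p : ℂˣ) : ℂ) - 1 = (m : ℂ) * t := by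
  have : NeZero m.natAbs := ⟨Int.natAbs_ne_zero.mpr hm⟩
  obtain ⟨k1, k2, hne, heq⟩ := Finite.exists_ne_map_eq_of_infinite
    (fun k : ℕ => ((((gtUnitsAux_ab k).1 : ℤ) : ZMod m.natAbs),
      (((gtUnitsAux_ab k).2 : ℤ) : ZMod m.natAbs)))
  have ha := (Prod.mk.inj heq).1
  have hb := (Prod.mk.inj heq).2
  rcases Nat.lt_or_gt_of_ne hne with hlt | hlt
  · exact gtUnitsAux_key m k1 k2 hlt ha hb
  · exact gtUnitsAux_key m k2 k1 hlt ha.symm hb.symm

/-- For every nonzero algebraic integer `N` of `ℚ(√2)` there are infinitely many powers `u` of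
the unit `1 + √2` with `u - 1` divisible by `N` in the ring of integers. -/
theorem gt_units (N : ℂ) (hN : N ∈ gtO) (hN0 : N ≠ 0) :
    {u : ℂˣ | u ∈ Subgroup.zpowers unitW ∧ ∃ w ∈ gtO, (u : ℂ) - 1 = N * w}.Infinite := by
  obtain ⟨m, hm, y, hy, hmy⟩ := gtUnitsAux_int N hN hN0
  obtain ⟨p, hp, t, ht, hpt⟩ := gtUnitsAux_period m hm
  have h3 : ∀ j : ℕ, ∃ w ∈ gtO, ((unitW ^ (p * j) : ℂˣ) : ℂ) - 1 = N * w := by
    intro j
    induction j with
    | zero => exact ⟨0, zero_mem _, by simp⟩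
    | succ j ih =>
      obtain ⟨w, hw, hwe⟩ := ih
      refine ⟨((unitW ^ (p * j) : ℂˣ) : ℂ) * (y * t) + w,
        add_mem (mul_mem (gtO_units _ (pow_mem (Subgroup.mem_zpowers unitW) _)).1
          (mul_mem hy ht)) hw, ?_⟩
      have e : unitW ^ (p * (j + 1)) = unitW ^ (p * j) * unitW ^ p := by
        rw [← pow_add, Nat.mul_succ]
      rw [e, Units.val_mul]
      linear_combination ((unitW ^ (p * j) : ℂˣ) : ℂ) * hpt + hwe
        + ((unitW ^ (p * j) : ℂˣ) : ℂ) * t * hmy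
  have hinj0 : Function.Injective (fun k : ℕ => unitW ^ k) :=
    injective_pow_iff_not_isOfFinOrder.mpr (infinite_zpowers.mp infinite_zpowers_unitW)
  have hinj : Function.Injective (fun j : ℕ => unitW ^ (p * (j + 1))) := by
    intro a b hab
    have h1 : p * (a + 1) = p * (b + 1) := hinj0 hab
    have h2 := Nat.eq_of_mul_eq_mul_left hp h1
    omega
  exact Set.infinite_of_injective_forall_mem hinj
    (fun j => ⟨pow_mem (Subgroup.mem_zpowers unitW) _, h3 (j + 1)⟩)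

end Vale.Agent.Lib.P002
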