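import Vale.Agent.Lib.P002.GTSpec
import Vale.Agent.Lib.P002.GTIntRing
import Vale.Agent.Lib.P002.GTUnits

/-!
# Integrality and congruences of chart points with unit parameters
-/

open Matrix

namespace Vale.Agent.Lib.P002

/-- Coordinates in the group generated by the fundamental unit are units of the ring of
integers. -/
theorem gtIntAAux_units {κ : Type} (θ : κ → ℂˣ) (hθ : ∀ v, θ v ∈ Subgroup.zpowers unitW) :
    ∀ v, (θ v : ℂ) ∈ gtO ∧ (((θ v)⁻¹ : ℂˣ) : ℂ) ∈ gtO :=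
  fun v => gtO_units _ (hθ v)

/-- The total monodromy is the specialization of the universal product. -/
theorem gtIntAAux_W {n r : ℕ} (hn : 2 ≤ n) (θ : GtK0 n r → ℂˣ) :
    gtW hn θ = ((List.ofFn (gtZU (r := r) hn)).prod).map (gtIntEv θ) := by
  have h1 : gtZ hn θ = fun j => (RingHom.mapMatrix (gtIntEv θ)) (gtZU (r := r) hn j) := rfl
  have h2 : ((List.ofFn (gtZU (r := r) hn)).prod).map (gtIntEv θ)
      = (RingHom.mapMatrix (gtIntEv θ)) ((List.ofFn (gtZU (r := r) hn)).prod) := rfl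
  rw [gtW, h1, h2, map_list_prod, List.map_ofFn]
  rfl

/-- The members of a tuple built by `gtLast` lie in a subgroup containing the free entries. -/
theorem gtIntAAux_last {r : ℕ} (H : Subgroup ℂˣ) (ε : Fin (r - 1) → ℂˣ) (hε : ∀ i, ε i ∈ H)
    (i : Fin r) : gtLast ε i ∈ H := by
  unfold gtLast
  split_ifs with h
  · exact hε _
  · exact H.inv_mem (Subgroup.prod_mem H (fun k _ => hε k))

/-- A factor of the double product of differences. -/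
theorem gtIntAAux_factor_mem (O : Subring ℂ) {ι : Type} [DecidableEq ι] (f : ι → ℂ)
    (hf : ∀ i, f i ∈ O) (i k : ι) : (if i = k then (1 : ℂ) else f k - f i) ∈ O := by
  split_ifs
  · exact O.one_mem
  · exact O.sub_mem (hf k) (hf i)

/-- The double product of differences lies in the subring. -/
theorem gtIntAAux_dprod_mem (O : Subring ℂ) {ι : Type} [Fintype ι] [DecidableEq ι] (f : ι → ℂ)
    (hf : ∀ i, f i ∈ O) :
    (∏ i : ι, ∏ k : ι, if i = k then (1 : ℂ) else f k - f i) ∈ O :=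
  Subring.prod_mem O (fun i _ => Subring.prod_mem O (fun k _ => gtIntAAux_factor_mem O f hf i k))

/-- The double product of differences is divisible by each difference. -/
theorem gtIntAAux_dprod_dvd (O : Subring ℂ) {ι : Type} [Fintype ι] [DecidableEq ι] (f : ι → ℂ)
    (hf : ∀ i, f i ∈ O) (i0 k0 : ι) (h0 : i0 ≠ k0) :
    ∃ w ∈ O, (∏ i : ι, ∏ k : ι, if i = k then (1 : ℂ) else f k - f i) = (f k0 - f i0) * w := by
  refine ⟨(∏ k ∈ (Finset.univ : Finset ι).erase k0, if i0 = k then (1 : ℂ) else f k - f i0) *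
      ∏ i ∈ (Finset.univ : Finset ι).erase i0, ∏ k : ι, if i = k then (1 : ℂ) else f k - f i,
    O.mul_mem (Subring.prod_mem O (fun k _ => gtIntAAux_factor_mem O f hf i0 k))
      (Subring.prod_mem O (fun i _ =>
        Subring.prod_mem O (fun k _ => gtIntAAux_factor_mem O f hf i k))), ?_⟩
  rw [← Finset.mul_prod_erase Finset.univ
    (fun i => ∏ k : ι, if i = k then (1 : ℂ) else f k - f i) (Finset.mem_univ i0)]
  rw [← Finset.mul_prod_erase Finset.univ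
    (fun k => if i0 = k then (1 : ℂ) else f k - f i0) (Finset.mem_univ k0)]
  rw [if_neg h0]
  ring

theorem gt_int_pt {n r : ℕ} (hn : 2 ≤ n) (θ : GtK0 n r → ℂˣ)
    (hθ : ∀ v, θ v ∈ Subgroup.zpowers unitW) (j : Fin n) :
    (∀ i k, gtZ hn θ j i k ∈ gtO) ∧ (∀ i k, gtPm hn θ j i k ∈ gtO) ∧
      (∀ i k, gtPim hn θ j i k ∈ gtO) ∧ ∀ i k, gtLm hn θ j i k ∈ gtO := by
  have hu := gtIntAAux_units θ hθ
  exact ⟨fun i k => gtInt_mem gtO θ hu (gtZU hn j i k),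
    fun i k => gtInt_mem gtO θ hu (gtPU hn j i k),
    fun i k => gtInt_mem gtO θ hu (gtPiU hn j i k),
    fun i k => gtInt_mem gtO θ hu (gtLU hn j i k)⟩

theorem gt_int_W {n r : ℕ} (hn : 2 ≤ n) (θ : GtK0 n r → ℂˣ)
    (hθ : ∀ v, θ v ∈ Subgroup.zpowers unitW) : ∀ i k, gtW hn θ i k ∈ gtO := by
  intro i k
  rw [gtIntAAux_W]
  exact gtInt_mem gtO θ (gtIntAAux_units θ hθ) _

theorem gt_int_congr {n r : ℕ} (hn : 2 ≤ n) (N : ℂ) (θ θ' : GtK0 n r → ℂˣ)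
    (hθ : ∀ v, θ v ∈ Subgroup.zpowers unitW) (hθ' : ∀ v, θ' v ∈ Subgroup.zpowers unitW)
    (hc : ∀ v, ∃ w ∈ gtO, ((θ' v : ℂˣ) : ℂ) - ((θ v : ℂˣ) : ℂ) = N * w) (j : Fin n) :
    (∀ i k, ∃ w ∈ gtO, gtZ hn θ' j i k - gtZ hn θ j i k = N * w) ∧
      (∀ i k, ∃ w ∈ gtO, gtPm hn θ' j i k - gtPm hn θ j i k = N * w) ∧
      (∀ i k, ∃ w ∈ gtO, gtPim hn θ' j i k - gtPim hn θ j i k = N * w) ∧
      ∀ i k, ∃ w ∈ gtO, gtLm hn θ' j i k - gtLm hn θ j i k = N * w := by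
  have hu := gtIntAAux_units θ hθ
  have hu' := gtIntAAux_units θ' hθ'
  exact ⟨fun i k => gtInt_congr gtO N θ θ' hu hu' hc (gtZU hn j i k),
    fun i k => gtInt_congr gtO N θ θ' hu hu' hc (gtPU hn j i k),
    fun i k => gtInt_congr gtO N θ θ' hu hu' hc (gtPiU hn j i k),
    fun i k => gtInt_congr gtO N θ θ' hu hu' hc (gtLU hn j i k)⟩

theorem gt_int_W_congr {n r : ℕ} (hn : 2 ≤ n) (N : ℂ) (θ θ' : GtK0 n r → ℂˣ)
    (hθ : ∀ v, θ v ∈ Subgroup.zpowers unitW) (hθ' : ∀ v, θ' v ∈ Subgroup.zpowers unitW)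
    (hc : ∀ v, ∃ w ∈ gtO, ((θ' v : ℂˣ) : ℂ) - ((θ v : ℂˣ) : ℂ) = N * w) :
    ∀ i k, ∃ w ∈ gtO, gtW hn θ' i k - gtW hn θ i k = N * w := by
  intro i k
  rw [gtIntAAux_W, gtIntAAux_W]
  exact gtInt_congr gtO N θ θ' (gtIntAAux_units θ hθ) (gtIntAAux_units θ' hθ') hc _

/-- The discriminant at a point with unit coordinates is an algebraic integer divisible by all
differences of eigenvalues, and the eigenvalues are algebraic integers. -/
theorem gtDisc_int {n r : ℕ} (θ : GtK0 n r → ℂˣ) (hθ : ∀ v, θ v ∈ Subgroup.zpowers unitW) :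
    gtDisc θ ∈ gtO ∧ (∀ i, ((gtC θ i : ℂˣ) : ℂ) ∈ gtO) ∧ (∀ j i, ((gtD θ j i : ℂˣ) : ℂ) ∈ gtO) ∧
      (∀ i k, i ≠ k → ∃ w ∈ gtO, gtDisc θ =
        (((gtC θ k : ℂˣ) : ℂ) - ((gtC θ i : ℂˣ) : ℂ)) * w) ∧
      ∀ j i k, i ≠ k → ∃ w ∈ gtO, gtDisc θ =
        (((gtD θ j k : ℂˣ) : ℂ) - ((gtD θ j i : ℂˣ) : ℂ)) * w := by
  have hC : ∀ i, ((gtC θ i : ℂˣ) : ℂ) ∈ gtO := fun i =>
    (gtO_units _ (gtIntAAux_last _ _ (fun k => hθ _) i)).1
  have hD : ∀ j i, ((gtD θ j i : ℂˣ) : ℂ) ∈ gtO := fun j i =>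
    (gtO_units _ (gtIntAAux_last _ _ (fun k => hθ _) i)).1
  have hCm := gtIntAAux_dprod_mem gtO (fun i => ((gtC θ i : ℂˣ) : ℂ)) hC
  have hDm : ∀ j, (∏ i : Fin r, ∏ k : Fin r,
      if i = k then (1 : ℂ) else (((gtD θ j k : ℂˣ) : ℂ) - ((gtD θ j i : ℂˣ) : ℂ))) ∈ gtO :=
    fun j => gtIntAAux_dprod_mem gtO (fun i => ((gtD θ j i : ℂˣ) : ℂ)) (hD j)
  have hDm' : (∏ j : Fin n, ∏ i : Fin r, ∏ k : Fin r,
      if i = k then (1 : ℂ) else (((gtD θ j k : ℂˣ) : ℂ) - ((gtD θ j i : ℂˣ) : ℂ))) ∈ gtO :=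
    Subring.prod_mem gtO (fun j _ => hDm j)
  refine ⟨gtO.mul_mem hCm hDm', hC, hD, ?_, ?_⟩
  · intro i k hik
    obtain ⟨w, hw, e⟩ := gtIntAAux_dprod_dvd gtO (fun i => ((gtC θ i : ℂˣ) : ℂ)) hC i k hik
    refine ⟨w * ∏ j : Fin n, ∏ i : Fin r, ∏ k : Fin r,
      if i = k then (1 : ℂ) else (((gtD θ j k : ℂˣ) : ℂ) - ((gtD θ j i : ℂˣ) : ℂ)),
      gtO.mul_mem hw hDm', ?_⟩
    unfold gtDisc
    rw [e]
    ring
  · intro j i k hik
    obtain ⟨w, hw, e⟩ := gtIntAAux_dprod_dvd gtO (fun i => ((gtD θ j i : ℂˣ) : ℂ)) (hD j) i k hik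
    refine ⟨(∏ i : Fin r, ∏ k : Fin r,
        if i = k then (1 : ℂ) else (((gtC θ k : ℂˣ) : ℂ) - ((gtC θ i : ℂˣ) : ℂ))) * (w *
        ∏ j' ∈ (Finset.univ : Finset (Fin n)).erase j, ∏ i : Fin r, ∏ k : Fin r,
          if i = k then (1 : ℂ) else (((gtD θ j' k : ℂˣ) : ℂ) - ((gtD θ j' i : ℂˣ) : ℂ))),
      gtO.mul_mem hCm (gtO.mul_mem hw (Subring.prod_mem gtO (fun j' _ => hDm j'))), ?_⟩
    unfold gtDisc
    rw [← Finset.mul_prod_erase Finset.univ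
      (fun j => ∏ i : Fin r, ∏ k : Fin r,
        if i = k then (1 : ℂ) else (((gtD θ j k : ℂˣ) : ℂ) - ((gtD θ j i : ℂˣ) : ℂ)))
      (Finset.mem_univ j)]
    rw [e]
    ring

end Vale.Agent.Lib.P002
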