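import Vale.Agent.Lib.P002.GTFrame
import Vale.Agent.Lib.P002.GTGroup

/-!
# The family consists of representations of the closed surface group
-/

open Matrix

namespace Vale.Agent.Lib.P002

/-- The product of a tuple whose entries before the last index are free and whose last entry
is prescribed. -/
theorem gtRelAux_prod_last {G : Type*} [CommGroup G] {r : ℕ} (hr : 1 ≤ r) (a : Fin (r - 1) → G)
    (x : G) :
    ∏ i : Fin r, (if h : (i : ℕ) < r - 1 then a ⟨i, h⟩ else x) = (∏ k, a k) * x := by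
  obtain ⟨m, rfl⟩ : ∃ m, r = m + 1 := ⟨r - 1, by omega⟩
  rw [Fin.prod_univ_castSucc]
  have h1 : ∀ k : Fin m,
      (if h : ((k.castSucc : Fin (m + 1)) : ℕ) < m + 1 - 1 then
        a ⟨((k.castSucc : Fin (m + 1)) : ℕ), h⟩ else x) = a k := by
    intro k
    have hk : ((k.castSucc : Fin (m + 1)) : ℕ) < m + 1 - 1 := by
      have := k.isLt
      rw [Fin.val_castSucc]
      omega
    rw [dif_pos hk]
    rfl
  have h2 : (if h : ((Fin.last m : Fin (m + 1)) : ℕ) < m + 1 - 1 then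
      a ⟨((Fin.last m : Fin (m + 1)) : ℕ), h⟩ else x) = x := by
    have hk : ¬ ((Fin.last m : Fin (m + 1)) : ℕ) < m + 1 - 1 := by
      rw [Fin.val_last]
      omega
    rw [dif_neg hk]
  rw [h2]
  congr 1
  exact Finset.prod_congr rfl (fun k _ => h1 k)

theorem gtLamMu_prod {n r : ℕ} (hr : 1 ≤ r) (θ : GtK n r → ℂˣ) (j : Fin n) :
    (∏ i, gtLam θ i) * ∏ i, gtMu θ j i = 1 := by
  have h1 : ∏ i, gtLam θ i = (∏ k : Fin (r - 1), θ (Sum.inr (Sum.inr (Sum.inl k)))) * 1 :=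
    gtRelAux_prod_last hr (fun k => θ (Sum.inr (Sum.inr (Sum.inl k)))) 1
  have h2 : ∏ i, gtMu θ j i = (∏ k : Fin (r - 1), θ (Sum.inr (Sum.inr (Sum.inr (j, k))))) *
      ((∏ k : Fin (r - 1), θ (Sum.inr (Sum.inr (Sum.inl k)))) *
        ∏ k : Fin (r - 1), θ (Sum.inr (Sum.inr (Sum.inr (j, k)))))⁻¹ :=
    gtRelAux_prod_last hr (fun k => θ (Sum.inr (Sum.inr (Sum.inr (j, k))))) _
  rw [h1, h2, mul_one, ← mul_assoc, mul_inv_cancel]

/-- The adjugate of a matrix of determinant one is its inverse and has determinant one. -/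
theorem gtRelAux_adj {r : ℕ} (A : Matrix (Fin r) (Fin r) ℂ) (h : A.det = 1) :
    A * A.adjugate = 1 ∧ A.adjugate * A = 1 ∧ A.adjugate.det = 1 := by
  refine ⟨?_, ?_, ?_⟩
  · rw [Matrix.mul_adjugate, h, one_smul]
  · rw [Matrix.adjugate_mul, h, one_smul]
  · rw [Matrix.det_adjugate, h, one_pow]

/-- The diagonal matrix of a tuple of units is invertible. -/
theorem gtRelAux_diag_inv {r : ℕ} (u : Fin r → ℂˣ) :
    Matrix.diagonal (fun i => ((u i : ℂˣ) : ℂ)) *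
        Matrix.diagonal (fun i => (((u i)⁻¹ : ℂˣ) : ℂ)) = 1 ∧
      Matrix.diagonal (fun i => (((u i)⁻¹ : ℂˣ) : ℂ)) *
        Matrix.diagonal (fun i => ((u i : ℂˣ) : ℂ)) = 1 := by
  constructor
  · rw [Matrix.diagonal_mul_diagonal, ← Matrix.diagonal_one]
    congr 1
    funext i
    exact Units.mul_inv (u i)
  · rw [Matrix.diagonal_mul_diagonal, ← Matrix.diagonal_one]
    congr 1
    funext i
    exact Units.inv_mul (u i)

/-- Diagonal matrices commute. -/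
theorem gtRelAux_diag_comm {r : ℕ} (a b : Fin r → ℂ) :
    Matrix.diagonal a * Matrix.diagonal b = Matrix.diagonal b * Matrix.diagonal a := by
  rw [Matrix.diagonal_mul_diagonal, Matrix.diagonal_mul_diagonal]
  congr 1
  funext i
  exact mul_comm _ _

/-- If `Z * F = F * D`, `Z' * F' = F' * D` and `Λ` commutes with `D`, then `F * Λ * F'⁻¹`
intertwines `Z'` and `Z`. -/
theorem gtRelAux_conj {r : ℕ} (F F' Fi' Λ D Z Z' : Matrix (Fin r) (Fin r) ℂ)
    (h1 : Z * F = F * D) (h2 : Z' * F' = F' * D) (h3 : F' * Fi' = 1) (h4 : Fi' * F' = 1)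
    (hc : Λ * D = D * Λ) : F * Λ * Fi' * Z' = Z * (F * Λ * Fi') := by
  have e : Fi' * Z' = D * Fi' := by
    calc Fi' * Z' = Fi' * Z' * (F' * Fi') := by rw [h3, Matrix.mul_one]
      _ = Fi' * (Z' * F') * Fi' := by simp only [Matrix.mul_assoc]
      _ = Fi' * F' * D * Fi' := by
          rw [h2]
          simp only [Matrix.mul_assoc]
      _ = D * Fi' := by rw [h4, Matrix.one_mul]
  calc F * Λ * Fi' * Z' = F * Λ * (Fi' * Z') := by simp only [Matrix.mul_assoc]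
    _ = F * (Λ * D) * Fi' := by
        rw [e]
        simp only [Matrix.mul_assoc]
    _ = F * D * Λ * Fi' := by
        rw [hc]
        simp only [Matrix.mul_assoc]
    _ = Z * (F * Λ * Fi') := by
        rw [← h1]
        simp only [Matrix.mul_assoc]

/-- Conjugating every member of a list conjugates the product. -/
theorem gtRelAux_tele {r : ℕ} (u ui : Matrix (Fin r) (Fin r) ℂ) (h1 : u * ui = 1)
    (h2 : ui * u = 1) (L : List (Matrix (Fin r) (Fin r) ℂ)) :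
    (L.map fun X => u * X * ui).prod = u * L.prod * ui := by
  induction L with
  | nil => rw [List.map_nil, List.prod_nil, Matrix.mul_one, h1]
  | cons X L ih =>
    rw [List.map_cons, List.prod_cons, List.prod_cons, ih]
    calc u * X * ui * (u * L.prod * ui) = u * X * ((ui * u) * (L.prod * ui)) := by
          simp only [Matrix.mul_assoc]
      _ = u * (X * L.prod) * ui := by
          rw [h2, Matrix.one_mul]
          simp only [Matrix.mul_assoc]

theorem gtRelAux_coe_prod {r : ℕ} :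
    ∀ (m : ℕ) (f : Fin m → Matrix.SpecialLinearGroup (Fin r) ℂ),
      ((List.ofFn f).prod).1 = (List.ofFn fun k => (f k).1).prod := by
  intro m
  induction m with
  | zero =>
    intro f
    simp
  | succ m ih =>
    intro f
    rw [List.ofFn_succ, List.prod_cons, Matrix.SpecialLinearGroup.coe_mul, ih, List.ofFn_succ,
      List.prod_cons]

theorem gtRelAux_inv {r : ℕ} (a : Matrix.SpecialLinearGroup (Fin r) ℂ) :
    a.1 * (a⁻¹).1 = 1 := by
  rw [← Matrix.SpecialLinearGroup.coe_mul, mul_inv_cancel]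
  rfl

/-- The matrix `gtU` is invertible and conjugates the total monodromy of the second chart point
to that of the first; the matrices `gtSg` have determinant one and conjugate the loops of the
first chart point to the loops of the conjugated second chart point. -/
theorem gtSg_spec {n r : ℕ} (hn : 2 ≤ n) (hr : 1 ≤ r) (θ : GtK n r → ℂˣ)
    (hD : gtDisc (gtP1 θ) ≠ 0) :
    ∃ ui : Matrix (Fin r) (Fin r) ℂ, gtU hn θ * ui = 1 ∧ ui * gtU hn θ = 1 ∧
      gtU hn θ * gtW hn (gtP2 θ) = gtW hn (gtP1 θ) * gtU hn θ ∧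
      ∀ j, (gtSg hn θ j).det = 1 ∧
        gtSg hn θ j * gtZ hn (gtP1 θ) j = gtU hn θ * gtZ hn (gtP2 θ) j * ui * gtSg hn θ j := by
  have hD2 : gtDisc (gtP2 θ) ≠ 0 := hD
  have hΦ := (gtFW_spec hn (gtP1 θ) hD).2.2
  have hΦ' : gtFW hn (gtP2 θ) * Matrix.diagonal (fun i => ((gtC (gtP1 θ) i : ℂˣ) : ℂ))
      = gtW hn (gtP2 θ) * gtFW hn (gtP2 θ) := (gtFW_spec hn (gtP2 θ) hD2).2.2
  have dΦ := gtFW_det hn (gtP1 θ) hD
  have dΦ' := gtFW_det hn (gtP2 θ) hD2
  obtain ⟨a1, a2, _⟩ := gtRelAux_adj _ dΦ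
  obtain ⟨b1, b2, b3⟩ := gtRelAux_adj _ dΦ'
  obtain ⟨l1, l2⟩ := gtRelAux_diag_inv (gtLam θ)
  have hU : gtU hn θ = gtFW hn (gtP1 θ) * Matrix.diagonal (fun i => ((gtLam θ i : ℂˣ) : ℂ)) *
      (gtFW hn (gtP2 θ)).adjugate := rfl
  have hUui : gtU hn θ * (gtFW hn (gtP2 θ) *
      Matrix.diagonal (fun i => (((gtLam θ i)⁻¹ : ℂˣ) : ℂ)) * (gtFW hn (gtP1 θ)).adjugate) = 1 := by
    rw [hU]
    calc gtFW hn (gtP1 θ) * Matrix.diagonal (fun i => ((gtLam θ i : ℂˣ) : ℂ)) *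
          (gtFW hn (gtP2 θ)).adjugate * (gtFW hn (gtP2 θ) *
            Matrix.diagonal (fun i => (((gtLam θ i)⁻¹ : ℂˣ) : ℂ)) *
            (gtFW hn (gtP1 θ)).adjugate)
        = gtFW hn (gtP1 θ) * (Matrix.diagonal (fun i => ((gtLam θ i : ℂˣ) : ℂ)) *
            (((gtFW hn (gtP2 θ)).adjugate * gtFW hn (gtP2 θ)) *
              Matrix.diagonal (fun i => (((gtLam θ i)⁻¹ : ℂˣ) : ℂ)))) *
            (gtFW hn (gtP1 θ)).adjugate := by simp only [Matrix.mul_assoc]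
      _ = 1 := by rw [b2, Matrix.one_mul, l1, Matrix.mul_one, a1]
  have huiU : (gtFW hn (gtP2 θ) * Matrix.diagonal (fun i => (((gtLam θ i)⁻¹ : ℂˣ) : ℂ)) *
      (gtFW hn (gtP1 θ)).adjugate) * gtU hn θ = 1 := by
    rw [hU]
    calc gtFW hn (gtP2 θ) * Matrix.diagonal (fun i => (((gtLam θ i)⁻¹ : ℂˣ) : ℂ)) *
          (gtFW hn (gtP1 θ)).adjugate * (gtFW hn (gtP1 θ) *
            Matrix.diagonal (fun i => ((gtLam θ i : ℂˣ) : ℂ)) * (gtFW hn (gtP2 θ)).adjugate)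
        = gtFW hn (gtP2 θ) * (Matrix.diagonal (fun i => (((gtLam θ i)⁻¹ : ℂˣ) : ℂ)) *
            (((gtFW hn (gtP1 θ)).adjugate * gtFW hn (gtP1 θ)) *
              Matrix.diagonal (fun i => ((gtLam θ i : ℂˣ) : ℂ)))) *
            (gtFW hn (gtP2 θ)).adjugate := by simp only [Matrix.mul_assoc]
      _ = 1 := by rw [a2, Matrix.one_mul, l2, Matrix.mul_one, b1]
  have hUW : gtU hn θ * gtW hn (gtP2 θ) = gtW hn (gtP1 θ) * gtU hn θ := by
    rw [hU]
    exact gtRelAux_conj _ _ _ _ _ _ _ hΦ.symm hΦ'.symm b1 b2 (gtRelAux_diag_comm _ _)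
  have dU : (gtU hn θ).det = ∏ i, ((gtLam θ i : ℂˣ) : ℂ) := by
    rw [hU, Matrix.det_mul, Matrix.det_mul, dΦ, b3, Matrix.det_diagonal, one_mul, mul_one]
  refine ⟨_, hUui, huiU, hUW, fun j => ?_⟩
  obtain ⟨dF, hF⟩ := gtFr_spec hn (gtP1 θ) hD j
  obtain ⟨dF', hF'0⟩ := gtFr_spec hn (gtP2 θ) hD2 j
  have hF' : gtZ hn (gtP2 θ) j * gtFr hn (gtP2 θ) j = gtFr hn (gtP2 θ) j *
      Matrix.diagonal (fun i => ((gtD (gtP1 θ) j i : ℂˣ) : ℂ)) := hF'0
  obtain ⟨c1, c2, c3⟩ := gtRelAux_adj _ dF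
  have hS : gtSg hn θ j = gtU hn θ * (gtFr hn (gtP2 θ) j *
      Matrix.diagonal (fun i => ((gtMu θ j i : ℂˣ) : ℂ)) * (gtFr hn (gtP1 θ) j).adjugate) := by
    unfold gtSg
    simp only [Matrix.mul_assoc]
  constructor
  · unfold gtSg
    rw [Matrix.det_mul, Matrix.det_mul, Matrix.det_mul, dU, dF', Matrix.det_diagonal, c3,
      mul_one, mul_one, ← Units.coe_prod, ← Units.coe_prod, ← Units.val_mul,
      gtLamMu_prod hr θ j, Units.val_one]
  · have hconj := gtRelAux_conj (gtFr hn (gtP2 θ) j) (gtFr hn (gtP1 θ) j)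
      (gtFr hn (gtP1 θ) j).adjugate (Matrix.diagonal (fun i => ((gtMu θ j i : ℂˣ) : ℂ)))
      (Matrix.diagonal (fun i => ((gtD (gtP1 θ) j i : ℂˣ) : ℂ))) (gtZ hn (gtP2 θ) j)
      (gtZ hn (gtP1 θ) j) hF' hF c1 c2 (gtRelAux_diag_comm _ _)
    calc gtSg hn θ j * gtZ hn (gtP1 θ) j
        = gtU hn θ * ((gtFr hn (gtP2 θ) j * Matrix.diagonal (fun i => ((gtMu θ j i : ℂˣ) : ℂ)) *
            (gtFr hn (gtP1 θ) j).adjugate) * gtZ hn (gtP1 θ) j) := by
          rw [hS]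
          simp only [Matrix.mul_assoc]
      _ = gtU hn θ * (gtZ hn (gtP2 θ) j * (gtFr hn (gtP2 θ) j *
            Matrix.diagonal (fun i => ((gtMu θ j i : ℂˣ) : ℂ)) *
            (gtFr hn (gtP1 θ) j).adjugate)) := by rw [hconj]
      _ = gtU hn θ * gtZ hn (gtP2 θ) j * (((gtFW hn (gtP2 θ) *
            Matrix.diagonal (fun i => (((gtLam θ i)⁻¹ : ℂˣ) : ℂ)) *
            (gtFW hn (gtP1 θ)).adjugate) * gtU hn θ) * (gtFr hn (gtP2 θ) j *
            Matrix.diagonal (fun i => ((gtMu θ j i : ℂˣ) : ℂ)) *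
            (gtFr hn (gtP1 θ) j).adjugate)) := by
          rw [huiU, Matrix.one_mul]
          simp only [Matrix.mul_assoc]
      _ = gtU hn θ * gtZ hn (gtP2 θ) j * (gtFW hn (gtP2 θ) *
            Matrix.diagonal (fun i => (((gtLam θ i)⁻¹ : ℂˣ) : ℂ)) *
            (gtFW hn (gtP1 θ)).adjugate) * gtSg hn θ j := by
          rw [hS]
          simp only [Matrix.mul_assoc]

/-- The relation of the closed surface group. -/
theorem gt_rel {n r : ℕ} (hn : 2 ≤ n) (hr : 1 ≤ r) (θ : GtK n r → ℂˣ)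
    (hD : gtDisc (gtP1 θ) ≠ 0) :
    (List.ofFn fun j => gtA hn θ j * gtB hn θ j * (gtA hn θ j)⁻¹ * (gtB hn θ j)⁻¹).prod = 1 := by
  obtain ⟨ui, hUui, huiU, hUW, hj⟩ := gtSg_spec hn hr θ hD
  have hz : ∀ j, (gtZs hn θ j).1 = gtZ hn (gtP1 θ) j :=
    fun j => gtSL_val _ (gtZ_det hn (gtP1 θ) j)
  have hs : ∀ j, (gtSs hn θ j).1 = gtSg hn θ j := fun j => gtSL_val _ (hj j).1
  have hfac : ∀ j, (gtSs hn θ j * gtZs hn θ j * (gtSs hn θ j)⁻¹).1
      = gtU hn θ * gtZ hn (gtP2 θ) j * ui := by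
    intro j
    have hinv : gtSg hn θ j * ((gtSs hn θ j)⁻¹).1 = 1 := by
      have h0 := gtRelAux_inv (gtSs hn θ j)
      rw [hs j] at h0
      exact h0
    rw [Matrix.SpecialLinearGroup.coe_mul, Matrix.SpecialLinearGroup.coe_mul, hs j, hz j,
      (hj j).2, Matrix.mul_assoc, hinv, Matrix.mul_one]
  have hprod : (List.ofFn fun j => gtSs hn θ j * gtZs hn θ j * (gtSs hn θ j)⁻¹).prod
      = (List.ofFn (gtZs hn θ)).prod := by
    apply Subtype.ext
    rw [gtRelAux_coe_prod, gtRelAux_coe_prod]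
    have e1 : (fun k => (gtSs hn θ k * gtZs hn θ k * (gtSs hn θ k)⁻¹).1)
        = (fun X => gtU hn θ * X * ui) ∘ (gtZ hn (gtP2 θ)) := by
      funext k
      exact hfac k
    have e2 : (fun k => (gtZs hn θ k).1) = gtZ hn (gtP1 θ) := funext hz
    rw [e1, e2, ← List.map_ofFn, gtRelAux_tele _ _ hUui huiU]
    show gtU hn θ * gtW hn (gtP2 θ) * ui = gtW hn (gtP1 θ)
    rw [hUW, Matrix.mul_assoc, hUui, Matrix.mul_one]
  unfold gtA gtB
  rw [gt_group (gtZs hn θ) (gtSs hn θ), hprod, mul_inv_cancel]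

end Vale.Agent.Lib.P002
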