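import Vale.Agent.Lib.P002.GTIntSg
import Vale.Agent.Lib.P002.GTRel

/-!
# Integrality of the family at integral parameter points
-/

open Matrix

namespace Vale.Agent.Lib.P002

/-- The adjugate of a matrix with entries in a subring has entries in the subring. -/
theorem gtIntCAux_adj {r : ℕ} (O : Subring ℂ) (m : Matrix (Fin r) (Fin r) ℂ)
    (hm : ∀ i k, m i k ∈ O) : ∀ i k, m.adjugate i k ∈ O := by
  obtain ⟨M, hM⟩ : ∃ M : Matrix (Fin r) (Fin r) O, M = fun i k => ⟨m i k, hm i k⟩ := ⟨_, rfl⟩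
  have e : m = O.subtype.mapMatrix M := by
    ext i k
    rw [hM]
    rfl
  intro i k
  rw [e, ← RingHom.map_adjugate]
  exact (M.adjugate i k).2

/-- The elements of the special linear group with entries in a subring form a subgroup. -/
theorem gtIntCAux_subgroup {r : ℕ} (O : Subring ℂ) :
    ∃ S : Subgroup (Matrix.SpecialLinearGroup (Fin r) ℂ), ∀ a, a ∈ S ↔ ∀ i k, a.1 i k ∈ O := by
  refine ⟨{ carrier := {a | ∀ i k, a.1 i k ∈ O}
            mul_mem' := ?_
            one_mem' := ?_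
            inv_mem' := ?_ }, fun a => Iff.rfl⟩
  · intro a b ha hb i k
    rw [Matrix.SpecialLinearGroup.coe_mul, Matrix.mul_apply]
    exact O.sum_mem fun l _ => O.mul_mem (ha i l) (hb l k)
  · intro i k
    rw [Matrix.SpecialLinearGroup.coe_one, Matrix.one_apply]
    split_ifs
    · exact O.one_mem
    · exact O.zero_mem
  · intro a ha i k
    rw [Matrix.SpecialLinearGroup.coe_inv]
    exact gtIntCAux_adj O a.1 ha i k

/-- At an integral parameter point the standard generators have algebraic integer entries. -/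
theorem gtAB_int {n r : ℕ} (hn : 2 ≤ n) (hr : 1 ≤ r) (θ : GtK n r → ℂˣ) (h : gtIntPt θ) :
    (∀ j i k, (gtA hn θ j).1 i k ∈ gtO) ∧ ∀ j i k, (gtB hn θ j).1 i k ∈ gtO := by
  obtain ⟨S, hS⟩ := gtIntCAux_subgroup (r := r) gtO
  have hθ1 : ∀ v, gtP1 θ v ∈ Subgroup.zpowers unitW := fun v => h.2.1 (Sum.inl v)
  obtain ⟨ui, _, _, _, hsg⟩ := gtSg_spec hn hr θ h.1
  have hz : ∀ j, gtZs hn θ j ∈ S := by
    intro j
    rw [hS]
    have e : (gtZs hn θ j).1 = gtZ hn (gtP1 θ) j := gtSL_val _ (gtZ_det hn (gtP1 θ) j)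
    rw [e]
    exact (gt_int_pt hn (gtP1 θ) hθ1 j).1
  have hσ : ∀ j, gtSs hn θ j ∈ S := by
    intro j
    rw [hS]
    have e : (gtSs hn θ j).1 = gtSg hn θ j := gtSL_val _ (hsg j).1
    rw [e]
    exact gtSg_int hn hr θ h j
  have hpre : ∀ j : ℕ, gtPre (gtZs hn θ) j ∈ S := by
    intro j
    unfold gtPre
    refine S.list_prod_mem fun x hx => ?_
    obtain ⟨i, rfl⟩ := List.mem_ofFn.mp (List.mem_of_mem_take hx)
    exact hz i
  constructor
  · intro j
    have hA : gtA hn θ j ∈ S := S.mul_mem (S.mul_mem (hpre j) (hσ j)) (S.inv_mem (hpre j))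
    exact (hS _).1 hA
  · intro j
    have hB : gtB hn θ j ∈ S := S.mul_mem (S.mul_mem (hpre j) (hz j)) (S.inv_mem (hpre j))
    exact (hS _).1 hB

end Vale.Agent.Lib.P002
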