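import Vale.Agent.Lib.P002.GTIntU
import Vale.Agent.Lib.P002.GTConjLow

/-!
# Integrality of the conjugators of the loops at integral parameter points
-/

open Matrix

namespace Vale.Agent.Lib.P002

/-- Products of matrices with entries in a subring have entries in the subring. -/
theorem gtIntSgAux_mul_mem {r : ℕ} (O : Subring ℂ) (A B : Matrix (Fin r) (Fin r) ℂ)
    (hA : ∀ i k, A i k ∈ O) (hB : ∀ i k, B i k ∈ O) : ∀ i k, (A * B) i k ∈ O := by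
  intro i k
  rw [Matrix.mul_apply]
  exact O.sum_mem (fun l _ => O.mul_mem (hA i l) (hB l k))

/-- Products of lower triangular matrices with unit diagonal. -/
theorem gtIntSgAux_unit_mul {r : ℕ} (A B : Matrix (Fin r) (Fin r) ℂ)
    (hA : A.IsLowerTriangular) (hA1 : ∀ i, A i i = 1) (hB : B.IsLowerTriangular)
    (hB1 : ∀ i, B i i = 1) : (A * B).IsLowerTriangular ∧ ∀ i, (A * B) i i = 1 := by
  refine ⟨Matrix.BlockTriangular.mul hA hB, fun i => ?_⟩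
  rw [Matrix.mul_apply, Finset.sum_eq_single i]
  · rw [hA1, hB1, mul_one]
  · intro l _ hl
    rcases lt_or_gt_of_ne hl with h | h
    · rw [hB (OrderDual.toDual_lt_toDual.mpr h), mul_zero]
    · rw [hA (OrderDual.toDual_lt_toDual.mpr h), zero_mul]
  · intro hi
    exact absurd (Finset.mem_univ i) hi

/-- Regrouping of the factors. -/
theorem gtIntSgAux_factor {r : ℕ} (U P' Ψ' M Ψi Pi V : Matrix (Fin r) (Fin r) ℂ)
    (h : V * Ψ' = 1) :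
    U * (P' * Ψ') * M * (Ψi * Pi) = U * P' * (Ψ' * M * V) * (Ψ' * Ψi) * Pi := by
  have e : Ψ' * M * V * (Ψ' * Ψi) = Ψ' * M * Ψi := by
    calc Ψ' * M * V * (Ψ' * Ψi) = Ψ' * M * (V * Ψ') * Ψi := by simp only [Matrix.mul_assoc]
      _ = Ψ' * M * Ψi := by rw [h, Matrix.mul_one]
  calc U * (P' * Ψ') * M * (Ψi * Pi) = U * P' * (Ψ' * M * Ψi) * Pi := by
        simp only [Matrix.mul_assoc]
    _ = U * P' * (Ψ' * M * V * (Ψ' * Ψi)) * Pi := by rw [e]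
    _ = U * P' * (Ψ' * M * V) * (Ψ' * Ψi) * Pi := by simp only [Matrix.mul_assoc]

/-- The conjugate of a diagonal matrix congruent to one. -/
theorem gtIntSgAux_mid {r : ℕ} (O : Subring ℂ) (N1 : ℂ) (Ψ' V : Matrix (Fin r) (Fin r) ℂ)
    (μ x : Fin r → ℂ) (hΨV : Ψ' * V = 1) (hΨO : ∀ i k, N1 * Ψ' i k ∈ O)
    (hVO : ∀ i k, N1 * V i k ∈ O) (hxO : ∀ i, x i ∈ O) (hx : ∀ i, μ i - 1 = N1 * N1 * x i) :
    ∀ i k, (Ψ' * Matrix.diagonal μ * V) i k ∈ O := by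
  have hμ : Matrix.diagonal μ = 1 + (N1 * N1) • Matrix.diagonal x := by
    ext i k
    by_cases hik : i = k
    · subst hik
      rw [Matrix.add_apply, Matrix.smul_apply, Matrix.diagonal_apply_eq,
        Matrix.diagonal_apply_eq, Matrix.one_apply_eq, smul_eq_mul]
      linear_combination hx i
    · rw [Matrix.add_apply, Matrix.smul_apply, Matrix.diagonal_apply_ne _ hik,
        Matrix.diagonal_apply_ne _ hik, Matrix.one_apply_ne hik, smul_zero, add_zero]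
  have e : Ψ' * Matrix.diagonal μ * V = 1 + (N1 • Ψ') * Matrix.diagonal x * (N1 • V) := by
    rw [hμ, Matrix.mul_add, Matrix.add_mul, Matrix.mul_one, hΨV]
    congr 1
    simp only [Matrix.smul_mul, Matrix.mul_smul, smul_smul]
  intro i k
  rw [e, Matrix.add_apply]
  refine O.add_mem ?_ (gtIntSgAux_mul_mem O _ _ (gtIntSgAux_mul_mem O _ _ ?_ ?_) ?_ i k)
  · rw [Matrix.one_apply]
    split_ifs
    · exact O.one_mem
    · exact O.zero_mem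
  · intro a b
    rw [Matrix.smul_apply, smul_eq_mul]
    exact hΨO a b
  · intro a b
    rw [Matrix.diagonal_apply]
    split_ifs
    · exact hxO a
    · exact O.zero_mem
  · intro a b
    rw [Matrix.smul_apply, smul_eq_mul]
    exact hVO a b

/-- The statement over plain matrices. -/
theorem gtIntSgAux_main {r : ℕ} (O : Subring ℂ) (c : Fin r → ℂ) (δ : ℂ) (hδ : δ ∈ O)
    (hδ0 : δ ≠ 0) (hdiv : ∀ i k, i ≠ k → ∃ w ∈ O, δ = (c k - c i) * w)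
    (U P P' Pi L L' Ψ Ψ' : Matrix (Fin r) (Fin r) ℂ) (μ : Fin r → ℂ)
    (hU : ∀ i k, U i k ∈ O) (hP' : ∀ i k, P' i k ∈ O) (hPi : ∀ i k, Pi i k ∈ O)
    (hLO : ∀ i k, L i k ∈ O) (hLO' : ∀ i k, L' i k ∈ O)
    (hPiP : Pi * P = 1) (hdet : P.det = 1)
    (hL : L.IsLowerTriangular) (hL' : L'.IsLowerTriangular) (hd : ∀ i, L i i = c i)
    (hd' : ∀ i, L' i i = c i)
    (hΨ : Ψ.IsLowerTriangular) (hΨ1 : ∀ i, Ψ i i = 1)
    (hΨL : Ψ * Matrix.diagonal c = L * Ψ)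
    (hΨ' : Ψ'.IsLowerTriangular) (hΨ1' : ∀ i, Ψ' i i = 1)
    (hΨL' : Ψ' * Matrix.diagonal c = L' * Ψ')
    (hLL : ∀ i k, ∃ w ∈ O, L' i k - L i k = δ ^ (2 * r) * w)
    (hμ : ∀ i, ∃ x ∈ O, μ i - 1 = δ ^ (2 * r) * x) :
    ∀ i k, (U * (P' * Ψ') * Matrix.diagonal μ * (P * Ψ).adjugate) i k ∈ O := by
  have hc : ∀ i k, i ≠ k → IsUnit (c k - c i) := by
    intro i k hik
    obtain ⟨w, _, hw⟩ := hdiv i k hik
    refine isUnit_iff_ne_zero.mpr (fun h0 => hδ0 ?_)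
    rw [hw, h0, zero_mul]
  have hDt : (Matrix.diagonal c).IsLowerTriangular := Matrix.blockTriangular_diagonal c
  have hDd : ∀ i, Matrix.diagonal c i i = c i := fun i => Matrix.diagonal_apply_eq c i
  have hDO : ∀ i k, Matrix.diagonal c i k ∈ O := by
    intro i k
    rw [Matrix.diagonal_apply]
    split_ifs
    · rw [← hd i]
      exact hLO i i
    · exact O.zero_mem
  have hdetΨ : Ψ.det = 1 := by
    rw [Matrix.det_of_isLowerTriangular Ψ hΨ]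
    exact Finset.prod_eq_one (fun i _ => hΨ1 i)
  have hΨinv : Ψ * Ψ.adjugate = 1 := by rw [Matrix.mul_adjugate, hdetΨ, one_smul]
  have hadjP : P.adjugate = Pi := by
    calc P.adjugate = (Pi * P) * P.adjugate := by rw [hPiP, Matrix.one_mul]
      _ = Pi * (P * P.adjugate) := by rw [Matrix.mul_assoc]
      _ = Pi := by rw [Matrix.mul_adjugate, hdet, one_smul, Matrix.mul_one]
  have hadj : (P * Ψ).adjugate = Ψ.adjugate * Pi := by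
    rw [Matrix.adjugate_mul_distrib, hadjP]
  obtain ⟨E, hE, hE1, hEL⟩ := gt_conjL_exists c hc L L' hL hL' hd hd'
  have hEΨ : E * Ψ = Ψ' := by
    obtain ⟨h1, h2⟩ := gtIntSgAux_unit_mul E Ψ hE hE1 hΨ hΨ1
    refine gt_conjL_unique c hc (Matrix.diagonal c) L' hDt hL' hDd hd' (E * Ψ) Ψ' h1 h2 ?_
      hΨ' hΨ1' hΨL'
    rw [Matrix.mul_assoc, hΨL, ← Matrix.mul_assoc, hEL, Matrix.mul_assoc]
  have hEeq : Ψ' * Ψ.adjugate = E := by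
    rw [← hEΨ, Matrix.mul_assoc, hΨinv, Matrix.mul_one]
  have hEO : ∀ i k, E i k ∈ O := by
    refine (gt_conjL_int O c δ hδ hδ0 hdiv L L' E hL hL' hd hd' hLO hLO' hE hE1 hEL).2 ?_
    intro i k
    obtain ⟨w, hw, e⟩ := hLL i k
    refine ⟨δ ^ r * w, O.mul_mem (O.pow_mem hδ r) hw, ?_⟩
    rw [e]
    ring
  obtain ⟨V, hV, hV1, hVL⟩ := gt_conjL_exists c hc L' (Matrix.diagonal c) hL' hDt hd' hDd
  have hVΨ : V * Ψ' = 1 := by
    obtain ⟨h1, h2⟩ := gtIntSgAux_unit_mul V Ψ' hV hV1 hΨ' hΨ1'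
    refine gt_conjL_unique c hc (Matrix.diagonal c) (Matrix.diagonal c) hDt hDt hDd hDd
      (V * Ψ') 1 h1 h2 ?_ Matrix.blockTriangular_one (fun i => Matrix.one_apply_eq i) ?_
    · rw [Matrix.mul_assoc, hΨL', ← Matrix.mul_assoc, hVL, Matrix.mul_assoc]
    · rw [Matrix.one_mul, Matrix.mul_one]
  have hΨV : Ψ' * V = 1 := mul_eq_one_comm.mp hVΨ
  have hΨO : ∀ i k, δ ^ r * Ψ' i k ∈ O :=
    (gt_conjL_int O c δ hδ hδ0 hdiv (Matrix.diagonal c) L' Ψ' hDt hL' hDd hd' hDO hLO'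
      hΨ' hΨ1' hΨL').1
  have hVO : ∀ i k, δ ^ r * V i k ∈ O :=
    (gt_conjL_int O c δ hδ hδ0 hdiv L' (Matrix.diagonal c) V hL' hDt hd' hDd hLO' hDO
      hV hV1 hVL).1
  choose x hxO hx using hμ
  have hmid : ∀ i k, (Ψ' * Matrix.diagonal μ * V) i k ∈ O :=
    gtIntSgAux_mid O (δ ^ r) Ψ' V μ x hΨV hΨO hVO hxO (fun i => by rw [hx i]; ring)
  have hfac : U * (P' * Ψ') * Matrix.diagonal μ * (P * Ψ).adjugate
      = U * P' * (Ψ' * Matrix.diagonal μ * V) * E * Pi := by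
    rw [hadj, ← hEeq]
    exact gtIntSgAux_factor U P' Ψ' (Matrix.diagonal μ) Ψ.adjugate Pi V hVΨ
  rw [hfac]
  exact gtIntSgAux_mul_mem O _ _ (gtIntSgAux_mul_mem O _ _ (gtIntSgAux_mul_mem O _ _
    (gtIntSgAux_mul_mem O _ _ hU hP') hmid) hEO) hPi

/-- Units congruent to one: the product. -/
theorem gtIntSgAux_one_mul (N : ℂ) (a b : ℂˣ)
    (ha : a ∈ Subgroup.zpowers unitW ∧ ∃ x ∈ gtO, (a : ℂ) - 1 = N * x)
    (hb : b ∈ Subgroup.zpowers unitW ∧ ∃ x ∈ gtO, (b : ℂ) - 1 = N * x) :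
    a * b ∈ Subgroup.zpowers unitW ∧ ∃ x ∈ gtO, ((a * b : ℂˣ) : ℂ) - 1 = N * x := by
  obtain ⟨ha1, xa, hxa, ea⟩ := ha
  obtain ⟨hb1, xb, hxb, eb⟩ := hb
  refine ⟨mul_mem ha1 hb1, xa * (b : ℂ) + xb,
    gtO.add_mem (gtO.mul_mem hxa (gtO_units b hb1).1) hxb, ?_⟩
  rw [Units.val_mul]
  linear_combination (b : ℂ) * ea + eb

/-- Units congruent to one: the inverse. -/
theorem gtIntSgAux_one_inv (N : ℂ) (a : ℂˣ)
    (ha : a ∈ Subgroup.zpowers unitW ∧ ∃ x ∈ gtO, (a : ℂ) - 1 = N * x) :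
    a⁻¹ ∈ Subgroup.zpowers unitW ∧ ∃ x ∈ gtO, ((a⁻¹ : ℂˣ) : ℂ) - 1 = N * x := by
  obtain ⟨ha1, xa, hxa, ea⟩ := ha
  refine ⟨inv_mem ha1, -(xa * ((a⁻¹ : ℂˣ) : ℂ)),
    gtO.neg_mem (gtO.mul_mem hxa (gtO_units a ha1).2), ?_⟩
  have e : (a : ℂ) * ((a⁻¹ : ℂˣ) : ℂ) = 1 := Units.mul_inv a
  linear_combination e - ((a⁻¹ : ℂˣ) : ℂ) * ea

/-- Units congruent to one: finite products. -/
theorem gtIntSgAux_one_prod (N : ℂ) {ι : Type} (s : Finset ι) (f : ι → ℂˣ)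
    (hf : ∀ k, f k ∈ Subgroup.zpowers unitW ∧ ∃ x ∈ gtO, (f k : ℂ) - 1 = N * x) :
    (∏ k ∈ s, f k) ∈ Subgroup.zpowers unitW ∧
      ∃ x ∈ gtO, ((∏ k ∈ s, f k : ℂˣ) : ℂ) - 1 = N * x := by
  refine Finset.prod_induction f
    (fun u : ℂˣ => u ∈ Subgroup.zpowers unitW ∧ ∃ x ∈ gtO, (u : ℂ) - 1 = N * x)
    (fun a b ha hb => gtIntSgAux_one_mul N a b ha hb) ?_ (fun k _ => hf k)
  exact ⟨one_mem _, 0, gtO.zero_mem, by simp⟩

/-- At an integral parameter point the matrices `gtSg` have algebraic integer entries. -/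
theorem gtSg_int {n r : ℕ} (hn : 2 ≤ n) (hr : 1 ≤ r) (θ : GtK n r → ℂˣ) (h : gtIntPt θ)
    (j : Fin n) : ∀ i k, gtSg hn θ j i k ∈ gtO := by
  have hθ1 : ∀ v, gtP1 θ v ∈ Subgroup.zpowers unitW := fun v => h.2.1 _
  have hθ2 : ∀ v, gtP2 θ v ∈ Subgroup.zpowers unitW := by
    intro v
    rcases v with i | v | w
    · exact h.2.1 _
    · exact h.2.1 _
    · exact h.2.1 _
  have hDe : gtDisc (gtP2 θ) = gtDisc (gtP1 θ) := by
    simp only [gtDisc, gtP2_C, gtP2_D]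
  have hD2 : gtDisc (gtP2 θ) ≠ 0 := by
    rw [hDe]
    exact h.1
  obtain ⟨hδO, -, -, -, hdiv⟩ := gtDisc_int (gtP1 θ) hθ1
  obtain ⟨-, hPiP, hdet, hL, hd, -⟩ := gtLow_pt hn (gtP1 θ) j
  obtain ⟨-, -, -, hL', hd', -⟩ := gtLow_pt hn (gtP2 θ) j
  rw [gtP2_D] at hd'
  obtain ⟨hΨ, hΨ1, hΨL⟩ := gtFL_spec hn (gtP1 θ) h.1 j
  obtain ⟨hΨ', hΨ1', hΨL'⟩ := gtFL_spec hn (gtP2 θ) hD2 j
  rw [gtP2_D] at hΨL'
  obtain ⟨-, -, hPiO, hLO⟩ := gt_int_pt hn (gtP1 θ) hθ1 j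
  obtain ⟨-, hPO', -, hLO'⟩ := gt_int_pt hn (gtP2 θ) hθ2 j
  have hcg : ∀ v, ∃ w ∈ gtO, ((gtP2 θ v : ℂˣ) : ℂ) - ((gtP1 θ v : ℂˣ) : ℂ)
      = gtDisc (gtP1 θ) ^ (2 * r) * w := by
    intro v
    rcases v with i | v | w
    · exact ⟨0, gtO.zero_mem, by simp [gtP1, gtP2]⟩
    · exact ⟨0, gtO.zero_mem, by simp [gtP1, gtP2]⟩
    · exact h.2.2.1 w
  obtain ⟨-, -, -, hLL⟩ := gt_int_congr hn (gtDisc (gtP1 θ) ^ (2 * r)) (gtP1 θ) (gtP2 θ)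
    hθ1 hθ2 hcg j
  have hμ : ∀ i, gtMu θ j i ∈ Subgroup.zpowers unitW ∧
      ∃ x ∈ gtO, ((gtMu θ j i : ℂˣ) : ℂ) - 1 = gtDisc (gtP1 θ) ^ (2 * r) * x := by
    intro i
    unfold gtMu
    split_ifs with hi
    · exact ⟨h.2.1 _, h.2.2.2 (Sum.inr (j, ⟨i, hi⟩))⟩
    · refine gtIntSgAux_one_inv _ _ (gtIntSgAux_one_mul _ _ _ ?_ ?_)
      · exact gtIntSgAux_one_prod _ _ _ (fun k => ⟨h.2.1 _, h.2.2.2 (Sum.inl k)⟩)
      · exact gtIntSgAux_one_prod _ _ _ (fun k => ⟨h.2.1 _, h.2.2.2 (Sum.inr (j, k))⟩)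
  exact gtIntSgAux_main gtO (fun i => ((gtD (gtP1 θ) j i : ℂˣ) : ℂ)) (gtDisc (gtP1 θ)) hδO h.1
    (hdiv j) (gtU hn θ) (gtPm hn (gtP1 θ) j) (gtPm hn (gtP2 θ) j) (gtPim hn (gtP1 θ) j)
    (gtLm hn (gtP1 θ) j) (gtLm hn (gtP2 θ) j) (gtFL hn (gtP1 θ) j) (gtFL hn (gtP2 θ) j)
    (fun i => ((gtMu θ j i : ℂˣ) : ℂ)) (gtU_int hn hr θ h) hPO' hPiO hLO hLO' hPiP hdet hL hL'
    hd hd' hΨ hΨ1 hΨL hΨ' hΨ1' hΨL' hLL (fun i => (hμ i).2)

end Vale.Agent.Lib.P002
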