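import Vale.Agent.Lib.P002.GTIntA
import Vale.Agent.Lib.P002.GTFrame
import Vale.Agent.Lib.P002.GTConjInt

/-!
# Integrality of the conjugator of the total monodromies at integral parameter points
-/

open Matrix

namespace Vale.Agent.Lib.P002

/-- Products of matrices with entries in a subring have entries in the subring. -/
theorem gtIntUAux_mul_mem {r : ℕ} (O : Subring ℂ) (A B : Matrix (Fin r) (Fin r) ℂ)
    (hA : ∀ i k, A i k ∈ O) (hB : ∀ i k, B i k ∈ O) : ∀ i k, (A * B) i k ∈ O := by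
  intro i k
  rw [Matrix.mul_apply]
  exact O.sum_mem (fun j _ => O.mul_mem (hA i j) (hB j k))

/-- The adjugate of an upper triangular matrix with unit diagonal is its inverse and is again
upper triangular with unit diagonal. -/
theorem gtIntUAux_adj {r : ℕ} (F : Matrix (Fin r) (Fin r) ℂ) (hU : F.IsUpperTriangular)
    (h1 : ∀ i, F i i = 1) :
    F.adjugate.IsUpperTriangular ∧ (∀ i, F.adjugate i i = 1) ∧ F * F.adjugate = 1 ∧
      F.adjugate * F = 1 := by
  obtain ⟨qi, hqU, hq1, hFq, -⟩ := gw_upU_inv r F hU h1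
  have hdet : F.det = 1 := by
    rw [Matrix.det_of_isUpperTriangular hU]
    exact Finset.prod_eq_one (fun i _ => h1 i)
  have e1 : F.adjugate * F = 1 := by rw [Matrix.adjugate_mul, hdet, one_smul]
  have e2 : F * F.adjugate = 1 := by rw [Matrix.mul_adjugate, hdet, one_smul]
  have e : F.adjugate = qi := by
    calc F.adjugate = F.adjugate * (F * qi) := by rw [hFq, Matrix.mul_one]
      _ = (F.adjugate * F) * qi := by rw [Matrix.mul_assoc]
      _ = qi := by rw [e1, Matrix.one_mul]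
  refine ⟨?_, ?_, e2, e1⟩
  · rw [e]
    exact hqU
  · intro i
    rw [e]
    exact hq1 i

/-- From `F * D = W * F` to `F⁻¹ * W = D * F⁻¹`. -/
theorem gtIntUAux_inv_rel {r : ℕ} (F Fi D W : Matrix (Fin r) (Fin r) ℂ) (h1 : F * Fi = 1)
    (h2 : Fi * F = 1) (h : F * D = W * F) : Fi * W = D * Fi := by
  calc Fi * W = Fi * W * (F * Fi) := by rw [h1, Matrix.mul_one]
    _ = Fi * (W * F) * Fi := by simp only [Matrix.mul_assoc]
    _ = Fi * (F * D) * Fi := by rw [h]
    _ = (Fi * F) * D * Fi := by simp only [Matrix.mul_assoc]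
    _ = D * Fi := by rw [h2, Matrix.one_mul]

/-- The abstract statement: two congruent upper triangular integral matrices `W, W'` with the
same diagonal `c`, their frames `F, F'`, and a twist `lam` congruent to one. -/
theorem gtIntUAux_core {r : ℕ} (O : Subring ℂ) (c : Fin r → ℂ) (δ : ℂ) (hδ : δ ∈ O)
    (hδ0 : δ ≠ 0) (hc : ∀ i, c i ∈ O)
    (hdiv : ∀ i k, i ≠ k → ∃ w ∈ O, δ = (c k - c i) * w)
    (W W' F F' : Matrix (Fin r) (Fin r) ℂ)
    (hW : W.IsUpperTriangular) (hWd : ∀ i, W i i = c i) (hWO : ∀ i k, W i k ∈ O)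
    (hW' : W'.IsUpperTriangular) (hWd' : ∀ i, W' i i = c i) (hWO' : ∀ i k, W' i k ∈ O)
    (hcong : ∀ i k, ∃ w ∈ O, W i k - W' i k = δ ^ r * w)
    (hF : F.IsUpperTriangular) (hF1 : ∀ i, F i i = 1) (hFW : F * Matrix.diagonal c = W * F)
    (hF' : F'.IsUpperTriangular) (hF1' : ∀ i, F' i i = 1)
    (hFW' : F' * Matrix.diagonal c = W' * F')
    (lam x : Fin r → ℂ) (hx : ∀ i, x i ∈ O) (hlam : ∀ i, lam i - 1 = δ ^ r * δ ^ r * x i) :
    ∀ i k, (F * Matrix.diagonal lam * F'.adjugate) i k ∈ O := by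
  obtain ⟨hAU, hA1, hFA, hAF⟩ := gtIntUAux_adj F hF hF1
  obtain ⟨hAU', hA1', hFA', hAF'⟩ := gtIntUAux_adj F' hF' hF1'
  have hDU : (Matrix.diagonal c).IsUpperTriangular := Matrix.blockTriangular_diagonal c
  have hDd : ∀ i, Matrix.diagonal c i i = c i := fun i => Matrix.diagonal_apply_eq c i
  have hDO : ∀ i k, Matrix.diagonal c i k ∈ O := by
    intro i k
    by_cases hik : i = k
    · rw [hik, Matrix.diagonal_apply_eq]
      exact hc k
    · rw [Matrix.diagonal_apply_ne _ hik]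
      exact O.zero_mem
  -- bounded denominators of the frame and of its inverse
  have ha := (gt_conj_int O c δ hδ hδ0 hdiv (Matrix.diagonal c) W F hDU hW hDd hWd hDO hWO
    hF hF1 hFW).1
  have hbrel : F.adjugate * W = Matrix.diagonal c * F.adjugate :=
    gtIntUAux_inv_rel F F.adjugate (Matrix.diagonal c) W hFA hAF hFW
  have hb := (gt_conj_int O c δ hδ hδ0 hdiv W (Matrix.diagonal c) F.adjugate hW hDU hWd hDd
    hWO hDO hAU hA1 hbrel).1
  -- the conjugator between the two congruent matrices is integral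
  have hbrel' : F'.adjugate * W' = Matrix.diagonal c * F'.adjugate :=
    gtIntUAux_inv_rel F' F'.adjugate (Matrix.diagonal c) W' hFA' hAF' hFW'
  have hEU : (F * F'.adjugate).IsUpperTriangular := Matrix.BlockTriangular.mul hF hAU'
  have hE1 : ∀ i, (F * F'.adjugate) i i = 1 := fun i => by
    rw [gwTriAux_diag_mul F F'.adjugate hF hAU' i, hF1, hA1', one_mul]
  have hErel : F * F'.adjugate * W' = W * (F * F'.adjugate) := by
    calc F * F'.adjugate * W' = F * (F'.adjugate * W') := Matrix.mul_assoc _ _ _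
      _ = F * (Matrix.diagonal c * F'.adjugate) := by rw [hbrel']
      _ = (F * Matrix.diagonal c) * F'.adjugate := (Matrix.mul_assoc _ _ _).symm
      _ = W * F * F'.adjugate := by rw [hFW]
      _ = W * (F * F'.adjugate) := Matrix.mul_assoc _ _ _
  have hE := (gt_conj_int O c δ hδ hδ0 hdiv W' W (F * F'.adjugate) hW' hW hWd' hWd hWO' hWO
    hEU hE1 hErel).2 hcong
  -- the twisted frame is integral
  have hM : ∀ i k, (F * Matrix.diagonal lam * F.adjugate) i k ∈ O := by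
    intro i k
    have e : (F * Matrix.diagonal lam * F.adjugate) i k
        = (1 : Matrix (Fin r) (Fin r) ℂ) i k
          + ∑ j, (δ ^ r * F i j) * x j * (δ ^ r * F.adjugate j k) := by
      rw [← hFA, Matrix.mul_apply, Matrix.mul_apply, ← Finset.sum_add_distrib]
      refine Finset.sum_congr rfl (fun j _ => ?_)
      rw [Matrix.mul_diagonal]
      have hl := hlam j
      linear_combination (F i j * F.adjugate j k) * hl
    rw [e]
    refine O.add_mem ?_ (O.sum_mem (fun j _ => O.mul_mem (O.mul_mem (ha i j) (hx j)) (hb j k)))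
    by_cases hik : i = k
    · rw [hik, Matrix.one_apply_eq]
      exact O.one_mem
    · rw [Matrix.one_apply_ne hik]
      exact O.zero_mem
  have hfin : F * Matrix.diagonal lam * F'.adjugate
      = (F * Matrix.diagonal lam * F.adjugate) * (F * F'.adjugate) := by
    calc F * Matrix.diagonal lam * F'.adjugate
        = F * Matrix.diagonal lam * (F.adjugate * F) * F'.adjugate := by
          rw [hAF, Matrix.mul_one]
      _ = (F * Matrix.diagonal lam * F.adjugate) * (F * F'.adjugate) := by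
          simp only [Matrix.mul_assoc]
  rw [hfin]
  exact gtIntUAux_mul_mem O _ _ hM hE

/-- At an integral parameter point the matrix `gtU` has algebraic integer entries. -/
theorem gtU_int {n r : ℕ} (hn : 2 ≤ n) (hr : 1 ≤ r) (θ : GtK n r → ℂˣ) (h : gtIntPt θ) :
    ∀ i k, gtU hn θ i k ∈ gtO := by
  have _hr := hr
  obtain ⟨hD, hθ, hS, hL⟩ := h
  have hθ1 : ∀ v, gtP1 θ v ∈ Subgroup.zpowers unitW := fun v => hθ (Sum.inl v)
  have hθ2 : ∀ v, gtP2 θ v ∈ Subgroup.zpowers unitW := by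
    intro v
    rcases v with i | v | w
    · exact hθ _
    · exact hθ _
    · exact hθ _
  have hD2 : gtDisc (gtP2 θ) ≠ 0 := hD
  obtain ⟨hδ, hcO, -, hdiv, -⟩ := gtDisc_int (gtP1 θ) hθ1
  obtain ⟨hF, hF1, hFW⟩ := gtFW_spec hn (gtP1 θ) hD
  obtain ⟨hF', hF1', hFW'⟩ := gtFW_spec hn (gtP2 θ) hD2
  obtain ⟨hW, hWd⟩ := gtW_tri hn (gtP1 θ)
  obtain ⟨hW', hWd'⟩ := gtW_tri hn (gtP2 θ)
  have hWO := gt_int_W hn (gtP1 θ) hθ1
  have hWO' := gt_int_W hn (gtP2 θ) hθ2
  have hcong : ∀ i k, ∃ w ∈ gtO,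
      gtW hn (gtP1 θ) i k - gtW hn (gtP2 θ) i k = gtDisc (gtP1 θ) ^ r * w := by
    have hc : ∀ v, ∃ w ∈ gtO, ((gtP1 θ v : ℂˣ) : ℂ) - ((gtP2 θ v : ℂˣ) : ℂ)
        = gtDisc (gtP1 θ) ^ (2 * r) * w := by
      intro v
      rcases v with i | v | w
      · refine ⟨0, gtO.zero_mem, ?_⟩
        show ((θ (Sum.inl (Sum.inl i)) : ℂˣ) : ℂ) - ((θ (Sum.inl (Sum.inl i)) : ℂˣ) : ℂ) = _
        rw [sub_self, mul_zero]
      · refine ⟨0, gtO.zero_mem, ?_⟩
        show ((θ (Sum.inl (Sum.inr (Sum.inl v))) : ℂˣ) : ℂ)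
          - ((θ (Sum.inl (Sum.inr (Sum.inl v))) : ℂˣ) : ℂ) = _
        rw [sub_self, mul_zero]
      · obtain ⟨x, hx, hxe⟩ := hS w
        refine ⟨-x, gtO.neg_mem hx, ?_⟩
        show ((θ (Sum.inl (Sum.inr (Sum.inr w))) : ℂˣ) : ℂ)
          - ((θ (Sum.inr (Sum.inl w)) : ℂˣ) : ℂ) = _
        rw [mul_neg, ← hxe]
        ring
    intro i k
    obtain ⟨w, hw, hwe⟩ := gt_int_W_congr hn (gtDisc (gtP1 θ) ^ (2 * r)) (gtP2 θ) (gtP1 θ)
      hθ2 hθ1 hc i k
    refine ⟨gtDisc (gtP1 θ) ^ r * w, gtO.mul_mem (gtO.pow_mem hδ r) hw, ?_⟩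
    rw [hwe]
    ring
  have hlam : ∀ i : Fin r, ∃ x ∈ gtO, ((gtLam θ i : ℂˣ) : ℂ) - 1
      = gtDisc (gtP1 θ) ^ r * gtDisc (gtP1 θ) ^ r * x := by
    intro i
    unfold gtLam
    by_cases hi : (i : ℕ) < r - 1
    · rw [dif_pos hi]
      obtain ⟨x, hx, hxe⟩ := hL (Sum.inl ⟨i, hi⟩)
      refine ⟨x, hx, ?_⟩
      rw [hxe]
      ring
    · rw [dif_neg hi]
      exact ⟨0, gtO.zero_mem, by rw [Units.val_one, sub_self, mul_zero]⟩
  choose x hx hxe using hlam
  intro i k
  unfold gtU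
  exact gtIntUAux_core gtO (fun i => ((gtC (gtP1 θ) i : ℂˣ) : ℂ)) (gtDisc (gtP1 θ)) hδ hD hcO
    hdiv (gtW hn (gtP1 θ)) (gtW hn (gtP2 θ)) (gtFW hn (gtP1 θ)) (gtFW hn (gtP2 θ)) hW hWd hWO
    hW' hWd' hWO' hcong hF hF1 hFW hF' hF1' hFW' (fun i => ((gtLam θ i : ℂˣ) : ℂ)) x hx hxe i k

end Vale.Agent.Lib.P002
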