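import Vale.Agent.Lib.P002.GTMemF
import Vale.Agent.Lib.P002.GTRel

/-!
# The family depends algebraically on the parameters
-/

open Matrix

namespace Vale.Agent.Lib.P002

/-- The inverse of a product of coordinates belongs to the ring. -/
theorem gtMemBAux_prod_inv {κ : Type} (PD : MvPolynomial (κ ⊕ κ) ℂ) {m : ℕ} (a : Fin m → κ) :
    (fun θ : {θ : κ → ℂˣ // gtEval θ PD ≠ 0} => (((∏ k, θ.1 (a k))⁻¹ : ℂˣ) : ℂ)) ∈
      gtRat PD := by
  have e : (fun θ : {θ : κ → ℂˣ // gtEval θ PD ≠ 0} => (((∏ k, θ.1 (a k))⁻¹ : ℂˣ) : ℂ))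
      = ∏ k : Fin m, (fun θ : {θ : κ → ℂˣ // gtEval θ PD ≠ 0} =>
          (((θ.1 (a k))⁻¹ : ℂˣ) : ℂ)) := by
    funext θ
    rw [Finset.prod_apply, ← Finset.prod_inv_distrib, Units.coe_prod]
  rw [e]
  exact Subring.prod_mem _ (fun k _ => gtRat_coord_inv PD (a k))

/-- The twists at the last puncture belong to the ring. -/
theorem gtMemBAux_lam {n r : ℕ} (i : Fin r) :
    (fun θ : {θ : GtK n r → ℂˣ // gtEval θ (gtPD n r) ≠ 0} => ((gtLam θ.1 i : ℂˣ) : ℂ)) ∈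
      gtRat (gtPD n r) := by
  by_cases h : (i : ℕ) < r - 1
  · have e : (fun θ : {θ : GtK n r → ℂˣ // gtEval θ (gtPD n r) ≠ 0} =>
        ((gtLam θ.1 i : ℂˣ) : ℂ))
        = fun θ => ((θ.1 (Sum.inr (Sum.inr (Sum.inl ⟨i, h⟩))) : ℂˣ) : ℂ) := by
      funext θ
      unfold gtLam
      rw [dif_pos h]
    rw [e]
    exact gtRat_coord (gtPD n r) _
  · have e : (fun θ : {θ : GtK n r → ℂˣ // gtEval θ (gtPD n r) ≠ 0} =>
        ((gtLam θ.1 i : ℂˣ) : ℂ)) = fun _ => (1 : ℂ) := by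
      funext θ
      unfold gtLam
      rw [dif_neg h, Units.val_one]
    rw [e]
    exact gtRat_const (gtPD n r) 1

/-- The twists at the other punctures belong to the ring. -/
theorem gtMemBAux_mu {n r : ℕ} (j : Fin n) (i : Fin r) :
    (fun θ : {θ : GtK n r → ℂˣ // gtEval θ (gtPD n r) ≠ 0} => ((gtMu θ.1 j i : ℂˣ) : ℂ)) ∈
      gtRat (gtPD n r) := by
  by_cases h : (i : ℕ) < r - 1
  · have e : (fun θ : {θ : GtK n r → ℂˣ // gtEval θ (gtPD n r) ≠ 0} =>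
        ((gtMu θ.1 j i : ℂˣ) : ℂ))
        = fun θ => ((θ.1 (Sum.inr (Sum.inr (Sum.inr (j, ⟨i, h⟩)))) : ℂˣ) : ℂ) := by
      funext θ
      unfold gtMu
      rw [dif_pos h]
    rw [e]
    exact gtRat_coord (gtPD n r) _
  · have e : (fun θ : {θ : GtK n r → ℂˣ // gtEval θ (gtPD n r) ≠ 0} =>
        ((gtMu θ.1 j i : ℂˣ) : ℂ))
        = (fun θ : {θ : GtK n r → ℂˣ // gtEval θ (gtPD n r) ≠ 0} =>
            (((∏ k : Fin (r - 1), θ.1 (Sum.inr (Sum.inr (Sum.inl k))))⁻¹ : ℂˣ) : ℂ))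
          * (fun θ : {θ : GtK n r → ℂˣ // gtEval θ (gtPD n r) ≠ 0} =>
            (((∏ k : Fin (r - 1), θ.1 (Sum.inr (Sum.inr (Sum.inr (j, k)))))⁻¹ : ℂˣ) : ℂ)) := by
      funext θ
      show ((gtMu θ.1 j i : ℂˣ) : ℂ)
        = (((∏ k : Fin (r - 1), θ.1 (Sum.inr (Sum.inr (Sum.inl k))))⁻¹ : ℂˣ) : ℂ)
          * (((∏ k : Fin (r - 1), θ.1 (Sum.inr (Sum.inr (Sum.inr (j, k)))))⁻¹ : ℂˣ) : ℂ)
      unfold gtMu
      rw [dif_neg h, mul_inv, Units.val_mul]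
    rw [e]
    exact (gtRat (gtPD n r)).mul_mem
      (gtMemBAux_prod_inv (gtPD n r) (fun k : Fin (r - 1) => Sum.inr (Sum.inr (Sum.inl k))))
      (gtMemBAux_prod_inv (gtPD n r)
        (fun k : Fin (r - 1) => Sum.inr (Sum.inr (Sum.inr (j, k)))))

/-- The coercion to matrices commutes with products of lists. -/
theorem gtMemBAux_coe_list {r : ℕ} (L : List (Matrix.SpecialLinearGroup (Fin r) ℂ)) :
    (L.prod).1 = (L.map fun a => a.1).prod := by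
  induction L with
  | nil => simp
  | cons a L ih =>
    rw [List.prod_cons, Matrix.SpecialLinearGroup.coe_mul, ih, List.map_cons, List.prod_cons]

/-- The coercion to matrices commutes with products of the first members of a family. -/
theorem gtMemBAux_coe_pre {r n : ℕ} (zs : Fin n → Matrix.SpecialLinearGroup (Fin r) ℂ)
    (j : ℕ) : (gtPre zs j).1 = gtPre (fun k => (zs k).1) j := by
  unfold gtPre
  rw [gtMemBAux_coe_list, List.map_take, List.map_ofFn]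
  rfl

theorem gtMem_Sg {n r : ℕ} (hn : 2 ≤ n) (j : Fin n) :
    gtIn (gtPD n r) (fun θ => gtSg (r := r) hn θ.1 j) := by
  have hFW := gtMem_FW (r := r) hn
  have hFL := gtMem_FL (r := r) hn j
  have hpt := gtMem_pt (r := r) hn j
  have hLam : gtIn (gtPD n r) (fun θ : {θ : GtK n r → ℂˣ // gtEval θ (gtPD n r) ≠ 0} =>
      Matrix.diagonal (fun i => ((gtLam θ.1 i : ℂˣ) : ℂ))) :=
    gtIn_diagonal (gtPD n r) (fun θ i => ((gtLam θ.1 i : ℂˣ) : ℂ)) (fun i => gtMemBAux_lam i)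
  have hMu : gtIn (gtPD n r) (fun θ : {θ : GtK n r → ℂˣ // gtEval θ (gtPD n r) ≠ 0} =>
      Matrix.diagonal (fun i => ((gtMu θ.1 j i : ℂˣ) : ℂ))) :=
    gtIn_diagonal (gtPD n r) (fun θ i => ((gtMu θ.1 j i : ℂˣ) : ℂ))
      (fun i => gtMemBAux_mu j i)
  have hU : gtIn (gtPD n r) (fun θ => gtU (r := r) hn θ.1) :=
    gtIn_mul _ (gtIn_mul _ hFW.1 hLam) (gtIn_adjugate _ hFW.2)
  have hFr1 : gtIn (gtPD n r) (fun θ => gtFr (r := r) hn (gtP1 θ.1) j) :=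
    gtIn_mul _ hpt.2.2.1 hFL.1
  have hFr2 : gtIn (gtPD n r) (fun θ => gtFr (r := r) hn (gtP2 θ.1) j) :=
    gtIn_mul _ hpt.2.2.2.1 hFL.2
  exact gtIn_mul _ (gtIn_mul _ (gtIn_mul _ hU hFr2) hMu) (gtIn_adjugate _ hFr1)

theorem gtMem_AB {n r : ℕ} (hn : 2 ≤ n) (hr : 1 ≤ r) (j : Fin n) :
    gtIn (gtPD n r) (fun θ => (gtA (r := r) hn θ.1 j).1) ∧
      gtIn (gtPD n r) (fun θ => (gtB (r := r) hn θ.1 j).1) := by
  have hD : ∀ θ : {θ : GtK n r → ℂˣ // gtEval θ (gtPD n r) ≠ 0}, gtDisc (gtP1 θ.1) ≠ 0 := by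
    intro θ
    rw [← gtPD_eval]
    exact θ.2
  have hZ : ∀ (θ : {θ : GtK n r → ℂˣ // gtEval θ (gtPD n r) ≠ 0}) (k : Fin n),
      (gtZs (r := r) hn θ.1 k).1 = gtZ hn (gtP1 θ.1) k :=
    fun θ k => gtSL_val _ (gtZ_det hn (gtP1 θ.1) k)
  have hS : ∀ θ : {θ : GtK n r → ℂˣ // gtEval θ (gtPD n r) ≠ 0},
      (gtSs (r := r) hn θ.1 j).1 = gtSg hn θ.1 j := by
    intro θ
    obtain ⟨ui, -, -, -, h⟩ := gtSg_spec hn hr θ.1 (hD θ)
    exact gtSL_val _ (h j).1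
  have hPre : gtIn (gtPD n r) (fun θ : {θ : GtK n r → ℂˣ // gtEval θ (gtPD n r) ≠ 0} =>
      gtPre (fun k => gtZ (r := r) hn (gtP1 θ.1) k) (j : ℕ)) :=
    gtIn_pre (gtPD n r) (fun θ k => gtZ (r := r) hn (gtP1 θ.1) k)
      (fun k => (gtMem_pt hn k).1) (j : ℕ)
  have hPreEq : ∀ θ : {θ : GtK n r → ℂˣ // gtEval θ (gtPD n r) ≠ 0},
      (gtPre (gtZs (r := r) hn θ.1) (j : ℕ)).1
        = gtPre (fun k => gtZ (r := r) hn (gtP1 θ.1) k) (j : ℕ) := by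
    intro θ
    rw [gtMemBAux_coe_pre]
    congr 1
    funext k
    exact hZ θ k
  constructor
  · have e : (fun θ : {θ : GtK n r → ℂˣ // gtEval θ (gtPD n r) ≠ 0} =>
        (gtA (r := r) hn θ.1 j).1)
        = fun θ => gtPre (fun k => gtZ (r := r) hn (gtP1 θ.1) k) (j : ℕ) * gtSg hn θ.1 j
            * (gtPre (fun k => gtZ (r := r) hn (gtP1 θ.1) k) (j : ℕ)).adjugate := by
      funext θ
      unfold gtA
      rw [Matrix.SpecialLinearGroup.coe_mul, Matrix.SpecialLinearGroup.coe_mul,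
        Matrix.SpecialLinearGroup.coe_inv, hPreEq θ, hS θ]
    rw [e]
    exact gtIn_mul _ (gtIn_mul _ hPre (gtMem_Sg hn j)) (gtIn_adjugate _ hPre)
  · have e : (fun θ : {θ : GtK n r → ℂˣ // gtEval θ (gtPD n r) ≠ 0} =>
        (gtB (r := r) hn θ.1 j).1)
        = fun θ => gtPre (fun k => gtZ (r := r) hn (gtP1 θ.1) k) (j : ℕ)
            * gtZ hn (gtP1 θ.1) j
            * (gtPre (fun k => gtZ (r := r) hn (gtP1 θ.1) k) (j : ℕ)).adjugate := by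
      funext θ
      unfold gtB
      rw [Matrix.SpecialLinearGroup.coe_mul, Matrix.SpecialLinearGroup.coe_mul,
        Matrix.SpecialLinearGroup.coe_inv, hPreEq θ, hZ θ j]
    rw [e]
    exact gtIn_mul _ (gtIn_mul _ hPre (gtMem_pt hn j).1) (gtIn_adjugate _ hPre)

end Vale.Agent.Lib.P002
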