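import Vale.Agent.Lib.P002.GTDefs

/-!
# Restriction of an element of `gtRat PD` along a coordinatewise assignment of the parameters
-/

namespace Vale.Agent.Lib.P002

open Classical in
/-- The substitution attached to a coordinatewise assignment: a constant coordinate is replaced by
the constant, a variable coordinate by the corresponding variable. -/
private noncomputable def gtSliceGAux_sub {κ κ' : Type} (m : (κ' → ℂˣ) → κ → ℂˣ)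
    (hm : ∀ v, (∃ a : ℂˣ, ∀ ϑ, m ϑ v = a) ∨ (∃ w, ∀ ϑ, m ϑ v = ϑ w)) :
    κ ⊕ κ → MvPolynomial (κ' ⊕ κ') ℂ :=
  Sum.elim
    (fun v => if hc : ∃ a : ℂˣ, ∀ ϑ, m ϑ v = a then MvPolynomial.C ((hc.choose : ℂˣ) : ℂ)
      else MvPolynomial.X (Sum.inl ((hm v).resolve_left hc).choose))
    (fun v => if hc : ∃ a : ℂˣ, ∀ ϑ, m ϑ v = a
      then MvPolynomial.C ((((hc.choose)⁻¹ : ℂˣ)) : ℂ)
      else MvPolynomial.X (Sum.inr ((hm v).resolve_left hc).choose))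

private theorem gtSliceGAux_eval {κ κ' : Type} (m : (κ' → ℂˣ) → κ → ℂˣ)
    (hm : ∀ v, (∃ a : ℂˣ, ∀ ϑ, m ϑ v = a) ∨ (∃ w, ∀ ϑ, m ϑ v = ϑ w))
    (ϑ : κ' → ℂˣ) (x : κ ⊕ κ) :
    gtEval ϑ (gtSliceGAux_sub m hm x)
      = Sum.elim (fun i => ((m ϑ i : ℂˣ) : ℂ)) (fun i => (((m ϑ i)⁻¹ : ℂˣ) : ℂ)) x := by
  classical
  rcases x with v | v
  · by_cases hc : ∃ a : ℂˣ, ∀ ϑ, m ϑ v = a
    · simp only [gtSliceGAux_sub, Sum.elim_inl, dif_pos hc]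
      rw [hc.choose_spec ϑ]
      simp [gtEval]
    · simp only [gtSliceGAux_sub, Sum.elim_inl, dif_neg hc]
      rw [((hm v).resolve_left hc).choose_spec ϑ]
      simp [gtEval]
  · by_cases hc : ∃ a : ℂˣ, ∀ ϑ, m ϑ v = a
    · simp only [gtSliceGAux_sub, Sum.elim_inr, dif_pos hc]
      rw [hc.choose_spec ϑ]
      simp [gtEval]
    · simp only [gtSliceGAux_sub, Sum.elim_inr, dif_neg hc]
      rw [((hm v).resolve_left hc).choose_spec ϑ]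
      simp [gtEval]

private theorem gtSliceGAux_bind {κ κ' : Type} (m : (κ' → ℂˣ) → κ → ℂˣ)
    (hm : ∀ v, (∃ a : ℂˣ, ∀ ϑ, m ϑ v = a) ∨ (∃ w, ∀ ϑ, m ϑ v = ϑ w))
    (ϑ : κ' → ℂˣ) (P0 : MvPolynomial (κ ⊕ κ) ℂ) :
    gtEval ϑ (MvPolynomial.bind₁ (gtSliceGAux_sub m hm) P0) = gtEval (m ϑ) P0 := by
  induction P0 using MvPolynomial.induction_on with
  | C a =>
    rw [MvPolynomial.bind₁_C_right]
    simp [gtEval]
  | add p q hp hq =>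
    rw [map_add, map_add, map_add, hp, hq]
  | mul_X p x hp =>
    rw [map_mul, map_mul, map_mul, hp, MvPolynomial.bind₁_X_right, gtSliceGAux_eval]
    congr 1
    simp [gtEval]

/-- Let `m` map parameters `ϑ` to parameters `m ϑ` each of whose coordinates is either constant
or a coordinate of `ϑ`, such that the discriminant is a nonzero constant on the image.  Then the
pullback of an element of `gtRat PD` along `m` is a Laurent polynomial in `ϑ`. -/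
theorem gt_sliceG {κ κ' : Type} (PD : MvPolynomial (κ ⊕ κ) ℂ)
    (h : {θ : κ → ℂˣ // gtEval θ PD ≠ 0} → ℂ) (hh : h ∈ gtRat PD)
    (m : (κ' → ℂˣ) → κ → ℂˣ)
    (hm : ∀ v, (∃ a : ℂˣ, ∀ ϑ, m ϑ v = a) ∨ (∃ w, ∀ ϑ, m ϑ v = ϑ w))
    (D : ℂ) (hD0 : D ≠ 0) (hD : ∀ ϑ, gtEval (m ϑ) PD = D) :
    ∃ P : MvPolynomial (κ' ⊕ κ') ℂ, ∀ (ϑ : κ' → ℂˣ) (hϑ : gtEval (m ϑ) PD ≠ 0),
      h ⟨m ϑ, hϑ⟩ = gtEval ϑ P := by
  obtain ⟨M, P0, hP0⟩ := hh
  refine ⟨MvPolynomial.C (D⁻¹ ^ M) * MvPolynomial.bind₁ (gtSliceGAux_sub m hm) P0, ?_⟩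
  intro ϑ hϑ
  have h1 := hP0 ⟨m ϑ, hϑ⟩
  have h2 : D ^ M * h ⟨m ϑ, hϑ⟩ = gtEval (m ϑ) P0 := by
    rw [← hD ϑ]
    exact h1
  have h3 : gtEval ϑ (MvPolynomial.C (D⁻¹ ^ M)) = D⁻¹ ^ M := by
    simp [gtEval]
  rw [map_mul, h3, gtSliceGAux_bind, ← h2, ← mul_assoc, ← mul_pow, inv_mul_cancel₀ hD0,
    one_pow, one_mul]

end Vale.Agent.Lib.P002
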