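import Vale.Agent.Lib.P002.GTRel
import Vale.Agent.Lib.P002.GTIntC
import Vale.Agent.Lib.P002.GTMemB
import Vale.Agent.Lib.P002.GTInj
import Vale.Agent.Lib.P002.GTChar
import Vale.Agent.Lib.P002.GTDens
import Vale.Agent.Lib.P002.GTSliceG
import Vale.Agent.Lib.P002.GQCard
import Vale.Agent.Lib.P002.GWMain

/-!
# Closed surfaces of every genus, arbitrary rank: a family of full dimension in the closure of
# the integral points

The closed surface of genus `n ≥ 2` is the double of the sphere with `n + 1` punctures.  The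
family consists of the representations obtained by gluing two chart points of the punctured
sphere with the same eigenvalue data along all boundary curves.
-/

noncomputable section

namespace Vale.Agent.Lib.P002

open Polynomial Matrix

theorem gtUnit_val (x : ℂ) (hx : x ≠ 0) : ((gtUnit x : ℂˣ) : ℂ) = x := by
  unfold gtUnit
  rw [dif_neg hx]
  rfl

/-- The eigenvalues at the last puncture of the parameter point `gtTheta c d ϑ` are `c`. -/
theorem gtTheta_C {n r : ℕ} (c : Fin r → ℂ) (d : Fin n → Fin r → ℂ) (hc1 : ∏ i, c i = 1)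
    (ϑ : GqIdx 0 n r ⊕ GtK2 n r → ℂˣ) (i : Fin r) :
    ((gtC (gtP1 (gtTheta c d ϑ)) i : ℂˣ) : ℂ) = c i := by
  have hne := gw_ne_zero c hc1
  let cU : Fin r → ℂˣ := fun i => Units.mk0 (c i) (hne i)
  have hcU : ∏ i, cU i = 1 := by
    ext
    rw [Units.coe_prod]
    simp only [cU, Units.val_mk0]
    rw [hc1]
    rfl
  have e : gtC (gtP1 (gtTheta c d ϑ)) = cU := by
    rw [← gtLast_surj cU hcU]
    unfold gtC
    congr 1
    funext k
    apply Units.ext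
    show ((gtUnit (c ⟨(k : ℕ), _⟩) : ℂˣ) : ℂ) = c ⟨(k : ℕ), _⟩
    exact gtUnit_val _ (hne _)
  rw [e]
  rfl

/-- The eigenvalues at the other punctures of the parameter point `gtTheta c d ϑ` are `d`. -/
theorem gtTheta_D {n r : ℕ} (c : Fin r → ℂ) (d : Fin n → Fin r → ℂ)
    (hd1 : ∀ j, ∏ i, d j i = 1) (ϑ : GqIdx 0 n r ⊕ GtK2 n r → ℂˣ) (j : Fin n) (i : Fin r) :
    ((gtD (gtP1 (gtTheta c d ϑ)) j i : ℂˣ) : ℂ) = d j i := by
  have hne := gw_ne_zero (d j) (hd1 j)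
  let dU : Fin r → ℂˣ := fun i => Units.mk0 (d j i) (hne i)
  have hdU : ∏ i, dU i = 1 := by
    ext
    rw [Units.coe_prod]
    simp only [dU, Units.val_mk0]
    rw [hd1 j]
    rfl
  have e : gtD (gtP1 (gtTheta c d ϑ)) j = dU := by
    rw [← gtLast_surj dU hdU]
    unfold gtD
    congr 1
    funext k
    apply Units.ext
    show ((gtUnit (d j ⟨(k : ℕ), _⟩) : ℂˣ) : ℂ) = d j ⟨(k : ℕ), _⟩
    exact gtUnit_val _ (hne _)
  rw [e]
  rfl

/-- The discriminant of the parameter point `gtTheta c d ϑ` in terms of `c, d`. -/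
theorem gtTheta_disc {n r : ℕ} (c : Fin r → ℂ) (d : Fin n → Fin r → ℂ) (hc1 : ∏ i, c i = 1)
    (hd1 : ∀ j, ∏ i, d j i = 1) (ϑ : GqIdx 0 n r ⊕ GtK2 n r → ℂˣ) :
    gtDisc (gtP1 (gtTheta c d ϑ)) =
      (∏ i : Fin r, ∏ k : Fin r, if i = k then (1 : ℂ) else (c k - c i)) *
        ∏ j : Fin n, ∏ i : Fin r, ∏ k : Fin r, if i = k then (1 : ℂ) else (d j k - d j i) := by
  unfold gtDisc
  simp only [gtTheta_C c d hc1 ϑ, gtTheta_D c d hd1 ϑ]

theorem gtTheta_disc_ne {n r : ℕ} (c : Fin r → ℂ) (d : Fin n → Fin r → ℂ)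
    (hci : Function.Injective c) (hdi : ∀ j, Function.Injective (d j)) (hc1 : ∏ i, c i = 1)
    (hd1 : ∀ j, ∏ i, d j i = 1) (ϑ : GqIdx 0 n r ⊕ GtK2 n r → ℂˣ) :
    gtDisc (gtP1 (gtTheta c d ϑ)) ≠ 0 := by
  rw [gtDisc_ne]
  refine ⟨fun i k h => hci ?_, fun j i k h => hdi j ?_⟩
  · rw [← gtTheta_C c d hc1 ϑ i, ← gtTheta_C c d hc1 ϑ k, h]
  · rw [← gtTheta_D c d hd1 ϑ j i, ← gtTheta_D c d hd1 ϑ j k, h]

/-- The number of parameters. -/
theorem gt_card (n r : ℕ) (hn : 2 ≤ n) (hr : 1 ≤ r) :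
    Fintype.card (GqIdx 0 n r ⊕ GtK2 n r) + (n + 1) * (r - 1) = (2 * n - 2) * (r ^ 2 - 1) := by
  have h := gq_card 0 n r (gtHN hn)
  have key : ∀ (Y : Type) [Fintype Y],
      Fintype.card (Y ⊕ (Y ⊕ (Fin (r - 1) ⊕ (Fin n × Fin (r - 1))))) =
        2 * Fintype.card Y + ((r - 1) + n * (r - 1)) := by
    intro Y _
    simp only [Fintype.card_sum, Fintype.card_prod, Fintype.card_fin]
    ring
  have hk := key (GqIdx 0 n r)
  obtain ⟨G, hG⟩ : ∃ G, Fintype.card (GqIdx 0 n r) = G := ⟨_, rfl⟩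
  rw [hG] at h hk
  show Fintype.card (GqIdx 0 n r ⊕ (GqIdx 0 n r ⊕ (Fin (r - 1) ⊕ (Fin n × Fin (r - 1))))) +
    (n + 1) * (r - 1) = (2 * n - 2) * (r ^ 2 - 1)
  rw [hk]
  obtain ⟨m, rfl⟩ : ∃ m, n = m + 2 := ⟨n - 2, by omega⟩
  obtain ⟨ρ, rfl⟩ : ∃ ρ, r = ρ + 1 := ⟨r - 1, by omega⟩
  have e1 : 2 * 0 + (m + 2) - 1 = m + 1 := by omega
  have e2 : 2 * (m + 2) - 2 = 2 * m + 2 := by omega
  have e3 : (ρ + 1) ^ 2 - 1 = ρ ^ 2 + 2 * ρ := by
    have : (ρ + 1) ^ 2 = ρ ^ 2 + 2 * ρ + 1 := by ring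
    omega
  rw [e1] at h
  rw [e2, e3]
  simp only [Nat.add_sub_cancel] at h ⊢
  nlinarith [h]

/-- **Core density statement for closed surfaces.**  A polynomial vanishing at all
representations of the closed surface group of genus `n` with entries in the ring of integers
of `ℚ(√2)` vanishes at every member of the family. -/
theorem gt_core {n r : ℕ} (hn : 2 ≤ n) (hr : 1 ≤ r)
    (F : MvPolynomial ((Fin n ⊕ Fin n) × Fin r × Fin r) ℂ)
    (hF : ∀ a b : Fin n → Matrix.SpecialLinearGroup (Fin r) ℂ,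
      (∀ j i k, (a j).1 i k ∈ gtO) → (∀ j i k, (b j).1 i k ∈ gtO) →
      (List.ofFn fun j => a j * b j * (a j)⁻¹ * (b j)⁻¹).prod = 1 →
      MvPolynomial.eval (gtPt (fun j => (a j).1) (fun j => (b j).1)) F = 0)
    (θ : GtK n r → ℂˣ) (hD : gtDisc (gtP1 θ) ≠ 0) :
    MvPolynomial.eval (gtPt (fun j => (gtA hn θ j).1) (fun j => (gtB hn θ j).1)) F = 0 := by
  classical
  have hloc : ∀ θ : GtK n r → ℂˣ, gtEval θ (gtPD n r) ≠ 0 ↔ gtDisc (gtP1 θ) ≠ 0 := fun θ => by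
    rw [gtPD_eval]
  have hPD : ∀ θ θ' : GtK0 n r ⊕ GtK2 n r → ℂˣ, (∀ v, θ (Sum.inl v) = θ' (Sum.inl v)) →
      gtEval θ (gtPD n r) = gtEval θ' (gtPD n r) := by
    intro θ θ' hθ
    rw [gtPD_eval, gtPD_eval]
    have e : gtP1 θ = gtP1 θ' := funext hθ
    rw [e]
  let h : {θ : GtK n r → ℂˣ // gtEval θ (gtPD n r) ≠ 0} → ℂ := fun θ =>
    MvPolynomial.eval (gtPt (fun j => (gtA hn θ.1 j).1) (fun j => (gtB hn θ.1 j).1)) F
  have hh : h ∈ gtRat (gtPD n r) := by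
    apply gtRat_eval (gtPD n r)
      (fun θ => gtPt (fun j => (gtA hn θ.1 j).1) (fun j => (gtB hn θ.1 j).1))
    rintro ⟨(j | j), i, k⟩
    · exact (gtMem_AB hn hr j).1 i k
    · exact (gtMem_AB hn hr j).2 i k
  let V : (GtK0 n r → ℂˣ) → GtK2 n r → Set ℂˣ := fun e w =>
    Sum.elim (fun w' : GqIdx 0 n r => {u : ℂˣ | u ∈ Subgroup.zpowers unitW ∧
        ∃ x ∈ gtO, (u : ℂ) - ((e (Sum.inr (Sum.inr w')) : ℂˣ) : ℂ) = gtDisc e ^ (2 * r) * x})
      (fun _ => {u : ℂˣ | u ∈ Subgroup.zpowers unitW ∧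
        ∃ x ∈ gtO, (u : ℂ) - 1 = gtDisc e ^ (2 * r) * x}) w
  have hV : ∀ θ : GtK0 n r ⊕ GtK2 n r → ℂˣ, gtEval θ (gtPD n r) ≠ 0 →
      (∀ v, θ (Sum.inl v) ∈ (Subgroup.zpowers unitW : Set ℂˣ)) →
      ∀ w, (V (fun v => θ (Sum.inl v)) w).Infinite := by
    intro θ hθ hU w
    have hN1 : gtDisc (fun v => θ (Sum.inl v)) ^ (2 * r) ∈ gtO :=
      pow_mem (gtDisc_int (fun v => θ (Sum.inl v)) hU).1 _
    have hN0 : gtDisc (fun v => θ (Sum.inl v)) ^ (2 * r) ≠ 0 :=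
      pow_ne_zero _ ((hloc θ).mp hθ)
    have hinf := gt_units _ hN1 hN0
    rcases w with w' | v
    · have hs := hU (Sum.inr (Sum.inr w'))
      refine (hinf.image (f := fun u => θ (Sum.inl (Sum.inr (Sum.inr w'))) * u)
        (fun a _ b _ hab => mul_left_cancel hab)).mono ?_
      rintro _ ⟨u, ⟨hu, x, hx, hux⟩, rfl⟩
      refine ⟨mul_mem hs hu, ((θ (Sum.inl (Sum.inr (Sum.inr w'))) : ℂˣ) : ℂ) * x,
        mul_mem (gtO_units _ hs).1 hx, ?_⟩
      show ((θ (Sum.inl (Sum.inr (Sum.inr w'))) * u : ℂˣ) : ℂ) -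
          ((θ (Sum.inl (Sum.inr (Sum.inr w'))) : ℂˣ) : ℂ) = _
      rw [Units.val_mul]
      linear_combination ((θ (Sum.inl (Sum.inr (Sum.inr w'))) : ℂˣ) : ℂ) * hux
    · exact hinf
  have h0 : ∀ θ : {θ : GtK0 n r ⊕ GtK2 n r → ℂˣ // gtEval θ (gtPD n r) ≠ 0},
      (∀ v, θ.1 (Sum.inl v) ∈ (Subgroup.zpowers unitW : Set ℂˣ)) →
      (∀ w, θ.1 (Sum.inr w) ∈ V (fun v => θ.1 (Sum.inl v)) w) → h θ = 0 := by
    intro θ h1 h2
    have hint : gtIntPt θ.1 := by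
      refine ⟨(hloc θ.1).mp θ.2, ?_, ?_, ?_⟩
      · intro v
        rcases v with v | w
        · exact h1 v
        · rcases w with w' | v
          · exact (h2 (Sum.inl w')).1
          · exact (h2 (Sum.inr v)).1
      · intro w
        exact (h2 (Sum.inl w)).2
      · intro v
        exact (h2 (Sum.inr v)).2
    obtain ⟨ia, ib⟩ := gtAB_int hn hr θ.1 hint
    exact hF (gtA hn θ.1) (gtB hn θ.1) ia ib (gt_rel hn hr θ.1 hint.1)
  exact gt_dens (gtPD n r) hPD (Subgroup.zpowers unitW : Set ℂˣ) infinite_zpowers_unitW V hV h hh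
    h0 ⟨θ, (hloc θ).mpr hD⟩

/-- **Closed surfaces of every genus `n ≥ 2`, every rank `r ≥ 2`**: a family of representations
of the closed surface group, indexed by the eigenvalue data `c, d` of the `n + 1` curves of a
decomposition into two spheres with `n + 1` holes and by a torus of parameters, consisting of
pairwise non-conjugate representations for fixed eigenvalue data, algebraic in the parameters,
and contained in the closure of the representations with entries in the ring of integers of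
`ℚ(√2)`. -/
theorem gt_closed (n r : ℕ) (hn : 2 ≤ n) (hr : 2 ≤ r) :
    ∃ L : IntermediateField ℚ ℂ,
      L = IntermediateField.adjoin ℚ {((Real.sqrt 2 : ℝ) : ℂ)} ∧
      FiniteDimensional ℚ L ∧
      ∃ (κ : Type) (_ : Fintype κ)
        (A B : (Fin r → ℂ) → (Fin n → Fin r → ℂ) → (κ → Units ℂ) → Fin n →
          Matrix.SpecialLinearGroup (Fin r) ℂ),
        Fintype.card κ + (n + 1) * (r - 1) = (2 * n - 2) * (r ^ 2 - 1) ∧
        ∀ (c : Fin r → ℂ) (d : Fin n → Fin r → ℂ), Function.Injective c →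
          (∀ j, Function.Injective (d j)) → ∏ i, c i = 1 → (∀ j, ∏ i, d j i = 1) →
          (∀ ϑ, (List.ofFn fun j => A c d ϑ j * B c d ϑ j * (A c d ϑ j)⁻¹ *
                (B c d ϑ j)⁻¹).prod = 1 ∧
              (∀ j, (B c d ϑ j).1.charpoly = ∏ i, (X - C (d j i))) ∧
              ((List.ofFn (B c d ϑ)).reverse.prod).1.charpoly = ∏ i, (X - C (c i))) ∧
          (∀ v : (Fin n ⊕ Fin n) × Fin r × Fin r, ∃ P : MvPolynomial (κ ⊕ κ) ℂ,
            ∀ ϑ : κ → Units ℂ,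
              Sum.elim (fun j => (A c d ϑ j).1) (fun j => (B c d ϑ j).1) v.1 v.2.1 v.2.2 =
                MvPolynomial.eval
                  (Sum.elim (fun i => (ϑ i : ℂ)) (fun i => (((ϑ i)⁻¹ : Units ℂ) : ℂ))) P) ∧
          (∀ ϑ ϑ' : κ → Units ℂ,
            (∃ γ : Matrix (Fin r) (Fin r) ℂ, γ.det ≠ 0 ∧
              (∀ j, γ * (A c d ϑ j).1 = (A c d ϑ' j).1 * γ) ∧
              (∀ j, γ * (B c d ϑ j).1 = (B c d ϑ' j).1 * γ)) → ϑ = ϑ') ∧
          ((∀ (S : Finset (Fin r)) (T : Fin n → Finset (Fin r)), S.Nonempty →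
              S ≠ Finset.univ → (∀ j, (T j).card = S.card) →
              ∏ i ∈ S, c i ≠ ∏ j, ∏ i ∈ T j, d j i) →
            ∀ (ϑ : κ → Units ℂ) (V : Submodule ℂ (Fin r → ℂ)),
              (∀ j, ∀ v ∈ V, (A c d ϑ j).1.mulVec v ∈ V) →
              (∀ j, ∀ v ∈ V, (B c d ϑ j).1.mulVec v ∈ V) → V = ⊥ ∨ V = ⊤) ∧
          ∀ F : MvPolynomial ((Fin n ⊕ Fin n) × Fin r × Fin r) ℂ,
            (∀ a b : Fin n → Matrix.SpecialLinearGroup (Fin r) ℂ,
              (∀ j i k, (a j).1 i k ∈ L ∧ IsIntegral ℤ ((a j).1 i k)) →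
              (∀ j i k, (b j).1 i k ∈ L ∧ IsIntegral ℤ ((b j).1 i k)) →
              (List.ofFn fun j => a j * b j * (a j)⁻¹ * (b j)⁻¹).prod = 1 →
              MvPolynomial.eval (fun v => Sum.elim (fun j => (a j).1) (fun j => (b j).1)
                v.1 v.2.1 v.2.2) F = 0) →
            ∀ ϑ, MvPolynomial.eval (fun v => Sum.elim (fun j => (A c d ϑ j).1)
              (fun j => (B c d ϑ j).1) v.1 v.2.1 v.2.2) F = 0 := by
  classical
  have hr1 : 1 ≤ r := by omega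
  refine ⟨fieldL, rfl, finiteDimensional_fieldL, GqIdx 0 n r ⊕ GtK2 n r, inferInstance,
    fun c d ϑ => gtA hn (gtTheta c d ϑ), fun c d ϑ => gtB hn (gtTheta c d ϑ),
    gt_card n r hn hr1, ?_⟩
  intro c d hci hdi hc1 hd1
  have hD := gtTheta_disc_ne c d hci hdi hc1 hd1
  refine ⟨fun ϑ => ⟨gt_rel hn hr1 _ (hD ϑ), fun j => ?_, ?_⟩, ?_, ?_, ?_, ?_⟩
  · rw [gtB_charpoly]
    simp only [gtTheta_D c d hd1 ϑ]
  · rw [gtB_rev_charpoly]
    simp only [gtTheta_C c d hc1 ϑ]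
  · intro v
    have hmem : (fun θ : {θ : GtK n r → ℂˣ // gtEval θ (gtPD n r) ≠ 0} =>
        gtPt (fun j => (gtA hn θ.1 j).1) (fun j => (gtB hn θ.1 j).1) v) ∈ gtRat (gtPD n r) := by
      rcases v with ⟨(j | j), i, k⟩
      · exact (gtMem_AB hn hr1 j).1 i k
      · exact (gtMem_AB hn hr1 j).2 i k
    have hm : ∀ w : GtK n r, (∃ a : ℂˣ, ∀ ϑ, gtTheta c d ϑ w = a) ∨
        (∃ w', ∀ ϑ, gtTheta c d ϑ w = ϑ w') := by
      rintro ((i | (u | w)) | u)
      · exact Or.inl ⟨_, fun _ => rfl⟩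
      · exact Or.inl ⟨_, fun _ => rfl⟩
      · exact Or.inr ⟨Sum.inl w, fun _ => rfl⟩
      · exact Or.inr ⟨Sum.inr u, fun _ => rfl⟩
    have hDc : ∀ ϑ, gtEval (gtTheta c d ϑ) (gtPD n r) =
        gtDisc (gtP1 (gtTheta c d (fun _ => 1))) := by
      intro ϑ
      rw [gtPD_eval, gtTheta_disc c d hc1 hd1, gtTheta_disc c d hc1 hd1]
    obtain ⟨P, hP⟩ := gt_sliceG (gtPD n r) _ hmem (gtTheta c d) hm _ (hD _) hDc
    refine ⟨P, fun ϑ => ?_⟩
    have hϑ : gtEval (gtTheta c d ϑ) (gtPD n r) ≠ 0 := by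
      rw [gtPD_eval]
      exact hD ϑ
    exact hP ϑ hϑ
  · rintro ϑ ϑ' ⟨γ, hγ, hA, hB⟩
    have e := gt_inj hn hr1 (gtTheta c d ϑ) (gtTheta c d ϑ') (hD ϑ) (fun _ => rfl)
      (fun _ => rfl) γ hγ hA hB
    funext w
    rcases w with w | u
    · exact congrFun e (Sum.inl (Sum.inr (Sum.inr w)))
    · exact congrFun e (Sum.inr u)
  · intro hgen ϑ V _ hB
    refine gt_irred hn (gtTheta c d ϑ) ?_ V hB
    intro S T hS hS' hT
    simp only [gtTheta_C c d hc1 ϑ, gtTheta_D c d hd1 ϑ]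
    exact hgen S T hS hS' hT
  · intro F hF ϑ
    exact gt_core hn hr1 F (fun a b ha hb hrel => hF a b ha hb hrel) _ (hD ϑ)

end Vale.Agent.Lib.P002

end
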