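import Vale.Agent.Lib.P002.GTDefs

/-!
# Basic elements of the ring `gtRat PD`
-/

namespace Vale.Agent.Lib.P002

theorem gtRat_const {κ : Type} (PD : MvPolynomial (κ ⊕ κ) ℂ) (a : ℂ) :
    (fun _ : {θ : κ → ℂˣ // gtEval θ PD ≠ 0} => a) ∈ gtRat PD := by
  refine ⟨0, MvPolynomial.C a, fun θ => ?_⟩
  rw [pow_zero, one_mul]
  show a = MvPolynomial.eval _ (MvPolynomial.C a)
  rw [MvPolynomial.eval_C]

theorem gtRat_poly {κ : Type} (PD : MvPolynomial (κ ⊕ κ) ℂ) (P : MvPolynomial (κ ⊕ κ) ℂ) :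
    (fun θ : {θ : κ → ℂˣ // gtEval θ PD ≠ 0} => gtEval θ.1 P) ∈ gtRat PD := by
  refine ⟨0, P, fun θ => ?_⟩
  rw [pow_zero, one_mul]

theorem gtRat_coord {κ : Type} (PD : MvPolynomial (κ ⊕ κ) ℂ) (v : κ) :
    (fun θ : {θ : κ → ℂˣ // gtEval θ PD ≠ 0} => ((θ.1 v : ℂˣ) : ℂ)) ∈ gtRat PD := by
  refine ⟨0, MvPolynomial.X (Sum.inl v), fun θ => ?_⟩
  rw [pow_zero, one_mul]
  show ((θ.1 v : ℂˣ) : ℂ) = MvPolynomial.eval _ (MvPolynomial.X (Sum.inl v))
  rw [MvPolynomial.eval_X]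
  rfl

theorem gtRat_coord_inv {κ : Type} (PD : MvPolynomial (κ ⊕ κ) ℂ) (v : κ) :
    (fun θ : {θ : κ → ℂˣ // gtEval θ PD ≠ 0} => (((θ.1 v)⁻¹ : ℂˣ) : ℂ)) ∈ gtRat PD := by
  refine ⟨0, MvPolynomial.X (Sum.inr v), fun θ => ?_⟩
  rw [pow_zero, one_mul]
  show (((θ.1 v)⁻¹ : ℂˣ) : ℂ) = MvPolynomial.eval _ (MvPolynomial.X (Sum.inr v))
  rw [MvPolynomial.eval_X]
  rfl

/-- Evaluation of the pullback of a polynomial with integer coefficients along a map of index
types. -/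
theorem gtRatAux_pull_eval {κ' κ : Type} (e : κ' → κ) (θ : κ → ℂˣ)
    (P0 : MvPolynomial (κ' ⊕ κ') ℤ) :
    gtEval θ (MvPolynomial.map (Int.castRingHom ℂ) (MvPolynomial.rename (Sum.map e e) P0)) =
      gtEvalZ (fun v => θ (e v)) P0 := by
  show MvPolynomial.eval _
      (MvPolynomial.map (Int.castRingHom ℂ) (MvPolynomial.rename (Sum.map e e) P0)) =
    MvPolynomial.eval₂ (Int.castRingHom ℂ) _ P0
  rw [MvPolynomial.eval_map, MvPolynomial.eval₂_rename]
  congr 1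
  funext w
  cases w with
  | inl i => rfl
  | inr i => rfl

/-- The pullback of a Laurent polynomial function with integer coefficients along a map of
index types belongs to the ring. -/
theorem gtRat_pull {κ' κ : Type} (PD : MvPolynomial (κ ⊕ κ) ℂ) (e : κ' → κ) (h : gtInt κ') :
    (fun θ : {θ : κ → ℂˣ // gtEval θ PD ≠ 0} => gtIntEv (fun v => θ.1 (e v)) h) ∈
      gtRat PD := by
  obtain ⟨P0, hP0⟩ := h.2
  refine ⟨0, MvPolynomial.map (Int.castRingHom ℂ) (MvPolynomial.rename (Sum.map e e) P0),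
    fun θ => ?_⟩
  rw [pow_zero, one_mul, gtRatAux_pull_eval]
  show (h : (κ' → ℂˣ) → ℂ) (fun v => θ.1 (e v)) = gtEvalZ (fun v => θ.1 (e v)) P0
  rw [← hP0]
  rfl

/-- The inverse of a factor of the discriminant belongs to the ring. -/
theorem gtRat_inv {κ : Type} (PD P Q : MvPolynomial (κ ⊕ κ) ℂ) (hPQ : P * Q = PD) :
    (fun θ : {θ : κ → ℂˣ // gtEval θ PD ≠ 0} => (gtEval θ.1 P)⁻¹) ∈ gtRat PD := by
  subst hPQ
  refine ⟨1, Q, fun θ => ?_⟩
  have hne : gtEval θ.1 (P * Q) ≠ 0 := θ.2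
  rw [map_mul] at hne
  have hp : gtEval θ.1 P ≠ 0 := left_ne_zero_of_mul hne
  show gtEval θ.1 (P * Q) ^ 1 * (gtEval θ.1 P)⁻¹ = gtEval θ.1 Q
  rw [pow_one, map_mul, mul_comm (gtEval θ.1 P) (gtEval θ.1 Q), mul_assoc,
    mul_inv_cancel₀ hp, mul_one]

/-- Evaluating a polynomial at a point whose coordinates belong to the ring gives an element
of the ring. -/
theorem gtRat_eval {κ : Type} (PD : MvPolynomial (κ ⊕ κ) ℂ) {σ : Type*}
    (x : {θ : κ → ℂˣ // gtEval θ PD ≠ 0} → σ → ℂ) (hx : ∀ v, (fun θ => x θ v) ∈ gtRat PD)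
    (F : MvPolynomial σ ℂ) : (fun θ => MvPolynomial.eval (x θ) F) ∈ gtRat PD := by
  induction F using MvPolynomial.induction_on with
  | C a =>
    have e : (fun θ => MvPolynomial.eval (x θ) (MvPolynomial.C a)) = fun _ => a := by
      funext θ
      rw [MvPolynomial.eval_C]
    rw [e]
    exact gtRat_const PD a
  | add p q hp hq =>
    have e : (fun θ => MvPolynomial.eval (x θ) (p + q)) =
        (fun θ => MvPolynomial.eval (x θ) p) + (fun θ => MvPolynomial.eval (x θ) q) := by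
      funext θ
      rw [map_add]
      rfl
    rw [e]
    exact (gtRat PD).add_mem hp hq
  | mul_X p n hp =>
    have e : (fun θ => MvPolynomial.eval (x θ) (p * MvPolynomial.X n)) =
        (fun θ => MvPolynomial.eval (x θ) p) * (fun θ => x θ n) := by
      funext θ
      rw [map_mul, MvPolynomial.eval_X]
      rfl
    rw [e]
    exact (gtRat PD).mul_mem hp (hx n)

end Vale.Agent.Lib.P002
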