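import Vale.Agent.Lib.P002.GTFrame
import Vale.Agent.Lib.P002.GTRat
import Vale.Agent.Lib.P002.GTRatDisc
import Vale.Agent.Lib.P002.GTIn

/-!
# The chart points and the frames depend algebraically on the parameters
-/

open Matrix

namespace Vale.Agent.Lib.P002

/-- The parameters of the second chart point are a pullback along a map of index types. -/
theorem gtMemAAux_P2 {n r : ℕ} (θ : GtK n r → ℂˣ) :
    (gtP2 θ : GtK0 n r → ℂˣ) = fun v => θ ((Sum.elim (fun i => Sum.inl (Sum.inl i))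
      (Sum.elim (fun v => Sum.inl (Sum.inr (Sum.inl v))) (fun w => Sum.inr (Sum.inl w))) :
        GtK0 n r → GtK n r) v) := by
  funext v
  rcases v with i | v | w <;> rfl

/-- Specializing a universal matrix at the parameters of the first chart point. -/
theorem gtMemAAux_map1 {n r : ℕ} (m : Matrix (Fin r) (Fin r) (gtInt (GtK0 n r))) :
    gtIn (gtPD n r) (fun θ => m.map (gtIntEv (gtP1 θ.1))) := by
  intro i k
  exact gtRat_pull (gtPD n r) (Sum.inl : GtK0 n r → GtK n r) (m i k)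

/-- Specializing a universal matrix at the parameters of the second chart point. -/
theorem gtMemAAux_map2 {n r : ℕ} (m : Matrix (Fin r) (Fin r) (gtInt (GtK0 n r))) :
    gtIn (gtPD n r) (fun θ => m.map (gtIntEv (gtP2 θ.1))) := by
  intro i k
  have h := gtRat_pull (gtPD n r) ((Sum.elim (fun i => Sum.inl (Sum.inl i))
      (Sum.elim (fun v => Sum.inl (Sum.inr (Sum.inl v))) (fun w => Sum.inr (Sum.inl w))) :
        GtK0 n r → GtK n r)) (m i k)
  have e : (fun θ : {θ : GtK n r → ℂˣ // gtEval θ (gtPD n r) ≠ 0} =>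
      (m.map (gtIntEv (gtP2 θ.1))) i k) = fun θ => gtIntEv (fun v => θ.1
        ((Sum.elim (fun i => Sum.inl (Sum.inl i))
          (Sum.elim (fun v => Sum.inl (Sum.inr (Sum.inl v))) (fun w => Sum.inr (Sum.inl w))) :
            GtK0 n r → GtK n r) v)) (m i k) := by
    funext θ
    rw [gtMemAAux_P2]
    rfl
  rw [e]
  exact h

/-- The total monodromy is the product of all members of the chart point. -/
theorem gtMemAAux_W {n r : ℕ} (hn : 2 ≤ n) (θ0 : GtK0 n r → ℂˣ) :
    gtW (r := r) hn θ0 = gtPre (gtZ (r := r) hn θ0) n := by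
  unfold gtW gtPre
  rw [List.take_of_length_le (by simp)]

theorem gtMem_pt {n r : ℕ} (hn : 2 ≤ n) (j : Fin n) :
    gtIn (gtPD n r) (fun θ => gtZ (r := r) hn (gtP1 θ.1) j) ∧
      gtIn (gtPD n r) (fun θ => gtZ (r := r) hn (gtP2 θ.1) j) ∧
      gtIn (gtPD n r) (fun θ => gtPm (r := r) hn (gtP1 θ.1) j) ∧
      gtIn (gtPD n r) (fun θ => gtPm (r := r) hn (gtP2 θ.1) j) ∧
      gtIn (gtPD n r) (fun θ => gtPim (r := r) hn (gtP1 θ.1) j) ∧
      gtIn (gtPD n r) (fun θ => gtPim (r := r) hn (gtP2 θ.1) j) ∧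
      gtIn (gtPD n r) (fun θ => gtLm (r := r) hn (gtP1 θ.1) j) ∧
      gtIn (gtPD n r) (fun θ => gtLm (r := r) hn (gtP2 θ.1) j) :=
  ⟨gtMemAAux_map1 (gtZU hn j), gtMemAAux_map2 (gtZU hn j), gtMemAAux_map1 (gtPU hn j),
    gtMemAAux_map2 (gtPU hn j), gtMemAAux_map1 (gtPiU hn j), gtMemAAux_map2 (gtPiU hn j),
    gtMemAAux_map1 (gtLU hn j), gtMemAAux_map2 (gtLU hn j)⟩

theorem gtMem_W {n r : ℕ} (hn : 2 ≤ n) :
    gtIn (gtPD n r) (fun θ => gtW (r := r) hn (gtP1 θ.1)) ∧
      gtIn (gtPD n r) (fun θ => gtW (r := r) hn (gtP2 θ.1)) := by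
  constructor
  · have h := gtIn_pre (gtPD n r) (fun θ j => gtZ (r := r) hn (gtP1 θ.1) j)
      (fun j => (gtMem_pt hn j).1) n
    have e : (fun θ : {θ : GtK n r → ℂˣ // gtEval θ (gtPD n r) ≠ 0} =>
        gtW (r := r) hn (gtP1 θ.1)) =
        fun θ => gtPre (fun j => gtZ (r := r) hn (gtP1 θ.1) j) n := by
      funext θ
      exact gtMemAAux_W hn _
    rw [e]
    exact h
  · have h := gtIn_pre (gtPD n r) (fun θ j => gtZ (r := r) hn (gtP2 θ.1) j)
      (fun j => (gtMem_pt hn j).2.1) n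
    have e : (fun θ : {θ : GtK n r → ℂˣ // gtEval θ (gtPD n r) ≠ 0} =>
        gtW (r := r) hn (gtP2 θ.1)) =
        fun θ => gtPre (fun j => gtZ (r := r) hn (gtP2 θ.1) j) n := by
      funext θ
      exact gtMemAAux_W hn _
    rw [e]
    exact h

end Vale.Agent.Lib.P002
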