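import Vale.Agent.Lib.P002.GTMemA
import Vale.Agent.Lib.P002.GTConj
import Vale.Agent.Lib.P002.GTConjLow

/-!
# The frames depend algebraically on the parameters
-/

open Matrix

namespace Vale.Agent.Lib.P002

/-- The differences of the eigenvalue functions are units of the ring. -/
theorem gtMemFAux_unit {κ : Type} (PD : MvPolynomial (κ ⊕ κ) ℂ) {r : ℕ}
    (c : {θ : κ → ℂˣ // gtEval θ PD ≠ 0} → Fin r → ℂ)
    (hc : ∀ i, (fun θ => c θ i) ∈ gtRat PD)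
    (hcinv : ∀ i k, i ≠ k → (fun θ => (c θ k - c θ i)⁻¹) ∈ gtRat PD)
    (hne : ∀ θ i k, i ≠ k → c θ k - c θ i ≠ 0) (i k : Fin r) (hik : i ≠ k) :
    IsUnit ((⟨fun θ => c θ k, hc k⟩ : gtRat PD) - ⟨fun θ => c θ i, hc i⟩) := by
  apply IsUnit.of_mul_eq_one (⟨fun θ => (c θ k - c θ i)⁻¹, hcinv i k hik⟩ : gtRat PD)
  apply Subtype.ext
  funext θ
  show (c θ k - c θ i) * (c θ k - c θ i)⁻¹ = 1
  exact mul_inv_cancel₀ (hne θ i k hik)

/-- The upper unitriangular conjugator exists over the ring. -/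
theorem gtMemFAux_upper {κ : Type} (PD : MvPolynomial (κ ⊕ κ) ℂ) {r : ℕ}
    (c : {θ : κ → ℂˣ // gtEval θ PD ≠ 0} → Fin r → ℂ)
    (hc : ∀ i, (fun θ => c θ i) ∈ gtRat PD)
    (hcinv : ∀ i k, i ≠ k → (fun θ => (c θ k - c θ i)⁻¹) ∈ gtRat PD)
    (hne : ∀ θ i k, i ≠ k → c θ k - c θ i ≠ 0)
    (W : {θ : κ → ℂˣ // gtEval θ PD ≠ 0} → Matrix (Fin r) (Fin r) ℂ) (hW : gtIn PD W)
    (hWtri : ∀ θ, (W θ).IsUpperTriangular) (hWd : ∀ θ i, W θ i i = c θ i) :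
    ∃ m : Matrix (Fin r) (Fin r) (gtRat PD), ∀ θ,
      (m.map (gtRatEv PD θ)).IsUpperTriangular ∧ (∀ i, (m.map (gtRatEv PD θ)) i i = 1) ∧
        m.map (gtRatEv PD θ) * Matrix.diagonal (c θ) = W θ * m.map (gtRatEv PD θ) := by
  obtain ⟨WR, hWR⟩ := gtIn_lift PD hW
  have hent : ∀ θ i k, ((WR i k : gtRat PD) : _ → ℂ) θ = W θ i k := by
    intro θ i k
    exact congrFun (congrFun (hWR θ) i) k
  have hWRtri : WR.IsUpperTriangular := by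
    intro i k hik
    apply Subtype.ext
    funext θ
    exact (hent θ i k).trans (hWtri θ hik)
  have hWRd : ∀ i, WR i i = (⟨fun θ => c θ i, hc i⟩ : gtRat PD) := by
    intro i
    apply Subtype.ext
    funext θ
    exact (hent θ i i).trans (hWd θ i)
  obtain ⟨u, hu, hu1, huT⟩ := gt_conj_exists (fun i => (⟨fun θ => c θ i, hc i⟩ : gtRat PD))
    (gtMemFAux_unit PD c hc hcinv hne)
    (Matrix.diagonal fun i => (⟨fun θ => c θ i, hc i⟩ : gtRat PD)) WR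
    (Matrix.blockTriangular_diagonal _) hWRtri (fun i => Matrix.diagonal_apply_eq _ i) hWRd
  refine ⟨u, fun θ => ⟨Matrix.BlockTriangular.map (gtRatEv PD θ) hu, ?_, ?_⟩⟩
  · intro i
    rw [Matrix.map_apply, hu1 i, map_one]
  · have h := congrArg (fun M : Matrix (Fin r) (Fin r) (gtRat PD) => M.map (gtRatEv PD θ)) huT
    simp only [Matrix.map_mul] at h
    rw [hWR θ, Matrix.diagonal_map (map_zero _)] at h
    exact h

/-- The lower unitriangular conjugator exists over the ring. -/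
theorem gtMemFAux_lower {κ : Type} (PD : MvPolynomial (κ ⊕ κ) ℂ) {r : ℕ}
    (c : {θ : κ → ℂˣ // gtEval θ PD ≠ 0} → Fin r → ℂ)
    (hc : ∀ i, (fun θ => c θ i) ∈ gtRat PD)
    (hcinv : ∀ i k, i ≠ k → (fun θ => (c θ k - c θ i)⁻¹) ∈ gtRat PD)
    (hne : ∀ θ i k, i ≠ k → c θ k - c θ i ≠ 0)
    (W : {θ : κ → ℂˣ // gtEval θ PD ≠ 0} → Matrix (Fin r) (Fin r) ℂ) (hW : gtIn PD W)
    (hWtri : ∀ θ, (W θ).IsLowerTriangular) (hWd : ∀ θ i, W θ i i = c θ i) :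
    ∃ m : Matrix (Fin r) (Fin r) (gtRat PD), ∀ θ,
      (m.map (gtRatEv PD θ)).IsLowerTriangular ∧ (∀ i, (m.map (gtRatEv PD θ)) i i = 1) ∧
        m.map (gtRatEv PD θ) * Matrix.diagonal (c θ) = W θ * m.map (gtRatEv PD θ) := by
  obtain ⟨WR, hWR⟩ := gtIn_lift PD hW
  have hent : ∀ θ i k, ((WR i k : gtRat PD) : _ → ℂ) θ = W θ i k := by
    intro θ i k
    exact congrFun (congrFun (hWR θ) i) k
  have hWRtri : WR.IsLowerTriangular := by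
    intro i k hik
    apply Subtype.ext
    funext θ
    exact (hent θ i k).trans (hWtri θ hik)
  have hWRd : ∀ i, WR i i = (⟨fun θ => c θ i, hc i⟩ : gtRat PD) := by
    intro i
    apply Subtype.ext
    funext θ
    exact (hent θ i i).trans (hWd θ i)
  obtain ⟨u, hu, hu1, huT⟩ := gt_conjL_exists (fun i => (⟨fun θ => c θ i, hc i⟩ : gtRat PD))
    (gtMemFAux_unit PD c hc hcinv hne)
    (Matrix.diagonal fun i => (⟨fun θ => c θ i, hc i⟩ : gtRat PD)) WR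
    (Matrix.blockTriangular_diagonal _) hWRtri (fun i => Matrix.diagonal_apply_eq _ i) hWRd
  refine ⟨u, fun θ => ⟨Matrix.BlockTriangular.map (gtRatEv PD θ) hu, ?_, ?_⟩⟩
  · intro i
    rw [Matrix.map_apply, hu1 i, map_one]
  · have h := congrArg (fun M : Matrix (Fin r) (Fin r) (gtRat PD) => M.map (gtRatEv PD θ)) huT
    simp only [Matrix.map_mul] at h
    rw [hWR θ, Matrix.diagonal_map (map_zero _)] at h
    exact h

theorem gtMemFAux_C {n r : ℕ} (i : Fin r) :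
    (fun θ : {θ : GtK n r → ℂˣ // gtEval θ (gtPD n r) ≠ 0} =>
      ((gtC (gtP1 θ.1) i : ℂˣ) : ℂ)) ∈ gtRat (gtPD n r) := by
  have h := gtRat_poly (gtPD n r) (gtCPoly n r i)
  have e : (fun θ : {θ : GtK n r → ℂˣ // gtEval θ (gtPD n r) ≠ 0} =>
      ((gtC (gtP1 θ.1) i : ℂˣ) : ℂ)) = fun θ => gtEval θ.1 (gtCPoly n r i) := by
    funext θ
    rw [gtCPoly_eval]
  rw [e]
  exact h

theorem gtMemFAux_D {n r : ℕ} (j : Fin n) (i : Fin r) :
    (fun θ : {θ : GtK n r → ℂˣ // gtEval θ (gtPD n r) ≠ 0} =>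
      ((gtD (gtP1 θ.1) j i : ℂˣ) : ℂ)) ∈ gtRat (gtPD n r) := by
  have h := gtRat_poly (gtPD n r) (gtDPoly n r j i)
  have e : (fun θ : {θ : GtK n r → ℂˣ // gtEval θ (gtPD n r) ≠ 0} =>
      ((gtD (gtP1 θ.1) j i : ℂˣ) : ℂ)) = fun θ => gtEval θ.1 (gtDPoly n r j i) := by
    funext θ
    rw [gtDPoly_eval]
  rw [e]
  exact h

theorem gtMemFAux_disc {n r : ℕ} (θ : {θ : GtK n r → ℂˣ // gtEval θ (gtPD n r) ≠ 0}) :
    gtDisc (gtP1 θ.1) ≠ 0 := by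
  have h := θ.2
  rw [gtPD_eval] at h
  exact h

theorem gtMemFAux_disc2 {n r : ℕ} (θ : {θ : GtK n r → ℂˣ // gtEval θ (gtPD n r) ≠ 0}) :
    gtDisc (gtP2 θ.1) ≠ 0 :=
  gtMemFAux_disc θ

theorem gtMemFAux_neC {n r : ℕ} (θ : {θ : GtK n r → ℂˣ // gtEval θ (gtPD n r) ≠ 0})
    (i k : Fin r) (hik : i ≠ k) :
    ((gtC (gtP1 θ.1) k : ℂˣ) : ℂ) - ((gtC (gtP1 θ.1) i : ℂˣ) : ℂ) ≠ 0 := by
  have hinj := ((gtDisc_ne (gtP1 θ.1)).mp (gtMemFAux_disc θ)).1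
  intro h
  exact hik (hinj (Units.val_injective (sub_eq_zero.mp h))).symm

theorem gtMemFAux_neD {n r : ℕ} (θ : {θ : GtK n r → ℂˣ // gtEval θ (gtPD n r) ≠ 0})
    (j : Fin n) (i k : Fin r) (hik : i ≠ k) :
    ((gtD (gtP1 θ.1) j k : ℂˣ) : ℂ) - ((gtD (gtP1 θ.1) j i : ℂˣ) : ℂ) ≠ 0 := by
  have hinj := ((gtDisc_ne (gtP1 θ.1)).mp (gtMemFAux_disc θ)).2 j
  intro h
  exact hik (hinj (Units.val_injective (sub_eq_zero.mp h))).symm

theorem gtMem_FW {n r : ℕ} (hn : 2 ≤ n) :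
    gtIn (gtPD n r) (fun θ => gtFW (r := r) hn (gtP1 θ.1)) ∧
      gtIn (gtPD n r) (fun θ => gtFW (r := r) hn (gtP2 θ.1)) := by
  constructor
  · obtain ⟨m, hm⟩ := gtMemFAux_upper (gtPD n r)
      (fun θ i => ((gtC (gtP1 θ.1) i : ℂˣ) : ℂ)) gtMemFAux_C
      (fun i k hik => gtRat_diffC i k hik) gtMemFAux_neC
      (fun θ => gtW (r := r) hn (gtP1 θ.1)) (gtMem_W hn).1
      (fun θ => (gtW_tri hn (gtP1 θ.1)).1) (fun θ i => (gtW_tri hn (gtP1 θ.1)).2 i)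
    have e : (fun θ : {θ : GtK n r → ℂˣ // gtEval θ (gtPD n r) ≠ 0} =>
        gtFW (r := r) hn (gtP1 θ.1)) = fun θ => m.map (gtRatEv (gtPD n r) θ) := by
      funext θ
      exact (gtFW_unique hn (gtP1 θ.1) (gtMemFAux_disc θ) _ (hm θ).1 (hm θ).2.1
        (hm θ).2.2).symm
    rw [e]
    exact gtIn_of_lift (gtPD n r) m
  · obtain ⟨m, hm⟩ := gtMemFAux_upper (gtPD n r)
      (fun θ i => ((gtC (gtP1 θ.1) i : ℂˣ) : ℂ)) gtMemFAux_C
      (fun i k hik => gtRat_diffC i k hik) gtMemFAux_neC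
      (fun θ => gtW (r := r) hn (gtP2 θ.1)) (gtMem_W hn).2
      (fun θ => (gtW_tri hn (gtP2 θ.1)).1) (fun θ i => (gtW_tri hn (gtP2 θ.1)).2 i)
    have e : (fun θ : {θ : GtK n r → ℂˣ // gtEval θ (gtPD n r) ≠ 0} =>
        gtFW (r := r) hn (gtP2 θ.1)) = fun θ => m.map (gtRatEv (gtPD n r) θ) := by
      funext θ
      exact (gtFW_unique hn (gtP2 θ.1) (gtMemFAux_disc2 θ) _ (hm θ).1 (hm θ).2.1
        (hm θ).2.2).symm
    rw [e]
    exact gtIn_of_lift (gtPD n r) m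

theorem gtMem_FL {n r : ℕ} (hn : 2 ≤ n) (j : Fin n) :
    gtIn (gtPD n r) (fun θ => gtFL (r := r) hn (gtP1 θ.1) j) ∧
      gtIn (gtPD n r) (fun θ => gtFL (r := r) hn (gtP2 θ.1) j) := by
  constructor
  · obtain ⟨m, hm⟩ := gtMemFAux_lower (gtPD n r)
      (fun θ i => ((gtD (gtP1 θ.1) j i : ℂˣ) : ℂ)) (gtMemFAux_D j)
      (fun i k hik => gtRat_diffD j i k hik) (fun θ => gtMemFAux_neD θ j)
      (fun θ => gtLm (r := r) hn (gtP1 θ.1) j) (gtMem_pt hn j).2.2.2.2.2.2.1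
      (fun θ => (gtLow_pt hn (gtP1 θ.1) j).2.2.2.1)
      (fun θ i => (gtLow_pt hn (gtP1 θ.1) j).2.2.2.2.1 i)
    have e : (fun θ : {θ : GtK n r → ℂˣ // gtEval θ (gtPD n r) ≠ 0} =>
        gtFL (r := r) hn (gtP1 θ.1) j) = fun θ => m.map (gtRatEv (gtPD n r) θ) := by
      funext θ
      exact (gtFL_unique hn (gtP1 θ.1) (gtMemFAux_disc θ) j _ (hm θ).1 (hm θ).2.1
        (hm θ).2.2).symm
    rw [e]
    exact gtIn_of_lift (gtPD n r) m
  · obtain ⟨m, hm⟩ := gtMemFAux_lower (gtPD n r)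
      (fun θ i => ((gtD (gtP1 θ.1) j i : ℂˣ) : ℂ)) (gtMemFAux_D j)
      (fun i k hik => gtRat_diffD j i k hik) (fun θ => gtMemFAux_neD θ j)
      (fun θ => gtLm (r := r) hn (gtP2 θ.1) j) (gtMem_pt hn j).2.2.2.2.2.2.2
      (fun θ => (gtLow_pt hn (gtP2 θ.1) j).2.2.2.1)
      (fun θ i => (gtLow_pt hn (gtP2 θ.1) j).2.2.2.2.1 i)
    have e : (fun θ : {θ : GtK n r → ℂˣ // gtEval θ (gtPD n r) ≠ 0} =>
        gtFL (r := r) hn (gtP2 θ.1) j) = fun θ => m.map (gtRatEv (gtPD n r) θ) := by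
      funext θ
      exact (gtFL_unique hn (gtP2 θ.1) (gtMemFAux_disc2 θ) j _ (hm θ).1 (hm θ).2.1
        (hm θ).2.2).symm
    rw [e]
    exact gtIn_of_lift (gtPD n r) m

end Vale.Agent.Lib.P002
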