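import Vale.Agent.Lib.P002.GTDefs
import Vale.Agent.Lib.P002.GPFrames
import Vale.Agent.Lib.P002.GPZChar
import Vale.Agent.Lib.P002.GPSolve

/-!
# The loops of a chart point are conjugate to lower triangular matrices, over any ring
-/

open Matrix

namespace Vale.Agent.Lib.P002

/-- The diagonal of the trailing factor of every cell of a chart point is `gpE`, over any
commutative ring. -/
theorem gtZLowAux_diag {R : Type*} [CommRing R] {g n r : ℕ} (hN : 2 ≤ 2 * g + n)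
    (c : Fin r → Rˣ) (d : Fin n → Fin r → Rˣ) (s : GpIdx g n r → Rˣ)
    (l p q l' : ℕ → Matrix (Fin r) (Fin r) R)
    (hcell : ∀ k, 1 ≤ k → k + 1 ≤ 2 * g + n →
      gwCell (fun _ => (1 : R)) (fun i => (gpE c d s k i : R)) (l k) (p k) (q k) (l' k))
    (htriv : ∀ k, k = 0 ∨ 2 * g + n ≤ k → l k = 1 ∧ p k = 1 ∧ q k = 1 ∧ l' k = 1)
    (k : ℕ) (i : Fin r) : l' k i i = (gpE c d s k i : R) := by
  by_cases hk : 1 ≤ k ∧ k + 1 ≤ 2 * g + n
  · exact (hcell k hk.1 hk.2).2.2.2.2.2.2.2.1 i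
  · have hk' : k = 0 ∨ 2 * g + n ≤ k := by omega
    rw [(htriv k hk').2.2.2, gpE_triv hN c d s k hk']
    simp

/-- Over any commutative ring, each loop `z j` of a chart point of the punctured sphere is
conjugate, by a matrix of determinant one, to a lower triangular matrix with diagonal `d j`. -/
theorem gt_zlow {R : Type*} [CommRing R] {n r : ℕ} (hn : 2 ≤ n) (c : Fin r → Rˣ)
    (d : Fin n → Fin r → Rˣ) (hc : ∏ i, c i = 1) (hd : ∀ j, ∏ i, d j i = 1)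
    (s : GqIdx 0 n r → Rˣ) (z : Fin n → Matrix (Fin r) (Fin r) R) (h : gtIsPt hn c d s z)
    (j : Fin n) :
    ∃ P Pi Λ : Matrix (Fin r) (Fin r) R, P * Pi = 1 ∧ Pi * P = 1 ∧ P.det = 1 ∧
      Λ.IsLowerTriangular ∧ (∀ i, Λ i i = ((d j i : Rˣ) : R)) ∧ z j * P = P * Λ := by
  have hN : 2 ≤ 2 * 0 + n := gtHN hn
  -- the product conditions on the eigenvalue data are not needed here
  have _ := hc
  have _ := hd
  obtain ⟨l, p, q, l', G, P, Pi, Q, Qi, hcell, htriv, hG0, hG, hPQ, -, hz⟩ := h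
  have hcells := gp_cells_of_pt (g := 0) (n := n)
    (fun k i => (gpE c d (gqSec (gqEmb (gtHN hn)) s) k i : R)) l p q l'
    (fun k h1 h2 => (hcell k h1 h2).1) htriv
  have hl'd : ∀ k i, l' k i i = (gpE c d (gqSec (gqEmb (gtHN hn)) s) k i : R) :=
    gtZLowAux_diag hN c d (gqSec (gqEmb (gtHN hn)) s) l p q l'
      (fun k h1 h2 => (hcell k h1 h2).1) htriv
  obtain ⟨-, -, -, hdetP, -, -, -⟩ :=
    gp_frames l p q l' G hcells hG0 hG (2 * 0 + (j : ℕ) + 1)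
  obtain ⟨-, -, -, -, -, hfrk, -⟩ := gp_frames l p q l' G hcells hG0 hG (2 * 0 + (j : ℕ))
  obtain ⟨hlam, hlam1, -, -, -, -, -, -⟩ := hcells (2 * 0 + (j : ℕ) + 1)
  obtain ⟨li, hli, hli1, hlli, -⟩ :=
    gpZCharAux_low_inv r (l (2 * 0 + (j : ℕ) + 1)) hlam hlam1
  obtain ⟨-, -, -, -, -, -, hl'low, -⟩ := hcells (2 * 0 + (j : ℕ))
  have hD : (Matrix.diagonal (fun i =>
      ((d j i * (gpE c d (gqSec (gqEmb (gtHN hn)) s) (2 * 0 + (j : ℕ)) i)⁻¹ : Rˣ) : R))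
      ).IsLowerTriangular := Matrix.blockTriangular_diagonal _
  have hLL : (li * l' (2 * 0 + (j : ℕ))).IsLowerTriangular :=
    Matrix.BlockTriangular.mul hli hl'low
  refine ⟨P (2 * 0 + (j : ℕ) + 1), Pi (2 * 0 + (j : ℕ) + 1),
    li * l' (2 * 0 + (j : ℕ)) * Matrix.diagonal (fun i =>
      ((d j i * (gpE c d (gqSec (gqEmb (gtHN hn)) s) (2 * 0 + (j : ℕ)) i)⁻¹ : Rˣ) : R)),
    (hPQ _).2.2.1, (hPQ _).2.2.2.1, ?_, Matrix.BlockTriangular.mul hLL hD, ?_, ?_⟩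
  · rw [(hPQ _).1]
    exact hdetP
  · intro i
    rw [gsTeleAux_diag_mul_low _ _ hLL hD, gsTeleAux_diag_mul_low _ _ hli hl'low, hli1, one_mul,
      Matrix.diagonal_apply_eq, hl'd, ← Units.val_mul]
    congr 1
    rw [mul_comm, mul_assoc, inv_mul_cancel, mul_one]
  · rw [hz j, mul_assoc, (hPQ _).2.2.2.1, mul_one, (hPQ (2 * 0 + (j : ℕ))).2.1,
      (hPQ (2 * 0 + (j : ℕ))).1, hfrk, (hPQ (2 * 0 + (j : ℕ) + 1)).1,
      mul_assoc (G (2 * 0 + (j : ℕ) + 1)) (l (2 * 0 + (j : ℕ) + 1)),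
      ← mul_assoc (l (2 * 0 + (j : ℕ) + 1)), ← mul_assoc (l (2 * 0 + (j : ℕ) + 1)), hlli,
      one_mul, mul_assoc]

end Vale.Agent.Lib.P002
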