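import Vale.Agent.Lib.P002.GTPt
import Vale.Agent.Lib.P002.GTZLow

/-!
# Closed surfaces: the universal chart point, frames and the family

All objects are functions of the parameters.  The chart point and its lower triangular data
are specializations of universal objects over the ring `gtInt` of Laurent polynomial functions
with integer coefficients; the frames are the unipotent matrices diagonalizing the triangular
forms.
-/

open Matrix

noncomputable section

namespace Vale.Agent.Lib.P002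

theorem gt_univ_exists {n r : ℕ} (hn : 2 ≤ n) :
    ∃ z : Fin n → Matrix (Fin r) (Fin r) (gtInt (GtK0 n r)),
      gtIsPt hn (gtC gtIntT) (gtD gtIntT) (gtS gtIntT) z :=
  gtIsPt_exists hn _ _ (gtLast_prod _) (fun _ => gtLast_prod _) _

/-- The universal chart point, over the ring of Laurent polynomial functions with integer
coefficients. -/
def gtZU {n r : ℕ} (hn : 2 ≤ n) : Fin n → Matrix (Fin r) (Fin r) (gtInt (GtK0 n r)) :=
  Classical.choose (gt_univ_exists hn)

theorem gtZU_spec {n r : ℕ} (hn : 2 ≤ n) :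
    gtIsPt hn (gtC gtIntT) (gtD gtIntT) (gtS gtIntT) (gtZU (r := r) hn) :=
  Classical.choose_spec (gt_univ_exists hn)

theorem gt_low_exists {n r : ℕ} (hn : 2 ≤ n) (j : Fin n) :
    ∃ P Pi Λ : Matrix (Fin r) (Fin r) (gtInt (GtK0 n r)), P * Pi = 1 ∧ Pi * P = 1 ∧
      P.det = 1 ∧ Λ.IsLowerTriangular ∧
      (∀ i, Λ i i = ((gtD gtIntT j i : (gtInt (GtK0 n r))ˣ) : gtInt (GtK0 n r))) ∧
      gtZU hn j * P = P * Λ :=
  gt_zlow hn _ _ (gtLast_prod _) (fun _ => gtLast_prod _) _ _ (gtZU_spec hn) j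

/-- The universal conjugating matrix of the loop `z j`. -/
def gtPU {n r : ℕ} (hn : 2 ≤ n) (j : Fin n) : Matrix (Fin r) (Fin r) (gtInt (GtK0 n r)) :=
  Classical.choose (gt_low_exists hn j)

/-- Its inverse. -/
def gtPiU {n r : ℕ} (hn : 2 ≤ n) (j : Fin n) : Matrix (Fin r) (Fin r) (gtInt (GtK0 n r)) :=
  Classical.choose (Classical.choose_spec (gt_low_exists hn j))

/-- The universal lower triangular form of the loop `z j`. -/
def gtLU {n r : ℕ} (hn : 2 ≤ n) (j : Fin n) : Matrix (Fin r) (Fin r) (gtInt (GtK0 n r)) :=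
  Classical.choose (Classical.choose_spec (Classical.choose_spec (gt_low_exists hn j)))

theorem gtLow_spec {n r : ℕ} (hn : 2 ≤ n) (j : Fin n) :
    gtPU (r := r) hn j * gtPiU hn j = 1 ∧ gtPiU (r := r) hn j * gtPU hn j = 1 ∧
      (gtPU (r := r) hn j).det = 1 ∧ (gtLU (r := r) hn j).IsLowerTriangular ∧
      (∀ i, gtLU (r := r) hn j i i =
        ((gtD gtIntT j i : (gtInt (GtK0 n r))ˣ) : gtInt (GtK0 n r))) ∧
      gtZU (r := r) hn j * gtPU hn j = gtPU hn j * gtLU hn j :=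
  Classical.choose_spec (Classical.choose_spec (Classical.choose_spec (gt_low_exists hn j)))

/-- The chart point with parameters `θ`. -/
def gtZ {n r : ℕ} (hn : 2 ≤ n) (θ : GtK0 n r → ℂˣ) (j : Fin n) : Matrix (Fin r) (Fin r) ℂ :=
  (gtZU hn j).map (gtIntEv θ)

/-- The conjugating matrix of the loop `z j`. -/
def gtPm {n r : ℕ} (hn : 2 ≤ n) (θ : GtK0 n r → ℂˣ) (j : Fin n) : Matrix (Fin r) (Fin r) ℂ :=
  (gtPU hn j).map (gtIntEv θ)

/-- Its inverse. -/
def gtPim {n r : ℕ} (hn : 2 ≤ n) (θ : GtK0 n r → ℂˣ) (j : Fin n) : Matrix (Fin r) (Fin r) ℂ :=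
  (gtPiU hn j).map (gtIntEv θ)

/-- The lower triangular form of the loop `z j`. -/
def gtLm {n r : ℕ} (hn : 2 ≤ n) (θ : GtK0 n r → ℂˣ) (j : Fin n) : Matrix (Fin r) (Fin r) ℂ :=
  (gtLU hn j).map (gtIntEv θ)

/-- The total monodromy `z 0 * ⋯ * z (n - 1)`. -/
def gtW {n r : ℕ} (hn : 2 ≤ n) (θ : GtK0 n r → ℂˣ) : Matrix (Fin r) (Fin r) ℂ :=
  (List.ofFn (gtZ hn θ)).prod

open Classical in
/-- The frame of the total monodromy: the upper triangular matrix with unit diagonal whose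
columns are eigenvectors (`1` if there is none). -/
def gtFW {n r : ℕ} (hn : 2 ≤ n) (θ : GtK0 n r → ℂˣ) : Matrix (Fin r) (Fin r) ℂ :=
  if h : ∃ u : Matrix (Fin r) (Fin r) ℂ, u.IsUpperTriangular ∧ (∀ i, u i i = 1) ∧
      u * Matrix.diagonal (fun i => ((gtC θ i : ℂˣ) : ℂ)) = gtW hn θ * u
  then Classical.choose h else 1

open Classical in
/-- The lower triangular matrix with unit diagonal diagonalizing the lower triangular form of
the loop `z j` (`1` if there is none). -/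
def gtFL {n r : ℕ} (hn : 2 ≤ n) (θ : GtK0 n r → ℂˣ) (j : Fin n) : Matrix (Fin r) (Fin r) ℂ :=
  if h : ∃ v : Matrix (Fin r) (Fin r) ℂ, v.IsLowerTriangular ∧ (∀ i, v i i = 1) ∧
      v * Matrix.diagonal (fun i => ((gtD θ j i : ℂˣ) : ℂ)) = gtLm hn θ j * v
  then Classical.choose h else 1

/-- The frame of the loop `z j`: its columns are eigenvectors. -/
def gtFr {n r : ℕ} (hn : 2 ≤ n) (θ : GtK0 n r → ℂˣ) (j : Fin n) : Matrix (Fin r) (Fin r) ℂ :=
  gtPm hn θ j * gtFL hn θ j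

/-- The matrix conjugating the second chart point so that the total monodromies agree. -/
def gtU {n r : ℕ} (hn : 2 ≤ n) (θ : GtK n r → ℂˣ) : Matrix (Fin r) (Fin r) ℂ :=
  gtFW hn (gtP1 θ) * Matrix.diagonal (fun i => ((gtLam θ i : ℂˣ) : ℂ)) *
    (gtFW hn (gtP2 θ)).adjugate

/-- The matrix `σ j` conjugating the loop `z j` of the first chart point to the loop `z j` of
the conjugated second chart point. -/
def gtSg {n r : ℕ} (hn : 2 ≤ n) (θ : GtK n r → ℂˣ) (j : Fin n) : Matrix (Fin r) (Fin r) ℂ :=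
  gtU hn θ * gtFr hn (gtP2 θ) j * Matrix.diagonal (fun i => ((gtMu θ j i : ℂˣ) : ℂ)) *
    (gtFr hn (gtP1 θ) j).adjugate

/-- The loops of the first chart point in the special linear group. -/
def gtZs {n r : ℕ} (hn : 2 ≤ n) (θ : GtK n r → ℂˣ) (j : Fin n) :
    Matrix.SpecialLinearGroup (Fin r) ℂ :=
  gtSL (gtZ hn (gtP1 θ) j)

/-- The matrices `σ j` in the special linear group. -/
def gtSs {n r : ℕ} (hn : 2 ≤ n) (θ : GtK n r → ℂˣ) (j : Fin n) :
    Matrix.SpecialLinearGroup (Fin r) ℂ :=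
  gtSL (gtSg hn θ j)

/-- The standard generators `a j` of the closed surface group. -/
def gtA {n r : ℕ} (hn : 2 ≤ n) (θ : GtK n r → ℂˣ) (j : Fin n) :
    Matrix.SpecialLinearGroup (Fin r) ℂ :=
  gtPre (gtZs hn θ) j * gtSs hn θ j * (gtPre (gtZs hn θ) j)⁻¹

/-- The standard generators `b j` of the closed surface group. -/
def gtB {n r : ℕ} (hn : 2 ≤ n) (θ : GtK n r → ℂˣ) (j : Fin n) :
    Matrix.SpecialLinearGroup (Fin r) ℂ :=
  gtPre (gtZs hn θ) j * gtZs hn θ j * (gtPre (gtZs hn θ) j)⁻¹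

/-- `θ` is an integral parameter point: all coordinates are powers of `1 + √2`, the
discriminant does not vanish, the second chart parameters are congruent to the first ones and
the twist parameters are congruent to one modulo the `2 r`-th power of the discriminant. -/
def gtIntPt {n r : ℕ} (θ : GtK n r → ℂˣ) : Prop :=
  gtDisc (gtP1 θ) ≠ 0 ∧ (∀ v, θ v ∈ Subgroup.zpowers unitW) ∧
    (∀ w : GqIdx 0 n r, ∃ x ∈ gtO, ((θ (Sum.inr (Sum.inl w)) : ℂˣ) : ℂ) -
      ((θ (Sum.inl (Sum.inr (Sum.inr w))) : ℂˣ) : ℂ) = gtDisc (gtP1 θ) ^ (2 * r) * x) ∧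
    ∀ v : Fin (r - 1) ⊕ (Fin n × Fin (r - 1)), ∃ x ∈ gtO,
      ((θ (Sum.inr (Sum.inr v)) : ℂˣ) : ℂ) - 1 = gtDisc (gtP1 θ) ^ (2 * r) * x

open Classical in
/-- A nonzero complex number as a unit (`1` for `0`). -/
def gtUnit (x : ℂ) : ℂˣ := if h : x = 0 then 1 else Units.mk0 x h

/-- The parameter point with eigenvalue data `c, d` and remaining parameters `ϑ`. -/
def gtTheta {n r : ℕ} (c : Fin r → ℂ) (d : Fin n → Fin r → ℂ)
    (ϑ : GqIdx 0 n r ⊕ GtK2 n r → ℂˣ) : GtK n r → ℂˣ :=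
  Sum.elim
    (Sum.elim (fun i : Fin (r - 1) => gtUnit (c ⟨(i : ℕ), by have := i.isLt; omega⟩))
      (Sum.elim (fun v : Fin n × Fin (r - 1) =>
        gtUnit (d v.1 ⟨(v.2 : ℕ), by have := v.2.isLt; omega⟩)) (fun w => ϑ (Sum.inl w))))
    (fun v => ϑ (Sum.inr v))

/-- The point of the affine space of pairs of tuples of matrices given by `(a, b)`. -/
def gtPt {n r : ℕ} (a b : Fin n → Matrix (Fin r) (Fin r) ℂ) :
    (Fin n ⊕ Fin n) × Fin r × Fin r → ℂ :=
  fun v => Sum.elim a b v.1 v.2.1 v.2.2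

end Vale.Agent.Lib.P002

end
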