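import Vale.Agent.Lib.P002.GTDefs
import Vale.Agent.Lib.P002.GPExist
import Vale.Agent.Lib.P002.GPUnique
import Vale.Agent.Lib.P002.GPMap
import Vale.Agent.Lib.P002.GPDet
import Vale.Agent.Lib.P002.GQSec

/-!
# Chart points of the punctured sphere: existence, uniqueness, base change
-/

open Matrix

namespace Vale.Agent.Lib.P002

theorem gtPtAux_prod {G : Type*} [CommGroup G] {r m : ℕ} (hr : r = m + 1)
    (ε : Fin (r - 1) → G) : ∏ i, gtLast ε i = 1 := by
  subst hr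
  rw [Fin.prod_univ_castSucc]
  have h1 : ∀ i : Fin m, gtLast ε (Fin.castSucc i)
      = ε ⟨(i : ℕ), by have := i.isLt; omega⟩ := by
    intro i
    unfold gtLast
    rw [dif_pos (show ((Fin.castSucc i : Fin (m + 1)) : ℕ) < m + 1 - 1 by
      have := i.isLt
      simp only [Fin.val_castSucc]
      omega)]
    rfl
  have h2 : ∏ i : Fin m, gtLast ε (Fin.castSucc i) = ∏ k, ε k := by
    refine Fintype.prod_equiv (finCongr (by omega : m = m + 1 - 1)) _ _ (fun i => ?_)
    rw [h1 i]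
    rfl
  have h3 : gtLast ε (Fin.last m) = (∏ k, ε k)⁻¹ := by
    unfold gtLast
    rw [dif_neg (show ¬ ((Fin.last m : Fin (m + 1)) : ℕ) < m + 1 - 1 by
      simp only [Fin.val_last]
      omega)]
  rw [h2, h3, mul_inv_cancel]

theorem gtPtAux_surj {G : Type*} [CommGroup G] {r m : ℕ} (hr : r = m + 1) (e : Fin r → G)
    (h : ∏ i, e i = 1) :
    gtLast (fun k : Fin (r - 1) => e ⟨(k : ℕ), by have := k.isLt; omega⟩) = e := by
  subst hr
  funext i
  unfold gtLast
  by_cases hi : (i : ℕ) < m + 1 - 1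
  · rw [dif_pos hi]
  · rw [dif_neg hi]
    have hi' : i = Fin.last m := by
      apply Fin.ext
      have := i.isLt
      simp only [Fin.val_last]
      omega
    rw [Fin.prod_univ_castSucc] at h
    have h2 : ∏ k : Fin (m + 1 - 1), e ⟨(k : ℕ), by have := k.isLt; omega⟩
        = ∏ k : Fin m, e (Fin.castSucc k) := by
      refine Fintype.prod_equiv (finCongr (by omega : m + 1 - 1 = m)) _ _ (fun k => ?_)
      rfl
    rw [h2, hi']
    exact inv_eq_of_mul_eq_one_right h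

theorem gtLast_prod {G : Type*} [CommGroup G] {r : ℕ} (ε : Fin (r - 1) → G) :
    ∏ i, gtLast ε i = 1 := by
  rcases Nat.eq_zero_or_pos r with hr | hr
  · subst hr
    exact Fin.prod_univ_zero _
  · obtain ⟨m, hm⟩ : ∃ m, r = m + 1 := ⟨r - 1, by omega⟩
    exact gtPtAux_prod hm ε

theorem gtLast_map {G H : Type*} [CommGroup G] [CommGroup H] (f : G →* H) {r : ℕ}
    (ε : Fin (r - 1) → G) (i : Fin r) : f (gtLast ε i) = gtLast (fun k => f (ε k)) i := by
  unfold gtLast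
  by_cases h : (i : ℕ) < r - 1
  · rw [dif_pos h, dif_pos h]
  · rw [dif_neg h, dif_neg h, map_inv, map_prod]

/-- Every tuple with product one is of the form `gtLast`. -/
theorem gtLast_surj {G : Type*} [CommGroup G] {r : ℕ} (e : Fin r → G) (h : ∏ i, e i = 1) :
    gtLast (fun k : Fin (r - 1) => e ⟨(k : ℕ), by have := k.isLt; omega⟩) = e := by
  rcases Nat.eq_zero_or_pos r with hr | hr
  · subst hr
    funext i
    exact i.elim0
  · obtain ⟨m, hm⟩ : ∃ m, r = m + 1 := ⟨r - 1, by omega⟩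
    exact gtPtAux_surj hm e h

theorem gtIsPt_exists {R : Type*} [CommRing R] {n r : ℕ} (hn : 2 ≤ n) (c : Fin r → Rˣ)
    (d : Fin n → Fin r → Rˣ) (hc : ∏ i, c i = 1) (hd : ∀ j, ∏ i, d j i = 1)
    (s : GqIdx 0 n r → Rˣ) : ∃ z : Fin n → Matrix (Fin r) (Fin r) R, gtIsPt hn c d s z := by
  obtain ⟨x, y, z, h⟩ := gpIsPt_exists (gtHN hn) c d hc hd (gqSec (gqEmb (gtHN hn)) s)
  refine ⟨z, ?_⟩
  have hx : x = fun _ : Fin 0 => (1 : Matrix (Fin r) (Fin r) R) := funext fun k => k.elim0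
  have hy : y = fun _ : Fin 0 => (1 : Matrix (Fin r) (Fin r) R) := funext fun k => k.elim0
  rw [hx, hy] at h
  exact h

theorem gtIsPt_unique {R : Type*} [CommRing R] {n r : ℕ} (hn : 2 ≤ n) (c : Fin r → Rˣ)
    (d : Fin n → Fin r → Rˣ) (s : GqIdx 0 n r → Rˣ) {z z' : Fin n → Matrix (Fin r) (Fin r) R}
    (h : gtIsPt hn c d s z) (h' : gtIsPt hn c d s z') : z = z' :=
  (gpIsPt_unique c d (gqSec (gqEmb (gtHN hn)) s) h h').2.2

theorem gtIsPt.map {R S : Type*} [CommRing R] [CommRing S] (f : R →+* S) {n r : ℕ}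
    {hn : 2 ≤ n} {c : Fin r → Rˣ} {d : Fin n → Fin r → Rˣ} {s : GqIdx 0 n r → Rˣ}
    {z : Fin n → Matrix (Fin r) (Fin r) R} (h : gtIsPt hn c d s z) :
    gtIsPt hn (fun i => Units.map (f : R →* S) (c i))
      (fun j i => Units.map (f : R →* S) (d j i)) (fun w => Units.map (f : R →* S) (s w))
      (fun j => (z j).map f) := by
  unfold gtIsPt at h ⊢
  have h1 := gpIsPt.map f h
  have e1 : gqSec (gqEmb (gtHN hn)) (fun w => Units.map (f : R →* S) (s w))
      = fun w => Units.map (f : R →* S) (gqSec (gqEmb (gtHN hn)) s w) :=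
    funext fun w => (gqSec_map (Units.map (f : R →* S)) (gqEmb (gtHN hn)) s w).symm
  have e2 : ∀ a b : Fin 0 → Matrix (Fin r) (Fin r) S, a = b :=
    fun a b => funext fun k => k.elim0
  rw [e1, e2 (fun _ : Fin 0 => (1 : Matrix (Fin r) (Fin r) S))
    (fun k => ((fun _ : Fin 0 => (1 : Matrix (Fin r) (Fin r) R)) k).map f)]
  exact h1

theorem gtIsPt_det {R : Type*} [CommRing R] {n r : ℕ} (hn : 2 ≤ n) (c : Fin r → Rˣ)
    (d : Fin n → Fin r → Rˣ) (hc : ∏ i, c i = 1) (hd : ∀ j, ∏ i, d j i = 1)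
    (s : GqIdx 0 n r → Rˣ) {z : Fin n → Matrix (Fin r) (Fin r) R} (h : gtIsPt hn c d s z)
    (j : Fin n) : (z j).det = 1 :=
  (gpIsPt_det (gtHN hn) c d hc hd (gqSec (gqEmb (gtHN hn)) s) h).2 j

end Vale.Agent.Lib.P002
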