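import Vale.Agent.Lib.P002.GTDefs

/-!
# Restriction of an element of `gtRat PD` to a slice with fixed first block
-/

namespace Vale.Agent.Lib.P002

/-- The substitution fixing the first block of variables at the point `e`. -/
noncomputable def gtSliceAux_sub {κ0 κ2 : Type} (e : κ0 → ℂˣ) :
    (κ0 ⊕ κ2) ⊕ (κ0 ⊕ κ2) → MvPolynomial (κ2 ⊕ κ2) ℂ :=
  Sum.elim
    (Sum.elim (fun v => MvPolynomial.C ((e v : ℂˣ) : ℂ)) (fun w => MvPolynomial.X (Sum.inl w)))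
    (Sum.elim (fun v => MvPolynomial.C (((e v)⁻¹ : ℂˣ) : ℂ))
      (fun w => MvPolynomial.X (Sum.inr w)))

theorem gtSliceAux_eval {κ0 κ2 : Type} (e : κ0 → ℂˣ) (ϑ : κ2 → ℂˣ)
    (P0 : MvPolynomial ((κ0 ⊕ κ2) ⊕ (κ0 ⊕ κ2)) ℂ) :
    gtEval ϑ (MvPolynomial.bind₁ (gtSliceAux_sub e) P0) = gtEval (Sum.elim e ϑ) P0 := by
  unfold gtEval
  rw [MvPolynomial.hom_bind₁]
  have hC : (MvPolynomial.eval
      (Sum.elim (fun i => ((ϑ i : ℂˣ) : ℂ)) (fun i => (((ϑ i)⁻¹ : ℂˣ) : ℂ)))).comp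
      MvPolynomial.C = RingHom.id ℂ := by
    ext x
    simp
  have hpt : (fun i => MvPolynomial.eval
      (Sum.elim (fun i => ((ϑ i : ℂˣ) : ℂ)) (fun i => (((ϑ i)⁻¹ : ℂˣ) : ℂ)))
      (gtSliceAux_sub e i)) =
      Sum.elim (fun i => ((Sum.elim e ϑ i : ℂˣ) : ℂ))
        (fun i => (((Sum.elim e ϑ i)⁻¹ : ℂˣ) : ℂ)) := by
    funext i
    rcases i with (v | w) | (v | w) <;> simp [gtSliceAux_sub]
  rw [hC, hpt]
  rfl

/-- If the discriminant depends only on the first block of parameters, the restriction of an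
element of `gtRat PD` to the slice where the first block is a fixed point `e` of the locus is
a Laurent polynomial in the second block. -/
theorem gt_slice {κ0 κ2 : Type} [Fintype κ0] [Fintype κ2]
    (PD : MvPolynomial ((κ0 ⊕ κ2) ⊕ (κ0 ⊕ κ2)) ℂ)
    (hPD : ∀ θ θ' : κ0 ⊕ κ2 → ℂˣ, (∀ v, θ (Sum.inl v) = θ' (Sum.inl v)) →
      gtEval θ PD = gtEval θ' PD)
    (h : {θ : κ0 ⊕ κ2 → ℂˣ // gtEval θ PD ≠ 0} → ℂ) (hh : h ∈ gtRat PD) (e : κ0 → ℂˣ)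
    (he : ∀ ϑ : κ2 → ℂˣ, gtEval (Sum.elim e ϑ) PD ≠ 0) :
    ∃ P : MvPolynomial (κ2 ⊕ κ2) ℂ, ∀ ϑ : κ2 → ℂˣ, h ⟨Sum.elim e ϑ, he ϑ⟩ = gtEval ϑ P := by
  obtain ⟨M, P0, hP0⟩ := hh
  set D : ℂ := gtEval (Sum.elim e (fun _ : κ2 => (1 : ℂˣ))) PD with hD
  have hD0 : D ≠ 0 := he _
  have hDeq : ∀ ϑ : κ2 → ℂˣ, gtEval (Sum.elim e ϑ) PD = D := fun ϑ =>
    hPD _ _ (fun v => rfl)
  refine ⟨MvPolynomial.C (D⁻¹ ^ M) * MvPolynomial.bind₁ (gtSliceAux_sub e) P0, fun ϑ => ?_⟩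
  have h1 := hP0 ⟨Sum.elim e ϑ, he ϑ⟩
  simp only at h1
  rw [hDeq ϑ] at h1
  rw [map_mul, gtSliceAux_eval, ← h1]
  have hC : gtEval ϑ (MvPolynomial.C (D⁻¹ ^ M)) = D⁻¹ ^ M := by
    simp [gtEval]
  rw [hC, ← mul_assoc, ← mul_pow, inv_mul_cancel₀ hD0, one_pow, one_mul]

end Vale.Agent.Lib.P002
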