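import Vale.Agent.Lib.P002.GTObj
import Vale.Agent.Lib.P002.GTApex

/-!
# Specializations of the universal chart point and of its triangular data
-/

open Matrix

namespace Vale.Agent.Lib.P002

/-- The coordinate units specialize to the coordinates of the point. -/
theorem gtSpecAux_T {κ : Type} (θ : κ → ℂˣ) (v : κ) :
    Units.map (gtIntEv θ : gtInt κ →* ℂ) (gtIntT v) = θ v := by
  apply Units.ext
  rw [Units.coe_map]
  exact gtIntEv_T θ v

theorem gtC_ev {n r : ℕ} (θ : GtK0 n r → ℂˣ) (i : Fin r) :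
    Units.map (gtIntEv θ : gtInt (GtK0 n r) →* ℂ) (gtC gtIntT i) = gtC θ i := by
  unfold gtC
  rw [gtLast_map (Units.map (gtIntEv θ : gtInt (GtK0 n r) →* ℂ))]
  congr 1
  funext k
  exact gtSpecAux_T θ _

theorem gtD_ev {n r : ℕ} (θ : GtK0 n r → ℂˣ) (j : Fin n) (i : Fin r) :
    Units.map (gtIntEv θ : gtInt (GtK0 n r) →* ℂ) (gtD gtIntT j i) = gtD θ j i := by
  unfold gtD
  rw [gtLast_map (Units.map (gtIntEv θ : gtInt (GtK0 n r) →* ℂ))]
  congr 1
  funext k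
  exact gtSpecAux_T θ _

theorem gtS_ev {n r : ℕ} (θ : GtK0 n r → ℂˣ) (w : GqIdx 0 n r) :
    Units.map (gtIntEv θ : gtInt (GtK0 n r) →* ℂ) (gtS gtIntT w) = gtS θ w := by
  unfold gtS
  exact gtSpecAux_T θ _

/-- `gtZ hn θ` is the chart point with eigenvalue data `gtC θ, gtD θ` and parameters `gtS θ`. -/
theorem gtZ_pt {n r : ℕ} (hn : 2 ≤ n) (θ : GtK0 n r → ℂˣ) :
    gtIsPt hn (gtC θ) (gtD θ) (gtS θ) (gtZ hn θ) := by
  have h := (gtZU_spec (r := r) hn).map (gtIntEv θ)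
  have e1 : (fun i => Units.map (gtIntEv θ : gtInt (GtK0 n r) →* ℂ) (gtC gtIntT i))
      = gtC θ := funext fun i => gtC_ev θ i
  have e2 : (fun j i => Units.map (gtIntEv θ : gtInt (GtK0 n r) →* ℂ) (gtD gtIntT j i))
      = gtD θ := funext fun j => funext fun i => gtD_ev θ j i
  have e3 : (fun w => Units.map (gtIntEv θ : gtInt (GtK0 n r) →* ℂ) (gtS gtIntT w))
      = gtS θ := funext fun w => gtS_ev θ w
  rw [e1, e2, e3] at h
  exact h

theorem gtZ_det {n r : ℕ} (hn : 2 ≤ n) (θ : GtK0 n r → ℂˣ) (j : Fin n) :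
    (gtZ hn θ j).det = 1 :=
  gtIsPt_det hn (gtC θ) (gtD θ) (gtLast_prod _) (fun _ => gtLast_prod _) (gtS θ)
    (gtZ_pt hn θ) j

/-- The total monodromy is upper triangular with diagonal `gtC θ`. -/
theorem gtW_tri {n r : ℕ} (hn : 2 ≤ n) (θ : GtK0 n r → ℂˣ) :
    (gtW hn θ).IsUpperTriangular ∧ ∀ i, gtW hn θ i i = ((gtC θ i : ℂˣ) : ℂ) :=
  gt_apex hn (gtC θ) (gtD θ) (gtLast_prod _) (fun _ => gtLast_prod _) (gtS θ) (gtZ hn θ)
    (gtZ_pt hn θ)

/-- The loop `z j` is conjugate to the lower triangular matrix `gtLm hn θ j` with diagonal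
`gtD θ j`. -/
theorem gtLow_pt {n r : ℕ} (hn : 2 ≤ n) (θ : GtK0 n r → ℂˣ) (j : Fin n) :
    gtPm hn θ j * gtPim hn θ j = 1 ∧ gtPim hn θ j * gtPm hn θ j = 1 ∧
      (gtPm hn θ j).det = 1 ∧ (gtLm hn θ j).IsLowerTriangular ∧
      (∀ i, gtLm hn θ j i i = ((gtD θ j i : ℂˣ) : ℂ)) ∧
      gtZ hn θ j * gtPm hn θ j = gtPm hn θ j * gtLm hn θ j := by
  obtain ⟨h1, h2, h3, h4, h5, h6⟩ := gtLow_spec (r := r) hn j
  have hone : (1 : Matrix (Fin r) (Fin r) (gtInt (GtK0 n r))).map (gtIntEv θ) = 1 :=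
    Matrix.map_one _ (map_zero _) (map_one _)
  refine ⟨?_, ?_, ?_, ?_, ?_, ?_⟩
  · unfold gtPm gtPim
    rw [← Matrix.map_mul, h1, hone]
  · unfold gtPm gtPim
    rw [← Matrix.map_mul, h2, hone]
  · unfold gtPm
    have e := RingHom.map_det (gtIntEv θ) (gtPU (r := r) hn j)
    rw [h3, map_one] at e
    exact e.symm
  · unfold gtLm
    exact h4.map (gtIntEv θ)
  · intro i
    unfold gtLm
    rw [Matrix.map_apply, h5 i, ← gtD_ev θ j i, Units.coe_map]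
    rfl
  · unfold gtZ gtPm gtLm
    rw [← Matrix.map_mul, ← Matrix.map_mul, h6]

end Vale.Agent.Lib.P002
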