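import Mathlib

/-!
# Simultaneous triangularization of commuting complex matrices
-/

open Module

namespace Vale.Agent.Lib.P002

universe u

/-- A finite commuting family of endomorphisms of a nonzero finite-dimensional complex vector
space has a common eigenvector. -/
theorem exists_common_eigenvector {V : Type u} [AddCommGroup V] [Module ℂ V]
    [FiniteDimensional ℂ V] [Nontrivial V] {ι : Type*} [Fintype ι]
    (f : ι → Module.End ℂ V) (hf : ∀ i j, Commute (f i) (f j)) :
    ∃ v : V, v ≠ 0 ∧ ∃ μ : ι → ℂ, ∀ i, f i v = μ i • v := by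
  classical
  have key : ∀ s : Finset ι, ∃ E : Submodule ℂ V, E ≠ ⊥ ∧ (∀ j, ∀ x ∈ E, f j x ∈ E) ∧
      ∀ i ∈ s, ∃ μ : ℂ, ∀ x ∈ E, f i x = μ • x := by
    intro s
    induction s using Finset.induction_on with
    | empty => exact ⟨⊤, top_ne_bot, fun _ _ _ => trivial, by simp⟩
    | insert a s ha ih =>
      obtain ⟨E, hE0, hEinv, hEs⟩ := ih
      have hmaps : ∀ x ∈ E, f a x ∈ E := hEinv a
      have : Nontrivial E := Submodule.nontrivial_iff_ne_bot.mpr hE0
      obtain ⟨μ, hμ⟩ := Module.End.exists_eigenvalue ((f a).restrict hmaps)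
      obtain ⟨w, hw⟩ := hμ.exists_hasEigenvector
      have hw1 : (f a).restrict hmaps w = μ • w := hw.apply_eq_smul
      have hw2 : f a (w : V) = μ • (w : V) := by
        have := congrArg (Subtype.val) hw1
        simpa using this
      refine ⟨E ⊓ LinearMap.ker (f a - μ • LinearMap.id), ?_, ?_, ?_⟩
      · intro h
        have hmem : (w : V) ∈ E ⊓ LinearMap.ker (f a - μ • LinearMap.id) := by
          refine ⟨w.2, ?_⟩
          simp [LinearMap.mem_ker, hw2]
        rw [h, Submodule.mem_bot] at hmem
        exact hw.2 (Subtype.ext hmem)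
      · intro j x hx
        refine ⟨hEinv j x hx.1, ?_⟩
        have hx2 : f a x = μ • x := by
          have := hx.2
          simpa [LinearMap.mem_ker, sub_eq_zero] using this
        have hc : f a (f j x) = f j (f a x) := by
          have := (hf a j).eq
          exact congrArg (fun g : Module.End ℂ V => g x) this
        simp [LinearMap.mem_ker, hc, hx2]
      · intro i hi
        rcases Finset.mem_insert.mp hi with rfl | hi
        · refine ⟨μ, fun x hx => ?_⟩
          have := hx.2
          simpa [LinearMap.mem_ker, sub_eq_zero] using this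
        · obtain ⟨ν, hν⟩ := hEs i hi
          exact ⟨ν, fun x hx => hν x hx.1⟩
  obtain ⟨E, hE0, -, hE⟩ := key Finset.univ
  obtain ⟨v, hvE, hv0⟩ := (Submodule.ne_bot_iff E).mp hE0
  choose μ hμ using fun i => hE i (Finset.mem_univ i)
  exact ⟨v, hv0, μ, fun i => hμ i v hvE⟩

/-- A finite commuting family of endomorphisms of a finite-dimensional complex vector space
is simultaneously upper triangular in a suitable basis. -/
theorem exists_triangular_basis {ι : Type*} [Fintype ι] :
    ∀ (d : ℕ) (V : Type u) [AddCommGroup V] [Module ℂ V] [FiniteDimensional ℂ V]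
      (_ : finrank ℂ V = d) (f : ι → Module.End ℂ V) (_ : ∀ i j, Commute (f i) (f j)),
      ∃ b : Basis (Fin d) ℂ V, ∀ i k, f i (b k) ∈ Submodule.span ℂ (b '' {j | j ≤ k}) := by
  intro d
  induction d with
  | zero =>
    intro V _ _ _ hd f _
    exact ⟨finBasisOfFinrankEq ℂ V hd, fun i k => k.elim0⟩
  | succ d ih =>
    intro V _ _ _ hd f hf
    have : Nontrivial V := Module.nontrivial_of_finrank_pos (R := ℂ) (by omega)
    -- a common eigenvector of the dual maps
    have hdual : ∀ i j, Commute ((f i).dualMap) ((f j).dualMap) := by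
      intro i j
      have h1 : (f i).dualMap * (f j).dualMap = ((f j) * (f i)).dualMap := rfl
      have h2 : (f j).dualMap * (f i).dualMap = ((f i) * (f j)).dualMap := rfl
      show (f i).dualMap * (f j).dualMap = (f j).dualMap * (f i).dualMap
      rw [h1, h2, (hf i j).eq]
    obtain ⟨φ, hφ0, μ, hφ⟩ := exists_common_eigenvector (fun i => (f i).dualMap) hdual
    have hφ' : ∀ i x, φ (f i x) = μ i * φ x := by
      intro i x
      have := congrArg (fun ψ : Module.Dual ℂ V => ψ x) (hφ i)
      simpa using this
    -- the invariant hyperplane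
    have hH : ∀ i, ∀ x ∈ LinearMap.ker φ, f i x ∈ LinearMap.ker φ := by
      intro i x hx
      rw [LinearMap.mem_ker] at hx ⊢
      rw [hφ' i x, hx, mul_zero]
    have hrank : finrank ℂ (LinearMap.ker φ) = d := by
      have := Module.Dual.finrank_ker_add_one_of_ne_zero hφ0
      omega
    have hcomm : ∀ i j, Commute ((f i).restrict (hH i)) ((f j).restrict (hH j)) := by
      intro i j
      apply LinearMap.ext
      intro x
      apply Subtype.ext
      have := congrArg (fun g : Module.End ℂ V => g (x : V)) (hf i j).eq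
      simpa using this
    obtain ⟨c, hc⟩ := ih (LinearMap.ker φ) hrank (fun i => (f i).restrict (hH i)) hcomm
    -- a vector outside the hyperplane
    obtain ⟨y, hy⟩ : ∃ y, φ y ≠ 0 := by
      by_contra hcon
      push Not at hcon
      exact hφ0 (LinearMap.ext hcon)
    have hli : ∀ (a : ℂ), ∀ x ∈ LinearMap.ker φ, a • y + x = 0 → a = 0 := by
      intro a x hx h
      have h1 := congrArg φ h
      rw [map_add, map_smul, LinearMap.mem_ker.mp hx, map_zero, add_zero, smul_eq_mul] at h1
      exact (mul_eq_zero.mp h1).resolve_right hy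
    have hsp : ∀ z : V, ∃ a : ℂ, z + a • y ∈ LinearMap.ker φ := by
      intro z
      refine ⟨-(φ z / φ y), ?_⟩
      rw [LinearMap.mem_ker, map_add, map_smul, smul_eq_mul]
      field_simp
      ring
    refine ⟨Basis.mkFinSnoc c y hli hsp, fun i k => ?_⟩
    rw [Basis.coe_mkFinSnoc]
    induction k using Fin.lastCases with
    | last =>
      have htop : Submodule.span ℂ
          ((Fin.snoc (fun j => ((c j : LinearMap.ker φ) : V)) y : Fin (d + 1) → V) ''
            {j | j ≤ Fin.last d}) = ⊤ := by
        have h1 : {j : Fin (d + 1) | j ≤ Fin.last d} = Set.univ := by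
          ext j
          simp [Fin.le_last]
        rw [h1, Set.image_univ]
        have := (Basis.mkFinSnoc c y hli hsp).span_eq
        rw [Basis.coe_mkFinSnoc] at this
        exact this
      show f i _ ∈ Submodule.span ℂ
          ((Fin.snoc (fun j => ((c j : LinearMap.ker φ) : V)) y : Fin (d + 1) → V) ''
            {j | j ≤ Fin.last d})
      rw [htop]
      exact Submodule.mem_top
    | cast k =>
      have h1 : (Fin.snoc (fun j => ((c j : LinearMap.ker φ) : V)) y : Fin (d + 1) → V)
          k.castSucc = (c k : V) := by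
        simp [Fin.snoc_castSucc]
      show f i ((Fin.snoc (fun j => ((c j : LinearMap.ker φ) : V)) y : Fin (d + 1) → V)
          k.castSucc) ∈ Submodule.span ℂ
          ((Fin.snoc (fun j => ((c j : LinearMap.ker φ) : V)) y : Fin (d + 1) → V) ''
            {j | j ≤ k.castSucc})
      rw [h1]
      have h2 : f i (c k : V) = (((f i).restrict (hH i)) (c k) : V) := rfl
      rw [h2]
      have h3 := Submodule.mem_map_of_mem (f := (LinearMap.ker φ).subtype) (hc i k)
      rw [Submodule.map_span] at h3
      refine Submodule.span_mono ?_ h3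
      rintro _ ⟨_, ⟨j, hj, rfl⟩, rfl⟩
      refine ⟨j.castSucc, ?_, ?_⟩
      · exact Fin.castSucc_le_castSucc_iff.mpr hj
      · simp [Fin.snoc_castSucc]

/-- Pairwise commuting complex matrices are simultaneously conjugate to upper triangular
matrices. -/
theorem exists_triangularizing_matrices {n r : ℕ} (A : Fin n → Matrix (Fin r) (Fin r) ℂ)
    (hA : ∀ i j, A i * A j = A j * A i) :
    ∃ P Q : Matrix (Fin r) (Fin r) ℂ, P * Q = 1 ∧ Q * P = 1 ∧
      ∀ i a k, k < a → (Q * A i * P) a k = 0 := by
  have hcomm : ∀ i j, Commute (Matrix.toLin' (A i)) (Matrix.toLin' (A j)) := by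
    intro i j
    show Matrix.toLin' (A i) ∘ₗ Matrix.toLin' (A j) = Matrix.toLin' (A j) ∘ₗ Matrix.toLin' (A i)
    rw [← Matrix.toLin'_mul, ← Matrix.toLin'_mul, hA]
  obtain ⟨b, hb⟩ := exists_triangular_basis r (Fin r → ℂ) (Module.finrank_fin_fun ℂ)
    (fun i => Matrix.toLin' (A i)) hcomm
  refine ⟨(Pi.basisFun ℂ (Fin r)).toMatrix b, b.toMatrix (Pi.basisFun ℂ (Fin r)),
    Basis.toMatrix_mul_toMatrix_flip _ _, Basis.toMatrix_mul_toMatrix_flip _ _, ?_⟩
  intro i a k hka
  have h1 : b.toMatrix (Pi.basisFun ℂ (Fin r)) * A i * (Pi.basisFun ℂ (Fin r)).toMatrix b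
      = LinearMap.toMatrix b b (Matrix.toLin' (A i)) := by
    have := basis_toMatrix_mul_linearMap_toMatrix_mul_basis_toMatrix b (Pi.basisFun ℂ (Fin r))
      b (Pi.basisFun ℂ (Fin r)) (Matrix.toLin' (A i))
    rw [← this, LinearMap.toMatrix_eq_toMatrix', LinearMap.toMatrix'_toLin']
  rw [h1, LinearMap.toMatrix_apply]
  by_contra hne
  have hsub := Basis.repr_support_subset_of_mem_span b _ (hb i k)
  have hmem : a ∈ {j | j ≤ k} := hsub (Finsupp.mem_support_iff.mpr hne)
  exact absurd hmem (not_le.mpr hka)

end Vale.Agent.Lib.P002
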