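import Vale.Agent.Lib.P002.Grid
import Vale.Agent.Lib.P002.Triangular

/-!
# Degeneration to the diagonal part, and the density theorem for `ℤ^n`
-/

open Polynomial

namespace Vale.Agent.Lib.P002

variable {n r : ℕ}

/-- `f : ℂ → ℂ` is a polynomial function. -/
def IsPolyFun (f : ℂ → ℂ) : Prop := ∃ q : ℂ[X], ∀ τ, f τ = q.eval τ

theorem isPolyFun_const (c : ℂ) : IsPolyFun (fun _ => c) := ⟨C c, fun τ => by simp⟩

theorem isPolyFun_monomial (c : ℂ) (k : ℕ) : IsPolyFun (fun τ => c * τ ^ k) :=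
  ⟨C c * X ^ k, fun τ => by simp⟩

theorem IsPolyFun.add {f g : ℂ → ℂ} (hf : IsPolyFun f) (hg : IsPolyFun g) :
    IsPolyFun (fun τ => f τ + g τ) := by
  obtain ⟨p, hp⟩ := hf
  obtain ⟨q, hq⟩ := hg
  exact ⟨p + q, fun τ => by simp [hp, hq]⟩

theorem IsPolyFun.mul {f g : ℂ → ℂ} (hf : IsPolyFun f) (hg : IsPolyFun g) :
    IsPolyFun (fun τ => f τ * g τ) := by
  obtain ⟨p, hp⟩ := hf
  obtain ⟨q, hq⟩ := hg
  exact ⟨p * q, fun τ => by simp [hp, hq]⟩

theorem IsPolyFun.eval_mvPolynomial {σ : Type*} (x : ℂ → σ → ℂ)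
    (hx : ∀ v, IsPolyFun (fun τ => x τ v)) (F : MvPolynomial σ ℂ) :
    IsPolyFun (fun τ => MvPolynomial.eval (x τ) F) := by
  induction F using MvPolynomial.induction_on with
  | C a => simpa using isPolyFun_const a
  | add p q hp hq => simpa using hp.add hq
  | mul_X p v hp => simpa using hp.mul (hx v)

/-- A polynomial function which is constant away from `0` takes the same value at `0`. -/
theorem IsPolyFun.eq_of_eq_on_ne_zero {f : ℂ → ℂ} (hf : IsPolyFun f) (y : ℂ)
    (h : ∀ τ, τ ≠ 0 → f τ = y) : f 0 = y := by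
  obtain ⟨q, hq⟩ := hf
  have hq0 : q - C y = 0 := by
    apply Polynomial.eq_zero_of_infinite_isRoot
    have hinf : ({0}ᶜ : Set ℂ).Infinite := (Set.finite_singleton (0 : ℂ)).infinite_compl
    refine hinf.mono ?_
    intro τ hτ
    have hτ0 : τ ≠ 0 := by simpa using hτ
    show (q - C y).IsRoot τ
    rw [Polynomial.IsRoot, eval_sub, eval_C, ← hq τ, h τ hτ0, sub_self]
  rw [hq 0, sub_eq_zero.mp hq0, eval_C]

/-- Invariance under conjugation by `SL_r(ℂ)` implies invariance under conjugation by any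
invertible matrix. -/
theorem eval_conj_eq (F : MvPolynomial (Fin n × Fin r × Fin r) ℂ)
    (Hinv : ∀ (ρ : Multiplicative (Fin n → ℤ) →* Matrix.SpecialLinearGroup (Fin r) ℂ)
        (h : Matrix.SpecialLinearGroup (Fin r) ℂ),
        MvPolynomial.eval
            (fun p => (h * ρ (Multiplicative.ofAdd (Pi.single p.1 (1 : ℤ))) * h⁻¹).1 p.2.1 p.2.2) F
          = MvPolynomial.eval
            (fun p => (ρ (Multiplicative.ofAdd (Pi.single p.1 (1 : ℤ)))).1 p.2.1 p.2.2) F)
    (ρ : Multiplicative (Fin n → ℤ) →* Matrix.SpecialLinearGroup (Fin r) ℂ)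
    (P Q : Matrix (Fin r) (Fin r) ℂ) (hPQ : P * Q = 1) (hQP : Q * P = 1) :
    MvPolynomial.eval
        (fun p => (Q * (ρ (Multiplicative.ofAdd (Pi.single p.1 (1 : ℤ)))).1 * P) p.2.1 p.2.2) F
      = MvPolynomial.eval
        (fun p => (ρ (Multiplicative.ofAdd (Pi.single p.1 (1 : ℤ)))).1 p.2.1 p.2.2) F := by
  rcases r with _ | m
  · exact congrArg (fun x => MvPolynomial.eval x F) (funext fun p => p.2.1.elim0)
  · have hdet : Q.det * P.det = 1 := by rw [← Matrix.det_mul, hQP, Matrix.det_one]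
    have hdetQ : Q.det ≠ 0 := left_ne_zero_of_mul_eq_one hdet
    obtain ⟨c, hc⟩ := IsAlgClosed.exists_pow_nat_eq Q.det (Nat.succ_pos m)
    have hc0 : c ≠ 0 := by
      rintro rfl
      rw [zero_pow (Nat.succ_ne_zero m)] at hc
      exact hdetQ hc.symm
    let h : Matrix.SpecialLinearGroup (Fin (m + 1)) ℂ := ⟨c⁻¹ • Q, by
      rw [Matrix.det_smul, Fintype.card_fin, inv_pow, hc, inv_mul_cancel₀ hdetQ]⟩
    let h' : Matrix.SpecialLinearGroup (Fin (m + 1)) ℂ := ⟨c • P, by
      rw [Matrix.det_smul, Fintype.card_fin, hc, hdet]⟩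
    have hh' : h * h' = 1 := by
      apply Subtype.ext
      show (c⁻¹ • Q) * (c • P) = 1
      rw [smul_mul_smul_comm, hQP, inv_mul_cancel₀ hc0, one_smul]
    have hinv : h⁻¹ = h' := inv_eq_of_mul_eq_one_right hh'
    have hval : ∀ g : Matrix.SpecialLinearGroup (Fin (m + 1)) ℂ,
        (h * g * h').1 = Q * g.1 * P := by
      intro g
      have e1 : (h * g * h').1 = h.1 * g.1 * h'.1 := by
        rw [Matrix.SpecialLinearGroup.coe_mul, Matrix.SpecialLinearGroup.coe_mul]
      have e2 : h.1 = c⁻¹ • Q := rfl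
      have e3 : h'.1 = c • P := rfl
      rw [e1, e2, e3, Matrix.smul_mul, Matrix.smul_mul, Matrix.mul_smul, smul_smul,
        inv_mul_cancel₀ hc0, one_smul]
    have key := Hinv ρ h
    rw [hinv] at key
    rw [← key]
    refine congrArg (fun x => MvPolynomial.eval x F) (funext fun p => ?_)
    rw [hval]

/-- Main reduction: a conjugation-invariant polynomial vanishing at all diagonal tuples of
determinant one vanishes at every representation of `ℤ^n`. -/
theorem eval_eq_zero_of_diag (F : MvPolynomial (Fin n × Fin r × Fin r) ℂ)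
    (Hinv : ∀ (ρ : Multiplicative (Fin n → ℤ) →* Matrix.SpecialLinearGroup (Fin r) ℂ)
        (h : Matrix.SpecialLinearGroup (Fin r) ℂ),
        MvPolynomial.eval
            (fun p => (h * ρ (Multiplicative.ofAdd (Pi.single p.1 (1 : ℤ))) * h⁻¹).1 p.2.1 p.2.2) F
          = MvPolynomial.eval
            (fun p => (ρ (Multiplicative.ofAdd (Pi.single p.1 (1 : ℤ)))).1 p.2.1 p.2.2) F)
    (Hdiag : ∀ d : Fin n → Fin r → ℂˣ, (∀ i, ∏ j, d i j = 1) →
      MvPolynomial.eval (tupleCoords fun i => Matrix.diagonal fun j => ((d i j : ℂˣ) : ℂ)) F = 0)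
    (ρ : Multiplicative (Fin n → ℤ) →* Matrix.SpecialLinearGroup (Fin r) ℂ) :
    MvPolynomial.eval
      (fun p => (ρ (Multiplicative.ofAdd (Pi.single p.1 (1 : ℤ)))).1 p.2.1 p.2.2) F = 0 := by
  -- the commuting tuple
  have hA : ∀ i j : Fin n,
      (ρ (Multiplicative.ofAdd (Pi.single i (1 : ℤ)))).1
        * (ρ (Multiplicative.ofAdd (Pi.single j (1 : ℤ)))).1
      = (ρ (Multiplicative.ofAdd (Pi.single j (1 : ℤ)))).1
        * (ρ (Multiplicative.ofAdd (Pi.single i (1 : ℤ)))).1 := by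
    intro i j
    have h1 : ρ (Multiplicative.ofAdd (Pi.single i (1 : ℤ)))
        * ρ (Multiplicative.ofAdd (Pi.single j (1 : ℤ)))
        = ρ (Multiplicative.ofAdd (Pi.single j (1 : ℤ)))
        * ρ (Multiplicative.ofAdd (Pi.single i (1 : ℤ))) :=
      (map_mul ρ _ _).symm.trans ((congrArg ρ (mul_comm _ _)).trans (map_mul ρ _ _))
    have h2 := congrArg Subtype.val h1
    rw [Matrix.SpecialLinearGroup.coe_mul, Matrix.SpecialLinearGroup.coe_mul] at h2
    exact h2
  obtain ⟨P, Q, hPQ, hQP, htri⟩ := exists_triangularizing_matrices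
    (fun i => (ρ (Multiplicative.ofAdd (Pi.single i (1 : ℤ)))).1) hA
  set T : Fin n → Matrix (Fin r) (Fin r) ℂ :=
    fun i => Q * (ρ (Multiplicative.ofAdd (Pi.single i (1 : ℤ)))).1 * P with hT
  have hdetQP : Q.det * P.det = 1 := by rw [← Matrix.det_mul, hQP, Matrix.det_one]
  have hdetT : ∀ i, (T i).det = 1 := by
    intro i
    rw [hT]
    simp only [Matrix.det_mul]
    rw [(ρ (Multiplicative.ofAdd (Pi.single i (1 : ℤ)))).2, mul_one, hdetQP]
  have hprod : ∀ i, ∏ a, T i a a = 1 := by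
    intro i
    rw [← hdetT i]
    refine (Matrix.det_of_isUpperTriangular ?_).symm
    intro a k hka
    exact htri i a k hka
  have hne : ∀ i a, T i a a ≠ 0 := by
    intro i a h0
    have h1 := hprod i
    have hz : ∏ a', T i a' a' = 0 :=
      Finset.prod_eq_zero (f := fun a' => T i a' a') (Finset.mem_univ a) h0
    rw [hz] at h1
    exact zero_ne_one h1
  have hd : ∀ i, ∏ a, Units.mk0 (T i a a) (hne i a) = 1 := by
    intro i
    apply Units.ext
    rw [Units.coe_prod]
    simpa using hprod i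
  -- the polynomial family
  have hpoly : IsPolyFun (fun τ : ℂ => MvPolynomial.eval
      (fun p : Fin n × Fin r × Fin r =>
        T p.1 p.2.1 p.2.2 * τ ^ ((p.2.2 : ℕ) - (p.2.1 : ℕ))) F) :=
    IsPolyFun.eval_mvPolynomial _ (fun p => isPolyFun_monomial _ _) F
  have hconst : ∀ τ : ℂ, τ ≠ 0 → MvPolynomial.eval
      (fun p : Fin n × Fin r × Fin r =>
        T p.1 p.2.1 p.2.2 * τ ^ ((p.2.2 : ℕ) - (p.2.1 : ℕ))) F
      = MvPolynomial.eval
        (fun p => (ρ (Multiplicative.ofAdd (Pi.single p.1 (1 : ℤ)))).1 p.2.1 p.2.2) F := by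
    intro τ hτ
    have hDD' : Matrix.diagonal (fun j : Fin r => τ ^ (j : ℕ))
        * Matrix.diagonal (fun j : Fin r => (τ ^ (j : ℕ))⁻¹) = 1 := by
      rw [Matrix.diagonal_mul_diagonal, ← Matrix.diagonal_one]
      congr 1
      funext j
      exact mul_inv_cancel₀ (pow_ne_zero _ hτ)
    have hD'D : Matrix.diagonal (fun j : Fin r => (τ ^ (j : ℕ))⁻¹)
        * Matrix.diagonal (fun j : Fin r => τ ^ (j : ℕ)) = 1 := by
      rw [Matrix.diagonal_mul_diagonal, ← Matrix.diagonal_one]
      congr 1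
      funext j
      exact inv_mul_cancel₀ (pow_ne_zero _ hτ)
    have h1 := eval_conj_eq F Hinv ρ (P * Matrix.diagonal (fun j : Fin r => τ ^ (j : ℕ)))
      (Matrix.diagonal (fun j : Fin r => (τ ^ (j : ℕ))⁻¹) * Q)
      (by rw [Matrix.mul_assoc, ← Matrix.mul_assoc _ _ Q, hDD', Matrix.one_mul, hPQ])
      (by rw [Matrix.mul_assoc, ← Matrix.mul_assoc Q, hQP, Matrix.one_mul, hD'D])
    rw [← h1]
    refine congrArg (fun x => MvPolynomial.eval x F) (funext fun p => ?_)
    obtain ⟨i, a, b⟩ := p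
    have h2 : Matrix.diagonal (fun j : Fin r => (τ ^ (j : ℕ))⁻¹) * Q
          * (ρ (Multiplicative.ofAdd (Pi.single i (1 : ℤ)))).1
          * (P * Matrix.diagonal (fun j : Fin r => τ ^ (j : ℕ)))
        = Matrix.diagonal (fun j : Fin r => (τ ^ (j : ℕ))⁻¹) * T i
          * Matrix.diagonal (fun j : Fin r => τ ^ (j : ℕ)) := by
      rw [hT]
      simp only [Matrix.mul_assoc]
    show T i a b * τ ^ ((b : ℕ) - (a : ℕ)) = _
    rw [h2, Matrix.mul_diagonal, Matrix.diagonal_mul]
    by_cases hab : (a : ℕ) ≤ (b : ℕ)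
    · rw [pow_sub₀ τ hτ hab]
      ring
    · have hba : b < a := by
        rw [Fin.lt_def]
        omega
      have hz : T i a b = 0 := htri i a b hba
      rw [hz]
      ring
  have hzero : MvPolynomial.eval
      (fun p : Fin n × Fin r × Fin r =>
        T p.1 p.2.1 p.2.2 * (0 : ℂ) ^ ((p.2.2 : ℕ) - (p.2.1 : ℕ))) F
      = MvPolynomial.eval (tupleCoords fun i => Matrix.diagonal fun j =>
          ((Units.mk0 (T i j j) (hne i j) : ℂˣ) : ℂ)) F := by
    refine congrArg (fun x => MvPolynomial.eval x F) (funext fun p => ?_)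
    obtain ⟨i, a, b⟩ := p
    show T i a b * (0 : ℂ) ^ ((b : ℕ) - (a : ℕ))
      = Matrix.diagonal (fun j => ((Units.mk0 (T i j j) (hne i j) : ℂˣ) : ℂ)) a b
    by_cases hab : a = b
    · subst hab
      simp
    · rw [Matrix.diagonal_apply_ne _ hab]
      by_cases hlt : (a : ℕ) < (b : ℕ)
      · have : (b : ℕ) - (a : ℕ) ≠ 0 := by omega
        rw [zero_pow this, mul_zero]
      · have hba : b < a := by
          rw [Fin.lt_def]
          have : (a : ℕ) ≠ (b : ℕ) := fun h => hab (Fin.ext h)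
          omega
        have hz : T i a b = 0 := htri i a b hba
        rw [hz, zero_mul]
  have hfinal := hpoly.eq_of_eq_on_ne_zero _ hconst
  rw [← hfinal, hzero]
  exact Hdiag _ hd

/-- **Density of integral points for `ℤ^n`.** With `L = ℚ(√2)`: every conjugation-invariant
polynomial function on `Hom(ℤ^n, SL_r(ℂ))` which vanishes at all representations with entries in
the ring of integers of `L` vanishes identically. -/
theorem density_free_abelian (n r : ℕ) :
    ∃ L : IntermediateField ℚ ℂ, FiniteDimensional ℚ L ∧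
      ∀ F : MvPolynomial (Fin n × Fin r × Fin r) ℂ,
        (∀ (ρ : Multiplicative (Fin n → ℤ) →* Matrix.SpecialLinearGroup (Fin r) ℂ)
            (h : Matrix.SpecialLinearGroup (Fin r) ℂ),
            MvPolynomial.eval
                (fun p => (h * ρ (Multiplicative.ofAdd (Pi.single p.1 (1 : ℤ))) * h⁻¹).1
                  p.2.1 p.2.2) F
              = MvPolynomial.eval
                (fun p => (ρ (Multiplicative.ofAdd (Pi.single p.1 (1 : ℤ)))).1 p.2.1 p.2.2) F) →
        (∀ ρ : Multiplicative (Fin n → ℤ) →* Matrix.SpecialLinearGroup (Fin r) ℂ,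
            (∀ γ a b, (ρ γ).1 a b ∈ L ∧ IsIntegral ℤ ((ρ γ).1 a b)) →
            MvPolynomial.eval
              (fun p => (ρ (Multiplicative.ofAdd (Pi.single p.1 (1 : ℤ)))).1 p.2.1 p.2.2) F = 0) →
        ∀ ρ : Multiplicative (Fin n → ℤ) →* Matrix.SpecialLinearGroup (Fin r) ℂ,
          MvPolynomial.eval
            (fun p => (ρ (Multiplicative.ofAdd (Pi.single p.1 (1 : ℤ)))).1 p.2.1 p.2.2) F = 0 := by
  refine ⟨fieldL, finiteDimensional_fieldL, fun F Hinv Hint ρ => ?_⟩
  rcases r with _ | m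
  · exact Hint ρ (fun γ a b => a.elim0)
  · refine eval_eq_zero_of_diag F Hinv ?_ ρ
    intro d hd
    refine eval_diag_eq_zero_succ F ?_ d hd
    intro d' hd' hU
    have h := Hint (diagRep d' hd') (diagRep_integral d' hd' hU)
    have hco : (fun p : Fin n × Fin (m + 1) × Fin (m + 1) =>
        (diagRep d' hd' (Multiplicative.ofAdd (Pi.single p.1 (1 : ℤ)))).1 p.2.1 p.2.2)
        = tupleCoords fun i => Matrix.diagonal fun j => ((d' i j : ℂˣ) : ℂ) := by
      funext p
      rw [diagRep_gen]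
      rfl
    rw [hco] at h
    exact h

end Vale.Agent.Lib.P002
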