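import Vale.Agent.Lib.P002.RegFun
import Vale.Agent.Lib.P002.Main

/-!
# Transvections and diagonal matrices in closures of integral sets
-/

open Polynomial

noncomputable section

namespace Vale.Agent.Lib.P002

variable {ι : Type*} [Fintype ι] [DecidableEq ι]

theorem isPolyFun_id : IsPolyFun (fun τ : ℂ => τ) :=
  ⟨X, fun τ => by simp⟩

theorem IsPolyFun.eq_zero_of_int {f : ℂ → ℂ} (hf : IsPolyFun f) (h : ∀ k : ℤ, f (k : ℂ) = 0)
    (τ : ℂ) : f τ = 0 := by
  obtain ⟨q, hq⟩ := hf
  have hq0 : q = 0 := by
    apply Polynomial.eq_zero_of_infinite_isRoot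
    have hinf : (Set.range (fun k : ℤ => (k : ℂ))).Infinite :=
      Set.infinite_range_of_injective Int.cast_injective
    refine hinf.mono ?_
    rintro _ ⟨k, rfl⟩
    show q.IsRoot (k : ℂ)
    rw [Polynomial.IsRoot, ← hq, h k]
  rw [hq τ, hq0, eval_zero]

theorem transvection_inv (i j : ι) (hij : i ≠ j) (t : ℂ) :
    (Matrix.transvection i j t)⁻¹ = Matrix.transvection i j (-t) := by
  apply Matrix.inv_eq_right_inv
  rw [Matrix.transvection_mul_transvection_same i j hij, add_neg_cancel,
    Matrix.transvection_zero]

omit [Fintype ι] in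
theorem transvection_apply (i j : ι) (t : ℂ) (a b : ι) :
    Matrix.transvection i j t a b
      = (if a = b then 1 else 0) + (if i = a ∧ j = b then t else 0) := by
  simp [Matrix.transvection, Matrix.one_apply, Matrix.single_apply]

/-- If the integral transvections `1 + k E_{ij}` lie in `S`, then every transvection
`1 + t E_{ij}` lies in the closure of `S`. -/
theorem transvection_mem_zcl (S : Set (Matrix ι ι ℂ)) (i j : ι) (hij : i ≠ j)
    (hS : ∀ k : ℤ, Matrix.transvection i j (k : ℂ) ∈ S) (t : ℂ) :
    Matrix.transvection i j t ∈ zcl S := by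
  refine ⟨?_, fun f hf h0 => ?_⟩
  · rw [Matrix.det_transvection_of_ne i j hij]
    exact isUnit_one
  · obtain ⟨P, hP⟩ := hf
    have hdet : ∀ τ : ℂ, IsUnit (Matrix.transvection i j τ).det := by
      intro τ
      rw [Matrix.det_transvection_of_ne i j hij]
      exact isUnit_one
    have hpoly : IsPolyFun (fun τ : ℂ => f (Matrix.transvection i j τ)) := by
      have h1 : IsPolyFun (fun τ : ℂ =>
          MvPolynomial.eval (ptOf (Matrix.transvection i j τ)) P) := by
        apply IsPolyFun.eval_mvPolynomial
        rintro (x | x)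
        · show IsPolyFun (fun τ : ℂ => Matrix.transvection i j τ x.1 x.2)
          simp only [transvection_apply]
          refine (isPolyFun_const _).add ?_
          by_cases h : i = x.1 ∧ j = x.2
          · simp only [h, and_self, if_true]
            exact isPolyFun_id
          · simp only [h, if_false]
            exact isPolyFun_const 0
        · show IsPolyFun (fun τ : ℂ => (Matrix.transvection i j τ)⁻¹ x.1 x.2)
          simp only [transvection_inv i j hij, transvection_apply]
          refine (isPolyFun_const _).add ?_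
          by_cases h : i = x.1 ∧ j = x.2
          · simp only [h, and_self, if_true]
            have := (isPolyFun_const (-1)).mul isPolyFun_id
            simpa using this
          · simp only [h, if_false]
            exact isPolyFun_const 0
      obtain ⟨q, hq⟩ := h1
      exact ⟨q, fun τ => (hP _ (hdet τ)).trans (hq τ)⟩
    exact hpoly.eq_zero_of_int (fun k => h0 _ (hS k)) t

theorem diagonal_units_inv (d : ι → ℂˣ) :
    (Matrix.diagonal fun i => ((d i : ℂˣ) : ℂ))⁻¹
      = Matrix.diagonal fun i => (((d i)⁻¹ : ℂˣ) : ℂ) := by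
  apply Matrix.inv_eq_right_inv
  rw [Matrix.diagonal_mul_diagonal]
  simp

theorem det_diagonal_units (d : ι → ℂˣ) :
    IsUnit (Matrix.diagonal fun i => ((d i : ℂˣ) : ℂ)).det := by
  rw [Matrix.det_diagonal]
  have : (∏ i, ((d i : ℂˣ) : ℂ)) = ((∏ i, d i : ℂˣ) : ℂ) := by
    rw [Units.coe_prod]
  rw [this]
  exact Units.isUnit _

/-- If the diagonal matrices with entries in an infinite set `U` of units lie in `S`, then every
invertible diagonal matrix lies in the closure of `S`. -/
theorem diagonal_mem_zcl (S : Set (Matrix ι ι ℂ)) (U : Set ℂˣ) (hU : U.Infinite)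
    (hS : ∀ d : ι → ℂˣ, (∀ i, d i ∈ U) → (Matrix.diagonal fun i => ((d i : ℂˣ) : ℂ)) ∈ S)
    (d : ι → ℂˣ) : (Matrix.diagonal fun i => ((d i : ℂˣ) : ℂ)) ∈ zcl S := by
  refine ⟨det_diagonal_units d, fun f hf h0 => ?_⟩
  obtain ⟨P, hP⟩ := hf
  have hL : IsLaurentMv (fun d : ι → ℂˣ =>
      MvPolynomial.eval (ptOf (Matrix.diagonal fun i => ((d i : ℂˣ) : ℂ))) P) := by
    apply IsLaurentMv.eval_mvPolynomial
    rintro (x | x)
    · show IsLaurentMv (fun d : ι → ℂˣ =>
        (Matrix.diagonal fun i => ((d i : ℂˣ) : ℂ)) x.1 x.2)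
      by_cases h : x.1 = x.2
      · simp only [Matrix.diagonal_apply, h, if_true]
        exact isLaurentMv_coord x.2
      · simp only [Matrix.diagonal_apply, h, if_false]
        exact isLaurentMv_const 0
    · show IsLaurentMv (fun d : ι → ℂˣ =>
        (Matrix.diagonal fun i => ((d i : ℂˣ) : ℂ))⁻¹ x.1 x.2)
      simp only [diagonal_units_inv]
      by_cases h : x.1 = x.2
      · simp only [Matrix.diagonal_apply, h, if_true]
        exact isLaurentMv_coord_inv x.2
      · simp only [Matrix.diagonal_apply, h, if_false]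
        exact isLaurentMv_const 0
  have hzero := hL.eq_zero_of_grid U hU (fun s hs => by
    rw [← hP _ (det_diagonal_units s)]
    exact h0 _ (hS s hs)) d
  rw [hP _ (det_diagonal_units d)]
  exact hzero

end Vale.Agent.Lib.P002

end
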