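import Vale.Agent.Lib.P002.DiagRep

/-!
# Vanishing on integral diagonal tuples implies vanishing on all diagonal tuples of determinant one
-/

open Matrix

namespace Vale.Agent.Lib.P002

variable {n : ℕ}

/-- The coordinates of an `n`-tuple of `r × r` matrices. -/
def tupleCoords {r : ℕ} (M : Fin n → Matrix (Fin r) (Fin r) ℂ) : Fin n × Fin r × Fin r → ℂ :=
  fun p => M p.1 p.2.1 p.2.2

/-- Completion of free parameters `s (i, j)`, `j < m`, to a tuple of diagonal entries with
product one in each row. -/
def dOf {m : ℕ} (s : Fin n × Fin m → ℂˣ) : Fin n → Fin (m + 1) → ℂˣ :=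
  fun i => Fin.snoc (fun j => s (i, j)) (∏ j, s (i, j))⁻¹

theorem dOf_castSucc {m : ℕ} (s : Fin n × Fin m → ℂˣ) (i : Fin n) (j : Fin m) :
    dOf s i j.castSucc = s (i, j) := by
  simp [dOf]

theorem dOf_last {m : ℕ} (s : Fin n × Fin m → ℂˣ) (i : Fin n) :
    dOf s i (Fin.last m) = (∏ j, s (i, j))⁻¹ := by
  simp [dOf]

theorem dOf_prod {m : ℕ} (s : Fin n × Fin m → ℂˣ) (i : Fin n) : ∏ j, dOf s i j = 1 := by
  rw [Fin.prod_univ_castSucc]
  simp only [dOf_castSucc, dOf_last]
  exact mul_inv_cancel _

theorem dOf_eq {m : ℕ} (d : Fin n → Fin (m + 1) → ℂˣ) (hd : ∀ i, ∏ j, d i j = 1) :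
    dOf (fun p : Fin n × Fin m => d p.1 p.2.castSucc) = d := by
  funext i j
  induction j using Fin.lastCases with
  | last =>
    rw [dOf_last]
    have h := hd i
    rw [Fin.prod_univ_castSucc] at h
    exact inv_eq_of_mul_eq_one_right h
  | cast j => rw [dOf_castSucc]

theorem isLaurent_coord {m : ℕ} (s : Fin n × Fin m → ℂˣ) (v : Fin n × Fin m)
    (p : Fin n × Fin (m + 1) × Fin (m + 1)) :
    IsLaurent (fun u => tupleCoords
      (fun i => Matrix.diagonal (fun j => ((dOf (Function.update s v u) i j : ℂˣ) : ℂ))) p) := by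
  obtain ⟨i, a, b⟩ := p
  by_cases hab : a = b
  · subst hab
    simp only [tupleCoords, Matrix.diagonal_apply_eq]
    induction a using Fin.lastCases with
    | last =>
      simp only [dOf_last]
      by_cases hi : v.1 = i
      · obtain ⟨i', j0⟩ := v
        simp only at hi
        subst hi
        have key : ∀ u : ℂˣ, ∏ j, Function.update s (i', j0) u (i', j)
            = u * ∏ j ∈ ({j0} : Finset (Fin m))ᶜ, s (i', j) := by
          intro u
          rw [Fintype.prod_eq_mul_prod_compl j0]
          congr 1
          · simp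
          · apply Finset.prod_congr rfl
            intro j hj
            have hne : j ≠ j0 := by simpa using hj
            rw [Function.update_of_ne]
            simpa using hne
        have heq : (fun u : ℂˣ => (((∏ j, Function.update s (i', j0) u (i', j))⁻¹ : ℂˣ) : ℂ))
            = fun u : ℂˣ => (((∏ j ∈ ({j0} : Finset (Fin m))ᶜ, s (i', j))⁻¹ : ℂˣ) : ℂ)
                * ((u⁻¹ : ℂˣ) : ℂ) := by
          funext u
          rw [key u, _root_.mul_inv_rev, Units.val_mul]
        rw [heq]
        exact isLaurent_inv.const_mul _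
      · have heq : (fun u : ℂˣ => (((∏ j, Function.update s v u (i, j))⁻¹ : ℂˣ) : ℂ))
            = fun _ => (((∏ j, s (i, j))⁻¹ : ℂˣ) : ℂ) := by
          funext u
          congr 3
          funext j
          rw [Function.update_of_ne]
          intro h
          exact hi (by rw [← h])
        rw [heq]
        exact isLaurent_const _
    | cast j =>
      simp only [dOf_castSucc]
      by_cases hv : (i, j) = v
      · subst hv
        simp only [Function.update_self]
        exact isLaurent_id
      · simp only [Function.update_of_ne hv]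
        exact isLaurent_const _
  · simp only [tupleCoords, Matrix.diagonal_apply_ne _ hab]
    exact isLaurent_const 0

/-- If a polynomial vanishes at all diagonal tuples with entries powers of `1 + √2` and
determinants one, it vanishes at all diagonal tuples with determinants one. -/
theorem eval_diag_eq_zero_succ {m : ℕ} (F : MvPolynomial (Fin n × Fin (m + 1) × Fin (m + 1)) ℂ)
    (h0 : ∀ d : Fin n → Fin (m + 1) → ℂˣ, (∀ i, ∏ j, d i j = 1) →
      (∀ i j, d i j ∈ Subgroup.zpowers unitW) →
      MvPolynomial.eval (tupleCoords fun i => Matrix.diagonal fun j => ((d i j : ℂˣ) : ℂ)) F = 0)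
    (d : Fin n → Fin (m + 1) → ℂˣ) (hd : ∀ i, ∏ j, d i j = 1) :
    MvPolynomial.eval (tupleCoords fun i => Matrix.diagonal fun j => ((d i j : ℂˣ) : ℂ)) F = 0 := by
  classical
  have hgrid := eq_zero_of_grid
    (fun s : Fin n × Fin m → ℂˣ => MvPolynomial.eval
      (tupleCoords fun i => Matrix.diagonal fun j => ((dOf s i j : ℂˣ) : ℂ)) F)
    (fun s v => IsLaurent.eval_mvPolynomial _ (fun p => isLaurent_coord s v p) F)
    (Subgroup.zpowers unitW : Set ℂˣ) infinite_zpowers_unitW
    (fun s hs => h0 (dOf s) (dOf_prod s) (by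
      intro i j
      induction j using Fin.lastCases with
      | last =>
        rw [dOf_last]
        exact Subgroup.inv_mem _ (Subgroup.prod_mem _ (fun j _ => hs (i, j)))
      | cast j =>
        rw [dOf_castSucc]
        exact hs (i, j)))
    (fun p : Fin n × Fin m => d p.1 p.2.castSucc)
  simp only [dOf_eq d hd] at hgrid
  exact hgrid

end Vale.Agent.Lib.P002
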