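import Vale.Agent.Lib.P002.SeifEq

/-!
# Closures in several matrix variables, and the determinant-one retraction
-/

noncomputable section

namespace Vale.Agent.Lib.P002

open Matrix

section multi

variable {ι : Type*} [Fintype ι] [DecidableEq ι] {J : Type*} [Fintype J] [DecidableEq J]

/-- A function of several matrices which is regular in each variable separately and vanishes on
`S ^ J` vanishes on `(zcl S) ^ J`. -/
theorem multi_zcl (S : Set (Matrix ι ι ℂ)) (hS : ∀ s ∈ S, IsUnit s.det)
    (Ψ : (J → Matrix ι ι ℂ) → ℂ)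
    (hreg : ∀ (g : J → Matrix ι ι ℂ) (a : J), (∀ j, IsUnit (g j).det) →
      IsReg (fun y => Ψ (Function.update g a y)))
    (h0 : ∀ g : J → Matrix ι ι ℂ, (∀ j, g j ∈ S) → Ψ g = 0)
    (g : J → Matrix ι ι ℂ) (hg : ∀ j, g j ∈ zcl S) : Ψ g = 0 := by
  classical
  have key : ∀ T : Finset J, ∀ g : J → Matrix ι ι ℂ, (∀ j ∈ T, g j ∈ zcl S) →
      (∀ j, j ∉ T → g j ∈ S) → Ψ g = 0 := by
    intro T
    induction T using Finset.induction_on with
    | empty =>
      intro g _ h2
      exact h0 g fun j => h2 j (Finset.notMem_empty j)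
    | insert a T ha ih =>
      intro g h1 h2
      have hunit : ∀ j, IsUnit (g j).det := by
        intro j
        by_cases hj : j ∈ insert a T
        · exact (h1 j hj).1
        · exact hS _ (h2 j hj)
      have hga : g a ∈ zcl S := h1 a (Finset.mem_insert_self a T)
      have hz := hga.2 (fun y => Ψ (Function.update g a y)) (hreg g a hunit) (by
        intro y hy
        apply ih
        · intro j hj
          have hja : j ≠ a := fun h => ha (h ▸ hj)
          rw [Function.update_of_ne hja]
          exact h1 j (Finset.mem_insert_of_mem hj)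
        · intro j hj
          by_cases hja : j = a
          · subst hja
            rw [Function.update_self]
            exact hy
          · rw [Function.update_of_ne hja]
            exact h2 j (by simp [hja, hj]))
      simpa using hz
  exact key Finset.univ g (fun j _ => hg j) (fun j hj => absurd (Finset.mem_univ j) hj)

theorem isReg_det_inv : IsReg (fun y : Matrix ι ι ℂ => (y⁻¹).det) := by
  refine ⟨Matrix.det (Matrix.of fun i j =>
    (MvPolynomial.X (Sum.inr (i, j)) : MvPolynomial ((ι × ι) ⊕ (ι × ι)) ℂ)), fun y _ => ?_⟩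
  have h2 : y⁻¹ = (MvPolynomial.eval (ptOf y)).mapMatrix
      (Matrix.of fun i j =>
        (MvPolynomial.X (Sum.inr (i, j)) : MvPolynomial ((ι × ι) ⊕ (ι × ι)) ℂ)) := by
    ext i j
    simp [ptOf]
  show (y⁻¹).det = _
  conv_lhs => rw [h2]
  exact (RingHom.map_det _ _).symm

end multi

variable {r : ℕ}

/-- A matrix commuting with `diagonal δ` commutes with every diagonal matrix which is constant
on the classes of `δ`. -/
theorem commute_of_const_on_classes (g : Matrix (Fin r) (Fin r) ℂ) (δ ε : Fin r → ℂ)
    (hg : g * Matrix.diagonal δ = Matrix.diagonal δ * g)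
    (hε : ∀ a b, δ a = δ b → ε a = ε b) :
    g * Matrix.diagonal ε = Matrix.diagonal ε * g := by
  rw [commute_diagonal_iff] at hg ⊢
  intro i j
  by_cases hij : δ i = δ j
  · rw [hε i j hij, mul_comm]
  · have h2 : g i j * (δ j - δ i) = 0 := by
      rw [mul_sub, hg i j]
      ring
    rcases mul_eq_zero.mp h2 with h | h
    · rw [h, zero_mul, mul_zero]
    · exact absurd (sub_eq_zero.mp h).symm hij

/-- The determinant of a matrix with entries in the ring of integers of `fieldLN N` lies in this
ring. -/
theorem det_entries_integral {N : ℕ} {g : Matrix (Fin r) (Fin r) ℂ}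
    (hg : ∀ i j, g i j ∈ fieldLN N ∧ IsIntegral ℤ (g i j)) :
    g.det ∈ fieldLN N ∧ IsIntegral ℤ g.det := by
  rw [Matrix.det_apply]
  refine ⟨sum_mem fun σ _ => ?_, IsIntegral.sum _ fun σ _ => ?_⟩
  · exact zsmul_mem (prod_mem fun i _ => (hg _ _).1) _
  · have h1 : IsIntegral ℤ (∏ i, g (σ i) i) := IsIntegral.prod _ fun i _ => (hg _ _).2
    rcases Int.units_eq_one_or (Equiv.Perm.sign σ) with h | h
    · rw [h]
      simpa using h1
    · rw [h]
      simpa using h1.neg

end Vale.Agent.Lib.P002

end
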