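import Vale.Agent.Lib.P002.RegDefs

/-!
# Small lemmas on cubics and on conjugation of pairs of three by three matrices
-/

noncomputable section

namespace Vale.Agent.Lib.P002

open Polynomial Matrix

theorem rConjAux_key (d a : Fin 3 → ℂ) (h : rChi d = rChi a) (x : ℂ) :
    (x - d 0) * (x - d 1) * (x - d 2) = (x - a 0) * (x - a 1) * (x - a 2) := by
  have h1 := congrArg (Polynomial.eval x) h
  simpa [rChi] using h1

theorem rConjAux_two (p q r s : ℂ) (hs : p + q = r + s) (hp : p * q = r * s) :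
    (p = r ∧ q = s) ∨ (p = s ∧ q = r) := by
  have h0 : (p - r) * (p - s) = 0 := by linear_combination p * hs - hp
  rcases mul_eq_zero.mp h0 with h1 | h1
  · left
    have hpr : p = r := sub_eq_zero.mp h1
    exact ⟨hpr, by linear_combination hs - hpr⟩
  · right
    have hps : p = s := sub_eq_zero.mp h1
    exact ⟨hps, by linear_combination hs - hps⟩

theorem rPerm (d a : Fin 3 → ℂ) (h : rChi d = rChi a) : ∃ σ : Equiv.Perm (Fin 3), d = a ∘ σ := by
  have key := rConjAux_key d a h
  have h0 := key 0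
  have h1 := key 1
  have hm1 := key (-1)
  have e1 : d 0 + d 1 + d 2 = a 0 + a 1 + a 2 := by
    linear_combination (-1 / 2 : ℂ) * h1 + (-1 / 2 : ℂ) * hm1 + h0
  have e2 : d 0 * d 1 + d 0 * d 2 + d 1 * d 2 = a 0 * a 1 + a 0 * a 2 + a 1 * a 2 := by
    linear_combination (1 / 2 : ℂ) * h1 - (1 / 2 : ℂ) * hm1
  have hd0 := key (d 0)
  rw [sub_self, zero_mul, zero_mul] at hd0
  rcases mul_eq_zero.mp hd0.symm with h01 | h2
  · rcases mul_eq_zero.mp h01 with h00 | h1'
    · -- d 0 = a 0
      have hda : d 0 = a 0 := sub_eq_zero.mp h00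
      have hs : d 1 + d 2 = a 1 + a 2 := by linear_combination e1 - hda
      have hp : d 1 * d 2 = a 1 * a 2 := by
        linear_combination e2 - (a 1 + a 2) * hda - d 0 * hs
      rcases rConjAux_two _ _ _ _ hs hp with ⟨ha, hb⟩ | ⟨ha, hb⟩
      · refine ⟨1, ?_⟩
        funext k
        fin_cases k <;> simp [hda, ha, hb]
      · refine ⟨Equiv.swap 1 2, ?_⟩
        funext k
        fin_cases k <;> simp [hda, ha, hb, Equiv.swap_apply_of_ne_of_ne]
    · -- d 0 = a 1
      have hda : d 0 = a 1 := sub_eq_zero.mp h1'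
      have hs : d 1 + d 2 = a 0 + a 2 := by linear_combination e1 - hda
      have hp : d 1 * d 2 = a 0 * a 2 := by
        linear_combination e2 - (a 0 + a 2) * hda - d 0 * hs
      rcases rConjAux_two _ _ _ _ hs hp with ⟨ha, hb⟩ | ⟨ha, hb⟩
      · refine ⟨Equiv.swap 0 1, ?_⟩
        funext k
        fin_cases k <;> simp [hda, ha, hb, Equiv.swap_apply_of_ne_of_ne]
      · refine ⟨Equiv.swap 0 1 * Equiv.swap 1 2, ?_⟩
        funext k
        fin_cases k <;> simp [hda, ha, hb, Equiv.swap_apply_of_ne_of_ne]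
  · -- d 0 = a 2
    have hda : d 0 = a 2 := sub_eq_zero.mp h2
    have hs : d 1 + d 2 = a 0 + a 1 := by linear_combination e1 - hda
    have hp : d 1 * d 2 = a 0 * a 1 := by
      linear_combination e2 - (a 0 + a 1) * hda - d 0 * hs
    rcases rConjAux_two _ _ _ _ hs hp with ⟨ha, hb⟩ | ⟨ha, hb⟩
    · refine ⟨Equiv.swap 1 2 * Equiv.swap 0 1, ?_⟩
      funext k
      fin_cases k <;> simp [hda, ha, hb, Equiv.swap_apply_of_ne_of_ne]
    · refine ⟨Equiv.swap 0 2, ?_⟩
      funext k
      fin_cases k <;> simp [hda, ha, hb, Equiv.swap_apply_of_ne_of_ne]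

theorem rInv_conj (M P P' : Matrix (Fin 3) (Fin 3) ℂ) (h : P * P' = 1) (h' : P' * P = 1)
    (W : Submodule ℂ (Fin 3 → ℂ)) (hW : rInv (P * M * P') W) :
    rInv M (W.map (Matrix.toLin' P')) := by
  intro x hx
  obtain ⟨w, hw, rfl⟩ := Submodule.mem_map.mp hx
  have hcalc : M *ᵥ (Matrix.toLin' P' w) = Matrix.toLin' P' ((P * M * P') *ᵥ w) := by
    rw [Matrix.toLin'_apply, Matrix.toLin'_apply, Matrix.mulVec_mulVec, Matrix.mulVec_mulVec]
    congr 1
    calc M * P' = (P' * P) * M * P' := by rw [h', one_mul]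
      _ = P' * (P * M * P') := by simp only [mul_assoc]
  rw [hcalc]
  exact Submodule.mem_map_of_mem (hW w hw)

theorem rConjAux_inj (P P' : Matrix (Fin 3) (Fin 3) ℂ) (h : P * P' = 1) :
    Function.Injective (Matrix.toLin' P') := by
  intro x y hxy
  have h2 := congrArg (fun v => P *ᵥ v) hxy
  simp only [Matrix.toLin'_apply, Matrix.mulVec_mulVec, h, Matrix.one_mulVec] at h2
  exact h2

theorem rConjAux_surj (P P' : Matrix (Fin 3) (Fin 3) ℂ) (h' : P' * P = 1) :
    Function.Surjective (Matrix.toLin' P') := by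
  intro y
  refine ⟨P *ᵥ y, ?_⟩
  rw [Matrix.toLin'_apply, Matrix.mulVec_mulVec, h', Matrix.one_mulVec]

theorem rConjAux_map_map (P P' : Matrix (Fin 3) (Fin 3) ℂ) (h : P * P' = 1)
    (W : Submodule ℂ (Fin 3 → ℂ)) :
    (W.map (Matrix.toLin' P')).map (Matrix.toLin' P) = W := by
  rw [← Submodule.map_comp, ← Matrix.toLin'_mul, h, Matrix.toLin'_one, Submodule.map_id]

theorem rConjAux_back (M P P' : Matrix (Fin 3) (Fin 3) ℂ) (h' : P' * P = 1) :
    P' * (P * M * P') * P = M := by
  calc P' * (P * M * P') * P = (P' * P) * M * (P' * P) := by simp only [mul_assoc]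
    _ = M := by rw [h', one_mul, mul_one]

theorem rSS_conj (A B P P' : Matrix (Fin 3) (Fin 3) ℂ) (h : P * P' = 1) (h' : P' * P = 1)
    (hss : rSS A B) : rSS (P * A * P') (P * B * P') := by
  intro W hA hB
  obtain ⟨W1', hA1, hB1, hc⟩ := hss (W.map (Matrix.toLin' P'))
    (rInv_conj A P P' h h' W hA) (rInv_conj B P P' h h' W hB)
  refine ⟨W1'.map (Matrix.toLin' P), ?_, ?_, ?_⟩
  · apply rInv_conj (P * A * P') P' P h' h W1'
    rw [rConjAux_back A P P' h']
    exact hA1
  · apply rInv_conj (P * B * P') P' P h' h W1'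
    rw [rConjAux_back B P P' h']
    exact hB1
  · have hbij : Function.Bijective (Matrix.toLin' P) :=
      ⟨rConjAux_inj P' P h', rConjAux_surj P' P h⟩
    have hc2 := (Submodule.orderIsoMapComapOfBijective (Matrix.toLin' P) hbij).isCompl hc
    have hmm := rConjAux_map_map P P' h W
    change IsCompl ((W.map (Matrix.toLin' P')).map (Matrix.toLin' P))
      (W1'.map (Matrix.toLin' P)) at hc2
    rw [hmm] at hc2
    exact hc2

theorem rIrr_conj (A B P P' : Matrix (Fin 3) (Fin 3) ℂ) (h : P * P' = 1) (h' : P' * P = 1)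
    (hirr : rIrr A B) : rIrr (P * A * P') (P * B * P') := by
  intro W hA hB
  rcases hirr (W.map (Matrix.toLin' P'))
    (rInv_conj A P P' h h' W hA) (rInv_conj B P P' h h' W hB) with hbot | htop
  · left
    rw [Submodule.eq_bot_iff]
    intro w hw
    have hmem : Matrix.toLin' P' w ∈ W.map (Matrix.toLin' P') := Submodule.mem_map_of_mem hw
    rw [hbot, Submodule.mem_bot] at hmem
    exact rConjAux_inj P P' h (by rw [hmem, map_zero])
  · right
    rw [Submodule.eq_top_iff']
    intro y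
    have hmem : Matrix.toLin' P' y ∈ W.map (Matrix.toLin' P') := by
      rw [htop]
      exact Submodule.mem_top
    obtain ⟨w, hw, hwy⟩ := Submodule.mem_map.mp hmem
    have hyw : w = y := rConjAux_inj P P' h hwy
    rw [← hyw]
    exact hw

/-- Conjugation by an invertible matrix as an algebra homomorphism. -/
def rConjAux_hom (P P' : Matrix (Fin 3) (Fin 3) ℂ) (h : P * P' = 1) (h' : P' * P = 1) :
    Matrix (Fin 3) (Fin 3) ℂ →ₐ[ℂ] Matrix (Fin 3) (Fin 3) ℂ :=
  AlgHom.ofLinearMap ((LinearMap.mulLeft ℂ P).comp (LinearMap.mulRight ℂ P'))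
    (by simp [h])
    (by
      intro x y
      simp only [LinearMap.comp_apply, LinearMap.mulLeft_apply, LinearMap.mulRight_apply]
      calc P * (x * y * P') = P * x * ((P' * P) * (y * P')) := by
            rw [h', one_mul]
            simp only [mul_assoc]
        _ = P * (x * P') * (P * (y * P')) := by simp only [mul_assoc])

theorem rConjAux_hom_apply (P P' : Matrix (Fin 3) (Fin 3) ℂ) (h : P * P' = 1)
    (h' : P' * P = 1) (x : Matrix (Fin 3) (Fin 3) ℂ) :
    rConjAux_hom P P' h h' x = P * x * P' := by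
  simp [rConjAux_hom, mul_assoc]

theorem rConjAux_hom_inj (P P' : Matrix (Fin 3) (Fin 3) ℂ) (h : P * P' = 1)
    (h' : P' * P = 1) : Function.Injective (rConjAux_hom P P' h h') := by
  intro x y hxy
  rw [rConjAux_hom_apply, rConjAux_hom_apply] at hxy
  have h2 := congrArg (fun z => P' * z * P) hxy
  simp only [rConjAux_back _ P P' h'] at h2
  exact h2

theorem rMinpoly_conj (M P P' : Matrix (Fin 3) (Fin 3) ℂ) (h : P * P' = 1) (h' : P' * P = 1) :
    minpoly ℂ (P * M * P') = minpoly ℂ M := by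
  rw [← rConjAux_hom_apply P P' h h' M]
  exact minpoly.algHom_eq (rConjAux_hom P P' h h') (rConjAux_hom_inj P P' h h') M

end Vale.Agent.Lib.P002

end
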