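import Vale.Agent.Lib.P002.RegDefs
import Vale.Agent.Lib.P002.E6Diag

noncomputable section

namespace Vale.Agent.Lib.P002

open Polynomial Matrix

/-- The characteristic polynomial of a complex three by three matrix is a product of three
linear factors. -/
theorem rJor_split (A : Matrix (Fin 3) (Fin 3) ℂ) :
    ∃ r0 r1 r2 : ℂ, A.charpoly = (X - C r0) * (X - C r1) * (X - C r2) := by
  have hs : A.charpoly.Splits := IsAlgClosed.splits A.charpoly
  have hm : A.charpoly.Monic := A.charpoly_monic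
  have hc : A.charpoly.roots.card = 3 := by
    rw [← hs.natDegree_eq_card_roots, Matrix.charpoly_natDegree_eq_dim]
    simp
  obtain ⟨x, y, z, hxyz⟩ := Multiset.card_eq_three.mp hc
  refine ⟨x, y, z, ?_⟩
  have h1 := hs.eq_prod_roots_of_monic hm
  rw [hxyz] at h1
  rw [h1]
  simp [mul_assoc]

/-- Conjugation by the matrix whose columns are a linearly independent triple. -/
theorem rJor_conj (A J : Matrix (Fin 3) (Fin 3) ℂ) (e : Fin 3 → Fin 3 → ℂ)
    (hli : LinearIndependent ℂ e) (hA : ∀ j, A *ᵥ e j = ∑ k, J k j • e k) :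
    ∃ P P' : Matrix (Fin 3) (Fin 3) ℂ, P * P' = 1 ∧ P' * P = 1 ∧ P * A * P' = J := by
  let Q : Matrix (Fin 3) (Fin 3) ℂ := Matrix.of fun i j => e j i
  have hcol : Q.col = e := by
    funext j i
    rfl
  have hu : IsUnit Q := by
    rw [← Matrix.linearIndependent_cols_iff_isUnit, hcol]
    exact hli
  have hdet : IsUnit Q.det := (Matrix.isUnit_iff_isUnit_det Q).mp hu
  have h1 : Q⁻¹ * Q = 1 := Matrix.nonsing_inv_mul Q hdet
  have h2 : Q * Q⁻¹ = 1 := Matrix.mul_nonsing_inv Q hdet
  have hAQ : A * Q = Q * J := by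
    ext i j
    have h3 := congrFun (hA j) i
    simp only [Matrix.mul_apply]
    have h4 : ∑ k, A i k * Q k j = (A *ᵥ e j) i := by
      simp [Matrix.mulVec, dotProduct, Q]
    rw [h4, h3]
    simp only [Finset.sum_apply, Pi.smul_apply, smul_eq_mul]
    refine Finset.sum_congr rfl ?_
    intro k _
    simp [Q, mul_comm]
  refine ⟨Q⁻¹, Q, h1, h2, ?_⟩
  rw [Matrix.mul_assoc, hAQ, ← Matrix.mul_assoc, h1, Matrix.one_mul]

/-- A nonzero matrix moves some vector. -/
theorem rJor_exists_vec (M : Matrix (Fin 3) (Fin 3) ℂ) (hM : M ≠ 0) :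
    ∃ v : Fin 3 → ℂ, M *ᵥ v ≠ 0 := by
  by_contra hcon
  push Not at hcon
  apply hM
  apply Matrix.ext_of_mulVec_single
  intro i
  rw [hcon, Matrix.zero_mulVec]

/-- Action of `A - l` on vectors. -/
theorem rJor_sub_mulVec (A : Matrix (Fin 3) (Fin 3) ℂ) (l : ℂ) (v : Fin 3 → ℂ) :
    (A - l • (1 : Matrix (Fin 3) (Fin 3) ℂ)) *ᵥ v = A *ᵥ v - l • v := by
  rw [Matrix.sub_mulVec, Matrix.smul_mulVec, Matrix.one_mulVec]

/-- Evaluation of a quadratic product of linear factors at the matrix. -/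
theorem rJor_aeval2 (A : Matrix (Fin 3) (Fin 3) ℂ) (l m : ℂ) :
    aeval A ((X - C l) * (X - C m) : ℂ[X]) =
      (A - l • (1 : Matrix (Fin 3) (Fin 3) ℂ)) * (A - m • (1 : Matrix (Fin 3) (Fin 3) ℂ)) := by
  simp [Algebra.algebraMap_eq_smul_one]

/-- Evaluation of a cubic product of linear factors at the matrix. -/
theorem rJor_aeval3 (A : Matrix (Fin 3) (Fin 3) ℂ) (l m k : ℂ) :
    aeval A ((X - C l) * (X - C m) * (X - C k) : ℂ[X]) =
      (A - l • (1 : Matrix (Fin 3) (Fin 3) ℂ)) * (A - m • (1 : Matrix (Fin 3) (Fin 3) ℂ)) *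
        (A - k • (1 : Matrix (Fin 3) (Fin 3) ℂ)) := by
  simp [Algebra.algebraMap_eq_smul_one]

/-- A regular matrix is not killed by a product of two linear factors. -/
theorem rJor_quad_ne (A : Matrix (Fin 3) (Fin 3) ℂ) (h : minpoly ℂ A = A.charpoly) (l m : ℂ) :
    (A - l • (1 : Matrix (Fin 3) (Fin 3) ℂ)) * (A - m • (1 : Matrix (Fin 3) (Fin 3) ℂ)) ≠ 0 := by
  intro h0
  have h1 : aeval A ((X - C l) * (X - C m) : ℂ[X]) = 0 := by
    rw [rJor_aeval2, h0]
  have h2 : minpoly ℂ A ∣ ((X - C l) * (X - C m) : ℂ[X]) := minpoly.dvd ℂ A h1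
  have hne : ((X - C l) * (X - C m) : ℂ[X]) ≠ 0 :=
    mul_ne_zero (X_sub_C_ne_zero l) (X_sub_C_ne_zero m)
  have h3 := Polynomial.natDegree_le_of_dvd h2 hne
  rw [h, Matrix.charpoly_natDegree_eq_dim, Polynomial.natDegree_mul (X_sub_C_ne_zero l)
    (X_sub_C_ne_zero m), natDegree_X_sub_C, natDegree_X_sub_C] at h3
  simp at h3

/-- The Jordan block case: all three roots equal. -/
theorem rJor_block (A : Matrix (Fin 3) (Fin 3) ℂ) (h : minpoly ℂ A = A.charpoly) (l : ℂ)
    (hc : A.charpoly = (X - C l) * (X - C l) * (X - C l)) :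
    ∃ P P' : Matrix (Fin 3) (Fin 3) ℂ, P * P' = 1 ∧ P' * P = 1 ∧
      P * A * P' = !![l, 1, 0; 0, l, 1; 0, 0, l] := by
  set N : Matrix (Fin 3) (Fin 3) ℂ := A - l • (1 : Matrix (Fin 3) (Fin 3) ℂ) with hN
  have hN3 : N * N * N = 0 := by
    have h1 := Matrix.aeval_self_charpoly A
    rw [hc, rJor_aeval3] at h1
    exact h1
  have hN2 : N * N ≠ 0 := rJor_quad_ne A h l l
  obtain ⟨v, hv⟩ := rJor_exists_vec (N * N) hN2
  have hAv : ∀ w : Fin 3 → ℂ, A *ᵥ w = N *ᵥ w + l • w := by
    intro w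
    rw [hN, rJor_sub_mulVec]
    abel
  have hNNN : N *ᵥ ((N * N) *ᵥ v) = 0 := by
    rw [Matrix.mulVec_mulVec, ← Matrix.mul_assoc, hN3, Matrix.zero_mulVec]
  have hNN' : N *ᵥ (N *ᵥ v) = (N * N) *ᵥ v := by
    rw [Matrix.mulVec_mulVec]
  apply rJor_conj A _ ![(N * N) *ᵥ v, N *ᵥ v, v]
  · rw [Fintype.linearIndependent_iff]
    intro g hg
    rw [Fin.sum_univ_three] at hg
    simp only [Matrix.cons_val_zero, Matrix.cons_val_one, Matrix.cons_val_two,
      Matrix.head_cons, Matrix.tail_cons] at hg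
    have h2 : g 2 = 0 := by
      have h5 := congrArg (fun w => (N * N) *ᵥ w) hg
      simp only [Matrix.mulVec_add, Matrix.mulVec_smul, Matrix.mulVec_zero] at h5
      have h6 : (N * N) *ᵥ ((N * N) *ᵥ v) = 0 := by
        rw [Matrix.mulVec_mulVec]
        have : N * N * (N * N) = (N * N * N) * N := by simp only [Matrix.mul_assoc]
        rw [this, hN3, Matrix.zero_mul, Matrix.zero_mulVec]
      have h7 : (N * N) *ᵥ (N *ᵥ v) = 0 := by
        rw [Matrix.mulVec_mulVec, hN3, Matrix.zero_mulVec]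
      rw [h6, h7] at h5
      simp only [smul_zero, zero_add] at h5
      rcases smul_eq_zero.mp h5 with h8 | h8
      · exact h8
      · exact absurd h8 hv
    have h1 : g 1 = 0 := by
      rw [h2, zero_smul, add_zero] at hg
      have h5 := congrArg (fun w => N *ᵥ w) hg
      simp only [Matrix.mulVec_add, Matrix.mulVec_smul, Matrix.mulVec_zero] at h5
      rw [hNNN, hNN'] at h5
      simp only [smul_zero, zero_add] at h5
      rcases smul_eq_zero.mp h5 with h8 | h8
      · exact h8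
      · exact absurd h8 hv
    have h0 : g 0 = 0 := by
      rw [h2, h1, zero_smul, zero_smul, add_zero, add_zero] at hg
      rcases smul_eq_zero.mp hg with h8 | h8
      · exact h8
      · exact absurd h8 hv
    intro i
    fin_cases i
    · exact h0
    · exact h1
    · exact h2
  · intro j
    rw [Fin.sum_univ_three]
    fin_cases j
    · simp only [Fin.zero_eta, Matrix.cons_val_zero, Matrix.of_apply, Matrix.cons_val',
        Matrix.cons_val_fin_one, Matrix.cons_val_one, Matrix.cons_val_two, Matrix.head_cons,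
        Matrix.tail_cons]
      rw [hAv, hNNN]
      simp
    · simp only [Fin.mk_one, Matrix.cons_val_zero, Matrix.of_apply, Matrix.cons_val',
        Matrix.cons_val_fin_one, Matrix.cons_val_one, Matrix.cons_val_two, Matrix.head_cons,
        Matrix.tail_cons]
      rw [hAv, hNN']
      simp
    · simp only [Fin.reduceFinMk, Matrix.cons_val_zero, Matrix.of_apply, Matrix.cons_val',
        Matrix.cons_val_fin_one, Matrix.cons_val_one, Matrix.cons_val_two, Matrix.head_cons,
        Matrix.tail_cons]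
      rw [hAv]
      simp

/-- The mixed case: a double root `l` and a simple root `m`. -/
theorem rJor_mixed (A : Matrix (Fin 3) (Fin 3) ℂ) (h : minpoly ℂ A = A.charpoly) (l m : ℂ)
    (hlm : l ≠ m) (hc : A.charpoly = (X - C l) * (X - C l) * (X - C m)) :
    ∃ P P' : Matrix (Fin 3) (Fin 3) ℂ, P * P' = 1 ∧ P' * P = 1 ∧
      P * A * P' = !![l, 1, 0; 0, l, 0; 0, 0, m] := by
  set N : Matrix (Fin 3) (Fin 3) ℂ := A - l • (1 : Matrix (Fin 3) (Fin 3) ℂ) with hN
  set K : Matrix (Fin 3) (Fin 3) ℂ := A - m • (1 : Matrix (Fin 3) (Fin 3) ℂ) with hK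
  have hNNK : N * N * K = 0 := by
    have h1 := Matrix.aeval_self_charpoly A
    rw [hc, rJor_aeval3] at h1
    exact h1
  have hKN : K = N + (l - m) • (1 : Matrix (Fin 3) (Fin 3) ℂ) := by
    rw [hN, hK, sub_smul]
    abel
  have hcomm : K * N = N * K := by
    rw [hKN, Matrix.add_mul, Matrix.mul_add, Matrix.smul_mul, Matrix.mul_smul, Matrix.one_mul,
      Matrix.mul_one]
  have hKNN : K * (N * N) = 0 := by
    rw [← Matrix.mul_assoc, hcomm, Matrix.mul_assoc, hcomm, ← Matrix.mul_assoc, hNNK]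
  have hNK : N * K ≠ 0 := rJor_quad_ne A h l m
  have hN2 : N * N ≠ 0 := rJor_quad_ne A h l l
  obtain ⟨v, hv⟩ := rJor_exists_vec (N * K) hNK
  obtain ⟨u, hu⟩ := rJor_exists_vec (N * N) hN2
  have hAN : ∀ w : Fin 3 → ℂ, A *ᵥ w = N *ᵥ w + l • w := by
    intro w
    rw [hN, rJor_sub_mulVec]
    abel
  have hAK : ∀ w : Fin 3 → ℂ, A *ᵥ w = K *ᵥ w + m • w := by
    intro w
    rw [hK, rJor_sub_mulVec]
    abel
  -- the three vectors
  have he0 : N *ᵥ ((N * K) *ᵥ v) = 0 := by
    rw [Matrix.mulVec_mulVec, ← Matrix.mul_assoc, hNNK, Matrix.zero_mulVec]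
  have he1 : N *ᵥ (K *ᵥ v) = (N * K) *ᵥ v := by
    rw [Matrix.mulVec_mulVec]
  have he2 : K *ᵥ ((N * N) *ᵥ u) = 0 := by
    rw [Matrix.mulVec_mulVec, hKNN, Matrix.zero_mulVec]
  have hNe2 : N *ᵥ ((N * N) *ᵥ u) = (m - l) • ((N * N) *ᵥ u) := by
    have h1 := hAN ((N * N) *ᵥ u)
    have h2 := hAK ((N * N) *ᵥ u)
    rw [he2, zero_add] at h2
    rw [h2] at h1
    rw [sub_smul]
    rw [h1]
    abel
  apply rJor_conj A _ ![(N * K) *ᵥ v, K *ᵥ v, (N * N) *ᵥ u]
  · rw [Fintype.linearIndependent_iff]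
    intro g hg
    rw [Fin.sum_univ_three] at hg
    simp only [Matrix.cons_val_zero, Matrix.cons_val_one, Matrix.cons_val_two,
      Matrix.head_cons, Matrix.tail_cons] at hg
    have hml : m - l ≠ 0 := sub_ne_zero.mpr (Ne.symm hlm)
    -- apply N once
    have h5 := congrArg (fun w => N *ᵥ w) hg
    simp only [Matrix.mulVec_add, Matrix.mulVec_smul, Matrix.mulVec_zero] at h5
    rw [he0, he1, hNe2] at h5
    simp only [smul_zero, zero_add] at h5
    -- apply N twice
    have h6 := congrArg (fun w => N *ᵥ w) h5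
    simp only [Matrix.mulVec_add, Matrix.mulVec_smul, Matrix.mulVec_zero] at h6
    rw [he0, hNe2] at h6
    simp only [smul_zero, zero_add] at h6
    have h2 : g 2 = 0 := by
      rw [smul_smul, smul_smul] at h6
      rcases smul_eq_zero.mp h6 with h8 | h8
      · rcases mul_eq_zero.mp h8 with h9 | h9
        · rcases mul_eq_zero.mp h9 with h10 | h10
          · exact h10
          · exact absurd h10 hml
        · exact absurd h9 hml
      · exact absurd h8 hu
    have h1 : g 1 = 0 := by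
      rw [h2, zero_smul, add_zero] at h5
      rcases smul_eq_zero.mp h5 with h8 | h8
      · exact h8
      · exact absurd h8 hv
    have h0 : g 0 = 0 := by
      rw [h2, h1, zero_smul, zero_smul, add_zero, add_zero] at hg
      rcases smul_eq_zero.mp hg with h8 | h8
      · exact h8
      · exact absurd h8 hv
    intro i
    fin_cases i
    · exact h0
    · exact h1
    · exact h2
  · intro j
    rw [Fin.sum_univ_three]
    fin_cases j
    · simp only [Fin.zero_eta, Matrix.cons_val_zero, Matrix.of_apply, Matrix.cons_val',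
        Matrix.cons_val_fin_one, Matrix.cons_val_one, Matrix.cons_val_two, Matrix.head_cons,
        Matrix.tail_cons]
      rw [hAN, he0]
      simp
    · simp only [Fin.mk_one, Matrix.cons_val_zero, Matrix.of_apply, Matrix.cons_val',
        Matrix.cons_val_fin_one, Matrix.cons_val_one, Matrix.cons_val_two, Matrix.head_cons,
        Matrix.tail_cons]
      rw [hAN, he1]
      simp
    · simp only [Fin.reduceFinMk, Matrix.cons_val_zero, Matrix.of_apply, Matrix.cons_val',
        Matrix.cons_val_fin_one, Matrix.cons_val_one, Matrix.cons_val_two, Matrix.head_cons,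
        Matrix.tail_cons]
      rw [hAK, he2]
      simp

/-- A complex three by three matrix whose minimal polynomial equals its characteristic
polynomial is conjugate to a diagonal matrix, to a two by two block plus a different
eigenvalue, or to a full three by three block. -/
theorem rJordan (A : Matrix (Fin 3) (Fin 3) ℂ) (h : minpoly ℂ A = A.charpoly) :
    ∃ P P' : Matrix (Fin 3) (Fin 3) ℂ, P * P' = 1 ∧ P' * P = 1 ∧
      ((∃ d : Fin 3 → ℂ, P * A * P' = Matrix.diagonal d) ∨
        (∃ l m : ℂ, l ≠ m ∧ P * A * P' = !![l, 1, 0; 0, l, 0; 0, 0, m]) ∨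
        (∃ l : ℂ, P * A * P' = !![l, 1, 0; 0, l, 1; 0, 0, l])) := by
  obtain ⟨r0, r1, r2, hc⟩ := rJor_split A
  -- reduce to the shape with a repeated root, or all distinct
  have key : ∀ l m : ℂ, A.charpoly = (X - C l) * (X - C l) * (X - C m) →
      ∃ P P' : Matrix (Fin 3) (Fin 3) ℂ, P * P' = 1 ∧ P' * P = 1 ∧
      ((∃ d : Fin 3 → ℂ, P * A * P' = Matrix.diagonal d) ∨
        (∃ l m : ℂ, l ≠ m ∧ P * A * P' = !![l, 1, 0; 0, l, 0; 0, 0, m]) ∨
        (∃ l : ℂ, P * A * P' = !![l, 1, 0; 0, l, 1; 0, 0, l])) := by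
    intro l m hlm
    by_cases hEq : l = m
    · subst hEq
      obtain ⟨P, P', h1, h2, h3⟩ := rJor_block A h l hlm
      exact ⟨P, P', h1, h2, Or.inr (Or.inr ⟨l, h3⟩)⟩
    · obtain ⟨P, P', h1, h2, h3⟩ := rJor_mixed A h l m hEq hlm
      exact ⟨P, P', h1, h2, Or.inr (Or.inl ⟨l, m, hEq, h3⟩)⟩
  by_cases h01 : r0 = r1
  · apply key r0 r2
    rw [hc, h01]
  by_cases h02 : r0 = r2
  · apply key r0 r1
    rw [hc, h02]
    ring
  by_cases h12 : r1 = r2
  · apply key r1 r0
    rw [hc, h12]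
    ring
  · have hinj : Function.Injective ![r0, r1, r2] := by
      intro i j hij
      fin_cases i <;> fin_cases j <;> simp_all
    obtain ⟨g, g', h1, h2, h3⟩ := e6_diag3 A ![r0, r1, r2] hinj (by simpa using hc)
    exact ⟨g, g', h1, h2, Or.inl ⟨![r0, r1, r2], h3⟩⟩

end Vale.Agent.Lib.P002
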