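import Vale.Agent.Lib.P002.RegDefs
import Vale.Agent.Lib.P002.RegJordan
import Vale.Agent.Lib.P002.RegConj

/-!
# Regular three by three matrices are conjugate to companion matrices

A complex three by three matrix whose minimal polynomial is its characteristic polynomial has a
cyclic vector, hence is conjugate to the companion matrix of its characteristic polynomial.
Two such matrices with the same characteristic polynomial are conjugate.
-/

noncomputable section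

namespace Vale.Agent.Lib.P002

open Polynomial Matrix

/-- Linear independence of a triple of vectors from a nonzero determinant. -/
theorem rCompAux_li (e : Fin 3 → Fin 3 → ℂ)
    (hdet : (Matrix.of fun i j => e j i : Matrix (Fin 3) (Fin 3) ℂ).det ≠ 0) :
    LinearIndependent ℂ e := by
  have hcol : (Matrix.of fun i j => e j i : Matrix (Fin 3) (Fin 3) ℂ).col = e := by
    funext j i
    rfl
  rw [← hcol, Matrix.linearIndependent_cols_iff_isUnit, Matrix.isUnit_iff_isUnit_det]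
  exact isUnit_iff_ne_zero.mpr hdet

/-- The theorem of Cayley and Hamilton, applied to a vector. -/
theorem rCompAux_ch (J : Matrix (Fin 3) (Fin 3) ℂ) (p : Fin 3 → ℂ)
    (hJ : J.charpoly = X ^ 3 - C (p 0) * X ^ 2 + C (p 1) * X - C (p 2)) (x : Fin 3 → ℂ) :
    J *ᵥ (J *ᵥ (J *ᵥ x)) = p 2 • x - p 1 • (J *ᵥ x) + p 0 • (J *ᵥ (J *ᵥ x)) := by
  have h1 := Matrix.aeval_self_charpoly J
  rw [hJ] at h1
  have h2 : J ^ 3 - p 0 • J ^ 2 + p 1 • J - p 2 • (1 : Matrix (Fin 3) (Fin 3) ℂ) = 0 := by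
    simpa [Algebra.algebraMap_eq_smul_one] using h1
  have h3 := congrArg (fun N => N *ᵥ x) h2
  simp only [Matrix.sub_mulVec, Matrix.add_mulVec, Matrix.smul_mulVec, Matrix.one_mulVec,
    Matrix.zero_mulVec] at h3
  have e3 : (J ^ 3) *ᵥ x = J *ᵥ (J *ᵥ (J *ᵥ x)) := by
    rw [pow_succ, pow_two]
    simp only [Matrix.mulVec_mulVec, Matrix.mul_assoc]
  have e2 : (J ^ 2) *ᵥ x = J *ᵥ (J *ᵥ x) := by
    rw [pow_two, Matrix.mulVec_mulVec]
  rw [e3, e2] at h3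
  rw [← sub_eq_zero, ← h3]
  abel

/-- A matrix with a cyclic vector is conjugate to the companion matrix of its characteristic
polynomial. -/
theorem rCompAux_cyc (J : Matrix (Fin 3) (Fin 3) ℂ) (p : Fin 3 → ℂ)
    (hJ : J.charpoly = X ^ 3 - C (p 0) * X ^ 2 + C (p 1) * X - C (p 2)) (x : Fin 3 → ℂ)
    (hli : LinearIndependent ℂ ![x, J *ᵥ x, J *ᵥ (J *ᵥ x)]) :
    ∃ Q Q' : Matrix (Fin 3) (Fin 3) ℂ, Q * Q' = 1 ∧ Q' * Q = 1 ∧
      Q * J * Q' = !![0, 0, p 2; 1, 0, -p 1; 0, 1, p 0] := by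
  apply rJor_conj J _ ![x, J *ᵥ x, J *ᵥ (J *ᵥ x)] hli
  intro j
  rw [Fin.sum_univ_three]
  fin_cases j
  · simp
  · simp
  · show J *ᵥ (J *ᵥ (J *ᵥ x)) = _
    rw [rCompAux_ch J p hJ x]
    simp
    abel

/-- A cyclic vector for a Jordan block. -/
theorem rCompAux_block (l : ℂ) :
    ∃ x : Fin 3 → ℂ, LinearIndependent ℂ
      ![x, (!![l, 1, 0; 0, l, 1; 0, 0, l] : Matrix (Fin 3) (Fin 3) ℂ) *ᵥ x,
        (!![l, 1, 0; 0, l, 1; 0, 0, l] : Matrix (Fin 3) (Fin 3) ℂ) *ᵥ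
          ((!![l, 1, 0; 0, l, 1; 0, 0, l] : Matrix (Fin 3) (Fin 3) ℂ) *ᵥ x)] := by
  refine ⟨![0, 0, 1], ?_⟩
  have e1 : (!![l, 1, 0; 0, l, 1; 0, 0, l] : Matrix (Fin 3) (Fin 3) ℂ) *ᵥ ![0, 0, 1]
      = ![0, 1, l] := by
    funext i
    fin_cases i <;> simp [Matrix.mulVec, dotProduct, Fin.sum_univ_three]
  have e2 : (!![l, 1, 0; 0, l, 1; 0, 0, l] : Matrix (Fin 3) (Fin 3) ℂ) *ᵥ ![0, 1, l]
      = ![1, 2 * l, l ^ 2] := by
    funext i
    fin_cases i <;> simp [Matrix.mulVec, dotProduct, Fin.sum_univ_three] <;> ring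
  rw [e1, e2]
  apply rCompAux_li
  rw [Matrix.det_fin_three]
  simp

/-- A cyclic vector for a Jordan block of size two plus a different eigenvalue. -/
theorem rCompAux_two (l m : ℂ) (hlm : l ≠ m) :
    ∃ x : Fin 3 → ℂ, LinearIndependent ℂ
      ![x, (!![l, 1, 0; 0, l, 0; 0, 0, m] : Matrix (Fin 3) (Fin 3) ℂ) *ᵥ x,
        (!![l, 1, 0; 0, l, 0; 0, 0, m] : Matrix (Fin 3) (Fin 3) ℂ) *ᵥ
          ((!![l, 1, 0; 0, l, 0; 0, 0, m] : Matrix (Fin 3) (Fin 3) ℂ) *ᵥ x)] := by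
  refine ⟨![0, 1, 1], ?_⟩
  have e1 : (!![l, 1, 0; 0, l, 0; 0, 0, m] : Matrix (Fin 3) (Fin 3) ℂ) *ᵥ ![0, 1, 1]
      = ![1, l, m] := by
    funext i
    fin_cases i <;> simp [Matrix.mulVec, dotProduct, Fin.sum_univ_three]
  have e2 : (!![l, 1, 0; 0, l, 0; 0, 0, m] : Matrix (Fin 3) (Fin 3) ℂ) *ᵥ ![1, l, m]
      = ![2 * l, l ^ 2, m ^ 2] := by
    funext i
    fin_cases i <;> simp [Matrix.mulVec, dotProduct, Fin.sum_univ_three] <;> ring
  rw [e1, e2]
  apply rCompAux_li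
  have hd : (Matrix.of fun i j => (![![0, 1, 1], ![1, l, m], ![2 * l, l ^ 2, m ^ 2]] :
      Fin 3 → Fin 3 → ℂ) j i : Matrix (Fin 3) (Fin 3) ℂ).det = -(m - l) ^ 2 := by
    rw [Matrix.det_fin_three]
    simp
    ring
  rw [hd]
  exact neg_ne_zero.mpr (pow_ne_zero 2 (sub_ne_zero.mpr (Ne.symm hlm)))

/-- A cyclic vector for a regular diagonal matrix. -/
theorem rCompAux_diag (d : Fin 3 → ℂ)
    (hreg : minpoly ℂ (Matrix.diagonal d) = (Matrix.diagonal d).charpoly) :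
    ∃ x : Fin 3 → ℂ, LinearIndependent ℂ
      ![x, Matrix.diagonal d *ᵥ x, Matrix.diagonal d *ᵥ (Matrix.diagonal d *ᵥ x)] := by
  have hq := rJor_quad_ne (Matrix.diagonal d) hreg
  have hdiag : ∀ l : ℂ, Matrix.diagonal d - l • (1 : Matrix (Fin 3) (Fin 3) ℂ)
      = Matrix.diagonal (fun i => d i - l) := by
    intro l
    ext a b
    by_cases hab : a = b
    · subst hab
      simp
    · simp [Matrix.diagonal_apply_ne _ hab, Matrix.one_apply_ne hab]
  have hprod : ∀ l m : ℂ, ∃ i : Fin 3, (d i - l) * (d i - m) ≠ 0 := by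
    intro l m
    by_contra hcon
    push Not at hcon
    apply hq l m
    rw [hdiag, hdiag, Matrix.diagonal_mul_diagonal]
    have h0 : (fun i => (d i - l) * (d i - m)) = fun _ => (0 : ℂ) := funext hcon
    rw [h0]
    exact Matrix.diagonal_zero
  have h01 : d 0 ≠ d 1 := by
    intro h
    obtain ⟨i, hi⟩ := hprod (d 0) (d 2)
    apply hi
    fin_cases i <;> simp [h]
  have h02 : d 0 ≠ d 2 := by
    intro h
    obtain ⟨i, hi⟩ := hprod (d 0) (d 1)
    apply hi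
    fin_cases i <;> simp [h]
  have h12 : d 1 ≠ d 2 := by
    intro h
    obtain ⟨i, hi⟩ := hprod (d 0) (d 1)
    apply hi
    fin_cases i <;> simp [h]
  refine ⟨![1, 1, 1], ?_⟩
  have e1 : Matrix.diagonal d *ᵥ ![1, 1, 1] = ![d 0, d 1, d 2] := by
    funext i
    fin_cases i <;> simp [Matrix.mulVec_diagonal]
  have e2 : Matrix.diagonal d *ᵥ ![d 0, d 1, d 2] = ![d 0 ^ 2, d 1 ^ 2, d 2 ^ 2] := by
    funext i
    fin_cases i <;> simp [Matrix.mulVec_diagonal, sq]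
  rw [e1, e2]
  apply rCompAux_li
  have hd : (Matrix.of fun i j => (![![1, 1, 1], ![d 0, d 1, d 2],
      ![d 0 ^ 2, d 1 ^ 2, d 2 ^ 2]] : Fin 3 → Fin 3 → ℂ) j i : Matrix (Fin 3) (Fin 3) ℂ).det
      = (d 1 - d 0) * (d 2 - d 0) * (d 2 - d 1) := by
    rw [Matrix.det_fin_three]
    simp
    ring
  rw [hd]
  exact mul_ne_zero (mul_ne_zero (sub_ne_zero.mpr (Ne.symm h01)) (sub_ne_zero.mpr (Ne.symm h02)))
    (sub_ne_zero.mpr (Ne.symm h12))

theorem rCompanion (M : Matrix (Fin 3) (Fin 3) ℂ) (h : minpoly ℂ M = M.charpoly)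
    (p : Fin 3 → ℂ) (hM : M.charpoly = X ^ 3 - C (p 0) * X ^ 2 + C (p 1) * X - C (p 2)) :
    ∃ P P' : Matrix (Fin 3) (Fin 3) ℂ, P * P' = 1 ∧ P' * P = 1 ∧
      P * M * P' = !![0, 0, p 2; 1, 0, -p 1; 0, 1, p 0] := by
  obtain ⟨P, P', h1, h2, hcases⟩ := rJordan M h
  have hcp : (P * M * P').charpoly = X ^ 3 - C (p 0) * X ^ 2 + C (p 1) * X - C (p 2) := by
    rw [← hM, Matrix.charpoly_mul_comm, ← Matrix.mul_assoc, h2, Matrix.one_mul]
  have hreg : minpoly ℂ (P * M * P') = (P * M * P').charpoly := by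
    rw [rMinpoly_conj M P P' h1 h2, h, hM, hcp]
  have key : ∃ x : Fin 3 → ℂ, LinearIndependent ℂ
      ![x, (P * M * P') *ᵥ x, (P * M * P') *ᵥ ((P * M * P') *ᵥ x)] := by
    rcases hcases with ⟨d, hd⟩ | ⟨l, m, hlm, hJ⟩ | ⟨l, hJ⟩
    · rw [hd] at hreg ⊢
      exact rCompAux_diag d hreg
    · rw [hJ]
      exact rCompAux_two l m hlm
    · rw [hJ]
      exact rCompAux_block l
  obtain ⟨x, hx⟩ := key
  obtain ⟨Q, Q', hq1, hq2, hq⟩ := rCompAux_cyc (P * M * P') p hcp x hx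
  refine ⟨Q * P, P' * Q', ?_, ?_, ?_⟩
  · calc Q * P * (P' * Q') = Q * (P * P') * Q' := by simp only [Matrix.mul_assoc]
      _ = 1 := by rw [h1, Matrix.mul_one, hq1]
  · calc P' * Q' * (Q * P) = P' * (Q' * Q) * P := by simp only [Matrix.mul_assoc]
      _ = 1 := by rw [hq2, Matrix.mul_one, h2]
  · rw [← hq]
    simp only [Matrix.mul_assoc]

theorem rReg_conj (M N : Matrix (Fin 3) (Fin 3) ℂ) (hM : minpoly ℂ M = M.charpoly)
    (hN : minpoly ℂ N = N.charpoly) (h : M.charpoly = N.charpoly) :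
    ∃ P P' : Matrix (Fin 3) (Fin 3) ℂ, P * P' = 1 ∧ P' * P = 1 ∧ P * M * P' = N := by
  have hcM := charpoly_fin_three M
  have hcN := hcM
  rw [h] at hcN
  obtain ⟨P1, P1', a1, a2, a3⟩ := rCompanion M hM
    ![M.trace, M 0 0 * M 1 1 - M 0 1 * M 1 0 + (M 0 0 * M 2 2 - M 0 2 * M 2 0)
      + (M 1 1 * M 2 2 - M 1 2 * M 2 1), M.det] (by simpa using hcM)
  obtain ⟨P2, P2', b1, b2, b3⟩ := rCompanion N hN
    ![M.trace, M 0 0 * M 1 1 - M 0 1 * M 1 0 + (M 0 0 * M 2 2 - M 0 2 * M 2 0)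
      + (M 1 1 * M 2 2 - M 1 2 * M 2 1), M.det] (by simpa using hcN)
  refine ⟨P2' * P1, P1' * P2, ?_, ?_, ?_⟩
  · calc P2' * P1 * (P1' * P2) = P2' * (P1 * P1') * P2 := by simp only [Matrix.mul_assoc]
      _ = 1 := by rw [a1, Matrix.mul_one, b2]
  · calc P1' * P2 * (P2' * P1) = P1' * (P2 * P2') * P1 := by simp only [Matrix.mul_assoc]
      _ = 1 := by rw [b1, Matrix.mul_one, a2]
  · calc P2' * P1 * M * (P1' * P2) = P2' * (P1 * M * P1') * P2 := by
          simp only [Matrix.mul_assoc]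
      _ = P2' * (P2 * N * P2') * P2 := by rw [a3, b3]
      _ = (P2' * P2) * N * (P2' * P2) := by simp only [Matrix.mul_assoc]
      _ = N := by rw [b2, Matrix.one_mul, Matrix.mul_one]

end Vale.Agent.Lib.P002

end
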