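import Vale.Agent.Lib.P002.RegDefs

/-!
# Reducible semisimple pairs of three by three matrices

A reducible semisimple pair `(A, B)` splits as a line plus a plane.  In a suitable basis both
matrices have all entries in any subring containing the eigenvalues of `A`, of `B` and of
`A * B`.
-/

noncomputable section

namespace Vale.Agent.Lib.P002

open Polynomial Matrix


/-- A nonzero invariant subspace contains an eigenvector. -/
theorem rRed_eigvec (M : Matrix (Fin 3) (Fin 3) ℂ) (H : Submodule ℂ (Fin 3 → ℂ))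
    (hinv : rInv M H) (hH : H ≠ ⊥) :
    ∃ v ∈ H, v ≠ 0 ∧ ∃ c : ℂ, M *ᵥ v = c • v := by
  have hnt : Nontrivial H := (Submodule.nontrivial_iff_ne_bot).2 hH
  have hmap : ∀ x ∈ H, Matrix.mulVecLin M x ∈ H := fun x hx => by
    simpa [Matrix.mulVecLin_apply] using hinv x hx
  obtain ⟨c, hc⟩ := Module.End.exists_eigenvalue ((Matrix.mulVecLin M).restrict hmap)
  obtain ⟨v, hv⟩ := hc.exists_hasEigenvector
  refine ⟨(v : Fin 3 → ℂ), v.2, ?_, c, ?_⟩
  · intro h0
    exact hv.2 (Subtype.ext h0)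
  · have h1 := hv.apply_eq_smul
    have h2 := congrArg (Subtype.val) h1
    simpa [LinearMap.restrict_apply, Matrix.mulVecLin_apply] using h2

/-- An invariant line is spanned by a common eigenvector. -/
theorem rRed_line (A B : Matrix (Fin 3) (Fin 3) ℂ) (L : Submodule ℂ (Fin 3 → ℂ))
    (hL : Module.finrank ℂ L = 1) (hAL : rInv A L) (hBL : rInv B L) :
    ∃ e0 ∈ L, e0 ≠ 0 ∧ (∃ c : ℂ, A *ᵥ e0 = c • e0) ∧ (∃ c : ℂ, B *ᵥ e0 = c • e0) := by
  obtain ⟨v, hv0, hv⟩ := (finrank_eq_one_iff' (K := ℂ) (V := L)).1 hL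
  refine ⟨(v : Fin 3 → ℂ), v.2, ?_, ?_, ?_⟩
  · intro h0
    exact hv0 (Subtype.ext h0)
  · obtain ⟨c, hc⟩ := hv ⟨A *ᵥ (v : Fin 3 → ℂ), hAL _ v.2⟩
    refine ⟨c, ?_⟩
    have h2 := congrArg (Subtype.val) hc
    simpa using h2.symm
  · obtain ⟨c, hc⟩ := hv ⟨B *ᵥ (v : Fin 3 → ℂ), hBL _ v.2⟩
    refine ⟨c, ?_⟩
    have h2 := congrArg (Subtype.val) hc
    simpa using h2.symm

/-- A reducible semisimple pair has an invariant line with an invariant complementary plane. -/
theorem rRed_split (A B : Matrix (Fin 3) (Fin 3) ℂ) (hss : rSS A B) (hred : ¬ rIrr A B) :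
    ∃ L H : Submodule ℂ (Fin 3 → ℂ), rInv A L ∧ rInv B L ∧ rInv A H ∧ rInv B H ∧
      IsCompl L H ∧ Module.finrank ℂ L = 1 ∧ Module.finrank ℂ H = 2 := by
  unfold rIrr at hred
  push Not at hred
  obtain ⟨W, hAW, hBW, hWbot, hWtop⟩ := hred
  obtain ⟨W', hAW', hBW', hc⟩ := hss W hAW hBW
  have hsum : Module.finrank ℂ W + Module.finrank ℂ W' = 3 := by
    have h := Submodule.finrank_add_eq_of_isCompl hc
    simpa using h
  have h0 : Module.finrank ℂ W ≠ 0 := by
    intro h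
    exact hWbot (Submodule.finrank_eq_zero.1 h)
  have h3 : Module.finrank ℂ W ≠ 3 := by
    intro h
    apply hWtop
    apply Submodule.eq_top_of_finrank_eq
    simpa using h
  have hcases : Module.finrank ℂ W = 1 ∨ Module.finrank ℂ W = 2 := by omega
  rcases hcases with h | h
  · exact ⟨W, W', hAW, hBW, hAW', hBW', hc, h, by omega⟩
  · exact ⟨W', W, hAW', hBW', hAW, hBW, hc.symm, by omega, h⟩


/-- Coordinates in a plane with respect to an independent pair. -/
theorem rRed_pair_coords (H : Submodule ℂ (Fin 3 → ℂ)) (hH : Module.finrank ℂ H = 2)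
    (e1 e2 : Fin 3 → ℂ) (h1 : e1 ∈ H) (h2 : e2 ∈ H) (hli : LinearIndependent ℂ ![e1, e2]) :
    ∀ v ∈ H, ∃ x y : ℂ, v = x • e1 + y • e2 := by
  have hle : Submodule.span ℂ (Set.range ![e1, e2]) ≤ H := by
    rw [Submodule.span_le]
    rintro x ⟨i, rfl⟩
    fin_cases i
    · exact h1
    · exact h2
  have hfr : Module.finrank ℂ (Submodule.span ℂ (Set.range ![e1, e2])) = 2 := by
    rw [finrank_span_eq_card hli]
    simp
  have heq : Submodule.span ℂ (Set.range ![e1, e2]) = H :=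
    Submodule.eq_of_le_of_finrank_eq hle (by rw [hfr, hH])
  intro v hv
  rw [← heq, Matrix.range_cons_cons_empty, Submodule.mem_span_pair] at hv
  obtain ⟨x, y, hxy⟩ := hv
  exact ⟨x, y, hxy.symm⟩

/-- In an invariant plane of a semisimple pair there are an eigenvector of the first matrix and
an eigenvector of the second matrix which are independent. -/
theorem rRed_pair (A B : Matrix (Fin 3) (Fin 3) ℂ) (hss : rSS A B)
    (H : Submodule ℂ (Fin 3 → ℂ)) (hAH : rInv A H) (hBH : rInv B H)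
    (hH : Module.finrank ℂ H = 2) :
    ∃ e1 e2 : Fin 3 → ℂ, e1 ∈ H ∧ e2 ∈ H ∧ LinearIndependent ℂ ![e1, e2] ∧
      (∃ c : ℂ, A *ᵥ e1 = c • e1) ∧ (∃ c : ℂ, B *ᵥ e2 = c • e2) := by
  have hHbot : H ≠ ⊥ := by
    intro h
    rw [h] at hH
    simp at hH
  obtain ⟨e1, he1H, he10, c1, hc1⟩ := rRed_eigvec A H hAH hHbot
  obtain ⟨e2, he2H, he20, c2, hc2⟩ := rRed_eigvec B H hBH hHbot
  by_cases hli : LinearIndependent ℂ ![e1, e2]
  · exact ⟨e1, e2, he1H, he2H, hli, ⟨c1, hc1⟩, ⟨c2, hc2⟩⟩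
  · -- the two eigenvectors are parallel, so `e1` is a common eigenvector
    have hpar : ∃ k : ℂ, k • e2 = e1 := by
      by_contra hk
      apply hli
      rw [LinearIndependent.pair_iff]
      intro s t hst
      by_cases hs : s = 0
      · subst hs
        simp only [zero_smul, zero_add, smul_eq_zero] at hst
        rcases hst with h | h
        · exact ⟨rfl, h⟩
        · exact absurd h he20
      · exfalso
        apply hk
        refine ⟨-(s⁻¹ * t), ?_⟩
        have h3 : s • e1 = -(t • e2) := eq_neg_of_add_eq_zero_left hst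
        have h4 : e1 = s⁻¹ • (s • e1) := by rw [smul_smul, inv_mul_cancel₀ hs, one_smul]
        rw [h4, h3, smul_neg, smul_smul, neg_smul]
    obtain ⟨k, hk⟩ := hpar
    have hk0 : k ≠ 0 := by
      rintro rfl
      rw [zero_smul] at hk
      exact he10 hk.symm
    have hB1 : B *ᵥ e1 = c2 • e1 := by
      rw [← hk, Matrix.mulVec_smul, hc2, smul_smul, smul_smul, mul_comm]
    -- the line spanned by `e1` is invariant
    have hAL : rInv A (Submodule.span ℂ {e1}) := by
      intro v hv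
      rw [Submodule.mem_span_singleton] at hv ⊢
      obtain ⟨x, rfl⟩ := hv
      exact ⟨x * c1, by rw [Matrix.mulVec_smul, hc1, smul_smul]⟩
    have hBL : rInv B (Submodule.span ℂ {e1}) := by
      intro v hv
      rw [Submodule.mem_span_singleton] at hv ⊢
      obtain ⟨x, rfl⟩ := hv
      exact ⟨x * c2, by rw [Matrix.mulVec_smul, hB1, smul_smul]⟩
    obtain ⟨K, hAK, hBK, hc⟩ := hss _ hAL hBL
    have hKfr : Module.finrank ℂ K = 2 := by
      have h := Submodule.finrank_add_eq_of_isCompl hc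
      rw [finrank_span_singleton he10] at h
      simp at h
      omega
    have hinf : K ⊓ H ≠ ⊥ := by
      intro h
      have h5 := Submodule.finrank_sup_add_finrank_inf_eq K H
      rw [h, hKfr, hH] at h5
      have h6 : Module.finrank ℂ (K ⊔ H : Submodule ℂ (Fin 3 → ℂ)) ≤ 3 := by
        have := Submodule.finrank_le (K ⊔ H)
        simpa using this
      simp at h5
      omega
    have hBinf : rInv B (K ⊓ H) := fun v hv => ⟨hBK v hv.1, hBH v hv.2⟩
    obtain ⟨e2', he2', he2'0, c2', hc2'⟩ := rRed_eigvec B (K ⊓ H) hBinf hinf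
    refine ⟨e1, e2', he1H, he2'.2, ?_, ⟨c1, hc1⟩, ⟨c2', hc2'⟩⟩
    rw [LinearIndependent.pair_iff]
    intro s t hst
    by_cases hs : s = 0
    · subst hs
      simp only [zero_smul, zero_add, smul_eq_zero] at hst
      rcases hst with h | h
      · exact ⟨rfl, h⟩
      · exact absurd h he2'0
    · exfalso
      have h3 : s • e1 = -(t • e2') := eq_neg_of_add_eq_zero_left hst
      have h4 : e1 = s⁻¹ • (s • e1) := by rw [smul_smul, inv_mul_cancel₀ hs, one_smul]
      have h5 : e1 ∈ K := by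
        rw [h4, h3]
        exact K.smul_mem _ (K.neg_mem (K.smul_mem _ he2'.1))
      have h6 : e1 ∈ Submodule.span ℂ {e1} ⊓ K :=
        ⟨Submodule.mem_span_singleton_self e1, h5⟩
      rw [hc.inf_eq_bot] at h6
      exact he10 ((Submodule.mem_bot ℂ).1 h6)

/-- A vector on a line, off the complementary plane, together with an independent pair in the
plane, is an independent triple. -/
theorem rRed_triple (L H : Submodule ℂ (Fin 3 → ℂ)) (hc : IsCompl L H)
    (e0 e1 e2 : Fin 3 → ℂ) (h0 : e0 ∈ L) (h00 : e0 ≠ 0) (h1 : e1 ∈ H) (h2 : e2 ∈ H)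
    (hli : LinearIndependent ℂ ![e1, e2]) : LinearIndependent ℂ ![e0, e1, e2] := by
  rw [Fintype.linearIndependent_iff]
  intro g hg
  rw [Fin.sum_univ_three] at hg
  simp only [Matrix.cons_val_zero, Matrix.cons_val_one, Matrix.cons_val_two,
    Matrix.head_cons, Matrix.tail_cons] at hg
  have h3 : g 0 • e0 = -(g 1 • e1 + g 2 • e2) := by
    rw [add_assoc] at hg
    exact eq_neg_of_add_eq_zero_left hg
  have h4 : g 0 • e0 ∈ L ⊓ H := by
    refine ⟨L.smul_mem _ h0, ?_⟩
    rw [h3]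
    exact H.neg_mem (H.add_mem (H.smul_mem _ h1) (H.smul_mem _ h2))
  rw [hc.inf_eq_bot, Submodule.mem_bot] at h4
  have hg0 : g 0 = 0 := by
    rcases smul_eq_zero.1 h4 with h | h
    · exact h
    · exact absurd h h00
  rw [hg0, zero_smul, zero_add] at hg
  have h5 := (LinearIndependent.pair_iff.1 hli) (g 1) (g 2) hg
  intro i
  fin_cases i
  · exact hg0
  · exact h5.1
  · exact h5.2


/-- Rescaling the second vector of an independent pair. -/
theorem rRed_pair_smul (e1 e2 : Fin 3 → ℂ) (hli : LinearIndependent ℂ ![e1, e2]) (k : ℂ)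
    (hk : k ≠ 0) : LinearIndependent ℂ ![e1, k • e2] := by
  rw [LinearIndependent.pair_iff] at hli ⊢
  intro s t hst
  rw [smul_smul] at hst
  have h := hli s (t * k) hst
  refine ⟨h.1, ?_⟩
  rcases mul_eq_zero.1 h.2 with h' | h'
  · exact h'
  · exact absurd h' hk

/-- The normal form of a semisimple pair on an invariant plane. -/
theorem rRed_pair_norm (A B : Matrix (Fin 3) (Fin 3) ℂ) (hss : rSS A B)
    (H : Submodule ℂ (Fin 3 → ℂ)) (hAH : rInv A H) (hBH : rInv B H)
    (hH : Module.finrank ℂ H = 2) :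
    ∃ e1 e2 : Fin 3 → ℂ, e1 ∈ H ∧ e2 ∈ H ∧ LinearIndependent ℂ ![e1, e2] ∧
      ∃ α1 α2 s β1 β2 t : ℂ, A *ᵥ e1 = α1 • e1 ∧ A *ᵥ e2 = s • e1 + α2 • e2 ∧
        B *ᵥ e1 = β1 • e1 + t • e2 ∧ B *ᵥ e2 = β2 • e2 ∧
        (s = 1 ∨ (s = 0 ∧ (t = 0 ∨ t = 1))) := by
  obtain ⟨e1, e2, h1, h2, hli, ⟨α1, hα1⟩, ⟨β2, hβ2⟩⟩ := rRed_pair A B hss H hAH hBH hH
  obtain ⟨s, α2, hs⟩ := rRed_pair_coords H hH e1 e2 h1 h2 hli _ (hAH e2 h2)
  obtain ⟨β1, t, ht⟩ := rRed_pair_coords H hH e1 e2 h1 h2 hli _ (hBH e1 h1)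
  by_cases hs0 : s = 0
  · by_cases ht0 : t = 0
    · exact ⟨e1, e2, h1, h2, hli, α1, α2, s, β1, β2, t, hα1, hs, ht, hβ2,
        Or.inr ⟨hs0, Or.inl ht0⟩⟩
    · refine ⟨e1, t • e2, h1, H.smul_mem _ h2, rRed_pair_smul e1 e2 hli t ht0,
        α1, α2, 0, β1, β2, 1, hα1, ?_, ?_, ?_, Or.inr ⟨rfl, Or.inr rfl⟩⟩
      · rw [Matrix.mulVec_smul, hs, hs0, zero_smul, zero_add, zero_add, smul_smul,
          smul_smul, mul_comm]
      · rw [ht, one_smul]
      · rw [Matrix.mulVec_smul, hβ2, smul_smul, smul_smul, mul_comm]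
  · refine ⟨e1, s⁻¹ • e2, h1, H.smul_mem _ h2, rRed_pair_smul e1 e2 hli s⁻¹ (inv_ne_zero hs0),
        α1, α2, 1, β1, β2, t * s, hα1, ?_, ?_, ?_, Or.inl rfl⟩
    · rw [Matrix.mulVec_smul, hs, smul_add, smul_smul, inv_mul_cancel₀ hs0, smul_smul, smul_smul,
        mul_comm]
    · rw [ht, smul_smul, mul_assoc, mul_inv_cancel₀ hs0, mul_one]
    · rw [Matrix.mulVec_smul, hβ2, smul_smul, smul_smul, mul_comm]

/-- Change of basis: the matrices of a basis and its inverse conjugate a matrix to its matrix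
of coordinates. -/
theorem rRed_conj (e : Fin 3 → (Fin 3 → ℂ)) (hli : LinearIndependent ℂ e) :
    ∃ P P' : Matrix (Fin 3) (Fin 3) ℂ, P * P' = 1 ∧ P' * P = 1 ∧
      ∀ N M : Matrix (Fin 3) (Fin 3) ℂ, (∀ j, N *ᵥ e j = ∑ i, M i j • e i) →
        P * N * P' = M := by
  have hu : IsUnit (Matrix.of fun i j => e j i : Matrix (Fin 3) (Fin 3) ℂ) := by
    rw [← Matrix.linearIndependent_cols_iff_isUnit]
    exact hli
  have hdet : IsUnit (Matrix.of fun i j => e j i : Matrix (Fin 3) (Fin 3) ℂ).det :=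
    (Matrix.isUnit_iff_isUnit_det _).1 hu
  refine ⟨(Matrix.of fun i j => e j i : Matrix (Fin 3) (Fin 3) ℂ)⁻¹,
    (Matrix.of fun i j => e j i : Matrix (Fin 3) (Fin 3) ℂ),
    Matrix.nonsing_inv_mul _ hdet, Matrix.mul_nonsing_inv _ hdet, ?_⟩
  intro N M h
  have key : N * (Matrix.of fun i j => e j i : Matrix (Fin 3) (Fin 3) ℂ)
      = (Matrix.of fun i j => e j i : Matrix (Fin 3) (Fin 3) ℂ) * M := by
    ext i j
    have hj := congrFun (h j) i
    rw [Matrix.mul_apply, Matrix.mul_apply]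
    simp only [Matrix.of_apply]
    have h1 : (N *ᵥ e j) i = ∑ k, N i k * e j k := rfl
    rw [← h1, hj]
    simp [Finset.sum_apply, mul_comm]
  rw [Matrix.mul_assoc, key, ← Matrix.mul_assoc, Matrix.nonsing_inv_mul _ hdet, Matrix.one_mul]

/-- The roots of `rChi d` are `d 0`, `d 1`, `d 2`. -/
theorem rRed_root (d : Fin 3 → ℂ) (x : ℂ) (h : (rChi d).eval x = 0) :
    x = d 0 ∨ x = d 1 ∨ x = d 2 := by
  unfold rChi at h
  simp only [eval_mul, eval_sub, eval_X, eval_C, mul_eq_zero, sub_eq_zero] at h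
  tauto

/-- An eigenvalue is a root of the characteristic polynomial. -/
theorem rRed_eig_root (M : Matrix (Fin 3) (Fin 3) ℂ) (v : Fin 3 → ℂ) (hv : v ≠ 0) (c : ℂ)
    (h : M *ᵥ v = c • v) : M.charpoly.eval c = 0 := by
  rw [Matrix.eval_charpoly]
  rw [← Matrix.exists_mulVec_eq_zero_iff]
  refine ⟨v, hv, ?_⟩
  rw [Matrix.sub_mulVec, h]
  ext i
  simp [Matrix.scalar_apply]

/-- The trace from the characteristic polynomial. -/
theorem rRed_trace (M : Matrix (Fin 3) (Fin 3) ℂ) (d : Fin 3 → ℂ) (h : M.charpoly = rChi d) :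
    M.trace = d 0 + d 1 + d 2 := by
  have h1 := Matrix.trace_eq_neg_charpoly_coeff M
  rw [h] at h1
  have h2 : rChi d = X ^ 3 - C (d 0 + d 1 + d 2) * X ^ 2
      + C (d 0 * d 1 + d 0 * d 2 + d 1 * d 2) * X - C (d 0 * d 1 * d 2) := by
    unfold rChi
    simp only [map_add, map_mul]
    ring
  rw [h2] at h1
  rw [h1, Fintype.card_fin]
  rw [coeff_sub, coeff_add, coeff_sub, coeff_X_pow, coeff_C_mul, coeff_C_mul, coeff_X_pow,
    coeff_X, coeff_C]
  norm_num


/-- A reducible semisimple pair of three by three matrices is conjugate to a pair with all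
entries in any subring containing the eigenvalues of the two matrices and of their product. -/
theorem rRed_integral (a b c : Fin 3 → ℂ) (O : Subring ℂ) (haO : ∀ i, a i ∈ O)
    (hbO : ∀ i, b i ∈ O) (hcO : ∀ i, c i ∈ O) (A B : Matrix (Fin 3) (Fin 3) ℂ)
    (hA : A.charpoly = rChi a) (hB : B.charpoly = rChi b) (hAB : (A * B).charpoly = rChi c)
    (hss : rSS A B) (hred : ¬ rIrr A B) :
    ∃ P P' : Matrix (Fin 3) (Fin 3) ℂ, P * P' = 1 ∧ P' * P = 1 ∧
      (∀ i j, (P * A * P') i j ∈ O) ∧ (∀ i j, (P * B * P') i j ∈ O) := by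
  obtain ⟨L, H, hAL, hBL, hAH, hBH, hc, hL, hH⟩ := rRed_split A B hss hred
  obtain ⟨e0, he0L, he00, ⟨α, hα⟩, ⟨β, hβ⟩⟩ := rRed_line A B L hL hAL hBL
  obtain ⟨e1, e2, h1, h2, hli, α1, α2, s, β1, β2, t, hα1, hα2, hβ1, hβ2, hnorm⟩ :=
    rRed_pair_norm A B hss H hAH hBH hH
  have hli3 := rRed_triple L H hc e0 e1 e2 he0L he00 h1 h2 hli
  obtain ⟨P, P', hPP', hP'P, hconj⟩ := rRed_conj ![e0, e1, e2] hli3
  have hMA : P * A * P' = !![α, 0, 0; 0, α1, s; 0, 0, α2] := by
    apply hconj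
    intro j
    fin_cases j
    · simp [Fin.sum_univ_three, hα]
    · simp [Fin.sum_univ_three, hα1]
    · simp [Fin.sum_univ_three, hα2]
  have hMB : P * B * P' = !![β, 0, 0; 0, β1, 0; 0, t, β2] := by
    apply hconj
    intro j
    fin_cases j
    · simp [Fin.sum_univ_three, hβ]
    · simp [Fin.sum_univ_three, hβ1]
    · simp [Fin.sum_univ_three, hβ2]
  have hroot : ∀ (d : Fin 3 → ℂ), (∀ i, d i ∈ O) → ∀ x, (rChi d).eval x = 0 → x ∈ O := by
    intro d hd x hx
    rcases rRed_root d x hx with h | h | h <;> rw [h] <;> exact hd _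
  have hαO : α ∈ O := hroot a haO α (hA ▸ rRed_eig_root A e0 he00 α hα)
  have he10 : e1 ≠ 0 := by
    have := hli.ne_zero 0
    simpa using this
  have he20 : e2 ≠ 0 := by
    have := hli.ne_zero 1
    simpa using this
  have hα1O : α1 ∈ O := hroot a haO α1 (hA ▸ rRed_eig_root A e1 he10 α1 hα1)
  have hβO : β ∈ O := hroot b hbO β (hB ▸ rRed_eig_root B e0 he00 β hβ)
  have hβ2O : β2 ∈ O := hroot b hbO β2 (hB ▸ rRed_eig_root B e2 he20 β2 hβ2)
  have htrA : A.trace = α + α1 + α2 := by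
    have h : (P * A * P').trace = A.trace := by
      rw [Matrix.trace_mul_comm, ← Matrix.mul_assoc, hP'P, Matrix.one_mul]
    rw [← h, hMA, Matrix.trace_fin_three]
    simp
  have htrB : B.trace = β + β1 + β2 := by
    have h : (P * B * P').trace = B.trace := by
      rw [Matrix.trace_mul_comm, ← Matrix.mul_assoc, hP'P, Matrix.one_mul]
    rw [← h, hMB, Matrix.trace_fin_three]
    simp
  have htrAB : (A * B).trace = α * β + α1 * β1 + s * t + α2 * β2 := by
    have h : ((P * A * P') * (P * B * P')).trace = (A * B).trace := by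
      have h' : (P * A * P') * (P * B * P') = P * (A * B) * P' := by
        calc (P * A * P') * (P * B * P') = P * A * (P' * P) * B * P' := by
              simp only [Matrix.mul_assoc]
          _ = P * (A * B) * P' := by rw [hP'P]; simp only [Matrix.mul_one, Matrix.mul_assoc]
      rw [h', Matrix.trace_mul_comm, ← Matrix.mul_assoc, hP'P, Matrix.one_mul]
    rw [← h, hMA, hMB, Matrix.trace_fin_three]
    simp [Matrix.mul_apply, Fin.sum_univ_three]
    ring
  have hα2O : α2 ∈ O := by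
    have h : α2 = (a 0 + a 1 + a 2) - α - α1 := by
      rw [← rRed_trace A a hA, htrA]; ring
    rw [h]
    exact O.sub_mem (O.sub_mem (O.add_mem (O.add_mem (haO 0) (haO 1)) (haO 2)) hαO) hα1O
  have hβ1O : β1 ∈ O := by
    have h : β1 = (b 0 + b 1 + b 2) - β - β2 := by
      rw [← rRed_trace B b hB, htrB]; ring
    rw [h]
    exact O.sub_mem (O.sub_mem (O.add_mem (O.add_mem (hbO 0) (hbO 1)) (hbO 2)) hβO) hβ2O
  have hstO : s * t ∈ O := by
    have h : s * t = (c 0 + c 1 + c 2) - α * β - α1 * β1 - α2 * β2 := by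
      rw [← rRed_trace (A * B) c hAB, htrAB]; ring
    rw [h]
    exact O.sub_mem (O.sub_mem (O.sub_mem (O.add_mem (O.add_mem (hcO 0) (hcO 1)) (hcO 2))
      (O.mul_mem hαO hβO)) (O.mul_mem hα1O hβ1O)) (O.mul_mem hα2O hβ2O)
  have hsO : s ∈ O := by
    rcases hnorm with h | ⟨h, _⟩
    · rw [h]; exact O.one_mem
    · rw [h]; exact O.zero_mem
  have htO : t ∈ O := by
    rcases hnorm with h | ⟨_, h | h⟩
    · rw [h, one_mul] at hstO; exact hstO
    · rw [h]; exact O.zero_mem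
    · rw [h]; exact O.one_mem
  refine ⟨P, P', hPP', hP'P, ?_, ?_⟩
  · intro i j
    rw [hMA]
    fin_cases i <;> fin_cases j <;> simp [O.zero_mem, hαO, hα1O, hα2O, hsO]
  · intro i j
    rw [hMB]
    fin_cases i <;> fin_cases j <;> simp [O.zero_mem, hβO, hβ1O, hβ2O, htO]

end Vale.Agent.Lib.P002

end
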