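import Vale.Agent.Lib.P002.RegDefs
import Vale.Agent.Lib.P002.RegRed

/-!
# Levelt's normal form in rank three

An irreducible pair of three by three matrices whose difference has rank at most one is
simultaneously conjugate to the pair of companion matrices of the two characteristic
polynomials.
-/

noncomputable section

namespace Vale.Agent.Lib.P002

open Polynomial Matrix

/-- A rank one matrix acts through a dot product. -/
theorem rLevAux_rank1 (u w x : Fin 3 → ℂ) : Matrix.vecMulVec u w *ᵥ x = (w ⬝ᵥ x) • u := by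
  funext i
  simp only [Matrix.mulVec, dotProduct, Matrix.vecMulVec_apply, Pi.smul_apply, smul_eq_mul,
    Finset.sum_mul]
  exact Finset.sum_congr rfl fun j _ => by ring

/-- Two linear equations in three unknowns have a nonzero solution. -/
theorem rLevAux_ker (w : Fin 3 → ℂ) (M : Matrix (Fin 3) (Fin 3) ℂ) :
    ∃ v : Fin 3 → ℂ, v ≠ 0 ∧ w ⬝ᵥ v = 0 ∧ w ⬝ᵥ (M *ᵥ v) = 0 := by
  have hlt : Module.finrank ℂ (Fin 2 → ℂ) < Module.finrank ℂ (Fin 3 → ℂ) := by simp
  have hker := LinearMap.ker_ne_bot_of_finrank_lt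
    (f := Matrix.mulVecLin (Matrix.of ![w, w ᵥ* M])) hlt
  obtain ⟨v, hv, hv0⟩ := (Submodule.ne_bot_iff _).mp hker
  rw [LinearMap.mem_ker, Matrix.mulVecLin_apply] at hv
  refine ⟨v, hv0, ?_, ?_⟩
  · exact congrFun hv 0
  · rw [Matrix.dotProduct_mulVec]
    exact congrFun hv 1

/-- The theorem of Cayley and Hamilton applied to a vector. -/
theorem rLevAux_cayley (M : Matrix (Fin 3) (Fin 3) ℂ) (p : Fin 3 → ℂ)
    (hM : M.charpoly = X ^ 3 - C (p 0) * X ^ 2 + C (p 1) * X - C (p 2)) (v : Fin 3 → ℂ) :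
    M *ᵥ (M *ᵥ (M *ᵥ v)) = p 2 • v - p 1 • (M *ᵥ v) + p 0 • (M *ᵥ (M *ᵥ v)) := by
  have h := Matrix.aeval_self_charpoly M
  rw [hM] at h
  simp only [map_sub, map_add, map_mul, map_pow, aeval_X, aeval_C,
    Algebra.algebraMap_eq_smul_one, smul_mul_assoc, one_mul] at h
  have h3 : M ^ 3 = p 2 • (1 : Matrix (Fin 3) (Fin 3) ℂ) - p 1 • M + p 0 • M ^ 2 := by
    rw [← sub_eq_zero, ← h]
    abel
  have h4 := congrArg (fun A : Matrix (Fin 3) (Fin 3) ℂ => A *ᵥ v) h3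
  simp only [Matrix.add_mulVec, Matrix.sub_mulVec, Matrix.smul_mulVec, Matrix.one_mulVec] at h4
  have e3 : (M ^ 3) *ᵥ v = M *ᵥ (M *ᵥ (M *ᵥ v)) := by
    simp only [Matrix.mulVec_mulVec, pow_succ, pow_zero, Matrix.one_mul, Matrix.mul_assoc]
  have e2 : (M ^ 2) *ᵥ v = M *ᵥ (M *ᵥ v) := by
    simp only [Matrix.mulVec_mulVec, pow_succ, pow_zero, Matrix.one_mul]
  rw [e3, e2] at h4
  exact h4

/-- The span of a family is invariant as soon as the images of its members lie in it. -/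
theorem rLevAux_inv (Y : Matrix (Fin 3) (Fin 3) ℂ) (e : Fin 3 → (Fin 3 → ℂ))
    (hY : ∀ j, Y *ᵥ e j ∈ Submodule.span ℂ (Set.range e)) :
    rInv Y (Submodule.span ℂ (Set.range e)) := by
  intro x hx
  induction hx using Submodule.span_induction with
  | mem y hy =>
    obtain ⟨j, rfl⟩ := hy
    exact hY j
  | zero =>
    rw [Matrix.mulVec_zero]
    exact Submodule.zero_mem _
  | add a b _ _ ha hb =>
    rw [Matrix.mulVec_add]
    exact Submodule.add_mem _ ha hb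
  | smul c a _ ha =>
    rw [Matrix.mulVec_smul]
    exact Submodule.smul_mem _ c ha

/-- Companion form from a cyclic vector common to both matrices. -/
theorem rLevAux_main (M N : Matrix (Fin 3) (Fin 3) ℂ) (hirr : rIrr M N) (p q : Fin 3 → ℂ)
    (e0 e1 e2 : Fin 3 → ℂ) (he0 : e0 ≠ 0)
    (hM0 : M *ᵥ e0 = e1) (hM1 : M *ᵥ e1 = e2)
    (hM2 : M *ᵥ e2 = p 2 • e0 - p 1 • e1 + p 0 • e2)
    (hN0 : N *ᵥ e0 = e1) (hN1 : N *ᵥ e1 = e2)
    (hN2 : N *ᵥ e2 = q 2 • e0 - q 1 • e1 + q 0 • e2) :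
    ∃ P P' : Matrix (Fin 3) (Fin 3) ℂ, P * P' = 1 ∧ P' * P = 1 ∧
      P * M * P' = !![0, 0, p 2; 1, 0, -p 1; 0, 1, p 0] ∧
      P * N * P' = !![0, 0, q 2; 1, 0, -q 1; 0, 1, q 0] := by
  have hm0 : e0 ∈ Submodule.span ℂ (Set.range ![e0, e1, e2]) := Submodule.subset_span ⟨0, rfl⟩
  have hm1 : e1 ∈ Submodule.span ℂ (Set.range ![e0, e1, e2]) := Submodule.subset_span ⟨1, rfl⟩
  have hm2 : e2 ∈ Submodule.span ℂ (Set.range ![e0, e1, e2]) := Submodule.subset_span ⟨2, rfl⟩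
  have hcomb : ∀ a b c : ℂ, a • e0 - b • e1 + c • e2
      ∈ Submodule.span ℂ (Set.range ![e0, e1, e2]) := fun a b c =>
    Submodule.add_mem _ (Submodule.sub_mem _ (Submodule.smul_mem _ a hm0)
      (Submodule.smul_mem _ b hm1)) (Submodule.smul_mem _ c hm2)
  have hMinv : rInv M (Submodule.span ℂ (Set.range ![e0, e1, e2])) := by
    apply rLevAux_inv
    intro j
    fin_cases j
    · show M *ᵥ e0 ∈ _
      rw [hM0]
      exact hm1
    · show M *ᵥ e1 ∈ _
      rw [hM1]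
      exact hm2
    · show M *ᵥ e2 ∈ _
      rw [hM2]
      exact hcomb _ _ _
  have hNinv : rInv N (Submodule.span ℂ (Set.range ![e0, e1, e2])) := by
    apply rLevAux_inv
    intro j
    fin_cases j
    · show N *ᵥ e0 ∈ _
      rw [hN0]
      exact hm1
    · show N *ᵥ e1 ∈ _
      rw [hN1]
      exact hm2
    · show N *ᵥ e2 ∈ _
      rw [hN2]
      exact hcomb _ _ _
  have hspan : Submodule.span ℂ (Set.range ![e0, e1, e2]) = ⊤ := by
    rcases hirr _ hMinv hNinv with hbot | htop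
    · exfalso
      apply he0
      rw [hbot] at hm0
      exact (Submodule.mem_bot ℂ).mp hm0
    · exact htop
  have hli : LinearIndependent ℂ ![e0, e1, e2] :=
    linearIndependent_of_top_le_span_of_card_eq_finrank (by rw [hspan]) (by simp)
  obtain ⟨P, P', h1, h2, hconj⟩ := rRed_conj ![e0, e1, e2] hli
  refine ⟨P, P', h1, h2, hconj M _ ?_, hconj N _ ?_⟩
  · intro j
    fin_cases j
    · simp [Fin.sum_univ_three, hM0]
    · simp [Fin.sum_univ_three, hM1]
    · simp [Fin.sum_univ_three, hM2, sub_eq_add_neg]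
  · intro j
    fin_cases j
    · simp [Fin.sum_univ_three, hN0]
    · simp [Fin.sum_univ_three, hN1]
    · simp [Fin.sum_univ_three, hN2, sub_eq_add_neg]

/-- Levelt: an irreducible pair of matrices differing by a matrix of rank at most one is
simultaneously conjugate to the companion matrices of the two characteristic polynomials. -/
theorem rLevelt (M N : Matrix (Fin 3) (Fin 3) ℂ) (hirr : rIrr M N)
    (u w : Fin 3 → ℂ) (h : M - N = Matrix.vecMulVec u w) (p q : Fin 3 → ℂ)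
    (hM : M.charpoly = X ^ 3 - C (p 0) * X ^ 2 + C (p 1) * X - C (p 2))
    (hN : N.charpoly = X ^ 3 - C (q 0) * X ^ 2 + C (q 1) * X - C (q 2)) :
    ∃ P P' : Matrix (Fin 3) (Fin 3) ℂ, P * P' = 1 ∧ P' * P = 1 ∧
      P * M * P' = !![0, 0, p 2; 1, 0, -p 1; 0, 1, p 0] ∧
      P * N * P' = !![0, 0, q 2; 1, 0, -q 1; 0, 1, q 0] := by
  have hrank : ∀ x : Fin 3 → ℂ, N *ᵥ x = M *ᵥ x - (w ⬝ᵥ x) • u := by
    intro x
    have h1 : (M - N) *ᵥ x = (w ⬝ᵥ x) • u := by rw [h, rLevAux_rank1]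
    rw [Matrix.sub_mulVec] at h1
    rw [← h1]
    abel
  obtain ⟨v, hv0, hwv, hwMv⟩ := rLevAux_ker w M
  have hN0 : N *ᵥ v = M *ᵥ v := by
    rw [hrank v, hwv, zero_smul, sub_zero]
  have hN1 : N *ᵥ (M *ᵥ v) = M *ᵥ (M *ᵥ v) := by
    rw [hrank (M *ᵥ v), hwMv, zero_smul, sub_zero]
  have hM2 := rLevAux_cayley M p hM v
  have hN2 : N *ᵥ (M *ᵥ (M *ᵥ v)) = q 2 • v - q 1 • (M *ᵥ v) + q 0 • (M *ᵥ (M *ᵥ v)) := by
    have h1 := rLevAux_cayley N q hN v
    rw [hN0, hN1] at h1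
    exact h1
  exact rLevAux_main M N hirr p q v (M *ᵥ v) (M *ᵥ (M *ᵥ v)) hv0 rfl rfl hM2 hN0 hN1 hN2

end Vale.Agent.Lib.P002

end
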