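import Vale.Agent.Lib.P002.RegDefs
import Vale.Agent.Lib.P002.RegLevelt

/-!
# Integrality of the Levelt companion forms and of their inverses

An irreducible pair of matrices whose difference has rank one is simultaneously conjugate to the
pair of companion matrices of the two characteristic polynomials.  When the coefficients lie in
a subring `O` and the constant coefficients are units of `O`, the companion matrices and their
inverses have entries in `O`.
-/

noncomputable section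

namespace Vale.Agent.Lib.P002

open Polynomial Matrix

/-- The companion matrix times its explicit inverse. -/
theorem rLevIntAux_mul_inv (p : Fin 3 → ℂ) (hp2 : p 2 ≠ 0) :
    (!![0, 0, p 2; 1, 0, -p 1; 0, 1, p 0] : Matrix (Fin 3) (Fin 3) ℂ) *
      !![p 1 * (p 2)⁻¹, 1, 0; -(p 0 * (p 2)⁻¹), 0, 1; (p 2)⁻¹, 0, 0] = 1 := by
  ext i j
  fin_cases i <;> fin_cases j <;>
    simp [Matrix.mul_apply, Fin.sum_univ_three, hp2]

/-- The explicit inverse times the companion matrix. -/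
theorem rLevIntAux_inv_mul (p : Fin 3 → ℂ) (hp2 : p 2 ≠ 0) :
    (!![p 1 * (p 2)⁻¹, 1, 0; -(p 0 * (p 2)⁻¹), 0, 1; (p 2)⁻¹, 0, 0] :
        Matrix (Fin 3) (Fin 3) ℂ) *
      !![0, 0, p 2; 1, 0, -p 1; 0, 1, p 0] = 1 := by
  ext i j
  fin_cases i <;> fin_cases j <;>
    simp [Matrix.mul_apply, Fin.sum_univ_three, hp2]

/-- Transport of a two sided inverse through a conjugation. -/
theorem rLevIntAux_conj (P P' M K K' : Matrix (Fin 3) (Fin 3) ℂ) (h1 : P * P' = 1)
    (h2 : P' * P = 1) (hM : P * M * P' = K) (hK1 : K * K' = 1) (hK2 : K' * K = 1) :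
    M * (P' * K' * P) = 1 ∧ (P' * K' * P) * M = 1 ∧ P * (P' * K' * P) * P' = K' := by
  have hM' : M = P' * K * P := by
    rw [← hM]
    calc M = (P' * P) * M * (P' * P) := by rw [h2, Matrix.one_mul, Matrix.mul_one]
      _ = P' * (P * M * P') * P := by simp only [Matrix.mul_assoc]
  refine ⟨?_, ?_, ?_⟩
  · rw [hM']
    calc P' * K * P * (P' * K' * P) = P' * (K * ((P * P') * K')) * P := by
          simp only [Matrix.mul_assoc]
      _ = 1 := by rw [h1, Matrix.one_mul, hK1, Matrix.mul_one, h2]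
  · rw [hM']
    calc P' * K' * P * (P' * K * P) = P' * (K' * ((P * P') * K)) * P := by
          simp only [Matrix.mul_assoc]
      _ = 1 := by rw [h1, Matrix.one_mul, hK2, Matrix.mul_one, h2]
  · calc P * (P' * K' * P) * P' = (P * P') * K' * (P * P') := by
          simp only [Matrix.mul_assoc]
      _ = K' := by rw [h1, Matrix.one_mul, Matrix.mul_one]

/-- The companion matrix has entries in the subring. -/
theorem rLevIntAux_mem (O : Subring ℂ) (p : Fin 3 → ℂ) (hp : ∀ i, p i ∈ O) (i j : Fin 3) :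
    (!![0, 0, p 2; 1, 0, -p 1; 0, 1, p 0] : Matrix (Fin 3) (Fin 3) ℂ) i j ∈ O := by
  have h0 := hp 0
  have h1 := hp 1
  have h2 := hp 2
  fin_cases i <;> fin_cases j <;> simp [h0, h1, h2]

/-- The inverse of the companion matrix has entries in the subring. -/
theorem rLevIntAux_mem_inv (O : Subring ℂ) (p : Fin 3 → ℂ) (hp : ∀ i, p i ∈ O)
    (hp2' : (p 2)⁻¹ ∈ O) (i j : Fin 3) :
    (!![p 1 * (p 2)⁻¹, 1, 0; -(p 0 * (p 2)⁻¹), 0, 1; (p 2)⁻¹, 0, 0] :
        Matrix (Fin 3) (Fin 3) ℂ) i j ∈ O := by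
  have h0 := O.mul_mem (hp 0) hp2'
  have h1 := O.mul_mem (hp 1) hp2'
  fin_cases i <;> fin_cases j <;> simp [h0, h1, hp2']

theorem rLevInt (O : Subring ℂ) (M N : Matrix (Fin 3) (Fin 3) ℂ) (hirr : rIrr M N)
    (u w : Fin 3 → ℂ) (h : M - N = Matrix.vecMulVec u w) (p q : Fin 3 → ℂ)
    (hM : M.charpoly = X ^ 3 - C (p 0) * X ^ 2 + C (p 1) * X - C (p 2))
    (hN : N.charpoly = X ^ 3 - C (q 0) * X ^ 2 + C (q 1) * X - C (q 2))
    (hp : ∀ i, p i ∈ O) (hq : ∀ i, q i ∈ O) (hp2 : p 2 ≠ 0) (hq2 : q 2 ≠ 0)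
    (hp2' : (p 2)⁻¹ ∈ O) (hq2' : (q 2)⁻¹ ∈ O) :
    ∃ P P' M' N' : Matrix (Fin 3) (Fin 3) ℂ, P * P' = 1 ∧ P' * P = 1 ∧ M * M' = 1 ∧
      M' * M = 1 ∧ N * N' = 1 ∧ N' * N = 1 ∧
      (∀ i j, (P * M * P') i j ∈ O) ∧ (∀ i j, (P * N * P') i j ∈ O) ∧
      (∀ i j, (P * M' * P') i j ∈ O) ∧ (∀ i j, (P * N' * P') i j ∈ O) := by
  obtain ⟨P, P', h1, h2, hPM, hPN⟩ := rLevelt M N hirr u w h p q hM hN
  obtain ⟨a1, a2, a3⟩ := rLevIntAux_conj P P' M _ _ h1 h2 hPM
    (rLevIntAux_mul_inv p hp2) (rLevIntAux_inv_mul p hp2)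
  obtain ⟨b1, b2, b3⟩ := rLevIntAux_conj P P' N _ _ h1 h2 hPN
    (rLevIntAux_mul_inv q hq2) (rLevIntAux_inv_mul q hq2)
  refine ⟨P, P', _, _, h1, h2, a1, a2, b1, b2, ?_, ?_, ?_, ?_⟩
  · intro i j
    rw [hPM]
    exact rLevIntAux_mem O p hp i j
  · intro i j
    rw [hPN]
    exact rLevIntAux_mem O q hq i j
  · intro i j
    rw [a3]
    exact rLevIntAux_mem_inv O p hp hp2' i j
  · intro i j
    rw [b3]
    exact rLevIntAux_mem_inv O q hq hq2' i j

end Vale.Agent.Lib.P002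

end
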