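import Vale.Agent.Lib.P002.RegDefs

/-!
# Non-regular three by three matrices

A complex three by three matrix whose minimal polynomial differs from its characteristic
polynomial is a scalar matrix plus a matrix of rank at most one.
-/

noncomputable section

namespace Vale.Agent.Lib.P002

open Polynomial Matrix

/-- A three by three matrix of rank at most one is an outer product. -/
theorem rNonAux_outer (R : Matrix (Fin 3) (Fin 3) ℂ) (h : R.rank ≤ 1) :
    ∃ u w : Fin 3 → ℂ, R = Matrix.vecMulVec u w := by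
  have hfr : Module.finrank ℂ (LinearMap.range R.mulVecLin) ≤ 1 := h
  obtain ⟨v, hv⟩ := finrank_le_one_iff.mp hfr
  have hcol : ∀ j : Fin 3, ∃ c : ℂ, c • (v : Fin 3 → ℂ) = R *ᵥ Pi.single j 1 := by
    intro j
    obtain ⟨c, hc⟩ := hv ⟨R *ᵥ Pi.single j 1, ⟨Pi.single j 1, rfl⟩⟩
    exact ⟨c, congrArg Subtype.val hc⟩
  choose w hw using hcol
  refine ⟨(v : Fin 3 → ℂ), w, ?_⟩
  ext i j
  have h1 := congrFun (hw j) i
  rw [Matrix.mulVec_single_one] at h1
  rw [Matrix.vecMulVec_apply]
  simp only [Pi.smul_apply, smul_eq_mul, Matrix.col_apply] at h1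
  rw [← h1]
  ring

/-- An outer product of size three has determinant zero. -/
theorem rNonAux_det (u w : Fin 3 → ℂ) : (Matrix.vecMulVec u w).det = 0 := by
  rw [Matrix.det_fin_three]
  simp only [Matrix.vecMulVec_apply]
  ring

/-- If `M - k` is an outer product then `k` is an eigenvalue of `M`. -/
theorem rNonAux_root (M : Matrix (Fin 3) (Fin 3) ℂ) (k : ℂ) (u w : Fin 3 → ℂ)
    (h : M - k • (1 : Matrix (Fin 3) (Fin 3) ℂ) = Matrix.vecMulVec u w) :
    M.charpoly.IsRoot k := by
  rw [Polynomial.IsRoot, Matrix.eval_charpoly]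
  have e : Matrix.scalar (Fin 3) k - M = -(M - k • (1 : Matrix (Fin 3) (Fin 3) ℂ)) := by
    rw [neg_sub, Matrix.smul_one_eq_diagonal, Matrix.scalar_apply]
  rw [e, Matrix.det_neg, h, rNonAux_det, mul_zero]

/-- Evaluation of a linear factor at a matrix. -/
theorem rNonAux_aeval (M : Matrix (Fin 3) (Fin 3) ℂ) (l : ℂ) :
    aeval M (X - C l : ℂ[X]) = M - l • (1 : Matrix (Fin 3) (Fin 3) ℂ) := by
  rw [map_sub, aeval_X, aeval_C, Algebra.algebraMap_eq_smul_one]

/-- A complex three by three matrix whose minimal polynomial is not its characteristic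
polynomial is a scalar matrix plus an outer product. -/
theorem rNonreg (M : Matrix (Fin 3) (Fin 3) ℂ) (h : minpoly ℂ M ≠ M.charpoly) :
    ∃ (l : ℂ) (u w : Fin 3 → ℂ), M.charpoly.IsRoot l ∧
      M - l • (1 : Matrix (Fin 3) (Fin 3) ℂ) = Matrix.vecMulVec u w := by
  have hint : IsIntegral ℂ M := Matrix.isIntegral M
  have hmon : (minpoly ℂ M).Monic := minpoly.monic hint
  have hdvd : minpoly ℂ M ∣ M.charpoly := Matrix.minpoly_dvd_charpoly M
  have hcmon : M.charpoly.Monic := Matrix.charpoly_monic M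
  have hcdeg : M.charpoly.natDegree = 3 := by
    rw [Matrix.charpoly_natDegree_eq_dim, Fintype.card_fin]
  have hdeg_lt : (minpoly ℂ M).natDegree < 3 := by
    rcases Nat.lt_or_ge (minpoly ℂ M).natDegree 3 with h3 | h3
    · exact h3
    · exfalso
      apply h
      exact (Polynomial.eq_of_monic_of_dvd_of_natDegree_le hmon hcmon hdvd (by omega)).symm
  have hpos : 0 < (minpoly ℂ M).natDegree := minpoly.natDegree_pos hint
  have hdegne : (minpoly ℂ M).degree ≠ 0 := by
    rw [Polynomial.degree_eq_natDegree hmon.ne_zero]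
    exact_mod_cast hpos.ne'
  obtain ⟨l, hl⟩ := IsAlgClosed.exists_root (minpoly ℂ M) hdegne
  obtain ⟨q, hq⟩ := Polynomial.dvd_iff_isRoot.mpr hl
  have hqmon : q.Monic := by
    have hm2 : ((X - C l) * q).Monic := hq ▸ hmon
    exact (Polynomial.monic_X_sub_C l).of_mul_monic_left hm2
  have hqdeg : q.natDegree + 1 = (minpoly ℂ M).natDegree := by
    rw [hq, Polynomial.Monic.natDegree_mul (monic_X_sub_C l) hqmon, natDegree_X_sub_C]
    ring
  have hev : (M - l • (1 : Matrix (Fin 3) (Fin 3) ℂ)) * aeval M q = 0 := by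
    have h0 := minpoly.aeval ℂ M
    rw [hq, map_mul, rNonAux_aeval] at h0
    exact h0
  rcases Nat.eq_zero_or_pos q.natDegree with hq0 | hq0
  · have hq1 : q = 1 := hqmon.natDegree_eq_zero.mp hq0
    rw [hq1, map_one, mul_one] at hev
    have hfin : M - l • (1 : Matrix (Fin 3) (Fin 3) ℂ) = Matrix.vecMulVec 0 0 := by
      rw [hev]
      ext i j
      simp [Matrix.vecMulVec_apply]
    exact ⟨l, 0, 0, rNonAux_root M l 0 0 hfin, hfin⟩
  · have hq1 : q.natDegree = 1 := by omega
    have hqe : q = X - C (-(q.coeff 0)) := by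
      have h2 := hqmon.eq_X_add_C hq1
      rw [map_neg, sub_neg_eq_add]
      exact h2
    rw [hqe, rNonAux_aeval] at hev
    have hrk := Matrix.rank_add_rank_le_card_of_mul_eq_zero hev
    rw [Fintype.card_fin] at hrk
    rcases Nat.lt_or_ge (M - l • (1 : Matrix (Fin 3) (Fin 3) ℂ)).rank 2 with h2 | h2
    · obtain ⟨u, w, huw⟩ := rNonAux_outer
        (M - l • (1 : Matrix (Fin 3) (Fin 3) ℂ)) (by omega)
      exact ⟨l, u, w, rNonAux_root M l u w huw, huw⟩
    · obtain ⟨u, w, huw⟩ := rNonAux_outer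
        (M - (-(q.coeff 0)) • (1 : Matrix (Fin 3) (Fin 3) ℂ)) (by omega)
      exact ⟨-(q.coeff 0), u, w, rNonAux_root M _ u w huw, huw⟩

end Vale.Agent.Lib.P002

end
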