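import Vale.Agent.Lib.P002.RegDefs
import Vale.Agent.Lib.P002.E6Pt

/-!
# Scalar multiples and inverses of three by three matrices

Characteristic polynomial of a scalar multiple and of the inverse, and invariant subspaces of
the inverse.
-/

noncomputable section

namespace Vale.Agent.Lib.P002

open Polynomial Matrix

/-- The sum of the three principal two by two minors. -/
def rScaleAux_e (M : Matrix (Fin 3) (Fin 3) ℂ) : ℂ :=
  M 0 0 * M 1 1 - M 0 1 * M 1 0 + (M 0 0 * M 2 2 - M 0 2 * M 2 0)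
    + (M 1 1 * M 2 2 - M 1 2 * M 2 1)

/-- The three coefficients of a matrix with characteristic polynomial `rChi d`. -/
theorem rScaleAux_coeffs (B : Matrix (Fin 3) (Fin 3) ℂ) (d : Fin 3 → ℂ)
    (h : B.charpoly = rChi d) :
    B.trace = d 0 + d 1 + d 2 ∧ rScaleAux_e B = d 0 * d 1 + d 0 * d 2 + d 1 * d 2 ∧
      B.det = d 0 * d 1 * d 2 := by
  rw [charpoly_fin_three, rChi, e6pt_expand] at h
  obtain ⟨h1, h2⟩ := e6pt_cubic_inj _ _ _ _ _ _ h
  refine ⟨h1, h2, ?_⟩
  have h0 := congrArg (fun q : ℂ[X] => q.coeff 0) h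
  simp only [coeff_sub, coeff_add, coeff_X_pow, coeff_C_mul, coeff_X, coeff_C] at h0
  norm_num at h0
  exact h0

/-- A matrix with the three coefficients of `rChi d` has characteristic polynomial `rChi d`. -/
theorem rScaleAux_of_coeffs (B : Matrix (Fin 3) (Fin 3) ℂ) (d : Fin 3 → ℂ)
    (h1 : B.trace = d 0 + d 1 + d 2)
    (h2 : rScaleAux_e B = d 0 * d 1 + d 0 * d 2 + d 1 * d 2)
    (h3 : B.det = d 0 * d 1 * d 2) : B.charpoly = rChi d := by
  unfold rScaleAux_e at h2
  rw [charpoly_fin_three, rChi, e6pt_expand, h1, h2, h3]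

theorem rScaleAux_e_smul (l : ℂ) (B : Matrix (Fin 3) (Fin 3) ℂ) :
    rScaleAux_e (l • B) = l ^ 2 * rScaleAux_e B := by
  unfold rScaleAux_e
  simp only [Matrix.smul_apply, smul_eq_mul]
  ring

theorem rScaleAux_trace_adjugate (B : Matrix (Fin 3) (Fin 3) ℂ) :
    (Matrix.adjugate B).trace = rScaleAux_e B := by
  rw [Matrix.adjugate_fin_three, Matrix.trace_fin_three]
  unfold rScaleAux_e
  simp
  ring

theorem rScaleAux_e_adjugate (B : Matrix (Fin 3) (Fin 3) ℂ) :
    rScaleAux_e (Matrix.adjugate B) = B.det * B.trace := by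
  rw [Matrix.adjugate_fin_three, Matrix.trace_fin_three, Matrix.det_fin_three]
  unfold rScaleAux_e
  simp
  ring

theorem rScale_charpoly (l : ℂ) (B : Matrix (Fin 3) (Fin 3) ℂ) (d : Fin 3 → ℂ)
    (h : B.charpoly = rChi d) : (l • B).charpoly = rChi (fun i => l * d i) := by
  obtain ⟨h1, h2, h3⟩ := rScaleAux_coeffs B d h
  apply rScaleAux_of_coeffs
  · rw [Matrix.trace_smul, smul_eq_mul, h1]
    ring
  · rw [rScaleAux_e_smul, h2]
    ring
  · rw [Matrix.det_smul, Fintype.card_fin, h3]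
    ring

theorem rInvMat_charpoly (B B' : Matrix (Fin 3) (Fin 3) ℂ) (hBB' : B * B' = 1) (d : Fin 3 → ℂ)
    (h : B.charpoly = rChi d) : B'.charpoly = rChi (fun i => (d i)⁻¹) := by
  obtain ⟨h1, h2, h3⟩ := rScaleAux_coeffs B d h
  have hdet : B.det * B'.det = 1 := by
    rw [← Matrix.det_mul, hBB', Matrix.det_one]
  have hD : B.det ≠ 0 := left_ne_zero_of_mul_eq_one hdet
  have hd : d 0 * d 1 * d 2 ≠ 0 := h3 ▸ hD
  have hd0 : d 0 ≠ 0 := left_ne_zero_of_mul (left_ne_zero_of_mul hd)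
  have hd1 : d 1 ≠ 0 := right_ne_zero_of_mul (left_ne_zero_of_mul hd)
  have hd2 : d 2 ≠ 0 := right_ne_zero_of_mul hd
  have hB' : B' = (B.det)⁻¹ • Matrix.adjugate B := by
    rw [← Matrix.inv_eq_right_inv hBB', Matrix.inv_def, Ring.inverse_eq_inv']
  apply rScaleAux_of_coeffs
  · rw [hB', Matrix.trace_smul, smul_eq_mul, rScaleAux_trace_adjugate, h2, h3]
    field_simp
    ring
  · rw [hB', rScaleAux_e_smul, rScaleAux_e_adjugate, h1, h3]
    field_simp
    ring
  · have hdet' : B'.det = (B.det)⁻¹ := eq_inv_of_mul_eq_one_right hdet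
    rw [hdet', h3]
    field_simp

theorem rInv_inv (B B' : Matrix (Fin 3) (Fin 3) ℂ) (hBB' : B * B' = 1)
    (W : Submodule ℂ (Fin 3 → ℂ)) (hW : rInv B W) : rInv B' W := by
  have hB'B : B' * B = 1 := mul_eq_one_comm.mp hBB'
  have hinj : Function.Injective ((Matrix.toLin' B).restrict
      (p := W) (q := W) (fun x hx => by simpa using hW x hx)) := by
    intro x y hxy
    have h1 : B *ᵥ (x : Fin 3 → ℂ) = B *ᵥ (y : Fin 3 → ℂ) := by
      have := congrArg Subtype.val hxy
      simpa using this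
    have h2 := congrArg (fun w => B' *ᵥ w) h1
    simp only [Matrix.mulVec_mulVec, hB'B, Matrix.one_mulVec] at h2
    exact Subtype.ext h2
  have hsurj := LinearMap.injective_iff_surjective.mp hinj
  intro v hv
  obtain ⟨x, hx⟩ := hsurj ⟨v, hv⟩
  have h1 : B *ᵥ (x : Fin 3 → ℂ) = v := by
    have := congrArg Subtype.val hx
    simpa using this
  rw [← h1, Matrix.mulVec_mulVec, hB'B, Matrix.one_mulVec]
  exact x.2

end Vale.Agent.Lib.P002

end
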