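import Vale.Agent.Lib.P002.RegDefs
import Vale.Agent.Lib.P002.RegNonreg
import Vale.Agent.Lib.P002.RegLevInt
import Vale.Agent.Lib.P002.RegScale
import Vale.Agent.Lib.P002.RegRed
import Vale.Agent.Lib.P002.E6Pt

/-!
# Irreducible pairs with a non-regular first matrix

If `(A, B)` is an irreducible pair of three by three matrices of determinant one, with prescribed
characteristic polynomials of `A`, `B` and `A * B`, and `A` is not regular, then `A` is a scalar
plus a rank one matrix and the pair `(A * B, l • B)` is a hypergeometric pair.  It follows that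
the pair is conjugate to a pair with entries in any subring containing the eigenvalues.
-/

noncomputable section

namespace Vale.Agent.Lib.P002

open Polynomial Matrix

/-- Entries of a product of matrices with entries in a subring lie in the subring. -/
theorem rNonAAux_mul_mem (O : Subring ℂ) (Y Z : Matrix (Fin 3) (Fin 3) ℂ)
    (hY : ∀ i j, Y i j ∈ O) (hZ : ∀ i j, Z i j ∈ O) : ∀ i j, (Y * Z) i j ∈ O := by
  intro i j
  rw [Matrix.mul_apply]
  exact Subring.sum_mem O (fun k _ => O.mul_mem (hY i k) (hZ k j))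

/-- Entries of a scalar multiple, with the scalar in the subring, lie in the subring. -/
theorem rNonAAux_smul_mem (O : Subring ℂ) (l : ℂ) (hl : l ∈ O) (Y : Matrix (Fin 3) (Fin 3) ℂ)
    (hY : ∀ i j, Y i j ∈ O) : ∀ i j, (l • Y) i j ∈ O := by
  intro i j
  rw [Matrix.smul_apply, smul_eq_mul]
  exact O.mul_mem hl (hY i j)

/-- The expanded form of `rChi d`, with coefficients in a subring containing the roots. -/
theorem rNonAAux_coeffs (O : Subring ℂ) (d : Fin 3 → ℂ) (hd : ∀ i, d i ∈ O) :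
    ∃ p : Fin 3 → ℂ, rChi d = X ^ 3 - C (p 0) * X ^ 2 + C (p 1) * X - C (p 2) ∧
      (∀ i, p i ∈ O) ∧ p 2 = d 0 * d 1 * d 2 := by
  refine ⟨![d 0 + d 1 + d 2, d 0 * d 1 + d 0 * d 2 + d 1 * d 2, d 0 * d 1 * d 2], ?_, ?_, rfl⟩
  · unfold rChi
    rw [e6pt_expand]
    rfl
  · intro i
    fin_cases i
    · exact O.add_mem (O.add_mem (hd 0) (hd 1)) (hd 2)
    · exact O.add_mem (O.add_mem (O.mul_mem (hd 0) (hd 1)) (O.mul_mem (hd 0) (hd 2)))
        (O.mul_mem (hd 1) (hd 2))
    · exact O.mul_mem (O.mul_mem (hd 0) (hd 1)) (hd 2)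

/-- A rank one matrix times a matrix is a rank one matrix. -/
theorem rNonAAux_vecMulVec_mul (u w : Fin 3 → ℂ) (B : Matrix (Fin 3) (Fin 3) ℂ) :
    Matrix.vecMulVec u w * B = Matrix.vecMulVec u (w ᵥ* B) := by
  ext i j
  simp only [Matrix.mul_apply, Matrix.vecMulVec_apply, Matrix.vecMul, dotProduct,
    Finset.mul_sum, mul_assoc]

/-- Irreducibility passes from `(A, B)` to `(A * B, l • B)` when `l` and `B` are invertible. -/
theorem rNonAAux_irr (A B B' : Matrix (Fin 3) (Fin 3) ℂ) (l l' : ℂ) (hll' : l * l' = 1)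
    (hBB' : B * B' = 1) (hirr : rIrr A B) : rIrr (A * B) (l • B) := by
  intro W hWM hWN
  have hWB : rInv B W := by
    intro v hv
    have h1 : (l • B) *ᵥ v = l • (B *ᵥ v) := by
      ext i
      simp only [Matrix.mulVec, dotProduct, Matrix.smul_apply, smul_eq_mul, Pi.smul_apply,
        Finset.mul_sum, mul_assoc]
    have h2 : B *ᵥ v = l' • ((l • B) *ᵥ v) := by
      rw [h1, smul_smul, mul_comm l' l, hll', one_smul]
    rw [h2]
    exact W.smul_mem l' (hWN v hv)
  have hWB' : rInv B' W := rInv_inv B B' hBB' W hWB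
  have hWA : rInv A W := by
    intro v hv
    have h1 : A *ᵥ v = (A * B) *ᵥ (B' *ᵥ v) := by
      rw [Matrix.mulVec_mulVec, Matrix.mul_assoc, hBB', Matrix.mul_one]
    rw [h1]
    exact hWM _ (hWB' v hv)
  exact hirr W hWA hWB

theorem rNonregA_integral (a b c : Fin 3 → ℂ) (ha1 : a 0 * a 1 * a 2 = 1)
    (hb1 : b 0 * b 1 * b 2 = 1) (hc1 : c 0 * c 1 * c 2 = 1)
    (O : Subring ℂ) (haO : ∀ i, a i ∈ O) (hbO : ∀ i, b i ∈ O) (hcO : ∀ i, c i ∈ O)
    (A B : Matrix (Fin 3) (Fin 3) ℂ) (hdA : A.det = 1) (hdB : B.det = 1)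
    (hA : A.charpoly = rChi a) (hB : B.charpoly = rChi b)
    (hAB : (A * B).charpoly = rChi c) (hirr : rIrr A B) (hnr : minpoly ℂ A ≠ A.charpoly) :
    ∃ P P' : Matrix (Fin 3) (Fin 3) ℂ, P * P' = 1 ∧ P' * P = 1 ∧
      (∀ i j, (P * A * P') i j ∈ O) ∧ (∀ i j, (P * B * P') i j ∈ O) := by
  obtain ⟨l, u, w, hroot, hrank⟩ := rNonreg A hnr
  have hl : l = a 0 ∨ l = a 1 ∨ l = a 2 := by
    apply rRed_root a l
    rw [← hA]
    exact hroot
  have hlO : l ∈ O := by
    rcases hl with h | h | h <;> rw [h] <;> exact haO _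
  obtain ⟨l', hl'O, hll'⟩ : ∃ l' : ℂ, l' ∈ O ∧ l * l' = 1 := by
    rcases hl with h | h | h
    · exact ⟨a 1 * a 2, O.mul_mem (haO 1) (haO 2), by rw [h]; linear_combination ha1⟩
    · exact ⟨a 0 * a 2, O.mul_mem (haO 0) (haO 2), by rw [h]; linear_combination ha1⟩
    · exact ⟨a 0 * a 1, O.mul_mem (haO 0) (haO 1), by rw [h]; linear_combination ha1⟩
  have hl0 : l ≠ 0 := by
    rintro rfl
    rw [zero_mul] at hll'
    exact zero_ne_one hll'
  have hl'l : l' * l = 1 := by rw [mul_comm]; exact hll'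
  have hBB' : B * B⁻¹ = 1 := Matrix.mul_nonsing_inv B (by rw [hdB]; exact isUnit_one)
  -- the hypergeometric pair
  have hMN : A * B - l • B = Matrix.vecMulVec u (w ᵥ* B) := by
    rw [← rNonAAux_vecMulVec_mul, ← hrank, Matrix.sub_mul, Matrix.smul_mul, Matrix.one_mul]
  have hirr' : rIrr (A * B) (l • B) := rNonAAux_irr A B B⁻¹ l l' hll' hBB' hirr
  obtain ⟨p, hpe, hpO, hp2⟩ := rNonAAux_coeffs O c hcO
  have hlbO : ∀ i, (fun i => l * b i) i ∈ O := fun i => O.mul_mem hlO (hbO i)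
  obtain ⟨q, hqe, hqO, hq2⟩ := rNonAAux_coeffs O (fun i => l * b i) hlbO
  have hp2one : p 2 = 1 := by rw [hp2, hc1]
  have hq2val : q 2 = l ^ 3 := by
    rw [hq2]
    linear_combination l ^ 3 * hb1
  have hp20 : p 2 ≠ 0 := by rw [hp2one]; exact one_ne_zero
  have hq20 : q 2 ≠ 0 := by rw [hq2val]; exact pow_ne_zero 3 hl0
  have hp2' : (p 2)⁻¹ ∈ O := by rw [hp2one, inv_one]; exact O.one_mem
  have hq2' : (q 2)⁻¹ ∈ O := by
    have h1 : q 2 * l' ^ 3 = 1 := by
      rw [hq2val, ← mul_pow, hll', one_pow]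
    rw [inv_eq_of_mul_eq_one_right h1]
    exact O.pow_mem hl'O 3
  have hM : (A * B).charpoly = X ^ 3 - C (p 0) * X ^ 2 + C (p 1) * X - C (p 2) := by
    rw [hAB, hpe]
  have hN : (l • B).charpoly = X ^ 3 - C (q 0) * X ^ 2 + C (q 1) * X - C (q 2) := by
    rw [rScale_charpoly l B b hB, hqe]
  obtain ⟨P, P', M', N', hPP', hP'P, -, -, hNN', -, iM, iN, -, iN'⟩ :=
    rLevInt O (A * B) (l • B) hirr' u (w ᵥ* B) hMN p q hM hN hpO hqO hp20 hq20 hp2' hq2'
  refine ⟨P, P', hPP', hP'P, ?_, ?_⟩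
  · -- A = l • (A * B * N')
    have hA' : A = l • (A * B * N') := by
      have h1 : l • (A * B * N') = A * ((l • B) * N') := by
        rw [Matrix.smul_mul, Matrix.mul_smul, Matrix.mul_assoc]
      rw [h1, hNN', Matrix.mul_one]
    have h2 : P * A * P' = l • ((P * (A * B) * P') * (P * N' * P')) := by
      have h3 : (P * (A * B) * P') * (P * N' * P') = P * (A * B * N') * P' := by
        calc (P * (A * B) * P') * (P * N' * P')
            = P * (A * B) * (P' * P) * N' * P' := by simp only [Matrix.mul_assoc]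
          _ = P * (A * B * N') * P' := by rw [hP'P]; simp only [Matrix.mul_assoc, Matrix.one_mul]
      rw [h3]
      conv_lhs => rw [hA']
      rw [Matrix.mul_smul, Matrix.smul_mul]
    rw [h2]
    exact rNonAAux_smul_mem O l hlO _ (rNonAAux_mul_mem O _ _ iM iN')
  · -- B = l' • (l • B)
    have hB' : B = l' • (l • B) := by rw [smul_smul, hl'l, one_smul]
    have h2 : P * B * P' = l' • (P * (l • B) * P') := by
      conv_lhs => rw [hB']
      rw [Matrix.mul_smul, Matrix.smul_mul]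
    rw [h2]
    exact rNonAAux_smul_mem O l' hl'O _ iN

end Vale.Agent.Lib.P002

end
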