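import Vale.Agent.Lib.P002.RegDefs
import Vale.Agent.Lib.P002.RegNonA
import Vale.Agent.Lib.P002.RegScale

noncomputable section

namespace Vale.Agent.Lib.P002

open Polynomial Matrix

/-- the adjugate of a matrix with entries in a subring has entries in the subring -/
theorem rNonAllAux_adj_mem (O : Subring ℂ) (Y : Matrix (Fin 3) (Fin 3) ℂ)
    (hY : ∀ i j, Y i j ∈ O) (i j : Fin 3) : Y.adjugate i j ∈ O := by
  let Y₀ : Matrix (Fin 3) (Fin 3) O := fun i j => ⟨Y i j, hY i j⟩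
  have h : Y = O.subtype.mapMatrix Y₀ := by
    ext i j
    rfl
  rw [h, ← RingHom.map_adjugate]
  exact (Y₀.adjugate i j).2

/-- a product of two matrices with entries in a subring has entries in the subring -/
theorem rNonAllAux_mul_mem (O : Subring ℂ) (X Y : Matrix (Fin 3) (Fin 3) ℂ)
    (hX : ∀ i j, X i j ∈ O) (hY : ∀ i j, Y i j ∈ O) (i j : Fin 3) : (X * Y) i j ∈ O := by
  rw [Matrix.mul_apply]
  exact Subring.sum_mem O (fun k _ => O.mul_mem (hX i k) (hY k j))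

theorem rNonAllAux_inv_mem (b : Fin 3 → ℂ) (hb1 : b 0 * b 1 * b 2 = 1) (O : Subring ℂ)
    (hbO : ∀ i, b i ∈ O) (i : Fin 3) : (b i)⁻¹ ∈ O := by
  fin_cases i
  · have h : (b 0)⁻¹ = b 1 * b 2 := by
      apply inv_eq_of_mul_eq_one_right
      linear_combination hb1
    show (b 0)⁻¹ ∈ O
    rw [h]
    exact O.mul_mem (hbO 1) (hbO 2)
  · have h : (b 1)⁻¹ = b 0 * b 2 := by
      apply inv_eq_of_mul_eq_one_right
      linear_combination hb1
    show (b 1)⁻¹ ∈ O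
    rw [h]
    exact O.mul_mem (hbO 0) (hbO 2)
  · have h : (b 2)⁻¹ = b 0 * b 1 := by
      apply inv_eq_of_mul_eq_one_right
      linear_combination hb1
    show (b 2)⁻¹ ∈ O
    rw [h]
    exact O.mul_mem (hbO 0) (hbO 1)

/-- the case where the product `A * B` is not regular -/
theorem rNonAllAux_prod (a b c : Fin 3 → ℂ) (ha1 : a 0 * a 1 * a 2 = 1)
    (hb1 : b 0 * b 1 * b 2 = 1) (hc1 : c 0 * c 1 * c 2 = 1)
    (O : Subring ℂ) (haO : ∀ i, a i ∈ O) (hbO : ∀ i, b i ∈ O) (hcO : ∀ i, c i ∈ O)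
    (A B : Matrix (Fin 3) (Fin 3) ℂ) (hdA : A.det = 1) (hdB : B.det = 1)
    (hA : A.charpoly = rChi a) (hB : B.charpoly = rChi b)
    (hAB : (A * B).charpoly = rChi c) (hirr : rIrr A B)
    (hnr : minpoly ℂ (A * B) ≠ (A * B).charpoly) :
    ∃ P P' : Matrix (Fin 3) (Fin 3) ℂ, P * P' = 1 ∧ P' * P = 1 ∧
      (∀ i j, (P * A * P') i j ∈ O) ∧ (∀ i j, (P * B * P') i j ∈ O) := by
  have hu : IsUnit B.det := by
    rw [hdB]
    exact isUnit_one
  have hBB' : B * B⁻¹ = 1 := Matrix.mul_nonsing_inv B hu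
  have hB'B : B⁻¹ * B = 1 := Matrix.nonsing_inv_mul B hu
  have hABB' : A * B * B⁻¹ = A := by
    rw [Matrix.mul_assoc, hBB', Matrix.mul_one]
  have hdB' : (B⁻¹).det = 1 := by
    have h := congrArg Matrix.det hBB'
    rw [Matrix.det_mul, hdB, one_mul, Matrix.det_one] at h
    exact h
  have hb1' : (fun i => (b i)⁻¹) 0 * (fun i => (b i)⁻¹) 1 * (fun i => (b i)⁻¹) 2 = 1 := by
    show (b 0)⁻¹ * (b 1)⁻¹ * (b 2)⁻¹ = 1
    rw [← mul_inv, ← mul_inv, hb1, inv_one]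
  have hirr' : rIrr (A * B) B⁻¹ := by
    intro W hW1 hW2
    have hWB : rInv B W := rInv_inv B⁻¹ B hB'B W hW2
    have hWA : rInv A W := by
      intro v hv
      have h1 : A *ᵥ v = (A * B) *ᵥ (B⁻¹ *ᵥ v) := by
        rw [Matrix.mulVec_mulVec, hABB']
      rw [h1]
      exact hW1 _ (hW2 v hv)
    exact hirr W hWA hWB
  have hdAB : (A * B).det = 1 := by
    rw [Matrix.det_mul, hdA, hdB, one_mul]
  have hcp : (A * B * B⁻¹).charpoly = rChi a := by
    rw [hABB']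
    exact hA
  obtain ⟨P, P', hPP', hP'P, hX, hY⟩ :=
    rNonregA_integral c (fun i => (b i)⁻¹) a hc1 hb1' ha1 O hcO
      (rNonAllAux_inv_mem b hb1 O hbO) haO (A * B) B⁻¹ hdAB hdB' hAB
      (rInvMat_charpoly B B⁻¹ hBB' b hB) hcp hirr' hnr
  refine ⟨P, P', hPP', hP'P, ?_, ?_⟩
  · have e : P * A * P' = (P * (A * B) * P') * (P * B⁻¹ * P') := by
      have h1 : (P * (A * B) * P') * (P * B⁻¹ * P')
          = P * (A * B) * (P' * P) * B⁻¹ * P' := by
        simp only [Matrix.mul_assoc]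
      rw [h1, hP'P, Matrix.mul_one, Matrix.mul_assoc P (A * B) B⁻¹, hABB']
    intro i j
    rw [e]
    exact rNonAllAux_mul_mem O _ _ hX hY i j
  · have hZY : (P * B * P') * (P * B⁻¹ * P') = 1 := by
      have h1 : (P * B * P') * (P * B⁻¹ * P') = P * B * (P' * P) * B⁻¹ * P' := by
        simp only [Matrix.mul_assoc]
      rw [h1, hP'P, Matrix.mul_one, Matrix.mul_assoc P B B⁻¹, hBB', Matrix.mul_one, hPP']
    have hdPP : P.det * P'.det = 1 := by
      have h := congrArg Matrix.det hPP'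
      rw [Matrix.det_mul, Matrix.det_one] at h
      exact h
    have hdY : (P * B⁻¹ * P').det = 1 := by
      rw [Matrix.det_mul, Matrix.det_mul, hdB', mul_one, hdPP]
    have hZ : P * B * P' = (P * B⁻¹ * P').adjugate := by
      have h2 : (P * B⁻¹ * P')⁻¹ = P * B * P' := Matrix.inv_eq_left_inv hZY
      rw [← h2, Matrix.inv_def, hdY, Ring.inverse_one, one_smul]
    intro i j
    rw [hZ]
    exact rNonAllAux_adj_mem O _ hY i j

theorem rNonreg_integral (a b c : Fin 3 → ℂ) (ha1 : a 0 * a 1 * a 2 = 1)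
    (hb1 : b 0 * b 1 * b 2 = 1) (hc1 : c 0 * c 1 * c 2 = 1)
    (O : Subring ℂ) (haO : ∀ i, a i ∈ O) (hbO : ∀ i, b i ∈ O) (hcO : ∀ i, c i ∈ O)
    (A B : Matrix (Fin 3) (Fin 3) ℂ) (hdA : A.det = 1) (hdB : B.det = 1)
    (hA : A.charpoly = rChi a) (hB : B.charpoly = rChi b)
    (hAB : (A * B).charpoly = rChi c) (hirr : rIrr A B)
    (hnr : minpoly ℂ A ≠ A.charpoly ∨ minpoly ℂ B ≠ B.charpoly ∨
      minpoly ℂ (A * B) ≠ (A * B).charpoly) :
    ∃ P P' : Matrix (Fin 3) (Fin 3) ℂ, P * P' = 1 ∧ P' * P = 1 ∧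
      (∀ i j, (P * A * P') i j ∈ O) ∧ (∀ i j, (P * B * P') i j ∈ O) := by
  rcases hnr with h | h | h
  · exact rNonregA_integral a b c ha1 hb1 hc1 O haO hbO hcO A B hdA hdB hA hB hAB hirr h
  · have hBA : (B * A).charpoly = rChi c := by
      rw [Matrix.charpoly_mul_comm]
      exact hAB
    have hirr' : rIrr B A := fun W h1 h2 => hirr W h2 h1
    obtain ⟨P, P', hPP', hP'P, hX, hY⟩ :=
      rNonregA_integral b a c hb1 ha1 hc1 O hbO haO hcO B A hdB hdA hB hA hBA hirr' h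
    exact ⟨P, P', hPP', hP'P, hY, hX⟩
  · exact rNonAllAux_prod a b c ha1 hb1 hc1 O haO hbO hcO A B hdA hdB hA hB hAB hirr h

end Vale.Agent.Lib.P002
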