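import Vale.Agent.Lib.P002.RegThm
import Vale.Agent.Lib.P002.RegNonAll
import Vale.Agent.Lib.P002.RegCompanion

/-!
# Density of integral points: rank three, thrice punctured sphere, all boundary classes

The three boundary classes are given by representatives `C₁, C₂, C₃` in `SL_3(ℂ)` whose
eigenvalues are algebraic integers.  A semisimple pair `(A, B)` with `A`, `B`, `(A B)⁻¹` in
these classes is either conjugate to a pair with entries in the ring of integers (when it is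
reducible, or when one of the three classes is not regular), or it is irreducible with three
regular classes, where the density theorem for regular classes applies.
-/

noncomputable section

namespace Vale.Agent.Lib.P002

open Polynomial Matrix

/-- Conjugacy of three by three matrices under invertible matrices. -/
def rGLc (M N : Matrix (Fin 3) (Fin 3) ℂ) : Prop :=
  ∃ P P' : Matrix (Fin 3) (Fin 3) ℂ, P * P' = 1 ∧ P' * P = 1 ∧ P * M * P' = N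

theorem rGLc_symm {M N : Matrix (Fin 3) (Fin 3) ℂ} (h : rGLc M N) : rGLc N M := by
  obtain ⟨P, P', h1, h2, h3⟩ := h
  refine ⟨P', P, h2, h1, ?_⟩
  rw [← h3]
  simp only [Matrix.mul_assoc]
  rw [h2, Matrix.mul_one, ← Matrix.mul_assoc, h2, Matrix.one_mul]

theorem rGLc_trans {M N K : Matrix (Fin 3) (Fin 3) ℂ} (h : rGLc M N) (h' : rGLc N K) :
    rGLc M K := by
  obtain ⟨P, P', h1, h2, h3⟩ := h
  obtain ⟨Q, Q', k1, k2, k3⟩ := h'
  refine ⟨Q * P, P' * Q', ?_, ?_, ?_⟩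
  · rw [Matrix.mul_assoc, ← Matrix.mul_assoc P, h1, Matrix.one_mul, k1]
  · rw [Matrix.mul_assoc, ← Matrix.mul_assoc Q', k2, Matrix.one_mul, h2]
  · rw [← k3, ← h3]
    simp only [Matrix.mul_assoc]

theorem rGLc_of_sl {A C : Matrix.SpecialLinearGroup (Fin 3) ℂ}
    (h : ∃ g : Matrix.SpecialLinearGroup (Fin 3) ℂ, g * A * g⁻¹ = C) : rGLc A.1 C.1 := by
  obtain ⟨g, rfl⟩ := h
  exact ⟨g.1, (g⁻¹).1, e6_sl_mul_inv g, e6_sl_inv_mul g, (e6_sl_conj_val g A).symm⟩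

theorem rGLc_to_sl {A C : Matrix.SpecialLinearGroup (Fin 3) ℂ} (h : rGLc A.1 C.1) :
    ∃ g : Matrix.SpecialLinearGroup (Fin 3) ℂ, g * A * g⁻¹ = C := by
  obtain ⟨P, P', h1, _, h3⟩ := h
  obtain ⟨k, hk⟩ := e6_sl_conj A P P' h1 C.1 h3
  exact ⟨k, Subtype.ext hk⟩

theorem rGLc_to_sl_mul {A B C : Matrix.SpecialLinearGroup (Fin 3) ℂ}
    (h : rGLc (A.1 * B.1) C.1) :
    ∃ g : Matrix.SpecialLinearGroup (Fin 3) ℂ, g * (A * B) * g⁻¹ = C :=
  rGLc_to_sl (by rw [Matrix.SpecialLinearGroup.coe_mul]; exact h)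

theorem rGLc_charpoly {M N : Matrix (Fin 3) (Fin 3) ℂ} (h : rGLc M N) :
    N.charpoly = M.charpoly := by
  obtain ⟨P, P', _, h2, rfl⟩ := h
  exact e6_charpoly_conj P P' M h2

theorem rGLc_minpoly {M N : Matrix (Fin 3) (Fin 3) ℂ} (h : rGLc M N) :
    minpoly ℂ N = minpoly ℂ M := by
  obtain ⟨P, P', h1, h2, rfl⟩ := h
  exact rMinpoly_conj M P P' h1 h2

/-- The determinant from the characteristic polynomial. -/
theorem rAll_det (M : Matrix (Fin 3) (Fin 3) ℂ) (d : Fin 3 → ℂ) (h : M.charpoly = rChi d) :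
    M.det = d 0 * d 1 * d 2 := by
  have h0 : M.charpoly.eval 0 = (rChi d).eval 0 := by rw [h]
  rw [charpoly_fin_three] at h0
  simp [rChi] at h0
  linear_combination h0

/-- The numbers `d i` are roots of `rChi d`. -/
theorem rAll_root (d : Fin 3 → ℂ) (i : Fin 3) : (rChi d).IsRoot (d i) := by
  unfold rChi
  fin_cases i <;> simp [Polynomial.IsRoot]

/-- The inverses of three numbers with product one are products of the other two. -/
theorem rAll_inv (d : Fin 3 → ℂ) (h : d 0 * d 1 * d 2 = 1) (i : Fin 3) :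
    (d i)⁻¹ = d 0 * d 1 ∨ (d i)⁻¹ = d 0 * d 2 ∨ (d i)⁻¹ = d 1 * d 2 := by
  have h0 : (d 0)⁻¹ = d 1 * d 2 :=
    (eq_inv_of_mul_eq_one_left (by linear_combination h)).symm
  have h1 : (d 1)⁻¹ = d 0 * d 2 :=
    (eq_inv_of_mul_eq_one_left (by linear_combination h)).symm
  have h2 : (d 2)⁻¹ = d 0 * d 1 :=
    (eq_inv_of_mul_eq_one_left (by linear_combination h)).symm
  fin_cases i
  · exact Or.inr (Or.inr h0)
  · exact Or.inr (Or.inl h1)
  · exact Or.inl h2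

/-- **Density for all classes**, with the third class given by the product `A * B`. -/
theorem density_all_aux (C₁ C₂ D₃ : Matrix.SpecialLinearGroup (Fin 3) ℂ) (a b c : Fin 3 → ℂ)
    (hC1 : C₁.1.charpoly = rChi a) (hC2 : C₂.1.charpoly = rChi b) (hD3 : D₃.1.charpoly = rChi c)
    (ha : ∀ i, IsIntegral ℤ (a i)) (hb : ∀ i, IsIntegral ℤ (b i))
    (hc : ∀ i, IsIntegral ℤ (c i)) :
    ∃ L : IntermediateField ℚ ℂ, FiniteDimensional ℚ L ∧
      ∀ F : MvPolynomial (Fin 2 × Fin 3 × Fin 3) ℂ,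
        (∀ A B h : Matrix.SpecialLinearGroup (Fin 3) ℂ,
          MvPolynomial.eval (fun x => (![(h * A * h⁻¹).1, (h * B * h⁻¹).1] x.1) x.2.1 x.2.2) F
            = MvPolynomial.eval (fun x => (![A.1, B.1] x.1) x.2.1 x.2.2) F) →
        (∀ A B : Matrix.SpecialLinearGroup (Fin 3) ℂ,
          (∃ g : Matrix.SpecialLinearGroup (Fin 3) ℂ, g * A * g⁻¹ = C₁) →
          (∃ g : Matrix.SpecialLinearGroup (Fin 3) ℂ, g * B * g⁻¹ = C₂) →
          (∃ g : Matrix.SpecialLinearGroup (Fin 3) ℂ, g * (A * B) * g⁻¹ = D₃) →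
          rSS A.1 B.1 →
          (∀ i j, A.1 i j ∈ L ∧ IsIntegral ℤ (A.1 i j)) →
          (∀ i j, B.1 i j ∈ L ∧ IsIntegral ℤ (B.1 i j)) →
          MvPolynomial.eval (fun x => (![A.1, B.1] x.1) x.2.1 x.2.2) F = 0) →
        ∀ A B : Matrix.SpecialLinearGroup (Fin 3) ℂ,
          (∃ g : Matrix.SpecialLinearGroup (Fin 3) ℂ, g * A * g⁻¹ = C₁) →
          (∃ g : Matrix.SpecialLinearGroup (Fin 3) ℂ, g * B * g⁻¹ = C₂) →
          (∃ g : Matrix.SpecialLinearGroup (Fin 3) ℂ, g * (A * B) * g⁻¹ = D₃) →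
          rSS A.1 B.1 →
          MvPolynomial.eval (fun x => (![A.1, B.1] x.1) x.2.1 x.2.2) F = 0 := by
  classical
  have ha1 : a 0 * a 1 * a 2 = 1 := by rw [← rAll_det C₁.1 a hC1]; exact C₁.2
  have hb1 : b 0 * b 1 * b 2 = 1 := by rw [← rAll_det C₂.1 b hC2]; exact C₂.2
  have hc1 : c 0 * c 1 * c 2 = 1 := by rw [← rAll_det D₃.1 c hD3]; exact D₃.2
  obtain ⟨L, hfin, hSL, hUL⟩ := rField (Set.range a ∪ Set.range b ∪ Set.range c)
    (((Set.finite_range a).union (Set.finite_range b)).union (Set.finite_range c)) (by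
      rintro x ((⟨i, rfl⟩ | ⟨i, rfl⟩) | ⟨i, rfl⟩)
      · exact ha i
      · exact hb i
      · exact hc i)
  refine ⟨L, hfin, ?_⟩
  intro F Hinv Hvan A B hA hB hAB hss
  -- the ring of integers of `L` as a subring of `ℂ`
  let O : Subring ℂ := (integralClosure ℤ ℂ).toSubring ⊓ L.toSubfield.toSubring
  have hO : ∀ x : ℂ, x ∈ O ↔ IsIntegral ℤ x ∧ x ∈ L := fun x => Iff.rfl
  have haO : ∀ i, a i ∈ O := fun i =>
    (hO _).mpr ⟨ha i, hSL _ (Or.inl (Or.inl ⟨i, rfl⟩))⟩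
  have hbO : ∀ i, b i ∈ O := fun i =>
    (hO _).mpr ⟨hb i, hSL _ (Or.inl (Or.inr ⟨i, rfl⟩))⟩
  have hcO : ∀ i, c i ∈ O := fun i =>
    (hO _).mpr ⟨hc i, hSL _ (Or.inr ⟨i, rfl⟩)⟩
  have hUO : ∀ u ∈ (Subgroup.zpowers unitW : Set ℂˣ),
      (u : ℂ) ∈ O ∧ ((u⁻¹ : ℂˣ) : ℂ) ∈ O :=
    fun u hu => ⟨(hO _).mpr (hUL u hu).1, (hO _).mpr (hUL u hu).2⟩
  -- invariance under all invertible matrices
  have Hgl : ∀ A B P Q : Matrix (Fin 3) (Fin 3) ℂ, A.det = 1 → B.det = 1 → P * Q = 1 →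
      Q * P = 1 → MvPolynomial.eval (pairPt (Q * A * P) (Q * B * P)) F
        = MvPolynomial.eval (pairPt A B) F :=
    fun A B P Q hdA hdB hPQ hQP =>
      e6_conj_eq (fun _ _ => True) F (fun A B h _ => Hinv A B h) ⟨A, hdA⟩ ⟨B, hdB⟩ trivial
        P Q hPQ hQP
  -- the classes of `A`, `B`, `A * B`
  have cA : rGLc A.1 C₁.1 := rGLc_of_sl hA
  have cB : rGLc B.1 C₂.1 := rGLc_of_sl hB
  have cAB : rGLc (A.1 * B.1) D₃.1 := by
    have h0 := rGLc_of_sl hAB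
    rwa [Matrix.SpecialLinearGroup.coe_mul] at h0
  have hcA : A.1.charpoly = rChi a := by rw [← rGLc_charpoly cA, hC1]
  have hcB : B.1.charpoly = rChi b := by rw [← rGLc_charpoly cB, hC2]
  have hcAB : (A.1 * B.1).charpoly = rChi c := by rw [← rGLc_charpoly cAB, hD3]
  -- vanishing at the pairs conjugate to an integral pair
  have key : ∀ P P' : Matrix (Fin 3) (Fin 3) ℂ, P * P' = 1 → P' * P = 1 →
      (∀ i j, (P * A.1 * P') i j ∈ O) → (∀ i j, (P * B.1 * P') i j ∈ O) →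
      MvPolynomial.eval (pairPt A.1 B.1) F = 0 := by
    intro P P' hPP' hP'P hAO hBO
    have hdA' : (P * A.1 * P').det = 1 := by rw [rDet_conj P P' _ hP'P]; exact A.2
    have hdB' : (P * B.1 * P').det = 1 := by rw [rDet_conj P P' _ hP'P]; exact B.2
    have cA' : rGLc (P * A.1 * P') C₁.1 := rGLc_trans (rGLc_symm ⟨P, P', hPP', hP'P, rfl⟩) cA
    have cB' : rGLc (P * B.1 * P') C₂.1 := rGLc_trans (rGLc_symm ⟨P, P', hPP', hP'P, rfl⟩) cB
    have cAB' : rGLc (P * A.1 * P' * (P * B.1 * P')) D₃.1 :=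
      rGLc_trans (rGLc_symm ⟨P, P', hPP', hP'P, (rCore_mul_conj P P' A.1 B.1 hP'P).symm⟩) cAB
    have h0 := Hvan ⟨P * A.1 * P', hdA'⟩ ⟨P * B.1 * P', hdB'⟩ (rGLc_to_sl cA') (rGLc_to_sl cB')
      (rGLc_to_sl_mul (A := ⟨P * A.1 * P', hdA'⟩) (B := ⟨P * B.1 * P', hdB'⟩) cAB')
      (rSS_conj A.1 B.1 P P' hPP' hP'P hss)
      (fun i j => ⟨((hO _).mp (hAO i j)).2, ((hO _).mp (hAO i j)).1⟩)
      (fun i j => ⟨((hO _).mp (hBO i j)).2, ((hO _).mp (hBO i j)).1⟩)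
    exact (Hgl A.1 B.1 P' P A.2 B.2 hP'P hPP').symm.trans h0
  by_cases hirr : rIrr A.1 B.1
  swap
  · obtain ⟨P, P', hPP', hP'P, hAO, hBO⟩ :=
      rRed_integral a b c O haO hbO hcO A.1 B.1 hcA hcB hcAB hss hirr
    exact key P P' hPP' hP'P hAO hBO
  by_cases hreg : minpoly ℂ A.1 = A.1.charpoly ∧ minpoly ℂ B.1 = B.1.charpoly ∧
      minpoly ℂ (A.1 * B.1) = (A.1 * B.1).charpoly
  swap
  · have hnr : minpoly ℂ A.1 ≠ A.1.charpoly ∨ minpoly ℂ B.1 ≠ B.1.charpoly ∨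
        minpoly ℂ (A.1 * B.1) ≠ (A.1 * B.1).charpoly := by
      by_contra hcon
      apply hreg
      refine ⟨?_, ?_, ?_⟩
      · by_contra h0
        exact hcon (Or.inl h0)
      · by_contra h0
        exact hcon (Or.inr (Or.inl h0))
      · by_contra h0
        exact hcon (Or.inr (Or.inr h0))
    obtain ⟨P, P', hPP', hP'P, hAO, hBO⟩ :=
      rNonreg_integral a b c ha1 hb1 hc1 O haO hbO hcO A.1 B.1 A.2 B.2 hcA hcB hcAB hirr hnr
    exact key P P' hPP' hP'P hAO hBO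
  obtain ⟨hrA, hrB, hrAB⟩ := hreg
  -- the three classes are regular
  have hrC1 : minpoly ℂ C₁.1 = C₁.1.charpoly := by
    rw [rGLc_minpoly cA, rGLc_charpoly cA]
    exact hrA
  have hrC2 : minpoly ℂ C₂.1 = C₂.1.charpoly := by
    rw [rGLc_minpoly cB, rGLc_charpoly cB]
    exact hrB
  have hrD3 : minpoly ℂ D₃.1 = D₃.1.charpoly := by
    rw [rGLc_minpoly cAB, rGLc_charpoly cAB]
    exact hrAB
  refine rCore_main a b c ha1 hb1 hc1 O haO hbO hcO _ infinite_zpowers_unitW hUO F Hgl ?_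
    A.1 B.1 A.2 B.2 hcA hcB hcAB hrA hrB hrAB hirr
  intro A' B' hdA' hdB' hA' hB' hAB' hrA' hrB' hrAB' hirr' hAO hBO
  have c1 : rGLc A' C₁.1 := rReg_conj A' C₁.1 hrA' hrC1 (by rw [hA', hC1])
  have c2 : rGLc B' C₂.1 := rReg_conj B' C₂.1 hrB' hrC2 (by rw [hB', hC2])
  have c3 : rGLc (A' * B') D₃.1 := rReg_conj (A' * B') D₃.1 hrAB' hrD3 (by rw [hAB', hD3])
  exact Hvan ⟨A', hdA'⟩ ⟨B', hdB'⟩ (rGLc_to_sl c1) (rGLc_to_sl c2)
    (rGLc_to_sl_mul (A := ⟨A', hdA'⟩) (B := ⟨B', hdB'⟩) c3)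
    (rSS_of_rIrr hirr')
    (fun i j => ⟨((hO _).mp (hAO i j)).2, ((hO _).mp (hAO i j)).1⟩)
    (fun i j => ⟨((hO _).mp (hBO i j)).2, ((hO _).mp (hBO i j)).1⟩)

/-- **Density of integral points for rank three local systems on the thrice punctured sphere,
for all boundary classes with algebraic integer eigenvalues.** -/
theorem density_all (C₁ C₂ C₃ : Matrix.SpecialLinearGroup (Fin 3) ℂ)
    (h₁ : ∀ z : ℂ, C₁.1.charpoly.IsRoot z → IsIntegral ℤ z)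
    (h₂ : ∀ z : ℂ, C₂.1.charpoly.IsRoot z → IsIntegral ℤ z)
    (h₃ : ∀ z : ℂ, C₃.1.charpoly.IsRoot z → IsIntegral ℤ z) :
    ∃ L : IntermediateField ℚ ℂ, FiniteDimensional ℚ L ∧
      ∀ F : MvPolynomial (Fin 2 × Fin 3 × Fin 3) ℂ,
        (∀ A B h : Matrix.SpecialLinearGroup (Fin 3) ℂ,
          MvPolynomial.eval (fun x => (![(h * A * h⁻¹).1, (h * B * h⁻¹).1] x.1) x.2.1 x.2.2) F
            = MvPolynomial.eval (fun x => (![A.1, B.1] x.1) x.2.1 x.2.2) F) →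
        (∀ A B : Matrix.SpecialLinearGroup (Fin 3) ℂ,
          (∃ g : Matrix.SpecialLinearGroup (Fin 3) ℂ, g * A * g⁻¹ = C₁) →
          (∃ g : Matrix.SpecialLinearGroup (Fin 3) ℂ, g * B * g⁻¹ = C₂) →
          (∃ g : Matrix.SpecialLinearGroup (Fin 3) ℂ, g * (A * B)⁻¹ * g⁻¹ = C₃) →
          rSS A.1 B.1 →
          (∀ i j, A.1 i j ∈ L ∧ IsIntegral ℤ (A.1 i j)) →
          (∀ i j, B.1 i j ∈ L ∧ IsIntegral ℤ (B.1 i j)) →
          MvPolynomial.eval (fun x => (![A.1, B.1] x.1) x.2.1 x.2.2) F = 0) →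
        ∀ A B : Matrix.SpecialLinearGroup (Fin 3) ℂ,
          (∃ g : Matrix.SpecialLinearGroup (Fin 3) ℂ, g * A * g⁻¹ = C₁) →
          (∃ g : Matrix.SpecialLinearGroup (Fin 3) ℂ, g * B * g⁻¹ = C₂) →
          (∃ g : Matrix.SpecialLinearGroup (Fin 3) ℂ, g * (A * B)⁻¹ * g⁻¹ = C₃) →
          rSS A.1 B.1 →
          MvPolynomial.eval (fun x => (![A.1, B.1] x.1) x.2.1 x.2.2) F = 0 := by
  obtain ⟨a0, a1, a2, hC1⟩ := rJor_split C₁.1
  obtain ⟨b0, b1, b2, hC2⟩ := rJor_split C₂.1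
  obtain ⟨c0, c1, c2, hC3⟩ := rJor_split C₃.1
  have hC1' : C₁.1.charpoly = rChi ![a0, a1, a2] := hC1
  have hC2' : C₂.1.charpoly = rChi ![b0, b1, b2] := hC2
  have hC3' : C₃.1.charpoly = rChi ![c0, c1, c2] := hC3
  have ha : ∀ i, IsIntegral ℤ (![a0, a1, a2] i) :=
    fun i => h₁ _ (by rw [hC1']; exact rAll_root _ i)
  have hb : ∀ i, IsIntegral ℤ (![b0, b1, b2] i) :=
    fun i => h₂ _ (by rw [hC2']; exact rAll_root _ i)
  have hc' : ∀ i, IsIntegral ℤ (![c0, c1, c2] i) :=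
    fun i => h₃ _ (by rw [hC3']; exact rAll_root _ i)
  have hc1 : (![c0, c1, c2] : Fin 3 → ℂ) 0 * (![c0, c1, c2] : Fin 3 → ℂ) 1
      * (![c0, c1, c2] : Fin 3 → ℂ) 2 = 1 := by
    rw [← rAll_det C₃.1 _ hC3']
    exact C₃.2
  have hD3 : (C₃⁻¹).1.charpoly = rChi (fun i => ((![c0, c1, c2] : Fin 3 → ℂ) i)⁻¹) :=
    rInvMat_charpoly C₃.1 (C₃⁻¹).1 (e6_sl_mul_inv C₃) _ hC3'
  have hc : ∀ i, IsIntegral ℤ (((![c0, c1, c2] : Fin 3 → ℂ) i)⁻¹) := by
    intro i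
    rcases rAll_inv _ hc1 i with h | h | h <;> rw [h] <;> exact IsIntegral.mul (hc' _) (hc' _)
  obtain ⟨L, hfin, h⟩ := density_all_aux C₁ C₂ C₃⁻¹ _ _ _ hC1' hC2' hD3 ha hb hc
  refine ⟨L, hfin, fun F Hinv Hvan A B hA hB hAB hss => ?_⟩
  have conv1 : ∀ A B : Matrix.SpecialLinearGroup (Fin 3) ℂ,
      (∃ g : Matrix.SpecialLinearGroup (Fin 3) ℂ, g * (A * B) * g⁻¹ = C₃⁻¹) →
      ∃ g : Matrix.SpecialLinearGroup (Fin 3) ℂ, g * (A * B)⁻¹ * g⁻¹ = C₃ := by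
    rintro A B ⟨g, hg⟩
    refine ⟨g, ?_⟩
    have h0 : (g * (A * B) * g⁻¹)⁻¹ = C₃ := by rw [hg, inv_inv]
    rw [← h0]
    group
  have conv2 : ∀ A B : Matrix.SpecialLinearGroup (Fin 3) ℂ,
      (∃ g : Matrix.SpecialLinearGroup (Fin 3) ℂ, g * (A * B)⁻¹ * g⁻¹ = C₃) →
      ∃ g : Matrix.SpecialLinearGroup (Fin 3) ℂ, g * (A * B) * g⁻¹ = C₃⁻¹ := by
    rintro A B ⟨g, hg⟩
    refine ⟨g, ?_⟩
    rw [← hg]
    group
  exact h F Hinv
    (fun A B hA hB hAB hss hAO hBO => Hvan A B hA hB (conv1 A B hAB) hss hAO hBO)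
    A B hA hB (conv2 A B hAB) hss

end Vale.Agent.Lib.P002

end
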