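import Vale.Agent.Lib.P002.RegDefs

/-!
Burnside's theorem for a pair of three by three matrices

An irreducible pair generates the full matrix algebra.  The proof is the density theorem of
Jacobson together with Schur's lemma over the complex numbers.
-/

noncomputable section

namespace Vale.Agent.Lib.P002

open Polynomial Matrix

/-- The algebra of linear maps generated by the pair. -/
def rBurn_alg (A B : Matrix (Fin 3) (Fin 3) ℂ) :
    Subalgebra ℂ (Module.End ℂ (Fin 3 → ℂ)) :=
  ((Matrix.toLinAlgEquiv' : Matrix (Fin 3) (Fin 3) ℂ ≃ₐ[ℂ] Module.End ℂ (Fin 3 → ℂ)).toAlgHom.comp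
    (rEv A B)).range

theorem rBurn_memA (A B : Matrix (Fin 3) (Fin 3) ℂ) :
    Matrix.toLin' A ∈ rBurn_alg A B := by
  refine ⟨FreeAlgebra.ι ℂ 0, ?_⟩
  simp [rEv]
  rfl

theorem rBurn_memB (A B : Matrix (Fin 3) (Fin 3) ℂ) :
    Matrix.toLin' B ∈ rBurn_alg A B := by
  refine ⟨FreeAlgebra.ι ℂ 1, ?_⟩
  simp [rEv]
  rfl

theorem rBurn_smul_def (A B : Matrix (Fin 3) (Fin 3) ℂ) (s : rBurn_alg A B) (v : Fin 3 → ℂ) :
    s • v = (s : Module.End ℂ (Fin 3 → ℂ)) v := rfl

theorem rBurn_algebraMap_smul (A B : Matrix (Fin 3) (Fin 3) ℂ) (c : ℂ) (v : Fin 3 → ℂ) :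
    (algebraMap ℂ (rBurn_alg A B) c) • v = c • v := by
  rw [rBurn_smul_def]
  simp [Module.algebraMap_end_apply]

/-- Invariant subspaces of the generated algebra are invariant under the pair. -/
theorem rBurn_simple (A B : Matrix (Fin 3) (Fin 3) ℂ) (h : rIrr A B) :
    IsSimpleModule (rBurn_alg A B) (Fin 3 → ℂ) := by
  have hnt : Nontrivial (Submodule (rBurn_alg A B) (Fin 3 → ℂ)) := inferInstance
  suffices hs : IsSimpleOrder (Submodule (rBurn_alg A B) (Fin 3 → ℂ)) from { }
  refine ⟨fun N => ?_⟩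
  obtain ⟨W, hW⟩ : ∃ W : Submodule ℂ (Fin 3 → ℂ), ∀ v, v ∈ W ↔ v ∈ N := by
    refine ⟨{ carrier := N
              add_mem' := fun ha hb => N.add_mem ha hb
              zero_mem' := N.zero_mem
              smul_mem' := fun c v hv => ?_ }, fun v => Iff.rfl⟩
    have := N.smul_mem (algebraMap ℂ (rBurn_alg A B) c) hv
    rw [rBurn_algebraMap_smul] at this
    exact this
  have hA : rInv A W := by
    intro v hv
    rw [hW] at hv ⊢
    have := N.smul_mem ⟨_, rBurn_memA A B⟩ hv
    rw [rBurn_smul_def] at this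
    simpa using this
  have hB : rInv B W := by
    intro v hv
    rw [hW] at hv ⊢
    have := N.smul_mem ⟨_, rBurn_memB A B⟩ hv
    rw [rBurn_smul_def] at this
    simpa using this
  rcases h W hA hB with h0 | h1
  · left
    rw [Submodule.eq_bot_iff]
    intro v hv
    have : v ∈ W := (hW v).2 hv
    rw [h0] at this
    simpa using this
  · right
    rw [Submodule.eq_top_iff']
    intro v
    rw [← hW, h1]
    trivial

/-- Schur: an endomorphism commuting with the generated algebra is a scalar. -/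
theorem rBurn_schur (A B : Matrix (Fin 3) (Fin 3) ℂ) (h : rIrr A B)
    (φ : Module.End (rBurn_alg A B) (Fin 3 → ℂ)) : ∃ c : ℂ, ∀ v, φ v = c • v := by
  obtain ⟨ψ, hψ⟩ : ∃ ψ : Module.End ℂ (Fin 3 → ℂ), ∀ v, ψ v = φ v := by
    refine ⟨{ toFun := φ
              map_add' := φ.map_add
              map_smul' := fun c v => ?_ }, fun v => rfl⟩
    have := φ.map_smul (algebraMap ℂ (rBurn_alg A B) c) v
    rw [rBurn_algebraMap_smul, rBurn_algebraMap_smul] at this
    exact this
  obtain ⟨c, hc⟩ := Module.End.exists_eigenvalue ψ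
  refine ⟨c, ?_⟩
  have hne : Module.End.eigenspace ψ c ≠ ⊥ := hc
  have hA : rInv A (Module.End.eigenspace ψ c) := by
    intro v hv
    rw [Module.End.mem_eigenspace_iff] at hv ⊢
    have := φ.map_smul (⟨_, rBurn_memA A B⟩ : rBurn_alg A B) v
    rw [rBurn_smul_def, rBurn_smul_def] at this
    simp only [Matrix.toLin'_apply] at this
    rw [hψ, this, ← hψ, hv, Matrix.mulVec_smul]
  have hB : rInv B (Module.End.eigenspace ψ c) := by
    intro v hv
    rw [Module.End.mem_eigenspace_iff] at hv ⊢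
    have := φ.map_smul (⟨_, rBurn_memB A B⟩ : rBurn_alg A B) v
    rw [rBurn_smul_def, rBurn_smul_def] at this
    simp only [Matrix.toLin'_apply] at this
    rw [hψ, this, ← hψ, hv, Matrix.mulVec_smul]
  rcases h _ hA hB with h0 | h1
  · exact absurd h0 hne
  · intro v
    have : v ∈ Module.End.eigenspace ψ c := by rw [h1]; trivial
    rw [Module.End.mem_eigenspace_iff] at this
    rw [← hψ, this]

theorem rBurnside (A B : Matrix (Fin 3) (Fin 3) ℂ) (h : rIrr A B)
    (X : Matrix (Fin 3) (Fin 3) ℂ) : ∃ φ : FreeAlgebra ℂ (Fin 2), rEv A B φ = X := by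
  have hsimple := rBurn_simple A B h
  obtain ⟨f, hf⟩ : ∃ f : Module.End (Module.End (rBurn_alg A B) (Fin 3 → ℂ)) (Fin 3 → ℂ),
      ∀ v, f v = Matrix.toLin' X v := by
    refine ⟨{ toFun := Matrix.toLin' X
              map_add' := (Matrix.toLin' X).map_add
              map_smul' := fun φ v => ?_ }, fun v => rfl⟩
    obtain ⟨c, hc⟩ := rBurn_schur A B h φ
    simp only [Module.End.smul_def, hc, RingHom.id_apply, map_smul]
  obtain ⟨r, hr⟩ := jacobson_density (R := rBurn_alg A B) (M := Fin 3 → ℂ) f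
    (Finset.univ.image (fun i : Fin 3 => (Pi.basisFun ℂ (Fin 3)) i))
  have hX : Matrix.toLin' X = (r : Module.End ℂ (Fin 3 → ℂ)) := by
    refine (Pi.basisFun ℂ (Fin 3)).ext fun i => ?_
    have := hr ((Pi.basisFun ℂ (Fin 3)) i) (Finset.mem_image_of_mem _ (Finset.mem_univ i))
    rw [hf, rBurn_smul_def] at this
    exact this
  obtain ⟨φ, hφ⟩ := r.2
  refine ⟨φ, ?_⟩
  have h2 : Matrix.toLin' (rEv A B φ) = Matrix.toLin' X := by
    rw [hX, ← hφ]
    rfl
  exact Matrix.toLin'.injective h2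

end Vale.Agent.Lib.P002

end
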