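import Vale.Agent.Lib.P002.RegEv
import Vale.Agent.Lib.P002.RegBurnside

/-!
# The certificate of irreducibility and regularity

The function `rCert a b c φ` of a pair `(A, B)` is a polynomial in the entries, invariant under
simultaneous conjugation; it is nonzero only at irreducible pairs at which the three quadratics
do not vanish, and for each such pair some choice of `φ` makes it nonzero.
-/

noncomputable section

namespace Vale.Agent.Lib.P002

open Polynomial Matrix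

/-- A polynomial in `A` is a noncommutative polynomial in `(A, B)`. -/
theorem rEv_aeval_left (A B : Matrix (Fin 3) (Fin 3) ℂ) (q : ℂ[X]) :
    rEv A B (aeval (FreeAlgebra.ι ℂ (0 : Fin 2)) q) = aeval A q := by
  rw [← Polynomial.aeval_algHom_apply]
  congr 1
  simp [rEv]

/-- A polynomial in `B` is a noncommutative polynomial in `(A, B)`. -/
theorem rEv_aeval_right (A B : Matrix (Fin 3) (Fin 3) ℂ) (q : ℂ[X]) :
    rEv A B (aeval (FreeAlgebra.ι ℂ (1 : Fin 2)) q) = aeval B q := by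
  rw [← Polynomial.aeval_algHom_apply]
  congr 1
  simp [rEv]

/-- A polynomial in `A * B` is a noncommutative polynomial in `(A, B)`. -/
theorem rEv_aeval_mul (A B : Matrix (Fin 3) (Fin 3) ℂ) (q : ℂ[X]) :
    rEv A B (aeval (FreeAlgebra.ι ℂ (0 : Fin 2) * FreeAlgebra.ι ℂ (1 : Fin 2)) q)
      = aeval (A * B) q := by
  rw [← Polynomial.aeval_algHom_apply]
  congr 1
  simp [rEv]

/-- The four noncommutative polynomials whose values enter the certificate. -/
def rCertWord (a b c : Fin 3 → ℂ) (φ : Fin 5 → FreeAlgebra ℂ (Fin 2)) :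
    Fin 4 → FreeAlgebra ℂ (Fin 2) :=
  ![φ 0 * φ 1 - φ 1 * φ 0,
    aeval (FreeAlgebra.ι ℂ (0 : Fin 2)) (rQ a) * φ 2,
    aeval (FreeAlgebra.ι ℂ (1 : Fin 2)) (rQ b) * φ 3,
    aeval (FreeAlgebra.ι ℂ (0 : Fin 2) * FreeAlgebra.ι ℂ (1 : Fin 2)) (rQ c) * φ 4]

theorem rCert_eq (a b c : Fin 3 → ℂ) (φ : Fin 5 → FreeAlgebra ℂ (Fin 2))
    (A B : Matrix (Fin 3) (Fin 3) ℂ) :
    rCert a b c φ A B = (rEv A B (rCertWord a b c φ 0)).det *
      (rEv A B (rCertWord a b c φ 1)).trace * (rEv A B (rCertWord a b c φ 2)).trace *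
      (rEv A B (rCertWord a b c φ 3)).trace := by
  simp only [rCert, rCertWord, Matrix.cons_val_zero, Matrix.cons_val_one, Matrix.cons_val,
    map_sub, map_mul, rEv_aeval_left, rEv_aeval_right, rEv_aeval_mul]

/-- The certificate is a polynomial in the entries of the pair. -/
theorem rCert_poly (a b c : Fin 3 → ℂ) (φ : Fin 5 → FreeAlgebra ℂ (Fin 2)) :
    ∃ G : MvPolynomial (Fin 2 × Fin 3 × Fin 3) ℂ, ∀ A B : Matrix (Fin 3) (Fin 3) ℂ,
      MvPolynomial.eval (pairPt A B) G = rCert a b c φ A B := by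
  choose G hG using fun (k : Fin 4) (i j : Fin 3) => rEv_poly (rCertWord a b c φ k) i j
  refine ⟨(G 0 0 0 * G 0 1 1 * G 0 2 2 - G 0 0 0 * G 0 1 2 * G 0 2 1
      - G 0 0 1 * G 0 1 0 * G 0 2 2 + G 0 0 1 * G 0 1 2 * G 0 2 0
      + G 0 0 2 * G 0 1 0 * G 0 2 1 - G 0 0 2 * G 0 1 1 * G 0 2 0) *
      (G 1 0 0 + G 1 1 1 + G 1 2 2) * (G 2 0 0 + G 2 1 1 + G 2 2 2) *
      (G 3 0 0 + G 3 1 1 + G 3 2 2), ?_⟩
  intro A B
  rw [rCert_eq, Matrix.det_fin_three, Matrix.trace_fin_three, Matrix.trace_fin_three,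
    Matrix.trace_fin_three]
  simp only [map_mul, map_add, map_sub, hG]

/-- The certificate is invariant under simultaneous conjugation. -/
theorem rCert_conj (a b c : Fin 3 → ℂ) (φ : Fin 5 → FreeAlgebra ℂ (Fin 2))
    (A B P P' : Matrix (Fin 3) (Fin 3) ℂ) (h : P * P' = 1) (h' : P' * P = 1) :
    rCert a b c φ (P * A * P') (P * B * P') = rCert a b c φ A B := by
  have hdet : ∀ X : Matrix (Fin 3) (Fin 3) ℂ, (P * X * P').det = X.det := by
    intro X
    rw [Matrix.det_mul, Matrix.det_mul, mul_comm, ← mul_assoc, ← Matrix.det_mul, h',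
      Matrix.det_one, one_mul]
  have htr : ∀ X : Matrix (Fin 3) (Fin 3) ℂ, (P * X * P').trace = X.trace := by
    intro X
    rw [Matrix.trace_mul_comm, ← Matrix.mul_assoc, h', Matrix.one_mul]
  rw [rCert_eq, rCert_eq]
  simp only [rEv_conj _ A B P P' h h', hdet, htr]

/-- Where the certificate does not vanish, the pair is irreducible and the three quadratics do
not vanish. -/
theorem rCert_ne_zero (a b c : Fin 3 → ℂ) (φ : Fin 5 → FreeAlgebra ℂ (Fin 2))
    (A B : Matrix (Fin 3) (Fin 3) ℂ) (h : rCert a b c φ A B ≠ 0) :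
    rIrr A B ∧ aeval A (rQ a) ≠ 0 ∧ aeval B (rQ b) ≠ 0 ∧ aeval (A * B) (rQ c) ≠ 0 := by
  unfold rCert at h
  have h1 := left_ne_zero_of_mul h
  have h2 := left_ne_zero_of_mul h1
  have h3 := left_ne_zero_of_mul h2
  refine ⟨rIrr_of_comm A B (φ 0) (φ 1) h3, ?_, ?_, ?_⟩
  · intro h0
    apply right_ne_zero_of_mul h2
    rw [h0, Matrix.zero_mul, Matrix.trace_zero]
  · intro h0
    apply right_ne_zero_of_mul h1
    rw [h0, Matrix.zero_mul, Matrix.trace_zero]
  · intro h0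
    apply right_ne_zero_of_mul h
    rw [h0, Matrix.zero_mul, Matrix.trace_zero]

/-- A nonzero matrix has nonzero trace against some matrix. -/
theorem rCert_trace_ne (Q : Matrix (Fin 3) (Fin 3) ℂ) (hQ : Q ≠ 0) :
    ∃ X : Matrix (Fin 3) (Fin 3) ℂ, (Q * X).trace ≠ 0 := by
  have : ∃ i j, Q i j ≠ 0 := by
    by_contra hcon
    push Not at hcon
    exact hQ (Matrix.ext hcon)
  obtain ⟨i, j, hij⟩ := this
  refine ⟨Matrix.single j i 1, ?_⟩
  rw [Matrix.trace_mul_comm, Matrix.trace_single_mul]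
  simpa using hij

/-- At an irreducible pair at which the three quadratics do not vanish, some certificate does
not vanish. -/
theorem rCert_exists (a b c : Fin 3 → ℂ) (A B : Matrix (Fin 3) (Fin 3) ℂ) (hirr : rIrr A B)
    (hA : aeval A (rQ a) ≠ 0) (hB : aeval B (rQ b) ≠ 0) (hAB : aeval (A * B) (rQ c) ≠ 0) :
    ∃ φ : Fin 5 → FreeAlgebra ℂ (Fin 2), rCert a b c φ A B ≠ 0 := by
  obtain ⟨φ0, h0⟩ := rBurnside A B hirr !![0, 0, 0; 0, 1, 0; 0, 0, 2]
  obtain ⟨φ1, h1⟩ := rBurnside A B hirr !![0, 1, 0; 0, 0, 1; 1, 0, 0]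
  obtain ⟨X2, hX2⟩ := rCert_trace_ne _ hA
  obtain ⟨X3, hX3⟩ := rCert_trace_ne _ hB
  obtain ⟨X4, hX4⟩ := rCert_trace_ne _ hAB
  obtain ⟨φ2, h2⟩ := rBurnside A B hirr X2
  obtain ⟨φ3, h3⟩ := rBurnside A B hirr X3
  obtain ⟨φ4, h4⟩ := rBurnside A B hirr X4
  refine ⟨![φ0, φ1, φ2, φ3, φ4], ?_⟩
  unfold rCert
  simp only [Matrix.cons_val_zero, Matrix.cons_val_one, Matrix.cons_val]
  rw [h0, h1]
  refine mul_ne_zero (mul_ne_zero (mul_ne_zero ?_ ?_) ?_) ?_
  · have hcomm : (!![0, 0, 0; 0, 1, 0; 0, 0, 2] * !![0, 1, 0; 0, 0, 1; 1, 0, 0]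
        - !![0, 1, 0; 0, 0, 1; 1, 0, 0] * !![0, 0, 0; 0, 1, 0; 0, 0, 2]
          : Matrix (Fin 3) (Fin 3) ℂ) = !![0, -1, 0; 0, 0, -1; 2, 0, 0] := by
      ext i j
      fin_cases i <;> fin_cases j <;>
        simp [Matrix.mul_apply, Fin.sum_univ_three] <;> norm_num
    rw [hcomm, Matrix.det_fin_three]
    simp
  · show (aeval A (rQ a) * rEv A B φ2).trace ≠ 0
    rw [h2]
    exact hX2
  · show (aeval B (rQ b) * rEv A B φ3).trace ≠ 0
    rw [h3]
    exact hX3
  · show (aeval (A * B) (rQ c) * rEv A B φ4).trace ≠ 0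
    rw [h4]
    exact hX4

end Vale.Agent.Lib.P002

end
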