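import Vale.Agent.Lib.P002.RegConj
import Vale.Agent.Lib.P002.E6Main

/-!
# From a simultaneous triangular form to a chart point
-/

noncomputable section

namespace Vale.Agent.Lib.P002

open Polynomial Matrix

/-- The characteristic polynomial of an upper triangular three by three matrix. -/
theorem rChart_upper (U : Matrix (Fin 3) (Fin 3) ℂ) (h10 : U 1 0 = 0) (h20 : U 2 0 = 0)
    (h21 : U 2 1 = 0) : U.charpoly = rChi (fun i => U i i) := by
  rw [charpoly_fin_three, rChi, e6pt_expand, Matrix.trace_fin_three, Matrix.det_fin_three]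
  simp only [h10, h20, h21]
  congr 1
  · congr 1
    congr 2
    ring
  · congr 1
    ring

/-- The characteristic polynomial of a lower triangular three by three matrix. -/
theorem rChart_lower (U : Matrix (Fin 3) (Fin 3) ℂ) (h01 : U 0 1 = 0) (h02 : U 0 2 = 0)
    (h12 : U 1 2 = 0) : U.charpoly = rChi (fun i => U i i) := by
  rw [charpoly_fin_three, rChi, e6pt_expand, Matrix.trace_fin_three, Matrix.det_fin_three]
  simp only [h01, h02, h12]
  congr 1
  · congr 1
    congr 2
    ring
  · congr 1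
    ring

/-- A simultaneous triangular form of a pair with prescribed characteristic polynomials, in
the shape of a chart point. -/
theorem rChart (A B : Matrix (Fin 3) (Fin 3) ℂ) (a b : Fin 3 → ℂ) (hA : A.charpoly = rChi a)
    (hB : B.charpoly = rChi b) (P P' : Matrix (Fin 3) (Fin 3) ℂ) (h' : P' * P = 1)
    (hA10 : (P * A * P') 1 0 = 0) (hA20 : (P * A * P') 2 0 = 0) (hA21 : (P * A * P') 2 1 = 0)
    (hB01 : (P * B * P') 0 1 = 0) (hB02 : (P * B * P') 0 2 = 0) (hB12 : (P * B * P') 1 2 = 0) :
    ∃ (σ τ : Equiv.Perm (Fin 3)) (x y z u v w : ℂ),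
      P * A * P' = !![a (σ 0), x, z; 0, a (σ 1), y; 0, 0, a (σ 2)] ∧
      P * B * P' = !![b (τ 0), 0, 0; u, b (τ 1), 0; w, v, b (τ 2)] := by
  have hU := rChart_upper (P * A * P') hA10 hA20 hA21
  have hL := rChart_lower (P * B * P') hB01 hB02 hB12
  rw [e6_charpoly_conj P P' A h', hA] at hU
  rw [e6_charpoly_conj P P' B h', hB] at hL
  obtain ⟨σ, hσ⟩ := rPerm _ _ hU.symm
  obtain ⟨τ, hτ⟩ := rPerm _ _ hL.symm
  refine ⟨σ, τ, (P * A * P') 0 1, (P * A * P') 1 2, (P * A * P') 0 2, (P * B * P') 1 0,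
    (P * B * P') 2 1, (P * B * P') 2 0, ?_, ?_⟩
  · ext i j
    have h0 := congrFun hσ 0
    have h1 := congrFun hσ 1
    have h2 := congrFun hσ 2
    simp only [Function.comp_apply] at h0 h1 h2
    fin_cases i <;> fin_cases j <;> simp [hA10, hA20, hA21, ← h0, ← h1, ← h2]
  · ext i j
    have h0 := congrFun hτ 0
    have h1 := congrFun hτ 1
    have h2 := congrFun hτ 2
    simp only [Function.comp_apply] at h0 h1 h2
    fin_cases i <;> fin_cases j <;> simp [hB01, hB02, hB12, ← h0, ← h1, ← h2]

end Vale.Agent.Lib.P002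

end
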