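import Vale.Agent.Lib.P002.RegChart

/-!
# Density on a chart and on the special curves, for invariant polynomials

`H` is a polynomial in the entries of a pair of three by three matrices, invariant under
simultaneous conjugation, which vanishes at all pairs with entries in a ring `O` and prescribed
characteristic polynomials of `A`, `B` and `A * B`.  Then `H` vanishes at every such complex pair
which can be brought to upper and lower triangular form simultaneously, and at every pair on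
the two special curves of pairs of Jordan blocks.
-/

noncomputable section

namespace Vale.Agent.Lib.P002

open Polynomial Matrix

/-- Conjugation does not change the characteristic polynomial of a product. -/
theorem rCore_mul_conj (P P' A B : Matrix (Fin 3) (Fin 3) ℂ) (h' : P' * P = 1) :
    P * A * P' * (P * B * P') = P * (A * B) * P' := by
  simp only [Matrix.mul_assoc]
  rw [← Matrix.mul_assoc P' P, h', Matrix.one_mul]

/-- **Density on a chart.** -/
theorem rCore_chart (a b c : Fin 3 → ℂ) (ha1 : a 0 * a 1 * a 2 = 1) (hb1 : b 0 * b 1 * b 2 = 1)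
    (hc1 : c 0 * c 1 * c 2 = 1) (O : Subring ℂ) (haO : ∀ i, a i ∈ O) (hbO : ∀ i, b i ∈ O)
    (hcO : ∀ i, c i ∈ O) (U : Set ℂˣ) (hU : U.Infinite)
    (hUO : ∀ u ∈ U, (u : ℂ) ∈ O ∧ ((u⁻¹ : ℂˣ) : ℂ) ∈ O)
    (H : MvPolynomial (Fin 2 × Fin 3 × Fin 3) ℂ)
    (Hgl : ∀ A B P Q : Matrix (Fin 3) (Fin 3) ℂ, A.det = 1 → B.det = 1 → P * Q = 1 →
      Q * P = 1 → MvPolynomial.eval (pairPt (Q * A * P) (Q * B * P)) H
        = MvPolynomial.eval (pairPt A B) H)
    (Hvan : ∀ A B : Matrix (Fin 3) (Fin 3) ℂ, A.det = 1 → B.det = 1 → A.charpoly = rChi a →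
      B.charpoly = rChi b → (A * B).charpoly = rChi c → (∀ i j, A i j ∈ O) →
      (∀ i j, B i j ∈ O) → MvPolynomial.eval (pairPt A B) H = 0)
    (A B : Matrix (Fin 3) (Fin 3) ℂ) (hdA : A.det = 1) (hdB : B.det = 1)
    (hA : A.charpoly = rChi a) (hB : B.charpoly = rChi b) (hAB : (A * B).charpoly = rChi c)
    (P P' : Matrix (Fin 3) (Fin 3) ℂ) (hPP' : P * P' = 1) (hP'P : P' * P = 1)
    (hA10 : (P * A * P') 1 0 = 0) (hA20 : (P * A * P') 2 0 = 0) (hA21 : (P * A * P') 2 1 = 0)
    (hB01 : (P * B * P') 0 1 = 0) (hB02 : (P * B * P') 0 2 = 0) (hB12 : (P * B * P') 1 2 = 0) :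
    MvPolynomial.eval (pairPt A B) H = 0 := by
  obtain ⟨σ, τ, x, y, z, u, v, w, hUA, hLB⟩ :=
    rChart A B a b hA hB P P' hP'P hA10 hA20 hA21 hB01 hB02 hB12
  let a' : Fin 3 → ℂ := fun i => a (σ i)
  let b' : Fin 3 → ℂ := fun i => b (τ i)
  have ha' : a' 0 * a' 1 * a' 2 = 1 := by
    have h1 : ∏ i, a (σ i) = ∏ i, a i := Equiv.prod_comp σ a
    rw [Fin.prod_univ_three, Fin.prod_univ_three] at h1
    exact h1.trans ha1
  have hb' : b' 0 * b' 1 * b' 2 = 1 := by
    have h1 : ∏ i, b (τ i) = ∏ i, b i := Equiv.prod_comp τ b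
    rw [Fin.prod_univ_three, Fin.prod_univ_three] at h1
    exact h1.trans hb1
  have ha'1 : a' 1 ≠ 0 := by
    intro h0
    rw [h0] at ha'
    simp at ha'
  have hb'1 : b' 1 ≠ 0 := by
    intro h0
    rw [h0] at hb'
    simp at hb'
  have ha'O : ∀ i, a' i ∈ O := fun i => haO _
  have hb'O : ∀ i, b' i ∈ O := fun i => hbO _
  have ha'inv : (a' 1)⁻¹ ∈ O := by
    have : (a' 1)⁻¹ = a' 0 * a' 2 := by
      field_simp
      linear_combination (-1 : ℂ) * ha'
    rw [this]
    exact mul_mem (ha'O 0) (ha'O 2)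
  have hb'inv : (b' 1)⁻¹ ∈ O := by
    have : (b' 1)⁻¹ = b' 0 * b' 2 := by
      field_simp
      linear_combination (-1 : ℂ) * hb'
    rw [this]
    exact mul_mem (hb'O 0) (hb'O 2)
  have ha'poly : (X - C (a' 0)) * (X - C (a' 1)) * (X - C (a' 2)) = rChi a := by
    rw [rChi, ← e6_prod_three a', ← e6_prod_three a]
    exact Equiv.prod_comp σ (fun i => (X - C (a i) : ℂ[X]))
  have hb'poly : (X - C (b' 0)) * (X - C (b' 1)) * (X - C (b' 2)) = rChi b := by
    rw [rChi, ← e6_prod_three b', ← e6_prod_three b]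
    exact Equiv.prod_comp τ (fun i => (X - C (b i) : ℂ[X]))
  set al : ℂ := a' 2 * b' 2 with hal
  set be : ℂ := a' 0 * b' 0 with hbe
  set ga : ℂ := a' 1 * b' 1 with hga
  have habg : al * be * ga = 1 := by
    rw [hal, hbe, hga]
    linear_combination (b' 0 * b' 1 * b' 2) * ha' + hb'
  have halO : al ∈ O := mul_mem (ha'O 2) (hb'O 2)
  have hbeO : be ∈ O := mul_mem (ha'O 0) (hb'O 0)
  have hgaO : ga ∈ O := mul_mem (ha'O 1) (hb'O 1)
  have hk1O : e6k1 al be ga c ∈ O :=
    sub_mem (add_mem (add_mem (hcO 0) (hcO 1)) (hcO 2)) (add_mem (add_mem halO hbeO) hgaO)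
  have hk2O : e6k2 al be ga c ∈ O :=
    sub_mem (add_mem (add_mem (mul_mem (hcO 0) (hcO 1)) (mul_mem (hcO 0) (hcO 2)))
      (mul_mem (hcO 1) (hcO 2)))
      (add_mem (add_mem (mul_mem halO hbeO) (mul_mem hbeO hgaO)) (mul_mem hgaO halO))
  have hal0 : al ≠ 0 := by
    intro h0
    rw [h0] at habg
    simp at habg
  have hSS : ∀ p, e6SS a' b' c p ↔ e6S al be ga (e6k1 al be ga c) (e6k2 al be ga c) p :=
    fun p => Iff.rfl
  let p0 : Fin 6 → ℂ := ![x, y, x * y - a' 1 * z, u, v, u * v - b' 1 * w]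
  have hU0 : e6U a' p0 = P * A * P' := by
    rw [hUA]
    have hz : (a' 1)⁻¹ * (x * y - (x * y - a' 1 * z)) = z := by
      field_simp
      ring
    unfold e6U
    simp only [p0, Matrix.cons_val_zero, Matrix.cons_val_one, Matrix.cons_val, hz]
    rfl
  have hL0 : e6L b' p0 = P * B * P' := by
    rw [hLB]
    have hz : (b' 1)⁻¹ * (u * v - (u * v - b' 1 * w)) = w := by
      field_simp
      ring
    unfold e6L
    simp only [p0, Matrix.cons_val, hz]
    rfl
  have hp0 : e6S al be ga (e6k1 al be ga c) (e6k2 al be ga c) p0 := by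
    rw [← hSS, ← e6UL_charpoly_iff a' b' c ha' hb' hc1, hU0, hL0, rCore_mul_conj P P' A B hP'P,
      e6_charpoly_conj P P' _ hP'P, hAB, rChi]
  obtain ⟨f, hf⟩ := e6_exists_comp (fun p : Fin 6 → ℂ => pairPt (e6U a' p) (e6L b' p))
    (e6_coords_poly a' b') H
  have hdU : ∀ p, (e6U a' p).det = 1 := fun p => by rw [e6U_det, ha']
  have hdL : ∀ p, (e6L b' p).det = 1 := fun p => by rw [e6L_det, hb']
  have hinv : ∀ p, e6S al be ga (e6k1 al be ga c) (e6k2 al be ga c) p → ∀ s t : ℂ, s ≠ 0 →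
      t ≠ 0 → MvPolynomial.eval (e6T s t p) f = MvPolynomial.eval p f := by
    intro p _ s t hs ht
    rw [hf, hf, (e6T_conj a' b' s t hs ht p).1, (e6T_conj a' b' s t hs ht p).2]
    have hD1 : Matrix.diagonal ![(s * t)⁻¹, t⁻¹, 1] * Matrix.diagonal ![s * t, t, 1]
        = (1 : Matrix (Fin 3) (Fin 3) ℂ) := by
      rw [Matrix.diagonal_mul_diagonal, ← Matrix.diagonal_one]
      congr 1
      funext i
      fin_cases i
      · simp
        field_simp
      · simp [inv_mul_cancel₀ ht]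
      · simp
    have hD2 : Matrix.diagonal ![s * t, t, 1] * Matrix.diagonal ![(s * t)⁻¹, t⁻¹, 1]
        = (1 : Matrix (Fin 3) (Fin 3) ℂ) := mul_eq_one_comm.mp hD1
    exact Hgl (e6U a' p) (e6L b' p) _ _ (hdU p) (hdL p) hD1 hD2
  have hvan : ∀ p, e6S al be ga (e6k1 al be ga c) (e6k2 al be ga c) p → (∀ i, p i ∈ O) →
      MvPolynomial.eval p f = 0 := by
    intro p hp hpO
    rw [hf]
    have hUO' : ∀ i j, e6U a' p i j ∈ O := by
      intro i j
      fin_cases i <;> fin_cases j <;> simp only [e6U, Matrix.of_apply, Matrix.cons_val',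
        Matrix.cons_val_zero, Matrix.cons_val_one, Matrix.cons_val, Fin.zero_eta, Fin.mk_one,
        Fin.reduceFinMk]
      · exact ha'O 0
      · exact hpO 0
      · exact mul_mem ha'inv (sub_mem (mul_mem (hpO 0) (hpO 1)) (hpO 2))
      · exact zero_mem O
      · exact ha'O 1
      · exact hpO 1
      · exact zero_mem O
      · exact zero_mem O
      · exact ha'O 2
    have hLO' : ∀ i j, e6L b' p i j ∈ O := by
      intro i j
      fin_cases i <;> fin_cases j <;> simp only [e6L, Matrix.of_apply, Matrix.cons_val',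
        Matrix.cons_val_zero, Matrix.cons_val_one, Matrix.cons_val, Fin.zero_eta, Fin.mk_one,
        Fin.reduceFinMk]
      · exact hb'O 0
      · exact zero_mem O
      · exact zero_mem O
      · exact hpO 3
      · exact hb'O 1
      · exact zero_mem O
      · exact mul_mem hb'inv (sub_mem (mul_mem (hpO 3) (hpO 4)) (hpO 5))
      · exact hpO 4
      · exact hb'O 2
    refine Hvan (e6U a' p) (e6L b' p) (hdU p) (hdL p) ?_ ?_ ?_ hUO' hLO'
    · rw [e6U_charpoly, ha'poly]
    · rw [e6L_charpoly, hb'poly]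
    · rw [rChi]
      exact (e6UL_charpoly_iff a' b' c ha' hb' hc1 p).mpr ((hSS p).mpr hp)
  have hzero := e6_chart_density al be ga (e6k1 al be ga c) (e6k2 al be ga c) hal0 O halO hbeO
    hgaO hk1O hk2O U hU hUO f hinv hvan p0 hp0
  rw [hf, hU0, hL0] at hzero
  have hfinal := Hgl A B P' P hdA hdB hP'P hPP'
  rw [hzero] at hfinal
  exact hfinal.symm

end Vale.Agent.Lib.P002

end
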