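import Vale.Agent.Lib.P002.RegDefs

/-!
# Regular three by three matrices via a quadratic

For a complex three by three matrix `M` with characteristic polynomial `rChi d`, the minimal
polynomial equals the characteristic polynomial if and only if `rQ d` does not vanish at `M`.
-/

noncomputable section

namespace Vale.Agent.Lib.P002

open Polynomial Matrix

/-- Every root of the characteristic polynomial is a root of the minimal polynomial. -/
theorem rCrit_root (M : Matrix (Fin 3) (Fin 3) ℂ) (r : ℂ) (hr : IsRoot M.charpoly r) :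
    IsRoot (minpoly ℂ M) r := by
  have h1 : r ∈ spectrum ℂ M := Matrix.mem_spectrum_iff_isRoot_charpoly.mpr hr
  have h2 := spectrum.subset_polynomial_aeval M (minpoly ℂ M) ⟨r, h1, rfl⟩
  rw [minpoly.aeval, spectrum.zero_eq] at h2
  exact h2

theorem rCrit_rQ (d : Fin 3 → ℂ) : rQ d ≠ 0 ∧ (rQ d).natDegree ≤ 2 := by
  have key : ∀ a b : ℂ, (X - C a) * (X - C b) ≠ (0 : ℂ[X]) ∧
      ((X - C a) * (X - C b) : ℂ[X]).natDegree ≤ 2 := by
    intro a b
    have hmon : ((X - C a) * (X - C b) : ℂ[X]).Monic := (monic_X_sub_C a).mul (monic_X_sub_C b)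
    refine ⟨hmon.ne_zero, ?_⟩
    rw [(monic_X_sub_C a).natDegree_mul (monic_X_sub_C b), natDegree_X_sub_C, natDegree_X_sub_C]
  unfold rQ
  split_ifs
  · exact key _ _
  · exact key _ _
  · exact key _ _
  · exact ⟨one_ne_zero, by simp⟩

/-- The core divisibility argument for a characteristic polynomial with a repeated root. -/
theorem rCrit_core (m : ℂ[X]) (l u : ℂ) (hm : m.Monic)
    (hdvd : m ∣ (X - C l) * (X - C l) * (X - C u)) (hu : m.IsRoot u)
    (hn : ¬ m ∣ (X - C l) * (X - C u)) :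
    m = (X - C l) * (X - C l) * (X - C u) := by
  have hchi : ((X - C l) * (X - C l) * (X - C u) : ℂ[X]).Monic :=
    ((monic_X_sub_C l).mul (monic_X_sub_C l)).mul (monic_X_sub_C u)
  obtain ⟨k, hk⟩ := hdvd
  have hk0 : k ≠ 0 := by
    intro h0
    rw [h0, mul_zero] at hk
    exact hchi.ne_zero hk
  by_cases hdeg : k.degree = 0
  · have hnat : k.natDegree = 0 := natDegree_eq_zero_iff_degree_le_zero.mpr hdeg.le
    have h1 : ((X - C l) * (X - C l) * (X - C u) : ℂ[X]).natDegree = m.natDegree := by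
      rw [hk, hm.natDegree_mul' hk0, hnat, add_zero]
    exact (eq_of_monic_of_dvd_of_natDegree_le hm hchi ⟨k, hk⟩ h1.le).symm
  · exfalso
    obtain ⟨r, hr⟩ := IsAlgClosed.exists_root k hdeg
    obtain ⟨k', hk'⟩ := dvd_iff_isRoot.mpr hr
    rw [hk'] at hk
    have hev := congrArg (eval r) hk
    simp only [eval_mul, eval_sub, eval_X, eval_C, sub_self, mul_zero, zero_mul] at hev
    have hrl : r = l := by
      rcases mul_eq_zero.mp hev with h1 | h1
      · rcases mul_eq_zero.mp h1 with h2 | h2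
        · exact sub_eq_zero.mp h2
        · exact sub_eq_zero.mp h2
      · have hru : r = u := sub_eq_zero.mp h1
        rw [hru] at hk
        have h3 : (X - C u) * ((X - C l) * (X - C l)) = (X - C u) * (m * k') := by
          linear_combination hk
        have h4 := mul_left_cancel₀ (X_sub_C_ne_zero u) h3
        have h5 := congrArg (eval u) h4
        simp only [eval_mul, eval_sub, eval_X, eval_C] at h5
        rw [show eval u m = 0 from hu, zero_mul] at h5
        have h6 : u - l = 0 := mul_self_eq_zero.mp h5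
        rw [hru]
        exact sub_eq_zero.mp h6
    rw [hrl] at hk
    have h3 : (X - C l) * ((X - C l) * (X - C u)) = (X - C l) * (m * k') := by
      linear_combination hk
    have h4 := mul_left_cancel₀ (X_sub_C_ne_zero l) h3
    exact hn ⟨k', h4⟩

theorem rReg_of_rQ (d : Fin 3 → ℂ) (M : Matrix (Fin 3) (Fin 3) ℂ)
    (h : M.charpoly = rChi d) (hq : aeval M (rQ d) ≠ 0) : minpoly ℂ M = M.charpoly := by
  have hm : (minpoly ℂ M).Monic := minpoly.monic (Matrix.isIntegral M)
  have hdvd : minpoly ℂ M ∣ rChi d := h ▸ Matrix.minpoly_dvd_charpoly M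
  have hroot : ∀ i, IsRoot (minpoly ℂ M) (d i) := by
    intro i
    apply rCrit_root
    rw [h]
    unfold rChi
    fin_cases i <;> simp [IsRoot]
  have hndvd : ¬ minpoly ℂ M ∣ rQ d := fun hc => hq (minpoly.dvd_iff.mp hc)
  rw [h]
  unfold rQ at hndvd
  unfold rChi at hdvd ⊢
  split_ifs at hndvd with h01 h02 h12
  · rw [← h01] at hdvd ⊢
    exact rCrit_core _ _ _ hm hdvd (hroot 2) hndvd
  · rw [← h02] at hdvd ⊢
    have e : (X - C (d 0)) * (X - C (d 1)) * (X - C (d 0))
        = (X - C (d 0)) * (X - C (d 0)) * (X - C (d 1)) := by ring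
    rw [e] at hdvd ⊢
    exact rCrit_core _ _ _ hm hdvd (hroot 1) hndvd
  · rw [← h12] at hdvd ⊢
    have e : (X - C (d 0)) * (X - C (d 1)) * (X - C (d 1))
        = (X - C (d 1)) * (X - C (d 1)) * (X - C (d 0)) := by ring
    rw [e] at hdvd ⊢
    rw [mul_comm] at hndvd
    exact rCrit_core _ _ _ hm hdvd (hroot 0) hndvd
  · have hchi : ((X - C (d 0)) * (X - C (d 1)) * (X - C (d 2)) : ℂ[X]).Monic :=
      ((monic_X_sub_C _).mul (monic_X_sub_C _)).mul (monic_X_sub_C _)
    have c01 : IsCoprime (X - C (d 0) : ℂ[X]) (X - C (d 1)) :=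
      isCoprime_X_sub_C_of_isUnit_sub (sub_ne_zero.mpr h01).isUnit
    have c02 : IsCoprime (X - C (d 0) : ℂ[X]) (X - C (d 2)) :=
      isCoprime_X_sub_C_of_isUnit_sub (sub_ne_zero.mpr h02).isUnit
    have c12 : IsCoprime (X - C (d 1) : ℂ[X]) (X - C (d 2)) :=
      isCoprime_X_sub_C_of_isUnit_sub (sub_ne_zero.mpr h12).isUnit
    have d0 : (X - C (d 0) : ℂ[X]) ∣ minpoly ℂ M := dvd_iff_isRoot.mpr (hroot 0)
    have d1 : (X - C (d 1) : ℂ[X]) ∣ minpoly ℂ M := dvd_iff_isRoot.mpr (hroot 1)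
    have d2 : (X - C (d 2) : ℂ[X]) ∣ minpoly ℂ M := dvd_iff_isRoot.mpr (hroot 2)
    have hall : (X - C (d 0)) * (X - C (d 1)) * (X - C (d 2)) ∣ minpoly ℂ M :=
      (c02.mul_left c12).mul_dvd (c01.mul_dvd d0 d1) d2
    exact eq_of_monic_of_associated hm hchi (associated_of_dvd_dvd hdvd hall)

theorem rQ_of_rReg (d : Fin 3 → ℂ) (M : Matrix (Fin 3) (Fin 3) ℂ)
    (h : M.charpoly = rChi d) (hm : minpoly ℂ M = M.charpoly) : aeval M (rQ d) ≠ 0 := by
  intro h0
  have _hchar := h
  have hdvd : minpoly ℂ M ∣ rQ d := minpoly.dvd_iff.mpr h0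
  obtain ⟨hne, hdeg⟩ := rCrit_rQ d
  have h1 := natDegree_le_of_dvd hdvd hne
  have h2 : (minpoly ℂ M).natDegree = 3 := by
    rw [hm, Matrix.charpoly_natDegree_eq_dim]
    rfl
  omega

end Vale.Agent.Lib.P002

end
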