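import Vale.Agent.Lib.P002.RegCore

/-!
# Density on the special curves of pairs of Jordan blocks

The irreducible pairs `(A, B)` of regular three by three matrices which admit no simultaneous
upper and lower triangular form are pairs of Jordan blocks lying on one of two curves.  On such
a curve the pairs with prescribed characteristic polynomial of the product form a one parameter
family, parametrized by a nonzero number `u`, which is integral when `u` is a unit.
-/

noncomputable section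

namespace Vale.Agent.Lib.P002

open Polynomial Matrix

/-- The first matrix of a pair on the special curve. -/
def rSA (l u : ℂ) : Matrix (Fin 3) (Fin 3) ℂ := !![l, 0, 1; 0, l, 0; 0, u, l]

/-- The second matrix of a pair on the special curve. -/
def rSB (m k t : ℂ) : Matrix (Fin 3) (Fin 3) ℂ := !![m, 0, k; 1, m, t; 0, 0, m]

theorem rCubic_congr {t e d t' e' d' : ℂ} (h1 : t = t') (h2 : e = e') (h3 : d = d') :
    (X ^ 3 - C t * X ^ 2 + C e * X - C d : ℂ[X]) = X ^ 3 - C t' * X ^ 2 + C e' * X - C d' := by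
  rw [h1, h2, h3]

theorem rSA_det (l u : ℂ) : (rSA l u).det = l ^ 3 := by
  rw [Matrix.det_fin_three]
  simp [rSA]
  ring

theorem rSB_det (m k t : ℂ) : (rSB m k t).det = m ^ 3 := by
  rw [Matrix.det_fin_three]
  simp [rSB]
  ring

theorem rSA_charpoly (l u : ℂ) : (rSA l u).charpoly = rChi (fun _ => l) := by
  rw [charpoly_fin_three, rChi, e6pt_expand, Matrix.trace_fin_three, rSA_det]
  apply rCubic_congr
  · simp [rSA]
  · simp [rSA]
  · ring

theorem rSB_charpoly (m k t : ℂ) : (rSB m k t).charpoly = rChi (fun _ => m) := by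
  rw [charpoly_fin_three, rChi, e6pt_expand, Matrix.trace_fin_three, rSB_det]
  apply rCubic_congr
  · simp [rSB]
  · simp [rSB]
  · ring

theorem rSAB_eq (l u m k t : ℂ) :
    rSA l u * rSB m k t
      = !![l * m, 0, l * k + m; l, l * m, l * t; u, u * m, u * t + l * m] := by
  ext i j
  fin_cases i <;> fin_cases j <;> simp [rSA, rSB, Matrix.mul_apply, Fin.sum_univ_three]

theorem rSAB_charpoly (l u m k t : ℂ) :
    (rSA l u * rSB m k t).charpoly
      = X ^ 3 - C (3 * (l * m) + u * t) * X ^ 2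
        + C (3 * (l * m) ^ 2 + l * m * (u * t) - u * (l * k + m)) * X - C (l ^ 3 * m ^ 3) := by
  rw [charpoly_fin_three, Matrix.det_mul, rSA_det, rSB_det, Matrix.trace_fin_three, rSAB_eq]
  apply rCubic_congr
  · simp
    ring
  · simp
    ring
  · rfl

/-- A constant tuple is forced by the cubic. -/
theorem rCurve_const (a : Fin 3 → ℂ) (l : ℂ) (h : rChi a = rChi (fun _ => l)) (i : Fin 3) :
    a i = l := by
  obtain ⟨σ, hσ⟩ := rPerm a (fun _ => l) h
  rw [hσ]
  rfl

/-- The coordinates of the pairs of the family on a special curve are Laurent functions of the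
parameter. -/
theorem rCurve_laurent (l m κ τ : ℂ) (v : Fin 2 × Fin 3 × Fin 3) :
    IsLaurent (fun u : ℂˣ => pairPt (rSA l (u : ℂ))
      (rSB m ((κ * ((u⁻¹ : ℂˣ) : ℂ) - m) * l ^ 2) (τ * ((u⁻¹ : ℂˣ) : ℂ))) v) := by
  obtain ⟨e, i, j⟩ := v
  have hk : IsLaurent (fun u : ℂˣ => (κ * ((u⁻¹ : ℂˣ) : ℂ) - m) * l ^ 2) :=
    ((isLaurent_inv.const_mul κ).sub (isLaurent_const m)).mul (isLaurent_const (l ^ 2))
  have ht : IsLaurent (fun u : ℂˣ => τ * ((u⁻¹ : ℂˣ) : ℂ)) := isLaurent_inv.const_mul τ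
  fin_cases e
  · show IsLaurent (fun u : ℂˣ => rSA l (u : ℂ) i j)
    fin_cases i <;> fin_cases j
    · exact isLaurent_const l
    · exact isLaurent_const 0
    · exact isLaurent_const 1
    · exact isLaurent_const 0
    · exact isLaurent_const l
    · exact isLaurent_const 0
    · exact isLaurent_const 0
    · exact isLaurent_id
    · exact isLaurent_const l
  · show IsLaurent (fun u : ℂˣ =>
      rSB m ((κ * ((u⁻¹ : ℂˣ) : ℂ) - m) * l ^ 2) (τ * ((u⁻¹ : ℂˣ) : ℂ)) i j)
    fin_cases i <;> fin_cases j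
    · exact isLaurent_const m
    · exact isLaurent_const 0
    · exact hk
    · exact isLaurent_const 1
    · exact isLaurent_const m
    · exact ht
    · exact isLaurent_const 0
    · exact isLaurent_const 0
    · exact isLaurent_const m

/-- **Density on a special curve.** -/
theorem rCore_curve (a b c : Fin 3 → ℂ) (ha1 : a 0 * a 1 * a 2 = 1) (hb1 : b 0 * b 1 * b 2 = 1)
    (hc1 : c 0 * c 1 * c 2 = 1) (O : Subring ℂ) (haO : ∀ i, a i ∈ O) (hbO : ∀ i, b i ∈ O)
    (hcO : ∀ i, c i ∈ O) (U : Set ℂˣ) (hU : U.Infinite)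
    (hUO : ∀ u ∈ U, (u : ℂ) ∈ O ∧ ((u⁻¹ : ℂˣ) : ℂ) ∈ O)
    (H : MvPolynomial (Fin 2 × Fin 3 × Fin 3) ℂ)
    (Hgl : ∀ A B P Q : Matrix (Fin 3) (Fin 3) ℂ, A.det = 1 → B.det = 1 → P * Q = 1 →
      Q * P = 1 → MvPolynomial.eval (pairPt (Q * A * P) (Q * B * P)) H
        = MvPolynomial.eval (pairPt A B) H)
    (Hvan : ∀ A B : Matrix (Fin 3) (Fin 3) ℂ, A.det = 1 → B.det = 1 → A.charpoly = rChi a →
      B.charpoly = rChi b → (A * B).charpoly = rChi c → (∀ i j, A i j ∈ O) →
      (∀ i j, B i j ∈ O) → MvPolynomial.eval (pairPt A B) H = 0)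
    (A B : Matrix (Fin 3) (Fin 3) ℂ) (hdA : A.det = 1) (hdB : B.det = 1)
    (hA : A.charpoly = rChi a) (hB : B.charpoly = rChi b) (hAB : (A * B).charpoly = rChi c)
    (P P' : Matrix (Fin 3) (Fin 3) ℂ) (hPP' : P * P' = 1) (hP'P : P' * P = 1)
    (l m s k t : ℂ) (hs : s ≠ 0)
    (hA' : P * A * P' = !![l, 0, 1; 0, l, 0; 0, s, l])
    (hB' : P * B * P' = !![m, 0, k; 1, m, t; 0, 0, m]) :
    MvPolynomial.eval (pairPt A B) H = 0 := by
  have hA'' : P * A * P' = rSA l s := hA'
  have hB'' : P * B * P' = rSB m k t := hB'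
  -- the eigenvalues
  have hal : ∀ i, a i = l := by
    apply rCurve_const
    rw [← hA, ← e6_charpoly_conj P P' A hP'P, hA'', rSA_charpoly]
  have hbm : ∀ i, b i = m := by
    apply rCurve_const
    rw [← hB, ← e6_charpoly_conj P P' B hP'P, hB'', rSB_charpoly]
  have hl3 : l ^ 3 = 1 := by
    rw [hal 0, hal 1, hal 2] at ha1
    rw [← ha1]
    ring
  have hm3 : m ^ 3 = 1 := by
    rw [hbm 0, hbm 1, hbm 2] at hb1
    rw [← hb1]
    ring
  have hlO : l ∈ O := hal 0 ▸ haO 0
  have hmO : m ∈ O := hbm 0 ▸ hbO 0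
  -- the characteristic polynomial of the product
  have hprod : (rSA l s * rSB m k t).charpoly = rChi c := by
    rw [← hA'', ← hB'', rCore_mul_conj P P' A B hP'P, e6_charpoly_conj P P' _ hP'P, hAB]
  rw [rSAB_charpoly, rChi, e6pt_expand] at hprod
  obtain ⟨h1, h2⟩ := e6pt_cubic_inj _ _ _ _ _ _ hprod
  set τ : ℂ := c 0 + c 1 + c 2 - 3 * (l * m) with hτ
  set κ : ℂ := 3 * (l * m) ^ 2 + l * m * τ - (c 0 * c 1 + c 0 * c 2 + c 1 * c 2) with hκ
  have hτ' : τ = s * t := by
    rw [hτ, ← h1]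
    ring
  have hκ' : κ = s * (l * k + m) := by
    rw [hκ, hτ', ← h2]
    ring
  have hτO : τ ∈ O :=
    sub_mem (add_mem (add_mem (hcO 0) (hcO 1)) (hcO 2))
      (mul_mem (by simp) (mul_mem hlO hmO))
  have hκO : κ ∈ O :=
    sub_mem (add_mem (mul_mem (by simp) (pow_mem (mul_mem hlO hmO) 2))
      (mul_mem (mul_mem hlO hmO) hτO))
      (add_mem (add_mem (mul_mem (hcO 0) (hcO 1)) (mul_mem (hcO 0) (hcO 2)))
        (mul_mem (hcO 1) (hcO 2)))
  -- the family
  let g : ℂˣ → ℂ := fun u => MvPolynomial.eval (pairPt (rSA l (u : ℂ))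
    (rSB m ((κ * ((u⁻¹ : ℂˣ) : ℂ) - m) * l ^ 2) (τ * ((u⁻¹ : ℂˣ) : ℂ)))) H
  have hg : IsLaurent g := IsLaurent.eval_mvPolynomial _ (rCurve_laurent l m κ τ) H
  have hgU : ∀ u ∈ U, g u = 0 := by
    intro u hu
    obtain ⟨huO, huO'⟩ := hUO u hu
    have huu : (u : ℂ) * ((u⁻¹ : ℂˣ) : ℂ) = 1 := by
      rw [← Units.val_mul, mul_inv_cancel, Units.val_one]
    refine Hvan _ _ ?_ ?_ ?_ ?_ ?_ ?_ ?_
    · rw [rSA_det, hl3]
    · rw [rSB_det, hm3]
    · rw [rSA_charpoly]
      congr 1
      funext i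
      exact (hal i).symm
    · rw [rSB_charpoly]
      congr 1
      funext i
      exact (hbm i).symm
    · rw [rSAB_charpoly, rChi, e6pt_expand]
      apply rCubic_congr
      · rw [hτ]
        linear_combination τ * huu
      · rw [hκ]
        linear_combination (l * m * τ - κ * l ^ 3) * huu
          + ((u : ℂ) * m - κ) * hl3
      · rw [hl3, hm3, hc1, mul_one]
    · intro i j
      fin_cases i <;> fin_cases j <;> simp only [rSA, Matrix.of_apply, Matrix.cons_val',
        Matrix.cons_val_zero, Matrix.cons_val_one, Matrix.cons_val, Fin.zero_eta, Fin.mk_one,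
        Fin.reduceFinMk]
      · exact hlO
      · exact zero_mem O
      · exact one_mem O
      · exact zero_mem O
      · exact hlO
      · exact zero_mem O
      · exact zero_mem O
      · exact huO
      · exact hlO
    · intro i j
      fin_cases i <;> fin_cases j <;> simp only [rSB, Matrix.of_apply, Matrix.cons_val',
        Matrix.cons_val_zero, Matrix.cons_val_one, Matrix.cons_val, Fin.zero_eta, Fin.mk_one,
        Fin.reduceFinMk]
      · exact hmO
      · exact zero_mem O
      · exact mul_mem (sub_mem (mul_mem hκO huO') hmO) (pow_mem hlO 2)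
      · exact one_mem O
      · exact hmO
      · exact mul_mem hτO huO'
      · exact zero_mem O
      · exact zero_mem O
      · exact hmO
  have hzero := hg.eq_zero_of_infinite U hU hgU (Units.mk0 s hs)
  have hk : (κ * s⁻¹ - m) * l ^ 2 = k := by
    rw [hκ']
    field_simp
    linear_combination k * hl3
  have ht : τ * s⁻¹ = t := by
    rw [hτ']
    field_simp
  simp only [g, Units.val_mk0, Units.val_inv_eq_inv_val] at hzero
  rw [hk, ht, ← hA'', ← hB''] at hzero
  have hfinal := Hgl A B P' P hdA hdB hP'P hPP'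
  rw [hzero] at hfinal
  exact hfinal.symm

end Vale.Agent.Lib.P002

end
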