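import Vale.Agent.Lib.P002.TKPrep

/-!
# Regular boundary classes in rank three: definitions

Pairs `(A, B)` of complex three by three matrices are the representations of the free group on
two generators.  This file fixes the vocabulary for invariant subspaces, irreducible and
semisimple pairs, regular conjugacy classes and evaluation of noncommutative polynomials.
-/

noncomputable section

namespace Vale.Agent.Lib.P002

open Polynomial Matrix

/-- The subspace `W` is invariant under the matrix `M`. -/
def rInv (M : Matrix (Fin 3) (Fin 3) ℂ) (W : Submodule ℂ (Fin 3 → ℂ)) : Prop :=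
  ∀ v ∈ W, M *ᵥ v ∈ W

/-- The pair `(A, B)` is irreducible: no invariant subspace besides zero and everything. -/
def rIrr (A B : Matrix (Fin 3) (Fin 3) ℂ) : Prop :=
  ∀ W : Submodule ℂ (Fin 3 → ℂ), rInv A W → rInv B W → W = ⊥ ∨ W = ⊤

/-- The pair `(A, B)` is semisimple: every invariant subspace has an invariant complement. -/
def rSS (A B : Matrix (Fin 3) (Fin 3) ℂ) : Prop :=
  ∀ W : Submodule ℂ (Fin 3 → ℂ), rInv A W → rInv B W →
    ∃ W' : Submodule ℂ (Fin 3 → ℂ), rInv A W' ∧ rInv B W' ∧ IsCompl W W'

/-- The monic cubic with roots `d 0, d 1, d 2`. -/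
def rChi (d : Fin 3 → ℂ) : ℂ[X] := (X - C (d 0)) * (X - C (d 1)) * (X - C (d 2))

/-- The quadratic which detects whether a matrix with characteristic polynomial `rChi d` is
regular: it is the product over the distinct roots when two roots coincide, and `1` when the
roots are distinct. -/
def rQ (d : Fin 3 → ℂ) : ℂ[X] :=
  if d 0 = d 1 then (X - C (d 0)) * (X - C (d 2))
  else if d 0 = d 2 then (X - C (d 0)) * (X - C (d 1))
  else if d 1 = d 2 then (X - C (d 0)) * (X - C (d 1))
  else 1

/-- Evaluation of a noncommutative polynomial in two variables at a pair of matrices. -/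
def rEv (A B : Matrix (Fin 3) (Fin 3) ℂ) :
    FreeAlgebra ℂ (Fin 2) →ₐ[ℂ] Matrix (Fin 3) (Fin 3) ℂ :=
  FreeAlgebra.lift ℂ ![A, B]

/-- The certificate: a conjugation invariant polynomial function of the pair `(A, B)`, built
from five noncommutative polynomials, which is nonzero only at irreducible pairs with regular
`A`, `B` and `A * B`. -/
def rCert (a b c : Fin 3 → ℂ) (φ : Fin 5 → FreeAlgebra ℂ (Fin 2))
    (A B : Matrix (Fin 3) (Fin 3) ℂ) : ℂ :=
  (rEv A B (φ 0) * rEv A B (φ 1) - rEv A B (φ 1) * rEv A B (φ 0)).det *
    (aeval A (rQ a) * rEv A B (φ 2)).trace * (aeval B (rQ b) * rEv A B (φ 3)).trace *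
    (aeval (A * B) (rQ c) * rEv A B (φ 4)).trace

end Vale.Agent.Lib.P002

end
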