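import Vale.Agent.Lib.P002.RegDefs

/-!
# Evaluation of noncommutative polynomials at a pair of three by three matrices

Entries of the evaluation are ordinary polynomials in the entries of the pair, evaluation
commutes with simultaneous conjugation, and an invertible commutator of two evaluations
certifies that the pair is irreducible.
-/

noncomputable section

namespace Vale.Agent.Lib.P002

open Polynomial Matrix

theorem rEvAux_poly (φ : FreeAlgebra ℂ (Fin 2)) :
    ∀ i j : Fin 3, ∃ G : MvPolynomial (Fin 2 × Fin 3 × Fin 3) ℂ,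
      ∀ A B : Matrix (Fin 3) (Fin 3) ℂ, MvPolynomial.eval (pairPt A B) G = rEv A B φ i j := by
  induction φ using FreeAlgebra.induction with
  | grade0 c =>
    intro i j
    refine ⟨MvPolynomial.C (if i = j then c else 0), fun A B => ?_⟩
    rw [MvPolynomial.eval_C, AlgHom.commutes, Matrix.algebraMap_matrix_apply]
    simp
  | grade1 k =>
    intro i j
    refine ⟨MvPolynomial.X (k, i, j), fun A B => ?_⟩
    rw [MvPolynomial.eval_X]
    simp [rEv, pairPt]
  | mul a b iha ihb =>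
    intro i j
    choose Ga hGa using iha
    choose Gb hGb using ihb
    refine ⟨∑ k, Ga i k * Gb k j, fun A B => ?_⟩
    rw [map_mul, Matrix.mul_apply, map_sum]
    refine Finset.sum_congr rfl fun k _ => ?_
    rw [map_mul, hGa, hGb]
  | add a b iha ihb =>
    intro i j
    obtain ⟨Ga, hGa⟩ := iha i j
    obtain ⟨Gb, hGb⟩ := ihb i j
    refine ⟨Ga + Gb, fun A B => ?_⟩
    rw [map_add, map_add, Matrix.add_apply, hGa, hGb]

/-- Each entry of a noncommutative polynomial at a pair of matrices is an ordinary polynomial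
in the entries of the pair. -/
theorem rEv_poly (φ : FreeAlgebra ℂ (Fin 2)) (i j : Fin 3) :
    ∃ G : MvPolynomial (Fin 2 × Fin 3 × Fin 3) ℂ, ∀ A B : Matrix (Fin 3) (Fin 3) ℂ,
      MvPolynomial.eval (pairPt A B) G = rEv A B φ i j :=
  rEvAux_poly φ i j

/-- Evaluation commutes with simultaneous conjugation. -/
theorem rEv_conj (φ : FreeAlgebra ℂ (Fin 2)) (A B P P' : Matrix (Fin 3) (Fin 3) ℂ)
    (h : P * P' = 1) (h' : P' * P = 1) :
    rEv (P * A * P') (P * B * P') φ = P * rEv A B φ * P' := by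
  induction φ using FreeAlgebra.induction with
  | grade0 c =>
    rw [AlgHom.commutes, AlgHom.commutes, Algebra.algebraMap_eq_smul_one, Matrix.mul_smul,
      Matrix.smul_mul, Matrix.mul_one, h]
  | grade1 k =>
    unfold rEv
    rw [FreeAlgebra.lift_ι_apply, FreeAlgebra.lift_ι_apply]
    fin_cases k
    · simp
    · simp
  | mul a b iha ihb =>
    rw [map_mul, map_mul, iha, ihb]
    calc P * rEv A B a * P' * (P * rEv A B b * P')
        = P * rEv A B a * (P' * P) * rEv A B b * P' := by simp only [Matrix.mul_assoc]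
      _ = P * (rEv A B a * rEv A B b) * P' := by
          rw [h', Matrix.mul_one]
          simp only [Matrix.mul_assoc]
  | add a b iha ihb =>
    rw [map_add, map_add, iha, ihb, Matrix.mul_add, Matrix.add_mul]

theorem rEvAux_inv (A B : Matrix (Fin 3) (Fin 3) ℂ) (W : Submodule ℂ (Fin 3 → ℂ))
    (hA : rInv A W) (hB : rInv B W) (χ : FreeAlgebra ℂ (Fin 2)) : rInv (rEv A B χ) W := by
  induction χ using FreeAlgebra.induction with
  | grade0 c =>
    intro v hv
    rw [AlgHom.commutes, Algebra.algebraMap_eq_smul_one, Matrix.smul_mulVec, Matrix.one_mulVec]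
    exact W.smul_mem c hv
  | grade1 k =>
    unfold rEv
    rw [FreeAlgebra.lift_ι_apply]
    fin_cases k
    · exact hA
    · exact hB
  | mul a b iha ihb =>
    intro v hv
    rw [map_mul, ← Matrix.mulVec_mulVec]
    exact iha _ (ihb v hv)
  | add a b iha ihb =>
    intro v hv
    rw [map_add, Matrix.add_mulVec]
    exact W.add_mem (iha v hv) (ihb v hv)

/-- A line invariant under two matrices is killed by their commutator. -/
theorem rEvAux_line (X Y : Matrix (Fin 3) (Fin 3) ℂ) (W : Submodule ℂ (Fin 3 → ℂ))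
    (hX : rInv X W) (hY : rInv Y W) (hW : Module.finrank ℂ W = 1) :
    (X * Y - Y * X).det = 0 := by
  obtain ⟨w₀, hw₀, hspan⟩ := finrank_eq_one_iff'.mp hW
  have hw₀' : (w₀ : Fin 3 → ℂ) ≠ 0 := fun h0 => hw₀ (Subtype.ext h0)
  have hmult : ∀ u ∈ W, ∃ c : ℂ, c • (w₀ : Fin 3 → ℂ) = u := by
    intro u hu
    obtain ⟨c, hc⟩ := hspan ⟨u, hu⟩
    exact ⟨c, congrArg Subtype.val hc⟩
  obtain ⟨a, ha⟩ := hmult _ (hX _ w₀.2)
  obtain ⟨b, hb⟩ := hmult _ (hY _ w₀.2)
  refine Matrix.exists_mulVec_eq_zero_iff.mp ⟨(w₀ : Fin 3 → ℂ), hw₀', ?_⟩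
  rw [Matrix.sub_mulVec, ← Matrix.mulVec_mulVec, ← Matrix.mulVec_mulVec, ← ha, ← hb,
    Matrix.mulVec_smul, Matrix.mulVec_smul, ← ha, ← hb, smul_smul, smul_smul, mul_comm,
    sub_self]

/-- A plane invariant under two matrices contains the image of their commutator. -/
theorem rEvAux_plane (X Y : Matrix (Fin 3) (Fin 3) ℂ) (W : Submodule ℂ (Fin 3 → ℂ))
    (hX : rInv X W) (hY : rInv Y W) (hW : Module.finrank ℂ W = 2) (hW' : W ≠ ⊤) :
    (X * Y - Y * X).det = 0 := by
  by_contra hdet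
  apply hW'
  obtain ⟨v, hv⟩ : ∃ v : Fin 3 → ℂ, v ∉ W := by
    by_contra hcon
    push Not at hcon
    exact hW' (Submodule.eq_top_iff'.mpr hcon)
  have htop : W ⊔ Submodule.span ℂ {v} = ⊤ := by
    apply Submodule.eq_top_of_finrank_eq
    have hlt : W < W ⊔ Submodule.span ℂ {v} := by
      refine lt_of_le_of_ne le_sup_left fun heq => hv ?_
      rw [heq]
      exact Submodule.mem_sup_right (Submodule.mem_span_singleton_self v)
    have h1 := Submodule.finrank_lt_finrank_of_lt hlt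
    have h2 := Submodule.finrank_le (W ⊔ Submodule.span ℂ {v})
    have h3 : Module.finrank ℂ (Fin 3 → ℂ) = 3 := by simp
    omega
  have hdec : ∀ u : Fin 3 → ℂ, ∃ c : ℂ, ∃ w ∈ W, u = c • v + w := by
    intro u
    have hu : u ∈ W ⊔ Submodule.span ℂ {v} := by
      rw [htop]
      exact Submodule.mem_top
    obtain ⟨y, hy, z, hz, hyz⟩ := Submodule.mem_sup.mp hu
    obtain ⟨c, hc⟩ := Submodule.mem_span_singleton.mp hz
    exact ⟨c, y, hy, by rw [hc, ← hyz, add_comm]⟩
  obtain ⟨a, w₁, hw₁, hXv⟩ := hdec (X *ᵥ v)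
  obtain ⟨b, w₂, hw₂, hYv⟩ := hdec (Y *ᵥ v)
  have hCv : (X * Y - Y * X) *ᵥ v ∈ W := by
    have heq : (X * Y - Y * X) *ᵥ v = b • w₁ + X *ᵥ w₂ - a • w₂ - Y *ᵥ w₁ := by
      rw [Matrix.sub_mulVec, ← Matrix.mulVec_mulVec, ← Matrix.mulVec_mulVec, hYv, hXv,
        Matrix.mulVec_add, Matrix.mulVec_add, Matrix.mulVec_smul, Matrix.mulVec_smul, hXv, hYv,
        smul_add, smul_add, smul_smul, smul_smul, mul_comm b a]
      abel
    rw [heq]
    exact W.sub_mem (W.sub_mem (W.add_mem (W.smul_mem b hw₁) (hX _ hw₂)) (W.smul_mem a hw₂))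
      (hY _ hw₁)
  have hCW : ∀ u ∈ W, (X * Y - Y * X) *ᵥ u ∈ W := by
    intro u hu
    rw [Matrix.sub_mulVec, ← Matrix.mulVec_mulVec, ← Matrix.mulVec_mulVec]
    exact W.sub_mem (hX _ (hY _ hu)) (hY _ (hX _ hu))
  have hrange : ∀ u : Fin 3 → ℂ, (X * Y - Y * X) *ᵥ u ∈ W := by
    intro u
    obtain ⟨c, w, hw, rfl⟩ := hdec u
    rw [Matrix.mulVec_add, Matrix.mulVec_smul]
    exact W.add_mem (W.smul_mem c hCv) (hCW w hw)
  refine Submodule.eq_top_iff'.mpr fun u => ?_
  have hu : u = (X * Y - Y * X) *ᵥ ((X * Y - Y * X)⁻¹ *ᵥ u) := by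
    rw [Matrix.mulVec_mulVec, Matrix.mul_nonsing_inv _ (Ne.isUnit hdet), Matrix.one_mulVec]
  rw [hu]
  exact hrange _

/-- If some commutator of two noncommutative polynomials in `A`, `B` is invertible then the
pair `(A, B)` is irreducible. -/
theorem rIrr_of_comm (A B : Matrix (Fin 3) (Fin 3) ℂ) (φ ψ : FreeAlgebra ℂ (Fin 2))
    (h : (rEv A B φ * rEv A B ψ - rEv A B ψ * rEv A B φ).det ≠ 0) : rIrr A B := by
  intro W hA hB
  have hX := rEvAux_inv A B W hA hB φ
  have hY := rEvAux_inv A B W hA hB ψ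
  by_contra hcon
  push Not at hcon
  obtain ⟨hbot, htop⟩ := hcon
  have h3 : Module.finrank ℂ (Fin 3 → ℂ) = 3 := by simp
  have hle := Submodule.finrank_le W
  have h0 : Module.finrank ℂ W ≠ 0 := fun h0 => hbot (Submodule.finrank_eq_zero.mp h0)
  have h3' : Module.finrank ℂ W ≠ 3 := fun h3' =>
    htop (Submodule.eq_top_of_finrank_eq (h3'.trans h3.symm))
  have hcases : Module.finrank ℂ W = 1 ∨ Module.finrank ℂ W = 2 := by omega
  rcases hcases with h1 | h2
  · exact h (rEvAux_line _ _ W hX hY h1)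
  · exact h (rEvAux_plane _ _ W hX hY h2 htop)

end Vale.Agent.Lib.P002

end
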