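import Vale.Agent.Lib.P002.RegDefs

/-!
# Opposite invariant flags give a simultaneous triangular form (3x3)

If `A` fixes the flag `span v ⊆ ker η` and `B` fixes the flag `span w ⊆ ker θ`, and the two
flags are opposite (`θ ⬝ᵥ v ≠ 0`, `η ⬝ᵥ w ≠ 0`), then after the change of basis with rows
`θ`, `v ⨯₃ w`, `η` the matrix `A` becomes upper triangular and `B` lower triangular.
-/

noncomputable section

namespace Vale.Agent.Lib.P002

open Polynomial Matrix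

theorem rOppAux_det (v w η θ : Fin 3 → ℂ) (hηv : η ⬝ᵥ v = 0) :
    (Matrix.of ![θ, crossProduct v w, η]).det = -((θ ⬝ᵥ v) * (η ⬝ᵥ w)) := by
  rw [dotProduct, Fin.sum_univ_three] at hηv
  rw [Matrix.det_fin_three]
  simp only [Matrix.of_apply, Matrix.cons_val_zero, Matrix.cons_val_one, Matrix.cons_val_two,
    cross_apply, dotProduct, Fin.sum_univ_three, Matrix.cons_val', Matrix.cons_val_fin_one,
    Matrix.vecHead, Matrix.vecTail, Function.comp_apply, Fin.succ_zero_eq_one]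
  linear_combination (θ 0 * w 0 + θ 1 * w 1 + θ 2 * w 2) * hηv

theorem rOppAux_mulVec_left (v w η θ : Fin 3 → ℂ) (hηv : η ⬝ᵥ v = 0) :
    (Matrix.of ![θ, crossProduct v w, η]) *ᵥ v = (θ ⬝ᵥ v) • (Pi.single 0 1 : Fin 3 → ℂ) := by
  funext i
  fin_cases i
  · simp [Matrix.mulVec]
  · simp [Matrix.mulVec, dotProduct_comm (crossProduct v w) v, dot_self_cross]
  · simp [Matrix.mulVec, hηv]

theorem rOppAux_mulVec_right (v w η θ : Fin 3 → ℂ) (hθw : θ ⬝ᵥ w = 0) :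
    (Matrix.of ![θ, crossProduct v w, η]) *ᵥ w = (η ⬝ᵥ w) • (Pi.single 2 1 : Fin 3 → ℂ) := by
  funext i
  fin_cases i
  · simp [Matrix.mulVec, hθw]
  · simp [Matrix.mulVec, dotProduct_comm (crossProduct v w) w, dot_cross_self]
  · simp [Matrix.mulVec]

/-- Column criterion: an eigenvector of `M` sent by `P` to a multiple of a basis vector. -/
theorem rOppAux_col (P P' M : Matrix (Fin 3) (Fin 3) ℂ) (h2 : P' * P = 1) (u : Fin 3 → ℂ)
    (c t : ℂ) (k : Fin 3) (hM : M *ᵥ u = c • u)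
    (hPu : P *ᵥ u = t • (Pi.single k 1 : Fin 3 → ℂ)) (ht : t ≠ 0) (i : Fin 3) (hik : i ≠ k) :
    (P * M * P') i k = 0 := by
  have e1 : (P * M * P') *ᵥ (P *ᵥ u) = c • (P *ᵥ u) := by
    rw [Matrix.mulVec_mulVec, Matrix.mul_assoc, h2, Matrix.mul_one, ← Matrix.mulVec_mulVec, hM,
      Matrix.mulVec_smul]
  rw [hPu, Matrix.mulVec_smul, Matrix.mulVec_single_one] at e1
  have e2 := congrFun e1 i
  simp only [Pi.smul_apply, Matrix.col_apply, smul_eq_mul, Pi.single_apply, if_neg hik,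
    mul_zero] at e2
  exact (mul_eq_zero.mp e2).resolve_left ht

/-- Row criterion: a left eigenvector of `M` that is a row of `P`. -/
theorem rOppAux_row (P P' M : Matrix (Fin 3) (Fin 3) ℂ) (h1 : P * P' = 1) (ξ : Fin 3 → ℂ)
    (c : ℂ) (k : Fin 3) (hM : ξ ᵥ* M = c • ξ)
    (hP : (Pi.single k 1 : Fin 3 → ℂ) ᵥ* P = ξ) (j : Fin 3) (hjk : j ≠ k) :
    (P * M * P') k j = 0 := by
  have e1 : (Pi.single k 1 : Fin 3 → ℂ) ᵥ* (P * M * P') = c • (Pi.single k 1 : Fin 3 → ℂ) := by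
    rw [← Matrix.vecMul_vecMul, ← Matrix.vecMul_vecMul, hP, hM, Matrix.smul_vecMul, ← hP,
      Matrix.vecMul_vecMul, h1, Matrix.vecMul_one]
  rw [Matrix.single_one_vecMul] at e1
  have e2 := congrFun e1 j
  simp only [Matrix.row_apply, Pi.smul_apply, smul_eq_mul, Pi.single_apply, if_neg hjk,
    mul_zero] at e2
  exact e2

theorem rOpp_chart (A B : Matrix (Fin 3) (Fin 3) ℂ) (v w η θ : Fin 3 → ℂ) (α α' β β' : ℂ)
    (hv : A *ᵥ v = α • v) (hη : η ᵥ* A = α' • η) (hηv : η ⬝ᵥ v = 0)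
    (hw : B *ᵥ w = β • w) (hθ : θ ᵥ* B = β' • θ) (hθw : θ ⬝ᵥ w = 0)
    (hθv : θ ⬝ᵥ v ≠ 0) (hηw : η ⬝ᵥ w ≠ 0) :
    ∃ P P' : Matrix (Fin 3) (Fin 3) ℂ, P * P' = 1 ∧ P' * P = 1 ∧
      (P * A * P') 1 0 = 0 ∧ (P * A * P') 2 0 = 0 ∧ (P * A * P') 2 1 = 0 ∧
      (P * B * P') 0 1 = 0 ∧ (P * B * P') 0 2 = 0 ∧ (P * B * P') 1 2 = 0 := by
  obtain ⟨P, hPdef⟩ : ∃ P : Matrix (Fin 3) (Fin 3) ℂ,
      P = Matrix.of ![θ, crossProduct v w, η] := ⟨_, rfl⟩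
  have hdet : P.det ≠ 0 := by
    rw [hPdef, rOppAux_det v w η θ hηv]
    exact neg_ne_zero.mpr (mul_ne_zero hθv hηw)
  have hu : IsUnit P.det := isUnit_iff_ne_zero.mpr hdet
  have h1 : P * P⁻¹ = 1 := Matrix.mul_nonsing_inv P hu
  have h2 : P⁻¹ * P = 1 := Matrix.nonsing_inv_mul P hu
  have hPv : P *ᵥ v = (θ ⬝ᵥ v) • (Pi.single 0 1 : Fin 3 → ℂ) := by
    rw [hPdef]; exact rOppAux_mulVec_left v w η θ hηv
  have hPw : P *ᵥ w = (η ⬝ᵥ w) • (Pi.single 2 1 : Fin 3 → ℂ) := by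
    rw [hPdef]; exact rOppAux_mulVec_right v w η θ hθw
  have hrow0 : (Pi.single 0 1 : Fin 3 → ℂ) ᵥ* P = θ := by
    rw [Matrix.single_one_vecMul, hPdef]
    funext j
    simp [Matrix.row_apply]
  have hrow2 : (Pi.single 2 1 : Fin 3 → ℂ) ᵥ* P = η := by
    rw [Matrix.single_one_vecMul, hPdef]
    funext j
    simp [Matrix.row_apply]
  refine ⟨P, P⁻¹, h1, h2, ?_, ?_, ?_, ?_, ?_, ?_⟩
  · exact rOppAux_col P P⁻¹ A h2 v α _ 0 hv hPv hθv 1 (by decide)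
  · exact rOppAux_col P P⁻¹ A h2 v α _ 0 hv hPv hθv 2 (by decide)
  · exact rOppAux_row P P⁻¹ A h1 η α' 2 hη hrow2 1 (by decide)
  · exact rOppAux_row P P⁻¹ B h1 θ β' 0 hθ hrow0 1 (by decide)
  · exact rOppAux_row P P⁻¹ B h1 θ β' 0 hθ hrow0 2 (by decide)
  · exact rOppAux_col P P⁻¹ B h2 w β _ 2 hw hPw hηw 1 (by decide)

end Vale.Agent.Lib.P002
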