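import Vale.Agent.Lib.P002.RegDefs
import Vale.Agent.Lib.P002.RegJordan
import Vale.Agent.Lib.P002.RegOpp

/-!
# Opposite flags for an irreducible pair of regular three by three matrices

A flag of a matrix is an eigenvector together with a left eigenvector vanishing on it.  For an
irreducible pair of regular matrices, either there are opposite flags (and then the pair has a
simultaneous upper and lower triangular form), or both matrices are single Jordan blocks in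
special position.
-/

noncomputable section

namespace Vale.Agent.Lib.P002

open Polynomial Matrix

theorem rFlagAux_mul_comm_right {P P' M J : Matrix (Fin 3) (Fin 3) ℂ} (hP'P : P' * P = 1)
    (hJ : P * M * P' = J) : M * P' = P' * J := by
  rw [← hJ, ← Matrix.mul_assoc, ← Matrix.mul_assoc, hP'P, Matrix.one_mul]

theorem rFlagAux_mul_comm_left {P P' M J : Matrix (Fin 3) (Fin 3) ℂ} (hP'P : P' * P = 1)
    (hJ : P * M * P' = J) : P * M = J * P := by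
  rw [← hJ, Matrix.mul_assoc, hP'P, Matrix.mul_one]

theorem rFlagAux_eig {P P' M J : Matrix (Fin 3) (Fin 3) ℂ} (hP'P : P' * P = 1)
    (hJ : P * M * P' = J) (e : Fin 3 → ℂ) (c : ℂ) (he : J *ᵥ e = c • e) :
    M *ᵥ (P' *ᵥ e) = c • (P' *ᵥ e) := by
  rw [mulVec_mulVec, rFlagAux_mul_comm_right hP'P hJ, ← mulVec_mulVec, he, mulVec_smul]

theorem rFlagAux_leig {P P' M J : Matrix (Fin 3) (Fin 3) ℂ} (hP'P : P' * P = 1)
    (hJ : P * M * P' = J) (f : Fin 3 → ℂ) (c : ℂ) (hf : f ᵥ* J = c • f) :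
    (f ᵥ* P) ᵥ* M = c • (f ᵥ* P) := by
  rw [vecMul_vecMul, rFlagAux_mul_comm_left hP'P hJ, ← vecMul_vecMul, hf, smul_vecMul]

theorem rFlagAux_pair {P P' : Matrix (Fin 3) (Fin 3) ℂ} (hPP' : P * P' = 1)
    (f e : Fin 3 → ℂ) : (f ᵥ* P) ⬝ᵥ (P' *ᵥ e) = f ⬝ᵥ e := by
  rw [← dotProduct_mulVec, mulVec_mulVec, hPP', one_mulVec]

theorem rFlagAux_ne_right {P P' : Matrix (Fin 3) (Fin 3) ℂ} (hPP' : P * P' = 1)
    {e : Fin 3 → ℂ} (he : e ≠ 0) : P' *ᵥ e ≠ 0 := by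
  intro h
  apply he
  have h1 : P *ᵥ (P' *ᵥ e) = e := by rw [mulVec_mulVec, hPP', one_mulVec]
  rw [← h1, h, mulVec_zero]

theorem rFlagAux_ne_left {P P' : Matrix (Fin 3) (Fin 3) ℂ} (hPP' : P * P' = 1)
    {f : Fin 3 → ℂ} (hf : f ≠ 0) : f ᵥ* P ≠ 0 := by
  intro h
  apply hf
  have h1 : (f ᵥ* P) ᵥ* P' = f := by rw [vecMul_vecMul, hPP', vecMul_one]
  rw [← h1, h, zero_vecMul]

/-- Transport of a flag of the Jordan form to a flag of the matrix, with its pairings. -/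
theorem rFlagAux_transport {X P P' J : Matrix (Fin 3) (Fin 3) ℂ} (hPP' : P * P' = 1)
    (hP'P : P' * P = 1) (hJ : P * X * P' = J) (e f : Fin 3 → ℂ) (c c' : ℂ)
    (he : J *ᵥ e = c • e) (hf : f ᵥ* J = c' • f) (hfe : f ⬝ᵥ e = 0) (y ζ : Fin 3 → ℂ)
    (h1 : (ζ ᵥ* P') ⬝ᵥ e ≠ 0) (h2 : f ⬝ᵥ (P *ᵥ y) ≠ 0) :
    ∃ (v η : Fin 3 → ℂ) (α α' : ℂ), X *ᵥ v = α • v ∧ η ᵥ* X = α' • η ∧ η ⬝ᵥ v = 0 ∧
      ζ ⬝ᵥ v ≠ 0 ∧ η ⬝ᵥ y ≠ 0 := by
  refine ⟨P' *ᵥ e, f ᵥ* P, c, c', rFlagAux_eig hP'P hJ e c he,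
    rFlagAux_leig hP'P hJ f c' hf, ?_, ?_, ?_⟩
  · rw [rFlagAux_pair hPP']
    exact hfe
  · rw [dotProduct_mulVec]
    exact h1
  · rw [← dotProduct_mulVec]
    exact h2

theorem rFlagAux_core (θ w : Fin 3 → ℂ) (hθ : θ ≠ 0) (hw : w ≠ 0) (h : θ ⬝ᵥ w = 0) :
    ∃ i j : Fin 3, i ≠ j ∧ θ i ≠ 0 ∧ w j ≠ 0 := by
  obtain ⟨i, hi⟩ := Function.ne_iff.mp hθ
  have hi' : θ i ≠ 0 := by simpa using hi
  by_contra hcon
  have hz : ∀ j, j ≠ i → w j = 0 := by
    intro j hj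
    by_contra hwj
    exact hcon ⟨i, j, Ne.symm hj, hi', hwj⟩
  have hsum : θ ⬝ᵥ w = θ i * w i := by
    unfold dotProduct
    rw [Finset.sum_eq_single i]
    · intro j _ hj
      rw [hz j hj, mul_zero]
    · intro hni
      exact absurd (Finset.mem_univ i) hni
  rw [hsum] at h
  have hwi : w i = 0 := by
    rcases mul_eq_zero.mp h with h1 | h1
    · exact absurd h1 hi'
    · exact h1
  apply hw
  funext j
  by_cases hj : j = i
  · rw [hj]
    exact hwi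
  · exact hz j hj

/-- A common left eigenvector contradicts irreducibility. -/
theorem rFlagAux_not_irr_left (A B : Matrix (Fin 3) (Fin 3) ℂ) (θ : Fin 3 → ℂ) (hθ : θ ≠ 0)
    (a b : ℂ) (hA : θ ᵥ* A = a • θ) (hB : θ ᵥ* B = b • θ) : ¬ rIrr A B := by
  intro hirr
  let W : Submodule ℂ (Fin 3 → ℂ) :=
    { carrier := {x | θ ⬝ᵥ x = 0}
      add_mem' := by
        intro x y hx hy
        have hx' : θ ⬝ᵥ x = 0 := hx
        have hy' : θ ⬝ᵥ y = 0 := hy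
        change θ ⬝ᵥ (x + y) = 0
        rw [dotProduct_add, hx', hy', add_zero]
      zero_mem' := dotProduct_zero θ
      smul_mem' := by
        intro c x hx
        have hx' : θ ⬝ᵥ x = 0 := hx
        change θ ⬝ᵥ (c • x) = 0
        rw [dotProduct_smul, hx', smul_zero] }
  have hmem : ∀ x, x ∈ W ↔ θ ⬝ᵥ x = 0 := fun x => Iff.rfl
  have hWA : rInv A W := by
    intro x hx
    rw [hmem] at hx ⊢
    rw [dotProduct_mulVec, hA, smul_dotProduct, hx, smul_zero]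
  have hWB : rInv B W := by
    intro x hx
    rw [hmem] at hx ⊢
    rw [dotProduct_mulVec, hB, smul_dotProduct, hx, smul_zero]
  rcases hirr W hWA hWB with h | h
  · have hx1 : (![θ 1, -θ 0, 0] : Fin 3 → ℂ) ∈ W := by
      rw [hmem]
      simp [dotProduct, Fin.sum_univ_three]
      ring
    have hx2 : (![θ 2, 0, -θ 0] : Fin 3 → ℂ) ∈ W := by
      rw [hmem]
      simp [dotProduct, Fin.sum_univ_three]
      ring
    rw [h, Submodule.mem_bot] at hx1 hx2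
    have e1 : θ 1 = 0 := by
      have := congrFun hx1 0
      simpa using this
    have e0 : θ 0 = 0 := by
      have := congrFun hx1 1
      simpa using this
    have e2 : θ 2 = 0 := by
      have := congrFun hx2 0
      simpa using this
    apply hθ
    funext k
    fin_cases k
    · simpa using e0
    · simpa using e1
    · simpa using e2
  · obtain ⟨i, hi⟩ := Function.ne_iff.mp hθ
    have hi' : θ i ≠ 0 := by simpa using hi
    have h1 : Pi.single i (1 : ℂ) ∈ W := by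
      rw [h]
      exact Submodule.mem_top
    rw [hmem, dotProduct_single_one] at h1
    exact hi' h1

/-- A common eigenvector contradicts irreducibility. -/
theorem rFlagAux_not_irr_right (A B : Matrix (Fin 3) (Fin 3) ℂ) (v : Fin 3 → ℂ) (hv : v ≠ 0)
    (a b : ℂ) (hA : A *ᵥ v = a • v) (hB : B *ᵥ v = b • v) : ¬ rIrr A B := by
  intro hirr
  have hWA : rInv A (Submodule.span ℂ {v}) := by
    intro x hx
    obtain ⟨c, rfl⟩ := Submodule.mem_span_singleton.mp hx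
    rw [mulVec_smul, hA]
    exact Submodule.smul_mem _ _ (Submodule.smul_mem _ _ (Submodule.mem_span_singleton_self v))
  have hWB : rInv B (Submodule.span ℂ {v}) := by
    intro x hx
    obtain ⟨c, rfl⟩ := Submodule.mem_span_singleton.mp hx
    rw [mulVec_smul, hB]
    exact Submodule.smul_mem _ _ (Submodule.smul_mem _ _ (Submodule.mem_span_singleton_self v))
  rcases hirr _ hWA hWB with h | h
  · have h1 : v ∈ Submodule.span ℂ {v} := Submodule.mem_span_singleton_self v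
    rw [h, Submodule.mem_bot] at h1
    exact hv h1
  · have h1 : Module.finrank ℂ (Submodule.span ℂ {v}) = 1 := finrank_span_singleton hv
    rw [h, finrank_top, Module.finrank_fin_fun] at h1
    omega

theorem rFlagAux_irr_symm {A B : Matrix (Fin 3) (Fin 3) ℂ} (h : rIrr A B) : rIrr B A :=
  fun W hB hA => h W hA hB

/-- Every regular matrix has a flag. -/
theorem rFlagAux_flag (M : Matrix (Fin 3) (Fin 3) ℂ) (h : minpoly ℂ M = M.charpoly) :
    ∃ (w θ : Fin 3 → ℂ) (β β' : ℂ), w ≠ 0 ∧ θ ≠ 0 ∧ M *ᵥ w = β • w ∧ θ ᵥ* M = β' • θ ∧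
      θ ⬝ᵥ w = 0 := by
  obtain ⟨P, P', hPP', hP'P, hJ⟩ := rJordan M h
  have he0 : (![1, 0, 0] : Fin 3 → ℂ) ≠ 0 := by
    intro h0
    have := congrFun h0 0
    simp at this
  have he1 : (![0, 1, 0] : Fin 3 → ℂ) ≠ 0 := by
    intro h0
    have := congrFun h0 1
    simp at this
  have he2 : (![0, 0, 1] : Fin 3 → ℂ) ≠ 0 := by
    intro h0
    have := congrFun h0 2
    simp at this
  rcases hJ with ⟨d, hd⟩ | ⟨l, m, -, hJ⟩ | ⟨l, hJ⟩
  · refine ⟨P' *ᵥ ![1, 0, 0], ![0, 1, 0] ᵥ* P, d 0, d 1, rFlagAux_ne_right hPP' he0,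
      rFlagAux_ne_left hPP' he1, rFlagAux_eig hP'P hd _ _ ?_, rFlagAux_leig hP'P hd _ _ ?_, ?_⟩
    · ext k
      rw [mulVec_diagonal]
      fin_cases k <;> simp
    · ext k
      rw [vecMul_diagonal]
      fin_cases k <;> simp
    · rw [rFlagAux_pair hPP']
      simp [dotProduct, Fin.sum_univ_three]
  · refine ⟨P' *ᵥ ![1, 0, 0], ![0, 0, 1] ᵥ* P, l, m, rFlagAux_ne_right hPP' he0,
      rFlagAux_ne_left hPP' he2, rFlagAux_eig hP'P hJ _ _ ?_, rFlagAux_leig hP'P hJ _ _ ?_, ?_⟩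
    · ext k
      fin_cases k <;> simp [mulVec, dotProduct, Fin.sum_univ_three]
    · ext k
      fin_cases k <;> simp [vecMul, dotProduct, Fin.sum_univ_three]
    · rw [rFlagAux_pair hPP']
      simp [dotProduct, Fin.sum_univ_three]
  · refine ⟨P' *ᵥ ![1, 0, 0], ![0, 0, 1] ᵥ* P, l, l, rFlagAux_ne_right hPP' he0,
      rFlagAux_ne_left hPP' he2, rFlagAux_eig hP'P hJ _ _ ?_, rFlagAux_leig hP'P hJ _ _ ?_, ?_⟩
    · ext k
      fin_cases k <;> simp [mulVec, dotProduct, Fin.sum_univ_three]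
    · ext k
      fin_cases k <;> simp [vecMul, dotProduct, Fin.sum_univ_three]
    · rw [rFlagAux_pair hPP']
      simp [dotProduct, Fin.sum_univ_three]

/-- Diagonal type: some flag of `X` is opposite to any given flag. -/
theorem rFlagAux_diag (X P P' : Matrix (Fin 3) (Fin 3) ℂ)
    (hPP' : P * P' = 1) (hP'P : P' * P = 1) (d : Fin 3 → ℂ)
    (hJ : P * X * P' = Matrix.diagonal d)
    (y ζ : Fin 3 → ℂ) (hy : y ≠ 0) (hζ : ζ ≠ 0) (hζy : ζ ⬝ᵥ y = 0) :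
    ∃ (v η : Fin 3 → ℂ) (α α' : ℂ), X *ᵥ v = α • v ∧ η ᵥ* X = α' • η ∧ η ⬝ᵥ v = 0 ∧
      ζ ⬝ᵥ v ≠ 0 ∧ η ⬝ᵥ y ≠ 0 := by
  have hθ' : ζ ᵥ* P' ≠ 0 := rFlagAux_ne_left hP'P hζ
  have hw' : P *ᵥ y ≠ 0 := rFlagAux_ne_right hP'P hy
  have hpair : (ζ ᵥ* P') ⬝ᵥ (P *ᵥ y) = 0 := by
    rw [rFlagAux_pair hP'P]
    exact hζy
  obtain ⟨i, j, hij, hi, hj⟩ := rFlagAux_core (ζ ᵥ* P') (P *ᵥ y) hθ' hw' hpair
  refine rFlagAux_transport hPP' hP'P hJ (Pi.single i 1) (Pi.single j 1) (d i) (d j) ?_ ?_ ?_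
    y ζ ?_ ?_
  · ext k
    rw [mulVec_diagonal]
    by_cases hk : k = i
    · subst hk
      simp
    · simp [Pi.single_eq_of_ne hk]
  · ext k
    rw [vecMul_diagonal]
    by_cases hk : k = j
    · subst hk
      simp
    · simp [Pi.single_eq_of_ne hk]
  · rw [single_one_dotProduct]
    exact Pi.single_eq_of_ne (Ne.symm hij) 1
  · rw [dotProduct_single_one]
    exact hi
  · rw [single_one_dotProduct]
    exact hj

/-- Type with one Jordan block of size two: some flag of `X` is opposite to any given flag of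
`Y`, when the pair is irreducible. -/
theorem rFlagAux_j21 (X Y P P' : Matrix (Fin 3) (Fin 3) ℂ)
    (hPP' : P * P' = 1) (hP'P : P' * P = 1) (l m : ℂ)
    (hJ : P * X * P' = !![l, 1, 0; 0, l, 0; 0, 0, m]) (hirr : rIrr X Y)
    (y ζ : Fin 3 → ℂ) (β β' : ℂ) (hy : y ≠ 0) (hζ : ζ ≠ 0) (hYy : Y *ᵥ y = β • y)
    (hζY : ζ ᵥ* Y = β' • ζ) (hζy : ζ ⬝ᵥ y = 0) :
    ∃ (v η : Fin 3 → ℂ) (α α' : ℂ), X *ᵥ v = α • v ∧ η ᵥ* X = α' • η ∧ η ⬝ᵥ v = 0 ∧
      ζ ⬝ᵥ v ≠ 0 ∧ η ⬝ᵥ y ≠ 0 := by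
  have hw' : P *ᵥ y ≠ 0 := rFlagAux_ne_right hP'P hy
  have hpair : (ζ ᵥ* P') ⬝ᵥ (P *ᵥ y) = 0 := by
    rw [rFlagAux_pair hP'P]
    exact hζy
  have hζeq : (ζ ᵥ* P') ᵥ* P = ζ := by rw [vecMul_vecMul, hP'P, vecMul_one]
  have hyeq : P' *ᵥ (P *ᵥ y) = y := by rw [mulVec_mulVec, hP'P, one_mulVec]
  generalize hθdef : ζ ᵥ* P' = θ at hpair hζeq
  generalize hwdef : P *ᵥ y = w at hw' hpair hyeq
  have hp : θ 0 * w 0 + θ 1 * w 1 + θ 2 * w 2 = 0 := by
    have := hpair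
    simpa [dotProduct, Fin.sum_univ_three] using this
  have hc1 : (θ ⬝ᵥ ![1, 0, 0]) = θ 0 := by simp [dotProduct, Fin.sum_univ_three]
  have hc2 : (θ ⬝ᵥ ![0, 0, 1]) = θ 2 := by simp [dotProduct, Fin.sum_univ_three]
  have hd1 : (![0, 1, 0] ⬝ᵥ w) = w 1 := by simp [dotProduct, Fin.sum_univ_three]
  have hd2 : (![0, 0, 1] ⬝ᵥ w) = w 2 := by simp [dotProduct, Fin.sum_univ_three]
  have hJe0 : (!![l, 1, 0; 0, l, 0; 0, 0, m] : Matrix (Fin 3) (Fin 3) ℂ) *ᵥ ![1, 0, 0]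
      = l • ![1, 0, 0] := by
    ext k
    fin_cases k <;> simp [mulVec, dotProduct, Fin.sum_univ_three]
  have hJe2 : (!![l, 1, 0; 0, l, 0; 0, 0, m] : Matrix (Fin 3) (Fin 3) ℂ) *ᵥ ![0, 0, 1]
      = m • ![0, 0, 1] := by
    ext k
    fin_cases k <;> simp [mulVec, dotProduct, Fin.sum_univ_three]
  have hf1J : ![0, 1, 0] ᵥ* (!![l, 1, 0; 0, l, 0; 0, 0, m] : Matrix (Fin 3) (Fin 3) ℂ)
      = l • ![0, 1, 0] := by
    ext k
    fin_cases k <;> simp [vecMul, dotProduct, Fin.sum_univ_three]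
  have hf2J : ![0, 0, 1] ᵥ* (!![l, 1, 0; 0, l, 0; 0, 0, m] : Matrix (Fin 3) (Fin 3) ℂ)
      = m • ![0, 0, 1] := by
    ext k
    fin_cases k <;> simp [vecMul, dotProduct, Fin.sum_univ_three]
  have hp20 : (![0, 0, 1] : Fin 3 → ℂ) ⬝ᵥ ![1, 0, 0] = 0 := by
    simp [dotProduct, Fin.sum_univ_three]
  have hp10 : (![0, 1, 0] : Fin 3 → ℂ) ⬝ᵥ ![1, 0, 0] = 0 := by
    simp [dotProduct, Fin.sum_univ_three]
  have hp12 : (![0, 1, 0] : Fin 3 → ℂ) ⬝ᵥ ![0, 0, 1] = 0 := by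
    simp [dotProduct, Fin.sum_univ_three]
  by_cases h0 : θ 0 = 0
  · have h2 : θ 2 ≠ 0 := by
      intro h2
      have hθJ : θ ᵥ* (!![l, 1, 0; 0, l, 0; 0, 0, m] : Matrix (Fin 3) (Fin 3) ℂ) = l • θ := by
        ext k
        fin_cases k <;> simp [vecMul, dotProduct, Fin.sum_univ_three, h0, h2, mul_comm]
      have hζX : ζ ᵥ* X = l • ζ := by
        have := rFlagAux_leig hP'P hJ θ l hθJ
        rw [hζeq] at this
        exact this
      exact rFlagAux_not_irr_left X Y ζ hζ l β' hζX hζY hirr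
    have h1 : w 1 ≠ 0 := by
      intro h1
      have hw2 : w 2 = 0 := by
        rw [h0, h1] at hp
        simp only [zero_mul, mul_zero, zero_add] at hp
        rcases mul_eq_zero.mp hp with h3 | h3
        · exact absurd h3 h2
        · exact h3
      have hJw : (!![l, 1, 0; 0, l, 0; 0, 0, m] : Matrix (Fin 3) (Fin 3) ℂ) *ᵥ w = l • w := by
        ext k
        fin_cases k <;> simp [mulVec, dotProduct, Fin.sum_univ_three, h1, hw2]
      have hXy : X *ᵥ y = l • y := by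
        have := rFlagAux_eig hP'P hJ w l hJw
        rw [hyeq] at this
        exact this
      exact rFlagAux_not_irr_right X Y y hy l β hXy hYy hirr
    refine rFlagAux_transport hPP' hP'P hJ ![0, 0, 1] ![0, 1, 0] m l hJe2 hf1J hp12 y ζ ?_ ?_
    · rw [hθdef, hc2]
      exact h2
    · rw [hwdef, hd1]
      exact h1
  · by_cases h1 : w 1 = 0
    · have h2 : w 2 ≠ 0 := by
        intro h2
        rw [h1, h2] at hp
        simp only [mul_zero, add_zero] at hp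
        have hw0 : w 0 = 0 := by
          rcases mul_eq_zero.mp hp with h3 | h3
          · exact absurd h3 h0
          · exact h3
        apply hw'
        funext k
        fin_cases k
        · simpa using hw0
        · simpa using h1
        · simpa using h2
      refine rFlagAux_transport hPP' hP'P hJ ![1, 0, 0] ![0, 0, 1] l m hJe0 hf2J hp20 y ζ ?_ ?_
      · rw [hθdef, hc1]
        exact h0
      · rw [hwdef, hd2]
        exact h2
    · refine rFlagAux_transport hPP' hP'P hJ ![1, 0, 0] ![0, 1, 0] l l hJe0 hf1J hp10 y ζ ?_ ?_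
      · rw [hθdef, hc1]
        exact h0
      · rw [hwdef, hd1]
        exact h1

/-- Powers of the nilpotent part of a matrix conjugate to a full Jordan block. -/
theorem rFlagAux_j3_pow {X P P' : Matrix (Fin 3) (Fin 3) ℂ} (hPP' : P * P' = 1)
    (hP'P : P' * P = 1) (l : ℂ) (hJ : P * X * P' = !![l, 1, 0; 0, l, 1; 0, 0, l]) :
    (X - l • (1 : Matrix (Fin 3) (Fin 3) ℂ)) ^ 3 = 0 ∧
      (X - l • (1 : Matrix (Fin 3) (Fin 3) ℂ)) ^ 2
        = vecMulVec (P' *ᵥ ![1, 0, 0]) (![0, 0, 1] ᵥ* P) := by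
  have hX : X = P' * (!![l, 1, 0; 0, l, 1; 0, 0, l] : Matrix (Fin 3) (Fin 3) ℂ) * P := by
    rw [← hJ]
    simp only [Matrix.mul_assoc]
    rw [hP'P, Matrix.mul_one, ← Matrix.mul_assoc, hP'P, Matrix.one_mul]
  have hN : X - l • (1 : Matrix (Fin 3) (Fin 3) ℂ)
      = P' * (!![0, 1, 0; 0, 0, 1; 0, 0, 0] : Matrix (Fin 3) (Fin 3) ℂ) * P := by
    have hsplit : (!![l, 1, 0; 0, l, 1; 0, 0, l] : Matrix (Fin 3) (Fin 3) ℂ)
        = !![0, 1, 0; 0, 0, 1; 0, 0, 0] + l • (1 : Matrix (Fin 3) (Fin 3) ℂ) := by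
      ext i j
      fin_cases i <;> fin_cases j <;> simp
    rw [hX, hsplit, Matrix.mul_add, Matrix.add_mul, Matrix.mul_smul, Matrix.mul_one,
      Matrix.smul_mul, hP'P, add_sub_cancel_right]
  have hNN : (!![0, 1, 0; 0, 0, 1; 0, 0, 0] : Matrix (Fin 3) (Fin 3) ℂ)
      * !![0, 1, 0; 0, 0, 1; 0, 0, 0] = vecMulVec ![1, 0, 0] ![0, 0, 1] := by
    ext i j
    fin_cases i <;> fin_cases j <;>
      simp [Matrix.mul_apply, Fin.sum_univ_three, vecMulVec_apply]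
  have hNNN : vecMulVec (![1, 0, 0] : Fin 3 → ℂ) ![0, 0, 1]
      * (!![0, 1, 0; 0, 0, 1; 0, 0, 0] : Matrix (Fin 3) (Fin 3) ℂ) = 0 := by
    ext i j
    fin_cases i <;> fin_cases j <;>
      simp [Matrix.mul_apply, Fin.sum_univ_three, vecMulVec_apply]
  have h2 : (X - l • (1 : Matrix (Fin 3) (Fin 3) ℂ)) ^ 2
      = P' * vecMulVec ![1, 0, 0] ![0, 0, 1] * P := by
    rw [hN, pow_two, ← hNN]
    simp only [Matrix.mul_assoc]
    rw [← Matrix.mul_assoc P P', hPP', Matrix.one_mul]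
  refine ⟨?_, ?_⟩
  · rw [pow_succ, h2, hN]
    have : P' * vecMulVec ![1, 0, 0] ![0, 0, 1] * P
        * (P' * (!![0, 1, 0; 0, 0, 1; 0, 0, 0] : Matrix (Fin 3) (Fin 3) ℂ) * P)
        = P' * (vecMulVec ![1, 0, 0] ![0, 0, 1]
          * (!![0, 1, 0; 0, 0, 1; 0, 0, 0] : Matrix (Fin 3) (Fin 3) ℂ)) * P := by
      simp only [Matrix.mul_assoc]
      rw [← Matrix.mul_assoc P P', hPP', Matrix.one_mul]
    rw [this, hNNN, Matrix.mul_zero, Matrix.zero_mul]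
  · rw [h2, mul_vecMulVec, vecMulVec_mul]

theorem rFlags (A B : Matrix (Fin 3) (Fin 3) ℂ) (hA : minpoly ℂ A = A.charpoly)
    (hB : minpoly ℂ B = B.charpoly) (hirr : rIrr A B) :
    (∃ P P' : Matrix (Fin 3) (Fin 3) ℂ, P * P' = 1 ∧ P' * P = 1 ∧
      (P * A * P') 1 0 = 0 ∧ (P * A * P') 2 0 = 0 ∧ (P * A * P') 2 1 = 0 ∧
      (P * B * P') 0 1 = 0 ∧ (P * B * P') 0 2 = 0 ∧ (P * B * P') 1 2 = 0) ∨
    (∃ l m : ℂ, (A - l • (1 : Matrix (Fin 3) (Fin 3) ℂ)) ^ 3 = 0 ∧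
      (B - m • (1 : Matrix (Fin 3) (Fin 3) ℂ)) ^ 3 = 0 ∧
      ((B - m • (1 : Matrix (Fin 3) (Fin 3) ℂ)) ^ 2 * (A - l • (1 : Matrix (Fin 3) (Fin 3) ℂ)) ^ 2 = 0 ∨
        (A - l • (1 : Matrix (Fin 3) (Fin 3) ℂ)) ^ 2 * (B - m • (1 : Matrix (Fin 3) (Fin 3) ℂ)) ^ 2 = 0)) := by
  obtain ⟨P, P', hPP', hP'P, hJA⟩ := rJordan A hA
  obtain ⟨Q, Q', hQQ', hQ'Q, hJB⟩ := rJordan B hB
  rcases hJA with ⟨d, hd⟩ | ⟨l, m, -, hJ⟩ | ⟨l, hJ⟩
  · left
    obtain ⟨w, θ, β, β', hw, hθ, hBw, hθB, hθw⟩ := rFlagAux_flag B hB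
    obtain ⟨v, η, α, α', hAv, hηA, hηv, hθv, hηw⟩ :=
      rFlagAux_diag A P P' hPP' hP'P d hd w θ hw hθ hθw
    exact rOpp_chart A B v w η θ α α' β β' hAv hηA hηv hBw hθB hθw hθv hηw
  · left
    obtain ⟨w, θ, β, β', hw, hθ, hBw, hθB, hθw⟩ := rFlagAux_flag B hB
    obtain ⟨v, η, α, α', hAv, hηA, hηv, hθv, hηw⟩ :=
      rFlagAux_j21 A B P P' hPP' hP'P l m hJ hirr w θ β β' hw hθ hBw hθB hθw
    exact rOpp_chart A B v w η θ α α' β β' hAv hηA hηv hBw hθB hθw hθv hηw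
  · rcases hJB with ⟨d, hd⟩ | ⟨l', m', -, hJ'⟩ | ⟨m, hJ'⟩
    · left
      obtain ⟨v, η, α, α', hv, hη, hAv, hηA, hηv⟩ := rFlagAux_flag A hA
      obtain ⟨w, θ, β, β', hBw, hθB, hθw, hηw, hθv⟩ :=
        rFlagAux_diag B Q Q' hQQ' hQ'Q d hd v η hv hη hηv
      exact rOpp_chart A B v w η θ α α' β β' hAv hηA hηv hBw hθB hθw hθv hηw
    · left
      obtain ⟨v, η, α, α', hv, hη, hAv, hηA, hηv⟩ := rFlagAux_flag A hA
      obtain ⟨w, θ, β, β', hBw, hθB, hθw, hηw, hθv⟩ :=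
        rFlagAux_j21 B A Q Q' hQQ' hQ'Q l' m' hJ' (rFlagAux_irr_symm hirr) v η α α' hv hη
          hAv hηA hηv
      exact rOpp_chart A B v w η θ α α' β β' hAv hηA hηv hBw hθB hθw hθv hηw
    · obtain ⟨hA3, hA2⟩ := rFlagAux_j3_pow hPP' hP'P l hJ
      obtain ⟨hB3, hB2⟩ := rFlagAux_j3_pow hQQ' hQ'Q m hJ'
      by_cases h1 : (![0, 0, 1] ᵥ* Q) ⬝ᵥ (P' *ᵥ ![1, 0, 0]) = 0
      · right
        refine ⟨l, m, hA3, hB3, Or.inl ?_⟩
        rw [hB2, hA2, vecMulVec_mul_vecMulVec, h1, zero_smul]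
        ext i j
        simp [vecMulVec_apply]
      · by_cases h2 : (![0, 0, 1] ᵥ* P) ⬝ᵥ (Q' *ᵥ ![1, 0, 0]) = 0
        · right
          refine ⟨l, m, hA3, hB3, Or.inr ?_⟩
          rw [hB2, hA2, vecMulVec_mul_vecMulVec, h2, zero_smul]
          ext i j
          simp [vecMulVec_apply]
        · left
          have hJ3e : ∀ c : ℂ, (!![c, 1, 0; 0, c, 1; 0, 0, c] : Matrix (Fin 3) (Fin 3) ℂ)
              *ᵥ ![1, 0, 0] = c • ![1, 0, 0] := by
            intro c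
            ext k
            fin_cases k <;> simp [mulVec, dotProduct, Fin.sum_univ_three]
          have hJ3f : ∀ c : ℂ, ![0, 0, 1] ᵥ*
              (!![c, 1, 0; 0, c, 1; 0, 0, c] : Matrix (Fin 3) (Fin 3) ℂ) = c • ![0, 0, 1] := by
            intro c
            ext k
            fin_cases k <;> simp [vecMul, dotProduct, Fin.sum_univ_three]
          have hp20 : (![0, 0, 1] : Fin 3 → ℂ) ⬝ᵥ ![1, 0, 0] = 0 := by
            simp [dotProduct, Fin.sum_univ_three]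
          refine rOpp_chart A B (P' *ᵥ ![1, 0, 0]) (Q' *ᵥ ![1, 0, 0]) (![0, 0, 1] ᵥ* P)
            (![0, 0, 1] ᵥ* Q) l l m m (rFlagAux_eig hP'P hJ _ _ (hJ3e l))
            (rFlagAux_leig hP'P hJ _ _ (hJ3f l)) ?_ (rFlagAux_eig hQ'Q hJ' _ _ (hJ3e m))
            (rFlagAux_leig hQ'Q hJ' _ _ (hJ3f m)) ?_ h1 h2
          · rw [rFlagAux_pair hPP']
            exact hp20
          · rw [rFlagAux_pair hQQ']
            exact hp20

end Vale.Agent.Lib.P002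

end
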