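import Vale.Agent.Lib.P002.Torus

/-!
# Regular functions on invertible matrices and closures of multiplicative sets

A function on square complex matrices is *regular* if, on invertible matrices, it is a
polynomial in the entries of the matrix and of its inverse.  The closure `zcl S` of a set `S` of
invertible matrices consists of the invertible matrices at which every regular function
vanishing on `S` vanishes.  The closure of a multiplicatively closed set is multiplicatively
closed.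
-/

open Polynomial

noncomputable section

namespace Vale.Agent.Lib.P002

variable {ι : Type*} [Fintype ι] [DecidableEq ι]

/-- The entries of a matrix and of its inverse. -/
def ptOf (g : Matrix ι ι ℂ) : (ι × ι) ⊕ (ι × ι) → ℂ :=
  Sum.elim (fun x => g x.1 x.2) (fun x => g⁻¹ x.1 x.2)

/-- A regular function: on invertible matrices it is a polynomial in the entries of the matrix
and of its inverse. -/
def IsReg (f : Matrix ι ι ℂ → ℂ) : Prop :=
  ∃ P : MvPolynomial ((ι × ι) ⊕ (ι × ι)) ℂ, ∀ g : Matrix ι ι ℂ, IsUnit g.det →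
    f g = MvPolynomial.eval (ptOf g) P

theorem isReg_const (c : ℂ) : IsReg (fun _ : Matrix ι ι ℂ => c) :=
  ⟨MvPolynomial.C c, fun g _ => by simp⟩

theorem isReg_entry (i j : ι) : IsReg (fun g : Matrix ι ι ℂ => g i j) :=
  ⟨MvPolynomial.X (Sum.inl (i, j)), fun g _ => by simp [ptOf]⟩

theorem isReg_inv_entry (i j : ι) : IsReg (fun g : Matrix ι ι ℂ => g⁻¹ i j) :=
  ⟨MvPolynomial.X (Sum.inr (i, j)), fun g _ => by simp [ptOf]⟩

theorem IsReg.add {f1 f2 : Matrix ι ι ℂ → ℂ} (h1 : IsReg f1) (h2 : IsReg f2) :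
    IsReg (fun g => f1 g + f2 g) := by
  obtain ⟨P, hP⟩ := h1
  obtain ⟨Q, hQ⟩ := h2
  exact ⟨P + Q, fun g hg => by simp only [hP g hg, hQ g hg, map_add]⟩

theorem IsReg.mul {f1 f2 : Matrix ι ι ℂ → ℂ} (h1 : IsReg f1) (h2 : IsReg f2) :
    IsReg (fun g => f1 g * f2 g) := by
  obtain ⟨P, hP⟩ := h1
  obtain ⟨Q, hQ⟩ := h2
  exact ⟨P * Q, fun g hg => by simp only [hP g hg, hQ g hg, map_mul]⟩

theorem IsReg.sum {κ : Type*} (s : Finset κ) (f : κ → Matrix ι ι ℂ → ℂ)
    (h : ∀ j ∈ s, IsReg (f j)) : IsReg (fun g => ∑ j ∈ s, f j g) := by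
  classical
  induction s using Finset.induction_on with
  | empty => simpa using isReg_const (ι := ι) 0
  | insert a s ha ih =>
    have h1 := (h a (Finset.mem_insert_self a s)).add
      (ih fun j hj => h j (Finset.mem_insert_of_mem hj))
    refine (iff_of_eq ?_).mp h1
    congr 1
    funext g
    rw [Finset.sum_insert ha]

theorem IsReg.eval_mvPolynomial {σ : Type*} (x : Matrix ι ι ℂ → σ → ℂ)
    (hx : ∀ v, IsReg (fun g => x g v)) (F : MvPolynomial σ ℂ) :
    IsReg (fun g => MvPolynomial.eval (x g) F) := by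
  induction F using MvPolynomial.induction_on with
  | C a => simpa using isReg_const (ι := ι) a
  | add p q hp hq => simpa using hp.add hq
  | mul_X p v hp => simpa using hp.mul (hx v)

/-- Two functions agreeing on invertible matrices are regular together. -/
theorem IsReg.congr {f1 f2 : Matrix ι ι ℂ → ℂ} (h1 : IsReg f1)
    (h : ∀ g : Matrix ι ι ℂ, IsUnit g.det → f2 g = f1 g) : IsReg f2 := by
  obtain ⟨P, hP⟩ := h1
  exact ⟨P, fun g hg => by rw [h g hg, hP g hg]⟩

theorem IsReg.comp_mul_left {f : Matrix ι ι ℂ → ℂ} (hf : IsReg f) (h : Matrix ι ι ℂ)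
    (hh : IsUnit h.det) : IsReg (fun g => f (h * g)) := by
  obtain ⟨P, hP⟩ := hf
  have hx : ∀ v, IsReg (fun g : Matrix ι ι ℂ =>
      (Sum.elim (fun x : ι × ι => ∑ k, h x.1 k * g k x.2)
        (fun x : ι × ι => ∑ k, g⁻¹ x.1 k * h⁻¹ k x.2)) v) := by
    rintro (x | x)
    · exact IsReg.sum _ _ fun k _ => (isReg_const _).mul (isReg_entry k x.2)
    · exact IsReg.sum _ _ fun k _ => (isReg_inv_entry x.1 k).mul (isReg_const _)
  refine (IsReg.eval_mvPolynomial _ hx P).congr fun g hg => ?_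
  have hdet : IsUnit (h * g).det := by
    rw [Matrix.det_mul]
    exact hh.mul hg
  rw [hP _ hdet]
  congr 2
  funext v
  rcases v with x | x
  · simp [ptOf, Matrix.mul_apply]
  · simp [ptOf, Matrix.mul_inv_rev, Matrix.mul_apply]

theorem IsReg.comp_mul_right {f : Matrix ι ι ℂ → ℂ} (hf : IsReg f) (h : Matrix ι ι ℂ)
    (hh : IsUnit h.det) : IsReg (fun g => f (g * h)) := by
  obtain ⟨P, hP⟩ := hf
  have hx : ∀ v, IsReg (fun g : Matrix ι ι ℂ =>
      (Sum.elim (fun x : ι × ι => ∑ k, g x.1 k * h k x.2)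
        (fun x : ι × ι => ∑ k, h⁻¹ x.1 k * g⁻¹ k x.2)) v) := by
    rintro (x | x)
    · exact IsReg.sum _ _ fun k _ => (isReg_entry x.1 k).mul (isReg_const _)
    · exact IsReg.sum _ _ fun k _ => (isReg_const _).mul (isReg_inv_entry k x.2)
  refine (IsReg.eval_mvPolynomial _ hx P).congr fun g hg => ?_
  have hdet : IsUnit (g * h).det := by
    rw [Matrix.det_mul]
    exact hg.mul hh
  rw [hP _ hdet]
  congr 2
  funext v
  rcases v with x | x
  · simp [ptOf, Matrix.mul_apply]
  · simp [ptOf, Matrix.mul_inv_rev, Matrix.mul_apply]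

/-- The closure of a set of matrices with respect to regular functions. -/
def zcl (S : Set (Matrix ι ι ℂ)) : Set (Matrix ι ι ℂ) :=
  {x | IsUnit x.det ∧ ∀ f : Matrix ι ι ℂ → ℂ, IsReg f → (∀ s ∈ S, f s = 0) → f x = 0}

theorem subset_zcl {S : Set (Matrix ι ι ℂ)} (hS : ∀ s ∈ S, IsUnit s.det) {x : Matrix ι ι ℂ}
    (hx : x ∈ S) : x ∈ zcl S :=
  ⟨hS x hx, fun _ _ h0 => h0 x hx⟩

/-- The closure of a multiplicatively closed set of invertible matrices is multiplicatively
closed. -/
theorem zcl_mul {S : Set (Matrix ι ι ℂ)} (hS : ∀ s ∈ S, IsUnit s.det)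
    (hmul : ∀ s ∈ S, ∀ s' ∈ S, s * s' ∈ S) {x y : Matrix ι ι ℂ} (hx : x ∈ zcl S)
    (hy : y ∈ zcl S) : x * y ∈ zcl S := by
  refine ⟨?_, fun f hf h0 => ?_⟩
  · rw [Matrix.det_mul]
    exact hx.1.mul hy.1
  · have step1 : ∀ s ∈ S, f (s * y) = 0 := by
      intro s hs
      exact hy.2 (fun g => f (s * g)) (hf.comp_mul_left s (hS s hs))
        (fun s' hs' => h0 _ (hmul s hs s' hs'))
    exact hx.2 (fun g => f (g * y)) (hf.comp_mul_right y hy.1) step1

end Vale.Agent.Lib.P002

end
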