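import Vale.Agent.Lib.P002.RegDefs

/-!
# Normal form of an irreducible pair of regular unipotent-type blocks in special position
-/

noncomputable section

namespace Vale.Agent.Lib.P002

open Polynomial Matrix

/-- The matrix with the three given columns. -/
def rStrAux_cols (c0 c1 c2 : Fin 3 → ℂ) : Matrix (Fin 3) (Fin 3) ℂ :=
  Matrix.of fun i j => ![c0 i, c1 i, c2 i] j

theorem rStrAux_cols_mulVec (c0 c1 c2 v : Fin 3 → ℂ) :
    rStrAux_cols c0 c1 c2 *ᵥ v = v 0 • c0 + v 1 • c1 + v 2 • c2 := by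
  funext i
  simp [rStrAux_cols, Matrix.mulVec, dotProduct, Fin.sum_univ_three]
  ring

theorem rStrAux_mul_cols (X : Matrix (Fin 3) (Fin 3) ℂ) (c0 c1 c2 : Fin 3 → ℂ) :
    X * rStrAux_cols c0 c1 c2 = rStrAux_cols (X *ᵥ c0) (X *ᵥ c1) (X *ᵥ c2) := by
  ext i j
  fin_cases j <;> simp [rStrAux_cols, Matrix.mul_apply, Matrix.mulVec, dotProduct]

theorem rStrAux_cols_mul (c0 c1 c2 : Fin 3 → ℂ) (J : Matrix (Fin 3) (Fin 3) ℂ) :
    rStrAux_cols c0 c1 c2 * J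
      = rStrAux_cols (J 0 0 • c0 + J 1 0 • c1 + J 2 0 • c2)
          (J 0 1 • c0 + J 1 1 • c1 + J 2 1 • c2) (J 0 2 • c0 + J 1 2 • c1 + J 2 2 • c2) := by
  ext i j
  fin_cases j <;> simp [rStrAux_cols, Matrix.mul_apply, Fin.sum_univ_three] <;> ring

theorem rStrAux_cols_det_ne (c0 c1 c2 : Fin 3 → ℂ)
    (hind : ∀ a b c : ℂ, a • c0 + b • c1 + c • c2 = 0 → a = 0 ∧ b = 0 ∧ c = 0) :
    (rStrAux_cols c0 c1 c2).det ≠ 0 := by
  intro hdet
  obtain ⟨v, hv, hv0⟩ := Matrix.exists_mulVec_eq_zero_iff.2 hdet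
  rw [rStrAux_cols_mulVec] at hv0
  obtain ⟨h0, h1, h2⟩ := hind _ _ _ hv0
  apply hv
  funext i
  fin_cases i <;> simp [h0, h1, h2]

theorem rStrAux_expand (c0 c1 c2 : Fin 3 → ℂ) (hdet : (rStrAux_cols c0 c1 c2).det ≠ 0)
    (v : Fin 3 → ℂ) : ∃ a b c : ℂ, v = a • c0 + b • c1 + c • c2 := by
  have hu : IsUnit (rStrAux_cols c0 c1 c2).det := isUnit_iff_ne_zero.2 hdet
  refine ⟨((rStrAux_cols c0 c1 c2)⁻¹ *ᵥ v) 0, ((rStrAux_cols c0 c1 c2)⁻¹ *ᵥ v) 1,
    ((rStrAux_cols c0 c1 c2)⁻¹ *ᵥ v) 2, ?_⟩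
  rw [← rStrAux_cols_mulVec, Matrix.mulVec_mulVec, Matrix.mul_nonsing_inv _ hu,
    Matrix.one_mulVec]

theorem rStrAux_sq_ne (A : Matrix (Fin 3) (Fin 3) ℂ) (l : ℂ) (hA : minpoly ℂ A = A.charpoly) :
    (A - l • (1 : Matrix (Fin 3) (Fin 3) ℂ)) ^ 2 ≠ 0 := by
  intro h0
  have h1 : aeval A ((X - C l) ^ 2 : ℂ[X]) = 0 := by
    rw [map_pow, map_sub, aeval_X, aeval_C, Algebra.algebraMap_eq_smul_one]
    exact h0
  have h2 : minpoly ℂ A ∣ (X - C l) ^ 2 := minpoly.dvd ℂ A h1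
  have h3 : ((X - C l) ^ 2 : ℂ[X]) ≠ 0 := pow_ne_zero _ (X_sub_C_ne_zero l)
  have h4 := natDegree_le_of_dvd h2 h3
  rw [hA, Matrix.charpoly_natDegree_eq_dim, natDegree_pow, natDegree_X_sub_C] at h4
  simp at h4

theorem rStrAux_exists_vec (X : Matrix (Fin 3) (Fin 3) ℂ) (hX : X ≠ 0) :
    ∃ u : Fin 3 → ℂ, X *ᵥ u ≠ 0 := by
  by_contra hcon
  push Not at hcon
  apply hX
  ext i j
  have h1 := congrFun (hcon (Pi.single j 1)) i
  simpa using h1

theorem rStratum (A B : Matrix (Fin 3) (Fin 3) ℂ) (l m : ℂ) (hirr : rIrr A B)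
    (hA : minpoly ℂ A = A.charpoly) (hB : minpoly ℂ B = B.charpoly)
    (hA3 : (A - l • (1 : Matrix (Fin 3) (Fin 3) ℂ)) ^ 3 = 0)
    (hB3 : (B - m • (1 : Matrix (Fin 3) (Fin 3) ℂ)) ^ 3 = 0)
    (h : (B - m • (1 : Matrix (Fin 3) (Fin 3) ℂ)) ^ 2 *
      (A - l • (1 : Matrix (Fin 3) (Fin 3) ℂ)) ^ 2 = 0) :
    ∃ (P P' : Matrix (Fin 3) (Fin 3) ℂ) (s k t : ℂ), P * P' = 1 ∧ P' * P = 1 ∧ s ≠ 0 ∧
      P * A * P' = !![l, 0, 1; 0, l, 0; 0, s, l] ∧
      P * B * P' = !![m, 0, k; 1, m, t; 0, 0, m] := by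
  obtain ⟨N, hN⟩ : ∃ N : Matrix (Fin 3) (Fin 3) ℂ,
      N = A - l • (1 : Matrix (Fin 3) (Fin 3) ℂ) := ⟨_, rfl⟩
  obtain ⟨M, hM⟩ : ∃ M : Matrix (Fin 3) (Fin 3) ℂ,
      M = B - m • (1 : Matrix (Fin 3) (Fin 3) ℂ) := ⟨_, rfl⟩
  have hN2 : N ^ 2 ≠ 0 := by rw [hN]; exact rStrAux_sq_ne A l hA
  have hM2 : M ^ 2 ≠ 0 := by rw [hM]; exact rStrAux_sq_ne B m hB
  rw [← hN] at hA3 h
  rw [← hM] at hB3 h
  have hAN : ∀ v : Fin 3 → ℂ, A *ᵥ v = N *ᵥ v + l • v := by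
    intro v
    rw [hN, Matrix.sub_mulVec, Matrix.smul_mulVec, Matrix.one_mulVec, sub_add_cancel]
  have hBM : ∀ v : Fin 3 → ℂ, B *ᵥ v = M *ᵥ v + m • v := by
    intro v
    rw [hM, Matrix.sub_mulVec, Matrix.smul_mulVec, Matrix.one_mulVec, sub_add_cancel]
  obtain ⟨u, hu⟩ := rStrAux_exists_vec (N ^ 2) hN2
  obtain ⟨e0, he0⟩ : ∃ e0 : Fin 3 → ℂ, e0 = N ^ 2 *ᵥ u := ⟨_, rfl⟩
  obtain ⟨w, hw⟩ : ∃ w : Fin 3 → ℂ, w = N *ᵥ u := ⟨_, rfl⟩
  obtain ⟨e1, he1⟩ : ∃ e1 : Fin 3 → ℂ, e1 = M *ᵥ e0 := ⟨_, rfl⟩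
  have he0ne : e0 ≠ 0 := by rw [he0]; exact hu
  have hNe0 : N *ᵥ e0 = 0 := by
    rw [he0, Matrix.mulVec_mulVec, ← pow_succ', hA3, Matrix.zero_mulVec]
  have hNw : N *ᵥ w = e0 := by
    rw [hw, he0, Matrix.mulVec_mulVec, ← pow_two]
  have hMe1 : M *ᵥ e1 = 0 := by
    rw [he1, he0, Matrix.mulVec_mulVec, Matrix.mulVec_mulVec, ← pow_two, h, Matrix.zero_mulVec]
  have hN2e0 : N ^ 2 *ᵥ e0 = 0 := by
    rw [pow_two, ← Matrix.mulVec_mulVec, hNe0, Matrix.mulVec_zero]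
  have hN2w : N ^ 2 *ᵥ w = 0 := by
    rw [pow_two, ← Matrix.mulVec_mulVec, hNw, hNe0]
  -- the Jordan basis of N
  have hind1 : ∀ a b c : ℂ, a • e0 + b • w + c • u = 0 → a = 0 ∧ b = 0 ∧ c = 0 := by
    intro a b c habc
    have h1 := congrArg (fun v => N ^ 2 *ᵥ v) habc
    simp only [Matrix.mulVec_add, Matrix.mulVec_smul, Matrix.mulVec_zero, hN2e0, hN2w,
      smul_zero, zero_add] at h1
    rw [← he0] at h1
    have hc : c = 0 := by
      rcases smul_eq_zero.1 h1 with h' | h'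
      · exact h'
      · exact absurd h' he0ne
    subst hc
    have h2 := congrArg (fun v => N *ᵥ v) habc
    simp only [Matrix.mulVec_add, Matrix.mulVec_smul, Matrix.mulVec_zero, hNe0, hNw,
      smul_zero, zero_smul, zero_add, add_zero] at h2
    have hb : b = 0 := by
      rcases smul_eq_zero.1 h2 with h' | h'
      · exact h'
      · exact absurd h' he0ne
    subst hb
    simp only [zero_smul, add_zero] at habc
    have ha : a = 0 := by
      rcases smul_eq_zero.1 habc with h' | h'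
      · exact h'
      · exact absurd h' he0ne
    exact ⟨ha, rfl, rfl⟩
  have hdetQ := rStrAux_cols_det_ne e0 w u hind1
  obtain ⟨c0, c1, c2, hc⟩ := rStrAux_expand e0 w u hdetQ e1
  have hNe1 : N *ᵥ e1 = c1 • e0 + c2 • w := by
    rw [hc, Matrix.mulVec_add, Matrix.mulVec_add, Matrix.mulVec_smul, Matrix.mulVec_smul,
      Matrix.mulVec_smul, hNe0, hNw, smul_zero, zero_add, ← hw]
  have hc2 : c2 ≠ 0 := by
    intro hc2
    rw [hc2, zero_smul, add_zero] at hNe1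
    have hWA : rInv A (Submodule.span ℂ {e0, e1}) := by
      intro v hv
      obtain ⟨x, y, rfl⟩ := Submodule.mem_span_pair.1 hv
      rw [hAN]
      apply Submodule.add_mem
      · rw [Matrix.mulVec_add, Matrix.mulVec_smul, Matrix.mulVec_smul, hNe0, hNe1, smul_zero,
          zero_add, smul_smul]
        exact Submodule.smul_mem _ _ (Submodule.subset_span (by simp))
      · exact Submodule.smul_mem _ _ (Submodule.mem_span_pair.2 ⟨x, y, rfl⟩)
    have hWB : rInv B (Submodule.span ℂ {e0, e1}) := by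
      intro v hv
      obtain ⟨x, y, rfl⟩ := Submodule.mem_span_pair.1 hv
      rw [hBM]
      apply Submodule.add_mem
      · rw [Matrix.mulVec_add, Matrix.mulVec_smul, Matrix.mulVec_smul, ← he1, hMe1, smul_zero,
          add_zero]
        exact Submodule.smul_mem _ _ (Submodule.subset_span (by simp))
      · exact Submodule.smul_mem _ _ (Submodule.mem_span_pair.2 ⟨x, y, rfl⟩)
    rcases hirr _ hWA hWB with hbot | htop
    · have hmem : e0 ∈ Submodule.span ℂ {e0, e1} := Submodule.subset_span (by simp)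
      rw [hbot] at hmem
      exact he0ne ((Submodule.mem_bot ℂ).1 hmem)
    · have hu' : u ∈ Submodule.span ℂ {e0, e1} := by rw [htop]; exact Submodule.mem_top
      obtain ⟨x, y, hxy⟩ := Submodule.mem_span_pair.1 hu'
      have h3 : (x + y * c0) • e0 + (y * c1) • w + (-1 : ℂ) • u = 0 := by
        have h4 : x • e0 + y • (c0 • e0 + c1 • w) = u := by
          rw [← hxy, hc, hc2, zero_smul, add_zero]
        rw [neg_one_smul, ← sub_eq_add_neg, sub_eq_zero, ← h4]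
        simp only [smul_add, smul_smul, add_smul]
        abel
      have h5 := (hind1 _ _ _ h3).2.2
      norm_num at h5
  obtain ⟨e2, he2⟩ : ∃ e2 : Fin 3 → ℂ, e2 = (c1 / c2) • e0 + w := ⟨_, rfl⟩
  have hNe2 : N *ᵥ e2 = e0 := by
    rw [he2, Matrix.mulVec_add, Matrix.mulVec_smul, hNe0, hNw, smul_zero, zero_add]
  have hNe1' : N *ᵥ e1 = c2 • e2 := by
    have h6 : c2 * (c1 / c2) = c1 := by field_simp
    rw [hNe1, he2, smul_add, smul_smul, h6]
  have hind2 : ∀ a b c : ℂ, a • e0 + b • e1 + c • e2 = 0 → a = 0 ∧ b = 0 ∧ c = 0 := by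
    intro a b c habc
    have h3 : (a + b * c0 + c * (c1 / c2)) • e0 + (b * c1 + c) • w + (b * c2) • u = 0 := by
      have h4 : (a + b * c0 + c * (c1 / c2)) • e0 + (b * c1 + c) • w + (b * c2) • u
          = a • e0 + b • e1 + c • e2 := by
        rw [hc, he2]
        simp only [smul_add, smul_smul, add_smul]
        abel
      rw [h4, habc]
    obtain ⟨h1, h2, h3'⟩ := hind1 _ _ _ h3
    have hb : b = 0 := by
      rcases mul_eq_zero.1 h3' with h' | h'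
      · exact h'
      · exact absurd h' hc2
    subst hb
    have hc' : c = 0 := by simpa using h2
    subst hc'
    have ha : a = 0 := by simpa using h1
    exact ⟨ha, rfl, rfl⟩
  have hdetP := rStrAux_cols_det_ne e0 e1 e2 hind2
  obtain ⟨k, t, r, hkt⟩ := rStrAux_expand e0 e1 e2 hdetP (M *ᵥ e2)
  have hM2e0 : M ^ 2 *ᵥ e0 = 0 := by
    rw [he0, Matrix.mulVec_mulVec, h, Matrix.zero_mulVec]
  have hM2e1 : M ^ 2 *ᵥ e1 = 0 := by
    rw [pow_two, ← Matrix.mulVec_mulVec, hMe1, Matrix.mulVec_zero]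
  have hr : r = 0 := by
    by_contra hr
    have h1 := congrArg (fun v => M ^ 2 *ᵥ v) hkt
    simp only [Matrix.mulVec_add, Matrix.mulVec_smul, hM2e0, hM2e1, smul_zero, zero_add] at h1
    rw [Matrix.mulVec_mulVec, ← pow_succ, hB3, Matrix.zero_mulVec] at h1
    have hM2e2 : M ^ 2 *ᵥ e2 = 0 := by
      rcases smul_eq_zero.1 h1.symm with h' | h'
      · exact absurd h' hr
      · exact h'
    apply hM2
    by_contra hne
    obtain ⟨v, hv⟩ := rStrAux_exists_vec (M ^ 2) hne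
    obtain ⟨x, y, z, hxyz⟩ := rStrAux_expand e0 e1 e2 hdetP v
    apply hv
    rw [hxyz, Matrix.mulVec_add, Matrix.mulVec_add, Matrix.mulVec_smul, Matrix.mulVec_smul,
      Matrix.mulVec_smul, hM2e0, hM2e1, hM2e2]
    simp
  subst hr
  have hu' : IsUnit (rStrAux_cols e0 e1 e2).det := isUnit_iff_ne_zero.2 hdetP
  refine ⟨(rStrAux_cols e0 e1 e2)⁻¹, rStrAux_cols e0 e1 e2, c2, k, t,
    Matrix.nonsing_inv_mul _ hu', Matrix.mul_nonsing_inv _ hu', hc2, ?_, ?_⟩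
  · have hAP : A * rStrAux_cols e0 e1 e2
        = rStrAux_cols e0 e1 e2 * !![l, 0, 1; 0, l, 0; 0, c2, l] := by
      rw [rStrAux_mul_cols, rStrAux_cols_mul, hAN, hAN, hAN, hNe0, hNe1', hNe2]
      congr 1 <;> simp
      abel
    rw [Matrix.mul_assoc, hAP, ← Matrix.mul_assoc, Matrix.nonsing_inv_mul _ hu', Matrix.one_mul]
  · have hBP : B * rStrAux_cols e0 e1 e2
        = rStrAux_cols e0 e1 e2 * !![m, 0, k; 1, m, t; 0, 0, m] := by
      rw [rStrAux_mul_cols, rStrAux_cols_mul, hBM, hBM, hBM, ← he1, hMe1, hkt]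
      congr 1 <;> simp
      abel
    rw [Matrix.mul_assoc, hBP, ← Matrix.mul_assoc, Matrix.nonsing_inv_mul _ hu', Matrix.one_mul]

end Vale.Agent.Lib.P002

end
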