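import Vale.Agent.Lib.P002.RegCert
import Vale.Agent.Lib.P002.RegCurve
import Vale.Agent.Lib.P002.RegCrit
import Vale.Agent.Lib.P002.RegFlag
import Vale.Agent.Lib.P002.RegStrat

/-!
# Density at the irreducible pairs with regular classes

`F` is a polynomial in the entries of a pair of three by three matrices, invariant under
simultaneous conjugation, which vanishes at all irreducible pairs `(A, B)` with entries in a ring
`O` such that `A`, `B` and `A * B` are regular with prescribed characteristic polynomials.  Then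
`F` vanishes at every such complex pair.
-/

noncomputable section

namespace Vale.Agent.Lib.P002

open Polynomial Matrix

/-- Exchange of the two matrices of a pair, on the coordinates. -/
def rSwapIdx (x : Fin 2 × Fin 3 × Fin 3) : Fin 2 × Fin 3 × Fin 3 := (x.1.rev, x.2)

theorem rSwap_pairPt (A B : Matrix (Fin 3) (Fin 3) ℂ) : pairPt B A ∘ rSwapIdx = pairPt A B := by
  funext x
  obtain ⟨e, i, j⟩ := x
  fin_cases e <;> rfl

theorem rSwap_eval (H : MvPolynomial (Fin 2 × Fin 3 × Fin 3) ℂ) (A B : Matrix (Fin 3) (Fin 3) ℂ) :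
    MvPolynomial.eval (pairPt B A) (MvPolynomial.rename rSwapIdx H)
      = MvPolynomial.eval (pairPt A B) H := by
  rw [MvPolynomial.eval_rename, rSwap_pairPt]

/-- **Density at the irreducible pairs with regular classes.** -/
theorem rCore_main (a b c : Fin 3 → ℂ) (ha1 : a 0 * a 1 * a 2 = 1) (hb1 : b 0 * b 1 * b 2 = 1)
    (hc1 : c 0 * c 1 * c 2 = 1) (O : Subring ℂ) (haO : ∀ i, a i ∈ O) (hbO : ∀ i, b i ∈ O)
    (hcO : ∀ i, c i ∈ O) (U : Set ℂˣ) (hU : U.Infinite)
    (hUO : ∀ u ∈ U, (u : ℂ) ∈ O ∧ ((u⁻¹ : ℂˣ) : ℂ) ∈ O)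
    (F : MvPolynomial (Fin 2 × Fin 3 × Fin 3) ℂ)
    (Hgl : ∀ A B P Q : Matrix (Fin 3) (Fin 3) ℂ, A.det = 1 → B.det = 1 → P * Q = 1 →
      Q * P = 1 → MvPolynomial.eval (pairPt (Q * A * P) (Q * B * P)) F
        = MvPolynomial.eval (pairPt A B) F)
    (Hvan : ∀ A B : Matrix (Fin 3) (Fin 3) ℂ, A.det = 1 → B.det = 1 → A.charpoly = rChi a →
      B.charpoly = rChi b → (A * B).charpoly = rChi c → minpoly ℂ A = A.charpoly →
      minpoly ℂ B = B.charpoly → minpoly ℂ (A * B) = (A * B).charpoly → rIrr A B →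
      (∀ i j, A i j ∈ O) → (∀ i j, B i j ∈ O) → MvPolynomial.eval (pairPt A B) F = 0)
    (A B : Matrix (Fin 3) (Fin 3) ℂ) (hdA : A.det = 1) (hdB : B.det = 1)
    (hA : A.charpoly = rChi a) (hB : B.charpoly = rChi b) (hAB : (A * B).charpoly = rChi c)
    (hrA : minpoly ℂ A = A.charpoly) (hrB : minpoly ℂ B = B.charpoly)
    (hrAB : minpoly ℂ (A * B) = (A * B).charpoly) (hirr : rIrr A B) :
    MvPolynomial.eval (pairPt A B) F = 0 := by
  -- the certificate
  obtain ⟨φ, hφ⟩ := rCert_exists a b c A B hirr (rQ_of_rReg a A hA hrA) (rQ_of_rReg b B hB hrB)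
    (rQ_of_rReg c (A * B) hAB hrAB)
  obtain ⟨G, hG⟩ := rCert_poly a b c φ
  -- the product with the certificate
  have HglH : ∀ A B P Q : Matrix (Fin 3) (Fin 3) ℂ, A.det = 1 → B.det = 1 → P * Q = 1 →
      Q * P = 1 → MvPolynomial.eval (pairPt (Q * A * P) (Q * B * P)) (F * G)
        = MvPolynomial.eval (pairPt A B) (F * G) := by
    intro A B P Q hdA hdB hPQ hQP
    rw [map_mul, map_mul, hG, hG, rCert_conj a b c φ A B Q P hQP hPQ, Hgl A B P Q hdA hdB hPQ hQP]
  have HvanH : ∀ A B : Matrix (Fin 3) (Fin 3) ℂ, A.det = 1 → B.det = 1 → A.charpoly = rChi a →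
      B.charpoly = rChi b → (A * B).charpoly = rChi c → (∀ i j, A i j ∈ O) →
      (∀ i j, B i j ∈ O) → MvPolynomial.eval (pairPt A B) (F * G) = 0 := by
    intro A B hdA hdB hA hB hAB hAO hBO
    rw [map_mul, hG]
    by_cases h0 : rCert a b c φ A B = 0
    · rw [h0, mul_zero]
    · obtain ⟨hirr', hqA, hqB, hqAB⟩ := rCert_ne_zero a b c φ A B h0
      rw [Hvan A B hdA hdB hA hB hAB (rReg_of_rQ a A hA hqA) (rReg_of_rQ b B hB hqB)
        (rReg_of_rQ c (A * B) hAB hqAB) hirr' hAO hBO, zero_mul]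
  -- vanishing of the product at `(A, B)`
  have key : MvPolynomial.eval (pairPt A B) (F * G) = 0 := by
    rcases rFlags A B hrA hrB hirr with
      ⟨P, P', hPP', hP'P, h10, h20, h21, h01, h02, h12⟩ | ⟨l, m, hA3, hB3, h | h⟩
    · exact rCore_chart a b c ha1 hb1 hc1 O haO hbO hcO U hU hUO (F * G) HglH HvanH A B hdA hdB
        hA hB hAB P P' hPP' hP'P h10 h20 h21 h01 h02 h12
    · obtain ⟨P, P', s, k, t, hPP', hP'P, hs, hA', hB'⟩ := rStratum A B l m hirr hrA hrB hA3 hB3 h
      exact rCore_curve a b c ha1 hb1 hc1 O haO hbO hcO U hU hUO (F * G) HglH HvanH A B hdA hdB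
        hA hB hAB P P' hPP' hP'P l m s k t hs hA' hB'
    · obtain ⟨P, P', s, k, t, hPP', hP'P, hs, hB', hA'⟩ :=
        rStratum B A m l (rFlagAux_irr_symm hirr) hrB hrA hB3 hA3 h
      have hBA : (B * A).charpoly = rChi c := by rw [Matrix.charpoly_mul_comm, hAB]
      have HglH' : ∀ A B P Q : Matrix (Fin 3) (Fin 3) ℂ, A.det = 1 → B.det = 1 → P * Q = 1 →
          Q * P = 1 → MvPolynomial.eval (pairPt (Q * A * P) (Q * B * P))
            (MvPolynomial.rename rSwapIdx (F * G))
            = MvPolynomial.eval (pairPt A B) (MvPolynomial.rename rSwapIdx (F * G)) := by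
        intro A B P Q hdA hdB hPQ hQP
        rw [rSwap_eval, rSwap_eval]
        exact HglH B A P Q hdB hdA hPQ hQP
      have HvanH' : ∀ A B : Matrix (Fin 3) (Fin 3) ℂ, A.det = 1 → B.det = 1 →
          A.charpoly = rChi b → B.charpoly = rChi a → (A * B).charpoly = rChi c →
          (∀ i j, A i j ∈ O) → (∀ i j, B i j ∈ O) →
          MvPolynomial.eval (pairPt A B) (MvPolynomial.rename rSwapIdx (F * G)) = 0 := by
        intro A B hdA hdB hA hB hAB hAO hBO
        rw [rSwap_eval]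
        exact HvanH B A hdB hdA hB hA (by rw [Matrix.charpoly_mul_comm, hAB]) hBO hAO
      have h0 := rCore_curve b a c hb1 ha1 hc1 O hbO haO hcO U hU hUO
        (MvPolynomial.rename rSwapIdx (F * G)) HglH' HvanH' B A hdB hdA hB hA hBA P P' hPP' hP'P
        m l s k t hs hB' hA'
      rw [rSwap_eval] at h0
      exact h0
  rw [map_mul, hG] at key
  rcases mul_eq_zero.mp key with h | h
  · exact h
  · exact absurd h hφ

end Vale.Agent.Lib.P002

end
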