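import Vale.Agent.Lib.P002.RegMain
import Vale.Agent.Lib.P002.RegRed

/-!
# Density of integral points: rank three, thrice punctured sphere, regular boundary classes
-/

noncomputable section

namespace Vale.Agent.Lib.P002

open Polynomial Matrix

/-- An irreducible pair is semisimple. -/
theorem rSS_of_rIrr {A B : Matrix (Fin 3) (Fin 3) ℂ} (h : rIrr A B) : rSS A B := by
  intro W hA hB
  rcases h W hA hB with rfl | rfl
  · refine ⟨⊤, fun v _ => Submodule.mem_top, fun v _ => Submodule.mem_top, isCompl_bot_top⟩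
  · refine ⟨⊥, ?_, ?_, isCompl_top_bot⟩
    · intro v hv
      rw [Submodule.mem_bot] at hv
      rw [hv, Matrix.mulVec_zero]
      exact Submodule.zero_mem _
    · intro v hv
      rw [Submodule.mem_bot] at hv
      rw [hv, Matrix.mulVec_zero]
      exact Submodule.zero_mem _

/-- The determinant of a conjugate. -/
theorem rDet_conj (P P' M : Matrix (Fin 3) (Fin 3) ℂ) (h' : P' * P = 1) :
    (P * M * P').det = M.det := by
  rw [Matrix.det_mul, Matrix.det_mul, mul_comm, ← mul_assoc, ← Matrix.det_mul, h',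
    Matrix.det_one, one_mul]

/-- A number field containing a given finite set of algebraic integers and infinitely many
units. -/
theorem rField (S : Set ℂ) (hSfin : S.Finite) (hSint : ∀ x ∈ S, IsIntegral ℤ x) :
    ∃ L : IntermediateField ℚ ℂ, FiniteDimensional ℚ L ∧ (∀ x ∈ S, x ∈ L) ∧
      ∀ u ∈ (Subgroup.zpowers unitW : Set ℂˣ),
        (IsIntegral ℤ (u : ℂ) ∧ (u : ℂ) ∈ L) ∧
          (IsIntegral ℤ ((u⁻¹ : ℂˣ) : ℂ) ∧ ((u⁻¹ : ℂˣ) : ℂ) ∈ L) := by
  classical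
  let T : Set ℂ := S ∪ {sqrtTwo}
  let L : IntermediateField ℚ ℂ := IntermediateField.adjoin ℚ T
  have hTint : ∀ x ∈ T, IsIntegral ℤ x := by
    rintro x (hx | hx)
    · exact hSint x hx
    · rw [Set.mem_singleton_iff] at hx
      rw [hx]
      exact isIntegral_sqrtTwo
  have hTfin : T.Finite := hSfin.union (Set.finite_singleton _)
  have hfin : FiniteDimensional ℚ L := by
    have : Finite T := hTfin.to_subtype
    exact IntermediateField.finiteDimensional_adjoin (fun x hx => (hTint x hx).tower_top)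
  have hTL : ∀ x ∈ T, x ∈ L := fun x hx => IntermediateField.subset_adjoin ℚ T hx
  have hsqrt : sqrtTwo ∈ L := hTL _ (Or.inr rfl)
  have key : ∀ u ∈ (Subgroup.zpowers unitW : Set ℂˣ), IsIntegral ℤ (u : ℂ) ∧ (u : ℂ) ∈ L := by
    intro u hu
    refine ⟨isIntegral_of_mem_zpowers hu, ?_⟩
    obtain ⟨k, rfl⟩ := hu
    rw [Units.val_zpow_eq_zpow_val, unitW_val]
    exact zpow_mem (add_mem (one_mem _) hsqrt) k
  exact ⟨L, hfin, fun x hx => hTL x (Or.inl hx), fun u hu => ⟨key u hu, key _ (inv_mem hu)⟩⟩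

/-- **Density of integral points for rank three local systems on the thrice punctured sphere
with regular boundary classes.** -/
theorem density_reg (a b c : Fin 3 → ℂ)
    (ha : ∀ i, IsIntegral ℤ (a i)) (hb : ∀ i, IsIntegral ℤ (b i)) (hc : ∀ i, IsIntegral ℤ (c i))
    (ha1 : a 0 * a 1 * a 2 = 1) (hb1 : b 0 * b 1 * b 2 = 1) (hc1 : c 0 * c 1 * c 2 = 1) :
    ∃ L : IntermediateField ℚ ℂ, FiniteDimensional ℚ L ∧
      ∀ F : MvPolynomial (Fin 2 × Fin 3 × Fin 3) ℂ,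
        (∀ A B h : Matrix.SpecialLinearGroup (Fin 3) ℂ,
          MvPolynomial.eval (fun x => (![(h * A * h⁻¹).1, (h * B * h⁻¹).1] x.1) x.2.1 x.2.2) F
            = MvPolynomial.eval (fun x => (![A.1, B.1] x.1) x.2.1 x.2.2) F) →
        (∀ A B : Matrix.SpecialLinearGroup (Fin 3) ℂ,
          A.1.charpoly = (X - C (a 0)) * (X - C (a 1)) * (X - C (a 2)) →
          minpoly ℂ A.1 = A.1.charpoly →
          B.1.charpoly = (X - C (b 0)) * (X - C (b 1)) * (X - C (b 2)) →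
          minpoly ℂ B.1 = B.1.charpoly →
          (A.1 * B.1).charpoly = (X - C (c 0)) * (X - C (c 1)) * (X - C (c 2)) →
          minpoly ℂ (A.1 * B.1) = (A.1 * B.1).charpoly →
          (∀ W : Submodule ℂ (Fin 3 → ℂ), (∀ v ∈ W, A.1.mulVec v ∈ W) →
            (∀ v ∈ W, B.1.mulVec v ∈ W) →
            ∃ W' : Submodule ℂ (Fin 3 → ℂ), (∀ v ∈ W', A.1.mulVec v ∈ W') ∧
              (∀ v ∈ W', B.1.mulVec v ∈ W') ∧ IsCompl W W') →
          (∀ i j, A.1 i j ∈ L ∧ IsIntegral ℤ (A.1 i j)) →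
          (∀ i j, B.1 i j ∈ L ∧ IsIntegral ℤ (B.1 i j)) →
          MvPolynomial.eval (fun x => (![A.1, B.1] x.1) x.2.1 x.2.2) F = 0) →
        ∀ A B : Matrix.SpecialLinearGroup (Fin 3) ℂ,
          A.1.charpoly = (X - C (a 0)) * (X - C (a 1)) * (X - C (a 2)) →
          minpoly ℂ A.1 = A.1.charpoly →
          B.1.charpoly = (X - C (b 0)) * (X - C (b 1)) * (X - C (b 2)) →
          minpoly ℂ B.1 = B.1.charpoly →
          (A.1 * B.1).charpoly = (X - C (c 0)) * (X - C (c 1)) * (X - C (c 2)) →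
          minpoly ℂ (A.1 * B.1) = (A.1 * B.1).charpoly →
          (∀ W : Submodule ℂ (Fin 3 → ℂ), (∀ v ∈ W, A.1.mulVec v ∈ W) →
            (∀ v ∈ W, B.1.mulVec v ∈ W) →
            ∃ W' : Submodule ℂ (Fin 3 → ℂ), (∀ v ∈ W', A.1.mulVec v ∈ W') ∧
              (∀ v ∈ W', B.1.mulVec v ∈ W') ∧ IsCompl W W') →
          MvPolynomial.eval (fun x => (![A.1, B.1] x.1) x.2.1 x.2.2) F = 0 := by
  classical
  obtain ⟨L, hfin, hSL, hUL⟩ := rField (Set.range a ∪ Set.range b ∪ Set.range c)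
    (((Set.finite_range a).union (Set.finite_range b)).union (Set.finite_range c)) (by
      rintro x ((⟨i, rfl⟩ | ⟨i, rfl⟩) | ⟨i, rfl⟩)
      · exact ha i
      · exact hb i
      · exact hc i)
  refine ⟨L, hfin, ?_⟩
  intro F Hinv Hvan A B hA hrA hB hrB hAB hrAB hss
  -- the ring of integers of `L` as a subring of `ℂ`
  let O : Subring ℂ := (integralClosure ℤ ℂ).toSubring ⊓ L.toSubfield.toSubring
  have hO : ∀ x : ℂ, x ∈ O ↔ IsIntegral ℤ x ∧ x ∈ L := fun x => Iff.rfl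
  have haO : ∀ i, a i ∈ O := fun i =>
    (hO _).mpr ⟨ha i, hSL _ (Or.inl (Or.inl ⟨i, rfl⟩))⟩
  have hbO : ∀ i, b i ∈ O := fun i =>
    (hO _).mpr ⟨hb i, hSL _ (Or.inl (Or.inr ⟨i, rfl⟩))⟩
  have hcO : ∀ i, c i ∈ O := fun i =>
    (hO _).mpr ⟨hc i, hSL _ (Or.inr ⟨i, rfl⟩)⟩
  have hUO : ∀ u ∈ (Subgroup.zpowers unitW : Set ℂˣ),
      (u : ℂ) ∈ O ∧ ((u⁻¹ : ℂˣ) : ℂ) ∈ O :=
    fun u hu => ⟨(hO _).mpr (hUL u hu).1, (hO _).mpr (hUL u hu).2⟩
  -- invariance under all invertible matrices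
  have Hgl : ∀ A B P Q : Matrix (Fin 3) (Fin 3) ℂ, A.det = 1 → B.det = 1 → P * Q = 1 →
      Q * P = 1 → MvPolynomial.eval (pairPt (Q * A * P) (Q * B * P)) F
        = MvPolynomial.eval (pairPt A B) F :=
    fun A B P Q hdA hdB hPQ hQP =>
      e6_conj_eq (fun _ _ => True) F (fun A B h _ => Hinv A B h) ⟨A, hdA⟩ ⟨B, hdB⟩ trivial
        P Q hPQ hQP
  -- the vanishing hypothesis for matrices
  have HvanM : ∀ A B : Matrix (Fin 3) (Fin 3) ℂ, A.det = 1 → B.det = 1 → A.charpoly = rChi a →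
      B.charpoly = rChi b → (A * B).charpoly = rChi c → minpoly ℂ A = A.charpoly →
      minpoly ℂ B = B.charpoly → minpoly ℂ (A * B) = (A * B).charpoly → rSS A B →
      (∀ i j, A i j ∈ O) → (∀ i j, B i j ∈ O) → MvPolynomial.eval (pairPt A B) F = 0 :=
    fun A B hdA hdB hA hB hAB hrA hrB hrAB hss hAO hBO =>
      Hvan ⟨A, hdA⟩ ⟨B, hdB⟩ hA hrA hB hrB hAB hrAB hss
        (fun i j => ⟨((hO _).mp (hAO i j)).2, ((hO _).mp (hAO i j)).1⟩)
        (fun i j => ⟨((hO _).mp (hBO i j)).2, ((hO _).mp (hBO i j)).1⟩)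
  by_cases hirr : rIrr A.1 B.1
  · exact rCore_main a b c ha1 hb1 hc1 O haO hbO hcO _ infinite_zpowers_unitW hUO F Hgl
      (fun A B hdA hdB hA hB hAB hrA hrB hrAB hirr hAO hBO =>
        HvanM A B hdA hdB hA hB hAB hrA hrB hrAB (rSS_of_rIrr hirr) hAO hBO)
      A.1 B.1 A.2 B.2 hA hB hAB hrA hrB hrAB hirr
  · obtain ⟨P, P', hPP', hP'P, hAO, hBO⟩ :=
      rRed_integral a b c O haO hbO hcO A.1 B.1 hA hB hAB hss hirr
    have hmul := rCore_mul_conj P P' A.1 B.1 hP'P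
    have h0 := HvanM (P * A.1 * P') (P * B.1 * P')
      (by rw [rDet_conj P P' _ hP'P]; exact A.2) (by rw [rDet_conj P P' _ hP'P]; exact B.2)
      (by rw [e6_charpoly_conj P P' _ hP'P]; exact hA)
      (by rw [e6_charpoly_conj P P' _ hP'P]; exact hB)
      (by rw [hmul, e6_charpoly_conj P P' _ hP'P]; exact hAB)
      (by rw [rMinpoly_conj _ P P' hPP' hP'P, e6_charpoly_conj P P' _ hP'P]; exact hrA)
      (by rw [rMinpoly_conj _ P P' hPP' hP'P, e6_charpoly_conj P P' _ hP'P]; exact hrB)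
      (by rw [hmul, rMinpoly_conj _ P P' hPP' hP'P, e6_charpoly_conj P P' _ hP'P]; exact hrAB)
      (rSS_conj A.1 B.1 P P' hPP' hP'P hss) hAO hBO
    exact (Hgl A.1 B.1 P' P A.2 B.2 hP'P hPP').symm.trans h0

end Vale.Agent.Lib.P002

end
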