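import Vale.Agent.Lib.P002.MultiZcl

/-!
# Density of integral points for the groups
`⟨a_0, …, a_k, c_1, …, c_m | a_i ^ p_i = a_0 ^ p_0, [c_j, a_0 ^ p_0] = 1⟩`
-/

open Polynomial

noncomputable section

namespace Vale.Agent.Lib.P002

open Matrix

variable {k m r : ℕ}

/-- The retraction of the invertible matrices onto the matrices of determinant one which
rescales the first column. -/
def kap (H : Matrix (Fin (r + 1)) (Fin (r + 1)) ℂ) : Matrix (Fin (r + 1)) (Fin (r + 1)) ℂ :=
  H * Matrix.diagonal (fun a => if a = 0 then (H⁻¹).det else 1)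

theorem kap_det (H : Matrix (Fin (r + 1)) (Fin (r + 1)) ℂ) (hH : IsUnit H.det) :
    (kap H).det = 1 := by
  unfold kap
  rw [Matrix.det_mul, Matrix.det_diagonal, Finset.prod_ite_eq']
  simp only [Finset.mem_univ, if_true]
  rw [← Matrix.det_mul, Matrix.mul_nonsing_inv _ hH, Matrix.det_one]

theorem kap_eq_self (H : Matrix (Fin (r + 1)) (Fin (r + 1)) ℂ) (hH : H.det = 1) :
    kap H = H := by
  unfold kap
  have h1 : (H⁻¹).det = 1 := by
    have h2 : H.det * (H⁻¹).det = 1 := by
      rw [← Matrix.det_mul, Matrix.mul_nonsing_inv _ (by rw [hH]; exact isUnit_one),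
        Matrix.det_one]
    rw [hH, one_mul] at h2
    exact h2
  rw [h1]
  have h3 : (fun a : Fin (r + 1) => if a = 0 then (1 : ℂ) else 1) = fun _ => 1 := by
    funext a
    split_ifs <;> rfl
  rw [h3, Matrix.diagonal_one, Matrix.mul_one]

theorem kap_commute (H : Matrix (Fin (r + 1)) (Fin (r + 1)) ℂ) (δ : Fin (r + 1) → ℂ)
    (hH : H * Matrix.diagonal δ = Matrix.diagonal δ * H) :
    kap H * Matrix.diagonal δ = Matrix.diagonal δ * kap H := by
  unfold kap
  rw [Matrix.mul_assoc, Matrix.diagonal_mul_diagonal, ← Matrix.mul_assoc, ← hH,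
    Matrix.mul_assoc, Matrix.diagonal_mul_diagonal]
  congr 2
  funext a
  exact mul_comm _ _

theorem kap_integral {N : ℕ} {δ : Fin (r + 1) → ℂ} {H : Matrix (Fin (r + 1)) (Fin (r + 1)) ℂ}
    (hH : H ∈ intSet N δ) (i j : Fin (r + 1)) :
    kap H i j ∈ fieldLN N ∧ IsIntegral ℤ (kap H i j) := by
  unfold kap
  refine mul_entries_integral hH.2.2.1 ?_ i j
  intro a b
  rw [Matrix.diagonal_apply]
  split_ifs
  · exact det_entries_integral hH.2.2.2
  · exact ⟨one_mem _, isIntegral_one⟩
  · exact ⟨zero_mem _, isIntegral_zero⟩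

theorem isReg_kap_entry (i j : Fin (r + 1)) :
    IsReg (fun y : Matrix (Fin (r + 1)) (Fin (r + 1)) ℂ => kap y i j) := by
  have h : ∀ y : Matrix (Fin (r + 1)) (Fin (r + 1)) ℂ,
      kap y i j = y i j * (if j = 0 then (y⁻¹).det else 1) := by
    intro y
    unfold kap
    rw [Matrix.mul_diagonal]
  simp only [h]
  by_cases hj : j = 0
  · simp only [hj, if_true]
    exact (isReg_entry i 0).mul isReg_det_inv
  · simp only [hj, if_false]
    exact (isReg_entry i j).mul (isReg_const 1)

/-- The coordinates of a tuple of matrices. -/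
def seifPt {r : ℕ} (A : Fin (k + 1) → Matrix (Fin r) (Fin r) ℂ)
    (C : Fin m → Matrix (Fin r) (Fin r) ℂ) : (Fin (k + 1) ⊕ Fin m) × Fin r × Fin r → ℂ :=
  fun x => (Sum.elim A C x.1) x.2.1 x.2.2

/-- Tuples `(g_i diag(d_i) g_i⁻¹, kap h_j)`: the polynomial vanishes at all of them as soon as it
vanishes at the integral tuples. -/
theorem seif_diag_vanish (p : Fin (k + 1) → ℕ) {N : ℕ} (hN : 0 < N)
    (hdens : ∀ (R : Fin (r + 1) → Fin (r + 1) → Bool)
      (tstar : Fin (k + 1) × Fin (r + 1) → ℂˣ), SEq p R tstar →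
      ∀ Φ : (Fin (k + 1) × Fin (r + 1) → ℂˣ) → ℂ, IsLaurentMv Φ →
        (∀ t, SEq p R t → (∀ x, t x ∈ unitGroup N) → Φ t = 0) → Φ tstar = 0)
    (F : MvPolynomial ((Fin (k + 1) ⊕ Fin m) × Fin (r + 1) × Fin (r + 1)) ℂ)
    (Hint : ∀ (A : Fin (k + 1) → Matrix.SpecialLinearGroup (Fin (r + 1)) ℂ)
      (C : Fin m → Matrix.SpecialLinearGroup (Fin (r + 1)) ℂ),
      (∀ i, A i ^ p i = A 0 ^ p 0) → (∀ j, C j * A 0 ^ p 0 = A 0 ^ p 0 * C j) →
      (∀ i a b, (A i).1 a b ∈ fieldLN N ∧ IsIntegral ℤ ((A i).1 a b)) →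
      (∀ j a b, (C j).1 a b ∈ fieldLN N ∧ IsIntegral ℤ ((C j).1 a b)) →
      MvPolynomial.eval (seifPt (fun i => (A i).1) (fun j => (C j).1)) F = 0)
    (δ : Fin (r + 1) → ℂ) (tstar : Fin (k + 1) × Fin (r + 1) → ℂˣ)
    (hstar : SEq p (fun a b => decide (δ a = δ b)) tstar)
    (g : Fin (k + 1) ⊕ Fin m → Matrix (Fin (r + 1)) (Fin (r + 1)) ℂ)
    (hg : ∀ x, g x ∈ zcl (intSet N δ)) :
    MvPolynomial.eval (seifPt
      (fun i => g (Sum.inl i) * (Matrix.diagonal fun a => ((tstar (i, a) : ℂˣ) : ℂ))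
        * (g (Sum.inl i))⁻¹)
      (fun j => kap (g (Sum.inr j)))) F = 0 := by
  classical
  refine multi_zcl (intSet N δ) intSet_det (fun g => MvPolynomial.eval (seifPt
      (fun i => g (Sum.inl i) * (Matrix.diagonal fun a => ((tstar (i, a) : ℂˣ) : ℂ))
        * (g (Sum.inl i))⁻¹)
      (fun j => kap (g (Sum.inr j)))) F) ?_ ?_ g hg
  · -- regularity in each variable
    intro g a _
    apply IsReg.eval_mvPolynomial
    rintro ⟨x, i, j⟩
    rcases x with i0 | j0
    · show IsReg (fun y => (Function.update g a y (Sum.inl i0)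
        * (Matrix.diagonal fun a => ((tstar (i0, a) : ℂˣ) : ℂ))
        * (Function.update g a y (Sum.inl i0))⁻¹) i j)
      by_cases h : Sum.inl i0 = a
      · subst h
        simp only [Function.update_self, conj_diag_apply]
        exact IsReg.sum _ _ fun l _ =>
          ((isReg_entry i l).mul (isReg_const _)).mul (isReg_inv_entry l j)
      · simp only [Function.update_of_ne h]
        exact isReg_const _
    · show IsReg (fun y => kap (Function.update g a y (Sum.inr j0)) i j)
      by_cases h : Sum.inr j0 = a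
      · subst h
        simp only [Function.update_self]
        exact isReg_kap_entry i j
      · simp only [Function.update_of_ne h]
        exact isReg_const _
  · -- vanishing at the integral conjugators
    intro g hgS
    refine hdens _ tstar hstar (fun t => MvPolynomial.eval (seifPt
      (fun i => g (Sum.inl i) * (Matrix.diagonal fun a => ((t (i, a) : ℂˣ) : ℂ))
        * (g (Sum.inl i))⁻¹)
      (fun j => kap (g (Sum.inr j)))) F) ?_ ?_
    · apply IsLaurentMv.eval_mvPolynomial
      rintro ⟨x, i, j⟩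
      rcases x with i0 | j0
      · show IsLaurentMv (fun t : Fin (k + 1) × Fin (r + 1) → ℂˣ =>
          (g (Sum.inl i0) * (Matrix.diagonal fun a => ((t (i0, a) : ℂˣ) : ℂ))
            * (g (Sum.inl i0))⁻¹) i j)
        simp only [conj_diag_apply]
        exact IsLaurentMv.sum _ _ fun l _ =>
          ((isLaurentMv_const _).mul (isLaurentMv_coord (i0, l))).mul (isLaurentMv_const _)
      · exact isLaurentMv_const _
    · intro t ht htu
      obtain ⟨ht1, ht2, ht3⟩ := ht
      have hε : ∀ a b, δ a = δ b →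
          ((t (0, a) : ℂˣ) : ℂ) ^ p 0 = ((t (0, b) : ℂˣ) : ℂ) ^ p 0 := by
        intro a b hab
        rw [← Units.val_pow_eq_pow_val, ht2 a b (decide_eq_true hab), Units.val_pow_eq_pow_val]
      have hCC : ∀ x, g x * (g x)⁻¹ = 1 := fun x => Matrix.mul_nonsing_inv _ (hgS x).1
      have hCC' : ∀ x, (g x)⁻¹ * g x = 1 := fun x => Matrix.nonsing_inv_mul _ (hgS x).1
      have hpow : ∀ i, (g (Sum.inl i) * (Matrix.diagonal fun a => ((t (i, a) : ℂˣ) : ℂ))
          * (g (Sum.inl i))⁻¹) ^ p i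
          = Matrix.diagonal fun a => ((t (0, a) : ℂˣ) : ℂ) ^ p 0 := by
        intro i
        rw [mat_conj_pow _ _ _ (hCC _) (hCC' _), Matrix.diagonal_pow]
        have h5 : ((fun a => ((t (i, a) : ℂˣ) : ℂ)) ^ p i : Fin (r + 1) → ℂ)
            = fun a => ((t (0, a) : ℂˣ) : ℂ) ^ p 0 := by
          funext a
          rw [Pi.pow_apply, ← Units.val_pow_eq_pow_val, ht1 i a, Units.val_pow_eq_pow_val]
        rw [h5, commute_of_const_on_classes (g (Sum.inl i)) δ _ (hgS _).2.1 hε,
          Matrix.mul_assoc, hCC, Matrix.mul_one]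
      have hdetA : ∀ i, (g (Sum.inl i) * (Matrix.diagonal fun a => ((t (i, a) : ℂˣ) : ℂ))
          * (g (Sum.inl i))⁻¹).det = 1 := by
        intro i
        have hd1 : ∏ a, ((t (i, a) : ℂˣ) : ℂ) = 1 := by
          rw [← Units.coe_prod, ht3 i, Units.val_one]
        rw [Matrix.det_mul, Matrix.det_mul, Matrix.det_diagonal, hd1, mul_one,
          ← Matrix.det_mul, hCC, Matrix.det_one]
      have hdetC : ∀ j, (kap (g (Sum.inr j))).det = 1 := fun j => kap_det _ (hgS _).1
      refine Hint (fun i => mkSL _ (hdetA i)) (fun j => mkSL _ (hdetC j)) ?_ ?_ ?_ ?_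
      · intro i
        apply Subtype.ext
        rw [Matrix.SpecialLinearGroup.coe_pow, Matrix.SpecialLinearGroup.coe_pow]
        exact (hpow i).trans (hpow 0).symm
      · intro j
        apply Subtype.ext
        rw [Matrix.SpecialLinearGroup.coe_mul, Matrix.SpecialLinearGroup.coe_mul,
          Matrix.SpecialLinearGroup.coe_pow]
        show kap (g (Sum.inr j)) * (g (Sum.inl 0)
            * (Matrix.diagonal fun a => ((t (0, a) : ℂˣ) : ℂ)) * (g (Sum.inl 0))⁻¹) ^ p 0
          = (g (Sum.inl 0) * (Matrix.diagonal fun a => ((t (0, a) : ℂˣ) : ℂ))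
            * (g (Sum.inl 0))⁻¹) ^ p 0 * kap (g (Sum.inr j))
        rw [hpow 0]
        exact commute_of_const_on_classes _ δ _ (kap_commute _ δ (hgS _).2.1) hε
      · intro i
        exact mul_entries_integral (mul_entries_integral (hgS _).2.2.1
          (diagonal_mem_intSet hN δ (fun a => t (i, a)) (fun a => htu _)).2.2.1)
          (hgS _).2.2.2
      · intro j
        exact kap_integral (hgS _)


/-- Block matrices with invertible blocks lie in the closure of the integral matrices commuting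
with `diagonal δ`. -/
theorem block_mem_zcl {r : ℕ} {N : ℕ} (hN : 0 < N) (δ : Fin r → ℂ)
    (c : ∀ y : ↥(Finset.univ.image δ), Matrix {i // lab δ i = y} {i // lab δ i = y} ℂ)
    (hc : ∀ y, (c y).det ≠ 0) : asm (lab δ) c ∈ zcl (intSet N δ) := by
  classical
  apply asm_mem (lab δ) (zcl (intSet N δ))
  · apply subset_zcl intSet_det
    have h1 := diagonal_mem_intSet hN δ (fun _ => 1) (fun _ => one_mem _)
    simpa using h1
  · intro x hx y hy
    exact zcl_mul intSet_det intSet_mul hx hy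
  · intro d
    exact diagonal_mem_zcl (intSet N δ) (Subgroup.zpowers unitW) infinite_zpowers_unitW
      (fun d hd => diagonal_mem_intSet hN δ d
        (fun i => zpowers_unitW_le_unitGroup N (hd i))) d
  · intro i j hij hb t
    have hδij : δ i = δ j := congrArg Subtype.val hb
    exact transvection_mem_zcl (intSet N δ) i j hij
      (fun k => transvection_mem_intSet N δ i j hij hδij k) t
  · exact hc

/-- Invertible matrices commuting with `diagonal δ` lie in the closure of the integral matrices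
commuting with `diagonal δ`. -/
theorem commuting_mem_zcl {r : ℕ} {N : ℕ} (hN : 0 < N) (δ : Fin r → ℂ)
    (X X' : Matrix (Fin r) (Fin r) ℂ) (hXX' : X * X' = 1)
    (hX : X * Matrix.diagonal δ = Matrix.diagonal δ * X) : X ∈ zcl (intSet N δ) := by
  classical
  have hX'X : X' * X = 1 := mul_eq_one_comm.mp hXX'
  have hX' : X' * Matrix.diagonal δ = Matrix.diagonal δ * X' := by
    calc X' * Matrix.diagonal δ = X' * Matrix.diagonal δ * (X * X') := by
          rw [hXX', Matrix.mul_one]
      _ = X' * (Matrix.diagonal δ * X) * X' := by simp only [Matrix.mul_assoc]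
      _ = X' * (X * Matrix.diagonal δ) * X' := by rw [hX]
      _ = (X' * X) * Matrix.diagonal δ * X' := by simp only [Matrix.mul_assoc]
      _ = Matrix.diagonal δ * X' := by rw [hX'X, Matrix.one_mul]
  have hoff : ∀ (Y : Matrix (Fin r) (Fin r) ℂ),
      Y * Matrix.diagonal δ = Matrix.diagonal δ * Y →
      ∀ i j, lab δ i ≠ lab δ j → Y i j = 0 := by
    intro Y hY i j hij
    have h1 := (commute_diagonal_iff Y δ).mp hY i j
    have hne : δ i ≠ δ j := fun h => hij (Subtype.ext h)
    have h2 : Y i j * (δ j - δ i) = 0 := by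
      rw [mul_sub, h1]
      ring
    rcases mul_eq_zero.mp h2 with h | h
    · exact h
    · exact absurd (sub_eq_zero.mp h).symm hne
  have e1 : asm (lab δ) (blk (lab δ) X) = X := asm_blk _ X (hoff X hX)
  have e2 : asm (lab δ) (blk (lab δ) X') = X' := asm_blk _ X' (hoff X' hX')
  have h3 : blk (lab δ) X * blk (lab δ) X' = 1 := by
    apply asm_injective (lab δ)
    rw [asm_mul, e1, e2, hXX', asm_one]
  rw [← e1]
  apply block_mem_zcl hN
  intro y
  have h4 : (blk (lab δ) X y).det * (blk (lab δ) X' y).det = 1 := by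
    rw [← Matrix.det_mul, ← Pi.mul_apply, h3, Pi.one_apply, Matrix.det_one]
  exact left_ne_zero_of_mul_eq_one h4

/-- The case where `A 0 ^ p 0` is a diagonal matrix. -/
theorem seif_core (p : Fin (k + 1) → ℕ) (hp : ∀ i, 0 < p i) {N : ℕ} (hN : 0 < N)
    (hdens : ∀ (R : Fin (r + 1) → Fin (r + 1) → Bool)
      (tstar : Fin (k + 1) × Fin (r + 1) → ℂˣ), SEq p R tstar →
      ∀ Φ : (Fin (k + 1) × Fin (r + 1) → ℂˣ) → ℂ, IsLaurentMv Φ →
        (∀ t, SEq p R t → (∀ x, t x ∈ unitGroup N) → Φ t = 0) → Φ tstar = 0)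
    (F : MvPolynomial ((Fin (k + 1) ⊕ Fin m) × Fin (r + 1) × Fin (r + 1)) ℂ)
    (Hint : ∀ (A : Fin (k + 1) → Matrix.SpecialLinearGroup (Fin (r + 1)) ℂ)
      (C : Fin m → Matrix.SpecialLinearGroup (Fin (r + 1)) ℂ),
      (∀ i, A i ^ p i = A 0 ^ p 0) → (∀ j, C j * A 0 ^ p 0 = A 0 ^ p 0 * C j) →
      (∀ i a b, (A i).1 a b ∈ fieldLN N ∧ IsIntegral ℤ ((A i).1 a b)) →
      (∀ j a b, (C j).1 a b ∈ fieldLN N ∧ IsIntegral ℤ ((C j).1 a b)) →
      MvPolynomial.eval (seifPt (fun i => (A i).1) (fun j => (C j).1)) F = 0)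
    (A : Fin (k + 1) → Matrix.SpecialLinearGroup (Fin (r + 1)) ℂ)
    (C : Fin m → Matrix.SpecialLinearGroup (Fin (r + 1)) ℂ)
    (h1 : ∀ i, A i ^ p i = A 0 ^ p 0) (h2 : ∀ j, C j * A 0 ^ p 0 = A 0 ^ p 0 * C j)
    (δ : Fin (r + 1) → ℂ) (hδ : (A 0 ^ p 0).1 = Matrix.diagonal δ) :
    MvPolynomial.eval (seifPt (fun i => (A i).1) (fun j => (C j).1)) F = 0 := by
  classical
  have hAp : ∀ i, (A i).1 ^ p i = Matrix.diagonal δ := by
    intro i
    rw [← Matrix.SpecialLinearGroup.coe_pow, h1 i]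
    exact hδ
  have hδ0 : ∀ a, δ a ≠ 0 := by
    have hdet : (Matrix.diagonal δ).det = 1 := by
      rw [← hδ]
      exact (A 0 ^ p 0).2
    rw [Matrix.det_diagonal] at hdet
    intro a h0
    rw [Finset.prod_eq_zero (Finset.mem_univ a) h0] at hdet
    exact zero_ne_one hdet
  choose cP cQ D hPQ hQP hA hD using fun i =>
    block_diagonalize δ hδ0 (A i).1 (p i) (hp i) (hAp i)
  have hPQa : ∀ i, asm (lab δ) (cP i) * asm (lab δ) (cQ i) = 1 := fun i => by
    rw [← asm_mul, hPQ i, asm_one]
  have hinv : ∀ i, (asm (lab δ) (cP i))⁻¹ = asm (lab δ) (cQ i) :=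
    fun i => Matrix.inv_eq_right_inv (hPQa i)
  have hD0 : ∀ i a, D i a ≠ 0 := fun i a h0 =>
    hδ0 a (by rw [← hD i a, h0, zero_pow (hp i).ne'])
  have hdetD : ∀ i, ∏ a, D i a = 1 := by
    intro i
    have h3 : (asm (lab δ) (cP i) * Matrix.diagonal (D i) * asm (lab δ) (cQ i)).det = 1 := by
      rw [← hA i]
      exact (A i).2
    rw [Matrix.det_mul, Matrix.det_mul, Matrix.det_diagonal, mul_right_comm,
      ← Matrix.det_mul, hPQa i, Matrix.det_one, one_mul] at h3
    exact h3
  have hstar : SEq p (fun a b => decide (δ a = δ b))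
      (fun x : Fin (k + 1) × Fin (r + 1) => Units.mk0 (D x.1 x.2) (hD0 x.1 x.2)) := by
    refine ⟨fun i a => ?_, fun a b hab => ?_, fun i => ?_⟩
    · apply Units.ext
      simp only [Units.val_pow_eq_pow_val, Units.val_mk0]
      rw [hD, hD]
    · apply Units.ext
      have h3 : δ a = δ b := of_decide_eq_true hab
      simp only [Units.val_pow_eq_pow_val, Units.val_mk0]
      rw [hD, hD, h3]
    · apply Units.ext
      simp only [Units.coe_prod, Units.val_mk0, Units.val_one]
      exact hdetD i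
  have hg : ∀ x : Fin (k + 1) ⊕ Fin m,
      (Sum.elim (fun i => asm (lab δ) (cP i)) (fun j => (C j).1) x) ∈ zcl (intSet N δ) := by
    rintro (i | j)
    · apply block_mem_zcl hN
      intro y
      have h3 : (cP i y).det * (cQ i y).det = 1 := by
        rw [← Matrix.det_mul, ← Pi.mul_apply, hPQ i, Pi.one_apply, Matrix.det_one]
      exact left_ne_zero_of_mul_eq_one h3
    · have h3 : (C j).1 * (C j)⁻¹.1 = 1 := by
        rw [← Matrix.SpecialLinearGroup.coe_mul, mul_inv_cancel,
          Matrix.SpecialLinearGroup.coe_one]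
      have h4 : (C j).1 * Matrix.diagonal δ = Matrix.diagonal δ * (C j).1 := by
        rw [← hδ, ← Matrix.SpecialLinearGroup.coe_mul, ← Matrix.SpecialLinearGroup.coe_mul,
          h2 j]
      exact commuting_mem_zcl hN δ _ _ h3 h4
  have hfin := seif_diag_vanish p hN hdens F Hint δ _ hstar _ hg
  have eA : (fun i => asm (lab δ) (cP i) * (Matrix.diagonal fun a => D i a)
      * (asm (lab δ) (cP i))⁻¹) = fun i => (A i).1 := by
    funext i
    rw [hinv i, ← hA i]
  have eC : (fun j => kap (C j).1) = fun j => (C j).1 := by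
    funext j
    exact kap_eq_self _ (C j).2
  have hfin' : MvPolynomial.eval (seifPt
      (fun i => asm (lab δ) (cP i) * (Matrix.diagonal fun a => D i a)
        * (asm (lab δ) (cP i))⁻¹) (fun j => kap (C j).1)) F = 0 := hfin
  rw [eA, eC] at hfin'
  exact hfin'

end Vale.Agent.Lib.P002

end
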