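import Vale.Agent.Lib.P002.Seif

/-!
# Density of integral points for the groups
`⟨a_0, …, a_k, c_1, …, c_m | a_i ^ p_i = a_0 ^ p_0, [c_j, a_0 ^ p_0] = 1⟩`: all representations
-/

open Polynomial

noncomputable section

namespace Vale.Agent.Lib.P002

open Matrix

variable {k m r : ℕ}

/-- Invariance under simultaneous conjugation by `SL(ℂ)` implies invariance under simultaneous
conjugation by any invertible matrix. -/
theorem seif_conj_eq (p : Fin (k + 1) → ℕ)
    (F : MvPolynomial ((Fin (k + 1) ⊕ Fin m) × Fin (r + 1) × Fin (r + 1)) ℂ)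
    (Hinv : ∀ (A : Fin (k + 1) → Matrix.SpecialLinearGroup (Fin (r + 1)) ℂ)
      (C : Fin m → Matrix.SpecialLinearGroup (Fin (r + 1)) ℂ)
      (h : Matrix.SpecialLinearGroup (Fin (r + 1)) ℂ),
      (∀ i, A i ^ p i = A 0 ^ p 0) → (∀ j, C j * A 0 ^ p 0 = A 0 ^ p 0 * C j) →
      MvPolynomial.eval (seifPt (fun i => (h * A i * h⁻¹).1) (fun j => (h * C j * h⁻¹).1)) F
        = MvPolynomial.eval (seifPt (fun i => (A i).1) (fun j => (C j).1)) F)
    (A : Fin (k + 1) → Matrix.SpecialLinearGroup (Fin (r + 1)) ℂ)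
    (C : Fin m → Matrix.SpecialLinearGroup (Fin (r + 1)) ℂ)
    (h1 : ∀ i, A i ^ p i = A 0 ^ p 0) (h2 : ∀ j, C j * A 0 ^ p 0 = A 0 ^ p 0 * C j)
    (P Q : Matrix (Fin (r + 1)) (Fin (r + 1)) ℂ) (hPQ : P * Q = 1) (hQP : Q * P = 1) :
    MvPolynomial.eval (seifPt (fun i => Q * (A i).1 * P) (fun j => Q * (C j).1 * P)) F
      = MvPolynomial.eval (seifPt (fun i => (A i).1) (fun j => (C j).1)) F := by
  have hdet : Q.det * P.det = 1 := by rw [← Matrix.det_mul, hQP, Matrix.det_one]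
  have hdetQ : Q.det ≠ 0 := left_ne_zero_of_mul_eq_one hdet
  obtain ⟨c, hc⟩ := IsAlgClosed.exists_pow_nat_eq Q.det (Nat.succ_pos r)
  have hc0 : c ≠ 0 := by
    rintro rfl
    rw [zero_pow (Nat.succ_ne_zero r)] at hc
    exact hdetQ hc.symm
  let h : Matrix.SpecialLinearGroup (Fin (r + 1)) ℂ := ⟨c⁻¹ • Q, by
    rw [Matrix.det_smul, Fintype.card_fin, _root_.inv_pow, hc, inv_mul_cancel₀ hdetQ]⟩
  let h' : Matrix.SpecialLinearGroup (Fin (r + 1)) ℂ := ⟨c • P, by
    rw [Matrix.det_smul, Fintype.card_fin, hc, hdet]⟩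
  have hh' : h * h' = 1 := by
    apply Subtype.ext
    show (c⁻¹ • Q) * (c • P) = 1
    rw [smul_mul_smul_comm, hQP, inv_mul_cancel₀ hc0, one_smul]
  have hinv : h⁻¹ = h' := inv_eq_of_mul_eq_one_right hh'
  have hval : ∀ g : Matrix.SpecialLinearGroup (Fin (r + 1)) ℂ,
      (h * g * h').1 = Q * g.1 * P := by
    intro g
    have e1 : (h * g * h').1 = h.1 * g.1 * h'.1 := by
      rw [Matrix.SpecialLinearGroup.coe_mul, Matrix.SpecialLinearGroup.coe_mul]
    have e2 : h.1 = c⁻¹ • Q := rfl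
    have e3 : h'.1 = c • P := rfl
    rw [e1, e2, e3, Matrix.smul_mul, Matrix.smul_mul, Matrix.mul_smul, smul_smul,
      inv_mul_cancel₀ hc0, one_smul]
  have key := Hinv A C h h1 h2
  rw [hinv] at key
  simp only [hval] at key
  exact key

/-- The block diagonal part of a matrix of determinant one has determinant one. -/
theorem det_gr {κ : Type*} [Fintype κ] [DecidableEq κ] {E E' X : Matrix κ κ ℂ}
    (hsum : E + E' = 1) (hEE : E * E = E) (hX : E' * X * E = 0) (hdet : X.det = 1) :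
    (gr E E' X).det = 1 := by
  have hpoly := isPolyFun_det (fun s => fam E E' X s) (fun i j => isPolyFun_fam E E' X i j)
  have h1 : (fam E E' X 0).det = 1 :=
    hpoly.eq_of_eq_on_ne_zero 1 (fun s hs => by
      show (fam E E' X s).det = 1
      rw [← fam_eq_conj hsum hEE hX s s⁻¹ (inv_mul_cancel₀ hs), Matrix.det_mul,
        Matrix.det_mul, hdet, mul_one, ← Matrix.det_mul,
        conj_mul_conj hsum hEE s⁻¹ s (inv_mul_cancel₀ hs), Matrix.det_one])
  rw [fam_zero] at h1
  exact h1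

/-- The kernel of a matrix `Nm` is invariant under every matrix commuting with `Nm`. -/
theorem proj_invariant {κ : Type*} [Fintype κ] [DecidableEq κ] {E Nm X : Matrix κ κ ℂ}
    (hNE : Nm * E = 0) (hEY : ∀ Y : Matrix κ κ ℂ, Nm * Y = 0 → E * Y = Y)
    (hX : Commute X Nm) : (1 - E) * X * E = 0 := by
  have h1 : Nm * (X * E) = 0 := by
    rw [← Matrix.mul_assoc, ← hX.eq, Matrix.mul_assoc, hNE, Matrix.mul_zero]
  have h2 := hEY _ h1
  rw [Matrix.sub_mul, Matrix.sub_mul, Matrix.one_mul, Matrix.mul_assoc E, h2, sub_self]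

/-- All representations: induction on the degree of a polynomial annihilating the image of the
central element. -/
theorem seif_all (p : Fin (k + 1) → ℕ) (hp : ∀ i, 0 < p i) {N : ℕ} (hN : 0 < N)
    (hdens : ∀ (R : Fin (r + 1) → Fin (r + 1) → Bool)
      (tstar : Fin (k + 1) × Fin (r + 1) → ℂˣ), SEq p R tstar →
      ∀ Φ : (Fin (k + 1) × Fin (r + 1) → ℂˣ) → ℂ, IsLaurentMv Φ →
        (∀ t, SEq p R t → (∀ x, t x ∈ unitGroup N) → Φ t = 0) → Φ tstar = 0)
    (F : MvPolynomial ((Fin (k + 1) ⊕ Fin m) × Fin (r + 1) × Fin (r + 1)) ℂ)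
    (Hinv : ∀ (A : Fin (k + 1) → Matrix.SpecialLinearGroup (Fin (r + 1)) ℂ)
      (C : Fin m → Matrix.SpecialLinearGroup (Fin (r + 1)) ℂ)
      (h : Matrix.SpecialLinearGroup (Fin (r + 1)) ℂ),
      (∀ i, A i ^ p i = A 0 ^ p 0) → (∀ j, C j * A 0 ^ p 0 = A 0 ^ p 0 * C j) →
      MvPolynomial.eval (seifPt (fun i => (h * A i * h⁻¹).1) (fun j => (h * C j * h⁻¹).1)) F
        = MvPolynomial.eval (seifPt (fun i => (A i).1) (fun j => (C j).1)) F)
    (Hint : ∀ (A : Fin (k + 1) → Matrix.SpecialLinearGroup (Fin (r + 1)) ℂ)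
      (C : Fin m → Matrix.SpecialLinearGroup (Fin (r + 1)) ℂ),
      (∀ i, A i ^ p i = A 0 ^ p 0) → (∀ j, C j * A 0 ^ p 0 = A 0 ^ p 0 * C j) →
      (∀ i a b, (A i).1 a b ∈ fieldLN N ∧ IsIntegral ℤ ((A i).1 a b)) →
      (∀ j a b, (C j).1 a b ∈ fieldLN N ∧ IsIntegral ℤ ((C j).1 a b)) →
      MvPolynomial.eval (seifPt (fun i => (A i).1) (fun j => (C j).1)) F = 0) :
    ∀ (d : ℕ) (P : ℂ[X]), P ≠ 0 → P.natDegree ≤ d →
      ∀ (A : Fin (k + 1) → Matrix.SpecialLinearGroup (Fin (r + 1)) ℂ)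
        (C : Fin m → Matrix.SpecialLinearGroup (Fin (r + 1)) ℂ),
        (∀ i, A i ^ p i = A 0 ^ p 0) → (∀ j, C j * A 0 ^ p 0 = A 0 ^ p 0 * C j) →
        aeval (A 0 ^ p 0).1 P = 0 →
        MvPolynomial.eval (seifPt (fun i => (A i).1) (fun j => (C j).1)) F = 0 := by
  -- matrix forms of the relations
  have rel1 : ∀ (A : Fin (k + 1) → Matrix.SpecialLinearGroup (Fin (r + 1)) ℂ),
      (∀ i, A i ^ p i = A 0 ^ p 0) → ∀ i, (A i).1 ^ p i = (A 0 ^ p 0).1 := by
    intro A h1 i
    rw [← Matrix.SpecialLinearGroup.coe_pow, h1 i]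
  have rel2 : ∀ (A : Fin (k + 1) → Matrix.SpecialLinearGroup (Fin (r + 1)) ℂ)
      (C : Fin m → Matrix.SpecialLinearGroup (Fin (r + 1)) ℂ),
      (∀ j, C j * A 0 ^ p 0 = A 0 ^ p 0 * C j) →
      ∀ j, (C j).1 * (A 0 ^ p 0).1 = (A 0 ^ p 0).1 * (C j).1 := by
    intro A C h2 j
    rw [← Matrix.SpecialLinearGroup.coe_mul, ← Matrix.SpecialLinearGroup.coe_mul, h2 j]
  have sqfree_case : ∀ P : ℂ[X], Squarefree P →
      ∀ (A : Fin (k + 1) → Matrix.SpecialLinearGroup (Fin (r + 1)) ℂ)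
        (C : Fin m → Matrix.SpecialLinearGroup (Fin (r + 1)) ℂ),
        (∀ i, A i ^ p i = A 0 ^ p 0) → (∀ j, C j * A 0 ^ p 0 = A 0 ^ p 0 * C j) →
        aeval (A 0 ^ p 0).1 P = 0 →
        MvPolynomial.eval (seifPt (fun i => (A i).1) (fun j => (C j).1)) F = 0 := by
    intro P hP A C h1 h2 hann
    obtain ⟨c, c', δ, hcc', hc'c, hZ⟩ :=
      exists_diagonalization_of_squarefree (A 0 ^ p 0).1 P hP hann
    have hdet : c'.det * c.det = 1 := by rw [← Matrix.det_mul, hc'c, Matrix.det_one]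
    have hdetA : ∀ i, (c' * (A i).1 * c).det = 1 := fun i => by
      rw [Matrix.det_mul, Matrix.det_mul, (A i).2, mul_one, hdet]
    have hdetC : ∀ j, (c' * (C j).1 * c).det = 1 := fun j => by
      rw [Matrix.det_mul, Matrix.det_mul, (C j).2, mul_one, hdet]
    have hcz : c' * (A 0 ^ p 0).1 * c = Matrix.diagonal δ := by
      rw [hZ]
      calc c' * (c * Matrix.diagonal δ * c') * c
          = (c' * c) * Matrix.diagonal δ * (c' * c) := by simp only [Matrix.mul_assoc]
        _ = Matrix.diagonal δ := by rw [hc'c, Matrix.one_mul, Matrix.mul_one]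
    have hpow : ∀ i, (c' * (A i).1 * c) ^ p i = Matrix.diagonal δ := by
      intro i
      rw [mat_conj_pow _ _ _ hc'c hcc', rel1 A h1 i, hcz]
    have h1' : ∀ i, (mkSL (c' * (A i).1 * c) (hdetA i)) ^ p i
        = (mkSL (c' * (A 0).1 * c) (hdetA 0)) ^ p 0 := by
      intro i
      apply Subtype.ext
      rw [Matrix.SpecialLinearGroup.coe_pow, Matrix.SpecialLinearGroup.coe_pow]
      exact (hpow i).trans (hpow 0).symm
    have hδ : ((mkSL (c' * (A 0).1 * c) (hdetA 0)) ^ p 0).1 = Matrix.diagonal δ := by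
      rw [Matrix.SpecialLinearGroup.coe_pow]
      exact hpow 0
    have h2' : ∀ j, mkSL (c' * (C j).1 * c) (hdetC j)
          * (mkSL (c' * (A 0).1 * c) (hdetA 0)) ^ p 0
        = (mkSL (c' * (A 0).1 * c) (hdetA 0)) ^ p 0 * mkSL (c' * (C j).1 * c) (hdetC j) := by
      intro j
      apply Subtype.ext
      rw [Matrix.SpecialLinearGroup.coe_mul, Matrix.SpecialLinearGroup.coe_mul, hδ]
      show c' * (C j).1 * c * Matrix.diagonal δ = Matrix.diagonal δ * (c' * (C j).1 * c)
      rw [← hcz]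
      calc c' * (C j).1 * c * (c' * (A 0 ^ p 0).1 * c)
          = c' * ((C j).1 * (c * c') * (A 0 ^ p 0).1) * c := by simp only [Matrix.mul_assoc]
        _ = c' * ((A 0 ^ p 0).1 * (c * c') * (C j).1) * c := by
            rw [hcc', Matrix.mul_one, Matrix.mul_one, rel2 A C h2 j]
        _ = c' * (A 0 ^ p 0).1 * c * (c' * (C j).1 * c) := by simp only [Matrix.mul_assoc]
    have h3 := seif_core p hp hN hdens F Hint _ _ h1' h2' δ hδ
    have h4 := seif_conj_eq p F Hinv A C h1 h2 c c' hcc' hc'c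
    exact h4.symm.trans h3
  intro d
  induction d with
  | zero =>
    intro P hP0 hdeg A C h1 h2 hann
    apply sqfree_case P _ A C h1 h2 hann
    have h3 : P.natDegree = 0 := Nat.le_zero.mp hdeg
    have h4 : IsUnit P := by
      rw [Polynomial.eq_C_of_natDegree_eq_zero h3] at hP0 ⊢
      exact Polynomial.isUnit_C.mpr (isUnit_iff_ne_zero.mpr (fun h => hP0 (by rw [h, Polynomial.C_0])))
    exact h4.squarefree
  | succ d ih =>
    intro P hP0 hdeg A C h1 h2 hann
    by_cases hsq : Squarefree P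
    · exact sqfree_case P hsq A C h1 h2 hann
    obtain ⟨lam, P₂, hPeq⟩ := exists_double_root P hP0 hsq
    have hP₂0 : P₂ ≠ 0 := by
      rintro rfl
      apply hP0
      rw [hPeq]
      simp
    have hXl : (X - Polynomial.C lam : ℂ[X]) ≠ 0 := Polynomial.X_sub_C_ne_zero lam
    have hQ0 : (X - Polynomial.C lam) * P₂ ≠ 0 := mul_ne_zero hXl hP₂0
    have hQdeg : ((X - Polynomial.C lam) * P₂).natDegree ≤ d := by
      have h3 : P.natDegree = 1 + ((X - Polynomial.C lam) * P₂).natDegree := by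
        rw [hPeq, Polynomial.natDegree_mul hXl hQ0, Polynomial.natDegree_X_sub_C]
      omega
    obtain ⟨E, hNE, hEY⟩ := exists_proj (aeval (A 0 ^ p 0).1 ((X - Polynomial.C lam) * P₂))
    have hEE : E * E = E := hEY E hNE
    have hsum : E + (1 - E) = 1 := by abel
    have hcommA : ∀ i, Commute (A i).1 (A 0 ^ p 0).1 := by
      intro i
      rw [← rel1 A h1 i]
      exact (Commute.refl (A i).1).pow_right (p i)
    have hcommC : ∀ j, Commute (C j).1 (A 0 ^ p 0).1 := fun j => rel2 A C h2 j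
    have hXA : ∀ i, (1 - E) * (A i).1 * E = 0 := fun i =>
      proj_invariant hNE hEY (commute_aeval _ _ (hcommA i) _)
    have hXC : ∀ j, (1 - E) * (C j).1 * E = 0 := fun j =>
      proj_invariant hNE hEY (commute_aeval _ _ (hcommC j) _)
    have hXZ : (1 - E) * (A 0 ^ p 0).1 * E = 0 := by
      rw [← rel1 A h1 0]
      exact inv_pow hsum hEE (hXA 0) (p 0)
    have hE'N : (1 - E) * aeval (A 0 ^ p 0).1 ((X - Polynomial.C lam) * P₂) = 0 := by
      have h3 : aeval (A 0 ^ p 0).1 ((X - Polynomial.C lam) * P₂) * aeval (A 0 ^ p 0).1 (X - Polynomial.C lam)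
          = 0 := by
        rw [← map_mul, show (X - Polynomial.C lam) * P₂ * (X - Polynomial.C lam) = P from by rw [hPeq]; ring]
        exact hann
      have h4 := hEY _ h3
      have h5 : aeval (A 0 ^ p 0).1 ((X - Polynomial.C lam) * P₂)
          = aeval (A 0 ^ p 0).1 (X - Polynomial.C lam) * aeval (A 0 ^ p 0).1 P₂ := by
        rw [map_mul]
      rw [h5, ← Matrix.mul_assoc, Matrix.sub_mul, Matrix.one_mul, h4, sub_self,
        Matrix.zero_mul]
    have hdetA : ∀ i, (gr E (1 - E) (A i).1).det = 1 := fun i =>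
      det_gr hsum hEE (hXA i) (A i).2
    have hdetC : ∀ j, (gr E (1 - E) (C j).1).det = 1 := fun j =>
      det_gr hsum hEE (hXC j) (C j).2
    have hpowA : ∀ i, gr E (1 - E) (A i).1 ^ p i = gr E (1 - E) (A 0 ^ p 0).1 := by
      intro i
      rw [← gr_pow hsum hEE (hXA i), rel1 A h1 i]
    have h1₀ : ∀ i, (mkSL (gr E (1 - E) (A i).1) (hdetA i)) ^ p i
        = (mkSL (gr E (1 - E) (A 0).1) (hdetA 0)) ^ p 0 := by
      intro i
      apply Subtype.ext
      rw [Matrix.SpecialLinearGroup.coe_pow, Matrix.SpecialLinearGroup.coe_pow]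
      exact (hpowA i).trans (hpowA 0).symm
    have hZ₀ : ((mkSL (gr E (1 - E) (A 0).1) (hdetA 0)) ^ p 0).1
        = gr E (1 - E) (A 0 ^ p 0).1 := by
      rw [Matrix.SpecialLinearGroup.coe_pow]
      exact hpowA 0
    have h2₀ : ∀ j, mkSL (gr E (1 - E) (C j).1) (hdetC j)
          * (mkSL (gr E (1 - E) (A 0).1) (hdetA 0)) ^ p 0
        = (mkSL (gr E (1 - E) (A 0).1) (hdetA 0)) ^ p 0
          * mkSL (gr E (1 - E) (C j).1) (hdetC j) := by
      intro j
      apply Subtype.ext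
      rw [Matrix.SpecialLinearGroup.coe_mul, Matrix.SpecialLinearGroup.coe_mul, hZ₀]
      show gr E (1 - E) (C j).1 * gr E (1 - E) (A 0 ^ p 0).1
        = gr E (1 - E) (A 0 ^ p 0).1 * gr E (1 - E) (C j).1
      rw [← gr_mul hsum hEE (hXC j) hXZ, ← gr_mul hsum hEE hXZ (hXC j), (hcommC j).eq]
    have hann₀ : aeval ((mkSL (gr E (1 - E) (A 0).1) (hdetA 0)) ^ p 0).1
        ((X - Polynomial.C lam) * P₂) = 0 := by
      rw [hZ₀, gr_aeval hsum hEE hXZ]
      unfold gr
      rw [Matrix.mul_assoc E, hNE, Matrix.mul_zero, hE'N, Matrix.zero_mul, add_zero]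
    have h0 := ih _ hQ0 hQdeg _ _ h1₀ h2₀ hann₀
    have hpoly : IsPolyFun (fun s => MvPolynomial.eval
        (seifPt (fun i => fam E (1 - E) (A i).1 s) (fun j => fam E (1 - E) (C j).1 s)) F) := by
      apply IsPolyFun.eval_mvPolynomial
      rintro ⟨x, a, b⟩
      rcases x with i | j
      · exact isPolyFun_fam E (1 - E) (A i).1 a b
      · exact isPolyFun_fam E (1 - E) (C j).1 a b
    have hconst : ∀ s : ℂ, s ≠ 0 → MvPolynomial.eval
        (seifPt (fun i => fam E (1 - E) (A i).1 s) (fun j => fam E (1 - E) (C j).1 s)) F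
          = MvPolynomial.eval (seifPt (fun i => (A i).1) (fun j => (C j).1)) F := by
      intro s hs
      have eA : (fun i => fam E (1 - E) (A i).1 s)
          = fun i => (E + s⁻¹ • (1 - E)) * (A i).1 * (E + s • (1 - E)) :=
        funext fun i => (fam_eq_conj hsum hEE (hXA i) s s⁻¹ (inv_mul_cancel₀ hs)).symm
      have eC : (fun j => fam E (1 - E) (C j).1 s)
          = fun j => (E + s⁻¹ • (1 - E)) * (C j).1 * (E + s • (1 - E)) :=
        funext fun j => (fam_eq_conj hsum hEE (hXC j) s s⁻¹ (inv_mul_cancel₀ hs)).symm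
      rw [eA, eC]
      exact seif_conj_eq p F Hinv A C h1 h2 (E + s • (1 - E)) (E + s⁻¹ • (1 - E))
        (conj_mul_conj hsum hEE s s⁻¹ (mul_inv_cancel₀ hs))
        (conj_mul_conj hsum hEE s⁻¹ s (inv_mul_cancel₀ hs))
    have h5 : MvPolynomial.eval
        (seifPt (fun i => fam E (1 - E) (A i).1 0) (fun j => fam E (1 - E) (C j).1 0)) F
          = MvPolynomial.eval (seifPt (fun i => (A i).1) (fun j => (C j).1)) F :=
      hpoly.eq_of_eq_on_ne_zero _ hconst
    simp only [fam_zero] at h5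
    rw [← h5]
    exact h0


/-- **Density of the integral points** for the groups
`⟨a_0, …, a_k, c_1, …, c_m | a_i ^ p_i = a_0 ^ p_0, [c_j, a_0 ^ p_0] = 1⟩`: a polynomial which is
invariant under conjugation and vanishes at the integral representations vanishes at all
representations. -/
theorem density_seifert (k m r : ℕ) (p : Fin (k + 1) → ℕ) (hp : ∀ i, 0 < p i) :
    ∃ L : IntermediateField ℚ ℂ, FiniteDimensional ℚ L ∧
      ∀ F : MvPolynomial ((Fin (k + 1) ⊕ Fin m) × Fin r × Fin r) ℂ,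
        (∀ (A : Fin (k + 1) → Matrix.SpecialLinearGroup (Fin r) ℂ)
            (C : Fin m → Matrix.SpecialLinearGroup (Fin r) ℂ)
            (h : Matrix.SpecialLinearGroup (Fin r) ℂ),
            (∀ i, A i ^ p i = A 0 ^ p 0) → (∀ j, C j * A 0 ^ p 0 = A 0 ^ p 0 * C j) →
            MvPolynomial.eval
                (fun x => (Sum.elim (fun i => (h * A i * h⁻¹).1) (fun j => (h * C j * h⁻¹).1)
                  x.1) x.2.1 x.2.2) F
              = MvPolynomial.eval
                (fun x => (Sum.elim (fun i => (A i).1) (fun j => (C j).1) x.1) x.2.1 x.2.2) F) →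
        (∀ (A : Fin (k + 1) → Matrix.SpecialLinearGroup (Fin r) ℂ)
            (C : Fin m → Matrix.SpecialLinearGroup (Fin r) ℂ),
            (∀ i, A i ^ p i = A 0 ^ p 0) → (∀ j, C j * A 0 ^ p 0 = A 0 ^ p 0 * C j) →
            (∀ i a b, (A i).1 a b ∈ L ∧ IsIntegral ℤ ((A i).1 a b)) →
            (∀ j a b, (C j).1 a b ∈ L ∧ IsIntegral ℤ ((C j).1 a b)) →
            MvPolynomial.eval
              (fun x => (Sum.elim (fun i => (A i).1) (fun j => (C j).1) x.1) x.2.1 x.2.2) F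
              = 0) →
        ∀ (A : Fin (k + 1) → Matrix.SpecialLinearGroup (Fin r) ℂ)
          (C : Fin m → Matrix.SpecialLinearGroup (Fin r) ℂ),
          (∀ i, A i ^ p i = A 0 ^ p 0) → (∀ j, C j * A 0 ^ p 0 = A 0 ^ p 0 * C j) →
          MvPolynomial.eval
            (fun x => (Sum.elim (fun i => (A i).1) (fun j => (C j).1) x.1) x.2.1 x.2.2) F
            = 0 := by
  obtain ⟨N, hN, hdens⟩ := torus_density_S k r p
  refine ⟨fieldLN N, finiteDimensional_fieldLN hN, ?_⟩
  intro F Hinv Hint A C h1 h2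
  rcases r with _ | r
  · exact Hint A C h1 h2 (fun i a => a.elim0) (fun j a => a.elim0)
  · exact seif_all p hp hN hdens F Hinv Hint _ ((A 0 ^ p 0).1.charpoly)
      (Matrix.charpoly_monic _).ne_zero le_rfl A C h1 h2 (Matrix.aeval_self_charpoly _)

end Vale.Agent.Lib.P002

end
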