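import Vale.Agent.Lib.P002.TorusKnotAll

/-!
# The torus of tuples of diagonal matrices `d_0, …, d_k` with `d_i ^ p_i = d_0 ^ p_0`
-/

noncomputable section

namespace Vale.Agent.Lib.P002

variable {k r : ℕ} (p : Fin (k + 1) → ℕ)

/-- The equations of the torus: `d_i ^ p_i = d_0 ^ p_0` entrywise, `d_0 ^ p_0` constant on the
classes of `R`, and all products equal to one. -/
def SEq (R : Fin r → Fin r → Bool) (t : Fin (k + 1) × Fin r → ℂˣ) : Prop :=
  (∀ i a, t (i, a) ^ p i = t (0, a) ^ p 0) ∧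
  (∀ a b, R a b = true → t (0, a) ^ p 0 = t (0, b) ^ p 0) ∧
  ∀ i, ∏ a, t (i, a) = 1

def sgen1 (x : Fin (k + 1) × Fin r) : Fin (k + 1) × Fin r → ℤ :=
  (p x.1 : ℤ) • Pi.single x 1 + (-(p 0 : ℤ)) • Pi.single ((0 : Fin (k + 1)), x.2) 1

def sgen2 (a b : Fin r) : Fin (k + 1) × Fin r → ℤ :=
  (p 0 : ℤ) • Pi.single ((0 : Fin (k + 1)), a) 1
    + (-(p 0 : ℤ)) • Pi.single ((0 : Fin (k + 1)), b) 1

def sgen3 (i : Fin (k + 1)) : Fin (k + 1) × Fin r → ℤ := ∑ a : Fin r, Pi.single (i, a) 1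

/-- The lattice of exponent vectors of the equations. -/
def slam (R : Fin r → Fin r → Bool) : Submodule ℤ (Fin (k + 1) × Fin r → ℤ) :=
  Submodule.span ℤ (Set.range (sgen1 (r := r) p) ∪
    {v | ∃ a b, R a b = true ∧ v = sgen2 p a b} ∪ Set.range (sgen3 (k := k) (r := r)))

theorem mono_sgen1 (t : Fin (k + 1) × Fin r → ℂˣ) (x : Fin (k + 1) × Fin r) :
    mono t (sgen1 p x) = t x ^ p x.1 * (t (0, x.2) ^ p 0)⁻¹ := by
  unfold sgen1
  rw [mono_add, mono_smul, mono_smul, mono_single, mono_single, zpow_neg, zpow_natCast,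
    zpow_natCast]

theorem mono_sgen2 (t : Fin (k + 1) × Fin r → ℂˣ) (a b : Fin r) :
    mono t (sgen2 p a b) = t (0, a) ^ p 0 * (t (0, b) ^ p 0)⁻¹ := by
  unfold sgen2
  rw [mono_add, mono_smul, mono_smul, mono_single, mono_single, zpow_neg, zpow_natCast,
    zpow_natCast]

theorem mono_sgen3 (t : Fin (k + 1) × Fin r → ℂˣ) (i : Fin (k + 1)) :
    mono t (sgen3 (r := r) i) = ∏ a, t (i, a) := by
  unfold sgen3
  rw [mono_sum]
  exact Finset.prod_congr rfl fun a _ => mono_single t _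

theorem seq_iff (R : Fin r → Fin r → Bool) (t : Fin (k + 1) × Fin r → ℂˣ) :
    (∀ v ∈ slam p R, mono t v = 1) ↔ SEq p R t := by
  constructor
  · intro h
    refine ⟨fun i a => ?_, fun a b hab => ?_, fun i => ?_⟩
    · have h1 := h (sgen1 p (i, a)) (Submodule.subset_span (Or.inl (Or.inl ⟨(i, a), rfl⟩)))
      rw [mono_sgen1] at h1
      exact mul_inv_eq_one.mp h1
    · have h1 := h (sgen2 p a b) (Submodule.subset_span (Or.inl (Or.inr ⟨a, b, hab, rfl⟩)))
      rw [mono_sgen2] at h1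
      exact mul_inv_eq_one.mp h1
    · have h1 := h (sgen3 i) (Submodule.subset_span (Or.inr ⟨i, rfl⟩))
      rwa [mono_sgen3] at h1
  · rintro ⟨h1, h2, h3⟩ v hv
    induction hv using Submodule.span_induction with
    | mem x hx =>
      rcases hx with (⟨⟨i, a⟩, rfl⟩ | ⟨a, b, hab, rfl⟩) | ⟨i, rfl⟩
      · rw [mono_sgen1]
        exact mul_inv_eq_one.mpr (h1 i a)
      · rw [mono_sgen2]
        exact mul_inv_eq_one.mpr (h2 a b hab)
      · rw [mono_sgen3, h3]
    | zero => exact mono_zero t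
    | add x y _ _ hx hy => rw [mono_add, hx, hy, one_mul]
    | smul a x _ hx => rw [mono_smul, hx, one_zpow]

/-- Uniform density of the points with coordinates in a finitely generated group of units of a
number field, in the tori cut out by the equations `SEq`. -/
theorem torus_density_S (k r : ℕ) (p : Fin (k + 1) → ℕ) :
    ∃ N : ℕ, 0 < N ∧ ∀ (R : Fin r → Fin r → Bool) (tstar : Fin (k + 1) × Fin r → ℂˣ),
      SEq p R tstar → ∀ Φ : (Fin (k + 1) × Fin r → ℂˣ) → ℂ, IsLaurentMv Φ →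
        (∀ t, SEq p R t → (∀ x, t x ∈ unitGroup N) → Φ t = 0) → Φ tstar = 0 := by
  classical
  choose NR hNR0 hNR using fun R : Fin r → Fin r → Bool =>
    torus_density (slam p R) 1 one_pos
  have hpos : 0 < ∏ R, NR R := Finset.prod_pos fun R _ => hNR0 R
  refine ⟨∏ R, NR R, hpos, ?_⟩
  intro R tstar hstar Φ hΦ h0
  apply hNR R tstar (fun v hv => by
    rw [pow_one]
    exact (seq_iff p R tstar).mpr hstar v hv) Φ hΦ
  intro t ht htu
  apply h0 t
  · apply (seq_iff p R t).mp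
    intro v hv
    rw [ht v hv]
    exact (seq_iff p R tstar).mpr hstar v hv
  · intro x
    exact unitGroup_mono (Finset.dvd_prod_of_mem _ (Finset.mem_univ R)) hpos (htu x)

end Vale.Agent.Lib.P002

end
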