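import Vale.Agent.Lib.P002.Laurent
import Vale.Agent.Lib.P002.Units

/-!
# Density of unit points in cosets of subgroups of a torus

Points of the torus `(ℂˣ)^ι` are functions `t : ι → ℂˣ`; an exponent vector `k : ι → ℤ` gives the
monomial `mono t k = ∏ i, t i ^ k i`.  For a sublattice `Λ` of `ι → ℤ`, the points `t` with
prescribed monomials `mono t k`, `k ∈ Λ`, form a coset of a subgroup of the torus.  If the
prescribed values are roots of unity of bounded order, then the points of this coset whose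
coordinates lie in the group generated by a root of unity and the unit `1 + √2` are dense, in
the sense that every Laurent polynomial function vanishing at them vanishes on the coset.
-/

open Polynomial

noncomputable section

namespace Vale.Agent.Lib.P002

variable {ι : Type*}

/-- The Laurent monomial `∏ i, t i ^ k i`. -/
def mono [Fintype ι] (t : ι → ℂˣ) (k : ι → ℤ) : ℂˣ := ∏ i, t i ^ k i

theorem mono_add [Fintype ι] (t : ι → ℂˣ) (k k' : ι → ℤ) : mono t (k + k') = mono t k * mono t k' := by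
  simp only [mono, Pi.add_apply, zpow_add, Finset.prod_mul_distrib]

theorem mono_zero [Fintype ι] (t : ι → ℂˣ) : mono t 0 = 1 := by
  simp [mono]

theorem mono_smul [Fintype ι] (t : ι → ℂˣ) (c : ℤ) (k : ι → ℤ) : mono t (c • k) = mono t k ^ c := by
  simp only [mono, Pi.smul_apply, smul_eq_mul]
  rw [← Finset.prod_zpow]
  refine Finset.prod_congr rfl fun i _ => ?_
  rw [mul_comm, zpow_mul]

theorem mono_sum [Fintype ι] {κ : Type*} (t : ι → ℂˣ) (s : Finset κ) (f : κ → ι → ℤ) :
    mono t (∑ j ∈ s, f j) = ∏ j ∈ s, mono t (f j) := by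
  classical
  induction s using Finset.induction_on with
  | empty => simp [mono_zero]
  | insert a s ha ih => rw [Finset.sum_insert ha, Finset.prod_insert ha, mono_add, ih]

theorem mono_single [Fintype ι] [DecidableEq ι] (t : ι → ℂˣ) (l : ι) : mono t (Pi.single l 1) = t l := by
  unfold mono
  rw [Finset.prod_eq_single l]
  · simp
  · intro b _ hb
    simp [Pi.single_eq_of_ne hb]
  · intro h
    exact absurd (Finset.mem_univ l) h

/-- A function on the torus given by a polynomial in the coordinates and their inverses. -/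
def IsLaurentMv (Φ : (ι → ℂˣ) → ℂ) : Prop :=
  ∃ P : MvPolynomial (ι ⊕ ι) ℂ, ∀ t : ι → ℂˣ,
    Φ t = MvPolynomial.eval
      (Sum.elim (fun i => ((t i : ℂˣ) : ℂ)) (fun i => (((t i)⁻¹ : ℂˣ) : ℂ))) P

theorem isLaurentMv_const (c : ℂ) : IsLaurentMv (fun _ : ι → ℂˣ => c) :=
  ⟨MvPolynomial.C c, fun t => by simp⟩

theorem isLaurentMv_coord (i : ι) : IsLaurentMv (fun t : ι → ℂˣ => ((t i : ℂˣ) : ℂ)) :=
  ⟨MvPolynomial.X (Sum.inl i), fun t => by simp⟩

theorem isLaurentMv_coord_inv (i : ι) :
    IsLaurentMv (fun t : ι → ℂˣ => (((t i)⁻¹ : ℂˣ) : ℂ)) :=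
  ⟨MvPolynomial.X (Sum.inr i), fun t => by simp⟩

theorem IsLaurentMv.add {Φ Ψ : (ι → ℂˣ) → ℂ} (h1 : IsLaurentMv Φ) (h2 : IsLaurentMv Ψ) :
    IsLaurentMv (fun t => Φ t + Ψ t) := by
  obtain ⟨P, hP⟩ := h1
  obtain ⟨Q, hQ⟩ := h2
  exact ⟨P + Q, fun t => by simp only [hP, hQ, map_add]⟩

theorem IsLaurentMv.mul {Φ Ψ : (ι → ℂˣ) → ℂ} (h1 : IsLaurentMv Φ) (h2 : IsLaurentMv Ψ) :
    IsLaurentMv (fun t => Φ t * Ψ t) := by
  obtain ⟨P, hP⟩ := h1
  obtain ⟨Q, hQ⟩ := h2
  exact ⟨P * Q, fun t => by simp only [hP, hQ, map_mul]⟩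

theorem IsLaurentMv.sum {κ : Type*} (s : Finset κ) (Φ : κ → (ι → ℂˣ) → ℂ)
    (h : ∀ j ∈ s, IsLaurentMv (Φ j)) : IsLaurentMv (fun t => ∑ j ∈ s, Φ j t) := by
  classical
  induction s using Finset.induction_on with
  | empty => simpa using isLaurentMv_const (ι := ι) 0
  | insert a s ha ih =>
    have h1 := (h a (Finset.mem_insert_self a s)).add
      (ih fun j hj => h j (Finset.mem_insert_of_mem hj))
    refine (iff_of_eq ?_).mp h1
    congr 1
    funext t
    rw [Finset.sum_insert ha]

/-- Evaluating a multivariate polynomial at Laurent coordinate functions gives a Laurent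
function. -/
theorem IsLaurentMv.eval_mvPolynomial {σ : Type*} (x : (ι → ℂˣ) → σ → ℂ)
    (hx : ∀ v, IsLaurentMv (fun t => x t v)) (F : MvPolynomial σ ℂ) :
    IsLaurentMv (fun t => MvPolynomial.eval (x t) F) := by
  induction F using MvPolynomial.induction_on with
  | C a => simpa using isLaurentMv_const (ι := ι) a
  | add p q hp hq => simpa using hp.add hq
  | mul_X p v hp => simpa using hp.mul (hx v)

theorem isLaurent_zpow (c : ℂˣ) (e : ℤ) :
    IsLaurent (fun z : ℂˣ => ((c * z ^ e : ℂˣ) : ℂ)) := by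
  obtain ⟨n, rfl | rfl⟩ := Int.eq_nat_or_neg e
  · refine ⟨0, C (c : ℂ) * X ^ n, fun z => ?_⟩
    simp
  · refine ⟨n, C (c : ℂ), fun z => ?_⟩
    have h : ((c * z ^ (-(n : ℤ)) : ℂˣ) : ℂ) = (c : ℂ) * ((z : ℂ) ^ n)⁻¹ := by
      simp [zpow_neg]
    have hz : ((z : ℂ) ^ n) ≠ 0 := pow_ne_zero _ z.ne_zero
    show (z : ℂ) ^ n * ((c * z ^ (-(n : ℤ)) : ℂˣ) : ℂ) = eval (z : ℂ) (C (c : ℂ))
    rw [h, eval_C]
    field_simp

theorem isLaurent_zpow_inv (c : ℂˣ) (e : ℤ) :
    IsLaurent (fun z : ℂˣ => (((c * z ^ e)⁻¹ : ℂˣ) : ℂ)) := by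
  have h := isLaurent_zpow c⁻¹ (-e)
  refine (iff_of_eq ?_).mp h
  congr 1
  funext z
  rw [mul_inv, zpow_neg]

/-- A Laurent function of the torus restricted to a curve `z ↦ (c l * z ^ e l)_l` is a Laurent
function of `z`. -/
theorem IsLaurentMv.comp_curve {Φ : (ι → ℂˣ) → ℂ} (hΦ : IsLaurentMv Φ) (c : ι → ℂˣ)
    (e : ι → ℤ) : IsLaurent (fun z : ℂˣ => Φ (fun l => c l * z ^ e l)) := by
  obtain ⟨P, hP⟩ := hΦ
  have h := IsLaurent.eval_mvPolynomial
    (fun (z : ℂˣ) => Sum.elim (fun i => ((c i * z ^ e i : ℂˣ) : ℂ))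
      (fun i => (((c i * z ^ e i)⁻¹ : ℂˣ) : ℂ)))
    (by
      rintro (i | i)
      · exact isLaurent_zpow (c i) (e i)
      · exact isLaurent_zpow_inv (c i) (e i)) P
  refine (iff_of_eq ?_).mp h
  congr 1
  funext z
  rw [hP]

theorem zpow_finset_sum {G : Type*} [CommGroup G] (u : G) {κ : Type*} (s : Finset κ)
    (f : κ → ℤ) : u ^ (∑ l ∈ s, f l) = ∏ l ∈ s, u ^ f l := by
  classical
  induction s using Finset.induction_on with
  | empty => simp
  | insert a s ha ih => rw [Finset.sum_insert ha, Finset.prod_insert ha, zpow_add, ih]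

/-- The root of unity `exp(2πi/N)`, as a unit of `ℂ`. -/
def zetaU (N : ℕ) : ℂˣ :=
  Units.mk0 (Complex.exp (2 * Real.pi * Complex.I / N)) (Complex.exp_ne_zero _)

theorem zetaU_val (N : ℕ) : (zetaU N : ℂ) = Complex.exp (2 * Real.pi * Complex.I / N) := rfl

theorem zetaU_pow {N : ℕ} (hN : 0 < N) : zetaU N ^ N = 1 := by
  apply Units.ext
  rw [Units.val_pow_eq_pow_val, zetaU_val, Units.val_one]
  exact (Complex.isPrimitiveRoot_exp N hN.ne').pow_eq_one

theorem mem_zpowers_zetaU {N : ℕ} (hN : 0 < N) {u : ℂˣ} (hu : u ^ N = 1) :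
    u ∈ Subgroup.zpowers (zetaU N) := by
  have h1 : (u : ℂ) ^ N = 1 := by
    rw [← Units.val_pow_eq_pow_val, hu, Units.val_one]
  have : NeZero N := ⟨hN.ne'⟩
  obtain ⟨i, -, hi⟩ := (Complex.isPrimitiveRoot_exp N hN.ne').eq_pow_of_pow_eq_one h1
  refine ⟨(i : ℤ), ?_⟩
  apply Units.ext
  simp only [zpow_natCast]
  rw [Units.val_pow_eq_pow_val, zetaU_val]
  exact hi

/-- The group of units generated by `exp(2πi/N)` and `1 + √2`. -/
def unitGroup (N : ℕ) : Subgroup ℂˣ := Subgroup.closure {zetaU N, unitW}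

theorem zetaU_mem_unitGroup (N : ℕ) : zetaU N ∈ unitGroup N :=
  Subgroup.subset_closure (by simp)

theorem unitW_mem_unitGroup (N : ℕ) : unitW ∈ unitGroup N :=
  Subgroup.subset_closure (by simp)

theorem zpowers_unitW_le_unitGroup (N : ℕ) : Subgroup.zpowers unitW ≤ unitGroup N :=
  (Subgroup.zpowers_le).mpr (unitW_mem_unitGroup N)

theorem zpowers_zetaU_le_unitGroup (N : ℕ) : Subgroup.zpowers (zetaU N) ≤ unitGroup N :=
  (Subgroup.zpowers_le).mpr (zetaU_mem_unitGroup N)

/-- The number field `ℚ(exp(2πi/N), √2)` inside `ℂ`. -/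
def fieldLN (N : ℕ) : IntermediateField ℚ ℂ :=
  IntermediateField.adjoin ℚ {(zetaU N : ℂ), sqrtTwo}

theorem isIntegral_zetaU {N : ℕ} (hN : 0 < N) : IsIntegral ℤ (zetaU N : ℂ) := by
  refine IsIntegral.of_pow (n := N) hN ?_
  rw [← Units.val_pow_eq_pow_val, zetaU_pow hN, Units.val_one]
  exact isIntegral_one

theorem isIntegral_zetaU_inv {N : ℕ} (hN : 0 < N) : IsIntegral ℤ ((zetaU N)⁻¹ : ℂˣ).1 := by
  refine IsIntegral.of_pow (n := N) hN ?_
  rw [← Units.val_pow_eq_pow_val, inv_pow, zetaU_pow hN, inv_one, Units.val_one]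
  exact isIntegral_one

theorem finiteDimensional_fieldLN {N : ℕ} (hN : 0 < N) : FiniteDimensional ℚ (fieldLN N) := by
  apply IntermediateField.finiteDimensional_adjoin
  intro x hx
  rcases hx with rfl | rfl
  · exact (isIntegral_zetaU hN).tower_top
  · exact isIntegral_sqrtTwo.tower_top

theorem unitGroup_spec {N : ℕ} (hN : 0 < N) {u : ℂˣ} (hu : u ∈ unitGroup N) :
    ((u : ℂ) ∈ fieldLN N ∧ IsIntegral ℤ (u : ℂ)) ∧
      (((u⁻¹ : ℂˣ) : ℂ) ∈ fieldLN N ∧ IsIntegral ℤ ((u⁻¹ : ℂˣ) : ℂ)) := by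
  have hz : (zetaU N : ℂ) ∈ fieldLN N := IntermediateField.subset_adjoin ℚ _ (by simp)
  have hs : sqrtTwo ∈ fieldLN N := IntermediateField.subset_adjoin ℚ _ (by simp)
  induction hu using Subgroup.closure_induction with
  | mem x hx =>
    rcases hx with rfl | rfl
    · refine ⟨⟨hz, isIntegral_zetaU hN⟩, ?_, isIntegral_zetaU_inv hN⟩
      rw [Units.val_inv_eq_inv_val]
      exact inv_mem hz
    · refine ⟨⟨?_, ?_⟩, ?_, ?_⟩
      · rw [unitW_val]
        exact add_mem (one_mem _) hs
      · rw [unitW_val]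
        exact isIntegral_one.add isIntegral_sqrtTwo
      · rw [unitW_inv_val]
        exact sub_mem hs (one_mem _)
      · rw [unitW_inv_val]
        exact isIntegral_sqrtTwo.sub isIntegral_one
  | one =>
    simp only [inv_one, Units.val_one]
    exact ⟨⟨one_mem _, isIntegral_one⟩, one_mem _, isIntegral_one⟩
  | mul x y _ _ hx hy =>
    refine ⟨⟨?_, ?_⟩, ?_, ?_⟩
    · rw [Units.val_mul]
      exact mul_mem hx.1.1 hy.1.1
    · rw [Units.val_mul]
      exact hx.1.2.mul hy.1.2
    · rw [mul_inv, Units.val_mul]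
      exact mul_mem hx.2.1 hy.2.1
    · rw [mul_inv, Units.val_mul]
      exact hx.2.2.mul hy.2.2
  | inv x _ hx =>
    rw [inv_inv]
    exact ⟨hx.2, hx.1⟩

/-- **Density of unit points in torus cosets.**  Let `Λ` be a sublattice of `ι → ℤ` and `M ≥ 1`.
There is `N ≥ 1` such that for every point `tstar` of the torus whose monomials `mono tstar k`,
`k ∈ Λ`, are `M`-th roots of unity, every Laurent function `Φ` which vanishes at all points `t`
with the same monomials on `Λ` and with all coordinates in `unitGroup N` vanishes at `tstar`. -/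
theorem torus_density [Fintype ι] [DecidableEq ι] (Λ : Submodule ℤ (ι → ℤ)) (M : ℕ)
    (hM : 0 < M) :
    ∃ N : ℕ, 0 < N ∧ ∀ tstar : ι → ℂˣ, (∀ k ∈ Λ, mono tstar k ^ M = 1) →
      ∀ Φ : (ι → ℂˣ) → ℂ, IsLaurentMv Φ →
        (∀ t : ι → ℂˣ, (∀ k ∈ Λ, mono t k = mono tstar k) → (∀ i, t i ∈ unitGroup N) →
          Φ t = 0) →
        Φ tstar = 0 := by
  classical
  obtain ⟨n, snf⟩ := Submodule.smithNormalForm (Pi.basisFun ℤ ι) Λ
  have ha : ∀ i, snf.a i ≠ 0 := by
    intro i h0
    have h1 := snf.snf i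
    rw [h0, zero_smul] at h1
    have h2 : snf.bN i = 0 := Subtype.ext h1
    exact snf.bN.ne_zero i h2
  refine ⟨M * ∏ i, (snf.a i).natAbs, ?_, ?_⟩
  · refine Nat.mul_pos hM (Finset.prod_pos fun i _ => Int.natAbs_pos.mpr (ha i))
  intro tstar hstar Φ hΦ hvan
  set N : ℕ := M * ∏ i, (snf.a i).natAbs with hN
  -- coordinates with respect to the Smith basis
  let E : ι → ι → ℤ := fun l j => snf.bM.repr (Pi.single l 1) j
  let tOf : (ι → ℂˣ) → ι → ℂˣ := fun u l => ∏ j, u j ^ E l j
  have hrepr : ∀ k : ι → ℤ, ∀ j, snf.bM.repr k j = ∑ l, k l * E l j := by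
    intro k j
    have hk : k = ∑ l, k l • (Pi.single l 1 : ι → ℤ) := by
      funext i
      simp [Finset.sum_apply, Pi.single_apply]
    conv_lhs => rw [hk]
    rw [map_sum, Finsupp.coe_finsetSum, Finset.sum_apply]
    refine Finset.sum_congr rfl fun l _ => ?_
    rw [map_smul, Finsupp.smul_apply, smul_eq_mul]
  have hA : ∀ (u : ι → ℂˣ) (k : ι → ℤ), mono (tOf u) k = ∏ j, u j ^ snf.bM.repr k j := by
    intro u k
    unfold mono
    have h1 : ∀ l, tOf u l ^ k l = ∏ j, u j ^ (k l * E l j) := by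
      intro l
      show (∏ j, u j ^ E l j) ^ k l = _
      rw [← Finset.prod_zpow]
      refine Finset.prod_congr rfl fun j _ => ?_
      rw [← zpow_mul, mul_comm]
    simp only [h1]
    rw [Finset.prod_comm]
    refine Finset.prod_congr rfl fun j _ => ?_
    rw [hrepr k j, zpow_finset_sum]
  have hB : ∀ t : ι → ℂˣ, tOf (fun j => mono t (snf.bM j)) = t := by
    intro t
    funext l
    show ∏ j, mono t (snf.bM j) ^ E l j = t l
    have h1 : ∀ j, mono t (snf.bM j) ^ E l j = mono t (E l j • snf.bM j) := by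
      intro j
      rw [mono_smul]
    simp only [h1]
    rw [← mono_sum]
    have h2 : ∑ j, E l j • snf.bM j = Pi.single l 1 := snf.bM.sum_repr (Pi.single l 1)
    rw [h2, mono_single]
  let ustar : ι → ℂˣ := fun j => mono tstar (snf.bM j)
  let uOf : (ι → ℂˣ) → ι → ℂˣ := fun w j => if j ∈ Set.range snf.f then ustar j else w j
  have hustar : tOf ustar = tstar := hB tstar
  -- all members of the family have the same monomials on the lattice
  have h1 : ∀ (w : ι → ℂˣ) (k : ι → ℤ), k ∈ Λ → mono (tOf (uOf w)) k = mono tstar k := by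
    intro w k hk
    rw [hA, ← hustar, hA]
    refine Finset.prod_congr rfl fun j _ => ?_
    by_cases hj : j ∈ Set.range snf.f
    · simp only [uOf, hj, if_true]
    · have h0 := snf.repr_eq_zero_of_notMem_range ⟨k, hk⟩ hj
      have h0' : snf.bM.repr k j = 0 := h0
      rw [h0', zpow_zero, zpow_zero]
  -- the fixed coordinates are roots of unity
  have h2 : ∀ j, j ∈ Set.range snf.f → ustar j ∈ unitGroup N := by
    rintro _ ⟨i, rfl⟩
    apply zpowers_zetaU_le_unitGroup
    apply mem_zpowers_zetaU (Nat.mul_pos hM (Finset.prod_pos fun i _ =>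
      Int.natAbs_pos.mpr (ha i)))
    have hmem : (snf.a i • snf.bM (snf.f i)) ∈ Λ := by
      rw [← snf.snf i]
      exact (snf.bN i).2
    have h3 := hstar _ hmem
    rw [mono_smul] at h3
    have h5 : (ustar (snf.f i) ^ (snf.a i).natAbs) ^ M = 1 := by
      rcases Int.natAbs_eq (snf.a i) with h | h
      · have : ustar (snf.f i) ^ (snf.a i) = ustar (snf.f i) ^ (snf.a i).natAbs := by
          conv_lhs => rw [h]
          rw [zpow_natCast]
        rw [← this]
        exact h3
      · have : ustar (snf.f i) ^ (snf.a i) = (ustar (snf.f i) ^ (snf.a i).natAbs)⁻¹ := by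
          conv_lhs => rw [h]
          rw [zpow_neg, zpow_natCast]
        have h6 : ((ustar (snf.f i) ^ (snf.a i).natAbs)⁻¹) ^ M = 1 := by
          rw [← this]
          exact h3
        rw [inv_pow, inv_eq_one] at h6
        exact h6
    have hdvd : (snf.a i).natAbs * M ∣ N := by
      rw [hN, mul_comm]
      exact Nat.mul_dvd_mul_left M (Finset.dvd_prod_of_mem _ (Finset.mem_univ i))
    obtain ⟨c, hc⟩ := hdvd
    show ustar (snf.f i) ^ N = 1
    rw [hc, pow_mul, pow_mul, h5, one_pow]
  -- the family is separately Laurent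
  let g : (ι → ℂˣ) → ℂ := fun w => Φ (tOf (uOf w))
  have hg : ∀ (s : ι → ℂˣ) (v : ι), IsLaurent (fun z => g (Function.update s v z)) := by
    intro s v
    by_cases hv : v ∈ Set.range snf.f
    · have hconst : ∀ z, uOf (Function.update s v z) = uOf s := by
        intro z
        funext j
        by_cases hj : j ∈ Set.range snf.f
        · simp only [uOf, hj, if_true]
        · have hjv : j ≠ v := fun h => hj (h ▸ hv)
          simp only [uOf, hj, if_false, Function.update_of_ne hjv]
      have : (fun z => g (Function.update s v z)) = fun _ => g s := by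
        funext z
        show Φ (tOf (uOf (Function.update s v z))) = Φ (tOf (uOf s))
        rw [hconst]
      rw [this]
      exact isLaurent_const _
    · have hcurve : ∀ z, tOf (uOf (Function.update s v z))
          = fun l => (∏ j ∈ Finset.univ.erase v, uOf s j ^ E l j) * z ^ E l v := by
        intro z
        funext l
        show ∏ j, uOf (Function.update s v z) j ^ E l j = _
        rw [← Finset.prod_erase_mul _ _ (Finset.mem_univ v)]
        congr 1
        · refine Finset.prod_congr rfl fun j hj => ?_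
          have hjv : j ≠ v := Finset.ne_of_mem_erase hj
          by_cases hj' : j ∈ Set.range snf.f
          · simp only [uOf, hj', if_true]
          · simp only [uOf, hj', if_false, Function.update_of_ne hjv]
        · simp only [uOf, hv, if_false, Function.update_self]
      have h3 := hΦ.comp_curve (fun l => ∏ j ∈ Finset.univ.erase v, uOf s j ^ E l j)
        (fun l => E l v)
      refine (iff_of_eq ?_).mp h3
      congr 1
      funext z
      show _ = Φ (tOf (uOf (Function.update s v z)))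
      rw [hcurve]
  have hzero : ∀ w : ι → ℂˣ, (∀ v, w v ∈ (Subgroup.zpowers unitW : Set ℂˣ)) → g w = 0 := by
    intro w hw
    apply hvan
    · exact fun k hk => h1 w k hk
    · intro l
      show ∏ j, uOf w j ^ E l j ∈ unitGroup N
      refine Subgroup.prod_mem _ fun j _ => Subgroup.zpow_mem _ ?_ _
      by_cases hj : j ∈ Set.range snf.f
      · simp only [uOf, hj, if_true]
        exact h2 j hj
      · simp only [uOf, hj, if_false]
        exact zpowers_unitW_le_unitGroup N (hw j)
  have hall := eq_zero_of_grid g hg _ infinite_zpowers_unitW hzero ustar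
  have hu : uOf ustar = ustar := by
    funext j
    by_cases hj : j ∈ Set.range snf.f
    · simp only [uOf, hj, if_true]
    · simp only [uOf, hj, if_false]
  show Φ tstar = 0
  have : g ustar = Φ tstar := by
    show Φ (tOf (uOf ustar)) = Φ tstar
    rw [hu, hustar]
  rw [← this]
  exact hall

/-- A Laurent function on the torus is Laurent in each coordinate separately. -/
theorem IsLaurentMv.update [DecidableEq ι] {Φ : (ι → ℂˣ) → ℂ} (hΦ : IsLaurentMv Φ)
    (s : ι → ℂˣ) (v : ι) : IsLaurent (fun z => Φ (Function.update s v z)) := by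
  have h := hΦ.comp_curve (fun l => if l = v then 1 else s l) (fun l => if l = v then 1 else 0)
  refine (iff_of_eq ?_).mp h
  congr 1
  funext z
  congr 1
  funext l
  by_cases hl : l = v
  · subst hl
    simp
  · simp [hl]

/-- A Laurent function on the torus vanishing on `U^ι` for an infinite set `U` vanishes. -/
theorem IsLaurentMv.eq_zero_of_grid [Fintype ι] [DecidableEq ι] {Φ : (ι → ℂˣ) → ℂ}
    (hΦ : IsLaurentMv Φ) (U : Set ℂˣ) (hU : U.Infinite)
    (h0 : ∀ s : ι → ℂˣ, (∀ v, s v ∈ U) → Φ s = 0) (s : ι → ℂˣ) : Φ s = 0 :=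
  Vale.Agent.Lib.P002.eq_zero_of_grid Φ (fun s v => hΦ.update s v) U hU h0 s

end Vale.Agent.Lib.P002

end
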