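import Vale.Agent.Lib.P002.TKPrep

/-!
# The torus of pairs of diagonal matrices `(d, e)` with `d ^ p = e ^ q`

The equations are encoded by a lattice of exponent vectors, one for every pattern of
coincidences, and the density theorem for tori is applied uniformly in the pattern.
-/

noncomputable section

namespace Vale.Agent.Lib.P002

variable {r : ℕ} (p q : ℕ)

/-- The equations of the torus: `d i ^ p = e i ^ q`, `d i ^ p = d j ^ p` when `R i j`, and both
products equal to one. -/
def TEq (R : Fin r → Fin r → Bool) (t : Fin r ⊕ Fin r → ℂˣ) : Prop :=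
  (∀ i, t (Sum.inl i) ^ p = t (Sum.inr i) ^ q) ∧
  (∀ i j, R i j = true → t (Sum.inl i) ^ p = t (Sum.inl j) ^ p) ∧
  ∏ i, t (Sum.inl i) = 1 ∧ ∏ i, t (Sum.inr i) = 1

def gen1 (i : Fin r) : Fin r ⊕ Fin r → ℤ :=
  (p : ℤ) • Pi.single (Sum.inl i) 1 + (-(q : ℤ)) • Pi.single (Sum.inr i) 1

def gen2 (i j : Fin r) : Fin r ⊕ Fin r → ℤ :=
  (p : ℤ) • Pi.single (Sum.inl i) 1 + (-(p : ℤ)) • Pi.single (Sum.inl j) 1

def gen3 : Fin r ⊕ Fin r → ℤ := ∑ i : Fin r, Pi.single (Sum.inl i) 1

def gen4 : Fin r ⊕ Fin r → ℤ := ∑ i : Fin r, Pi.single (Sum.inr i) 1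

/-- The lattice of exponent vectors of the equations. -/
def lam (R : Fin r → Fin r → Bool) : Submodule ℤ (Fin r ⊕ Fin r → ℤ) :=
  Submodule.span ℤ (Set.range (gen1 (r := r) p q) ∪
    {k | ∃ i j, R i j = true ∧ k = gen2 p i j} ∪ {gen3, gen4})

theorem mono_gen1 (t : Fin r ⊕ Fin r → ℂˣ) (i : Fin r) :
    mono t (gen1 p q i) = t (Sum.inl i) ^ p * (t (Sum.inr i) ^ q)⁻¹ := by
  unfold gen1
  rw [mono_add, mono_smul, mono_smul, mono_single, mono_single, zpow_neg, zpow_natCast,
    zpow_natCast]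

theorem mono_gen2 (t : Fin r ⊕ Fin r → ℂˣ) (i j : Fin r) :
    mono t (gen2 p i j) = t (Sum.inl i) ^ p * (t (Sum.inl j) ^ p)⁻¹ := by
  unfold gen2
  rw [mono_add, mono_smul, mono_smul, mono_single, mono_single, zpow_neg, zpow_natCast,
    zpow_natCast]

theorem mono_gen3 (t : Fin r ⊕ Fin r → ℂˣ) : mono t (gen3 (r := r)) = ∏ i, t (Sum.inl i) := by
  unfold gen3
  rw [mono_sum]
  exact Finset.prod_congr rfl fun i _ => mono_single t _

theorem mono_gen4 (t : Fin r ⊕ Fin r → ℂˣ) : mono t (gen4 (r := r)) = ∏ i, t (Sum.inr i) := by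
  unfold gen4
  rw [mono_sum]
  exact Finset.prod_congr rfl fun i _ => mono_single t _

theorem teq_iff (R : Fin r → Fin r → Bool) (t : Fin r ⊕ Fin r → ℂˣ) :
    (∀ k ∈ lam p q R, mono t k = 1) ↔ TEq p q R t := by
  constructor
  · intro h
    refine ⟨fun i => ?_, fun i j hij => ?_, ?_, ?_⟩
    · have := h (gen1 p q i) (Submodule.subset_span (by simp))
      rw [mono_gen1] at this
      exact mul_inv_eq_one.mp this
    · have := h (gen2 p i j) (Submodule.subset_span
        (Or.inl (Or.inr ⟨i, j, hij, rfl⟩)))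
      rw [mono_gen2] at this
      exact mul_inv_eq_one.mp this
    · have := h gen3 (Submodule.subset_span (by simp))
      rwa [mono_gen3] at this
    · have := h gen4 (Submodule.subset_span (by simp))
      rwa [mono_gen4] at this
  · rintro ⟨h1, h2, h3, h4⟩ k hk
    induction hk using Submodule.span_induction with
    | mem x hx =>
      rcases hx with (⟨i, rfl⟩ | ⟨i, j, hij, rfl⟩) | hx
      · rw [mono_gen1]
        exact mul_inv_eq_one.mpr (h1 i)
      · rw [mono_gen2]
        exact mul_inv_eq_one.mpr (h2 i j hij)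
      · rcases hx with rfl | rfl
        · rw [mono_gen3, h3]
        · rw [mono_gen4, h4]
    | zero => exact mono_zero t
    | add x y _ _ hx hy => rw [mono_add, hx, hy, one_mul]
    | smul a x _ hx => rw [mono_smul, hx, one_zpow]

/-- Uniform density of the points with coordinates in a finitely generated group of units of a
number field, in the tori cut out by the equations `TEq`. -/
theorem torus_density_R (p q r : ℕ) :
    ∃ N : ℕ, 0 < N ∧ ∀ (R : Fin r → Fin r → Bool) (tstar : Fin r ⊕ Fin r → ℂˣ),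
      TEq p q R tstar → ∀ Φ : (Fin r ⊕ Fin r → ℂˣ) → ℂ, IsLaurentMv Φ →
        (∀ t, TEq p q R t → (∀ i, t i ∈ unitGroup N) → Φ t = 0) → Φ tstar = 0 := by
  classical
  choose NR hNR0 hNR using fun R : Fin r → Fin r → Bool =>
    torus_density (lam p q R) 1 one_pos
  have hpos : 0 < ∏ R, NR R := Finset.prod_pos fun R _ => hNR0 R
  refine ⟨∏ R, NR R, hpos, ?_⟩
  intro R tstar hstar Φ hΦ h0
  apply hNR R tstar (fun k hk => by
    rw [pow_one]
    exact (teq_iff p q R tstar).mpr hstar k hk) Φ hΦ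
  intro t ht htu
  apply h0 t
  · apply (teq_iff p q R t).mp
    intro k hk
    rw [ht k hk]
    exact (teq_iff p q R tstar).mpr hstar k hk
  · intro i
    exact unitGroup_mono (Finset.dvd_prod_of_mem _ (Finset.mem_univ R)) hpos (htu i)

end Vale.Agent.Lib.P002

end
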