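import Vale.Agent.Lib.P002.TorusEq

/-!
# Density of integral points for the groups `⟨a, b | a ^ p = b ^ q⟩`
-/

noncomputable section

namespace Vale.Agent.Lib.P002

open Matrix

variable {r : ℕ}

theorem conj_diag_apply {κ : Type*} [Fintype κ] [DecidableEq κ] (C₀ C₁ : Matrix κ κ ℂ)
    (e : κ → ℂ) (i j : κ) :
    (C₀ * Matrix.diagonal e * C₁) i j = ∑ k, C₀ i k * e k * C₁ k j := by
  rw [Matrix.mul_apply]
  refine Finset.sum_congr rfl fun k _ => ?_
  rw [Matrix.mul_diagonal]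

theorem mat_conj_pow {κ : Type*} [Fintype κ] [DecidableEq κ] (P Q X : Matrix κ κ ℂ)
    (hPQ : P * Q = 1) (hQP : Q * P = 1) (n : ℕ) : (P * X * Q) ^ n = P * X ^ n * Q := by
  induction n with
  | zero => rw [pow_zero, pow_zero, Matrix.mul_one, hPQ]
  | succ n ih =>
    rw [pow_succ, ih, pow_succ]
    calc P * X ^ n * Q * (P * X * Q) = P * X ^ n * (Q * P) * X * Q := by
          simp only [Matrix.mul_assoc]
      _ = P * (X ^ n * X) * Q := by rw [hQP, Matrix.mul_one, Matrix.mul_assoc P]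

/-- Pairs `(diag d, C diag e C⁻¹)`: the polynomial vanishes at all of them as soon as it
vanishes at the integral pairs. -/
theorem diag_pair_vanish (p q : ℕ) {N : ℕ} (hN : 0 < N)
    (hdens : ∀ (R : Fin r → Fin r → Bool) (tstar : Fin r ⊕ Fin r → ℂˣ), TEq p q R tstar →
      ∀ Φ : (Fin r ⊕ Fin r → ℂˣ) → ℂ, IsLaurentMv Φ →
        (∀ t, TEq p q R t → (∀ i, t i ∈ unitGroup N) → Φ t = 0) → Φ tstar = 0)
    (F : MvPolynomial (Fin 2 × Fin r × Fin r) ℂ)
    (Hint : ∀ A B : Matrix.SpecialLinearGroup (Fin r) ℂ, A ^ p = B ^ q →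
      (∀ i j, A.1 i j ∈ fieldLN N ∧ IsIntegral ℤ (A.1 i j)) →
      (∀ i j, B.1 i j ∈ fieldLN N ∧ IsIntegral ℤ (B.1 i j)) →
      MvPolynomial.eval (pairPt A.1 B.1) F = 0)
    (δ : Fin r → ℂ) (tstar : Fin r ⊕ Fin r → ℂˣ)
    (hstar : TEq p q (fun i j => decide (δ i = δ j)) tstar)
    (C : Matrix (Fin r) (Fin r) ℂ) (hC : C ∈ zcl (intSet N δ)) :
    MvPolynomial.eval (pairPt (Matrix.diagonal fun i => ((tstar (Sum.inl i) : ℂˣ) : ℂ))
      (C * (Matrix.diagonal fun i => ((tstar (Sum.inr i) : ℂˣ) : ℂ)) * C⁻¹)) F = 0 := by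
  classical
  have h4a : ∀ C₀ ∈ intSet N δ,
      MvPolynomial.eval (pairPt (Matrix.diagonal fun i => ((tstar (Sum.inl i) : ℂˣ) : ℂ))
        (C₀ * (Matrix.diagonal fun i => ((tstar (Sum.inr i) : ℂˣ) : ℂ)) * C₀⁻¹)) F = 0 := by
    intro C₀ hC₀
    refine hdens _ tstar hstar (fun t =>
      MvPolynomial.eval (pairPt (Matrix.diagonal fun i => ((t (Sum.inl i) : ℂˣ) : ℂ))
        (C₀ * (Matrix.diagonal fun i => ((t (Sum.inr i) : ℂˣ) : ℂ)) * C₀⁻¹)) F) ?_ ?_
    · apply IsLaurentMv.eval_mvPolynomial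
      rintro ⟨a, i, j⟩
      fin_cases a
      · show IsLaurentMv (fun t : Fin r ⊕ Fin r → ℂˣ =>
          (Matrix.diagonal fun i => ((t (Sum.inl i) : ℂˣ) : ℂ)) i j)
        by_cases h : i = j
        · simp only [Matrix.diagonal_apply, h, if_true]
          exact isLaurentMv_coord (Sum.inl j)
        · simp only [Matrix.diagonal_apply, h, if_false]
          exact isLaurentMv_const 0
      · show IsLaurentMv (fun t : Fin r ⊕ Fin r → ℂˣ =>
          (C₀ * (Matrix.diagonal fun i => ((t (Sum.inr i) : ℂˣ) : ℂ)) * C₀⁻¹) i j)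
        simp only [conj_diag_apply]
        exact IsLaurentMv.sum _ _ fun k _ =>
          ((isLaurentMv_const _).mul (isLaurentMv_coord (Sum.inr k))).mul (isLaurentMv_const _)
    · intro t ht htu
      obtain ⟨ht1, ht2, ht3, ht4⟩ := ht
      have hd1 : ∏ i, ((t (Sum.inl i) : ℂˣ) : ℂ) = 1 := by
        rw [← Units.coe_prod, ht3, Units.val_one]
      have he1 : ∏ i, ((t (Sum.inr i) : ℂˣ) : ℂ) = 1 := by
        rw [← Units.coe_prod, ht4, Units.val_one]
      have hCC : C₀ * C₀⁻¹ = 1 := Matrix.mul_nonsing_inv _ hC₀.1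
      have hCC' : C₀⁻¹ * C₀ = 1 := Matrix.nonsing_inv_mul _ hC₀.1
      have hC₀det : C₀.det * C₀⁻¹.det = 1 := by
        rw [← Matrix.det_mul, hCC, Matrix.det_one]
      let A₀ : Matrix.SpecialLinearGroup (Fin r) ℂ :=
        ⟨Matrix.diagonal fun i => ((t (Sum.inl i) : ℂˣ) : ℂ), by
          rw [Matrix.det_diagonal]
          exact hd1⟩
      let B₀ : Matrix.SpecialLinearGroup (Fin r) ℂ :=
        ⟨C₀ * (Matrix.diagonal fun i => ((t (Sum.inr i) : ℂˣ) : ℂ)) * C₀⁻¹, by
          rw [Matrix.det_mul, Matrix.det_mul, Matrix.det_diagonal, he1, mul_one, hC₀det]⟩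
      have hcomm : ∀ i j, C₀ i j * ((t (Sum.inl j) : ℂˣ) : ℂ) ^ p
          = ((t (Sum.inl i) : ℂˣ) : ℂ) ^ p * C₀ i j := by
        intro i j
        have h1 := (commute_diagonal_iff C₀ δ).mp hC₀.2.1 i j
        by_cases hij : δ i = δ j
        · have h2 := ht2 i j (decide_eq_true hij)
          have h3 : ((t (Sum.inl i) : ℂˣ) : ℂ) ^ p = ((t (Sum.inl j) : ℂˣ) : ℂ) ^ p := by
            rw [← Units.val_pow_eq_pow_val, h2, Units.val_pow_eq_pow_val]
          rw [h3, mul_comm]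
        · have h2 : C₀ i j * (δ j - δ i) = 0 := by
            rw [mul_sub, h1]
            ring
          rcases mul_eq_zero.mp h2 with h | h
          · rw [h, zero_mul, mul_zero]
          · exact absurd (sub_eq_zero.mp h).symm hij
      have hAB : A₀ ^ p = B₀ ^ q := by
        apply Subtype.ext
        rw [Matrix.SpecialLinearGroup.coe_pow, Matrix.SpecialLinearGroup.coe_pow]
        show (Matrix.diagonal fun i => ((t (Sum.inl i) : ℂˣ) : ℂ)) ^ p
          = (C₀ * (Matrix.diagonal fun i => ((t (Sum.inr i) : ℂˣ) : ℂ)) * C₀⁻¹) ^ q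
        rw [mat_conj_pow _ _ _ hCC hCC', Matrix.diagonal_pow, Matrix.diagonal_pow]
        have h5 : ((fun i => ((t (Sum.inr i) : ℂˣ) : ℂ)) ^ q : Fin r → ℂ)
            = (fun i => ((t (Sum.inl i) : ℂˣ) : ℂ)) ^ p := by
          funext i
          rw [Pi.pow_apply, Pi.pow_apply, ← Units.val_pow_eq_pow_val, ← ht1 i,
            Units.val_pow_eq_pow_val]
        rw [h5]
        have h6 : C₀ * Matrix.diagonal ((fun i => ((t (Sum.inl i) : ℂˣ) : ℂ)) ^ p)
            = Matrix.diagonal ((fun i => ((t (Sum.inl i) : ℂˣ) : ℂ)) ^ p) * C₀ := by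
          rw [commute_diagonal_iff]
          intro i j
          exact hcomm i j
        rw [h6, Matrix.mul_assoc, hCC, Matrix.mul_one]
      have hA : ∀ i j, A₀.1 i j ∈ fieldLN N ∧ IsIntegral ℤ (A₀.1 i j) :=
        (diagonal_mem_intSet hN δ (fun i => t (Sum.inl i)) (fun i => htu _)).2.2.1
      have hB : ∀ i j, B₀.1 i j ∈ fieldLN N ∧ IsIntegral ℤ (B₀.1 i j) :=
        mul_entries_integral (mul_entries_integral hC₀.2.2.1
          (diagonal_mem_intSet hN δ (fun i => t (Sum.inr i)) (fun i => htu _)).2.2.1)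
          hC₀.2.2.2
      exact Hint A₀ B₀ hAB hA hB
  have hreg : IsReg (fun C₀ : Matrix (Fin r) (Fin r) ℂ =>
      MvPolynomial.eval (pairPt (Matrix.diagonal fun i => ((tstar (Sum.inl i) : ℂˣ) : ℂ))
        (C₀ * (Matrix.diagonal fun i => ((tstar (Sum.inr i) : ℂˣ) : ℂ)) * C₀⁻¹)) F) := by
    apply IsReg.eval_mvPolynomial
    rintro ⟨a, i, j⟩
    fin_cases a
    · exact isReg_const _
    · show IsReg (fun C₀ : Matrix (Fin r) (Fin r) ℂ =>
        (C₀ * (Matrix.diagonal fun i => ((tstar (Sum.inr i) : ℂˣ) : ℂ)) * C₀⁻¹) i j)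
      simp only [conj_diag_apply]
      exact IsReg.sum _ _ fun k _ =>
        ((isReg_entry i k).mul (isReg_const _)).mul (isReg_inv_entry k j)
  exact hC.2 _ hreg h4a


theorem asm_pow {ι β : Type*} [Fintype ι] [DecidableEq ι] [Fintype β] [DecidableEq β]
    (b : ι → β) (c : ∀ y : β, Matrix {i : ι // b i = y} {i : ι // b i = y} ℂ) (n : ℕ) :
    asm b (c ^ n) = asm b c ^ n := by
  induction n with
  | zero => rw [pow_zero, pow_zero, asm_one]
  | succ n ih => rw [pow_succ, pow_succ, asm_mul, ih]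

/-- The labelling of the indices by the values of `δ`. -/
def lab (δ : Fin r → ℂ) (i : Fin r) : ↥(Finset.univ.image δ) :=
  ⟨δ i, Finset.mem_image_of_mem δ (Finset.mem_univ i)⟩

/-- A matrix with a power equal to an invertible diagonal matrix `diagonal δ` is diagonalized
by a matrix which is block diagonal with respect to the values of `δ`. -/
theorem block_diagonalize (δ : Fin r → ℂ) (hδ : ∀ i, δ i ≠ 0) (X : Matrix (Fin r) (Fin r) ℂ)
    (n : ℕ) (hn : 0 < n) (hX : X ^ n = Matrix.diagonal δ) :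
    ∃ (cP cQ : ∀ y : ↥(Finset.univ.image δ),
        Matrix {i // lab δ i = y} {i // lab δ i = y} ℂ) (D : Fin r → ℂ),
      cP * cQ = 1 ∧ cQ * cP = 1 ∧
      X = asm (lab δ) cP * Matrix.diagonal D * asm (lab δ) cQ ∧ ∀ i, D i ^ n = δ i := by
  classical
  have hcomm : X * Matrix.diagonal δ = Matrix.diagonal δ * X := by
    rw [← hX, ← pow_succ, ← pow_succ']
  have hoff : ∀ i j, lab δ i ≠ lab δ j → X i j = 0 := by
    intro i j hij
    have h1 := (commute_diagonal_iff X δ).mp hcomm i j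
    have hne : δ i ≠ δ j := fun h => hij (Subtype.ext h)
    have h2 : X i j * (δ j - δ i) = 0 := by
      rw [mul_sub, h1]
      ring
    rcases mul_eq_zero.mp h2 with h | h
    · exact h
    · exact absurd (sub_eq_zero.mp h).symm hne
  have hasm : asm (lab δ) (blk (lab δ) X) = X := asm_blk _ X hoff
  have hpow : ∀ y : ↥(Finset.univ.image δ),
      (blk (lab δ) X y) ^ n = y.1 • (1 : Matrix {i // lab δ i = y} {i // lab δ i = y} ℂ) := by
    have h1 : asm (lab δ) ((blk (lab δ) X) ^ n)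
        = asm (lab δ) (fun y => Matrix.diagonal fun _ => y.1) := by
      rw [asm_pow, hasm, hX, asm_diagonal]
      rfl
    have h2 := asm_injective (lab δ) h1
    intro y
    have h3 := congrFun h2 y
    rw [Pi.pow_apply] at h3
    rw [h3]
    exact (Matrix.smul_one_eq_diagonal _).symm
  have hy0 : ∀ y : ↥(Finset.univ.image δ), y.1 ≠ 0 := by
    rintro ⟨y, hy⟩
    obtain ⟨i, -, rfl⟩ := Finset.mem_image.mp hy
    exact hδ i
  choose cP cQ d h1 h2 h3 h4 using fun y : ↥(Finset.univ.image δ) =>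
    exists_diagonalization (blk (lab δ) X y) n hn y.1 (hy0 y) (hpow y)
  refine ⟨cP, cQ, fun i => d (lab δ i) ⟨i, rfl⟩, funext h1, funext h2, ?_, fun i => h4 _ _⟩
  rw [← asm_diagonal, ← asm_mul, ← asm_mul]
  conv_lhs => rw [← hasm]
  congr 1
  funext y
  exact h3 y


/-- The case where `A ^ p = B ^ q` is a diagonal matrix. -/
theorem torus_knot_core (p q : ℕ) (hp : 0 < p) (hq : 0 < q) {N : ℕ} (hN : 0 < N)
    (hdens : ∀ (R : Fin r → Fin r → Bool) (tstar : Fin r ⊕ Fin r → ℂˣ), TEq p q R tstar →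
      ∀ Φ : (Fin r ⊕ Fin r → ℂˣ) → ℂ, IsLaurentMv Φ →
        (∀ t, TEq p q R t → (∀ i, t i ∈ unitGroup N) → Φ t = 0) → Φ tstar = 0)
    (F : MvPolynomial (Fin 2 × Fin r × Fin r) ℂ)
    (Hinv : ∀ A B h : Matrix.SpecialLinearGroup (Fin r) ℂ, A ^ p = B ^ q →
      MvPolynomial.eval (pairPt (h * A * h⁻¹).1 (h * B * h⁻¹).1) F
        = MvPolynomial.eval (pairPt A.1 B.1) F)
    (Hint : ∀ A B : Matrix.SpecialLinearGroup (Fin r) ℂ, A ^ p = B ^ q →
      (∀ i j, A.1 i j ∈ fieldLN N ∧ IsIntegral ℤ (A.1 i j)) →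
      (∀ i j, B.1 i j ∈ fieldLN N ∧ IsIntegral ℤ (B.1 i j)) →
      MvPolynomial.eval (pairPt A.1 B.1) F = 0)
    (A B : Matrix.SpecialLinearGroup (Fin r) ℂ) (hAB : A ^ p = B ^ q) (δ : Fin r → ℂ)
    (hδ : (A ^ p).1 = Matrix.diagonal δ) :
    MvPolynomial.eval (pairPt A.1 B.1) F = 0 := by
  classical
  have hAp : A.1 ^ p = Matrix.diagonal δ := by
    rw [← Matrix.SpecialLinearGroup.coe_pow]
    exact hδ
  have hBq : B.1 ^ q = Matrix.diagonal δ := by
    rw [← Matrix.SpecialLinearGroup.coe_pow, ← hAB]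
    exact hδ
  have hδ0 : ∀ i, δ i ≠ 0 := by
    have hdet : (Matrix.diagonal δ).det = 1 := by
      rw [← hδ]
      exact (A ^ p).2
    rw [Matrix.det_diagonal] at hdet
    intro i h0
    rw [Finset.prod_eq_zero (Finset.mem_univ i) h0] at hdet
    exact zero_ne_one hdet
  obtain ⟨cP, cQ, DA, hPQ, hQP, hA, hDA⟩ := block_diagonalize δ hδ0 A.1 p hp hAp
  obtain ⟨cP', cQ', DB, hPQ', hQP', hB, hDB⟩ := block_diagonalize δ hδ0 B.1 q hq hBq
  have hPQa : asm (lab δ) cP * asm (lab δ) cQ = 1 := by rw [← asm_mul, hPQ, asm_one]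
  have hQPa : asm (lab δ) cQ * asm (lab δ) cP = 1 := by rw [← asm_mul, hQP, asm_one]
  have key := pair_conj_eq p q F Hinv A B hAB (asm (lab δ) cP) (asm (lab δ) cQ) hPQa hQPa
  rw [← key]
  have e1 : asm (lab δ) cQ * A.1 * asm (lab δ) cP = Matrix.diagonal DA := by
    rw [hA]
    calc asm (lab δ) cQ * (asm (lab δ) cP * Matrix.diagonal DA * asm (lab δ) cQ)
          * asm (lab δ) cP
        = (asm (lab δ) cQ * asm (lab δ) cP) * Matrix.diagonal DA
          * (asm (lab δ) cQ * asm (lab δ) cP) := by simp only [Matrix.mul_assoc]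
      _ = Matrix.diagonal DA := by rw [hQPa, Matrix.one_mul, Matrix.mul_one]
  have e2 : asm (lab δ) cQ * B.1 * asm (lab δ) cP
      = asm (lab δ) (cQ * cP') * Matrix.diagonal DB * asm (lab δ) (cQ' * cP) := by
    rw [hB, asm_mul, asm_mul]
    simp only [Matrix.mul_assoc]
  have hCC' : asm (lab δ) (cQ * cP') * asm (lab δ) (cQ' * cP) = 1 := by
    rw [← asm_mul]
    have h1 : cQ * cP' * (cQ' * cP) = 1 := by
      calc cQ * cP' * (cQ' * cP) = cQ * (cP' * cQ') * cP := by simp only [mul_assoc]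
        _ = 1 := by rw [hPQ', mul_one, hQP]
    rw [h1, asm_one]
  have hinv : (asm (lab δ) (cQ * cP'))⁻¹ = asm (lab δ) (cQ' * cP) :=
    Matrix.inv_eq_right_inv hCC'
  have hDA0 : ∀ i, DA i ≠ 0 := fun i h0 => hδ0 i (by rw [← hDA i, h0, zero_pow hp.ne'])
  have hDB0 : ∀ i, DB i ≠ 0 := fun i h0 => hδ0 i (by rw [← hDB i, h0, zero_pow hq.ne'])
  have hdetA : ∏ i, DA i = 1 := by
    rw [← Matrix.det_diagonal, ← e1, Matrix.det_mul, Matrix.det_mul, A.2, mul_one,
      ← Matrix.det_mul, hQPa, Matrix.det_one]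
  have hdetB : ∏ i, DB i = 1 := by
    have h1 : (asm (lab δ) cQ * B.1 * asm (lab δ) cP).det = 1 := by
      rw [Matrix.det_mul, Matrix.det_mul, B.2, mul_one, ← Matrix.det_mul, hQPa,
        Matrix.det_one]
    rw [e2, Matrix.det_mul, Matrix.det_mul, Matrix.det_diagonal, mul_right_comm,
      ← Matrix.det_mul, hCC', Matrix.det_one, one_mul] at h1
    exact h1
  have hstar : TEq p q (fun i j => decide (δ i = δ j))
      (Sum.elim (fun i => Units.mk0 (DA i) (hDA0 i)) (fun i => Units.mk0 (DB i) (hDB0 i))) := by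
    refine ⟨fun i => ?_, fun i j hij => ?_, ?_, ?_⟩
    · apply Units.ext
      simp only [Sum.elim_inl, Sum.elim_inr, Units.val_pow_eq_pow_val, Units.val_mk0]
      rw [hDA, hDB]
    · apply Units.ext
      have h1 : δ i = δ j := of_decide_eq_true hij
      simp only [Sum.elim_inl, Units.val_pow_eq_pow_val, Units.val_mk0]
      rw [hDA, hDA, h1]
    · apply Units.ext
      simp only [Sum.elim_inl, Units.coe_prod, Units.val_mk0, Units.val_one]
      exact hdetA
    · apply Units.ext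
      simp only [Sum.elim_inr, Units.coe_prod, Units.val_mk0, Units.val_one]
      exact hdetB
  have hCmem : asm (lab δ) (cQ * cP') ∈ zcl (intSet N δ) := by
    apply asm_mem (lab δ) (zcl (intSet N δ))
    · apply subset_zcl intSet_det
      have h1 := diagonal_mem_intSet hN δ (fun _ => 1) (fun _ => one_mem _)
      simpa using h1
    · intro x hx y hy
      exact zcl_mul intSet_det intSet_mul hx hy
    · intro d
      exact diagonal_mem_zcl (intSet N δ) (Subgroup.zpowers unitW) infinite_zpowers_unitW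
        (fun d hd => diagonal_mem_intSet hN δ d
          (fun i => zpowers_unitW_le_unitGroup N (hd i))) d
    · intro i j hij hb t
      have hδij : δ i = δ j := congrArg Subtype.val hb
      exact transvection_mem_zcl (intSet N δ) i j hij
        (fun k => transvection_mem_intSet N δ i j hij hδij k) t
    · intro y
      rw [Pi.mul_apply, Matrix.det_mul]
      have h1 : (cQ y).det * (cP y).det = 1 := by
        rw [← Matrix.det_mul, ← Pi.mul_apply, hQP, Pi.one_apply, Matrix.det_one]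
      have h2 : (cP' y).det * (cQ' y).det = 1 := by
        rw [← Matrix.det_mul, ← Pi.mul_apply, hPQ', Pi.one_apply, Matrix.det_one]
      exact mul_ne_zero (left_ne_zero_of_mul_eq_one h1) (left_ne_zero_of_mul_eq_one h2)
  have hfin := diag_pair_vanish p q hN hdens F Hint δ _ hstar _ hCmem
  rw [e1, e2, ← hinv]
  exact hfin

/-- Density of the integral points for the groups `⟨a, b | a ^ p = b ^ q⟩`, on the
representations for which the image of the central element `a ^ p` is diagonalizable. -/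
theorem density_torus_knot (p q r : ℕ) (hp : 0 < p) (hq : 0 < q) :
    ∃ L : IntermediateField ℚ ℂ, FiniteDimensional ℚ L ∧
      ∀ F : MvPolynomial (Fin 2 × Fin r × Fin r) ℂ,
        (∀ A B h : Matrix.SpecialLinearGroup (Fin r) ℂ, A ^ p = B ^ q →
          MvPolynomial.eval (fun x => (![(h * A * h⁻¹).1, (h * B * h⁻¹).1] x.1) x.2.1 x.2.2) F
            = MvPolynomial.eval (fun x => (![A.1, B.1] x.1) x.2.1 x.2.2) F) →
        (∀ A B : Matrix.SpecialLinearGroup (Fin r) ℂ, A ^ p = B ^ q →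
          (∀ i j, A.1 i j ∈ L ∧ IsIntegral ℤ (A.1 i j)) →
          (∀ i j, B.1 i j ∈ L ∧ IsIntegral ℤ (B.1 i j)) →
          MvPolynomial.eval (fun x => (![A.1, B.1] x.1) x.2.1 x.2.2) F = 0) →
        ∀ A B : Matrix.SpecialLinearGroup (Fin r) ℂ, A ^ p = B ^ q →
          (∃ (g : Matrix.SpecialLinearGroup (Fin r) ℂ) (δ : Fin r → ℂ),
            (g * A ^ p * g⁻¹).1 = Matrix.diagonal δ) →
          MvPolynomial.eval (fun x => (![A.1, B.1] x.1) x.2.1 x.2.2) F = 0 := by
  obtain ⟨N, hN, hdens⟩ := torus_density_R p q r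
  refine ⟨fieldLN N, finiteDimensional_fieldLN hN, ?_⟩
  intro F Hinv Hint A B hAB ⟨g, δ, hg⟩
  have hAB' : (g * A * g⁻¹) ^ p = (g * B * g⁻¹) ^ q := by
    rw [conj_pow, conj_pow, hAB]
  have hδ : ((g * A * g⁻¹) ^ p).1 = Matrix.diagonal δ := by
    rw [conj_pow]
    exact hg
  have h1 := torus_knot_core p q hp hq hN hdens F Hinv Hint (g * A * g⁻¹) (g * B * g⁻¹)
    hAB' δ hδ
  have h2 := Hinv A B g hAB
  exact h2.symm.trans h1

end Vale.Agent.Lib.P002

end
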