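import Vale.Agent.Lib.P002.Degen

/-!
# Density of integral points for the groups `⟨a, b | a ^ p = b ^ q⟩`: all representations

The case where the central element acts diagonalizably is extended to all representations by
degenerating a representation to its block diagonal part along kernels of polynomials in the
image of the central element; an invariant polynomial takes the same value on both.
-/

open Polynomial Module

noncomputable section

namespace Vale.Agent.Lib.P002

theorem exists_diagonalization_of_squarefree {κ : Type*} [Fintype κ] [DecidableEq κ]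
    (Xm : Matrix κ κ ℂ) (P : ℂ[X]) (hP : Squarefree P) (hann : aeval Xm P = 0) :
    ∃ (c c' : Matrix κ κ ℂ) (d : κ → ℂ), c * c' = 1 ∧ c' * c = 1 ∧
      Xm = c * Matrix.diagonal d * c' := by
  classical
  let f : Module.End ℂ (κ → ℂ) := Matrix.toLin' Xm
  have haeval : aeval f P = 0 := by
    have h1 : aeval (Matrix.toLinAlgEquiv' Xm) P = Matrix.toLinAlgEquiv' (aeval Xm P) :=
      Polynomial.aeval_algHom_apply (Matrix.toLinAlgEquiv' (R := ℂ) (n := κ)) Xm P
    rw [hann, map_zero] at h1
    exact h1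
  have hss : f.IsSemisimple :=
    Module.End.isSemisimple_of_squarefree_aeval_eq_zero hP haeval
  have htop := hss.iSup_eigenspace_eq_top
  have hind := Module.End.eigenspaces_iSupIndep f
  have hint : DirectSum.IsInternal (fun μ : ℂ => f.eigenspace μ) :=
    DirectSum.isInternal_submodule_of_iSupIndep_of_iSup_eq_top hind htop
  let B := hint.collectedBasis (fun μ => Module.finBasis ℂ (f.eigenspace μ))
  let e := B.indexEquiv (Pi.basisFun ℂ κ)
  let B' : Basis κ ℂ (κ → ℂ) := B.reindex e
  let d : κ → ℂ := fun k => (e.symm k).1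
  have hmem : ∀ k, B' k ∈ f.eigenspace (d k) := by
    intro k
    show B.reindex e k ∈ _
    rw [Basis.reindex_apply]
    exact hint.collectedBasis_mem _ (e.symm k)
  have hev : ∀ k, Xm.mulVec (B' k) = d k • B' k := by
    intro k
    have := Module.End.mem_eigenspace_iff.mp (hmem k)
    simpa [f, Matrix.toLin'_apply] using this
  let c : Matrix κ κ ℂ := (Pi.basisFun ℂ κ).toMatrix B'
  let c' : Matrix κ κ ℂ := B'.toMatrix (Pi.basisFun ℂ κ)
  have hcc' : c * c' = 1 := Basis.toMatrix_mul_toMatrix_flip _ _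
  have hc'c : c' * c = 1 := Basis.toMatrix_mul_toMatrix_flip _ _
  have hcol : ∀ i k, c i k = B' k i := by
    intro i k
    simp [c, Basis.toMatrix_apply]
  have hXc : Xm * c = c * Matrix.diagonal d := by
    ext i k
    rw [Matrix.mul_diagonal, hcol]
    have h1 : (Xm * c) i k = (Xm.mulVec (B' k)) i := by
      simp only [Matrix.mul_apply, Matrix.mulVec, dotProduct, hcol]
    rw [h1, hev]
    show d k * B' k i = B' k i * d k
    exact mul_comm _ _
  refine ⟨c, c', d, hcc', hc'c, ?_⟩
  calc Xm = Xm * (c * c') := by rw [hcc', mul_one]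
    _ = c * Matrix.diagonal d * c' := by rw [← mul_assoc, hXc]

/-- A nonzero complex polynomial which is not squarefree has a double root. -/
theorem exists_double_root (P : ℂ[X]) (hP0 : P ≠ 0) (hsq : ¬ Squarefree P) :
    ∃ (lam : ℂ) (P₂ : ℂ[X]), P = (X - C lam) * ((X - C lam) * P₂) := by
  unfold Squarefree at hsq
  push Not at hsq
  obtain ⟨u, hu, hnu⟩ := hsq
  have hu0 : u ≠ 0 := by
    rintro rfl
    rw [zero_mul] at hu
    exact hP0 (zero_dvd_iff.mp hu)
  have hdeg : u.degree ≠ 0 := by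
    intro h
    exact hnu (Polynomial.isUnit_iff_degree_eq_zero.mpr h)
  obtain ⟨lam, hlam⟩ := IsAlgClosed.exists_root u hdeg
  obtain ⟨v, rfl⟩ := Polynomial.dvd_iff_isRoot.mpr hlam
  obtain ⟨w, rfl⟩ := hu
  exact ⟨lam, v * v * w, by ring⟩


theorem commute_aeval {κ : Type*} [Fintype κ] [DecidableEq κ] (Y Z : Matrix κ κ ℂ)
    (h : Commute Y Z) (R : ℂ[X]) : Commute Y (aeval Z R) := by
  induction R using Polynomial.induction_on' with
  | add P Q hP hQ =>
    rw [map_add]
    exact hP.add_right hQ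
  | monomial n a =>
    rw [Polynomial.aeval_monomial]
    exact (Algebra.commute_algebraMap_right a Y).mul_right (h.pow_right n)

variable {r : ℕ}

/-- A matrix of determinant one as an element of the special linear group. -/
def mkSL (M : Matrix (Fin r) (Fin r) ℂ) (h : M.det = 1) : Matrix.SpecialLinearGroup (Fin r) ℂ :=
  ⟨M, h⟩

/-- All representations: induction on the degree of a polynomial annihilating the image of the
central element. -/
theorem torus_knot_all (p q : ℕ) (hp : 0 < p) (hq : 0 < q) {N : ℕ} (hN : 0 < N)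
    (hdens : ∀ (R : Fin r → Fin r → Bool) (tstar : Fin r ⊕ Fin r → ℂˣ), TEq p q R tstar →
      ∀ Φ : (Fin r ⊕ Fin r → ℂˣ) → ℂ, IsLaurentMv Φ →
        (∀ t, TEq p q R t → (∀ i, t i ∈ unitGroup N) → Φ t = 0) → Φ tstar = 0)
    (F : MvPolynomial (Fin 2 × Fin r × Fin r) ℂ)
    (Hinv : ∀ A B h : Matrix.SpecialLinearGroup (Fin r) ℂ, A ^ p = B ^ q →
      MvPolynomial.eval (pairPt (h * A * h⁻¹).1 (h * B * h⁻¹).1) F
        = MvPolynomial.eval (pairPt A.1 B.1) F)
    (Hint : ∀ A B : Matrix.SpecialLinearGroup (Fin r) ℂ, A ^ p = B ^ q →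
      (∀ i j, A.1 i j ∈ fieldLN N ∧ IsIntegral ℤ (A.1 i j)) →
      (∀ i j, B.1 i j ∈ fieldLN N ∧ IsIntegral ℤ (B.1 i j)) →
      MvPolynomial.eval (pairPt A.1 B.1) F = 0) :
    ∀ (d : ℕ) (P : ℂ[X]), P ≠ 0 → P.natDegree ≤ d →
      ∀ A B : Matrix.SpecialLinearGroup (Fin r) ℂ, A ^ p = B ^ q →
        aeval (A ^ p).1 P = 0 → MvPolynomial.eval (pairPt A.1 B.1) F = 0 := by
  have sqfree_case : ∀ P : ℂ[X], Squarefree P →
      ∀ A B : Matrix.SpecialLinearGroup (Fin r) ℂ, A ^ p = B ^ q →
        aeval (A ^ p).1 P = 0 → MvPolynomial.eval (pairPt A.1 B.1) F = 0 := by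
    intro P hP A B hAB hann
    obtain ⟨c, c', δ, hcc', hc'c, hZ⟩ :=
      exists_diagonalization_of_squarefree (A ^ p).1 P hP hann
    have hdet : c'.det * c.det = 1 := by rw [← Matrix.det_mul, hc'c, Matrix.det_one]
    have hdetA : (c' * A.1 * c).det = 1 := by
      rw [Matrix.det_mul, Matrix.det_mul, A.2, mul_one, hdet]
    have hdetB : (c' * B.1 * c).det = 1 := by
      rw [Matrix.det_mul, Matrix.det_mul, B.2, mul_one, hdet]
    have hABm : A.1 ^ p = B.1 ^ q := by
      rw [← Matrix.SpecialLinearGroup.coe_pow, ← Matrix.SpecialLinearGroup.coe_pow, hAB]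
    have hAB' : (mkSL (c' * A.1 * c) hdetA) ^ p
        = (mkSL (c' * B.1 * c) hdetB) ^ q := by
      apply Subtype.ext
      rw [Matrix.SpecialLinearGroup.coe_pow, Matrix.SpecialLinearGroup.coe_pow]
      show (c' * A.1 * c) ^ p = (c' * B.1 * c) ^ q
      rw [mat_conj_pow _ _ _ hc'c hcc', mat_conj_pow _ _ _ hc'c hcc', hABm]
    have hδ : ((mkSL (c' * A.1 * c) hdetA) ^ p).1
        = Matrix.diagonal δ := by
      rw [Matrix.SpecialLinearGroup.coe_pow]
      show (c' * A.1 * c) ^ p = _
      rw [mat_conj_pow _ _ _ hc'c hcc', ← Matrix.SpecialLinearGroup.coe_pow, hZ]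
      calc c' * (c * Matrix.diagonal δ * c') * c
          = (c' * c) * Matrix.diagonal δ * (c' * c) := by simp only [Matrix.mul_assoc]
        _ = Matrix.diagonal δ := by rw [hc'c, Matrix.one_mul, Matrix.mul_one]
    have h1 := torus_knot_core p q hp hq hN hdens F Hinv Hint _ _ hAB' δ hδ
    have h2 := pair_conj_eq p q F Hinv A B hAB c c' hcc' hc'c
    exact h2.symm.trans h1
  intro d
  induction d with
  | zero =>
    intro P hP0 hdeg A B hAB hann
    apply sqfree_case P _ A B hAB hann
    have h1 : P.natDegree = 0 := Nat.le_zero.mp hdeg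
    have h2 : IsUnit P := by
      rw [Polynomial.eq_C_of_natDegree_eq_zero h1] at hP0 ⊢
      exact Polynomial.isUnit_C.mpr (isUnit_iff_ne_zero.mpr (fun h => hP0 (by rw [h, C_0])))
    exact h2.squarefree
  | succ d ih =>
    intro P hP0 hdeg A B hAB hann
    by_cases hsq : Squarefree P
    · exact sqfree_case P hsq A B hAB hann
    obtain ⟨lam, P₂, hPeq⟩ := exists_double_root P hP0 hsq
    have hP₂0 : P₂ ≠ 0 := by
      rintro rfl
      apply hP0
      rw [hPeq]
      simp
    have hXl : (X - C lam : ℂ[X]) ≠ 0 := Polynomial.X_sub_C_ne_zero lam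
    have hQ0 : (X - C lam) * P₂ ≠ 0 := mul_ne_zero hXl hP₂0
    have hQdeg : ((X - C lam) * P₂).natDegree ≤ d := by
      have h1 : P.natDegree = 1 + ((X - C lam) * P₂).natDegree := by
        rw [hPeq, Polynomial.natDegree_mul hXl hQ0, Polynomial.natDegree_X_sub_C]
      omega
    have hABm : A.1 ^ p = B.1 ^ q := by
      rw [← Matrix.SpecialLinearGroup.coe_pow, ← Matrix.SpecialLinearGroup.coe_pow, hAB]
    have hZA : (A ^ p).1 = A.1 ^ p := Matrix.SpecialLinearGroup.coe_pow A p
    obtain ⟨E, hNE, hEY⟩ := exists_proj (aeval (A ^ p).1 ((X - C lam) * P₂))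
    have hEE : E * E = E := hEY E hNE
    have hsum : E + (1 - E) = 1 := by abel
    have hcommA : Commute A.1 (A ^ p).1 := by
      rw [hZA]
      exact (Commute.refl A.1).pow_right p
    have hcommB : Commute B.1 (A ^ p).1 := by
      rw [hZA, hABm]
      exact (Commute.refl B.1).pow_right q
    have hAN := commute_aeval A.1 (A ^ p).1 hcommA ((X - C lam) * P₂)
    have hBN := commute_aeval B.1 (A ^ p).1 hcommB ((X - C lam) * P₂)
    have hXA : (1 - E) * A.1 * E = 0 := by
      have h1 : aeval (A ^ p).1 ((X - C lam) * P₂) * (A.1 * E) = 0 := by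
        rw [← Matrix.mul_assoc, ← hAN.eq, Matrix.mul_assoc, hNE, Matrix.mul_zero]
      have h2 := hEY _ h1
      rw [Matrix.sub_mul, Matrix.sub_mul, Matrix.one_mul, Matrix.mul_assoc E, h2, sub_self]
    have hXB : (1 - E) * B.1 * E = 0 := by
      have h1 : aeval (A ^ p).1 ((X - C lam) * P₂) * (B.1 * E) = 0 := by
        rw [← Matrix.mul_assoc, ← hBN.eq, Matrix.mul_assoc, hNE, Matrix.mul_zero]
      have h2 := hEY _ h1
      rw [Matrix.sub_mul, Matrix.sub_mul, Matrix.one_mul, Matrix.mul_assoc E, h2, sub_self]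
    have hE'N : (1 - E) * aeval (A ^ p).1 ((X - C lam) * P₂) = 0 := by
      have h1 : aeval (A ^ p).1 ((X - C lam) * P₂) * aeval (A ^ p).1 (X - C lam) = 0 := by
        rw [← map_mul, show (X - C lam) * P₂ * (X - C lam) = P from by rw [hPeq]; ring]
        exact hann
      have h2 := hEY _ h1
      have h3 : aeval (A ^ p).1 ((X - C lam) * P₂)
          = aeval (A ^ p).1 (X - C lam) * aeval (A ^ p).1 P₂ := by
        rw [map_mul]
      rw [h3, ← Matrix.mul_assoc, Matrix.sub_mul, Matrix.one_mul, h2, sub_self,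
        Matrix.zero_mul]
    have hdetA : (gr E (1 - E) A.1).det = 1 := by
      have hpoly := isPolyFun_det (fun s => fam E (1 - E) A.1 s)
        (fun i j => isPolyFun_fam E (1 - E) A.1 i j)
      have h1 : (fam E (1 - E) A.1 0).det = 1 :=
        hpoly.eq_of_eq_on_ne_zero 1 (fun s hs => by
          show (fam E (1 - E) A.1 s).det = 1
          rw [← fam_eq_conj hsum hEE hXA s s⁻¹ (inv_mul_cancel₀ hs), Matrix.det_mul,
            Matrix.det_mul, A.2, mul_one, ← Matrix.det_mul,
            conj_mul_conj hsum hEE s⁻¹ s (inv_mul_cancel₀ hs), Matrix.det_one])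
      rw [fam_zero] at h1
      exact h1
    have hdetB : (gr E (1 - E) B.1).det = 1 := by
      have hpoly := isPolyFun_det (fun s => fam E (1 - E) B.1 s)
        (fun i j => isPolyFun_fam E (1 - E) B.1 i j)
      have h1 : (fam E (1 - E) B.1 0).det = 1 :=
        hpoly.eq_of_eq_on_ne_zero 1 (fun s hs => by
          show (fam E (1 - E) B.1 s).det = 1
          rw [← fam_eq_conj hsum hEE hXB s s⁻¹ (inv_mul_cancel₀ hs), Matrix.det_mul,
            Matrix.det_mul, B.2, mul_one, ← Matrix.det_mul,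
            conj_mul_conj hsum hEE s⁻¹ s (inv_mul_cancel₀ hs), Matrix.det_one])
      rw [fam_zero] at h1
      exact h1
    have hpowA : gr E (1 - E) A.1 ^ p = gr E (1 - E) (A ^ p).1 := by
      rw [← gr_pow hsum hEE hXA, ← hZA]
    have hpowB : gr E (1 - E) B.1 ^ q = gr E (1 - E) (A ^ p).1 := by
      rw [← gr_pow hsum hEE hXB, ← hABm, ← hZA]
    have hAB₀ : (mkSL (gr E (1 - E) A.1) hdetA) ^ p
        = (mkSL (gr E (1 - E) B.1) hdetB) ^ q := by
      apply Subtype.ext
      rw [Matrix.SpecialLinearGroup.coe_pow, Matrix.SpecialLinearGroup.coe_pow]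
      show gr E (1 - E) A.1 ^ p = gr E (1 - E) B.1 ^ q
      rw [hpowA, hpowB]
    have hXZ : (1 - E) * (A ^ p).1 * E = 0 := by
      rw [hZA]
      exact inv_pow hsum hEE hXA p
    have hann₀ : aeval ((mkSL (gr E (1 - E) A.1) hdetA) ^ p).1 ((X - C lam) * P₂) = 0 := by
      rw [Matrix.SpecialLinearGroup.coe_pow]
      show aeval (gr E (1 - E) A.1 ^ p) ((X - C lam) * P₂) = 0
      rw [hpowA, gr_aeval hsum hEE hXZ]
      unfold gr
      rw [Matrix.mul_assoc E, hNE, Matrix.mul_zero, hE'N, Matrix.zero_mul, add_zero]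
    have h0 := ih _ hQ0 hQdeg _ _ hAB₀ hann₀
    have hpoly : IsPolyFun (fun s => MvPolynomial.eval
        (pairPt (fam E (1 - E) A.1 s) (fam E (1 - E) B.1 s)) F) := by
      apply IsPolyFun.eval_mvPolynomial
      rintro ⟨a, i, j⟩
      fin_cases a
      · exact isPolyFun_fam E (1 - E) A.1 i j
      · exact isPolyFun_fam E (1 - E) B.1 i j
    have hconst : ∀ s : ℂ, s ≠ 0 → MvPolynomial.eval
        (pairPt (fam E (1 - E) A.1 s) (fam E (1 - E) B.1 s)) F
          = MvPolynomial.eval (pairPt A.1 B.1) F := by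
      intro s hs
      rw [← fam_eq_conj hsum hEE hXA s s⁻¹ (inv_mul_cancel₀ hs),
        ← fam_eq_conj hsum hEE hXB s s⁻¹ (inv_mul_cancel₀ hs)]
      exact pair_conj_eq p q F Hinv A B hAB (E + s • (1 - E)) (E + s⁻¹ • (1 - E))
        (conj_mul_conj hsum hEE s s⁻¹ (mul_inv_cancel₀ hs))
        (conj_mul_conj hsum hEE s⁻¹ s (inv_mul_cancel₀ hs))
    have h1 : MvPolynomial.eval
        (pairPt (fam E (1 - E) A.1 0) (fam E (1 - E) B.1 0)) F
          = MvPolynomial.eval (pairPt A.1 B.1) F :=
      hpoly.eq_of_eq_on_ne_zero _ hconst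
    rw [fam_zero, fam_zero] at h1
    rw [← h1]
    exact h0

/-- Density of the integral points for the groups `⟨a, b | a ^ p = b ^ q⟩`: a polynomial which is
invariant under conjugation and vanishes at the integral representations vanishes at all
representations. -/
theorem density_torus_knot_all (p q r : ℕ) (hp : 0 < p) (hq : 0 < q) :
    ∃ L : IntermediateField ℚ ℂ, FiniteDimensional ℚ L ∧
      ∀ F : MvPolynomial (Fin 2 × Fin r × Fin r) ℂ,
        (∀ A B h : Matrix.SpecialLinearGroup (Fin r) ℂ, A ^ p = B ^ q →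
          MvPolynomial.eval (fun x => (![(h * A * h⁻¹).1, (h * B * h⁻¹).1] x.1) x.2.1 x.2.2) F
            = MvPolynomial.eval (fun x => (![A.1, B.1] x.1) x.2.1 x.2.2) F) →
        (∀ A B : Matrix.SpecialLinearGroup (Fin r) ℂ, A ^ p = B ^ q →
          (∀ i j, A.1 i j ∈ L ∧ IsIntegral ℤ (A.1 i j)) →
          (∀ i j, B.1 i j ∈ L ∧ IsIntegral ℤ (B.1 i j)) →
          MvPolynomial.eval (fun x => (![A.1, B.1] x.1) x.2.1 x.2.2) F = 0) →
        ∀ A B : Matrix.SpecialLinearGroup (Fin r) ℂ, A ^ p = B ^ q →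
          MvPolynomial.eval (fun x => (![A.1, B.1] x.1) x.2.1 x.2.2) F = 0 := by
  obtain ⟨N, hN, hdens⟩ := torus_density_R p q r
  refine ⟨fieldLN N, finiteDimensional_fieldLN hN, ?_⟩
  intro F Hinv Hint A B hAB
  exact torus_knot_all p q hp hq hN hdens F Hinv Hint _ ((A ^ p).1.charpoly)
    (Matrix.charpoly_monic _).ne_zero le_rfl A B hAB (Matrix.aeval_self_charpoly _)

end Vale.Agent.Lib.P002

end
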